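import Crest.Agent.TRem.HDefs

/-!
# Row 30, part B3: shared definitions (s-coordinate)

`t = tt D s = (e^{2s}-1)/(2D)`, `dt = e^{2s} ds / D`; `ms d true = β_d = e^s b_d`,
`ms d false = α_d = e^s a_d`.
-/

namespace Crest.Agent.TRem

open Finset MeasureTheory

variable {ι τ : Type} [DecidableEq ι] [DecidableEq τ]

/-- time as a function of `s`. -/
noncomputable def tt (D s : ℝ) : ℝ := (Real.exp (2 * s) - 1) / (2 * D)

/-- rescaled message in the s-coordinate (`c = true`: upper `β`, `c = false`: lower `α`). -/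
noncomputable def ms (𝒯 : Finset τ) (tri : τ → Finset ι) (D : ℝ) (d : ℕ) (c : Bool) (f : ι)
    (x : Option τ) (s : ℝ) : ℝ := Real.exp s * hh 𝒯 tri d c f x (tt D s)

/-- relative degree deviation `r_f = y_f/D - 1`. -/
noncomputable def re (𝒯 : Finset τ) (tri : τ → Finset ι) (D : ℝ) (f : ι) : ℝ := dg 𝒯 tri f / D - 1

/-- end of the first stretch: `e^{2 s₃} = D/L^20`. -/
noncomputable def s3 (D L : ℝ) : ℝ := Real.log (D / L ^ 20) / 2

/-- the final value of `s`: `tt D (SS D) = 1`. -/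
noncomputable def SS (D : ℝ) : ℝ := Real.log (1 + 2 * D) / 2

/-- front weight `W_d(s) = e^{-(d-20s)}`. -/
noncomputable def Wf (d : ℕ) (s : ℝ) : ℝ := Real.exp (-(d - 20 * s))

/-- `ω(s) = 2 (L^8/D) e^{2(1+1/log D)s}`. -/
noncomputable def om (D L s : ℝ) : ℝ := 2 * (L ^ 8 / D) * Real.exp (2 * (1 + 1 / Real.log D) * s)

/-- the hypotheses of part B3. -/
structure BH (𝒯 : Finset τ) (tri : τ → Finset ι) (A₀ : Finset ι) (D L : ℝ) : Prop where
  h3 : ∀ t ∈ 𝒯, (tri t).card = 3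
  hA : ∀ t ∈ 𝒯, tri t ⊆ A₀
  L6 : (10:ℝ) ^ 6 ≤ L
  logD : Real.log D ≤ L
  hD : L ^ 1000 ≤ D
  deg : ∀ e ∈ A₀, |re 𝒯 tri D e| ≤ 3 * L / Real.sqrt D
  cor : ∀ e ∈ A₀, |∑ t ∈ 𝒯.filter (fun t => e ∈ tri t), ∑ g ∈ (tri t).erase e, re 𝒯 tri D g| ≤ L ^ 5

end Crest.Agent.TRem
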