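import Crest.Agent.TRem.B3s4a
import Crest.Agent.TRem.B3Defs

/-!
# Row 30, B3 Step 4, part n: the number of levels

Proof. `SS D - s3 D L = ½ log((1+2D) L^20/D) ≤ 10 log L + ½ log 3`, so `20 (SS D - s3) ≤ 200 log L + 11`
and `log L ≥ 13`. `J := ⌈202 log L⌉₊ ≤ 203 log L`. `Wg s3 J SS = exp(-(J - 20(SS-s3))) ≤ exp(-log L)`.
`2200 (3 L^10)^2 L^2 = 19800 L^22 ≤ L^23`; `(L^23)^J L^8 L^2 ≤ D` because
`(23 · 203 log L + 10) log L ≤ 4680 (log L)^2 ≤ log D`.
-/

namespace Crest.Agent.TRem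

open Finset MeasureTheory

theorem num_J {D L : ℝ} (hL : (10:ℝ) ^ 6 ≤ L) (hC : 10000 * Real.log L ^ 2 ≤ Real.log D)
    (hD : 1 ≤ D) :
    ∃ J : ℕ, SS D ≤ s3 D L + (J : ℝ) / 20 ∧ Wg (s3 D L) J (SS D) ≤ 1 / L ∧
      (J : ℝ) ≤ 1 / 4 * Real.log D ∧
      (2200 * (3 * L ^ 10) ^ 2 * L ^ 2) ^ J * (L ^ 8 / D) ≤ 1 / L ^ 2 := by
  have hL0 : 0 < L := lt_of_lt_of_le (by norm_num) hL
  have hD0 : 0 < D := by linarith
  have h13 : 13 ≤ Real.log L := by
    have h1 : Real.log ((10:ℝ) ^ 6) ≤ Real.log L := Real.log_le_log (by norm_num) hL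
    rw [Real.log_pow] at h1
    have h2 : Real.log 10 = Real.log 2 + Real.log 5 := by
      rw [← Real.log_mul (by norm_num) (by norm_num)]; norm_num
    have h3 : Real.log 4 ≤ Real.log 5 := Real.log_le_log (by norm_num) (by norm_num)
    have h4 : Real.log 4 = 2 * Real.log 2 := by
      rw [show (4:ℝ) = 2 ^ 2 by norm_num, Real.log_pow]; norm_num
    have h5 := Real.log_two_gt_d9
    have h6 : Real.log 5 = Real.log 4 + Real.log (5 / 4) := by
      rw [← Real.log_mul (by norm_num) (by norm_num)]; norm_num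
    have h7 : 1 - (5 / 4 : ℝ)⁻¹ ≤ Real.log (5 / 4) := Real.one_sub_inv_le_log_of_pos (by norm_num)
    norm_num at h1 h7
    linarith
  have hlog3 : Real.log 3 ≤ 12 / 10 := by
    have h1 : Real.log ((3:ℝ) ^ 5) ≤ Real.log ((2:ℝ) ^ 8) :=
      Real.log_le_log (by norm_num) (by norm_num)
    rw [Real.log_pow, Real.log_pow] at h1
    have h6 := Real.log_two_lt_d9
    norm_num at h1
    linarith
  -- the difference
  have hdiff : SS D - s3 D L ≤ 10 * Real.log L + 12 / 20 := by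
    unfold SS s3
    rw [Real.log_div (by positivity) (by positivity), Real.log_pow]
    have h1 : Real.log (1 + 2 * D) ≤ Real.log (3 * D) :=
      Real.log_le_log (by positivity) (by linarith)
    rw [Real.log_mul (by norm_num) (by positivity)] at h1
    push_cast
    linarith
  set J : ℕ := ⌈202 * Real.log L⌉₊ with hJ
  have hJ1 : 202 * Real.log L ≤ J := Nat.le_ceil _
  have hJ2 : (J : ℝ) ≤ 203 * Real.log L := by
    have := (Nat.ceil_lt_add_one (by positivity : (0:ℝ) ≤ 202 * Real.log L)).le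
    rw [← hJ] at this
    linarith
  refine ⟨J, ?_, ?_, ?_, ?_⟩
  · linarith
  · have h1 : (1:ℝ) / L = Real.exp (-Real.log L) := by
      rw [Real.exp_neg, Real.exp_log hL0, one_div]
    rw [h1]
    unfold Wg
    apply Real.exp_le_exp.2
    linarith
  · nlinarith
  · have h0 : 2200 * (3 * L ^ 10) ^ 2 * L ^ 2 ≤ L ^ 23 := by
      have h1 : 2200 * (3 * L ^ 10) ^ 2 * L ^ 2 = 19800 * L ^ 22 := by ring
      have h2 : L ^ 23 = L * L ^ 22 := by ring
      rw [h1, h2]
      exact mul_le_mul_of_nonneg_right (by linarith) (by positivity)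
    have h1 : (2200 * (3 * L ^ 10) ^ 2 * L ^ 2) ^ J ≤ (L ^ 23) ^ J :=
      pow_le_pow_left₀ (by positivity) h0 J
    have h2 : (L ^ 23) ^ J * L ^ 8 * L ^ 2 ≤ D := by
      rw [← Real.log_le_log_iff (by positivity) hD0]
      have e : (L ^ 23) ^ J * L ^ 8 * L ^ 2 = L ^ (23 * J + 10) := by
        rw [← pow_mul, ← pow_add, ← pow_add]
      rw [e, Real.log_pow]
      push_cast
      have hlp : 0 ≤ Real.log L := by linarith
      calc (23 * (J : ℝ) + 10) * Real.log L ≤ (10000 * Real.log L) * Real.log L := by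
            apply mul_le_mul_of_nonneg_right _ hlp
            linarith
        _ = 10000 * Real.log L ^ 2 := by ring
        _ ≤ _ := hC
    calc (2200 * (3 * L ^ 10) ^ 2 * L ^ 2) ^ J * (L ^ 8 / D)
        ≤ (L ^ 23) ^ J * (L ^ 8 / D) := mul_le_mul_of_nonneg_right h1 (by positivity)
      _ ≤ 1 / L ^ 2 := by
          rw [le_div_iff₀ (by positivity)]
          calc (L ^ 23) ^ J * (L ^ 8 / D) * L ^ 2 = ((L ^ 23) ^ J * L ^ 8 * L ^ 2) / D := by ring
            _ ≤ 1 := by rw [div_le_one hD0]; exact h2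

end Crest.Agent.TRem
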