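import Crest.Agent.TRem.B3s4g

/-!
# Row 30, B3 Step 4, part r: root averages

Proof. `e^{SS D} hh(1) = ms(SS D)` (`tt_SS`), `exp (SS D) = √(1+2D)`.
`δ := 1/L^400` (`BH.re_le`, `BH.dg_eq`): `D(1-δ) ≤ dg e ≤ D(1+δ)` on `A₀`.
Upper: `ms(none) ≤ ms(some T)` (`ms_none_some`, `XX4_bd`), so
`∑_{e∈A₀} ms(e,none) ≤ (1/(D(1-δ))) ∑_{e∈A₀} dg e ms(e,none) = (1/(D(1-δ))) ∑_T ∑_{f∈tri T} ms(f,none)
≤ (1/(D(1-δ))) 3|𝒯| (1+v)`, and `3|𝒯| = ∑_{e∈A₀} dg e ≤ D(1+δ) A₀.card` (`sum_msg_eq` with `φ = 1`).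
`(1+δ)/(1-δ) (1+v) ≤ 1 + v + 3δ(1+v) ≤ 1 + v + 1/L`.
Lower: `ms(none) ≥ ms(some T) (1 - 1/L^900)`, the same computation.
-/

namespace Crest.Agent.TRem

open Finset MeasureTheory

variable {ι τ : Type} [DecidableEq ι] [DecidableEq τ] {𝒯 : Finset τ} {tri : τ → Finset ι}
  {A₀ : Finset ι} {D L : ℝ}

private theorem hh_one_eq (hD : 0 < D) (d : ℕ) (c : Bool) (e : ι) :
    hh 𝒯 tri d c e none 1 = ms 𝒯 tri D d c e none (SS D) / Real.sqrt (1 + 2 * D) := by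
  unfold ms
  rw [tt_SS hD]
  have h1 : Real.exp (SS D) = Real.sqrt (1 + 2 * D) := by
    unfold SS
    have h2 : 0 < 1 + 2 * D := by linarith
    rw [Real.exp_half, Real.exp_log h2]
  rw [h1]
  have h3 : Real.sqrt (1 + 2 * D) ≠ 0 := (Real.sqrt_pos.2 (by linarith)).ne'
  field_simp

private theorem delta_small (h : BH 𝒯 tri A₀ D L) :
    0 < 1 / L ^ 400 ∧ 6 * (1 / L ^ 400) ≤ 1 / L ∧ 1 / L ^ 400 ≤ 1 / 100 := by
  have hL := h.L_pos
  have hL6 := h.L6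
  have hL1 : 1 ≤ L := le_trans (by norm_num) hL6
  have h2 : L ^ 2 ≤ L ^ 400 := pow_le_pow_right₀ hL1 (by norm_num)
  refine ⟨by positivity, ?_, ?_⟩
  · rw [mul_one_div, div_le_div_iff₀ (pow_pos hL 400) hL]
    have h3 : 6 * L ≤ L * L := by
      have : (6:ℝ) ≤ L := le_trans (by norm_num) hL6
      gcongr
    have h4 : L * L = L ^ 2 := by ring
    linarith
  · apply one_div_le_one_div_of_le (by norm_num)
    have h3 : (100:ℝ) ≤ L := le_trans (by norm_num) hL6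
    nlinarith

private theorem dg_ge (h : BH 𝒯 tri A₀ D L) {e : ι} (he : e ∈ A₀) :
    D * (1 - 1 / L ^ 400) ≤ dg 𝒯 tri e := by
  rw [h.dg_eq]
  have h1 := (abs_le.1 (h.re_le he)).1
  exact mul_le_mul_of_nonneg_left (by linarith) h.D_pos.le

private theorem three_card (h : BH 𝒯 tri A₀ D L) :
    (3 * 𝒯.card : ℝ) = ∑ f ∈ A₀, dg 𝒯 tri f := by
  have h1 := sum_msg_eq h (fun _ => (1:ℝ))
  simp only [mul_one, Finset.sum_const, nsmul_eq_mul] at h1
  rw [← h1, Finset.sum_congr rfl (fun T hT => by rw [h.h3 T hT]), Finset.sum_const, nsmul_eq_mul]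
  push_cast
  ring

theorem root_avg_up (h : BH 𝒯 tri A₀ D L) {d : ℕ} (hd : 20 * s3 D L + 20 * Real.log D ≤ d) {v : ℝ}
    (hv0 : 0 ≤ v) (hv1 : v ≤ 1)
    (hU : ∑ T ∈ 𝒯, ∑ f ∈ tri T, ms 𝒯 tri D (d + 1) true f (some T) (SS D) ≤
      3 * 𝒯.card * (1 + v)) :
    ∑ e ∈ A₀, hh 𝒯 tri (d + 1) true e none 1 ≤
      (1 + v + 1 / L) * A₀.card / Real.sqrt (1 + 2 * D) := by
  have hD := h.D_pos
  have hS0 : 0 ≤ SS D := le_trans h.s3_pos.le h.s3_le_SS
  obtain ⟨hδ0, hδ1, hδ2⟩ := delta_small h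
  set δ := 1 / L ^ 400 with hδ
  rw [Finset.sum_congr rfl (fun e _ => hh_one_eq hD (d + 1) true e), ← Finset.sum_div]
  apply div_le_div_of_nonneg_right _ (Real.sqrt_nonneg _)
  set P : ι → ℝ := fun e => ms 𝒯 tri D (d + 1) true e none (SS D) with hP
  have hP0 : ∀ e, 0 ≤ P e := fun e => ms_nonneg 𝒯 tri hD (d + 1) true e none hS0 le_rfl
  have e1 : ∑ T ∈ 𝒯, ∑ f ∈ tri T, P f ≤ 3 * 𝒯.card * (1 + v) := by
    refine le_trans (Finset.sum_le_sum fun T hT => Finset.sum_le_sum fun f hf => ?_) hU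
    have h1 := ms_none_some h d true hT hf (SS D)
    have h2 := XX4_bd h hd (!true) hT hf hS0 le_rfl
    have h3 := ms_nonneg 𝒯 tri hD (d + 1) true f (some T) hS0 le_rfl
    rw [hP]
    simp only
    rw [h1]
    nlinarith [mul_nonneg h3 h2.1]
  rw [sum_msg_eq h P] at e1
  have e2 : D * (1 - δ) * ∑ e ∈ A₀, P e ≤ ∑ f ∈ A₀, dg 𝒯 tri f * P f := by
    rw [Finset.mul_sum]
    exact Finset.sum_le_sum fun e he => mul_le_mul_of_nonneg_right (dg_ge h he) (hP0 e)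
  have e3 : (3 * 𝒯.card : ℝ) ≤ D * (1 + δ) * A₀.card := by
    rw [three_card h]
    calc ∑ f ∈ A₀, dg 𝒯 tri f ≤ ∑ _f ∈ A₀, D * (1 + δ) :=
          Finset.sum_le_sum fun e he => h.dg_le he
      _ = D * (1 + δ) * A₀.card := by rw [Finset.sum_const, nsmul_eq_mul]; ring
  have e4 : D * (1 - δ) * ∑ e ∈ A₀, P e ≤ D * (1 + δ) * A₀.card * (1 + v) := by
    refine le_trans e2 (le_trans e1 ?_)
    exact mul_le_mul_of_nonneg_right e3 (by linarith)
  have hc : (0:ℝ) ≤ A₀.card := by positivity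
  have e5 : D * (1 + δ) * A₀.card * (1 + v) ≤ D * (1 - δ) * ((1 + v + 1 / L) * A₀.card) := by
    have h1 : (1 + δ) * (1 + v) ≤ (1 - δ) * (1 + v + 1 / L) := by
      nlinarith
    have h2 : 0 ≤ D * A₀.card := by positivity
    have h3 := mul_le_mul_of_nonneg_left h1 h2
    nlinarith
  have h6 : 0 < D * (1 - δ) := mul_pos hD (by linarith)
  exact le_of_mul_le_mul_left (le_trans e4 e5) h6

theorem root_avg_lo (h : BH 𝒯 tri A₀ D L) {d : ℕ} (hd : 20 * s3 D L + 20 * Real.log D ≤ d) {v : ℝ}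
    (hv0 : 0 ≤ v) (hv1 : v ≤ 1)
    (hL : 3 * 𝒯.card * (1 - v) ≤
      ∑ T ∈ 𝒯, ∑ f ∈ tri T, ms 𝒯 tri D (d + 1) false f (some T) (SS D)) :
    (1 - v - 1 / L) * A₀.card / Real.sqrt (1 + 2 * D) ≤
      ∑ e ∈ A₀, hh 𝒯 tri (d + 1) false e none 1 := by
  have hD := h.D_pos
  have hLp := h.L_pos
  have hS0 : 0 ≤ SS D := le_trans h.s3_pos.le h.s3_le_SS
  obtain ⟨hδ0, hδ1, hδ2⟩ := delta_small h
  have hL1 : 1 ≤ L := le_trans (by norm_num) h.L6
  have hεδ : 1 / L ^ 900 ≤ 1 / L ^ 400 := by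
    apply one_div_le_one_div_of_le (pow_pos hLp 400)
    exact pow_le_pow_right₀ hL1 (by norm_num)
  set δ := 1 / L ^ 400 with hδ
  set ε := 1 / L ^ 900 with hε
  rw [Finset.sum_congr rfl (fun e _ => hh_one_eq hD (d + 1) false e), ← Finset.sum_div]
  apply div_le_div_of_nonneg_right _ (Real.sqrt_nonneg _)
  set P : ι → ℝ := fun e => ms 𝒯 tri D (d + 1) false e none (SS D) with hP
  have hP0 : ∀ e, 0 ≤ P e := fun e => ms_nonneg 𝒯 tri hD (d + 1) false e none hS0 le_rfl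
  have e1 : (1 - δ) * (3 * 𝒯.card * (1 - v)) ≤ ∑ T ∈ 𝒯, ∑ f ∈ tri T, P f := by
    refine le_trans (mul_le_mul_of_nonneg_left hL (by linarith)) ?_
    rw [Finset.mul_sum]
    refine Finset.sum_le_sum fun T hT => ?_
    rw [Finset.mul_sum]
    refine Finset.sum_le_sum fun f hf => ?_
    have h1 := ms_none_some h d false hT hf (SS D)
    have h2 := XX4_bd h hd (!false) hT hf hS0 le_rfl
    have h3 := ms_nonneg 𝒯 tri hD (d + 1) false f (some T) hS0 le_rfl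
    have h4 := h.X_small
    rw [hP]
    simp only
    rw [h1]
    have h5 : XX4 𝒯 tri D d (!false) f T (SS D) ≤ δ := le_trans h2.2 (le_trans h4 hεδ)
    rw [mul_comm]
    exact mul_le_mul_of_nonneg_left (by linarith) h3
  rw [sum_msg_eq h P] at e1
  have e2 : ∑ f ∈ A₀, dg 𝒯 tri f * P f ≤ D * (1 + δ) * ∑ e ∈ A₀, P e := by
    rw [Finset.mul_sum]
    exact Finset.sum_le_sum fun e he => mul_le_mul_of_nonneg_right (h.dg_le he) (hP0 e)
  have e3 : D * (1 - δ) * A₀.card ≤ (3 * 𝒯.card : ℝ) := by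
    rw [three_card h]
    calc D * (1 - δ) * A₀.card = ∑ _f ∈ A₀, D * (1 - δ) := by
          rw [Finset.sum_const, nsmul_eq_mul]; ring
      _ ≤ ∑ f ∈ A₀, dg 𝒯 tri f := Finset.sum_le_sum fun e he => dg_ge h he
  have hc : (0:ℝ) ≤ A₀.card := by positivity
  have e4 : (1 - δ) * (D * (1 - δ) * A₀.card * (1 - v)) ≤ D * (1 + δ) * ∑ e ∈ A₀, P e := by
    refine le_trans ?_ (le_trans e1 e2)
    apply mul_le_mul_of_nonneg_left _ (by linarith)
    exact mul_le_mul_of_nonneg_right e3 (by linarith)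
  have e5 : D * (1 + δ) * ((1 - v - 1 / L) * A₀.card) ≤
      (1 - δ) * (D * (1 - δ) * A₀.card * (1 - v)) := by
    have h1 : (1 + δ) * (1 - v - 1 / L) ≤ (1 - δ) * (1 - δ) * (1 - v) := by
      have h2 : (1 - δ) * (1 - δ) * (1 - v) = (1 - v) - (2 * δ - δ * δ) * (1 - v) := by ring
      have h3 : (1 + δ) * (1 - v - 1 / L) = (1 - v) + δ * (1 - v) - (1 + δ) * (1 / L) := by ring
      rw [h2, h3]
      have h4 : 0 < 1 / L := by positivity
      nlinarith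
    have h2 : 0 ≤ D * A₀.card := by positivity
    have h3 := mul_le_mul_of_nonneg_left h1 h2
    nlinarith
  have h6 : 0 < D * (1 + δ) := mul_pos hD (by linarith)
  exact le_of_mul_le_mul_left (le_trans e5 e4) h6

end Crest.Agent.TRem
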