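import Crest.Agent.TRem.HDefs

/-! # Row 30: interface statement of part B3 (to be replaced by the proof of helper66's files) -/

namespace Crest.Agent.TRem

open MeasureTheory Finset

/-- the statement of part B3. -/
def B3Statement : Prop := ∃ C₀ : ℝ, ∀ (D L : ℝ), 1 ≤ D → C₀ ≤ L → Real.log D ≤ L →
    C₀ * (Real.log L) ^ 2 ≤ Real.log D →
    ∃ d : ℕ, (d : ℝ) ≤ 31 * Real.log D ∧
      ∀ (ι τ : Type) [DecidableEq ι] [DecidableEq τ] (𝒯 : Finset τ) (tri : τ → Finset ι)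
        (A₀ : Finset ι), (∀ t ∈ 𝒯, (tri t).card = 3) → (∀ t ∈ 𝒯, tri t ⊆ A₀) →
        (∀ e ∈ A₀, |dg 𝒯 tri e / D - 1| ≤ 3 * L / Real.sqrt D) →
        (∀ e ∈ A₀, |∑ t ∈ 𝒯.filter (fun t => e ∈ tri t),
          ∑ g ∈ (tri t).erase e, (dg 𝒯 tri g / D - 1)| ≤ L ^ 5) →
        (∑ e ∈ A₀, hh 𝒯 tri d true e none 1) ≤ (1 + 10 / L) * A₀.card / Real.sqrt (1 + 2 * D) ∧
        (1 - 10 / L) * A₀.card / Real.sqrt (1 + 2 * D) ≤ ∑ e ∈ A₀, hh 𝒯 tri d false e none 1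

end Crest.Agent.TRem
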