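import Crest.Agent.TRem.B3s4e
import Crest.Agent.TRem.B3s4n
import Crest.Agent.TRem.B3s4r
import Crest.Agent.TRem.IB3

/-!
# Row 30, B3 Step 4, part z: conclusion of Step 4 and of part B3
-/

namespace Crest.Agent.TRem

open Finset MeasureTheory

section one

variable {ι τ : Type} [DecidableEq ι] [DecidableEq τ] {𝒯 : Finset τ} {tri : τ → Finset ι}
  {A₀ : Finset ι} {D L : ℝ}

/-- `ℓ²` small implies `ℓ¹` small. -/
theorem sum_le_of_QQm (h3 : ∀ t ∈ 𝒯, (tri t).card = 3) (u : ι → τ → ℝ) (hL : 0 < L)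
    (hu : QQm 𝒯 tri u ≤ 3 * 𝒯.card * (1 / L ^ 2)) :
    ∑ T ∈ 𝒯, ∑ f ∈ tri T, u f T ≤ 3 * 𝒯.card * (1 / L) := by
  have h1 : ∑ T ∈ 𝒯, ∑ f ∈ tri T, u f T ≤ ∑ T ∈ 𝒯, ∑ f ∈ tri T, (1 / (2 * L) + L / 2 * u f T ^ 2) := by
    refine Finset.sum_le_sum (fun T _ => Finset.sum_le_sum (fun f _ => ?_))
    have : 0 ≤ (1 / L - u f T) ^ 2 * (L / 2) := by positivity
    have e : (1 / L - u f T) ^ 2 * (L / 2) = 1 / (2 * L) + L / 2 * u f T ^ 2 - u f T := by
      field_simp; ring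
    linarith
  have h2 : ∑ T ∈ 𝒯, ∑ f ∈ tri T, (1 / (2 * L) + L / 2 * u f T ^ 2) =
      3 * 𝒯.card * (1 / (2 * L)) + L / 2 * QQm 𝒯 tri u := by
    simp_rw [Finset.sum_add_distrib, ← Finset.mul_sum]
    congr 1
    rw [Finset.sum_congr rfl (g := fun _ => 3 * (1 / (2 * L))) (fun T hT => by
      rw [Finset.sum_const, h3 T hT, nsmul_eq_mul]; norm_num)]
    rw [Finset.sum_const, nsmul_eq_mul]; ring
  have h4 := mul_le_mul_of_nonneg_left hu (by positivity : (0:ℝ) ≤ L / 2)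
  have e2 : L / 2 * (3 * 𝒯.card * (1 / L ^ 2)) = 3 * 𝒯.card * (1 / (2 * L)) := by
    field_simp
  have e3 : 3 * (𝒯.card : ℝ) * (1 / (2 * L)) + 3 * 𝒯.card * (1 / (2 * L)) =
      3 * 𝒯.card * (1 / L) := by field_simp; ring
  linarith

theorem sum_const4 (h3 : ∀ t ∈ 𝒯, (tri t).card = 3) (c : ℝ) :
    ∑ T ∈ 𝒯, ∑ _f ∈ tri T, c = 3 * 𝒯.card * c := by
  rw [Finset.sum_congr rfl (g := fun _ => 3 * c) (fun T hT => by
    rw [Finset.sum_const, h3 T hT, nsmul_eq_mul]; norm_num)]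
  rw [Finset.sum_const, nsmul_eq_mul]; ring

theorem step4_msg (h : BH 𝒯 tri A₀ D L) {R J : ℕ} (hR : 20 * s3 D L + 20 * Real.log D ≤ R)
    (hJ1 : SS D ≤ s3 D L + (J : ℝ) / 20) (hJ2 : Wg (s3 D L) J (SS D) ≤ 1 / L)
    (hJ3 : (2200 * (3 * L ^ 10) ^ 2 * L ^ 2) ^ J * (L ^ 8 / D) ≤ 1 / L ^ 2) :
    ∑ T ∈ 𝒯, ∑ f ∈ tri T, ms 𝒯 tri D (R + J + 1) true f (some T) (SS D) ≤
      3 * 𝒯.card * (1 + 2 / L) ∧
    3 * 𝒯.card * (1 - 2 / L) ≤
      ∑ T ∈ 𝒯, ∑ f ∈ tri T, ms 𝒯 tri D (R + J + 1) false f (some T) (SS D) := by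
  have hL6 := h.L6
  have hL1 : (1:ℝ) ≤ L := le_trans (by norm_num) hL6
  have hL0 : 0 < L := by linarith
  have hD := h.D_pos
  have hsys := lsys h hR
  have hE : 3 * (𝒯.card : ℝ) * (L ^ 7 / D) + 3 * 𝒯.card * (4 * L / Real.sqrt D) ^ 2 ≤
      3 * 𝒯.card * (L ^ 8 / D) := by
    have e1 : (4 * L / Real.sqrt D) ^ 2 = 16 * L ^ 2 / D := by
      rw [div_pow, Real.sq_sqrt hD.le]; ring
    rw [e1, ← mul_add, ← add_div]
    refine mul_le_mul_of_nonneg_left (div_le_div_of_nonneg_right ?_ hD.le) (by positivity)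
    have e2 : (16:ℝ) * L ^ 2 ≤ L ^ 7 := by
      have : (16:ℝ) ≤ L ^ 5 := by
        have : (10:ℝ) ^ 6 ≤ L ^ 5 := le_trans hL6 (le_self_pow₀ hL1 (by norm_num))
        linarith
      have h7 : 0 ≤ L ^ 2 := by positivity
      have : L ^ 7 = L ^ 5 * L ^ 2 := by ring
      nlinarith
    have e3 : 2 * L ^ 7 ≤ L ^ 8 := by
      have : L ^ 8 = L * L ^ 7 := by ring
      have h7 : 0 ≤ L ^ 7 := by positivity
      nlinarith
    linarith
  have hΛ0 : 0 ≤ (2200 * (3 * L ^ 10) ^ 2 * L ^ 2) ^ J := by positivity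
  have hq : (2200 * (3 * L ^ 10) ^ 2 * L ^ 2) ^ J *
      (3 * (𝒯.card : ℝ) * (L ^ 7 / D) + 3 * 𝒯.card * (4 * L / Real.sqrt D) ^ 2) ≤
      3 * 𝒯.card * (1 / L ^ 2) := by
    refine (mul_le_mul_of_nonneg_left hE hΛ0).trans ?_
    have := mul_le_mul_of_nonneg_left hJ3 (by positivity : (0:ℝ) ≤ 3 * 𝒯.card)
    refine le_trans (le_of_eq (by ring)) this
  have hit := hsys.iter J (SS D) h.s3_le_SS le_rfl hJ1
  have hv := sum_le_of_QQm h.h3 _ hL0 (hit.1.trans hq)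
  have hu := sum_le_of_QQm h.h3 _ hL0 (hit.2.trans hq)
  have hW0 := Wg_pos (s3 D L) J (SS D)
  have hLinv : 1 / L ≤ 1 := by rw [div_le_one hL0]; exact hL1
  have e : R + 1 + J = R + J + 1 := by omega
  constructor
  · have h1 : ∀ T ∈ 𝒯, ∀ f ∈ tri T, ms 𝒯 tri D (R + J + 1) true f (some T) (SS D) ≤
        (1 + 1 / L) + vdev (s3 D L) (fun j f T s => ms 𝒯 tri D (R + 1 + j) true f (some T) s) J
          (SS D) f T := by
      intro T _ f _
      have h2 : ms 𝒯 tri D (R + 1 + J) true f (some T) (SS D) -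
          Real.exp (1 / 10 * Wg (s3 D L) J (SS D)) ≤
          vdev (s3 D L) (fun j f T s => ms 𝒯 tri D (R + 1 + j) true f (some T) s) J
          (SS D) f T := le_max_left _ _
      rw [e] at h2
      have h3 : Real.exp (1 / 10 * Wg (s3 D L) J (SS D)) ≤ 1 + 1 / L := by
        have h4 := exp_le_quad4 (x := 1 / 10 * Wg (s3 D L) J (SS D)) (by
          rw [abs_of_pos (by linarith)]; linarith)
        nlinarith
      linarith
    calc _ ≤ ∑ T ∈ 𝒯, ∑ f ∈ tri T, ((1 + 1 / L) + vdev (s3 D L) (fun j f T s =>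
          ms 𝒯 tri D (R + 1 + j) true f (some T) s) J (SS D) f T) :=
          Finset.sum_le_sum (fun T hT => Finset.sum_le_sum (fun f hf => h1 T hT f hf))
      _ = 3 * 𝒯.card * (1 + 1 / L) + ∑ T ∈ 𝒯, ∑ f ∈ tri T, vdev (s3 D L) (fun j f T s =>
          ms 𝒯 tri D (R + 1 + j) true f (some T) s) J (SS D) f T := by
          simp_rw [Finset.sum_add_distrib]
          rw [← sum_const4 h.h3 (1 + 1 / L)]
          simp_rw [Finset.sum_add_distrib]
      _ ≤ 3 * 𝒯.card * (1 + 1 / L) + 3 * 𝒯.card * (1 / L) := by linarith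
      _ = _ := by ring
  · have h1 : ∀ T ∈ 𝒯, ∀ f ∈ tri T, (1 - 1 / L) ≤
        ms 𝒯 tri D (R + J + 1) false f (some T) (SS D) +
        udev (s3 D L) (fun j f T s => ms 𝒯 tri D (R + 1 + j) false f (some T) s) J
          (SS D) f T := by
      intro T _ f _
      have h2 : Real.exp (-(1 / 10) * Wg (s3 D L) J (SS D)) -
          ms 𝒯 tri D (R + 1 + J) false f (some T) (SS D) ≤
          udev (s3 D L) (fun j f T s => ms 𝒯 tri D (R + 1 + j) false f (some T) s) J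
          (SS D) f T := le_max_left _ _
      rw [e] at h2
      have h3 : 1 - 1 / L ≤ Real.exp (-(1 / 10) * Wg (s3 D L) J (SS D)) := by
        have h4 := Real.add_one_le_exp (-(1 / 10) * Wg (s3 D L) J (SS D))
        linarith
      linarith
    have h2 : ∑ T ∈ 𝒯, ∑ f ∈ tri T, (1 - 1 / L) ≤
        ∑ T ∈ 𝒯, ∑ f ∈ tri T, (ms 𝒯 tri D (R + J + 1) false f (some T) (SS D) +
        udev (s3 D L) (fun j f T s => ms 𝒯 tri D (R + 1 + j) false f (some T) s) J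
          (SS D) f T) :=
      Finset.sum_le_sum (fun T hT => Finset.sum_le_sum (fun f hf => h1 T hT f hf))
    rw [sum_const4 h.h3] at h2
    simp_rw [Finset.sum_add_distrib] at h2
    have e5 : 3 * (𝒯.card : ℝ) * (1 - 2 / L) = 3 * 𝒯.card * (1 - 1 / L) - 3 * 𝒯.card * (1 / L) := by
      ring
    rw [e5]
    linarith

theorem step4_root (h : BH 𝒯 tri A₀ D L) {R J : ℕ} (hR : 20 * s3 D L + 20 * Real.log D ≤ R)
    (hJ1 : SS D ≤ s3 D L + (J : ℝ) / 20) (hJ2 : Wg (s3 D L) J (SS D) ≤ 1 / L)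
    (hJ3 : (2200 * (3 * L ^ 10) ^ 2 * L ^ 2) ^ J * (L ^ 8 / D) ≤ 1 / L ^ 2) :
    (∑ e ∈ A₀, hh 𝒯 tri (R + J + 1) true e none 1) ≤
      (1 + 10 / L) * A₀.card / Real.sqrt (1 + 2 * D) ∧
    (1 - 10 / L) * A₀.card / Real.sqrt (1 + 2 * D) ≤
      ∑ e ∈ A₀, hh 𝒯 tri (R + J + 1) false e none 1 := by
  have hL6 := h.L6
  have hL1 : (1:ℝ) ≤ L := le_trans (by norm_num) hL6
  have hL0 : 0 < L := by linarith
  have hD := h.D_pos
  obtain ⟨hU, hLo⟩ := step4_msg h hR hJ1 hJ2 hJ3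
  have hd : 20 * s3 D L + 20 * Real.log D ≤ ((R + J : ℕ) : ℝ) := by
    push_cast
    have : (0:ℝ) ≤ J := Nat.cast_nonneg J
    linarith
  have hv0 : 0 ≤ 2 / L := by positivity
  have hv1 : 2 / L ≤ 1 := by
    rw [div_le_one hL0]
    exact le_trans (by norm_num) hL6
  have h1 := root_avg_up h hd hv0 hv1 hU
  have h2 := root_avg_lo h hd hv0 hv1 hLo
  have hL' : 0 ≤ 1 / L := by positivity
  have e2 : 2 / L = 2 * (1 / L) := by ring
  have e10 : 10 / L = 10 * (1 / L) := by ring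
  constructor
  · refine h1.trans (div_le_div_of_nonneg_right ?_ (Real.sqrt_nonneg _))
    refine mul_le_mul_of_nonneg_right ?_ (Nat.cast_nonneg _)
    rw [e2, e10]; linarith
  · refine le_trans (div_le_div_of_nonneg_right ?_ (Real.sqrt_nonneg _)) h2
    refine mul_le_mul_of_nonneg_right ?_ (Nat.cast_nonneg _)
    rw [e2, e10]; linarith

end one

/-- PART B3. -/
theorem b3 : B3Statement := by
  refine ⟨10 ^ 6, ?_⟩
  intro D L hD hL hDL hC
  have hL1 : (1:ℝ) ≤ L := le_trans (by norm_num) hL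
  have hL0 : 0 < L := by linarith
  have hD0 : 0 < D := by linarith
  have hlogL : 1 ≤ Real.log L := by
    rw [Real.le_log_iff_exp_le hL0]
    exact le_trans Real.exp_one_lt_d9.le (le_trans (by norm_num) hL)
  have hsq : 1 ≤ Real.log L ^ 2 := one_le_pow₀ hlogL
  have hlogD : (10:ℝ) ^ 6 ≤ Real.log D := by nlinarith
  obtain ⟨J, hJ1, hJ2, hJ4, hJ3⟩ := num_J (D := D) (L := L) hL (by nlinarith) hD
  have hLD : L ^ 1000 ≤ D := by
    rw [← Real.log_le_log_iff (by positivity) hD0, Real.log_pow]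
    push_cast
    nlinarith
  set R : ℕ := ⌈20 * s3 D L + 20 * Real.log D⌉₊ with hR
  have hR1 : 20 * s3 D L + 20 * Real.log D ≤ R := Nat.le_ceil _
  have hs3 : s3 D L ≤ Real.log D / 2 := by
    unfold s3
    refine div_le_div_of_nonneg_right ?_ (by norm_num)
    refine Real.log_le_log (by positivity) ?_
    exact div_le_self hD0.le (one_le_pow₀ hL1)
  have hs30 : 0 ≤ s3 D L := by
    unfold s3
    refine div_nonneg (Real.log_nonneg ?_) (by norm_num)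
    rw [le_div_iff₀ (by positivity), one_mul]
    exact (pow_le_pow_right₀ hL1 (by norm_num)).trans hLD
  have hR2 : (R : ℝ) ≤ 30 * Real.log D + 1 := by
    have := (Nat.ceil_lt_add_one (a := 20 * s3 D L + 20 * Real.log D) (by positivity)).le
    rw [← hR] at this
    linarith
  refine ⟨R + J + 1, ?_, ?_⟩
  · push_cast
    linarith
  · intro ι τ _ _ 𝒯 tri A₀ h3 hA hdeg hcor
    have hBH : BH 𝒯 tri A₀ D L := ⟨h3, hA, hL, hDL, hLD, hdeg, hcor⟩
    exact step4_root hBH hR1 hJ1 hJ2 hJ3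

end Crest.Agent.TRem
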