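import Crest.Agent.TRem.FA0

/-! # Row 30, FA1: existence of the stopping time -/

namespace Crest.Agent.TRem

open Filter

private theorem fa1_log_tendsto : Tendsto (fun n : ℕ => Real.log n) atTop atTop :=
  Real.tendsto_log_atTop.comp tendsto_natCast_atTop_atTop

private theorem fa1_x_tendsto {a : ℝ} (ha : 0 < a) :
    Tendsto (fun n : ℕ => (Real.log n) ^ a) atTop atTop :=
  (tendsto_rpow_atTop ha).comp fa1_log_tendsto

private theorem fa1_a : ∀ᶠ n : ℕ in atTop, (10:ℝ) ^ 6 ≤ LL n := by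
  have h : Tendsto (fun n : ℕ => LL n) atTop atTop :=
    Real.tendsto_exp_atTop.comp (fa1_x_tendsto (by norm_num))
  exact h.eventually_ge_atTop _

private theorem fa1_b : ∀ᶠ n : ℕ in atTop, 10 ^ 6 * Real.log n ≤ LL n := by
  have h1 : ∀ᶠ x : ℝ in atTop, 10 ^ 6 * x ^ 5 ≤ Real.exp x := by
    have h := (Real.isLittleO_pow_exp_atTop (n := 5)).bound (show (0:ℝ) < 1 / 10 ^ 6 by norm_num)
    filter_upwards [h, eventually_ge_atTop 0] with x hx hx0
    rw [Real.norm_of_nonneg (by positivity), Real.norm_of_nonneg (Real.exp_pos x).le] at hx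
    have : 10 ^ 6 * x ^ 5 ≤ 10 ^ 6 * (1 / 10 ^ 6 * Real.exp x) :=
      mul_le_mul_of_nonneg_left hx (by norm_num)
    calc 10 ^ 6 * x ^ 5 ≤ 10 ^ 6 * (1 / 10 ^ 6 * Real.exp x) := this
      _ = Real.exp x := by ring
  have h2 := (fa1_x_tendsto (show (0:ℝ) < 1 / 5 by norm_num)).eventually h1
  have h3 := fa1_log_tendsto.eventually_ge_atTop 0
  filter_upwards [h2, h3] with n hn hn0
  have h4 : (Real.log n ^ ((1:ℝ) / 5)) ^ 5 = Real.log n := by
    rw [← Real.rpow_natCast, ← Real.rpow_mul hn0]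
    norm_num
  rw [h4] at hn
  exact hn

private theorem fa1_c : ∀ᶠ n : ℕ in atTop, LL n ^ 20 ≤ DD n := by
  have h1 := (fa1_x_tendsto (show (0:ℝ) < 3 / 10 by norm_num)).eventually_ge_atTop (2000 / 3)
  have h3 := fa1_log_tendsto.eventually_gt_atTop 0
  filter_upwards [h1, h3] with n hn hn0
  unfold LL DD
  rw [← Real.exp_nat_mul]
  apply Real.exp_le_exp.2
  have h4 : Real.sqrt (Real.log n) = Real.log n ^ ((1:ℝ) / 5) * Real.log n ^ ((3:ℝ) / 10) := by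
    rw [← Real.rpow_add hn0, Real.sqrt_eq_rpow]
    norm_num
  rw [h4]
  have h5 : 0 ≤ Real.log n ^ ((1:ℝ) / 5) := by positivity
  push_cast
  nlinarith

private theorem fa1_d : ∀ᶠ n : ℕ in atTop, (2 * DD n) ^ 3 ≤ n := by
  have h1 := fa1_log_tendsto.eventually_ge_atTop 4
  filter_upwards [h1, eventually_gt_atTop 0] with n hn hn0
  have hn0' : (0:ℝ) < n := by exact_mod_cast hn0
  have h2 : (2 * DD n) ^ 3 = Real.exp (Real.log 8 + 9 / 100 * Real.sqrt (Real.log n)) := by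
    unfold DD
    rw [Real.exp_add, Real.exp_log (by norm_num), mul_pow, ← Real.exp_nat_mul]
    norm_num
    ring_nf
  rw [h2]
  have h3 : (n:ℝ) = Real.exp (Real.log n) := (Real.exp_log hn0').symm
  rw [h3]
  apply Real.exp_le_exp.2
  rw [Real.log_exp]
  have h4 : Real.log 8 ≤ 3 := by
    have : (8:ℝ) ≤ Real.exp 3 := by
      have h := Real.add_one_le_exp (1:ℝ)
      have h' : Real.exp 3 = Real.exp 1 ^ 3 := by rw [← Real.exp_nat_mul]; norm_num
      rw [h']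
      calc (8:ℝ) = 2 ^ 3 := by norm_num
        _ ≤ Real.exp 1 ^ 3 := pow_le_pow_left₀ (by norm_num) (by linarith) 3
    calc Real.log 8 ≤ Real.log (Real.exp 3) := Real.log_le_log (by norm_num) this
      _ = 3 := Real.log_exp 3
  have h5 : Real.sqrt (Real.log n) ≤ Real.log n := by
    rw [Real.sqrt_le_left (by linarith)]
    nlinarith
  linarith

/-- Choice: `p₀ = √(DD n / n)`, `i₁ = ⌊NN n (1 - p₀)/3⌋₊` (for large `n`, `0 < p₀ < 1`), so
`pp n i₁ = 1 - 3 i₁/NN ∈ [p₀, p₀ + 3/NN]`, `yb n i₁ = n pp² ∈ [DD, DD (1 + 3/(NN p₀))²] ⊆ [DD, 2 DD]`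
because `NN p₀ ≥ (n²/4) n^{-1/2} → ∞`.
`Reg`: `10^6 ≤ LL n` eventually, `10^6 log n ≤ LL n = exp((log n)^{1/5})` eventually (exponential
beats polynomial in `x = (log n)^{1/5}`: `10^6 x^5 ≤ e^x`), `3 i₁ < n.choose 2` because `pp > 0`,
`LL^20 = exp(20 (log n)^{1/5}) ≤ exp(0.03 (log n)^{1/2}) = DD` eventually.
`cb = n p³ = yb^{3/2}/√n ≤ (2 DD)^{3/2}/√n → 0`. -/
theorem params_exist : ∀ᶠ n : ℕ in atTop, ∃ i₁ : ℕ, Reg n (LL n) i₁ ∧ cb n i₁ ≤ 1 ∧
    DD n ≤ yb n i₁ ∧ yb n i₁ ≤ 2 * DD n := by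
  filter_upwards [fa1_a, fa1_b, fa1_c, fa1_d, eventually_ge_atTop 16] with n ha hb hc hd hn16
  have hn : (16:ℝ) ≤ n := by exact_mod_cast hn16
  have hn0 : (0:ℝ) < n := by linarith
  have hDD1 : 1 ≤ DD n := by
    unfold DD
    exact Real.one_le_exp (by positivity)
  have hDD0 : 0 < DD n := by linarith
  have h4DD : 4 * DD n ≤ n := by
    refine le_trans ?_ hd
    have : (2 * DD n) ^ 3 = 8 * DD n ^ 3 := by ring
    rw [this]
    have h2 : DD n ≤ DD n ^ 3 := by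
      calc DD n = DD n ^ 1 := (pow_one _).symm
        _ ≤ DD n ^ 3 := pow_le_pow_right₀ hDD1 (by norm_num)
    linarith
  set p := Real.sqrt (DD n / n) with hp
  have hp0 : 0 < p := Real.sqrt_pos.2 (by positivity)
  have hpsq : p ^ 2 = DD n / n := Real.sq_sqrt (by positivity)
  have hnp : n * p ^ 2 = DD n := by rw [hpsq]; field_simp
  have hp1 : p < 1 := by
    by_contra h
    push Not at h
    have : 1 ≤ p ^ 2 := by nlinarith
    nlinarith
  have hNN : NN n = (n:ℝ) * (n - 1) / 2 := by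
    unfold NN
    rw [Nat.cast_choose_two]
  have hNN4 : (n:ℝ) ^ 2 / 4 ≤ NN n := by
    rw [hNN]; nlinarith
  have hNN0 : 0 < NN n := lt_of_lt_of_le (by positivity) hNN4
  have hNNp : 15 / 2 ≤ NN n * p := by
    have h1 : (15 / 2) ^ 2 ≤ (NN n * p) ^ 2 := by
      have h2 : (NN n * p) ^ 2 = NN n ^ 2 * DD n / n := by
        rw [mul_pow, hpsq]; ring
      rw [h2, le_div_iff₀ hn0]
      have h3 : ((n:ℝ) ^ 2 / 4) ^ 2 ≤ NN n ^ 2 := pow_le_pow_left₀ (by positivity) hNN4 2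
      have h4 : ((n:ℝ) ^ 2 / 4) ^ 2 * 1 ≤ NN n ^ 2 * DD n :=
        mul_le_mul h3 hDD1 (by norm_num) (by positivity)
      have h5 : (15 / 2 : ℝ) ^ 2 * n ≤ ((n:ℝ) ^ 2 / 4) ^ 2 * 1 := by
        have h6 : (16:ℝ) ^ 3 * n ≤ (n:ℝ) ^ 3 * n := by gcongr
        nlinarith
      linarith
    exact le_of_sq_le_sq h1 (by positivity)
  -- the stopping time
  set i₁ := ⌊NN n * (1 - p) / 3⌋₊ with hi₁
  have hfl1 : (i₁:ℝ) ≤ NN n * (1 - p) / 3 := Nat.floor_le (by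
    apply div_nonneg _ (by norm_num)
    exact mul_nonneg hNN0.le (by linarith))
  have hfl2 : NN n * (1 - p) / 3 < i₁ + 1 := Nat.lt_floor_add_one _
  have hMM1 : NN n * p ≤ MM n i₁ := by unfold MM; linarith
  have hMM2 : MM n i₁ ≤ NN n * p + 3 := by unfold MM; linarith
  have hMM0 : 0 < MM n i₁ := lt_of_lt_of_le (by positivity) hMM1
  have hpp1 : p ≤ pp n i₁ := by
    unfold pp
    rw [le_div_iff₀ hNN0]; linarith
  have hpp2 : pp n i₁ ≤ 7 / 5 * p := by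
    unfold pp
    rw [div_le_iff₀ hNN0]
    nlinarith
  have hyb1 : DD n ≤ yb n i₁ := by
    unfold yb
    rw [← hnp]
    gcongr
  have hyb2 : yb n i₁ ≤ 2 * DD n := by
    unfold yb
    have h1 : pp n i₁ ^ 2 ≤ (7 / 5 * p) ^ 2 := pow_le_pow_left₀ (by linarith) hpp2 2
    calc (n:ℝ) * pp n i₁ ^ 2 ≤ n * (7 / 5 * p) ^ 2 := by gcongr
      _ = 49 / 25 * (n * p ^ 2) := by ring
      _ = 49 / 25 * DD n := by rw [hnp]
      _ ≤ 2 * DD n := by linarith
  refine ⟨i₁, ⟨ha, hb, ?_, hc.trans hyb1⟩, ?_, hyb1, hyb2⟩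
  · have h1 : (3 * i₁ : ℝ) < (n.choose 2 : ℝ) := by
      unfold MM NN at hMM0; linarith
    exact_mod_cast h1
  · have hcb0 : 0 ≤ cb n i₁ := by
      unfold cb
      have := hp0.le.trans hpp1
      positivity
    have h1 : n * cb n i₁ ^ 2 = yb n i₁ ^ 3 := by unfold cb yb; ring
    have h2 : yb n i₁ ^ 3 ≤ (2 * DD n) ^ 3 := pow_le_pow_left₀ (by linarith) hyb2 3
    have h3 : n * cb n i₁ ^ 2 ≤ n * 1 := by rw [h1]; linarith
    have h4 : cb n i₁ ^ 2 ≤ 1 := le_of_mul_le_mul_left h3 hn0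
    nlinarith

end Crest.Agent.TRem
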