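import Crest.Agent.TRem.FA0

/-! # Row 30, FA2: asymptotic conditions -/

namespace Crest.Agent.TRem

open Filter

private theorem logn_tendsto : Tendsto (fun n : ℕ => Real.log (n : ℝ)) atTop atTop :=
  Real.tendsto_log_atTop.comp tendsto_natCast_atTop_atTop

/-- `LL → ∞`. -/
theorem LL_tendsto : Tendsto LL atTop atTop := by
  have h1 : Tendsto (fun n : ℕ => (Real.log (n : ℝ)) ^ ((1:ℝ) / 5)) atTop atTop :=
    (tendsto_rpow_atTop (by norm_num)).comp logn_tendsto
  exact Real.tendsto_exp_atTop.comp h1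

/-- `DD → ∞`. -/
theorem DD_tendsto : Tendsto DD atTop atTop := by
  have h1 : Tendsto (fun n : ℕ => 3 / 100 * Real.sqrt (Real.log (n : ℝ))) atTop atTop :=
    (Real.tendsto_sqrt_atTop.comp logn_tendsto).const_mul_atTop (by norm_num)
  exact Real.tendsto_exp_atTop.comp h1

/-- `log(2 DD) = log 2 + 0.03 √(log n) ≤ exp((log n)^{1/5})` eventually. -/
theorem log_DD_le : ∀ᶠ n : ℕ in atTop, Real.log (2 * DD n) ≤ LL n := by
  filter_upwards [logn_tendsto.eventually_ge_atTop 32] with n hn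
  set x : ℝ := Real.log (n : ℝ) with hx
  have hx0 : 0 ≤ x := by linarith
  have e1 : Real.log (2 * DD n) = Real.log 2 + 3 / 100 * Real.sqrt x := by
    unfold DD
    rw [Real.log_mul (by norm_num) (Real.exp_pos _).ne', Real.log_exp]
  have e2 : LL n = Real.exp (x ^ ((1:ℝ) / 5)) := rfl
  rw [e1, e2]
  set y : ℝ := x ^ ((1:ℝ) / 5) with hy
  have hy2 : 2 ≤ y := by
    have h32 : (32:ℝ) ^ ((1:ℝ) / 5) = 2 := by
      have : (32:ℝ) = 2 ^ (5:ℝ) := by norm_num
      rw [this, ← Real.rpow_mul (by norm_num)]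
      norm_num
    rw [← h32]
    exact Real.rpow_le_rpow (by norm_num) hn (by norm_num)
  have hy3 : y ^ 3 = x ^ ((3:ℝ) / 5) := by
    rw [hy, ← Real.rpow_natCast, ← Real.rpow_mul hx0]
    norm_num
  have hsq : Real.sqrt x ≤ y ^ 3 := by
    rw [hy3, Real.sqrt_eq_rpow]
    exact Real.rpow_le_rpow_of_exponent_le (by linarith) (by norm_num)
  have hexp : y ^ 3 / 6 ≤ Real.exp y := by
    have := Real.pow_div_factorial_le_exp y (by linarith) 3
    norm_num [Nat.factorial] at this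
    exact this
  have hl2 : Real.log 2 ≤ 1 := by
    have := Real.log_two_lt_d9
    linarith
  have hy8 : (8:ℝ) ≤ y ^ 3 := by
    calc (8:ℝ) = 2 ^ 3 := by norm_num
      _ ≤ y ^ 3 := pow_le_pow_left₀ (by norm_num) hy2 3
  linarith

/-- `C (log LL)² = C (log n)^{2/5} ≤ 0.03 (log n)^{1/2} = log DD` eventually. -/
theorem log_LL_le (C : ℝ) : ∀ᶠ n : ℕ in atTop, C * (Real.log (LL n)) ^ 2 ≤ Real.log (DD n) := by
  have h1 : Tendsto (fun n : ℕ => (Real.log (n : ℝ)) ^ ((1:ℝ) / 10)) atTop atTop :=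
    (tendsto_rpow_atTop (by norm_num)).comp logn_tendsto
  filter_upwards [logn_tendsto.eventually_ge_atTop 1, h1.eventually_ge_atTop (100 / 3 * C)]
    with n hn hC
  set x : ℝ := Real.log (n : ℝ) with hx
  have hx0 : 0 < x := by linarith
  have e1 : Real.log (DD n) = 3 / 100 * (x ^ ((2:ℝ) / 5) * x ^ ((1:ℝ) / 10)) := by
    unfold DD
    rw [Real.log_exp, Real.sqrt_eq_rpow, ← Real.rpow_add hx0]
    norm_num
    rw [hx]
  have e2 : (Real.log (LL n)) ^ 2 = x ^ ((2:ℝ) / 5) := by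
    unfold LL
    rw [Real.log_exp, ← Real.rpow_natCast, ← Real.rpow_mul hx0.le]
    norm_num
  rw [e1, e2]
  have h2 : 0 ≤ x ^ ((2:ℝ) / 5) := Real.rpow_nonneg hx0.le _
  nlinarith

/-- `DD n ≤ n^{1/100}` eventually. -/
theorem DD_le_pow : ∀ᶠ n : ℕ in atTop, 2 * DD n ≤ (n : ℝ) ^ ((1:ℝ) / 100) := by
  filter_upwards [logn_tendsto.eventually_ge_atTop 10000, eventually_ge_atTop 1] with n hn hn1
  set x : ℝ := Real.log (n : ℝ) with hx
  have hn0 : (0:ℝ) < n := by exact_mod_cast hn1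
  have e1 : (n : ℝ) ^ ((1:ℝ) / 100) = Real.exp (x * (1 / 100)) := by
    rw [Real.rpow_def_of_pos hn0]
  have e2 : 2 * DD n = Real.exp (Real.log 2 + 3 / 100 * Real.sqrt x) := by
    rw [Real.exp_add, Real.exp_log (by norm_num)]
    rfl
  rw [e1, e2, Real.exp_le_exp]
  set u : ℝ := Real.sqrt x with hu
  have hux : u * u = x := Real.mul_self_sqrt (by linarith)
  have hu100 : 100 ≤ u := by
    rw [hu]
    exact Real.le_sqrt_of_sq_le (by linarith)
  have hl2 : Real.log 2 ≤ 1 := by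
    have := Real.log_two_lt_d9
    linarith
  rw [← hux]
  nlinarith

end Crest.Agent.TRem
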