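import Crest.Agent.TRem.FA0

/-! # Row 30, FA3: local volumes are `n^{o(1)}`-small -/

namespace Crest.Agent.TRem

open Filter

/-- Let `x = √(log n)`. `log D ≤ log 2 + 0.03 x`, `d ≤ 31 log D`. Logarithms of the left sides:
`(2d+1) log(3.3 D) ≤ (62(0.03x+0.7)+1)(0.03x+1.9) = 0.0558 x² + O(x) ≤ 0.1 x²`;
`(4d+7) log(2d+3) + (2d+1) log(1.21 D) ≤ (124(0.03x+0.7)+7) log(62(0.03x+0.7)+3) + 0.0558x²+O(x)
≤ 0.2 x²` (`log y ≤ small·y + const`, e.g. `log(62(0.03x+0.7)+3) ≤ 0.01 x + C`, giving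
`3.72·0.01 x²`). -/
theorem volume_eventually : ∀ᶠ n : ℕ in atTop, ∀ D : ℝ, 1 ≤ D → D ≤ 2 * DD n →
    ∀ d : ℕ, (d : ℝ) ≤ 31 * Real.log D →
      (33 / 10 * D) ^ (2 * d + 1) ≤ (n : ℝ) ^ ((1:ℝ) / 10) ∧
      ((2 * d + 3 : ℕ) : ℝ) ^ (4 * d + 7) * (121 / 100 * D) ^ (2 * d + 1)
        ≤ (n : ℝ) ^ ((1:ℝ) / 5) := by
  have hx : Tendsto (fun n : ℕ => Real.sqrt (Real.log n)) atTop atTop :=
    Real.tendsto_sqrt_atTop.comp (Real.tendsto_log_atTop.comp tendsto_natCast_atTop_atTop)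
  filter_upwards [hx.eventually_ge_atTop 1000, eventually_ge_atTop 1] with n hn hn1
  intro D hD1 hD2 d hd
  set x := Real.sqrt (Real.log n) with hxdef
  have hnpos : (0:ℝ) < n := by exact_mod_cast hn1
  have hlogn0 : 0 ≤ Real.log (n:ℝ) := Real.log_natCast_nonneg n
  have hx2 : x ^ 2 = Real.log n := Real.sq_sqrt hlogn0
  have hDpos : (0:ℝ) < D := by linarith
  have hlog2 : Real.log 2 < 0.6931471808 := Real.log_two_lt_d9
  have hy : Real.log D ≤ 3 / 100 * x + 7 / 10 := by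
    have h1 : Real.log D ≤ Real.log (2 * DD n) := Real.log_le_log hDpos hD2
    have h2 : Real.log (2 * DD n) = Real.log 2 + 3 / 100 * x := by
      unfold DD
      rw [Real.log_mul (by norm_num) (Real.exp_pos _).ne', Real.log_exp]
    rw [h2] at h1
    norm_num at hlog2
    linarith
  have hy0 : 0 ≤ Real.log D := Real.log_nonneg hD1
  have hd' : (d:ℝ) ≤ 31 * (3 / 100 * x + 7 / 10) := by linarith
  have hd0 : (0:ℝ) ≤ d := Nat.cast_nonneg d
  have hl4 : Real.log 4 < 1.4 := by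
    have : (4:ℝ) = 2 ^ 2 := by norm_num
    rw [this, Real.log_pow]
    norm_num at hlog2 ⊢
    linarith
  have hl33 : Real.log (33 / 10 * D) ≤ 3 / 100 * x + 21 / 10 := by
    rw [Real.log_mul (by norm_num) hDpos.ne']
    have : Real.log (33 / 10 : ℝ) ≤ Real.log 4 := Real.log_le_log (by norm_num) (by norm_num)
    norm_num at hl4
    linarith
  have hl121 : Real.log (121 / 100 * D) ≤ 3 / 100 * x + 21 / 10 := by
    rw [Real.log_mul (by norm_num) hDpos.ne']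
    have : Real.log (121 / 100 : ℝ) ≤ Real.log 4 := Real.log_le_log (by norm_num) (by norm_num)
    norm_num at hl4
    linarith
  have hkey1 : ∀ l : ℝ, l ≤ 3 / 100 * x + 21 / 10 →
      ((2 * d + 1 : ℕ) : ℝ) * l ≤ 1 / 10 * x ^ 2 := by
    intro l hl
    have hc : ((2 * d + 1 : ℕ) : ℝ) ≤ 62 * (3 / 100 * x + 7 / 10) + 1 := by
      push_cast; linarith
    have hc0 : (0:ℝ) ≤ ((2 * d + 1 : ℕ) : ℝ) := Nat.cast_nonneg _
    have h3 : (0:ℝ) ≤ 3 / 100 * x + 21 / 10 := by linarith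
    calc ((2 * d + 1 : ℕ) : ℝ) * l ≤ ((2 * d + 1 : ℕ) : ℝ) * (3 / 100 * x + 21 / 10) :=
          mul_le_mul_of_nonneg_left hl hc0
      _ ≤ (62 * (3 / 100 * x + 7 / 10) + 1) * (3 / 100 * x + 21 / 10) :=
          mul_le_mul_of_nonneg_right hc h3
      _ ≤ 1 / 10 * x ^ 2 := by nlinarith
  constructor
  · rw [← Real.rpow_natCast, Real.rpow_def_of_pos (by positivity), Real.rpow_def_of_pos hnpos]
    apply Real.exp_le_exp.mpr
    rw [← hx2]
    have := hkey1 _ hl33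
    linarith
  · rw [← Real.rpow_natCast, ← Real.rpow_natCast, Real.rpow_def_of_pos (by positivity),
      Real.rpow_def_of_pos (by positivity), Real.rpow_def_of_pos hnpos, ← Real.exp_add]
    apply Real.exp_le_exp.mpr
    rw [← hx2]
    have h1 := hkey1 _ hl121
    have hz : Real.log ((2 * d + 3 : ℕ) : ℝ) ≤ 1 / 100 * x + 7 := by
      have hzpos : (0:ℝ) < ((2 * d + 3 : ℕ) : ℝ) := by positivity
      have h256 : Real.log (256:ℝ) ≤ 6 := by
        have : (256:ℝ) = 2 ^ 8 := by norm_num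
        rw [this, Real.log_pow]
        norm_num at hlog2 ⊢
        linarith
      have h2 : Real.log (((2 * d + 3 : ℕ) : ℝ) / 256) ≤ ((2 * d + 3 : ℕ) : ℝ) / 256 - 1 :=
        Real.log_le_sub_one_of_pos (by positivity)
      rw [Real.log_div hzpos.ne' (by norm_num)] at h2
      have h3 : ((2 * d + 3 : ℕ) : ℝ) ≤ 62 * (3 / 100 * x + 7 / 10) + 3 := by
        push_cast; linarith
      linarith
    have hc : ((4 * d + 7 : ℕ) : ℝ) ≤ 124 * (3 / 100 * x + 7 / 10) + 7 := by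
      push_cast; linarith
    have hc0 : (0:ℝ) ≤ ((4 * d + 7 : ℕ) : ℝ) := Nat.cast_nonneg _
    have h4 : ((4 * d + 7 : ℕ) : ℝ) * Real.log ((2 * d + 3 : ℕ) : ℝ) ≤ 1 / 10 * x ^ 2 := by
      calc ((4 * d + 7 : ℕ) : ℝ) * Real.log ((2 * d + 3 : ℕ) : ℝ)
          ≤ ((4 * d + 7 : ℕ) : ℝ) * (1 / 100 * x + 7) := mul_le_mul_of_nonneg_left hz hc0
        _ ≤ (124 * (3 / 100 * x + 7 / 10) + 7) * (1 / 100 * x + 7) :=
            mul_le_mul_of_nonneg_right hc (by linarith)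
        _ ≤ 1 / 10 * x ^ 2 := by nlinarith
    linarith

end Crest.Agent.TRem
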