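import Crest.Agent.TRem.C1d

/-! # Row 30, FA4: the sum over codes -/

namespace Crest.Agent.TRem

open Finset

private lemma fa4_card {n : ℕ} (𝒮 : Finset (Code n)) (v : ℕ) :
    (𝒮.filter (fun c => c.1 = v)).card ≤ n ^ v * (v ^ v * (v ^ v * (v * v))) := by
  classical
  have h1 : (𝒮.filter (fun c => c.1 = v)) ⊆
      (Finset.univ : Finset ((Fin v → Fin n) × (Fin v → Fin v) × (Fin v → Fin v) ×
        (Fin v × Fin v))).image (fun z => (⟨v, z⟩ : Code n)) := by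
    rintro ⟨w, z⟩ hc
    rw [mem_filter] at hc
    obtain ⟨_, hw⟩ := hc
    simp only at hw
    subst hw
    exact mem_image.2 ⟨z, mem_univ _, rfl⟩
  refine (card_le_card h1).trans (card_image_le.trans ?_)
  rw [card_univ]
  simp only [Fintype.card_prod, Fintype.card_fun, Fintype.card_fin]
  exact le_rfl

/-- Group the codes by `v = c.1 ∈ [3, 2d+2]`: there are at most `n^v · v^v · v^v · v²` codes with
given `v`, each contributes `q^{2v-2}`, and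
`n^v q^{2v-2} = n (n q²)^{v-1} ≤ n (121/100 D)^{v-1} ≤ n (121/100 D)^{2d+1}`,
`v^{2v+2} ≤ (2d+2)^{4d+6}`, at most `2d+3` values of `v`. -/
theorem sum_codes {n d : ℕ} {q D : ℝ} (hq : 0 ≤ q) (hD : 1 ≤ D) (hqD : n * q ^ 2 ≤ 121 / 100 * D)
    (𝒮 : Finset (Code n)) (S : Code n → Finset (Sym2 (Fin n)))
    (h : ∀ c ∈ 𝒮, 3 ≤ c.1 ∧ c.1 ≤ 2 * d + 2 ∧ (S c).card = 2 * c.1 - 2) :
    ∑ c ∈ 𝒮, q ^ (S c).card ≤
      n * (((2 * d + 3 : ℕ) : ℝ) ^ (4 * d + 7) * (121 / 100 * D) ^ (2 * d + 1)) := by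
  classical
  have e1 : ∑ c ∈ 𝒮, q ^ (S c).card = ∑ v ∈ Icc 3 (2 * d + 2),
      ∑ c ∈ 𝒮.filter (fun c => c.1 = v), q ^ (S c).card :=
    (sum_fiberwise_of_maps_to (fun c hc => mem_Icc.2 ⟨(h c hc).1, (h c hc).2.1⟩) _).symm
  have key : ∀ v ∈ Icc 3 (2 * d + 2), ∑ c ∈ 𝒮.filter (fun c => c.1 = v), q ^ (S c).card ≤
      n * (((2 * d + 3 : ℕ) : ℝ) ^ (4 * d + 6) * (121 / 100 * D) ^ (2 * d + 1)) := by
    intro v hv
    rw [mem_Icc] at hv
    obtain ⟨u, rfl⟩ : ∃ u, v = u + 1 := ⟨v - 1, by omega⟩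
    have e2 : ∑ c ∈ 𝒮.filter (fun c => c.1 = u + 1), q ^ (S c).card =
        (𝒮.filter (fun c => c.1 = u + 1)).card * q ^ (2 * u) := by
      rw [← nsmul_eq_mul, ← sum_const]
      apply sum_congr rfl
      intro c hc
      rw [mem_filter] at hc
      rw [(h c hc.1).2.2, hc.2]
      congr 1
    rw [e2]
    have h1 : ((𝒮.filter (fun c => c.1 = u + 1)).card : ℝ) ≤
        (n : ℝ) ^ (u + 1) * (((2 * d + 3 : ℕ) : ℝ) ^ (4 * d + 6)) := by
      have h2 := fa4_card 𝒮 (u + 1)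
      have h3 : (u + 1) ^ (u + 1) * ((u + 1) ^ (u + 1) * ((u + 1) * (u + 1))) ≤
          (2 * d + 3) ^ (4 * d + 6) := by
        have e3 : (u + 1) ^ (u + 1) * ((u + 1) ^ (u + 1) * ((u + 1) * (u + 1))) =
            (u + 1) ^ (2 * u + 4) := by ring
        rw [e3]
        calc (u + 1) ^ (2 * u + 4) ≤ (2 * d + 3) ^ (2 * u + 4) :=
              Nat.pow_le_pow_left (by omega) _
          _ ≤ (2 * d + 3) ^ (4 * d + 6) := Nat.pow_le_pow_right (by omega) (by omega)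
      have h4 : (𝒮.filter (fun c => c.1 = u + 1)).card ≤
          n ^ (u + 1) * (2 * d + 3) ^ (4 * d + 6) :=
        h2.trans (Nat.mul_le_mul_left _ h3)
      exact_mod_cast h4
    have h5 : (n : ℝ) ^ (u + 1) * q ^ (2 * u) ≤ n * (121 / 100 * D) ^ (2 * d + 1) := by
      have e4 : (n : ℝ) ^ (u + 1) * q ^ (2 * u) = n * (n * q ^ 2) ^ u := by
        rw [mul_pow, ← pow_mul, pow_succ]
        ring
      rw [e4]
      apply mul_le_mul_of_nonneg_left _ (Nat.cast_nonneg n)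
      calc ((n : ℝ) * q ^ 2) ^ u ≤ (121 / 100 * D) ^ u :=
            pow_le_pow_left₀ (by positivity) hqD u
        _ ≤ (121 / 100 * D) ^ (2 * d + 1) :=
            pow_le_pow_right₀ (by linarith) (by omega)
    calc ((𝒮.filter (fun c => c.1 = u + 1)).card : ℝ) * q ^ (2 * u)
        ≤ ((n : ℝ) ^ (u + 1) * (((2 * d + 3 : ℕ) : ℝ) ^ (4 * d + 6))) * q ^ (2 * u) :=
          mul_le_mul_of_nonneg_right h1 (by positivity)
      _ = ((n : ℝ) ^ (u + 1) * q ^ (2 * u)) * (((2 * d + 3 : ℕ) : ℝ) ^ (4 * d + 6)) := by ring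
      _ ≤ (n * (121 / 100 * D) ^ (2 * d + 1)) * (((2 * d + 3 : ℕ) : ℝ) ^ (4 * d + 6)) :=
          mul_le_mul_of_nonneg_right h5 (by positivity)
      _ = n * (((2 * d + 3 : ℕ) : ℝ) ^ (4 * d + 6) * (121 / 100 * D) ^ (2 * d + 1)) := by ring
  rw [e1]
  refine (sum_le_sum key).trans ?_
  rw [sum_const, nsmul_eq_mul, Nat.card_Icc]
  have h6 : ((2 * d + 2 + 1 - 3 : ℕ) : ℝ) ≤ ((2 * d + 3 : ℕ) : ℝ) := by
    exact_mod_cast (by omega : 2 * d + 2 + 1 - 3 ≤ 2 * d + 3)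
  have hD0 : (0 : ℝ) ≤ 121 / 100 * D := by linarith
  calc ((2 * d + 2 + 1 - 3 : ℕ) : ℝ) *
        (n * (((2 * d + 3 : ℕ) : ℝ) ^ (4 * d + 6) * (121 / 100 * D) ^ (2 * d + 1)))
      ≤ ((2 * d + 3 : ℕ) : ℝ) *
        (n * (((2 * d + 3 : ℕ) : ℝ) ^ (4 * d + 6) * (121 / 100 * D) ^ (2 * d + 1))) :=
        mul_le_mul_of_nonneg_right h6 (by positivity)
    _ = n * (((2 * d + 3 : ℕ) : ℝ) ^ (4 * d + 7) * (121 / 100 * D) ^ (2 * d + 1)) := by ring

end Crest.Agent.TRem
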