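import Crest.Agent.TRem.FinCore
import Crest.Agent.TRem.FA1
import Crest.Agent.TRem.FA2
import Crest.Agent.TRem.FA3
import Crest.Agent.TRem.FA4

/-!
# Row 30: final assembly
-/

namespace Crest.Agent.TRem

open MeasureTheory Finset Filter Crest.CombinatoricsR.TriangleRemoval

/-- the constant `1/(2√2)`. -/
noncomputable def c0 : ℝ := 1 / (2 * Real.sqrt 2)

/-- the target functional. -/
noncomputable def phn (n : ℕ) : ℕ → ℝ := fun e => ((e : ℝ) / (n : ℝ) ^ ((3 : ℝ) / 2) - c0) ^ 2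

theorem c0_bd : 0 < c0 ∧ c0 ≤ 1 := by
  unfold c0
  have h : 1 ≤ Real.sqrt 2 := by
    rw [Real.one_le_sqrt]; norm_num
  refine ⟨by positivity, ?_⟩
  rw [div_le_one (by positivity)]
  linarith

theorem phn_le {n : ℕ} (hn : 1 ≤ n) {e : ℕ} (he : e ≤ n.choose 2) : phn n e ≤ 4 * (n : ℝ) := by
  have hn1 : (1 : ℝ) ≤ n := by exact_mod_cast hn
  have hn0 : (0 : ℝ) < n := by linarith
  have h1 : (e : ℝ) ≤ (n : ℝ) ^ 2 := by
    have : e ≤ n ^ 2 := he.trans (Nat.choose_le_pow n 2)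
    exact_mod_cast this
  have h2 : (e : ℝ) / (n : ℝ) ^ ((3 : ℝ) / 2) ≤ (n : ℝ) ^ ((1 : ℝ) / 2) := by
    rw [div_le_iff₀ (by positivity), ← Real.rpow_add hn0]
    norm_num
    exact_mod_cast h1
  have h3 : 0 ≤ (e : ℝ) / (n : ℝ) ^ ((3 : ℝ) / 2) := by positivity
  have h4 : (1:ℝ) ≤ (n : ℝ) ^ ((1 : ℝ) / 2) := Real.one_le_rpow hn1 (by norm_num)
  have h5 : ((n : ℝ) ^ ((1 : ℝ) / 2)) ^ 2 = n := by
    rw [← Real.rpow_natCast, ← Real.rpow_mul hn0.le]
    norm_num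
  have hc := c0_bd
  unfold phn
  have h6 : |(e : ℝ) / (n : ℝ) ^ ((3 : ℝ) / 2) - c0| ≤ 2 * (n : ℝ) ^ ((1 : ℝ) / 2) := by
    rw [abs_le]
    constructor <;> linarith
  have h7 := sq_le_sq' (abs_le.mp h6).1 (abs_le.mp h6).2
  calc _ ≤ (2 * (n : ℝ) ^ ((1 : ℝ) / 2)) ^ 2 := h7
    _ = 4 * ((n : ℝ) ^ ((1 : ℝ) / 2)) ^ 2 := by ring
    _ = 4 * (n:ℝ) := by rw [h5]

/-- the deterministic bound for a given `n`, from all the parts. `X`, `Y` bound the volumes. -/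
theorem total_bound {n : ℕ} {L : ℝ} {i₁ : ℕ} (h : Reg n L i₁) (hcb : cb n i₁ ≤ 1)
    {d : ℕ} {ε : ℝ} (hε0 : 0 ≤ ε) (hε1 : ε ≤ 1)
    (hB : ∀ E : Finset (Sym2 (Fin n)), GoodOut n L i₁ E →
      (∑ e ∈ E, hh (triangles E) tr d true e none 1) ≤
        (1 + ε) * E.card / Real.sqrt (1 + 2 * yb n i₁) ∧
      (1 - ε) * E.card / Real.sqrt (1 + 2 * yb n i₁) ≤
        ∑ e ∈ E, hh (triangles E) tr d false e none 1)
    (hd : ((4 * d + 2 : ℕ) : ℝ) ≤ L * Real.sqrt (yb n i₁))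
    (X Y : ℝ) (hX : (33 / 10 * yb n i₁) ^ (2 * d + 1) ≤ X)
    (hY : ((2 * d + 3 : ℕ) : ℝ) ^ (4 * d + 7) * (121 / 100 * yb n i₁) ^ (2 * d + 1) ≤ Y) :
    expectFinal (phn n) (n ^ 2) (allEdges n) ≤
      2 / (n:ℝ) ^ 3 * (5 * ε * (MM n i₁ / Real.sqrt (1 + 2 * yb n i₁)) ^ 2 + MM n i₁ * X)
      + 2 * (MM n i₁ / Real.sqrt (1 + 2 * yb n i₁) / (n : ℝ) ^ ((3 : ℝ) / 2) - c0) ^ 2
      + 2 / (n:ℝ) ^ 3 * (4 * MM n i₁) * (n * Y) + 4 * n / (n : ℝ) ^ 10 := by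
  classical
  have hn0 : 0 < (n : ℝ) := h.n_pos
  have hn1 : 1 ≤ n := by exact_mod_cast hn0
  have hMM : 0 < MM n i₁ := h.MM_pos le_rfl
  have hyb : 0 < yb n i₁ := h.yb_pos le_rfl
  obtain ⟨𝒮, S, h𝒮, hcount⟩ := partC1 n d
  have hi₁ : i₁ ≤ n ^ 2 := by
    have h1 := h.hi
    have h2 : n.choose 2 ≤ n ^ 2 := Nat.choose_le_pow n 2
    omega
  set m := n ^ 2 - i₁ with hm
  have hsum : i₁ + m = n ^ 2 := by omega
  rw [← hsum]
  have hA := partA h hcb (phn n) m (4 * n)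
    (2 / (n:ℝ) ^ 3 * (5 * ε * (MM n i₁ / Real.sqrt (1 + 2 * yb n i₁)) ^ 2 + MM n i₁ * X)
      + 2 * (MM n i₁ / Real.sqrt (1 + 2 * yb n i₁) / (n : ℝ) ^ ((3 : ℝ) / 2) - c0) ^ 2)
    (2 / (n:ℝ) ^ 3 * (4 * MM n i₁)) (by positivity) (fun e he => phn_le hn1 he)
    (by
      have : 0 ≤ X := le_trans (by positivity) hX
      positivity) (by positivity) 𝒮 S
    (fun c hc => by
      obtain ⟨h3, h4, h5, h6⟩ := h𝒮 c hc
      refine le_trans ?_ hd
      have : (S c).card ≤ 4 * d + 2 := by omega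
      exact_mod_cast this)
    (fun E hE => by
      obtain ⟨hup, hlo⟩ := hB E hE
      have hcard : E.card ≤ m := by
        have := hE.card
        have h2 : n.choose 2 ≤ n ^ 2 := Nat.choose_le_pow n 2
        omega
      have := good_bound h hE hε0 hε1 hup hlo m hcard c0 ((𝒮.filter (fun c => S c ⊆ E)).card)
        (fun F hF hnF => by
          refine le_trans (Finset.card_le_card ?_) (hcount E hE.sub)
          intro e he
          have he' := Finset.mem_sdiff.mp he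
          exact Finset.mem_filter.mpr ⟨he'.1, hnF e he'.1 he'.2⟩)
      refine this.trans ?_
      have h1 : MM n i₁ * (33 / 10 * yb n i₁) ^ (2 * d + 1) ≤ MM n i₁ * X := by gcongr
      have h2 : 0 ≤ 2 / (n:ℝ) ^ 3 := by positivity
      nlinarith [mul_le_mul_of_nonneg_left h1 h2])
  refine hA.trans ?_
  have hsumc : ∑ c ∈ 𝒮, (11 / 10 * pp n i₁) ^ (S c).card ≤ n * Y := by
    refine (sum_codes (D := yb n i₁) (d := d) (by have := h.pp_pos le_rfl; positivity) ?_ ?_ 𝒮 S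
      (fun c hc => ?_)).trans ?_
    · have := h.hD
      have := one_le_pow₀ (n := 20) (show (1:ℝ) ≤ L from le_trans (by norm_num) h.L6)
      linarith
    · unfold yb
      apply le_of_eq
      ring
    · obtain ⟨h3, h4, h5, h6⟩ := h𝒮 c hc
      exact ⟨h3, h4, h6⟩
    · gcongr
  have := mul_le_mul_of_nonneg_left hsumc
    (show 0 ≤ 2 / (n:ℝ) ^ 3 * (4 * MM n i₁) by positivity)
  linarith

/-- `m₀/n^{3/2} = ((1-1/n)/2) √(D/(1+2D))` where `D = n p²`, `MM = NN p`. -/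
theorem m0_eq {n : ℕ} {L : ℝ} {i₁ : ℕ} (h : Reg n L i₁) :
    MM n i₁ / Real.sqrt (1 + 2 * yb n i₁) / (n : ℝ) ^ ((3 : ℝ) / 2) =
      (1 - 1 / (n:ℝ)) / 2 * Real.sqrt (yb n i₁ / (1 + 2 * yb n i₁)) := by
  have hn0 : 0 < (n : ℝ) := h.n_pos
  have hn1 : 1 ≤ n := by exact_mod_cast hn0
  have hpp : 0 < pp n i₁ := h.pp_pos le_rfl
  have hyb : 0 < yb n i₁ := h.yb_pos le_rfl
  have hNN : NN n = n * (n - 1) / 2 := by
    unfold NN
    rw [Nat.cast_choose_two]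
  have hNN0 : NN n ≠ 0 := h.NN_pos.ne'
  have hMM : MM n i₁ = NN n * pp n i₁ := by
    unfold pp
    field_simp
  have hsq : Real.sqrt (yb n i₁) = Real.sqrt n * pp n i₁ := h.sqrt_yb_eq le_rfl
  have h32 : (n : ℝ) ^ ((3 : ℝ) / 2) = n * Real.sqrt n := by
    rw [Real.sqrt_eq_rpow, ← Real.rpow_one_add' hn0.le (by norm_num)]
    norm_num
  have hs0 : 0 < Real.sqrt n := Real.sqrt_pos.mpr hn0
  have hss : Real.sqrt n * Real.sqrt n = n := Real.mul_self_sqrt hn0.le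
  have hs1 : 0 < Real.sqrt (1 + 2 * yb n i₁) := Real.sqrt_pos.mpr (by linarith)
  rw [Real.sqrt_div hyb.le, hsq, hMM, hNN, h32]
  field_simp
  rw [show Real.sqrt (n:ℝ) ^ 2 = n by rw [sq, hss]]
  ring

/-- the limit of `m₀/n^{3/2}`. -/
theorem m0_close {n : ℕ} {L : ℝ} {i₁ : ℕ} (h : Reg n L i₁) :
    |MM n i₁ / Real.sqrt (1 + 2 * yb n i₁) / (n : ℝ) ^ ((3 : ℝ) / 2) - c0| ≤
      1 / (n:ℝ) + 1 / yb n i₁ := by
  rw [m0_eq h]
  have hn0 : 0 < (n : ℝ) := h.n_pos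
  have hyb : 0 < yb n i₁ := h.yb_pos le_rfl
  set D := yb n i₁
  set q := Real.sqrt (D / (1 + 2 * D)) with hq
  have hq0 : 0 ≤ q := Real.sqrt_nonneg _
  have hq2 : q ^ 2 = D / (1 + 2 * D) := Real.sq_sqrt (by positivity)
  have hc : c0 = Real.sqrt (1 / 2) / 2 := by
    unfold c0
    rw [Real.sqrt_div (by norm_num), Real.sqrt_one]
    field_simp
  set r := Real.sqrt (1 / 2 : ℝ) with hr
  have hr0 : 1 / 2 ≤ r := by
    rw [hr]
    apply Real.le_sqrt_of_sq_le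
    norm_num
  have hr2 : r ^ 2 = 1 / 2 := Real.sq_sqrt (by norm_num)
  have hqr : q ≤ r := by
    rw [hq, hr]
    apply Real.sqrt_le_sqrt
    rw [div_le_div_iff₀ (by positivity) (by norm_num)]
    linarith
  have hdiff : r - q ≤ 1 / D := by
    have h1 : (r - q) * (r + q) = 1 / (2 * (1 + 2 * D)) := by
      have : (r - q) * (r + q) = r ^ 2 - q ^ 2 := by ring
      rw [this, hr2, hq2]
      field_simp
      ring
    have h2 : (r - q) * (1 / 2) ≤ (r - q) * (r + q) := by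
      apply mul_le_mul_of_nonneg_left _ (by linarith)
      linarith
    have h3 : 1 / (2 * (1 + 2 * D)) ≤ 1 / (4 * D) := by
      apply one_div_le_one_div_of_le (by positivity)
      linarith
    have h4 : 1 / (4 * D) = (1 / D) * (1 / 4) := by field_simp
    rw [h1] at h2
    have h5 : 0 < 1 / D := by positivity
    linarith
  have hr1 : r ≤ 1 := by nlinarith
  rw [hc]
  have hn' : 0 < 1 / (n:ℝ) := by positivity
  have hD' : 0 < 1 / D := by positivity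
  rw [abs_le]
  constructor <;> nlinarith [mul_nonneg hn'.le hq0]

theorem m0_le {n : ℕ} {L : ℝ} {i₁ : ℕ} (h : Reg n L i₁) :
    MM n i₁ / Real.sqrt (1 + 2 * yb n i₁) ≤ (n : ℝ) ^ ((3 : ℝ) / 2) := by
  have hn0 : 0 < (n : ℝ) := h.n_pos
  have hyb : 0 < yb n i₁ := h.yb_pos le_rfl
  have h1 : MM n i₁ / Real.sqrt (1 + 2 * yb n i₁) / (n : ℝ) ^ ((3 : ℝ) / 2) ≤ 1 := by
    rw [m0_eq h]
    have h2 : Real.sqrt (yb n i₁ / (1 + 2 * yb n i₁)) ≤ 1 := by
      refine Real.sqrt_le_iff.mpr ⟨by norm_num, ?_⟩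
      rw [one_pow, div_le_one (by positivity)]
      linarith
    have h3 : 0 ≤ Real.sqrt (yb n i₁ / (1 + 2 * yb n i₁)) := Real.sqrt_nonneg _
    have h4 : 0 < 1 / (n:ℝ) := by positivity
    have h5 : 1 / (n:ℝ) ≤ 1 := by
      rw [div_le_one hn0]
      have := h.n_ge
      have := one_le_pow₀ (n := 20) (show (1:ℝ) ≤ L from le_trans (by norm_num) h.L6)
      linarith
    nlinarith
  rwa [div_le_one (by positivity)] at h1

/-- the explicit majorant. -/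
noncomputable def maj (n : ℕ) : ℝ :=
  100 / LL n + 2 * (n:ℝ) ^ (-(1:ℝ) / 2) + 2 * (1 / (n:ℝ) + 1 / DD n) ^ 2
    + 16 * (n:ℝ) ^ (-(1:ℝ) / 4) + 4 / (n:ℝ)

theorem maj_tendsto : Tendsto maj atTop (nhds 0) := by
  have hcast : Tendsto (fun n : ℕ => (n : ℝ)) atTop atTop := tendsto_natCast_atTop_atTop
  have h1 : Tendsto (fun n : ℕ => 100 / LL n) atTop (nhds 0) :=
    LL_tendsto.const_div_atTop 100
  have h2 : Tendsto (fun n : ℕ => 2 * (n:ℝ) ^ (-(1:ℝ) / 2)) atTop (nhds 0) := by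
    have := ((tendsto_rpow_neg_atTop (show (0:ℝ) < 1 / 2 by norm_num)).comp hcast).const_mul 2
    simp only [mul_zero] at this
    refine this.congr fun n => ?_
    simp only [Function.comp]
    norm_num [neg_div]
  have h4 : Tendsto (fun n : ℕ => 16 * (n:ℝ) ^ (-(1:ℝ) / 4)) atTop (nhds 0) := by
    have := ((tendsto_rpow_neg_atTop (show (0:ℝ) < 1 / 4 by norm_num)).comp hcast).const_mul 16
    simp only [mul_zero] at this
    refine this.congr fun n => ?_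
    simp only [Function.comp]
    norm_num [neg_div]
  have h3a : Tendsto (fun n : ℕ => 1 / (n:ℝ)) atTop (nhds 0) := hcast.const_div_atTop 1
  have h3b : Tendsto (fun n : ℕ => 1 / DD n) atTop (nhds 0) := DD_tendsto.const_div_atTop 1
  have h3 : Tendsto (fun n : ℕ => 2 * (1 / (n:ℝ) + 1 / DD n) ^ 2) atTop (nhds 0) := by
    have := ((h3a.add h3b).pow 2).const_mul 2
    simpa using this
  have h5 : Tendsto (fun n : ℕ => 4 / (n:ℝ)) atTop (nhds 0) := hcast.const_div_atTop 4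
  have := (((h1.add h2).add h3).add h4).add h5
  simp only [add_zero] at this
  exact this

theorem expectFinal_nonneg {n : ℕ} (φ : ℕ → ℝ) (hφ : ∀ e, 0 ≤ φ e) (m : ℕ)
    (E : Finset (Sym2 (Fin n))) : 0 ≤ expectFinal φ m E := by
  induction m generalizing E with
  | zero => simp only [expectFinal]; exact hφ _
  | succ m ih =>
    simp only [expectFinal]
    split_ifs
    · exact hφ _
    · exact mul_nonneg (by positivity) (Finset.sum_nonneg fun t _ => ih _)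

theorem main_tendsto (hB3 : B3Statement) :
    Tendsto (fun n : ℕ => expectFinal (phn n) (n ^ 2) (allEdges n)) atTop (nhds 0) := by
  obtain ⟨C₀, hC⟩ := hB3
  have hev : ∀ᶠ n : ℕ in atTop, expectFinal (phn n) (n ^ 2) (allEdges n) ≤ maj n := by
    filter_upwards [params_exist, LL_tendsto.eventually_ge_atTop (max C₀ 200),
      DD_tendsto.eventually_ge_atTop 1, log_DD_le, log_LL_le C₀, DD_le_pow, volume_eventually,
      eventually_ge_atTop 1] with n hpar hL hDD hlogDD hlogLL hDDpow hvol hn1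
    obtain ⟨i₁, hreg, hcb, hDlo, hDup⟩ := hpar
    have hn0 : 0 < (n : ℝ) := hreg.n_pos
    have hn1' : (1 : ℝ) ≤ n := by exact_mod_cast hn1
    have hyb : 0 < yb n i₁ := hreg.yb_pos le_rfl
    have hD1 : 1 ≤ yb n i₁ := hDD.trans hDlo
    have hLpos := hreg.L_pos
    have hLD : Real.log (yb n i₁) ≤ LL n :=
      (Real.log_le_log hyb hDup).trans hlogDD
    have hLD' : C₀ * (Real.log (LL n)) ^ 2 ≤ Real.log (yb n i₁) :=
      hlogLL.trans (Real.log_le_log (by linarith) hDlo)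
    obtain ⟨d, hd, hbounds⟩ := hC (yb n i₁) (LL n) hD1 ((le_max_left _ _).trans hL) hLD hLD'
    obtain ⟨hX, hY⟩ := hvol (yb n i₁) hD1 hDup d hd
    have hε1 : 10 / LL n ≤ 1 := by
      rw [div_le_one hLpos]
      linarith [(le_max_right C₀ 200).trans hL]
    have hdL : ((4 * d + 2 : ℕ) : ℝ) ≤ LL n * Real.sqrt (yb n i₁) := by
      have h1 : ((4 * d + 2 : ℕ) : ℝ) ≤ 124 * LL n + 2 := by
        push_cast
        linarith
      have h2 := hreg.sqrt_yb_ge le_rfl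
      have h3 : (LL n) ^ 2 ≤ (LL n) ^ 10 :=
        pow_le_pow_right₀ (by linarith [hreg.L6]) (by norm_num)
      have h4 := hreg.L6
      nlinarith [mul_le_mul_of_nonneg_left (h3.trans h2) hLpos.le]
    have hB : ∀ E : Finset (Sym2 (Fin n)), GoodOut n (LL n) i₁ E →
        (∑ e ∈ E, hh (triangles E) tr d true e none 1) ≤
          (1 + 10 / LL n) * E.card / Real.sqrt (1 + 2 * yb n i₁) ∧
        (1 - 10 / LL n) * E.card / Real.sqrt (1 + 2 * yb n i₁) ≤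
          ∑ e ∈ E, hh (triangles E) tr d false e none 1 := by
      intro E hE
      exact hbounds (Sym2 (Fin n)) (Finset (Fin n)) (triangles E) tr E
        (fun t ht => card_tr_of_mem ht) (fun t ht => tr_subset_of_mem ht) hE.dg hE.cor
    have key := total_bound hreg hcb (by positivity) hε1 hB hdL _ _ hX hY
    refine key.trans ?_
    -- bound the five terms
    set m₀ := MM n i₁ / Real.sqrt (1 + 2 * yb n i₁) with hm₀
    have hMM : 0 < MM n i₁ := hreg.MM_pos le_rfl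
    have hm₀0 : 0 ≤ m₀ := by positivity
    have hm₀n : m₀ ≤ (n : ℝ) ^ ((3 : ℝ) / 2) := m0_le hreg
    have hn32 : ((n : ℝ) ^ ((3 : ℝ) / 2)) ^ 2 = (n:ℝ) ^ 3 := by
      rw [← Real.rpow_natCast, ← Real.rpow_mul hn0.le]
      norm_num
    have hm₀2 : m₀ ^ 2 ≤ (n:ℝ) ^ 3 := by
      rw [← hn32]
      gcongr
    have hMMn : MM n i₁ ≤ (n:ℝ) ^ 2 := by
      have h1 : MM n i₁ ≤ NN n := by
        unfold MM
        have : (0:ℝ) ≤ 3 * i₁ := by positivity
        linarith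
      have h2 : NN n ≤ (n:ℝ) ^ 2 := by
        unfold NN
        exact_mod_cast Nat.choose_le_pow n 2
      linarith
    have t1 : 2 / (n:ℝ) ^ 3 * (5 * (10 / LL n) * m₀ ^ 2) ≤ 100 / LL n := by
      calc 2 / (n:ℝ) ^ 3 * (5 * (10 / LL n) * m₀ ^ 2)
          ≤ 2 / (n:ℝ) ^ 3 * (5 * (10 / LL n) * (n:ℝ) ^ 3) := by gcongr
        _ = 100 / LL n := by field_simp; norm_num
    have t2 : 2 / (n:ℝ) ^ 3 * (MM n i₁ * (n : ℝ) ^ ((1:ℝ) / 10)) ≤ 2 * (n:ℝ) ^ (-(1:ℝ) / 2) := by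
      calc 2 / (n:ℝ) ^ 3 * (MM n i₁ * (n : ℝ) ^ ((1:ℝ) / 10))
          ≤ 2 / (n:ℝ) ^ 3 * ((n:ℝ) ^ 2 * (n : ℝ) ^ ((1:ℝ) / 2)) := by
            have := Real.rpow_le_rpow_of_exponent_le hn1' (show (1:ℝ) / 10 ≤ 1 / 2 by norm_num)
            gcongr
        _ = 2 * ((n:ℝ) ^ (-(3:ℝ)) * ((n:ℝ) ^ (2:ℝ) * (n : ℝ) ^ ((1:ℝ) / 2))) := by
            rw [Real.rpow_neg hn0.le]
            norm_cast
            field_simp
        _ = 2 * (n:ℝ) ^ (-(1:ℝ) / 2) := by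
            rw [← Real.rpow_add hn0, ← Real.rpow_add hn0]
            norm_num
    have t3 : 2 * (m₀ / (n : ℝ) ^ ((3 : ℝ) / 2) - c0) ^ 2 ≤ 2 * (1 / (n:ℝ) + 1 / DD n) ^ 2 := by
      have h1 := m0_close hreg
      have h2 : 1 / yb n i₁ ≤ 1 / DD n := one_div_le_one_div_of_le (by linarith) hDlo
      have h3 : |m₀ / (n : ℝ) ^ ((3 : ℝ) / 2) - c0| ≤ 1 / (n:ℝ) + 1 / DD n := by
        refine h1.trans ?_
        linarith
      have h4 := sq_le_sq' (abs_le.mp h3).1 (abs_le.mp h3).2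
      linarith
    have t4 : 2 / (n:ℝ) ^ 3 * (4 * MM n i₁) * (n * (n : ℝ) ^ ((1:ℝ) / 5)) ≤
        16 * (n:ℝ) ^ (-(1:ℝ) / 4) := by
      have h1 : Real.sqrt (1 + 2 * yb n i₁) ≤ 2 * (n : ℝ) ^ ((1:ℝ) / 200) := by
        apply Real.sqrt_le_iff.mpr
        refine ⟨by positivity, ?_⟩
        have h2 : ((n : ℝ) ^ ((1:ℝ) / 200)) ^ 2 = (n : ℝ) ^ ((1:ℝ) / 100) := by
          rw [← Real.rpow_natCast, ← Real.rpow_mul hn0.le]
          norm_num
        rw [mul_pow, h2]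
        linarith
      have h3 : MM n i₁ ≤ (n : ℝ) ^ ((3 : ℝ) / 2) * (2 * (n : ℝ) ^ ((1:ℝ) / 200)) := by
        have h4 : MM n i₁ = m₀ * Real.sqrt (1 + 2 * yb n i₁) := by
          rw [hm₀, div_mul_cancel₀]
          exact (Real.sqrt_pos.mpr (by linarith)).ne'
        rw [h4]
        gcongr
      calc 2 / (n:ℝ) ^ 3 * (4 * MM n i₁) * (n * (n : ℝ) ^ ((1:ℝ) / 5))
          ≤ 2 / (n:ℝ) ^ 3 * (4 * ((n : ℝ) ^ ((3 : ℝ) / 2) * (2 * (n : ℝ) ^ ((1:ℝ) / 200)))) *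
            (n * (n : ℝ) ^ ((1:ℝ) / 5)) := by gcongr
        _ = 16 * ((n:ℝ) ^ (-(3:ℝ)) * ((n : ℝ) ^ ((3 : ℝ) / 2) * (n : ℝ) ^ ((1:ℝ) / 200) *
            ((n:ℝ) ^ (1:ℝ) * (n : ℝ) ^ ((1:ℝ) / 5)))) := by
            rw [Real.rpow_neg hn0.le, Real.rpow_one]
            norm_cast
            field_simp
            ring
        _ = 16 * (n:ℝ) ^ (-(59:ℝ) / 200) := by
            rw [← Real.rpow_add hn0, ← Real.rpow_add hn0, ← Real.rpow_add hn0,
              ← Real.rpow_add hn0]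
            norm_num
        _ ≤ 16 * (n:ℝ) ^ (-(1:ℝ) / 4) := by
            have := Real.rpow_le_rpow_of_exponent_le hn1'
              (show -(59:ℝ) / 200 ≤ -(1:ℝ) / 4 by norm_num)
            linarith
    have t5 : 4 * (n:ℝ) / (n : ℝ) ^ 10 ≤ 4 / (n:ℝ) := by
      rw [div_le_div_iff₀ (by positivity) hn0]
      have : (n:ℝ) ^ 2 ≤ (n:ℝ) ^ 10 := pow_le_pow_right₀ hn1' (by norm_num)
      nlinarith
    unfold maj
    rw [mul_add (2 / (n:ℝ) ^ 3)]
    linarith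
  refine squeeze_zero' (Eventually.of_forall fun n => ?_) hev maj_tendsto
  exact expectFinal_nonneg _ (fun e => by unfold phn; positivity) _ _

end Crest.Agent.TRem
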