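import Crest.Agent.TRem.A1a

/-!
# Row 30, A1c: the number of triangles after the removal of one triangle
-/

namespace Crest.Agent.TRem

open Finset Crest.CombinatoricsR.TriangleRemoval

variable {n : ℕ} {E : Finset (Sym2 (Fin n))} {T : Finset (Fin n)}

private theorem tri_eq_of_mem {T : Finset (Fin n)} (hT : T.card = 3) {a b c : Fin n} (ha : a ∈ T)
    (hb : b ∈ T) (hc : c ∈ T) (hab : a ≠ b) (hac : a ≠ c) (hbc : b ≠ c) : T = {a, b, c} := by
  symm
  apply Finset.eq_of_subset_of_card_le
  · intro x hx
    simp only [Finset.mem_insert, Finset.mem_singleton] at hx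
    rcases hx with rfl | rfl | rfl <;> assumption
  · rw [hT, Finset.card_eq_three.2 ⟨a, b, c, hab, hac, hbc, rfl⟩]

/-- sums over the ordered triples of the triangles -/
private theorem sum_tri_ordered (hE : E ⊆ allEdges n) (g : Fin n → Fin n → Fin n → ℝ) :
    ∑ T ∈ triangles E, ∑ a ∈ T, ∑ b ∈ T.erase a, ∑ c ∈ (T.erase a).erase b, g a b c =
      ∑ a, ∑ b, ∑ c, adj E a b * adj E a c * adj E b c * g a b c := by
  have h1 : ∀ T : Finset (Fin n), ∑ a ∈ T, ∑ b ∈ T.erase a, ∑ c ∈ (T.erase a).erase b, g a b c =
      ∑ a, ∑ b, ∑ c, if a ∈ T ∧ (b ≠ a ∧ b ∈ T) ∧ (c ≠ b ∧ c ≠ a ∧ c ∈ T) then g a b c else 0 := by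
    intro T
    rw [← Finset.sum_filter_add_sum_filter_not univ (fun a => a ∈ T)]
    rw [show (univ.filter (fun a => a ∈ T)) = T by ext; simp]
    rw [Finset.sum_eq_zero (s := univ.filter (fun a => ¬ a ∈ T)), add_zero]
    · refine Finset.sum_congr rfl fun a ha => ?_
      rw [← Finset.sum_filter_add_sum_filter_not univ (fun b => b ∈ T.erase a)]
      rw [show (univ.filter (fun b => b ∈ T.erase a)) = T.erase a by ext; simp]
      rw [Finset.sum_eq_zero (s := univ.filter (fun b => ¬ b ∈ T.erase a)), add_zero]
      · refine Finset.sum_congr rfl fun b hb => ?_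
        rw [← Finset.sum_filter]
        refine Finset.sum_congr ?_ fun _ _ => rfl
        ext c
        rw [Finset.mem_erase] at hb
        simp [ha, hb.1, hb.2]
      · intro b hb
        refine Finset.sum_eq_zero fun c _ => ?_
        rw [if_neg]
        rintro ⟨_, hb', _⟩
        simp only [Finset.mem_filter, Finset.mem_univ, true_and, Finset.mem_erase] at hb
        exact hb hb'
    · intro a ha
      refine Finset.sum_eq_zero fun b _ => Finset.sum_eq_zero fun c _ => ?_
      rw [if_neg]
      rintro ⟨ha', _⟩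
      simp only [Finset.mem_filter, Finset.mem_univ, true_and] at ha
      exact ha ha'
  simp only [h1]
  rw [Finset.sum_comm]
  refine Finset.sum_congr rfl fun a _ => ?_
  rw [Finset.sum_comm]
  refine Finset.sum_congr rfl fun b _ => ?_
  rw [Finset.sum_comm]
  refine Finset.sum_congr rfl fun c _ => ?_
  by_cases hab : a = b
  · subst hab
    rw [adj_self hE, zero_mul, zero_mul, zero_mul]
    refine Finset.sum_eq_zero fun T _ => ?_
    rw [if_neg]
    rintro ⟨_, ⟨h, _⟩, _⟩
    exact h rfl
  by_cases hac : a = c
  · subst hac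
    rw [adj_self hE, mul_zero, zero_mul, zero_mul]
    refine Finset.sum_eq_zero fun T _ => ?_
    rw [if_neg]
    rintro ⟨_, _, _, h, _⟩
    exact h rfl
  by_cases hbc : b = c
  · subst hbc
    rw [adj_self hE b, mul_zero, zero_mul]
    refine Finset.sum_eq_zero fun T _ => ?_
    rw [if_neg]
    rintro ⟨_, _, h, _⟩
    exact h rfl
  by_cases hmem : ({a, b, c} : Finset (Fin n)) ∈ triangles E
  · have hadj := (mem_tri_iff hab hac hbc).1 hmem
    rw [hadj.1, hadj.2.1, hadj.2.2, one_mul, one_mul, one_mul]
    rw [Finset.sum_eq_single_of_mem _ hmem]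
    · rw [if_pos]
      refine ⟨by simp, ⟨fun h => hab h.symm, by simp⟩, fun h => hbc h.symm, fun h => hac h.symm, by simp⟩
    · intro T hT hne
      rw [if_neg]
      rintro ⟨h1, ⟨_, h2⟩, _, _, h3⟩
      exact hne (tri_eq_of_mem (mem_tri_card hT) h1 h2 h3 hab hac hbc)
  · have hz : adj E a b * adj E a c * adj E b c = 0 := by
      rcases adj_eq_zero_or_one E a b with h1 | h1
      · rw [h1]; ring
      rcases adj_eq_zero_or_one E a c with h2 | h2
      · rw [h2]; ring
      rcases adj_eq_zero_or_one E b c with h3 | h3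
      · rw [h3]; ring
      exact absurd ((mem_tri_iff hab hac hbc).2 ⟨h1, h2, h3⟩) hmem
    rw [hz, zero_mul]
    refine Finset.sum_eq_zero fun T hT => ?_
    rw [if_neg]
    rintro ⟨h1, ⟨_, h2⟩, _, _, h3⟩
    exact hmem (tri_eq_of_mem (mem_tri_card hT) h1 h2 h3 hab hac hbc ▸ hT)

private theorem sum_third (hT : T.card = 3) {a b : Fin n} (ha : a ∈ T) (hb : b ∈ T.erase a) :
    ∑ _c ∈ (T.erase a).erase b, (1 : ℝ) = 1 := by
  rw [Finset.sum_const, Finset.card_erase_of_mem hb, Finset.card_erase_of_mem ha, hT]
  norm_num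

private theorem six_QQ (hE : E ⊆ allEdges n) :
    6 * QQ E = ∑ a, ∑ b, ∑ c, adj E a b * adj E a c * adj E b c := by
  have h := sum_tri_ordered hE (fun _ _ _ => (1 : ℝ))
  simp only [mul_one] at h
  rw [← h]
  have h2 : ∀ T ∈ triangles E, ∑ a ∈ T, ∑ b ∈ T.erase a, ∑ _c ∈ (T.erase a).erase b, (1 : ℝ) = 6 := by
    intro T hT
    have hc := mem_tri_card hT
    rw [Finset.sum_congr rfl fun a ha => Finset.sum_congr rfl fun b hb => sum_third hc ha hb]
    rw [Finset.sum_congr rfl fun a ha => by
      rw [Finset.sum_const, Finset.card_erase_of_mem ha, hc]]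
    rw [Finset.sum_const, hc]
    norm_num
  rw [Finset.sum_congr rfl h2, Finset.sum_const, nsmul_eq_mul]
  unfold QQ
  ring

/-- Removing the pairs of the triangle `T` destroys the triangles sharing a pair with `T`:
for every pair `ab` of `T` there are `cod a b` triangles containing it, `T` itself is counted three
times and every other one once (two distinct triangles share at most one pair). The double sum
counts every pair of `T` twice. -/
theorem QQ_sdiff (hE : E ⊆ allEdges n) (hT : T ∈ triangles E) :
    QQ (E \ T.sym2) = QQ E - (1 / 2) * ∑ a ∈ T, ∑ b ∈ T.erase a, cod E a b + 2 := by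
  have h0 := six_QQ hE
  have h1 := six_QQ (sdiff_subset_allEdges (T := T) hE)
  have hc := mem_tri_card hT
  -- the pairs of `T`
  have hP : ∑ a ∈ T, ∑ b ∈ T.erase a, cod E a b = ∑ a, ∑ b, adj E a b * II a b T * cod E a b := by
    rw [← Finset.sum_filter_add_sum_filter_not univ (fun a => a ∈ T)]
    rw [show (univ.filter (fun a => a ∈ T)) = T by ext; simp]
    rw [Finset.sum_eq_zero (s := univ.filter (fun a => ¬ a ∈ T)), add_zero]
    · refine Finset.sum_congr rfl fun a ha => ?_
      rw [← Finset.sum_filter_add_sum_filter_not univ (fun b => b ∈ T.erase a)]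
      rw [show (univ.filter (fun b => b ∈ T.erase a)) = T.erase a by ext; simp]
      rw [Finset.sum_eq_zero (s := univ.filter (fun b => ¬ b ∈ T.erase a)), add_zero]
      · refine Finset.sum_congr rfl fun b hb => ?_
        rw [Finset.mem_erase] at hb
        rw [mem_tri_adj hT ha hb.2 (Ne.symm hb.1)]
        unfold II
        rw [if_pos ⟨ha, hb.2⟩]
        ring
      · intro b hb
        simp only [Finset.mem_filter, Finset.mem_univ, true_and, Finset.mem_erase, not_and] at hb
        by_cases hab : b = a
        · rw [hab, adj_self hE]; ring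
        · unfold II
          rw [if_neg (fun hh => hb hab hh.2)]; ring
    · intro a ha
      simp only [Finset.mem_filter, Finset.mem_univ, true_and] at ha
      refine Finset.sum_eq_zero fun b _ => ?_
      unfold II
      rw [if_neg (fun hh => ha hh.1)]; ring
  -- the triple of `T`
  have hQ : ∑ a, ∑ b, ∑ c, adj E a b * adj E a c * adj E b c * (II a b T * II a c T) = 6 := by
    rw [← sum_tri_ordered hE (fun a b c => II a b T * II a c T)]
    rw [Finset.sum_eq_single_of_mem _ hT]
    · rw [Finset.sum_congr rfl fun a ha => Finset.sum_congr rfl fun b hb =>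
        (Finset.sum_congr rfl fun c hc' => (by
          have hbT := (Finset.mem_erase.1 hb).2
          have hcT := (Finset.mem_erase.1 (Finset.mem_erase.1 hc').2).2
          unfold II
          rw [if_pos ⟨ha, hbT⟩, if_pos ⟨ha, hcT⟩, mul_one] :
            II a b T * II a c T = 1)).trans (sum_third hc ha hb)]
      rw [Finset.sum_congr rfl fun a ha => by
        rw [Finset.sum_const, Finset.card_erase_of_mem ha, hc]]
      rw [Finset.sum_const, hc]
      norm_num
    · intro T' hT' hne
      refine Finset.sum_eq_zero fun a ha => Finset.sum_eq_zero fun b hb =>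
        Finset.sum_eq_zero fun c hc' => ?_
      have hb2 := Finset.mem_erase.1 hb
      have hc2 := Finset.mem_erase.1 hc'
      have hc3 := Finset.mem_erase.1 hc2.2
      unfold II
      by_cases h1 : a ∈ T ∧ b ∈ T
      · by_cases h2 : a ∈ T ∧ c ∈ T
        · exfalso
          apply hne
          rw [tri_eq_of_mem hc h1.1 h1.2 h2.2 (Ne.symm hb2.1) (Ne.symm hc3.1) (Ne.symm hc2.1),
            tri_eq_of_mem (mem_tri_card hT') ha hb2.2 hc3.2 (Ne.symm hb2.1) (Ne.symm hc3.1)
              (Ne.symm hc2.1)]
        · rw [if_neg h2, mul_zero]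
      · rw [if_neg h1, zero_mul]
  have key : ∀ a b c : Fin n, adj (E \ T.sym2) a b * adj (E \ T.sym2) a c * adj (E \ T.sym2) b c =
      adj E a b * adj E a c * adj E b c - (adj E a b * II a b T * (adj E a c * adj E b c) +
        adj E a c * II a c T * (adj E a b * adj E c b) +
        adj E b c * II b c T * (adj E b a * adj E c a)) +
      2 * (adj E a b * adj E a c * adj E b c * (II a b T * II a c T)) := by
    intro a b c
    rw [adj_sdiff, adj_sdiff, adj_sdiff, adj_comm E c b, adj_comm E b a, adj_comm E c a]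
    have e1 : II a b T * II a c T = II a b T * II b c T := by
      unfold II
      by_cases ha : a ∈ T <;> by_cases hb : b ∈ T <;> by_cases hc' : c ∈ T <;> simp [ha, hb, hc']
    have e2 : II a c T * II b c T = II a b T * II a c T := by
      unfold II
      by_cases ha : a ∈ T <;> by_cases hb : b ∈ T <;> by_cases hc' : c ∈ T <;> simp [ha, hb, hc']
    have e3 : II a b T * II a c T * II b c T = II a b T * II a c T := by
      rw [mul_assoc, e2]
      unfold II
      by_cases ha : a ∈ T <;> by_cases hb : b ∈ T <;> by_cases hc' : c ∈ T <;> simp [ha, hb, hc']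
    linear_combination (adj E a b * adj E a c * adj E b c) * (-e1 + e2 - e3)
  have hsum : 6 * QQ (E \ T.sym2) = 6 * QQ E -
      3 * (∑ a, ∑ b, adj E a b * II a b T * cod E a b) + 2 * 6 := by
    rw [h1, h0]
    simp only [key, Finset.sum_add_distrib, Finset.sum_sub_distrib]
    rw [← hQ]
    have s1 : ∑ a, ∑ b, ∑ c, adj E a b * II a b T * (adj E a c * adj E b c) =
        ∑ a, ∑ b, adj E a b * II a b T * cod E a b := by
      refine Finset.sum_congr rfl fun a _ => Finset.sum_congr rfl fun b _ => ?_
      unfold cod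
      rw [Finset.mul_sum]
    have s2 : ∑ a, ∑ b, ∑ c, adj E a c * II a c T * (adj E a b * adj E c b) =
        ∑ a, ∑ b, adj E a b * II a b T * cod E a b := by
      rw [← s1]
      refine Finset.sum_congr rfl fun a _ => ?_
      rw [Finset.sum_comm]
    have s3 : ∑ a, ∑ b, ∑ c, adj E b c * II b c T * (adj E b a * adj E c a) =
        ∑ a, ∑ b, adj E a b * II a b T * cod E a b := by
      rw [← s1, Finset.sum_comm]
      refine Finset.sum_congr rfl fun a _ => ?_
      rw [Finset.sum_comm]
    rw [s1, s2, s3]
    simp only [← Finset.mul_sum]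
    ring
  rw [← hP] at hsum
  linarith

/-- each unordered alive pair is counted twice; average over a random triangle of the sum of a
symmetric function over its ordered pairs. -/
theorem Av_pairs (hE : E ⊆ allEdges n) (g : Fin n → Fin n → ℝ) :
    Av (triangles E) (fun T => ∑ a ∈ T, ∑ b ∈ T.erase a, g a b)
      = (∑ a, ∑ b, adj E a b * cod E a b * g a b) / QQ E := by
  unfold Av
  rw [div_eq_inv_mul]
  congr 1
  have h := sum_tri_ordered hE (fun a b _ => g a b)
  have h2 : ∀ T ∈ triangles E, ∑ a ∈ T, ∑ b ∈ T.erase a, ∑ _c ∈ (T.erase a).erase b, g a b =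
      ∑ a ∈ T, ∑ b ∈ T.erase a, g a b := by
    intro T hT
    refine Finset.sum_congr rfl fun a ha => Finset.sum_congr rfl fun b hb => ?_
    have := sum_third (mem_tri_card hT) ha hb
    rw [Finset.sum_const, nsmul_eq_mul] at this
    rw [Finset.sum_const, nsmul_eq_mul]
    rw [mul_one] at this
    rw [this, one_mul]
  rw [Finset.sum_congr rfl h2] at h
  rw [h]
  refine Finset.sum_congr rfl fun a _ => Finset.sum_congr rfl fun b _ => ?_
  unfold cod
  rw [Finset.mul_sum, Finset.sum_mul]
  refine Finset.sum_congr rfl fun c _ => ?_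
  ring

end Crest.Agent.TRem
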