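import Crest.Agent.TRem.A3j
import Crest.Agent.TRem.A1c

/-!
# Row 30, A4th: one-step bounds for θ
-/

namespace Crest.Agent.TRem

open Finset Crest.CombinatoricsR.TriangleRemoval

variable {n : ℕ} {L : ℝ} {i₁ i : ℕ} {σ : St n}

/-- EXACT formula. With `Y_T := (1/2) Σ_{a∈T} Σ_{b∈T\a} (1 + r_ab)` (three pairs),
`Q' = Q - ȳ Y_T + 2` (`QQ_sdiff`, `gd_cod_eq`), `M'ȳ' = Mȳ(1-μ)³`, `3/(Mȳ) = μ/ȳ`, so
`θ' = (θ - μ (Y_T - 2/ȳ))/(1-μ)³`. -/
theorem th_succ (h : Reg n L i₁) (hi : i < i₁) (hI : Inv i σ) (hG : Good L i σ)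
    {T : Finset (Fin n)} (hT : T ∈ triangles σ.E) :
    th (i + 1) (nxt i σ T).E =
      (th i σ.E - mu n i * ((1 / 2) * ∑ a ∈ T, ∑ b ∈ T.erase a, (1 + rr i σ.E a b)
        - 2 / yb n i)) / (1 - mu n i) ^ 3 := by
  have hM := h.MM_pos hi.le
  have hy := h.yb_pos hi.le
  have hM' := h.MM_pos (i := i + 1) hi
  have hy' := h.yb_pos (i := i + 1) hi
  have e1 : (nxt i σ T).E = σ.E \ T.sym2 := rfl
  have e2 : ∑ a ∈ T, ∑ b ∈ T.erase a, cod σ.E a b =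
      yb n i * ∑ a ∈ T, ∑ b ∈ T.erase a, (1 + rr i σ.E a b) := by
    rw [Finset.mul_sum]
    refine Finset.sum_congr rfl fun a _ => ?_
    rw [Finset.mul_sum]
    exact Finset.sum_congr rfl fun b _ => gd_cod_eq h hi.le σ.E a b
  rw [e1]
  unfold th
  rw [QQ_sdiff hI.sub hT, e2]
  have hq : 1 - mu n i ≠ 0 := by
    intro h0
    rw [h.MM_succ hi, h0, mul_zero] at hM'
    exact lt_irrefl _ hM'
  rw [h.MM_succ hi, h.yb_succ hi]
  generalize (∑ a ∈ T, ∑ b ∈ T.erase a, (1 + rr i σ.E a b)) = Y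
  have e3 : 3 * QQ σ.E / (MM n i * yb n i) - mu n i * (1 / 2 * Y - 2 / yb n i) =
      3 * (QQ σ.E - 1 / 2 * (yb n i * Y) + 2) / (MM n i * yb n i) := by
    have hmu : mu n i = 3 / MM n i := rfl
    rw [hmu]
    field_simp
    ring
  rw [e3, div_div]
  congr 1
  ring

/-- AVERAGE of `Y_T`: `Av Y_T = (1/2) Σ_{a,b} A_ab y_ab (1+r_ab)/Q` (`Av_pairs`)
`= (ȳ/(2Q)) Σ_{a,b} A_ab (1+r_ab)²`, and `Σ_{a,b} A_ab (1+r_ab) = 6Q/ȳ = 2Mθ` (`sum_adj_cod`),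
`Σ_{a,b}A_ab = 2M` (`sum_adj`, `Inv.card`). Hence `Σ A(1+r)² = 2Mθ² + Σ A (1+r-θ)²`, and with
`V := (1/2M) Σ_{a,b} A_ab (r_ab - (θ-1))² ∈ [0, 9L²/ȳ]` (variance ≤ second moment of r):
`Av Y_T = (ȳ/(2Q)) 2M (θ² + V) = 3(θ² + V)/θ = 3θ + 3V/θ`. So `|Av Y_T - 3θ| ≤ 27.3 L²/ȳ`. -/
theorem Av_YT (h : Reg n L i₁) (hi : i < i₁) (hI : Inv i σ) (hG : Good L i σ) :
    |Av (triangles σ.E) (fun T => (1 / 2) * ∑ a ∈ T, ∑ b ∈ T.erase a, (1 + rr i σ.E a b))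
      - 3 * th i σ.E| ≤ 273 / 10 * L ^ 2 / yb n i := by
  have hM := h.MM_pos hi.le
  have hy := h.yb_pos hi.le
  have hQ := gd_QQ_pos h hi.le hG
  have hth := gd_th_ge h hi.le hG
  set θ := th i σ.E with hθ
  have hθ0 : 0 < θ := by linarith
  have hQθ : QQ σ.E = MM n i * yb n i * θ / 3 := by
    rw [hθ]
    unfold th
    field_simp
  -- card
  have hcard : (σ.E.card : ℝ) = MM n i := by
    have h1 := hI.card
    unfold MM NN
    have h2 : ((σ.E.card : ℝ)) + 3 * i = (n.choose 2 : ℝ) := by exact_mod_cast h1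
    linarith
  have hS0 : ∑ a, ∑ b, adj σ.E a b = 2 * MM n i := by rw [sum_adj hI.sub, hcard]
  have hS1 : ∑ a, ∑ b, adj σ.E a b * (1 + rr i σ.E a b) = 2 * MM n i * θ := by
    have h1 := sum_adj_cod hI.sub
    have h2 : ∑ a, ∑ b, adj σ.E a b * cod σ.E a b =
        yb n i * ∑ a, ∑ b, adj σ.E a b * (1 + rr i σ.E a b) := by
      rw [Finset.mul_sum]
      refine Finset.sum_congr rfl fun a _ => ?_
      rw [Finset.mul_sum]
      refine Finset.sum_congr rfl fun b _ => ?_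
      rw [gd_cod_eq h hi.le σ.E a b]
      ring
    rw [h2, hQθ] at h1
    have h3 : yb n i * ∑ a, ∑ b, adj σ.E a b * (1 + rr i σ.E a b) = yb n i * (2 * MM n i * θ) := by
      rw [h1]; ring
    exact mul_left_cancel₀ hy.ne' h3
  -- the variance
  set V := ∑ a, ∑ b, adj σ.E a b * (rr i σ.E a b - (θ - 1)) ^ 2 with hV
  have hV0 : 0 ≤ V := Finset.sum_nonneg fun a _ => Finset.sum_nonneg fun b _ =>
    mul_nonneg (adj_nonneg _ _ _) (sq_nonneg _)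
  have hS2 : ∑ a, ∑ b, adj σ.E a b * (1 + rr i σ.E a b) ^ 2 = V + 2 * MM n i * θ ^ 2 := by
    have h1 : ∀ a b, adj σ.E a b * (1 + rr i σ.E a b) ^ 2 =
        adj σ.E a b * (rr i σ.E a b - (θ - 1)) ^ 2 +
          (2 * θ * (adj σ.E a b * (1 + rr i σ.E a b)) - θ ^ 2 * adj σ.E a b) := by
      intro a b; ring
    simp only [h1, Finset.sum_add_distrib, Finset.sum_sub_distrib, ← Finset.mul_sum]
    rw [hS0, hS1]
    ring
  have hVr : V ≤ ∑ a, ∑ b, adj σ.E a b * rr i σ.E a b ^ 2 := by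
    have h1 : ∀ a b, adj σ.E a b * rr i σ.E a b ^ 2 =
        adj σ.E a b * (rr i σ.E a b - (θ - 1)) ^ 2 +
          (2 * (θ - 1) * (adj σ.E a b * (1 + rr i σ.E a b)) -
            (θ ^ 2 - 1) * adj σ.E a b) := by
      intro a b; ring
    simp only [h1, Finset.sum_add_distrib, Finset.sum_sub_distrib, ← Finset.mul_sum]
    rw [hS0, hS1, ← hV]
    nlinarith [mul_nonneg hM.le (sq_nonneg (θ - 1))]
  have hx : (L / Real.sqrt (yb n i)) ^ 2 = L ^ 2 / yb n i := by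
    rw [div_pow, Real.sq_sqrt hy.le]
  have hVb : V ≤ 9 * (L ^ 2 / yb n i) * (2 * MM n i) := by
    refine hVr.trans ?_
    rw [← hS0, Finset.mul_sum]
    refine Finset.sum_le_sum fun a _ => ?_
    rw [Finset.mul_sum]
    refine Finset.sum_le_sum fun b _ => ?_
    rcases eq_or_ne a b with rfl | hab
    · rw [adj_self hI.sub]; simp
    · have h1 := gd_rr_le h hi.le hG hab
      have h2 : rr i σ.E a b ^ 2 ≤ 9 * (L ^ 2 / yb n i) := by
        rw [← sq_abs, ← hx]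
        have h3 : |rr i σ.E a b| ^ 2 ≤ (3 * (L / Real.sqrt (yb n i))) ^ 2 :=
          pow_le_pow_left₀ (abs_nonneg _) h1 2
        nlinarith
      have h3 := adj_nonneg σ.E a b
      nlinarith
  -- the average
  have hAv : Av (triangles σ.E) (fun T => (1 / 2) * ∑ a ∈ T, ∑ b ∈ T.erase a, (1 + rr i σ.E a b)) =
      3 * (V + 2 * MM n i * θ ^ 2) / (2 * MM n i * θ) := by
    rw [Av_mul, Av_pairs hI.sub]
    have h2 : ∑ a, ∑ b, adj σ.E a b * cod σ.E a b * (1 + rr i σ.E a b) =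
        yb n i * ∑ a, ∑ b, adj σ.E a b * (1 + rr i σ.E a b) ^ 2 := by
      rw [Finset.mul_sum]
      refine Finset.sum_congr rfl fun a _ => ?_
      rw [Finset.mul_sum]
      refine Finset.sum_congr rfl fun b _ => ?_
      rw [gd_cod_eq h hi.le σ.E a b]
      ring
    rw [h2, hS2, hQθ]
    field_simp
  have hdiff : 3 * (V + 2 * MM n i * θ ^ 2) / (2 * MM n i * θ) - 3 * θ =
      3 * V / (2 * MM n i * θ) := by
    field_simp
    ring
  rw [hAv, hdiff, abs_of_nonneg (by positivity), div_le_iff₀ (by positivity)]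
  have hL2 : 0 ≤ L ^ 2 / yb n i := by positivity
  have h5 : 27 * (L ^ 2 / yb n i) ≤ 273 / 10 * (L ^ 2 / yb n i) * θ := by nlinarith
  calc 3 * V ≤ 3 * (9 * (L ^ 2 / yb n i) * (2 * MM n i)) := by linarith
    _ = 27 * (L ^ 2 / yb n i) * (2 * MM n i) := by ring
    _ ≤ (273 / 10 * (L ^ 2 / yb n i) * θ) * (2 * MM n i) := by gcongr
    _ = _ := by ring

/-- `|Y_T - 3| ≤ 9x` -/
private theorem A4th_YT (h : Reg n L i₁) (hi : i < i₁) (hG : Good L i σ)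
    {T : Finset (Fin n)} (hT : T ∈ triangles σ.E) :
    |(1 / 2) * ∑ a ∈ T, ∑ b ∈ T.erase a, (1 + rr i σ.E a b) - 3| ≤
      9 * (L / Real.sqrt (yb n i)) := by
  have hc := mem_tri_card hT
  have hcard : ∀ a ∈ T, (T.erase a).card = 2 := by
    intro a ha
    rw [Finset.card_erase_of_mem ha, hc]
  have h1 : ∑ a ∈ T, ∑ b ∈ T.erase a, (1 + rr i σ.E a b) =
      6 + ∑ a ∈ T, ∑ b ∈ T.erase a, rr i σ.E a b := by
    have h2 : ∑ a ∈ T, ∑ b ∈ T.erase a, (1 + rr i σ.E a b) =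
        ∑ a ∈ T, (2 + ∑ b ∈ T.erase a, rr i σ.E a b) := by
      refine Finset.sum_congr rfl fun a ha => ?_
      rw [Finset.sum_add_distrib, Finset.sum_const, hcard a ha]
      norm_num
    rw [h2, Finset.sum_add_distrib, Finset.sum_const, hc]
    norm_num
  have h3 : |∑ a ∈ T, ∑ b ∈ T.erase a, rr i σ.E a b| ≤ 6 * (3 * (L / Real.sqrt (yb n i))) := by
    refine (Finset.abs_sum_le_sum_abs _ _).trans ?_
    have h4 : ∀ a ∈ T, |∑ b ∈ T.erase a, rr i σ.E a b| ≤ 2 * (3 * (L / Real.sqrt (yb n i))) := by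
      intro a ha
      refine (Finset.abs_sum_le_sum_abs _ _).trans ?_
      have h5 : ∀ b ∈ T.erase a, |rr i σ.E a b| ≤ 3 * (L / Real.sqrt (yb n i)) := fun b hb =>
        gd_rr_le h hi.le hG (Finset.ne_of_mem_erase hb).symm
      refine (Finset.sum_le_card_nsmul _ _ _ h5).trans (le_of_eq ?_)
      rw [hcard a ha, nsmul_eq_mul]
      norm_num
    refine (Finset.sum_le_card_nsmul _ _ _ h4).trans (le_of_eq ?_)
    rw [hc, nsmul_eq_mul]
    push_cast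
    ring
  rw [h1]
  have h4 := abs_le.mp h3
  rw [abs_le]
  constructor <;> linarith [h4.1, h4.2]

/-- numerical facts -/
private theorem A4th_num (h : Reg n L i₁) (hi : i < i₁) :
    0 < L / Real.sqrt (yb n i) ∧ (L / Real.sqrt (yb n i)) ^ 2 = L ^ 2 / yb n i ∧
      2 / yb n i ≤ 1 / 100 * (L ^ 2 / yb n i) ∧ mu n i ≤ 1 / 100 * (L ^ 2 / yb n i) ∧
      2 / yb n i ≤ L / Real.sqrt (yb n i) / 100 ∧ mu n i ≤ L / Real.sqrt (yb n i) / 100 ∧
      mu n i ≤ 1 / 1000 := by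
  have hy := h.yb_pos hi.le
  have hL := h.L_pos
  have hL6 := h.L6
  have hsq := h.sqrt_yb_ge hi.le
  have hs0 : 0 < Real.sqrt (yb n i) := Real.sqrt_pos.mpr hy
  have hss : Real.sqrt (yb n i) * Real.sqrt (yb n i) = yb n i := Real.mul_self_sqrt hy.le
  have hmy := h.mu_yb hi.le
  have hL1 : 1 ≤ L := by linarith
  have hmy' : mu n i * yb n i ≤ 1 := hmy.trans (by
    rw [div_le_one (by positivity)]
    exact one_le_pow₀ hL1)
  have hL2 : (10:ℝ) ^ 6 ≤ L ^ 2 := by nlinarith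
  have hL10 : L ≤ L ^ 10 := le_self_pow₀ hL1 (by norm_num)
  have hs1 : (10:ℝ) ^ 6 ≤ Real.sqrt (yb n i) := hL6.trans (hL10.trans hsq)
  have hy1 : (10:ℝ) ^ 6 ≤ yb n i := by nlinarith
  have hmu : mu n i ≤ 1 / yb n i := by rwa [le_div_iff₀ hy]
  have e1 : 1 / yb n i = 1 / Real.sqrt (yb n i) * (1 / Real.sqrt (yb n i)) := by
    rw [← hss]
    field_simp
    rw [Real.sqrt_sq hs0.le]
  have h1 : 2 / yb n i ≤ 1 / 100 * (L ^ 2 / yb n i) := by
    rw [← mul_div_assoc]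
    apply div_le_div_of_nonneg_right _ hy.le
    linarith
  have h2 : 1 / yb n i ≤ 2 / yb n i := by
    apply div_le_div_of_nonneg_right _ hy.le
    norm_num
  have h3 : 2 / yb n i ≤ L / Real.sqrt (yb n i) / 100 := by
    rw [div_div, div_le_div_iff₀ hy (by positivity)]
    nlinarith
  refine ⟨by positivity, ?_, h1, by linarith, h3, by linarith, ?_⟩
  · rw [div_pow, Real.sq_sqrt hy.le]
  · have h4 : 1 / yb n i ≤ 1 / 10 ^ 6 := one_div_le_one_div_of_le (by norm_num) hy1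
    linarith

private theorem A4th_est {μ θ y Y z c q : ℝ} (hμ0 : 0 < μ) (hz : 0 < z)
    (h1 : |3 * θ - Y| ≤ c * z) (_hc : 0 ≤ c) (hy : 0 ≤ y) (hy2 : y ≤ z / 100) (hμ : μ ≤ z / 100)
    (hμ1 : μ ≤ 1 / 1000) (hθ0 : 99 / 100 ≤ θ) (hθ1 : θ ≤ 101 / 100) (hq : 99 / 100 ≤ q) :
    |(μ * (3 * θ - Y) + (μ * y + θ * (μ ^ 3 - 3 * μ ^ 2))) / q| ≤
      μ * z * (c + 1 / 5) * (100 / 99) := by
  have hq0 : 0 < q := by linarith
  have hμz : 0 < μ * z := by positivity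
  have h2 : |μ * (3 * θ - Y)| ≤ μ * (c * z) := by
    rw [abs_mul, abs_of_pos hμ0]
    gcongr
  have e6 : 0 ≤ 3 * μ ^ 2 - μ ^ 3 := by nlinarith [mul_nonneg hμ0.le hμ0.le]
  have e5 : 3 * μ ^ 2 - μ ^ 3 ≤ 3 * μ * (z / 100) := by
    have : μ ^ 2 ≤ μ * (z / 100) := by
      rw [pow_two]; gcongr
    have h3 : 0 ≤ μ ^ 3 := by positivity
    linarith
  have e4 : θ * (3 * μ ^ 2 - μ ^ 3) ≤ μ * z / 20 := by
    calc θ * (3 * μ ^ 2 - μ ^ 3) ≤ 101 / 100 * (3 * μ * (z / 100)) := by gcongr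
      _ ≤ μ * z / 20 := by linarith
  have e7 : 0 ≤ θ * (3 * μ ^ 2 - μ ^ 3) := mul_nonneg (by linarith) e6
  have e3 : μ * y ≤ μ * (z / 100) := by gcongr
  have e8 : 0 ≤ μ * y := by positivity
  have h3 : |μ * y + θ * (μ ^ 3 - 3 * μ ^ 2)| ≤ μ * z / 5 := by
    have e9 : μ * y + θ * (μ ^ 3 - 3 * μ ^ 2) = μ * y - θ * (3 * μ ^ 2 - μ ^ 3) := by ring
    rw [e9, abs_le]
    constructor <;> linarith
  have h4 := abs_add_le (μ * (3 * θ - Y)) (μ * y + θ * (μ ^ 3 - 3 * μ ^ 2))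
  rw [abs_div, abs_of_pos hq0, div_le_iff₀ hq0]
  have h5 : 0 ≤ μ * z * (c + 1 / 5) * (100 / 99) := by positivity
  calc _ ≤ _ := h4
    _ ≤ μ * (c * z) + μ * z / 5 := by linarith
    _ = μ * z * (c + 1 / 5) * (100 / 99) * (99 / 100) := by ring
    _ ≤ _ := by gcongr

/-- From `th_succ`: `θ' - θ = [θ(1-(1-μ)³) - μ Y_T + 2μ/ȳ]/(1-μ)³`,
`1-(1-μ)³ = 3μ - 3μ² + μ³`.
DRIFT: `Av`: `[3μθ - μ Av Y_T + 2μ/ȳ + O(3.1μ²)]/(1-μ)³`, `≤ 1.01(27.3 μL²/ȳ + 2μ/ȳ + 3.2μ²) ≤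
30 μL²/ȳ` (`μ ≤ 1/(L^{19}ȳ)`).
JUMP: `Y_T = 3 + Σ r`, `|Σ r| ≤ 9x`, so `|θ'-θ| ≤ 1.01 μ(3|θ-1| + 9x + 2/ȳ + 3.2μ) ≤ 15μx`.
QV: square of the jump. -/
theorem step_th (h : Reg n L i₁) (hi : i < i₁) (hI : Inv i σ) (hG : Good L i σ) :
    OneStep i σ (fun i σ => th i σ.E - 1)
      (30 * mu n i * L ^ 2 / yb n i) ((15 * mu n i * (L / Real.sqrt (yb n i))) ^ 2)
      (15 * mu n i * (L / Real.sqrt (yb n i))) := by
  obtain ⟨hx0, hx2, k1, k2, k3, k4, k5⟩ := A4th_num h hi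
  have hmu0 := h.mu_pos hi.le
  have hne := gd_nonempty h hi.le hG
  have hth := gd_th_ge h hi.le hG
  have hth1 := gd_th_le h hi.le hG
  have hx1 : L / Real.sqrt (yb n i) ≤ 1 := by
    refine (h.x_le hi.le).trans ?_
    rw [div_le_one (by have := h.L_pos; positivity)]
    exact one_le_pow₀ (by linarith [h.L6])
  set x := L / Real.sqrt (yb n i) with hx
  set μ := mu n i with hμ
  set θ := th i σ.E with hθ
  have hθ1 : θ ≤ 101 / 100 := by
    have := (abs_le.mp hth1).2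
    linarith
  have hq : 99 / 100 ≤ (1 - μ) ^ 3 := by
    have h1 : 1 - 3 * μ ≤ (1 - μ) ^ 3 := by nlinarith [mul_nonneg hmu0.le hmu0.le]
    linarith
  have hq0 : 0 < (1 - μ) ^ 3 := by linarith
  -- the difference
  have hd : ∀ T ∈ triangles σ.E, th (i + 1) (nxt i σ T).E - θ =
      (μ * (3 * θ - (1 / 2) * ∑ a ∈ T, ∑ b ∈ T.erase a, (1 + rr i σ.E a b)) +
        (μ * (2 / yb n i) + θ * (μ ^ 3 - 3 * μ ^ 2))) / (1 - μ) ^ 3 := by
    intro T hT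
    rw [th_succ h hi hI hG hT, ← hθ, ← hμ]
    have h2 : ∀ A q : ℝ, q ≠ 0 → A / q - θ = (A - θ * q) / q := by
      intro A q hq
      rw [sub_div, mul_div_cancel_right₀ _ hq]
    rw [h2 _ _ hq0.ne']
    congr 1
    ring
  have hjump : ∀ T ∈ triangles σ.E, |th (i + 1) (nxt i σ T).E - θ| ≤ 15 * μ * x := by
    intro T hT
    rw [hd T hT]
    have hY := A4th_YT h hi hG hT
    rw [← hx] at hY
    generalize ((1 / 2) * ∑ a ∈ T, ∑ b ∈ T.erase a, (1 + rr i σ.E a b)) = Y at hY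
    have h1 : |3 * θ - Y| ≤ 10 * x := by
      have h2 := abs_le.mp hY
      have h3 := abs_le.mp hth1
      rw [abs_le]
      constructor <;> linarith [h2.1, h2.2, h3.1, h3.2]
    refine (A4th_est hmu0 hx0 h1 (by positivity) (by have := h.yb_pos hi.le; positivity) k3 k4 k5 hth hθ1 hq).trans ?_
    have h5 : 0 < μ * x := by positivity
    nlinarith
  refine ⟨?_, ?_, ?_⟩
  · show |Av (triangles σ.E) (fun T => th (i + 1) (nxt i σ T).E - 1) - (θ - 1)| ≤ _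
    have h2 : Av (triangles σ.E) (fun T => th (i + 1) (nxt i σ T).E - 1) - (θ - 1) =
        Av (triangles σ.E) (fun T => th (i + 1) (nxt i σ T).E - θ) := by
      rw [Av_sub, Av_sub, Av_const hne, Av_const hne]
      ring
    have h3 : ∀ T ∈ triangles σ.E, th (i + 1) (nxt i σ T).E - θ =
        (μ * (3 * θ) + (μ * (2 / yb n i) + θ * (μ ^ 3 - 3 * μ ^ 2))) / (1 - μ) ^ 3 -
          μ / (1 - μ) ^ 3 * ((1 / 2) * ∑ a ∈ T, ∑ b ∈ T.erase a, (1 + rr i σ.E a b)) := by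
      intro T hT
      rw [hd T hT]
      ring
    rw [h2, Av_congr h3, Av_sub, Av_const hne, Av_mul]
    have hA := Av_YT h hi hI hG
    rw [← hθ] at hA
    generalize (Av (triangles σ.E) (fun T => (1 / 2) * ∑ a ∈ T, ∑ b ∈ T.erase a,
          (1 + rr i σ.E a b))) = Y at hA ⊢
    have hx2' : 0 < L ^ 2 / yb n i := by rw [← hx2]; positivity
    have e0 : 273 / 10 * L ^ 2 / yb n i = 273 / 10 * (L ^ 2 / yb n i) := by ring
    rw [e0, abs_sub_comm] at hA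
    have e00 : 30 * μ * L ^ 2 / yb n i = 30 * μ * (L ^ 2 / yb n i) := by ring
    rw [e00]
    have e1 : (μ * (3 * θ) + (μ * (2 / yb n i) + θ * (μ ^ 3 - 3 * μ ^ 2))) / (1 - μ) ^ 3 -
        μ / (1 - μ) ^ 3 * Y = (μ * (3 * θ - Y) +
          (μ * (2 / yb n i) + θ * (μ ^ 3 - 3 * μ ^ 2))) / (1 - μ) ^ 3 := by ring
    rw [e1]
    refine (A4th_est hmu0 hx2' hA (by norm_num) (by have := h.yb_pos hi.le; positivity) (by linarith)
      (by linarith) k5 hth hθ1 hq).trans ?_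
    have h5 : 0 < μ * (L ^ 2 / yb n i) := by positivity
    nlinarith
  · refine Av_le_of_le hne fun T hT => ?_
    have h1 := hjump T hT
    have e1 : th (i + 1) (nxt i σ T).E - 1 - (th i σ.E - 1) = th (i + 1) (nxt i σ T).E - θ := by
      rw [hθ]; ring
    show (th (i + 1) (nxt i σ T).E - 1 - (th i σ.E - 1)) ^ 2 ≤ _
    rw [e1, ← sq_abs]
    exact pow_le_pow_left₀ (abs_nonneg _) h1 2
  · intro T hT
    have h1 := hjump T hT
    have e1 : th (i + 1) (nxt i σ T).E - 1 - (th i σ.E - 1) = th (i + 1) (nxt i σ T).E - θ := by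
      rw [hθ]; ring
    show |th (i + 1) (nxt i σ T).E - 1 - (th i σ.E - 1)| ≤ _
    rw [e1]
    exact h1

end Crest.Agent.TRem
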