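import Crest.Agent.TRem.ADefs

/-!
# Row 30, A5r: backward induction, decomposition of the frozen recursion
-/

namespace Crest.Agent.TRem

open Finset Crest.CombinatoricsR.TriangleRemoval

variable {n : ℕ}

private theorem run_le_K (i₁ : ℕ) (J : ℕ → St n → Prop) (H : St n → ℝ) (K : ℝ)
    (hHK : ∀ i σ, J i σ → H σ ≤ K)
    (hJ : ∀ i σ T, i < i₁ → J i σ → T ∈ triangles σ.E → J (i + 1) (nxt i σ T)) :
    ∀ k i σ, i + k = i₁ → J i σ → run k i H σ ≤ K := by
  intro k
  induction k with
  | zero => intro i σ _ hj; exact hHK i σ hj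
  | succ k ih =>
    intro i σ hi hj
    rw [run]
    split_ifs with h0
    · exact hHK i σ hj
    · have hne : (triangles σ.E).Nonempty := by
        rw [← Finset.card_pos]; omega
      exact Av_le_of_le hne
        (fun T hT => ih (i + 1) _ (by omega) (hJ i σ T (by omega) hj hT))

/-- BACKWARD INDUCTION. `G` = good states, `J` = admissible states. -/
theorem run_le (i₁ : ℕ) (G J : ℕ → St n → Prop) (F W : ℕ → St n → ℝ) (H : St n → ℝ) (K : ℝ)
    (hF : ∀ i σ, 0 ≤ F i σ) (hW : ∀ i σ, 0 ≤ W i σ) (hK : 0 ≤ K)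
    (hHK : ∀ i σ, J i σ → H σ ≤ K)
    (hend : ∀ σ, J i₁ σ → G i₁ σ → H σ ≤ W i₁ σ)
    (hbad : ∀ i σ, i ≤ i₁ → J i σ → ¬ G i σ → 1 ≤ F i σ)
    (hne : ∀ i σ, i < i₁ → J i σ → G i σ → (triangles σ.E).Nonempty)
    (hFs : ∀ i σ, i < i₁ → J i σ → G i σ →
      Av (triangles σ.E) (fun T => F (i + 1) (nxt i σ T)) ≤ F i σ)
    (hWs : ∀ i σ, i < i₁ → J i σ → G i σ →
      Av (triangles σ.E) (fun T => W (i + 1) (nxt i σ T)) ≤ W i σ)
    (hJ : ∀ i σ T, i < i₁ → J i σ → T ∈ triangles σ.E → J (i + 1) (nxt i σ T)) :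
    ∀ k i σ, i + k = i₁ → J i σ → run k i H σ ≤ W i σ + K * F i σ := by
  intro k
  induction k with
  | zero =>
    intro i σ hi hj
    have hii : i = i₁ := by omega
    subst hii
    rw [run]
    by_cases hg : G i σ
    · have h1 := hend σ hj hg
      have h2 : 0 ≤ K * F i σ := mul_nonneg hK (hF _ _)
      linarith
    · have h1 := hbad i σ le_rfl hj hg
      have h2 := hHK i σ hj
      have h3 := hW i σ
      have h4 : K * 1 ≤ K * F i σ := mul_le_mul_of_nonneg_left h1 hK
      linarith
  | succ k ih =>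
    intro i σ hi hj
    by_cases hg : G i σ
    · have hn := hne i σ (by omega) hj hg
      rw [run, if_neg (by rw [Finset.card_eq_zero]; exact hn.ne_empty)]
      have h1 : Av (triangles σ.E) (fun T => run k (i + 1) H (nxt i σ T)) ≤
          Av (triangles σ.E)
            (fun T => W (i + 1) (nxt i σ T) + K * F (i + 1) (nxt i σ T)) :=
        Av_mono (fun T hT => ih (i + 1) _ (by omega) (hJ i σ T (by omega) hj hT))
      rw [Av_add, Av_mul] at h1
      have h2 := hWs i σ (by omega) hj hg
      have h3 := mul_le_mul_of_nonneg_left (hFs i σ (by omega) hj hg) hK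
      linarith
    · have h1 := hbad i σ (by omega) hj hg
      have h2 := run_le_K i₁ J H K hHK hJ (k + 1) i σ hi hj
      have h3 := hW i σ
      have h4 : K * 1 ≤ K * F i σ := mul_le_mul_of_nonneg_left h1 hK
      linarith

/-- the frozen recursion is `run` followed by the rest. -/
theorem expectFinal_add (φ : ℕ → ℝ) (k m i : ℕ) (σ : St n) :
    expectFinal φ (k + m) σ.E = run k i (fun σ' => expectFinal φ m σ'.E) σ := by
  induction k generalizing i σ with
  | zero => rw [run, Nat.zero_add]
  | succ k ih =>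
    rw [run, show k + 1 + m = (k + m) + 1 by omega, expectFinal]
    split_ifs with h0
    · cases m with
      | zero => rw [expectFinal]
      | succ m => rw [expectFinal, if_pos h0]
    · unfold Av
      congr 1
      refine Finset.sum_congr rfl (fun T hT => ?_)
      exact ih (i + 1) (nxt i σ T)

/-- `0 ≤ expectFinal φ m E ≤ K` if `0 ≤ φ ≤ K` on `[0, E.card]`. -/
theorem expectFinal_le (φ : ℕ → ℝ) (K : ℝ) (m : ℕ) (E : Finset (Sym2 (Fin n)))
    (hφ : ∀ e ≤ E.card, φ e ≤ K) : expectFinal φ m E ≤ K := by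
  induction m generalizing E with
  | zero => rw [expectFinal]; exact hφ _ le_rfl
  | succ m ih =>
    rw [expectFinal]
    split_ifs with h0
    · exact hφ _ le_rfl
    · have hn : (triangles E).Nonempty := by
        rw [← Finset.card_pos]; omega
      exact Av_le_of_le (A := triangles E) (f := fun t => expectFinal φ m (E \ t.sym2)) hn
        (fun T _ => ih _ (fun e he => hφ e
          (he.trans (Finset.card_le_card Finset.sdiff_subset))))

end Crest.Agent.TRem
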