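import Crest.Agent.TRem.A6Defs

/-!
# Row 30, A6d: numerics for the families d, a, θ
Always use `h.L6 : 10^6 ≤ L`, `h.logn : 10^6 log n ≤ L`, A2a, A2b. `√ȳ = √n p`.
-/

namespace Crest.Agent.TRem

open Finset

variable {n : ℕ} {L : ℝ} {i₁ : ℕ}

private theorem L_pow_ge (h : Reg n L i₁) {a b : ℕ} (hab : a ≤ b) : L ^ a ≤ L ^ b :=
  pow_le_pow_right₀ (by have := h.L6; linarith) hab

private theorem sqrt_n_pos (h : Reg n L i₁) : 0 < Real.sqrt n := Real.sqrt_pos.mpr h.n_pos

/-- family d: `Σ_{l<j} b_l = 8L/√n Σ μ_l/p_l ≤ 8L/(√n p_j) = 8L/√ȳ_j ≤ 1/100`, `1/n ≤ 1/100`;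
`κ_j B_l = (n p_j/280)(4/(n p_l)) ≤ 1`; `κ_j Σ v ≤ (n p_j/280)(7/n) Σ μ/p ≤ 7/280 = 1/40 = δ/2`;
`κδ/2 = n p_j/11200 ≥ L^20/11200 ≥ 20 log n`. -/
theorem num_d (h : Reg n L i₁) :
    Num n i₁ (fun l => 8 * mu n l * (L / Real.sqrt (yb n l))) (fun l => 7 * mu n l / (n * pp n l))
      (fun l => 4 / (n * pp n l)) (fun _ => 1 / 10) (fun j => n * pp n j / 280) (fun _ => 1 / 20)
      (1 / n) := by
  have hL := h.L6
  have hL0 := h.L_pos
  have hn := h.n_pos
  have hlog := h.logn
  have hL2 : (10:ℝ) ^ 6 * L ≤ L ^ 2 := by nlinarith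
  have hL20 : L ^ 2 ≤ L ^ 20 := L_pow_ge h (by norm_num)
  refine ⟨?_, ?_, ?_, ?_, ?_⟩
  · intro j hj
    have := h.pp_pos hj
    positivity
  · intro l j hlj hj
    have hpj := h.pp_pos hj
    have hpl := h.pp_pos (hlj.le.trans hj)
    have hanti := h.pp_anti hlj.le
    rw [show n * pp n j / 280 * (4 / (n * pp n l)) = (n * pp n j * 4) / (280 * (n * pp n l)) by
      rw [div_mul_div_comm], div_le_one (by positivity)]
    nlinarith [mul_le_mul_of_nonneg_left hanti hn.le, mul_pos hn hpl]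
  · intro j hj
    have hpj := h.pp_pos hj
    have hs := sqrt_n_pos h
    have h1 : ∑ l ∈ range j, 8 * mu n l * (L / Real.sqrt (yb n l)) =
        (8 * L / Real.sqrt n) * ∑ l ∈ range j, mu n l / pp n l ^ 1 := by
      rw [Finset.mul_sum]
      apply Finset.sum_congr rfl
      intro l hl
      have hl' : l ≤ i₁ := (Finset.mem_range.mp hl).le.trans hj
      have hpl := h.pp_pos hl'
      rw [h.sqrt_yb_eq hl']
      field_simp
    have h2 := h.sum_mu_pow (k := 1) one_pos hj
    have h3 : (8 * L / Real.sqrt n) * ∑ l ∈ range j, mu n l / pp n l ^ 1 ≤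
        (8 * L / Real.sqrt n) * (1 / ((1:ℕ) * pp n j ^ 1)) :=
      mul_le_mul_of_nonneg_left h2 (by positivity)
    have h4 : (8 * L / Real.sqrt n) * (1 / ((1:ℕ) * pp n j ^ 1)) = 8 * L / Real.sqrt (yb n j) := by
      rw [h.sqrt_yb_eq hj]
      push_cast
      field_simp
    have h5 := h.sqrt_yb_ge hj
    have h6 : 8 * L / Real.sqrt (yb n j) ≤ 1 / 100 := by
      have hpos : 0 < Real.sqrt (yb n j) := lt_of_lt_of_le (by positivity) h5
      rw [div_le_div_iff₀ hpos (by norm_num)]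
      have h7 : L ^ 2 ≤ L ^ 10 := L_pow_ge h (by norm_num)
      nlinarith
    have h7 : 1 / (n:ℝ) ≤ 1 / 100 := by
      apply one_div_le_one_div_of_le (by norm_num)
      have := h.n_ge
      nlinarith
    rw [h1]
    rw [h4] at h3
    linarith
  · intro j hj
    have hpj := h.pp_pos hj
    have h1 : ∑ l ∈ range j, 7 * mu n l / (n * pp n l) =
        (7 / n) * ∑ l ∈ range j, mu n l / pp n l ^ 1 := by
      rw [Finset.mul_sum]
      apply Finset.sum_congr rfl
      intro l hl
      have hl' : l ≤ i₁ := (Finset.mem_range.mp hl).le.trans hj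
      have hpl := h.pp_pos hl'
      field_simp
    have h2 := h.sum_mu_pow (k := 1) one_pos hj
    rw [h1]
    calc n * pp n j / 280 * ((7 / n) * ∑ l ∈ range j, mu n l / pp n l ^ 1)
        ≤ n * pp n j / 280 * ((7 / n) * (1 / ((1:ℕ) * pp n j ^ 1))) := by
          apply mul_le_mul_of_nonneg_left _ (by positivity)
          exact mul_le_mul_of_nonneg_left h2 (by positivity)
      _ ≤ 1 / 20 / 2 := by
          apply le_of_eq
          push_cast
          field_simp
          norm_num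
  · intro j hj
    have := h.np_ge hj
    nlinarith

/-- family a: `b = 0`; `Σ v = (3/n) Σ μ/p³ ≤ 1/(n p_j³)`; `κ_j = L √n p_j^{3/2}/4`, written
`L * √(n p_j) * p_j / 4`; `δ = tol = L/(√(n p_j) p_j)`; `κ Σ v ≤ L √(np) p/(4 n p³) = tol/4 ≤ δ/2`;
`κ B_l ≤ (L √(n p_j) p_j/4)(3/(n p_l²)) ≤ (3/4) L/√(n p_j) ≤ 1`; `κδ/2 = L²/8 ≥ 20 log n`. -/
theorem num_a (h : Reg n L i₁) :
    Num n i₁ (fun _ => 0) (fun l => 3 * mu n l / (n * pp n l ^ 3))
      (fun l => 3 / (n * pp n l ^ 2)) (fun j => L / (Real.sqrt (n * pp n j) * pp n j))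
      (fun j => L * Real.sqrt (n * pp n j) * pp n j / 4)
      (fun j => L / (Real.sqrt (n * pp n j) * pp n j)) 0 := by
  have hL := h.L6
  have hL0 := h.L_pos
  have hn := h.n_pos
  have hlog := h.logn
  have hL2 : (10:ℝ) ^ 6 * L ≤ L ^ 2 := by nlinarith
  refine ⟨?_, ?_, ?_, ?_, ?_⟩
  · intro j hj
    have := h.pp_pos hj
    positivity
  · intro l j hlj hj
    have hpj := h.pp_pos hj
    have hpl := h.pp_pos (hlj.le.trans hj)
    have hanti := h.pp_anti hlj.le
    have hsq : Real.sqrt (n * pp n j) * Real.sqrt (n * pp n j) = n * pp n j :=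
      Real.mul_self_sqrt (by positivity)
    have hs1 : L ^ 10 ≤ Real.sqrt (n * pp n j) := (h.sqrt_yb_ge hj).trans (h.sqrt_yb_le hj)
    have hs0 : 0 < Real.sqrt (n * pp n j) := lt_of_lt_of_le (by positivity) hs1
    have hL10 : L ≤ L ^ 10 := by
      calc L = L ^ 1 := (pow_one L).symm
        _ ≤ L ^ 10 := L_pow_ge h (by norm_num)
    have h1 : pp n j ^ 2 ≤ pp n l ^ 2 := pow_le_pow_left₀ hpj.le hanti 2
    rw [div_mul_div_comm, div_le_one (by positivity)]
    set s := Real.sqrt (n * pp n j) with hs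
    have h2 : L * s ≤ s * s := mul_le_mul_of_nonneg_right (hL10.trans hs1) hs0.le
    calc L * s * pp n j * 3 ≤ s * s * pp n j * 3 := by
          have := mul_le_mul_of_nonneg_right h2 hpj.le
          linarith
      _ = 3 * (n * pp n j ^ 2) := by rw [hsq]; ring
      _ ≤ 4 * (n * pp n l ^ 2) := by
          have := mul_le_mul_of_nonneg_left h1 hn.le
          have h3 : 0 ≤ n * pp n l ^ 2 := by positivity
          linarith
  · intro j hj
    simp
  · intro j hj
    have hpj := h.pp_pos hj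
    have hsq : Real.sqrt (n * pp n j) ^ 2 = n * pp n j :=
      Real.sq_sqrt (by positivity)
    have hs1 : L ^ 10 ≤ Real.sqrt (n * pp n j) := (h.sqrt_yb_ge hj).trans (h.sqrt_yb_le hj)
    have hs0 : 0 < Real.sqrt (n * pp n j) := lt_of_lt_of_le (by positivity) hs1
    have h1 : ∑ l ∈ range j, 3 * mu n l / (n * pp n l ^ 3) =
        (3 / n) * ∑ l ∈ range j, mu n l / pp n l ^ 3 := by
      rw [Finset.mul_sum]
      apply Finset.sum_congr rfl
      intro l hl
      have hl' : l ≤ i₁ := (Finset.mem_range.mp hl).le.trans hj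
      have hpl := h.pp_pos hl'
      field_simp
    have h2 := h.sum_mu_pow (k := 3) (by norm_num) hj
    rw [h1]
    set s := Real.sqrt (n * pp n j) with hs
    calc L * s * pp n j / 4 * ((3 / n) * ∑ l ∈ range j, mu n l / pp n l ^ 3)
        ≤ L * s * pp n j / 4 * ((3 / n) * (1 / ((3:ℕ) * pp n j ^ 3))) := by
          apply mul_le_mul_of_nonneg_left _ (by positivity)
          exact mul_le_mul_of_nonneg_left h2 (by positivity)
      _ = L / (s * pp n j) / 4 * (s ^ 2 / (n * pp n j)) := by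
          push_cast
          field_simp
      _ = L / (s * pp n j) / 4 := by
          rw [hsq, div_self (by positivity), mul_one]
      _ ≤ L / (s * pp n j) / 2 := by
          have : 0 < L / (s * pp n j) := by positivity
          linarith
  · intro j hj
    have hpj := h.pp_pos hj
    have hs1 : L ^ 10 ≤ Real.sqrt (n * pp n j) := (h.sqrt_yb_ge hj).trans (h.sqrt_yb_le hj)
    have hs0 : 0 < Real.sqrt (n * pp n j) := lt_of_lt_of_le (by positivity) hs1
    set s := Real.sqrt (n * pp n j) with hs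
    have h1 : L * s * pp n j / 4 * (L / (s * pp n j)) / 2 = L ^ 2 / 8 := by
      field_simp
      norm_num
    rw [h1]
    nlinarith

/-- family θ: `κ = ȳ_j`, `δ = L³/(2ȳ)`; `2/n + Σ b = 2/n + (30L²/n)Σμ/p² ≤ 2/n + 15L²/ȳ_j ≤
L³/(2ȳ_j)`; `κ_j B_l = 15 ȳ_j μ_l L/√ȳ_l ≤ 15 L μ_l ȳ_l ≤ 15 L^{-18}`; `v_l = 225 μ_l² L²/ȳ_l ≤
225 L² μ_l · 7/(n³ p_l³)` so `κ Σ v ≤ ȳ_j 525 L²/(n³ p_j³) = 525 L²/(n² p_j) ≤ L³/(4 n p_j²)`;
`κδ/2 = L³/4`. -/
theorem num_th (h : Reg n L i₁) :
    Num n i₁ (fun l => 30 * mu n l * L ^ 2 / yb n l)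
      (fun l => (15 * mu n l * (L / Real.sqrt (yb n l))) ^ 2)
      (fun l => 15 * mu n l * (L / Real.sqrt (yb n l))) (fun j => L ^ 3 / yb n j)
      (fun j => yb n j) (fun j => L ^ 3 / (2 * yb n j)) (2 / n) := by
  have hL := h.L6
  have hL0 := h.L_pos
  have hn := h.n_pos
  have hlog := h.logn
  have hL2 : (10:ℝ) ^ 6 * L ≤ L ^ 2 := by nlinarith
  have hL3 : (10:ℝ) ^ 6 * L ^ 2 ≤ L ^ 3 := by nlinarith [sq_nonneg L]
  have hn1 : (1:ℝ) ≤ n := by
    have h1 := h.n_ge
    have h2 : L ^ 2 ≤ L ^ 20 := L_pow_ge h (by norm_num)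
    nlinarith
  refine ⟨?_, ?_, ?_, ?_, ?_⟩
  · intro j hj
    exact (h.yb_pos hj).le
  · intro l j hlj hj
    have hl' : l ≤ i₁ := hlj.le.trans hj
    have hyj := h.yb_pos hj
    have hyl := h.yb_pos hl'
    have hanti := h.yb_anti hlj.le hj
    have hmu := h.mu_pos hl'
    have hs1 : L ^ 10 ≤ Real.sqrt (yb n l) := h.sqrt_yb_ge hl'
    have hs0 : 0 < Real.sqrt (yb n l) := lt_of_lt_of_le (by positivity) hs1
    have hs2 : 1 ≤ Real.sqrt (yb n l) := by
      have : L ^ 2 ≤ L ^ 10 := L_pow_ge h (by norm_num)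
      nlinarith
    have hmy := h.mu_yb hl'
    calc yb n j * (15 * mu n l * (L / Real.sqrt (yb n l)))
        ≤ yb n l * (15 * mu n l * L) := by
          apply mul_le_mul hanti _ (by positivity) hyl.le
          apply mul_le_mul_of_nonneg_left _ (by positivity)
          exact div_le_self hL0.le hs2
      _ = 15 * L * (mu n l * yb n l) := by ring
      _ ≤ 15 * L * (1 / L ^ 19) := mul_le_mul_of_nonneg_left hmy (by positivity)
      _ ≤ 1 := by
          rw [mul_one_div, div_le_one (by positivity)]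
          have : L ^ 2 ≤ L ^ 19 := L_pow_ge h (by norm_num)
          nlinarith
  · intro j hj
    have hpj := h.pp_pos hj
    have hyj := h.yb_pos hj
    have h1 : ∑ l ∈ range j, 30 * mu n l * L ^ 2 / yb n l =
        (30 * L ^ 2 / n) * ∑ l ∈ range j, mu n l / pp n l ^ 2 := by
      rw [Finset.mul_sum]
      apply Finset.sum_congr rfl
      intro l hl
      have hl' : l ≤ i₁ := (Finset.mem_range.mp hl).le.trans hj
      have hpl := h.pp_pos hl'
      unfold yb
      field_simp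
    have h2 := h.sum_mu_pow (k := 2) (by norm_num) hj
    have h3 : (30 * L ^ 2 / n) * ∑ l ∈ range j, mu n l / pp n l ^ 2 ≤
        (30 * L ^ 2 / n) * (1 / ((2:ℕ) * pp n j ^ 2)) :=
      mul_le_mul_of_nonneg_left h2 (by positivity)
    have h4 : (30 * L ^ 2 / n) * (1 / ((2:ℕ) * pp n j ^ 2)) = 15 * L ^ 2 / yb n j := by
      unfold yb
      push_cast
      field_simp
      norm_num
    have h5 : yb n j ≤ n := by
      have h6 := h.yb_le_np hj
      have h7 := h.pp_le_one j
      nlinarith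
    have h6 : 2 / (n:ℝ) ≤ 2 / yb n j := div_le_div_of_nonneg_left (by norm_num) hyj h5
    have h7 : L ^ 3 / yb n j - L ^ 3 / (2 * yb n j) = (L ^ 3 / 2) / yb n j := by
      field_simp
      norm_num
    rw [h1, h7]
    rw [h4] at h3
    calc 2 / (n:ℝ) + (30 * L ^ 2 / n) * ∑ l ∈ range j, mu n l / pp n l ^ 2
        ≤ 2 / yb n j + 15 * L ^ 2 / yb n j := add_le_add h6 h3
      _ = (2 + 15 * L ^ 2) / yb n j := by rw [add_div]
      _ ≤ (L ^ 3 / 2) / yb n j := by
          apply div_le_div_of_nonneg_right _ hyj.le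
          nlinarith
  · intro j hj
    have hpj := h.pp_pos hj
    have hyj := h.yb_pos hj
    have h1 : ∑ l ∈ range j, (15 * mu n l * (L / Real.sqrt (yb n l))) ^ 2 ≤
        (1575 * L ^ 2 / n ^ 3) * ∑ l ∈ range j, mu n l / pp n l ^ 3 := by
      rw [Finset.mul_sum]
      apply Finset.sum_le_sum
      intro l hl
      have hl' : l ≤ i₁ := (Finset.mem_range.mp hl).le.trans hj
      have hpl := h.pp_pos hl'
      have hmu := h.mu_pos hl'
      have hyl := h.yb_pos hl'
      have hmu' := h.mu_upper hl'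
      have hsq : Real.sqrt (yb n l) ^ 2 = yb n l := Real.sq_sqrt hyl.le
      calc (15 * mu n l * (L / Real.sqrt (yb n l))) ^ 2
          = (225 * mu n l * L ^ 2 / Real.sqrt (yb n l) ^ 2) * mu n l := by ring
        _ = (225 * mu n l * L ^ 2 / yb n l) * mu n l := by rw [hsq]
        _ ≤ (225 * mu n l * L ^ 2 / yb n l) * (7 / (n ^ 2 * pp n l)) :=
            mul_le_mul_of_nonneg_left hmu' (by positivity)
        _ = (1575 * L ^ 2 / n ^ 3) * (mu n l / pp n l ^ 3) := by
            unfold yb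
            field_simp
            norm_num
    have h2 := h.sum_mu_pow (k := 3) (by norm_num) hj
    have hp1 := h.pp_le_one j
    calc yb n j * ∑ l ∈ range j, (15 * mu n l * (L / Real.sqrt (yb n l))) ^ 2
        ≤ yb n j * ((1575 * L ^ 2 / n ^ 3) * ∑ l ∈ range j, mu n l / pp n l ^ 3) :=
          mul_le_mul_of_nonneg_left h1 hyj.le
      _ ≤ yb n j * ((1575 * L ^ 2 / n ^ 3) * (1 / ((3:ℕ) * pp n j ^ 3))) := by
          apply mul_le_mul_of_nonneg_left _ hyj.le
          exact mul_le_mul_of_nonneg_left h2 (by positivity)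
      _ = (525 * L ^ 2 / (n ^ 2 * pp n j)) := by
          unfold yb
          push_cast
          field_simp
          norm_num
      _ ≤ L ^ 3 / (2 * yb n j) / 2 := by
          unfold yb
          rw [div_div, div_le_div_iff₀ (by positivity) (by positivity)]
          have h8 : 525 * 4 * L ^ 2 * pp n j ≤ L ^ 3 * n := by
            calc 525 * 4 * L ^ 2 * pp n j ≤ 525 * 4 * L ^ 2 * 1 :=
                  mul_le_mul_of_nonneg_left hp1 (by positivity)
              _ ≤ L ^ 3 * 1 := by nlinarith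
              _ ≤ L ^ 3 * n := mul_le_mul_of_nonneg_left hn1 (by positivity)
          calc 525 * L ^ 2 * (2 * (n * pp n j ^ 2) * 2)
              = (525 * 4 * L ^ 2 * pp n j) * (n * pp n j) := by ring
            _ ≤ (L ^ 3 * n) * (n * pp n j) := mul_le_mul_of_nonneg_right h8 (by positivity)
            _ = L ^ 3 * (n ^ 2 * pp n j) := by ring
  · intro j hj
    have hyj := h.yb_pos hj
    have h1 : yb n j * (L ^ 3 / (2 * yb n j)) / 2 = L ^ 3 / 4 := by
      field_simp
      norm_num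
    rw [h1]
    nlinarith

end Crest.Agent.TRem
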