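import Crest.Agent.TRem.A6Defs

/-!
# Row 30, A6k: numerics for the families k, c
-/

namespace Crest.Agent.TRem

open Finset

variable {n : ℕ} {L : ℝ} {i₁ : ℕ}

private theorem logn_le (h : Reg n L i₁) : 20 * Real.log n ≤ L / 10 ^ 4 := by
  have := h.logn
  have hL := h.L6
  linarith

private theorem x_le' (h : Reg n L i₁) {j : ℕ} (hj : j ≤ i₁) :
    L / Real.sqrt (yb n j) ≤ 1 / L ^ 9 := by
  have hL := h.L_pos
  have h1 := h.sqrt_yb_ge hj
  have h2 : (0:ℝ) < L ^ 10 := by positivity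
  rw [div_le_div_iff₀ (lt_of_lt_of_le h2 h1) (by positivity)]
  calc L * L ^ 9 = L ^ 10 := by ring
    _ ≤ Real.sqrt (yb n j) := h1
    _ = 1 * Real.sqrt (yb n j) := by ring

/-- family k: with `x_l = L/√ȳ_l ≤ x_j` for `l ≤ j`,
`Σ b ≤ L⁴(1+20x_j) Σ (μ/p²) 2(1+s) + 20L³ Σ μ/p² ≤ L⁴(1+20x_j)(1/2+s_j)/p_j² + 10L³/p_j²`
(`Reg.sum_mu_ss`). `tol - δ = L⁴(3/4+s)/p²`; the difference is `≥ L⁴/p² (1/4 - 20x(1/2+s)) -
10L³/p² - 2 ≥ 0` since `x(1+s) ≤ L^{-8}`. `κ_j = p_j²/(10^4 L)`: `κB ≤ 10^{-4}`,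
`κΣv ≤ (p²/(10^4L)) 250L⁴/p⁴ = L³/(40p²) ≤ L⁴/(8p²)`, `κδ/2 = L³/(8·10^4) ≥ 20 log n`. -/
theorem num_k (h : Reg n L i₁) :
    Num n i₁
      (fun l => mu n l / pp n l ^ 2 *
        (2 * L ^ 4 * (1 + ss n l) * (1 + 20 * (L / Real.sqrt (yb n l))) + 20 * L ^ 3))
      (fun l => 1000 * mu n l * L ^ 4 / pp n l ^ 4) (fun l => L / pp n l ^ 2)
      (fun j => L ^ 4 * (1 + ss n j) / pp n j ^ 2) (fun j => pp n j ^ 2 / (10 ^ 4 * L))
      (fun j => L ^ 4 / (4 * pp n j ^ 2)) 2 := by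
  have hL := h.L_pos
  have hL6 := h.L6
  refine ⟨?_, ?_, ?_, ?_, ?_⟩
  · intro j hj
    positivity
  · intro l j hlj hj
    have hp := h.pp_pos hj
    have hpl := h.pp_pos (le_trans hlj.le hj)
    have hle := h.pp_anti hlj.le
    have h1 : pp n j ^ 2 ≤ pp n l ^ 2 := by gcongr
    show pp n j ^ 2 / (10 ^ 4 * L) * (L / pp n l ^ 2) ≤ 1
    rw [div_mul_div_comm, div_le_one (by positivity)]
    nlinarith [mul_le_mul_of_nonneg_right h1 hL.le, mul_pos hL (pow_pos hpl 2)]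
  · intro j hj
    have hp := h.pp_pos hj
    have hp1 := h.pp_le_one j
    have hs := h.ss_nonneg hj
    have hsle := h.ss_le hj
    have hx := x_le' h hj
    have hx0 : 0 ≤ L / Real.sqrt (yb n j) := by positivity
    set x := L / Real.sqrt (yb n j) with hxdef
    set p := pp n j with hpdef
    set s := ss n j with hsdef
    show 2 + ∑ l ∈ range j, mu n l / pp n l ^ 2 *
        (2 * L ^ 4 * (1 + ss n l) * (1 + 20 * (L / Real.sqrt (yb n l))) + 20 * L ^ 3) ≤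
        L ^ 4 * (1 + s) / p ^ 2 - L ^ 4 / (4 * p ^ 2)
    have hsum : ∑ l ∈ range j, mu n l / pp n l ^ 2 *
        (2 * L ^ 4 * (1 + ss n l) * (1 + 20 * (L / Real.sqrt (yb n l))) + 20 * L ^ 3) ≤
        L ^ 4 * (1 + 20 * x) * ((1 / 2 + s) / p ^ 2) + 20 * L ^ 3 * (1 / ((2:ℕ) * p ^ 2)) := by
      calc ∑ l ∈ range j, mu n l / pp n l ^ 2 *
            (2 * L ^ 4 * (1 + ss n l) * (1 + 20 * (L / Real.sqrt (yb n l))) + 20 * L ^ 3)
          ≤ ∑ l ∈ range j, (L ^ 4 * (1 + 20 * x) * (mu n l / pp n l ^ 2 * (2 * (1 + ss n l)))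
              + 20 * L ^ 3 * (mu n l / pp n l ^ 2)) := by
            apply Finset.sum_le_sum
            intro l hl
            have hlj : l < j := Finset.mem_range.mp hl
            have hli : l ≤ i₁ := le_trans hlj.le hj
            have hpl := h.pp_pos hli
            have hmul := h.mu_pos hli
            have hsl := h.ss_nonneg hli
            have hyj := h.yb_pos hj
            have hya := h.yb_anti hlj.le hj
            have hxl : L / Real.sqrt (yb n l) ≤ x := by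
              apply div_le_div_of_nonneg_left hL.le (Real.sqrt_pos.mpr hyj)
              exact Real.sqrt_le_sqrt hya
            have hc : 0 ≤ mu n l / pp n l ^ 2 := by positivity
            have : 2 * L ^ 4 * (1 + ss n l) * (1 + 20 * (L / Real.sqrt (yb n l)))
                ≤ 2 * L ^ 4 * (1 + ss n l) * (1 + 20 * x) := by
              gcongr
            refine le_trans (b := mu n l / pp n l ^ 2 *
              (2 * L ^ 4 * (1 + ss n l) * (1 + 20 * x) + 20 * L ^ 3)) ?_ (le_of_eq (by ring))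
            gcongr
        _ = L ^ 4 * (1 + 20 * x) * ∑ l ∈ range j, mu n l / pp n l ^ 2 * (2 * (1 + ss n l))
              + 20 * L ^ 3 * ∑ l ∈ range j, mu n l / pp n l ^ 2 := by
            rw [Finset.sum_add_distrib, Finset.mul_sum, Finset.mul_sum]
        _ ≤ _ := by
            have e1 := h.sum_mu_ss hj
            have e2 := h.sum_mu_pow (k := 2) (by norm_num) hj
            gcongr
    have hLs : (1:ℝ) ≤ L ^ 8 := one_le_pow₀ (by linarith)
    have hxs : 20 * x * (1 / 2 + s) ≤ 1 / 8 := by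
      have e1 : x * L ^ 9 ≤ 1 := by
        rwa [le_div_iff₀ (by positivity)] at hx
      have e2 : 20 * x * (1 / 2 + s) ≤ 20 * x * (1 / 2 + L / 10 ^ 6) := by gcongr
      have e3 : x ≤ x * L ^ 8 := by nlinarith
      have e4 : (1:ℝ) ≤ L / 10 ^ 6 := by
        rw [le_div_iff₀ (by positivity)]; linarith
      have e5 : x * L ≤ 1 / 10 ^ 40 := by
        have : (10:ℝ) ^ 40 ≤ L ^ 8 := by
          calc (10:ℝ) ^ 40 ≤ (10 ^ 6) ^ 8 := by norm_num
            _ ≤ L ^ 8 := by gcongr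
        rw [le_div_iff₀ (by positivity)]
        calc x * L * 10 ^ 40 ≤ x * L * L ^ 8 := by gcongr
          _ = x * L ^ 9 := by ring
          _ ≤ 1 := e1
      have e6 : x ≤ x * L := by nlinarith
      calc 20 * x * (1 / 2 + s) ≤ 20 * x * (1 / 2 + L / 10 ^ 6) := e2
        _ = 10 * x + (20 / 10 ^ 6) * (x * L) := by ring
        _ ≤ 10 * (x * L) + (20 / 10 ^ 6) * (x * L) := by gcongr
        _ ≤ 10 * (1 / 10 ^ 40) + (20 / 10 ^ 6) * (1 / 10 ^ 40) := by gcongr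
        _ ≤ 1 / 8 := by norm_num
    have hp2 : 0 < p ^ 2 := by positivity
    have hp21 : p ^ 2 ≤ 1 := pow_le_one₀ hp.le hp1
    have hmain : 2 * p ^ 2 + (L ^ 4 * (1 + 20 * x) * (1 / 2 + s) + 10 * L ^ 3) ≤
        L ^ 4 * (1 + s) - L ^ 4 / 4 := by
      have hL3 : (0:ℝ) < L ^ 3 := by positivity
      have a1 : L ^ 4 * (20 * x * (1 / 2 + s)) ≤ L ^ 4 * (1 / 8) := by gcongr
      have a2 : 12 * L ^ 3 ≤ L ^ 4 * (1 / 8) := by nlinarith
      have a3 : (1:ℝ) ≤ L ^ 3 := one_le_pow₀ (by linarith)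
      nlinarith
    calc 2 + ∑ l ∈ range j, mu n l / pp n l ^ 2 *
        (2 * L ^ 4 * (1 + ss n l) * (1 + 20 * (L / Real.sqrt (yb n l))) + 20 * L ^ 3)
        ≤ 2 + (L ^ 4 * (1 + 20 * x) * ((1 / 2 + s) / p ^ 2) + 20 * L ^ 3 * (1 / ((2:ℕ) * p ^ 2))) := by
          gcongr
      _ = (2 * p ^ 2 + (L ^ 4 * (1 + 20 * x) * (1 / 2 + s) + 10 * L ^ 3)) / p ^ 2 := by
          push_cast
          field_simp
          ring
      _ ≤ (L ^ 4 * (1 + s) - L ^ 4 / 4) / p ^ 2 := by gcongr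
      _ = _ := by
          field_simp
  · intro j hj
    have hp := h.pp_pos hj
    have hp1 := h.pp_le_one j
    have e2 := h.sum_mu_pow (k := 4) (by norm_num) hj
    show pp n j ^ 2 / (10 ^ 4 * L) * ∑ l ∈ range j, 1000 * mu n l * L ^ 4 / pp n l ^ 4 ≤
      L ^ 4 / (4 * pp n j ^ 2) / 2
    have e3 : ∑ l ∈ range j, 1000 * mu n l * L ^ 4 / pp n l ^ 4 =
        1000 * L ^ 4 * ∑ l ∈ range j, mu n l / pp n l ^ 4 := by
      rw [Finset.mul_sum]
      refine Finset.sum_congr rfl fun l _ => ?_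
      ring
    rw [e3]
    calc pp n j ^ 2 / (10 ^ 4 * L) * (1000 * L ^ 4 * ∑ l ∈ range j, mu n l / pp n l ^ 4)
        ≤ pp n j ^ 2 / (10 ^ 4 * L) * (1000 * L ^ 4 * (1 / ((4:ℕ) * pp n j ^ 4))) := by gcongr
      _ = L ^ 3 / (40 * pp n j ^ 2) := by
          push_cast
          field_simp
          norm_num
      _ ≤ L ^ 4 / (8 * pp n j ^ 2) := by
          rw [div_le_div_iff₀ (by positivity) (by positivity)]
          have hL3 : (0:ℝ) < L ^ 3 := by positivity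
          have : 8 * L ^ 3 ≤ 40 * L ^ 4 := by nlinarith
          nlinarith [pow_pos hp 2]
      _ = _ := by
          rw [div_div]
          congr 1
          ring
  · intro j hj
    have hp := h.pp_pos hj
    have hlog := logn_le h
    show 20 * Real.log n ≤ pp n j ^ 2 / (10 ^ 4 * L) * (L ^ 4 / (4 * pp n j ^ 2)) / 2
    have e : pp n j ^ 2 / (10 ^ 4 * L) * (L ^ 4 / (4 * pp n j ^ 2)) / 2 = L ^ 3 / (8 * 10 ^ 4) := by
      field_simp
      norm_num
    rw [e]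
    refine hlog.trans ?_
    rw [div_le_div_iff₀ (by positivity) (by positivity)]
    have h2 : (10:ℝ) ^ 12 ≤ L ^ 2 := by
      calc (10:ℝ) ^ 12 = (10 ^ 6) ^ 2 := by norm_num
        _ ≤ L ^ 2 := by gcongr
    nlinarith

/-- family c: `√c̄ = √n √p p`, `tol = (L²√c̄+L⁴)/p³`, `δ = tol/2`.
`Σ b = 20L/√n (n Σ μ/p + L⁴ Σ μ/p⁴) ≤ 20L√n/p_j + 5L⁵/(√n p_j⁴)`; the first is
`≤ L²√n/(4 p_j^{3/2}) = L²√c̄/(4p³)` (`80√p ≤ L`), the second is `5 L⁴/p³ · L/√ȳ ≤ L⁴/(8p³)`,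
and `3 ≤ L⁴/8`. `κ_j = p_j³ L²/(100(√c̄_j+L²))`: `κB ≤ 3L²/(100 L²)`;
`Σ v ≤ 32(n/(3p_j³) + L⁴/(6p_j⁶)) ≤ (11 c̄_j + 6L⁴)/p_j⁶`,
`c̄+L⁴ ≤ (√c̄+L²)²`, `κΣv ≤ 0.11 L²(√c̄+L²)/p³ ≤ δ/2`; `κδ/2 = L⁴/400`. -/
theorem num_c (h : Reg n L i₁) :
    Num n i₁
      (fun l => 20 * mu n l * (L / Real.sqrt (yb n l)) * (n + L ^ 4 / pp n l ^ 3))
      (fun l => 32 * mu n l * (n / pp n l ^ 3 + L ^ 4 / pp n l ^ 6)) (fun l => 3 / pp n l ^ 3)
      (fun j => (L ^ 2 * Real.sqrt (cb n j) + L ^ 4) / pp n j ^ 3)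
      (fun j => pp n j ^ 3 * L ^ 2 / (100 * (Real.sqrt (cb n j) + L ^ 2)))
      (fun j => (L ^ 2 * Real.sqrt (cb n j) + L ^ 4) / (2 * pp n j ^ 3)) 3 := by
  have hL := h.L_pos
  have hL6 := h.L6
  have hn := h.n_pos
  refine ⟨?_, ?_, ?_, ?_, ?_⟩
  · intro j hj
    have hp := h.pp_pos hj
    positivity
  · intro l j hlj hj
    have hp := h.pp_pos hj
    have hpl := h.pp_pos (le_trans hlj.le hj)
    have hle := h.pp_anti hlj.le
    have h1 : pp n j ^ 3 ≤ pp n l ^ 3 := by gcongr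
    have hc : 0 ≤ Real.sqrt (cb n j) := Real.sqrt_nonneg _
    show pp n j ^ 3 * L ^ 2 / (100 * (Real.sqrt (cb n j) + L ^ 2)) * (3 / pp n l ^ 3) ≤ 1
    rw [div_mul_div_comm, div_le_one (by positivity)]
    have hL2 : 0 < L ^ 2 := by positivity
    have hpl3 : 0 < pp n l ^ 3 := by positivity
    calc pp n j ^ 3 * L ^ 2 * 3 ≤ pp n l ^ 3 * L ^ 2 * 3 := by gcongr
      _ ≤ 100 * (0 + L ^ 2) * pp n l ^ 3 := by nlinarith [mul_pos hpl3 hL2]
      _ ≤ 100 * (Real.sqrt (cb n j) + L ^ 2) * pp n l ^ 3 := by gcongr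
  · intro j hj
    have hp := h.pp_pos hj
    have hp1 := h.pp_le_one j
    have hx := x_le' h hj
    have hsy := h.sqrt_yb_eq hj
    set p := pp n j with hpdef
    set r := Real.sqrt n with hrdef
    have hr : 0 < r := Real.sqrt_pos.mpr hn
    have hrr : r * r = n := Real.mul_self_sqrt hn.le
    set q := Real.sqrt p with hqdef
    have hq : 0 < q := Real.sqrt_pos.mpr hp
    have hqq : q * q = p := Real.mul_self_sqrt hp.le
    have hq1 : q ≤ 1 := by
      rw [hqdef, show (1:ℝ) = Real.sqrt 1 by simp]; exact Real.sqrt_le_sqrt hp1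
    have hc : Real.sqrt (cb n j) = r * (q * p) := by
      have : cb n j = (r * (q * p)) ^ 2 := by
        unfold cb
        rw [← hpdef]
        calc (n:ℝ) * p ^ 3 = (r * r) * (p * p * p) := by rw [hrr]; ring
          _ = (r * r) * ((q * q) * p * p) := by rw [hqq]
          _ = (r * (q * p)) ^ 2 := by ring
      rw [this, Real.sqrt_sq (by positivity)]
    show 3 + ∑ l ∈ range j, 20 * mu n l * (L / Real.sqrt (yb n l)) * (n + L ^ 4 / pp n l ^ 3) ≤
      (L ^ 2 * Real.sqrt (cb n j) + L ^ 4) / p ^ 3 - (L ^ 2 * Real.sqrt (cb n j) + L ^ 4) / (2 * p ^ 3)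
    have e1 := h.sum_mu_pow (k := 1) (by norm_num) hj
    have e4 := h.sum_mu_pow (k := 4) (by norm_num) hj
    have hsum : ∑ l ∈ range j, 20 * mu n l * (L / Real.sqrt (yb n l)) * (n + L ^ 4 / pp n l ^ 3) =
        20 * L * r * (∑ l ∈ range j, mu n l / pp n l ^ 1) +
          20 * L ^ 5 / r * (∑ l ∈ range j, mu n l / pp n l ^ 4) := by
      rw [Finset.mul_sum, Finset.mul_sum, ← Finset.sum_add_distrib]
      refine Finset.sum_congr rfl fun l hl => ?_
      have hli : l ≤ i₁ := le_trans (Finset.mem_range.mp hl).le hj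
      have hpl := h.pp_pos hli
      rw [h.sqrt_yb_eq hli, ← hrdef, ← hrr]
      field_simp
    rw [hsum, hc]
    rw [hsy] at hx
    have hxx : L ^ 10 ≤ r * p := by
      rw [div_le_div_iff₀ (by positivity) (by positivity)] at hx
      calc L ^ 10 = L * L ^ 9 := by ring
        _ ≤ 1 * (r * p) := hx
        _ = r * p := by ring
    have b1 : 20 * L * r * (∑ l ∈ range j, mu n l / pp n l ^ 1) ≤ 20 * L * r * (1 / p) := by
      have : (1:ℝ) / ((1:ℕ) * p ^ 1) = 1 / p := by simp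
      rw [this] at e1
      gcongr
    have b2 : 20 * L ^ 5 / r * (∑ l ∈ range j, mu n l / pp n l ^ 4) ≤
        20 * L ^ 5 / r * (1 / (4 * p ^ 4)) := by
      have : (1:ℝ) / ((4:ℕ) * p ^ 4) = 1 / (4 * p ^ 4) := by norm_num
      rw [this] at e4
      gcongr
    have c1 : 20 * L * r * (1 / p) ≤ L ^ 2 * (r * (q * p)) / (4 * p ^ 3) := by
      rw [mul_one_div, div_le_div_iff₀ hp (by positivity)]
      have : 80 * p ≤ L * q := by
        calc 80 * p = 80 * (q * q) := by rw [hqq]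
          _ ≤ 80 * (1 * q) := by gcongr
          _ ≤ L * q := by nlinarith
      calc 20 * L * r * (4 * p ^ 3) = L * r * p ^ 2 * (80 * p) := by ring
        _ ≤ L * r * p ^ 2 * (L * q) := by gcongr
        _ = L ^ 2 * (r * (q * p)) * p := by ring
    have c2 : 20 * L ^ 5 / r * (1 / (4 * p ^ 4)) ≤ L ^ 4 / (8 * p ^ 3) := by
      rw [div_mul_div_comm, div_le_div_iff₀ (by positivity) (by positivity)]
      have hL9 : (40:ℝ) ≤ L ^ 9 := by
        calc (40:ℝ) ≤ (10 ^ 6) ^ 9 := by norm_num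
          _ ≤ L ^ 9 := by gcongr
      have : 40 * L ≤ r * p := by
        calc 40 * L ≤ L ^ 9 * L := by gcongr
          _ = L ^ 10 := by ring
          _ ≤ r * p := hxx
      calc 20 * L ^ 5 * 1 * (8 * p ^ 3) = 4 * L ^ 4 * p ^ 3 * (40 * L) := by ring
        _ ≤ 4 * L ^ 4 * p ^ 3 * (r * p) := by gcongr
        _ = L ^ 4 * (r * (4 * p ^ 4)) := by ring
    have c3 : (3:ℝ) ≤ L ^ 4 / (8 * p ^ 3) := by
      rw [le_div_iff₀ (by positivity)]
      have hp3 : p ^ 3 ≤ 1 := pow_le_one₀ hp.le hp1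
      have hL4 : (24:ℝ) ≤ L ^ 4 := by
        calc (24:ℝ) ≤ (10 ^ 6) ^ 4 := by norm_num
          _ ≤ L ^ 4 := by gcongr
      nlinarith [pow_pos hp 3]
    have fin : (L ^ 2 * (r * (q * p)) + L ^ 4) / p ^ 3 - (L ^ 2 * (r * (q * p)) + L ^ 4) / (2 * p ^ 3) =
        L ^ 2 * (r * (q * p)) / (4 * p ^ 3) + L ^ 2 * (r * (q * p)) / (4 * p ^ 3) +
        (L ^ 4 / (8 * p ^ 3) + L ^ 4 / (8 * p ^ 3) + L ^ 4 / (4 * p ^ 3)) := by
      field_simp
      ring
    have pos1 : 0 ≤ L ^ 2 * (r * (q * p)) / (4 * p ^ 3) := by positivity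
    have pos2 : 0 ≤ L ^ 4 / (4 * p ^ 3) := by positivity
    rw [fin]
    linarith
  · intro j hj
    have hp := h.pp_pos hj
    have e3 := h.sum_mu_pow (k := 3) (by norm_num) hj
    have e6 := h.sum_mu_pow (k := 6) (by norm_num) hj
    have hcb0 : 0 ≤ cb n j := by unfold cb; positivity
    set p := pp n j with hpdef
    set c := Real.sqrt (cb n j) with hcdef
    have hc0 : 0 ≤ c := Real.sqrt_nonneg _
    have hcc : (n:ℝ) * p ^ 3 = c * c := by
      rw [hcdef, Real.mul_self_sqrt hcb0]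
      rfl
    show p ^ 3 * L ^ 2 / (100 * (c + L ^ 2)) *
        ∑ l ∈ range j, 32 * mu n l * (n / pp n l ^ 3 + L ^ 4 / pp n l ^ 6) ≤
      (L ^ 2 * c + L ^ 4) / (2 * p ^ 3) / 2
    have hsum : ∑ l ∈ range j, 32 * mu n l * (n / pp n l ^ 3 + L ^ 4 / pp n l ^ 6) =
        32 * n * (∑ l ∈ range j, mu n l / pp n l ^ 3) +
          32 * L ^ 4 * (∑ l ∈ range j, mu n l / pp n l ^ 6) := by
      rw [Finset.mul_sum, Finset.mul_sum, ← Finset.sum_add_distrib]
      refine Finset.sum_congr rfl fun l hl => ?_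
      ring
    have b : ∑ l ∈ range j, 32 * mu n l * (n / pp n l ^ 3 + L ^ 4 / pp n l ^ 6) ≤
        11 * (c + L ^ 2) ^ 2 / p ^ 6 := by
      rw [hsum]
      calc 32 * (n:ℝ) * (∑ l ∈ range j, mu n l / pp n l ^ 3) +
          32 * L ^ 4 * (∑ l ∈ range j, mu n l / pp n l ^ 6)
          ≤ 32 * n * (1 / ((3:ℕ) * p ^ 3)) + 32 * L ^ 4 * (1 / ((6:ℕ) * p ^ 6)) := by
            gcongr
        _ = (32 / 3 * (n * p ^ 3) + 32 / 6 * L ^ 4) / p ^ 6 := by
            push_cast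
            field_simp
        _ ≤ 11 * (c + L ^ 2) ^ 2 / p ^ 6 := by
            rw [hcc]
            gcongr
            nlinarith [mul_nonneg hc0 (pow_pos hL 2).le, pow_pos hL 4, mul_nonneg hc0 hc0]
    calc p ^ 3 * L ^ 2 / (100 * (c + L ^ 2)) *
        ∑ l ∈ range j, 32 * mu n l * (n / pp n l ^ 3 + L ^ 4 / pp n l ^ 6)
        ≤ p ^ 3 * L ^ 2 / (100 * (c + L ^ 2)) * (11 * (c + L ^ 2) ^ 2 / p ^ 6) := by
          gcongr
      _ = 11 / 100 * (L ^ 2 * (c + L ^ 2) / p ^ 3) := by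
          have : 0 < c + L ^ 2 := by positivity
          field_simp
      _ ≤ 1 / 4 * (L ^ 2 * (c + L ^ 2) / p ^ 3) :=
          mul_le_mul_of_nonneg_right (by norm_num) (by positivity)
      _ = _ := by
          field_simp
          ring
  · intro j hj
    have hp := h.pp_pos hj
    have hlog := logn_le h
    have hc0 : 0 ≤ Real.sqrt (cb n j) := Real.sqrt_nonneg _
    show 20 * Real.log n ≤ pp n j ^ 3 * L ^ 2 / (100 * (Real.sqrt (cb n j) + L ^ 2)) *
      ((L ^ 2 * Real.sqrt (cb n j) + L ^ 4) / (2 * pp n j ^ 3)) / 2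
    have e : pp n j ^ 3 * L ^ 2 / (100 * (Real.sqrt (cb n j) + L ^ 2)) *
      ((L ^ 2 * Real.sqrt (cb n j) + L ^ 4) / (2 * pp n j ^ 3)) / 2 = L ^ 4 / 400 := by
      have h1 : 0 < Real.sqrt (cb n j) + L ^ 2 := by positivity
      have h2 : L ^ 2 * Real.sqrt (cb n j) + L ^ 4 = L ^ 2 * (Real.sqrt (cb n j) + L ^ 2) := by ring
      rw [h2]
      field_simp
      norm_num
    rw [e]
    refine hlog.trans ?_
    rw [div_le_div_iff₀ (by positivity) (by positivity)]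
    have h2 : (10:ℝ) ^ 18 ≤ L ^ 3 := by
      calc (10:ℝ) ^ 18 = (10 ^ 6) ^ 3 := by norm_num
        _ ≤ L ^ 3 := by gcongr
    nlinarith

end Crest.Agent.TRem
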