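import Crest.Agent.TRem.A6Defs

/-!
# Row 30, A6r: numerics for the families ρ, M
-/

namespace Crest.Agent.TRem

open Finset

variable {n : ℕ} {L : ℝ} {i₁ : ℕ}

private theorem A6r_rpow32 {p : ℝ} (hp : 0 < p) : p ^ (3 / 2 : ℝ) = p * Real.sqrt p := by
  rw [Real.sqrt_eq_rpow]
  nth_rewrite 2 [← Real.rpow_one p]
  rw [← Real.rpow_add hp]
  norm_num

private theorem A6r_rpow52 {p : ℝ} (hp : 0 < p) : p ^ (5 / 2 : ℝ) = p ^ 2 * Real.sqrt p := by
  rw [Real.sqrt_eq_rpow, ← Real.rpow_natCast, ← Real.rpow_add hp]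
  norm_num

private theorem A6r_sqrt_np (h : Reg n L i₁) {i : ℕ} :
    Real.sqrt (n * pp n i) = Real.sqrt n * Real.sqrt (pp n i) :=
  Real.sqrt_mul h.n_pos.le _

private theorem A6r_log (h : Reg n L i₁) : 20 * Real.log n ≤ L ^ 2 / 800 := by
  have h1 := h.logn
  have h2 := h.L6
  nlinarith

private theorem A6r_pow (h : Reg n L i₁) : L ^ 4 * 10 ^ 6 ≤ L ^ 10 := by
  have h2 := h.L6
  have hL : 1 ≤ L := by linarith
  have h3 : L ^ 5 ≤ L ^ 10 := pow_le_pow_right₀ hL (by norm_num)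
  have h4 : L ^ 4 * 10 ^ 6 ≤ L ^ 4 * L := mul_le_mul_of_nonneg_left h2 (by positivity)
  have h5 : L ^ 4 * L = L ^ 5 := by ring
  linarith

/-- family ρ: `√ȳ = √n p`, `√(np)√ȳ = n p^{3/2}` (write `p^{3/2} = √p p`).
`Σ b = (8L^5/n)Σμ/p² + (10L²/n)Σμ/p^{3/2} ≤ 4L^5/ȳ_j + (20/3)L²/(n p_j^{3/2})`, both
`≤ L/(8√ȳ_j)` because `√ȳ ≥ L^10`, `√(np) ≥ L^10`; `2/n ≤ L/(8√ȳ)`. `δ = L/(2√ȳ)`,
`κ_j = L√ȳ_j/200`: `κB ≤ L/(20√ȳ) ≤ 1`, `κΣv = (L√ȳ_j/200)(100/n)Σμ/p² ≤ L/(4√ȳ_j) = δ/2`,
`κδ/2 = L²/800 ≥ 20 log n`. -/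
theorem num_rho (h : Reg n L i₁) :
    Num n i₁
      (fun l => mu n l * (8 * L ^ 5 / yb n l +
        10 * L ^ 2 / (Real.sqrt (n * pp n l) * Real.sqrt (yb n l))))
      (fun l => 100 * mu n l / yb n l) (fun l => 10 / yb n l)
      (fun j => L / Real.sqrt (yb n j)) (fun j => L * Real.sqrt (yb n j) / 200)
      (fun j => L / (2 * Real.sqrt (yb n j))) (2 / n) := by
  have hL := h.L_pos
  have hL6 := h.L6
  have hn := h.n_pos
  have hpw := A6r_pow h
  have hL1 : 1 ≤ L := by linarith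
  have hL4 : 1 ≤ L ^ 4 := one_le_pow₀ hL1
  have hsq : ∀ j ≤ i₁, L ^ 10 ≤ Real.sqrt (yb n j) := fun j hj => h.sqrt_yb_ge hj
  have hsq0 : ∀ j ≤ i₁, 0 < Real.sqrt (yb n j) := fun j hj =>
    lt_of_lt_of_le (by positivity) (hsq j hj)
  have hyy : ∀ j ≤ i₁, Real.sqrt (yb n j) * Real.sqrt (yb n j) = yb n j := fun j hj =>
    Real.mul_self_sqrt (h.yb_pos hj).le
  have hLle : L ≤ L ^ 10 := le_self_pow₀ hL1 (by norm_num)
  refine ⟨?_, ?_, ?_, ?_, ?_⟩
  · intro j hj
    have := hsq0 j hj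
    positivity
  · intro l j hlj hj
    have hl : l ≤ i₁ := by omega
    have h1 : Real.sqrt (yb n j) ≤ Real.sqrt (yb n l) :=
      Real.sqrt_le_sqrt (h.yb_anti hlj.le hj)
    have h2 := hsq0 l hl
    have h3 := hyy l hl
    have h4 := hsq l hl
    show L * Real.sqrt (yb n j) / 200 * (10 / yb n l) ≤ 1
    rw [div_mul_div_comm, div_le_one (by have := h.yb_pos hl; positivity), ← h3]
    have h5 : L * Real.sqrt (yb n j) ≤ Real.sqrt (yb n l) * Real.sqrt (yb n l) :=
      mul_le_mul (by linarith) h1 (hsq0 j hj).le h2.le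
    nlinarith
  · intro j hj
    have hp := h.pp_pos hj
    have hy := h.yb_pos hj
    have hs := hsq0 j hj
    have hsge := hsq j hj
    have e1 : ∑ l ∈ range j, mu n l * (8 * L ^ 5 / yb n l +
        10 * L ^ 2 / (Real.sqrt (n * pp n l) * Real.sqrt (yb n l))) =
        8 * L ^ 5 / n * ∑ l ∈ range j, mu n l / pp n l ^ 2 +
        10 * L ^ 2 / n * ∑ l ∈ range j, mu n l / pp n l ^ (3 / 2 : ℝ) := by
      rw [Finset.mul_sum, Finset.mul_sum, ← Finset.sum_add_distrib]
      refine Finset.sum_congr rfl fun l hl => ?_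
      have hl' : l ≤ i₁ := by have := Finset.mem_range.mp hl; omega
      have hpl := h.pp_pos hl'
      have hsn : 0 < Real.sqrt n := Real.sqrt_pos.mpr hn
      have hsp : 0 < Real.sqrt (pp n l) := Real.sqrt_pos.mpr hpl
      rw [A6r_rpow32 hpl, A6r_sqrt_np h, h.sqrt_yb_eq hl', yb]
      have hnn : Real.sqrt n * Real.sqrt n = n := Real.mul_self_sqrt hn.le
      have e2 : Real.sqrt n * Real.sqrt (pp n l) * (Real.sqrt n * pp n l) =
          n * (pp n l * Real.sqrt (pp n l)) := by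
        calc Real.sqrt n * Real.sqrt (pp n l) * (Real.sqrt n * pp n l)
            = (Real.sqrt n * Real.sqrt n) * (pp n l * Real.sqrt (pp n l)) := by ring
          _ = _ := by rw [hnn]
      rw [e2]
      field_simp
    have b1 := h.sum_mu_pow (k := 2) (by norm_num) hj
    have b2 := h.sum_mu_rpow (α := 3 / 2) (by norm_num) hj
    have c1 : 8 * L ^ 5 / n * ∑ l ∈ range j, mu n l / pp n l ^ 2 ≤ L / (8 * Real.sqrt (yb n j)) := by
      calc 8 * L ^ 5 / n * ∑ l ∈ range j, mu n l / pp n l ^ 2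
          ≤ 8 * L ^ 5 / n * (1 / ((2 : ℕ) * pp n j ^ 2)) :=
            mul_le_mul_of_nonneg_left b1 (by positivity)
        _ = 4 * L ^ 5 / yb n j := by
            rw [yb]; push_cast; field_simp; ring
        _ ≤ L / (8 * Real.sqrt (yb n j)) := by
            rw [div_le_div_iff₀ hy (by positivity)]
            have : 32 * L ^ 4 ≤ Real.sqrt (yb n j) := by nlinarith
            calc 4 * L ^ 5 * (8 * Real.sqrt (yb n j))
                = (32 * L ^ 4) * (L * Real.sqrt (yb n j)) := by ring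
              _ ≤ Real.sqrt (yb n j) * (L * Real.sqrt (yb n j)) :=
                  mul_le_mul_of_nonneg_right this (by positivity)
              _ = L * (Real.sqrt (yb n j) * Real.sqrt (yb n j)) := by ring
              _ = L * yb n j := by rw [hyy j hj]
    have hsqn : 0 < Real.sqrt n := Real.sqrt_pos.mpr hn
    have hsqp : 0 < Real.sqrt (pp n j) := Real.sqrt_pos.mpr hp
    have hnn : Real.sqrt n * Real.sqrt n = n := Real.mul_self_sqrt hn.le
    have hnp : Real.sqrt (yb n j) ≤ Real.sqrt n * Real.sqrt (pp n j) := by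
      rw [← A6r_sqrt_np h]
      exact h.sqrt_yb_le hj
    have c2 : 10 * L ^ 2 / n * ∑ l ∈ range j, mu n l / pp n l ^ (3 / 2 : ℝ) ≤
        L / (8 * Real.sqrt (yb n j)) := by
      calc 10 * L ^ 2 / n * ∑ l ∈ range j, mu n l / pp n l ^ (3 / 2 : ℝ)
          ≤ 10 * L ^ 2 / n * (1 / (3 / 2 * pp n j ^ (3 / 2 : ℝ))) :=
            mul_le_mul_of_nonneg_left b2 (by positivity)
        _ = 20 * L ^ 2 / (3 * ((Real.sqrt n * Real.sqrt (pp n j)) * Real.sqrt (yb n j))) := by
            rw [A6r_rpow32 hp, h.sqrt_yb_eq hj]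
            have e3 : (Real.sqrt n * Real.sqrt (pp n j)) * (Real.sqrt n * pp n j) =
                n * (pp n j * Real.sqrt (pp n j)) := by
              calc _ = (Real.sqrt n * Real.sqrt n) * (pp n j * Real.sqrt (pp n j)) := by ring
                _ = _ := by rw [hnn]
            rw [e3]
            field_simp
            ring
        _ ≤ L / (8 * Real.sqrt (yb n j)) := by
            rw [div_le_div_iff₀ (by positivity) (by positivity)]
            have h6 : 160 * L ≤ 3 * (Real.sqrt n * Real.sqrt (pp n j)) := by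
              have : L * 1 ≤ L ^ 4 := by
                have : L ^ 4 = L * L ^ 3 := by ring
                rw [this]
                exact mul_le_mul_of_nonneg_left (one_le_pow₀ hL1) hL.le
              nlinarith
            calc 20 * L ^ 2 * (8 * Real.sqrt (yb n j))
                = (160 * L) * (L * Real.sqrt (yb n j)) := by ring
              _ ≤ (3 * (Real.sqrt n * Real.sqrt (pp n j))) * (L * Real.sqrt (yb n j)) :=
                  mul_le_mul_of_nonneg_right h6 (by positivity)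
              _ = _ := by ring
    have c3 : (2 : ℝ) / n ≤ L / (8 * Real.sqrt (yb n j)) := by
      rw [div_le_div_iff₀ hn (by positivity)]
      have hp1 := h.pp_le_one j
      have h7 : Real.sqrt (pp n j) ≤ 1 := by
        rw [Real.sqrt_le_one]
        exact hp1
      have h8 : 1 ≤ Real.sqrt n := by
        rw [Real.one_le_sqrt]
        exact le_trans (one_le_pow₀ hL1) h.n_ge
      have h9 : Real.sqrt (yb n j) ≤ n := by
        calc Real.sqrt (yb n j) ≤ Real.sqrt n * Real.sqrt (pp n j) := hnp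
          _ ≤ Real.sqrt n * Real.sqrt n := mul_le_mul_of_nonneg_left (h7.trans h8) hsqn.le
          _ = n := hnn
      nlinarith
    show 2 / (n : ℝ) + ∑ l ∈ range j, mu n l * (8 * L ^ 5 / yb n l +
        10 * L ^ 2 / (Real.sqrt (n * pp n l) * Real.sqrt (yb n l))) ≤
      L / Real.sqrt (yb n j) - L / (2 * Real.sqrt (yb n j))
    rw [e1]
    have h10 : L / Real.sqrt (yb n j) - L / (2 * Real.sqrt (yb n j)) =
        4 * (L / (8 * Real.sqrt (yb n j))) := by
      field_simp
      ring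
    have h11 : 0 < L / (8 * Real.sqrt (yb n j)) := by positivity
    rw [h10]
    linarith
  · intro j hj
    have hp := h.pp_pos hj
    have hy := h.yb_pos hj
    have hs := hsq0 j hj
    have e1 : ∑ l ∈ range j, 100 * mu n l / yb n l =
        100 / n * ∑ l ∈ range j, mu n l / pp n l ^ 2 := by
      rw [Finset.mul_sum]
      refine Finset.sum_congr rfl fun l hl => ?_
      have hl' : l ≤ i₁ := by have := Finset.mem_range.mp hl; omega
      have hpl := h.pp_pos hl'
      rw [yb]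
      field_simp
    have b1 := h.sum_mu_pow (k := 2) (by norm_num) hj
    show L * Real.sqrt (yb n j) / 200 * ∑ l ∈ range j, 100 * mu n l / yb n l ≤
      L / (2 * Real.sqrt (yb n j)) / 2
    rw [e1]
    calc L * Real.sqrt (yb n j) / 200 * (100 / n * ∑ l ∈ range j, mu n l / pp n l ^ 2)
        ≤ L * Real.sqrt (yb n j) / 200 * (100 / n * (1 / ((2 : ℕ) * pp n j ^ 2))) := by
          apply mul_le_mul_of_nonneg_left _ (by positivity)
          exact mul_le_mul_of_nonneg_left b1 (by positivity)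
      _ = L * Real.sqrt (yb n j) / (4 * yb n j) := by
          rw [show yb n j = n * pp n j ^ 2 from rfl]
          push_cast
          field_simp
          ring
      _ = L * Real.sqrt (yb n j) / (4 * (Real.sqrt (yb n j) * Real.sqrt (yb n j))) := by
          rw [hyy j hj]
      _ = L / (2 * Real.sqrt (yb n j)) / 2 := by
          field_simp
          ring
      _ ≤ _ := le_refl _
  · intro j hj
    have hs := hsq0 j hj
    have e : L * Real.sqrt (yb n j) / 200 * (L / (2 * Real.sqrt (yb n j))) / 2 = L ^ 2 / 800 := by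
      field_simp
      ring
    show 20 * Real.log n ≤ L * Real.sqrt (yb n j) / 200 * (L / (2 * Real.sqrt (yb n j))) / 2
    rw [e]
    exact A6r_log h

/-- family M: `p^{5/2} = √p p²`, `tol = L³ √p/p³ = L³/p^{5/2}`, `δ = tol/2`,
`Σ b = 20L² Σ μ/p^{5/2} ≤ 8L²/p_j^{5/2} ≤ tol/2`; `κ_j = L √p p²/80`,
`κB_l ≤ (L √p_j p_j²/80)(4L/(√n √p_l p_l³)) ≤ L²/(20 √n p_j) = L²/(20√ȳ_j) ≤ 1`;
`κΣv = κ 100L²Σμ/p^5 ≤ (L√p p²/80)(20L²/p^5) = L³/(4 p^{5/2}) = δ/2`; `κδ/2 = L⁴/320`. -/
theorem num_M (h : Reg n L i₁) :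
    Num n i₁ (fun l => 20 * mu n l * L ^ 2 * Real.sqrt (pp n l) / pp n l ^ 3)
      (fun l => 100 * mu n l * L ^ 2 / pp n l ^ 5)
      (fun l => 4 * L / (Real.sqrt (n * pp n l) * pp n l ^ 3))
      (fun j => L ^ 3 * Real.sqrt (pp n j) / pp n j ^ 3)
      (fun j => L * Real.sqrt (pp n j) * pp n j ^ 2 / 80)
      (fun j => L ^ 3 * Real.sqrt (pp n j) / (2 * pp n j ^ 3)) 0 := by
  have hL := h.L_pos
  have hL6 := h.L6
  have hn := h.n_pos
  have hL1 : 1 ≤ L := by linarith
  have hsqn : 0 < Real.sqrt n := Real.sqrt_pos.mpr hn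
  have hpp : ∀ j ≤ i₁, Real.sqrt (pp n j) * Real.sqrt (pp n j) = pp n j := fun j hj =>
    Real.mul_self_sqrt (h.pp_pos hj).le
  refine ⟨?_, ?_, ?_, ?_, ?_⟩
  · intro j hj
    have := h.pp_pos hj
    have := Real.sqrt_pos.mpr this
    positivity
  · intro l j hlj hj
    have hl : l ≤ i₁ := by omega
    have hpj := h.pp_pos hj
    have hpl := h.pp_pos hl
    have hsj := Real.sqrt_pos.mpr hpj
    have hsl := Real.sqrt_pos.mpr hpl
    have h1 : pp n j ≤ pp n l := h.pp_anti hlj.le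
    have h2 : Real.sqrt (pp n j) ≤ Real.sqrt (pp n l) := Real.sqrt_le_sqrt h1
    have h3 := h.sqrt_yb_ge hl
    rw [h.sqrt_yb_eq hl] at h3
    show L * Real.sqrt (pp n j) * pp n j ^ 2 / 80 *
      (4 * L / (Real.sqrt (n * pp n l) * pp n l ^ 3)) ≤ 1
    rw [A6r_sqrt_np h, div_mul_div_comm, div_le_one (by positivity)]
    have h4 : L ^ 2 ≤ L ^ 10 := pow_le_pow_right₀ hL1 (by norm_num)
    have h5 : Real.sqrt (pp n j) * pp n j ^ 2 ≤ Real.sqrt (pp n l) * pp n l ^ 2 :=
      mul_le_mul h2 (pow_le_pow_left₀ hpj.le h1 2) (by positivity) hsl.le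
    calc L * Real.sqrt (pp n j) * pp n j ^ 2 * (4 * L)
        = 4 * L ^ 2 * (Real.sqrt (pp n j) * pp n j ^ 2) := by ring
      _ ≤ 80 * (Real.sqrt n * pp n l) * (Real.sqrt (pp n l) * pp n l ^ 2) := by
          have h6 : 0 < Real.sqrt n * pp n l := by positivity
          apply mul_le_mul _ h5 (by positivity) (by positivity)
          linarith
      _ = _ := by ring
  · intro j hj
    have hp := h.pp_pos hj
    have hsp := Real.sqrt_pos.mpr hp
    have e1 : ∑ l ∈ range j, 20 * mu n l * L ^ 2 * Real.sqrt (pp n l) / pp n l ^ 3 =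
        20 * L ^ 2 * ∑ l ∈ range j, mu n l / pp n l ^ (5 / 2 : ℝ) := by
      rw [Finset.mul_sum]
      refine Finset.sum_congr rfl fun l hl => ?_
      have hl' : l ≤ i₁ := by have := Finset.mem_range.mp hl; omega
      have hpl := h.pp_pos hl'
      have hspl := Real.sqrt_pos.mpr hpl
      have hq := hpp l hl'
      rw [A6r_rpow52 hpl, mul_div_assoc', div_eq_div_iff (by positivity) (by positivity)]
      calc 20 * mu n l * L ^ 2 * Real.sqrt (pp n l) * (pp n l ^ 2 * Real.sqrt (pp n l))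
          = 20 * mu n l * L ^ 2 * pp n l ^ 2 * (Real.sqrt (pp n l) * Real.sqrt (pp n l)) := by ring
        _ = 20 * L ^ 2 * mu n l * pp n l ^ 3 := by rw [hq]; ring
    have b := h.sum_mu_rpow (α := 5 / 2) (by norm_num) hj
    show 0 + ∑ l ∈ range j, 20 * mu n l * L ^ 2 * Real.sqrt (pp n l) / pp n l ^ 3 ≤
      L ^ 3 * Real.sqrt (pp n j) / pp n j ^ 3 - L ^ 3 * Real.sqrt (pp n j) / (2 * pp n j ^ 3)
    rw [zero_add, e1]
    have e2 : L ^ 3 * Real.sqrt (pp n j) / pp n j ^ 3 - L ^ 3 * Real.sqrt (pp n j) / (2 * pp n j ^ 3)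
        = L ^ 3 / 2 * (1 / pp n j ^ (5 / 2 : ℝ)) := by
      rw [A6r_rpow52 hp]
      have hq := hpp j hj
      have e3 : Real.sqrt (pp n j) / pp n j ^ 3 = 1 / (pp n j ^ 2 * Real.sqrt (pp n j)) := by
        rw [div_eq_div_iff (by positivity) (by positivity)]
        calc Real.sqrt (pp n j) * (pp n j ^ 2 * Real.sqrt (pp n j))
            = pp n j ^ 2 * (Real.sqrt (pp n j) * Real.sqrt (pp n j)) := by ring
          _ = 1 * pp n j ^ 3 := by rw [hq]; ring
      rw [← e3]
      field_simp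
      ring
    rw [e2]
    have hpos : 0 < 1 / pp n j ^ (5 / 2 : ℝ) := by
      have := Real.rpow_pos_of_pos hp (5 / 2)
      positivity
    calc 20 * L ^ 2 * ∑ l ∈ range j, mu n l / pp n l ^ (5 / 2 : ℝ)
        ≤ 20 * L ^ 2 * (1 / (5 / 2 * pp n j ^ (5 / 2 : ℝ))) :=
          mul_le_mul_of_nonneg_left b (by positivity)
      _ = 8 * L ^ 2 * (1 / pp n j ^ (5 / 2 : ℝ)) := by
          have := Real.rpow_pos_of_pos hp (5 / 2)
          field_simp
          ring
      _ ≤ L ^ 3 / 2 * (1 / pp n j ^ (5 / 2 : ℝ)) := by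
          apply mul_le_mul_of_nonneg_right _ hpos.le
          have : L ^ 3 = L * L ^ 2 := by ring
          rw [this]
          nlinarith [pow_pos hL 2]
  · intro j hj
    have hp := h.pp_pos hj
    have hsp := Real.sqrt_pos.mpr hp
    have e1 : ∑ l ∈ range j, 100 * mu n l * L ^ 2 / pp n l ^ 5 =
        100 * L ^ 2 * ∑ l ∈ range j, mu n l / pp n l ^ 5 := by
      rw [Finset.mul_sum]
      refine Finset.sum_congr rfl fun l hl => ?_
      ring
    have b := h.sum_mu_pow (k := 5) (by norm_num) hj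
    show L * Real.sqrt (pp n j) * pp n j ^ 2 / 80 * ∑ l ∈ range j, 100 * mu n l * L ^ 2 / pp n l ^ 5 ≤
      L ^ 3 * Real.sqrt (pp n j) / (2 * pp n j ^ 3) / 2
    rw [e1]
    calc L * Real.sqrt (pp n j) * pp n j ^ 2 / 80 *
          (100 * L ^ 2 * ∑ l ∈ range j, mu n l / pp n l ^ 5)
        ≤ L * Real.sqrt (pp n j) * pp n j ^ 2 / 80 *
          (100 * L ^ 2 * (1 / ((5 : ℕ) * pp n j ^ 5))) := by
          apply mul_le_mul_of_nonneg_left _ (by positivity)
          exact mul_le_mul_of_nonneg_left b (by positivity)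
      _ = L ^ 3 * Real.sqrt (pp n j) / (2 * pp n j ^ 3) / 2 := by
          push_cast
          field_simp
          ring
      _ ≤ _ := le_refl _
  · intro j hj
    have hp := h.pp_pos hj
    have hsp := Real.sqrt_pos.mpr hp
    have hq := hpp j hj
    have e : L * Real.sqrt (pp n j) * pp n j ^ 2 / 80 *
        (L ^ 3 * Real.sqrt (pp n j) / (2 * pp n j ^ 3)) / 2 = L ^ 4 / 320 := by
      have e2 : L * Real.sqrt (pp n j) * pp n j ^ 2 / 80 *
        (L ^ 3 * Real.sqrt (pp n j) / (2 * pp n j ^ 3)) / 2 =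
        L ^ 4 * (Real.sqrt (pp n j) * Real.sqrt (pp n j)) * pp n j ^ 2 / (320 * pp n j ^ 3) := by
        field_simp
        ring
      rw [e2, hq]
      field_simp
    show 20 * Real.log n ≤ L * Real.sqrt (pp n j) * pp n j ^ 2 / 80 *
        (L ^ 3 * Real.sqrt (pp n j) / (2 * pp n j ^ 3)) / 2
    rw [e]
    have h1 := A6r_log h
    have h2 : L ^ 2 ≤ L ^ 4 := pow_le_pow_right₀ hL1 (by norm_num)
    have h3 : 0 < L ^ 4 := by positivity
    linarith

end Crest.Agent.TRem
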