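import Crest.Agent.TRem.A2a

/-!
# Row 30, A2b: sums along the trajectory
-/

namespace Crest.Agent.TRem

open Finset

variable {n : ℕ} {L : ℝ} {i₁ : ℕ}

private theorem one_sub_mu_pos (h : Reg n L i₁) {i : ℕ} (hi : i < i₁) : 0 < 1 - mu n i := by
  have h1 := h.pp_pos hi.le
  have h2 := h.pp_pos (i := i + 1) hi
  have h3 := h.pp_succ hi
  rw [h3] at h2
  exact (mul_pos_iff_of_pos_left h1).1 h2

/-- `Σ_{l<j} μ_l / p_l^α ≤ 1/(α p_j^α)`. Proof: by induction on `j`:
`p_{j+1}^{-α} - p_j^{-α} = p_j^{-α} ((1-μ)^{-α} - 1) ≥ p_j^{-α} α μ`, because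
`(1-μ)^{-α} = exp(-α log(1-μ)) ≥ exp(α μ) ≥ 1 + α μ`. -/
theorem Reg.sum_mu_rpow (h : Reg n L i₁) {α : ℝ} (hα : 0 < α) {j : ℕ} (hj : j ≤ i₁) :
    ∑ l ∈ range j, mu n l / pp n l ^ α ≤ 1 / (α * pp n j ^ α) := by
  induction j with
  | zero =>
    rw [sum_range_zero]
    have := h.pp_pos hj
    positivity
  | succ j ih =>
    have hj' : j < i₁ := hj
    rw [sum_range_succ]
    have ih' := ih hj'.le
    have hp := h.pp_pos hj'.le
    have hp1 := h.pp_pos hj
    have hm := one_sub_mu_pos h hj'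
    have hmu := h.mu_pos hj'.le
    have hP : 0 < pp n j ^ α := Real.rpow_pos_of_pos hp α
    have hR : 0 < (1 - mu n j) ^ α := Real.rpow_pos_of_pos hm α
    have key : (1 + α * mu n j) * (1 - mu n j) ^ α ≤ 1 := by
      have h1 : (1 - mu n j) ^ α ≤ Real.exp (-(α * mu n j)) := by
        rw [Real.rpow_def_of_pos hm]
        apply Real.exp_le_exp.2
        have h5 := Real.log_le_sub_one_of_pos hm
        nlinarith
      have h2 : 1 + α * mu n j ≤ Real.exp (α * mu n j) := by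
        have := Real.add_one_le_exp (α * mu n j)
        linarith
      calc (1 + α * mu n j) * (1 - mu n j) ^ α ≤ Real.exp (α * mu n j) * Real.exp (-(α * mu n j)) :=
            mul_le_mul h2 h1 hR.le (Real.exp_pos _).le
        _ = 1 := by rw [← Real.exp_add]; simp
    have hsucc : pp n (j + 1) ^ α = pp n j ^ α * (1 - mu n j) ^ α := by
      rw [h.pp_succ hj', Real.mul_rpow hp.le hm.le]
    rw [hsucc]
    calc ∑ x ∈ range j, mu n x / pp n x ^ α + mu n j / pp n j ^ α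
        ≤ 1 / (α * pp n j ^ α) + mu n j / pp n j ^ α := by gcongr
      _ = (1 + α * mu n j) / (α * pp n j ^ α) := by
          field_simp
      _ ≤ 1 / (α * (pp n j ^ α * (1 - mu n j) ^ α)) := by
          rw [div_le_div_iff₀ (by positivity) (by positivity)]
          have h3 := mul_le_mul_of_nonneg_left key (mul_pos hα hP).le
          nlinarith

/-- natural exponents. -/
theorem Reg.sum_mu_pow (h : Reg n L i₁) {k : ℕ} (hk : 0 < k) {j : ℕ} (hj : j ≤ i₁) :
    ∑ l ∈ range j, mu n l / pp n l ^ k ≤ 1 / (k * pp n j ^ k) := by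
  have := h.sum_mu_rpow (α := (k : ℝ)) (by exact_mod_cast hk) hj
  simpa only [Real.rpow_natCast] using this

/-- `Σ_{l<j} μ_l p_l^{-2} 2(1+s_l) ≤ p_j^{-2}(1/2+s_j)`. Proof: `f(s) = e^{2s}(1/2+s)` is convex and
increasing on `s ≥ 0` with `f'(s) = 2(1+s)e^{2s}`, `p^{-2} = e^{2s}`, so by induction on `j`
`f(s_{j+1}) - f(s_j) ≥ f'(s_j)(s_{j+1}-s_j) ≥ f'(s_j) μ_j` (`Reg.ss_succ`). Direct proof of the
convexity inequality: with `h = s_{j+1}-s_j ≥ μ ≥ 0`: `e^{2h}(1/2+s+h) ≥ (1+2h)(1/2+s+h) ≥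
1/2+s+2h(1+s)`. -/
theorem Reg.sum_mu_ss (h : Reg n L i₁) {j : ℕ} (hj : j ≤ i₁) :
    ∑ l ∈ range j, mu n l / pp n l ^ 2 * (2 * (1 + ss n l)) ≤ (1 / 2 + ss n j) / pp n j ^ 2 := by
  induction j with
  | zero =>
    rw [sum_range_zero]
    have h1 := h.pp_pos hj
    have h2 := h.ss_nonneg hj
    positivity
  | succ j ih =>
    have hj' : j < i₁ := hj
    rw [sum_range_succ]
    have ih' := ih hj'.le
    have hp := h.pp_pos hj'.le
    have hp1 := h.pp_pos hj
    have hm := one_sub_mu_pos h hj'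
    have hmu := h.mu_pos hj'.le
    have hs := h.ss_nonneg hj'.le
    have hss := h.ss_succ hj'
    have h1 : (1 - mu n j) * (1 + mu n j) ≤ 1 := by nlinarith
    have h2 : (1 - mu n j) ^ 2 * (1 + 2 * mu n j) ≤ 1 := by
      have h3 : 1 + 2 * mu n j ≤ (1 + mu n j) ^ 2 := by nlinarith
      calc (1 - mu n j) ^ 2 * (1 + 2 * mu n j) ≤ (1 - mu n j) ^ 2 * (1 + mu n j) ^ 2 := by gcongr
        _ = ((1 - mu n j) * (1 + mu n j)) ^ 2 := by ring
        _ ≤ 1 := pow_le_one₀ (by positivity) h1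
    calc ∑ x ∈ range j, mu n x / pp n x ^ 2 * (2 * (1 + ss n x)) +
          mu n j / pp n j ^ 2 * (2 * (1 + ss n j))
        ≤ (1 / 2 + ss n j) / pp n j ^ 2 + mu n j / pp n j ^ 2 * (2 * (1 + ss n j)) := by gcongr
      _ = (1 / 2 + ss n j + 2 * mu n j * (1 + ss n j)) / pp n j ^ 2 := by ring
      _ ≤ (1 / 2 + ss n (j + 1)) / pp n (j + 1) ^ 2 := by
          rw [h.pp_succ hj', div_le_div_iff₀ (by positivity) (by positivity)]
          have h4 : 1 / 2 + ss n j + 2 * mu n j * (1 + ss n j) ≤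
              (1 + 2 * mu n j) * (1 / 2 + ss n (j + 1)) := by
            nlinarith
          calc (1 / 2 + ss n j + 2 * mu n j * (1 + ss n j)) * (pp n j * (1 - mu n j)) ^ 2
              ≤ ((1 + 2 * mu n j) * (1 / 2 + ss n (j + 1))) * (pp n j * (1 - mu n j)) ^ 2 := by
                gcongr
            _ = (1 / 2 + ss n (j + 1)) * pp n j ^ 2 * ((1 - mu n j) ^ 2 * (1 + 2 * mu n j)) := by
                ring
            _ ≤ (1 / 2 + ss n (j + 1)) * pp n j ^ 2 * 1 := by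
                have := h.ss_nonneg (i := j + 1) hj
                gcongr
            _ = (1 / 2 + ss n (j + 1)) * pp n j ^ 2 := mul_one _

/-- the same sum restricted to `[i, j)` of a nonnegative sequence is smaller (for convenience). -/
theorem sum_Ico_le_range (f : ℕ → ℝ) (hf : ∀ l, 0 ≤ f l) (i j : ℕ) :
    ∑ l ∈ Ico i j, f l ≤ ∑ l ∈ range j, f l := by
  refine Finset.sum_le_sum_of_subset_of_nonneg ?_ (fun l _ _ => hf l)
  intro l hl
  rw [mem_Ico] at hl
  exact mem_range.2 hl.2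

end Crest.Agent.TRem
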