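import Crest.Agent.TRem.A3j
import Crest.Agent.TRem.A2b

/-!
# Row 30, A7: first moment of small configurations
-/

namespace Crest.Agent.TRem

open Finset Crest.CombinatoricsR.TriangleRemoval

variable {n : ℕ} {L : ℝ} {i₁ i : ℕ} {σ : St n}

/-- the multiplicative factor of one step: `(1-μ_l) e^{20 μ_l x_l}`, `x = L/√ȳ`. -/
noncomputable def fac (n : ℕ) (L : ℝ) (l : ℕ) : ℝ :=
  (1 - mu n l) * Real.exp (20 * mu n l * (L / Real.sqrt (yb n l)))

/-- the supermartingale `W_S(i) = 1[S ⊆ E] Π_{l=i}^{i₁-1} fac_l^{|S|}`. -/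
noncomputable def WS (L : ℝ) (i₁ : ℕ) (S : Finset (Sym2 (Fin n))) (i : ℕ) (σ : St n) : ℝ :=
  (if S ⊆ σ.E then 1 else 0) * (∏ l ∈ Ico i i₁, fac n L l) ^ S.card

private theorem a7_L1 (h : Reg n L i₁) : 1 ≤ L := le_trans (by norm_num) h.L6

private theorem a7_mu_le (h : Reg n L i₁) {l : ℕ} (hl : l ≤ i₁) : mu n l ≤ 1 / 10 ^ 6 := by
  have h1 := a7_L1 h
  have h2 : (10:ℝ) ^ 6 ≤ L ^ 39 := h.L6.trans (by
    calc L = L ^ 1 := (pow_one L).symm
      _ ≤ L ^ 39 := pow_le_pow_right₀ h1 (by norm_num))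
  exact (h.mu_small hl).trans (one_div_le_one_div_of_le (by norm_num) h2)

private theorem a7_x_pos (h : Reg n L i₁) {l : ℕ} (hl : l ≤ i₁) : 0 < L / Real.sqrt (yb n l) :=
  div_pos h.L_pos (Real.sqrt_pos.2 (h.yb_pos hl))

private theorem a7_x_le (h : Reg n L i₁) {l : ℕ} (hl : l ≤ i₁) : L / Real.sqrt (yb n l) ≤ 1 / 10 ^ 6 := by
  have h1 := a7_L1 h
  have h2 : (10:ℝ) ^ 6 ≤ L ^ 9 := h.L6.trans (by
    calc L = L ^ 1 := (pow_one L).symm
      _ ≤ L ^ 9 := pow_le_pow_right₀ h1 (by norm_num))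
  exact (h.x_le hl).trans (one_div_le_one_div_of_le (by norm_num) h2)

/-- `μ ≤ x` -/
private theorem a7_mu_le_x (h : Reg n L i₁) {l : ℕ} (hl : l ≤ i₁) : mu n l ≤ L / Real.sqrt (yb n l) := by
  have h1 := a7_L1 h
  have hs : 1 ≤ Real.sqrt (yb n l) := (one_le_pow₀ h1).trans (h.sqrt_yb_ge hl)
  have hy := h.yb_pos hl
  have hsq : Real.sqrt (yb n l) * Real.sqrt (yb n l) = yb n l := Real.mul_self_sqrt hy.le
  have hmy := h.mu_yb hl
  have hmp := h.mu_pos hl
  have h3 : (1:ℝ) / L ^ 19 ≤ 1 := by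
    rw [div_le_one (by positivity)]
    exact one_le_pow₀ h1
  rw [le_div_iff₀ (by positivity)]
  calc mu n l * Real.sqrt (yb n l) ≤ mu n l * (Real.sqrt (yb n l) * Real.sqrt (yb n l)) := by
        refine mul_le_mul_of_nonneg_left ?_ hmp.le
        nlinarith
    _ = mu n l * yb n l := by rw [hsq]
    _ ≤ 1 := hmy.trans h3
    _ ≤ L := h1

theorem fac_pos (h : Reg n L i₁) {l : ℕ} (hl : l < i₁) : 0 < fac n L l := by
  unfold fac
  have := a7_mu_le h hl.le
  refine mul_pos ?_ (Real.exp_pos _)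
  norm_num at this
  linarith

/-- indicator that the pair `f` is inside `T` -/
private noncomputable def JJ (f : Sym2 (Fin n)) (T : Finset (Fin n)) : ℝ := if f ∈ T.sym2 then 1 else 0

private theorem JJ_mk (a b : Fin n) (T : Finset (Fin n)) : JJ s(a, b) T = II a b T := by
  unfold JJ II
  simp only [Finset.mk_mem_sym2_iff]

private theorem JJ_sq (f : Sym2 (Fin n)) (T : Finset (Fin n)) : JJ f T * JJ f T = JJ f T := by
  unfold JJ
  split_ifs <;> simp

private theorem JJ_nonneg (f : Sym2 (Fin n)) (T : Finset (Fin n)) : 0 ≤ JJ f T := by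
  unfold JJ
  split_ifs <;> simp

/-- pointwise Bonferroni -/
private theorem a7_bonf (S E : Finset (Sym2 (Fin n))) (T : Finset (Fin n)) :
    (if S ⊆ E \ T.sym2 then (1:ℝ) else 0) ≤
      1 - ∑ f ∈ S, JJ f T + (1 / 2) * ∑ f ∈ S, ∑ g ∈ S.erase f, JJ f T * JJ g T := by
  set m : ℕ := (S.filter (fun f => f ∈ T.sym2)).card with hm
  have h1 : ∑ f ∈ S, JJ f T = m := by
    unfold JJ
    rw [← Finset.sum_filter]
    simp [hm]
  have h2 : ∑ f ∈ S, ∑ g ∈ S.erase f, JJ f T * JJ g T = (m:ℝ) * m - m := by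
    have e : ∀ f ∈ S, ∑ g ∈ S.erase f, JJ f T * JJ g T = JJ f T * m - JJ f T := by
      intro f hf
      rw [← Finset.mul_sum, ← h1, ← Finset.add_sum_erase S (fun g => JJ g T) hf]
      have := JJ_sq f T
      linear_combination (-1:ℝ) * this
    rw [Finset.sum_congr rfl e, Finset.sum_sub_distrib, ← Finset.sum_mul, h1]
  rw [h1, h2]
  by_cases hsub : S ⊆ E \ T.sym2
  · rw [if_pos hsub]
    have hm0 : m = 0 := by
      rw [hm, Finset.card_eq_zero, Finset.filter_eq_empty_iff]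
      intro f hf
      exact (Finset.mem_sdiff.1 (hsub hf)).2
    rw [hm0]; norm_num
  · rw [if_neg hsub]
    have hnn : 0 ≤ ((m:ℝ) - 1) * ((m:ℝ) - 2) := by
      rcases Nat.lt_or_ge m 2 with hlt | hge
      · have h01 : m = 0 ∨ m = 1 := by omega
        rcases h01 with h0 | h0 <;> rw [h0] <;> norm_num
      · have : (2:ℝ) ≤ m := by exact_mod_cast hge
        exact mul_nonneg (by linarith) (by linarith)
    nlinarith [hnn]

/-- two different pairs determine at most one triangle -/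
private theorem a7_pair {E : Finset (Sym2 (Fin n))} (hE : E ⊆ allEdges n) {f g : Sym2 (Fin n)} (hf : f ∈ E)
    (hg : g ∈ E) (hfg : f ≠ g) (hQ : 0 < QQ E) :
    Av (triangles E) (fun T => JJ f T * JJ g T) ≤ 1 / QQ E := by
  have hle : ((triangles E).filter (fun T => f ∈ T.sym2 ∧ g ∈ T.sym2)).card ≤ 1 := by
    rw [Finset.card_le_one]
    intro T hT T' hT'
    have hT1 := Finset.mem_filter.1 hT
    have hT1' := Finset.mem_filter.1 hT'
    -- the set of vertices of `f` and `g`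
    have hfd : ¬ f.IsDiag := (Finset.mem_filter.1 (hE hf)).2
    have hgd : ¬ g.IsDiag := (Finset.mem_filter.1 (hE hg)).2
    induction f using Sym2.ind with | _ a b => ?_
    induction g using Sym2.ind with | _ c d => ?_
    rw [Sym2.mk_isDiag_iff] at hfd hgd
    simp only [Finset.mk_mem_sym2_iff] at hT1 hT1'
    have hV : 3 ≤ ({a, b, c, d} : Finset (Fin n)).card := by
      by_contra hlt
      push Not at hlt
      have hab : ({a, b} : Finset (Fin n)).card = 2 := Finset.card_pair hfd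
      have hcd : ({c, d} : Finset (Fin n)).card = 2 := Finset.card_pair hgd
      have s1 : ({a, b} : Finset (Fin n)) ⊆ {a, b, c, d} := by
        intro x hx; simp only [Finset.mem_insert, Finset.mem_singleton] at hx ⊢; tauto
      have s2 : ({c, d} : Finset (Fin n)) ⊆ {a, b, c, d} := by
        intro x hx; simp only [Finset.mem_insert, Finset.mem_singleton] at hx ⊢; tauto
      have e1 := Finset.eq_of_subset_of_card_le s1 (by omega)
      have e2 := Finset.eq_of_subset_of_card_le s2 (by omega)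
      have e3 : ({a, b} : Finset (Fin n)) = {c, d} := e1.trans e2.symm
      apply hfg
      have ha : a ∈ ({c, d} : Finset (Fin n)) := by rw [← e3]; simp
      have hb : b ∈ ({c, d} : Finset (Fin n)) := by rw [← e3]; simp
      simp only [Finset.mem_insert, Finset.mem_singleton] at ha hb
      rw [Sym2.eq_iff]
      rcases ha with ha | ha <;> rcases hb with hb | hb
      · exact absurd (ha.trans hb.symm) hfd
      · exact Or.inl ⟨ha, hb⟩
      · exact Or.inr ⟨ha, hb⟩
      · exact absurd (ha.trans hb.symm) hfd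
    have hsub : ∀ U ∈ triangles E, a ∈ U ∧ b ∈ U → c ∈ U ∧ d ∈ U → ({a, b, c, d} : Finset (Fin n)) = U := by
      intro U hU h1 h2
      refine Finset.eq_of_subset_of_card_le ?_ ?_
      · intro x hx
        simp only [Finset.mem_insert, Finset.mem_singleton] at hx
        rcases hx with rfl | rfl | rfl | rfl
        · exact h1.1
        · exact h1.2
        · exact h2.1
        · exact h2.2
      · rw [mem_tri_card hU]; exact hV
    rw [← hsub T hT1.1 hT1.2.1 hT1.2.2, ← hsub T' hT1'.1 hT1'.2.1 hT1'.2.2]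
  unfold Av
  have hsum : ∑ T ∈ triangles E, JJ f T * JJ g T =
      (((triangles E).filter (fun T => f ∈ T.sym2 ∧ g ∈ T.sym2)).card : ℝ) := by
    rw [Finset.card_filter, Nat.cast_sum]
    refine Finset.sum_congr rfl fun T _ => ?_
    unfold JJ
    by_cases h1 : f ∈ T.sym2 <;> by_cases h2 : g ∈ T.sym2 <;> simp [h1, h2]
  rw [hsum, one_div]
  have hQ' : ((triangles E).card : ℝ)⁻¹ = (QQ E)⁻¹ := rfl
  rw [hQ']
  have : (((triangles E).filter (fun T => f ∈ T.sym2 ∧ g ∈ T.sym2)).card : ℝ) ≤ 1 := by exact_mod_cast hle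
  calc (QQ E)⁻¹ * _ ≤ (QQ E)⁻¹ * 1 := mul_le_mul_of_nonneg_left this (by positivity)
    _ = (QQ E)⁻¹ := mul_one _

/-- the probability of one pair -/
private theorem a7_single (h : Reg n L i₁) (hi : i < i₁) (hI : Inv i σ) (hG : Good L i σ)
    {f : Sym2 (Fin n)} (hf : f ∈ σ.E) :
    mu n i * (1 - 4 * (L / Real.sqrt (yb n i))) ≤ Av (triangles σ.E) (JJ f) := by
  have hfd : ¬ f.IsDiag := (Finset.mem_filter.1 (hI.sub hf)).2
  induction f using Sym2.ind with | _ a b => ?_
  rw [Sym2.mk_isDiag_iff] at hfd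
  have e : (JJ s(a, b) : Finset (Fin n) → ℝ) = II a b := funext fun T => JJ_mk a b T
  have hadj : adj σ.E a b = 1 := by unfold adj; rw [if_pos hf]
  rw [e, gd_Av_II_eq h hi.le hI hG hfd hadj]
  have hth := gd_th_le h hi.le hG
  have hrr := gd_rr_le h hi.le hG hfd
  have hx0 := a7_x_pos h hi.le
  have hx1 := a7_x_le h hi.le
  have hmu := h.mu_pos hi.le
  set x := L / Real.sqrt (yb n i) with hx
  have hθ := gd_th_ge h hi.le hG
  rw [abs_le] at hth hrr
  rw [mul_div_assoc]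
  refine mul_le_mul_of_nonneg_left ?_ hmu.le
  rw [le_div_iff₀ (by linarith)]
  have h1 : (1 - 4 * x) * th i σ.E ≤ (1 - 4 * x) * (1 + x / 100) :=
    mul_le_mul_of_nonneg_left (by linarith) (by norm_num at hx1; linarith)
  nlinarith [mul_pos hx0 hx0]

/-- probability that the random triangle avoids `S ⊆ E`, by Bonferroni:
`P(T ∩ S = ∅) ≤ 1 - Σ_{f∈S} P(f∈T) + Σ_{f≠g∈S, unordered} P(f,g∈T)`. Pointwise: with
`m = #(pairs of T in S) ∈ {0,1,2,3}`, `1[m=0] ≤ 1 - m + m(m-1)/2`. Then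
`P(f∈T) = μ(1+r_f)/θ ≥ μ(1-3.1x)` (`gd_Av_II_eq`), `P(f,g∈T) ≤ 1/Q ≤ 1.02 μ/ȳ` (two different
pairs determine at most one triangle), and `|S|² μ/ȳ ≤ |S| μ L√ȳ/ȳ = |S| μ x`. -/
theorem avoid_le (h : Reg n L i₁) (hi : i < i₁) (hI : Inv i σ) (hG : Good L i σ)
    (S : Finset (Sym2 (Fin n))) (hS : S ⊆ σ.E) (hc : (S.card : ℝ) ≤ L * Real.sqrt (yb n i)) :
    Av (triangles σ.E) (fun T => if S ⊆ σ.E \ T.sym2 then (1:ℝ) else 0) ≤
      1 - S.card * mu n i * (1 - 7 * (L / Real.sqrt (yb n i))) := by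
  have hne := gd_nonempty h hi.le hG
  have hQ := gd_QQ_pos h hi.le hG
  have hx0 := a7_x_pos h hi.le
  have hmu := h.mu_pos hi.le
  have hy := h.yb_pos hi.le
  have hb : Av (triangles σ.E) (fun T => if S ⊆ σ.E \ T.sym2 then (1:ℝ) else 0) ≤
      Av (triangles σ.E) (fun T => 1 - ∑ f ∈ S, JJ f T + (1 / 2) * ∑ f ∈ S, ∑ g ∈ S.erase f, JJ f T * JJ g T) :=
    Av_mono fun T _ => a7_bonf S σ.E T
  refine hb.trans ?_
  rw [Av_add, Av_sub, Av_const hne, Av_mul, Av_sum, Av_sum]
  have h1 : (S.card : ℝ) * (mu n i * (1 - 4 * (L / Real.sqrt (yb n i)))) ≤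
      ∑ f ∈ S, Av (triangles σ.E) (JJ f) := by
    rw [← nsmul_eq_mul]
    exact Finset.card_nsmul_le_sum _ _ _ fun f hf => a7_single h hi hI hG (hS hf)
  have hinv : 1 / QQ σ.E ≤ 51 / 50 * (mu n i / yb n i) := by
    rw [gd_inv_QQ h hi.le hG]
    have hθ := gd_th_ge h hi.le hG
    rw [div_le_iff₀ (by positivity)]
    have e : 51 / 50 * (mu n i / yb n i) * (th i σ.E * yb n i) = 51 / 50 * mu n i * th i σ.E := by
      field_simp
    rw [e]
    nlinarith
  have h2 : ∑ f ∈ S, Av (triangles σ.E) (fun T => ∑ g ∈ S.erase f, JJ f T * JJ g T) ≤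
      (S.card : ℝ) * ((S.card : ℝ) * (51 / 50 * (mu n i / yb n i))) := by
    rw [← nsmul_eq_mul]
    refine Finset.sum_le_card_nsmul _ _ _ fun f hf => ?_
    rw [Av_sum]
    have h3 : ∑ g ∈ S.erase f, Av (triangles σ.E) (fun T => JJ f T * JJ g T) ≤
        (S.erase f).card • (51 / 50 * (mu n i / yb n i)) := by
      refine Finset.sum_le_card_nsmul _ _ _ fun g hg => ?_
      have hg' := Finset.mem_erase.1 hg
      exact (a7_pair hI.sub (hS hf) (hS hg'.2) hg'.1.symm hQ).trans hinv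
    refine h3.trans ?_
    rw [nsmul_eq_mul]
    refine mul_le_mul_of_nonneg_right ?_ (by positivity)
    exact_mod_cast Finset.card_erase_le
  -- `|S| μ / ȳ ≤ μ x`
  have h4 : (S.card : ℝ) * (mu n i / yb n i) ≤ mu n i * (L / Real.sqrt (yb n i)) := by
    have hs : 0 < Real.sqrt (yb n i) := Real.sqrt_pos.2 hy
    calc (S.card : ℝ) * (mu n i / yb n i) ≤ (L * Real.sqrt (yb n i)) * (mu n i / yb n i) :=
          mul_le_mul_of_nonneg_right hc (by positivity)
      _ = mu n i * (L / Real.sqrt (yb n i)) := by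
          have hsq : Real.sqrt (yb n i) * Real.sqrt (yb n i) = yb n i := Real.mul_self_sqrt hy.le
          have : yb n i = Real.sqrt (yb n i) * Real.sqrt (yb n i) := hsq.symm
          field_simp
          rw [Real.sq_sqrt hy.le]
  have hs0 : (0:ℝ) ≤ S.card := Nat.cast_nonneg _
  have h5 : (S.card : ℝ) * ((S.card : ℝ) * (51 / 50 * (mu n i / yb n i))) ≤
      (S.card : ℝ) * (51 / 50 * (mu n i * (L / Real.sqrt (yb n i)))) := by
    refine mul_le_mul_of_nonneg_left ?_ hs0
    calc (S.card : ℝ) * (51 / 50 * (mu n i / yb n i)) = 51 / 50 * ((S.card : ℝ) * (mu n i / yb n i)) := by ring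
      _ ≤ _ := mul_le_mul_of_nonneg_left h4 (by norm_num)
  have h6 : 0 ≤ (S.card : ℝ) * (mu n i * (L / Real.sqrt (yb n i))) := by positivity
  nlinarith

/-- supermartingale: if `S ⊄ E` both sides vanish; otherwise `avoid_le` and
`1 - |S|μ(1-7x) ≤ exp(-|S|μ(1-7x)) ≤ fac^{|S|}` because
`log fac = log(1-μ) + 20μx ≥ -μ-μ²+20μx ≥ -μ(1-19x)` (`μ ≤ x`). -/
theorem WS_step (h : Reg n L i₁) (hi : i < i₁) (hI : Inv i σ) (hG : Good L i σ)
    (S : Finset (Sym2 (Fin n))) (hc : (S.card : ℝ) ≤ L * Real.sqrt (yb n i₁)) :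
    Av (triangles σ.E) (fun T => WS L i₁ S (i + 1) (nxt i σ T)) ≤ WS L i₁ S i σ := by
  unfold WS
  have hP0 : 0 ≤ (∏ l ∈ Ico (i + 1) i₁, fac n L l) ^ S.card :=
    pow_nonneg (Finset.prod_nonneg fun l hl => (fac_pos h (Finset.mem_Ico.1 hl).2).le) _
  have hE : ∀ T, (nxt i σ T).E = σ.E \ T.sym2 := fun T => rfl
  simp only [hE]
  have hprod : ∏ l ∈ Ico i i₁, fac n L l = fac n L i * ∏ l ∈ Ico (i + 1) i₁, fac n L l :=
    Finset.prod_eq_prod_Ico_succ_bot hi _
  rw [hprod, mul_pow]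
  have hmul : Av (triangles σ.E) (fun T => (if S ⊆ σ.E \ T.sym2 then (1:ℝ) else 0) *
      (∏ l ∈ Ico (i + 1) i₁, fac n L l) ^ S.card) =
      (∏ l ∈ Ico (i + 1) i₁, fac n L l) ^ S.card *
        Av (triangles σ.E) (fun T => if S ⊆ σ.E \ T.sym2 then (1:ℝ) else 0) := by
    rw [← Av_mul]
    exact Av_congr fun T _ => mul_comm _ _
  rw [hmul]
  by_cases hS : S ⊆ σ.E
  · rw [if_pos hS, one_mul]
    have hc' : (S.card : ℝ) ≤ L * Real.sqrt (yb n i) :=
      hc.trans (mul_le_mul_of_nonneg_left (Real.sqrt_le_sqrt (h.yb_anti hi.le le_rfl)) h.L_pos.le)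
    have hav := avoid_le h hi hI hG S hS hc'
    have hx0 := a7_x_pos h hi.le
    have hx1 := a7_x_le h hi.le
    have hmu := h.mu_pos hi.le
    have hmx := a7_mu_le_x h hi.le
    have hmu6 := a7_mu_le h hi.le
    have hfac : Real.exp (-(mu n i * (1 - 7 * (L / Real.sqrt (yb n i))))) ≤ fac n L i := by
      unfold fac
      set x := L / Real.sqrt (yb n i) with hx
      set μ := mu n i with hμ
      have ht : 0 ≤ μ * (1 + 13 * x) := by positivity
      have h1 : Real.exp (-(μ * (1 - 7 * x))) = Real.exp (-(μ * (1 + 13 * x))) * Real.exp (20 * μ * x) := by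
        rw [← Real.exp_add]
        congr 1
        ring
      rw [h1]
      refine mul_le_mul_of_nonneg_right ?_ (Real.exp_pos _).le
      rw [Real.exp_neg, inv_le_comm₀ (Real.exp_pos _) (by norm_num at hmu6; linarith)]
      have h2 := Real.add_one_le_exp (μ * (1 + 13 * x))
      refine le_trans ?_ h2
      rw [inv_le_iff_one_le_mul₀ (by norm_num at hmu6; linarith)]
      have h3 : μ * (1 + 13 * x) ≤ 13 * x := by
        have : 1 + 13 * x ≤ 2 := by norm_num at hx1; linarith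
        nlinarith
      nlinarith
    have hpow : 1 - S.card * mu n i * (1 - 7 * (L / Real.sqrt (yb n i))) ≤ fac n L i ^ S.card := by
      have h1 := Real.add_one_le_exp (-(S.card * mu n i * (1 - 7 * (L / Real.sqrt (yb n i)))))
      have h2 : Real.exp (-(S.card * mu n i * (1 - 7 * (L / Real.sqrt (yb n i))))) =
          Real.exp (-(mu n i * (1 - 7 * (L / Real.sqrt (yb n i))))) ^ S.card := by
        rw [← Real.exp_nat_mul]
        congr 1
        ring
      have h3 : Real.exp (-(mu n i * (1 - 7 * (L / Real.sqrt (yb n i))))) ^ S.card ≤ fac n L i ^ S.card :=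
        pow_le_pow_left₀ (Real.exp_pos _).le hfac _
      linarith
    rw [mul_comm (fac n L i ^ S.card)]
    exact mul_le_mul_of_nonneg_left (hav.trans hpow) hP0
  · rw [if_neg hS, zero_mul]
    have hz : Av (triangles σ.E) (fun T => if S ⊆ σ.E \ T.sym2 then (1:ℝ) else 0) = 0 := by
      unfold Av
      rw [Finset.sum_eq_zero, mul_zero]
      intro T _
      rw [if_neg (fun hc => hS (hc.trans Finset.sdiff_subset))]
    rw [hz, mul_zero]

/-- `Π_{l<i₁} fac_l = p_{i₁} exp(20 Σ μ_l x_l)`, `Σ μ_l x_l = (L/√n) Σ μ/p ≤ L/√ȳ_{i₁} ≤ L^{-9}`,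
so the product is at most `1.1 p_{i₁}`. -/
theorem prod_fac_le (h : Reg n L i₁) : ∏ l ∈ Ico 0 i₁, fac n L l ≤ 11 / 10 * pp n i₁ := by
  have hind : ∀ j, j ≤ i₁ → ∏ l ∈ range j, fac n L l =
      pp n j * Real.exp (20 * ∑ l ∈ range j, mu n l * (L / Real.sqrt (yb n l))) := by
    intro j
    induction j with
    | zero =>
      intro _
      have hN := h.NN_pos
      have : pp n 0 = 1 := by
        unfold pp MM
        rw [Nat.cast_zero, mul_zero, sub_zero, div_self hN.ne']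
      rw [this]; simp
    | succ j ih =>
      intro hj
      rw [Finset.prod_range_succ, ih (by omega), Finset.sum_range_succ, h.pp_succ (by omega : j < i₁)]
      unfold fac
      rw [mul_add, Real.exp_add, mul_assoc 20 (mu n j)]
      ring
  rw [← Finset.range_eq_Ico, hind i₁ le_rfl, mul_comm]
  have hpp := h.pp_pos le_rfl
  refine mul_le_mul_of_nonneg_right ?_ hpp.le
  have hsum : ∑ l ∈ range i₁, mu n l * (L / Real.sqrt (yb n l)) ≤ L / Real.sqrt (yb n i₁) := by
    have e : ∀ l ∈ range i₁, mu n l * (L / Real.sqrt (yb n l)) = L / Real.sqrt n * (mu n l / pp n l ^ 1) := by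
      intro l hl
      have hl' := (Finset.mem_range.1 hl).le
      rw [h.sqrt_yb_eq hl', pow_one]
      have := h.pp_pos hl'
      have hsn : 0 < Real.sqrt n := Real.sqrt_pos.2 h.n_pos
      field_simp
    rw [Finset.sum_congr rfl e, ← Finset.mul_sum]
    have h1 := h.sum_mu_pow (k := 1) (by norm_num) (le_refl i₁)
    have hsn : 0 < Real.sqrt n := Real.sqrt_pos.2 h.n_pos
    calc L / Real.sqrt n * ∑ l ∈ range i₁, mu n l / pp n l ^ 1 ≤
        L / Real.sqrt n * (1 / ((1:ℕ) * pp n i₁ ^ 1)) :=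
          mul_le_mul_of_nonneg_left h1 (div_nonneg h.L_pos.le hsn.le)
      _ = L / Real.sqrt (yb n i₁) := by
          rw [h.sqrt_yb_eq le_rfl, pow_one, Nat.cast_one, one_mul]
          field_simp
  have hx1 := a7_x_le h (le_refl i₁)
  have hy1 : 20 * ∑ l ∈ range i₁, mu n l * (L / Real.sqrt (yb n l)) ≤ 1 / 11 := by
    norm_num at hx1
    linarith
  have h2 := Real.add_one_le_exp (-(20 * ∑ l ∈ range i₁, mu n l * (L / Real.sqrt (yb n l))))
  rw [Real.exp_neg] at h2
  have h3 : 10 / 11 ≤ (Real.exp (20 * ∑ l ∈ range i₁, mu n l * (L / Real.sqrt (yb n l))))⁻¹ := by linarith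
  have h4 := inv_anti₀ (by norm_num : (0:ℝ) < 10 / 11) h3
  rw [inv_inv] at h4
  norm_num at h4 ⊢
  exact h4

end Crest.Agent.TRem
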