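import Crest.Agent.TRem.A3j

/-!
# Row 30, A8: the output of the DE phase
-/

namespace Crest.Agent.TRem

open Finset Crest.CombinatoricsR.TriangleRemoval

variable {n : ℕ} {L : ℝ} {i₁ : ℕ} {σ : St n}

private lemma a8_ne {E : Finset (Sym2 (Fin n))} (hE : E ⊆ allEdges n) {u v : Fin n}
    (huv : s(u, v) ∈ E) : u ≠ v := by
  have := hE huv
  simpa [allEdges] using this

private lemma a8_mem_tr {t : Finset (Fin n)} {u v : Fin n} :
    s(u, v) ∈ tr t ↔ u ∈ t ∧ v ∈ t ∧ u ≠ v := by
  unfold tr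
  rw [Finset.mem_filter, Finset.mk_mem_sym2_iff]
  simp
  tauto

private lemma a8_tr {u v w : Fin n} (huv : u ≠ v) (huw : u ≠ w) (hvw : v ≠ w) :
    (tr ({u, v, w} : Finset (Fin n))).erase s(u, v) = {s(u, w), s(v, w)} := by
  ext e
  induction e using Sym2.ind with
  | _ a b =>
    rw [Finset.mem_erase, a8_mem_tr]
    simp only [Finset.mem_insert, Finset.mem_singleton, ne_eq, Sym2.eq_iff]
    constructor
    · rintro ⟨h1, h2, h3, h4⟩
      rcases h2 with rfl | rfl | rfl <;> rcases h3 with rfl | rfl | rfl <;> simp_all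
    · rintro ((⟨rfl, rfl⟩ | ⟨rfl, rfl⟩) | (⟨rfl, rfl⟩ | ⟨rfl, rfl⟩)) <;> simp_all [eq_comm]

private lemma a8_filter {E : Finset (Sym2 (Fin n))} (hE : E ⊆ allEdges n) {u v : Fin n}
    (huv : s(u, v) ∈ E) :
    (triangles E).filter (fun t => s(u, v) ∈ tr t) =
      (univ.filter (fun w => s(u, w) ∈ E ∧ s(v, w) ∈ E)).image (fun w => ({u, v, w} : Finset (Fin n))) := by
  have hne := a8_ne hE huv
  ext t
  simp only [Finset.mem_filter, Finset.mem_image, Finset.mem_univ, true_and, a8_mem_tr]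
  constructor
  · rintro ⟨ht, hu, hv, _⟩
    have hc : t.card = 3 := mem_tri_card ht
    have h2 : ((t.erase u).erase v).card = 1 := by
      rw [Finset.card_erase_of_mem (Finset.mem_erase.2 ⟨hne.symm, hv⟩), Finset.card_erase_of_mem hu, hc]
    obtain ⟨w, hw⟩ := Finset.card_eq_one.1 h2
    have hwm : w ∈ (t.erase u).erase v := by rw [hw]; simp
    rw [Finset.mem_erase, Finset.mem_erase] at hwm
    have hte : t = {u, v, w} := by
      rw [← Finset.insert_erase hu, ← Finset.insert_erase (Finset.mem_erase.2 ⟨hne.symm, hv⟩), hw]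
    have ht' := (Finset.mem_filter.1 ht).2
    exact ⟨w, ⟨ht' u hu w hwm.2.2 (Ne.symm hwm.2.1), ht' v hv w hwm.2.2 (Ne.symm hwm.1)⟩, hte.symm⟩
  · rintro ⟨w, ⟨h1, h2⟩, rfl⟩
    have h3 := a8_ne hE h1
    have h4 := a8_ne hE h2
    refine ⟨?_, by simp, by simp, hne⟩
    rw [mem_tri_iff hne h3 h4]
    unfold adj
    rw [if_pos huv, if_pos h1, if_pos h2]
    simp

private lemma a8_inj {E : Finset (Sym2 (Fin n))} (hE : E ⊆ allEdges n) {u v : Fin n} :
    Set.InjOn (fun w => ({u, v, w} : Finset (Fin n)))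
      (univ.filter (fun w => s(u, w) ∈ E ∧ s(v, w) ∈ E) : Finset (Fin n)) := by
  intro w hw w' hw' h
  simp only [Finset.coe_filter, Finset.mem_univ, true_and, Set.mem_setOf_eq] at hw hw'
  have h1 := a8_ne hE hw.1
  have h2 := a8_ne hE hw.2
  have : w ∈ ({u, v, w'} : Finset (Fin n)) := by
    have h' : ({u, v, w} : Finset (Fin n)) = {u, v, w'} := h
    rw [← h']; simp
  simp only [Finset.mem_insert, Finset.mem_singleton] at this
  rcases this with h' | h' | h'
  · exact absurd h'.symm h1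
  · exact absurd h'.symm h2
  · exact h'

/-- the hypergraph degree of an alive pair is its codegree: the triangles `t ∋ u, v` correspond to
common neighbours `w`. (`s(u,v) ∈ tr t ↔ u ∈ t ∧ v ∈ t` for `u ≠ v`.) -/
theorem dg_eq_cod {E : Finset (Sym2 (Fin n))} (hE : E ⊆ allEdges n) {u v : Fin n}
    (huv : s(u, v) ∈ E) : dg (triangles E) tr s(u, v) = cod E u v := by
  unfold dg cod
  rw [a8_filter hE huv, Finset.card_image_of_injOn (a8_inj hE), Finset.card_eq_sum_ones,
    Finset.sum_filter]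
  push_cast
  apply Finset.sum_congr rfl
  intro w _
  unfold adj
  by_cases h1 : s(u, w) ∈ E <;> by_cases h2 : s(v, w) ∈ E <;> simp [h1, h2]

/-- reindexing the double sum over triangles containing `uv` and their two other pairs. -/
theorem sum_tr_eq {E : Finset (Sym2 (Fin n))} (hE : E ⊆ allEdges n) {u v : Fin n}
    (huv : s(u, v) ∈ E) (f : Sym2 (Fin n) → ℝ) :
    ∑ t ∈ (triangles E).filter (fun t => s(u, v) ∈ tr t), ∑ g ∈ (tr t).erase s(u, v), f g
      = ∑ w, adj E u w * adj E v w * (f s(u, w) + f s(v, w)) := by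
  rw [a8_filter hE huv, Finset.sum_image (a8_inj hE), Finset.sum_filter]
  apply Finset.sum_congr rfl
  intro w _
  by_cases h : s(u, w) ∈ E ∧ s(v, w) ∈ E
  · have hne := a8_ne hE huv
    have h1 := a8_ne hE h.1
    have h2 := a8_ne hE h.2
    rw [if_pos h, a8_tr hne h1 h2, Finset.sum_pair]
    · unfold adj
      rw [if_pos h.1, if_pos h.2]; ring
    · rw [ne_eq, Sym2.eq_iff]
      rintro (⟨h3, _⟩ | ⟨h3, _⟩)
      · exact hne h3
      · exact h1 h3
  · rw [if_neg h]
    unfold adj
    by_cases h1 : s(u, w) ∈ E <;> by_cases h2 : s(v, w) ∈ E <;> simp_all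

/-- `dg = cod` on alive pairs; `|r| ≤ 3L/√ȳ` (`gd_rr_le`); and by `sum_rr_eq`
`|Σ_w (r_uw+r_vw)| ≤ 2L⁴(1+s) + 2L/√(np)·1.01ȳ + 2L³√p ≤ L⁵`, provided
`c̄ = np³ ≤ 1` at time `i₁` (`ȳ/√(np) = √c̄`), and `s ≤ L/10^6`. -/
theorem Good.out (h : Reg n L i₁) (hI : Inv i₁ σ) (hG : Good L i₁ σ) (hcb : cb n i₁ ≤ 1) :
    GoodOut n L i₁ σ.E := by
  have hE := hI.sub
  refine ⟨hI.sub, hI.card, ?_, ?_⟩
  · intro e he
    induction e using Sym2.ind with
    | _ u v =>
      have hne := a8_ne hE he
      rw [dg_eq_cod hE he]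
      have := gd_rr_le h le_rfl hG hne
      unfold rr at this
      calc _ ≤ _ := this
        _ = _ := by ring
  · intro e he
    induction e using Sym2.ind with
    | _ u v =>
      have hne := a8_ne hE he
      rw [sum_tr_eq hE he (fun g => dg (triangles σ.E) tr g / yb n i₁ - 1)]
      have e1 : ∑ w, adj σ.E u w * adj σ.E v w *
            ((dg (triangles σ.E) tr s(u, w) / yb n i₁ - 1) +
              (dg (triangles σ.E) tr s(v, w) / yb n i₁ - 1)) =
          kf i₁ σ u v + kf i₁ σ v u + (σ.a u + σ.a v) * cod σ.E u v + 2 * Mf σ u v := by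
        rw [← sum_rr_eq]
        apply Finset.sum_congr rfl
        intro w _
        by_cases h1 : s(u, w) ∈ σ.E
        · by_cases h2 : s(v, w) ∈ σ.E
          · rw [dg_eq_cod hE h1, dg_eq_cod hE h2]
            unfold rr
            rfl
          · have : adj σ.E v w = 0 := by unfold adj; rw [if_neg h2]
            rw [this]; ring
        · have : adj σ.E u w = 0 := by unfold adj; rw [if_neg h1]
          rw [this]; ring
      rw [e1]
      have hk1 := hG.k u v hne
      have hk2 := hG.k v u hne.symm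
      have hM := hG.M u v hne
      have ha1 := hG.a u
      have ha2 := hG.a v
      have hc1 := gd_cod_le h le_rfl hG hne
      have hc2 := gd_cod_ge h le_rfl hG hne
      have hs := h.ss_le le_rfl
      have hs0 := h.ss_nonneg le_rfl
      have hL := h.L6
      have hL0 : 0 < L := h.L_pos
      have hyb := h.yb_pos le_rfl
      have hn := h.n_pos
      have hp := h.pp_pos le_rfl
      have hp1 := h.pp_le_one i₁
      have hnp : 0 < n * pp n i₁ := mul_pos hn hp
      have hsq : 0 < Real.sqrt (n * pp n i₁) := Real.sqrt_pos.2 hnp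
      have hsp : Real.sqrt (pp n i₁) ≤ 1 := by
        rw [Real.sqrt_le_one]; exact hp1
      -- `ȳ/√(np) ≤ 1`
      have hy : yb n i₁ / Real.sqrt (n * pp n i₁) ≤ 1 := by
        have e2 : yb n i₁ / Real.sqrt (n * pp n i₁) = Real.sqrt (n * pp n i₁) * pp n i₁ := by
          rw [div_eq_iff hsq.ne', mul_right_comm, Real.mul_self_sqrt hnp.le]
          unfold yb; ring
        rw [e2]
        have e3 : (Real.sqrt (n * pp n i₁) * pp n i₁) ^ 2 = cb n i₁ := by
          rw [mul_pow, Real.sq_sqrt hnp.le]; unfold cb; ring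
        have e4 : 0 ≤ Real.sqrt (n * pp n i₁) * pp n i₁ := by positivity
        nlinarith
      have hac : |(σ.a u + σ.a v) * cod σ.E u v| ≤ 3 * L := by
        rw [abs_mul]
        have hcod0 : 0 ≤ cod σ.E u v := le_trans (by positivity) hc2
        rw [abs_of_nonneg hcod0]
        have h1 : |σ.a u + σ.a v| ≤ 2 * (L / Real.sqrt (n * pp n i₁)) := by
          have := abs_add_le (σ.a u) (σ.a v)
          linarith
        calc |σ.a u + σ.a v| * cod σ.E u v
            ≤ (2 * (L / Real.sqrt (n * pp n i₁))) * (101 / 100 * yb n i₁) :=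
              mul_le_mul h1 hc1 hcod0 (by positivity)
          _ = 2 * (101 / 100) * L * (yb n i₁ / Real.sqrt (n * pp n i₁)) := by ring
          _ ≤ 2 * (101 / 100) * L * 1 := mul_le_mul_of_nonneg_left hy (by positivity)
          _ ≤ 3 * L := by linarith
      have hM' : |2 * Mf σ u v| ≤ 2 * L ^ 3 := by
        rw [abs_mul, abs_of_pos (by norm_num : (0:ℝ) < 2)]
        have : L ^ 3 * Real.sqrt (pp n i₁) ≤ L ^ 3 * 1 :=
          mul_le_mul_of_nonneg_left hsp (by positivity)
        linarith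
      have hk : L ^ 4 * (1 + ss n i₁) ≤ L ^ 4 * (1 + L / 10 ^ 6) :=
        mul_le_mul_of_nonneg_left (by linarith) (by positivity)
      have hsum : |kf i₁ σ u v + kf i₁ σ v u + (σ.a u + σ.a v) * cod σ.E u v + 2 * Mf σ u v| ≤
          2 * (L ^ 4 * (1 + L / 10 ^ 6)) + 3 * L + 2 * L ^ 3 := by
        have a1 := abs_add_le (kf i₁ σ u v + kf i₁ σ v u + (σ.a u + σ.a v) * cod σ.E u v)
          (2 * Mf σ u v)
        have a2 := abs_add_le (kf i₁ σ u v + kf i₁ σ v u) ((σ.a u + σ.a v) * cod σ.E u v)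
        have a3 := abs_add_le (kf i₁ σ u v) (kf i₁ σ v u)
        linarith
      refine le_trans hsum ?_
      have hL4 : 0 ≤ L ^ 4 := by positivity
      have b1 : L ^ 5 = L ^ 4 * L := by ring
      have b2 : 3 * L ≤ L ^ 4 := by
        have : L ^ 4 = L ^ 3 * L := by ring
        rw [this]
        have : (3:ℝ) ≤ L ^ 3 := le_trans (by linarith) (le_self_pow₀ (by linarith) (by norm_num) : L ≤ L ^ 3)
        exact mul_le_mul_of_nonneg_right this hL0.le
      have b3 : 2 * L ^ 3 ≤ L ^ 4 := by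
        have : L ^ 4 = L * L ^ 3 := by ring
        rw [this]
        exact mul_le_mul_of_nonneg_right (by linarith) (by positivity)
      rw [b1]
      have b4 : L ^ 4 * (10 ^ 6) ≤ L ^ 4 * L := mul_le_mul_of_nonneg_left hL hL4
      have b5 : 2 * (L ^ 4 * (1 + L / 10 ^ 6)) = 2 * L ^ 4 + 2 / 10 ^ 6 * (L ^ 4 * L) := by ring
      rw [b5]
      nlinarith

end Crest.Agent.TRem
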