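import Crest.Agent.TRem.A3j

/-!
# Row 30, A9: the initial state `K_n`, `a = 0`
-/

namespace Crest.Agent.TRem

open Finset Crest.CombinatoricsR.TriangleRemoval

variable {n : ℕ} {L : ℝ} {i₁ : ℕ}

/-- the initial state -/
def st0 (n : ℕ) : St n := ⟨allEdges n, fun _ => 0⟩

theorem card_allEdges (n : ℕ) : (allEdges n).card = n.choose 2 := by
  classical
  have h := Sym2.card_subtype_not_diag (α := Fin n)
  rw [Fintype.card_subtype, Fintype.card_fin] at h
  rw [← h]
  unfold allEdges
  congr 1

theorem inv_st0 (n : ℕ) : Inv 0 (st0 n) :=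
  ⟨Finset.Subset.refl _, by simpa [st0] using card_allEdges n⟩

/-- the admissible states are preserved. -/
theorem Inv.next {i : ℕ} {σ : St n} (hI : Inv i σ) {T : Finset (Fin n)}
    (hT : T ∈ triangles σ.E) : Inv (i + 1) (nxt i σ T) := by
  refine ⟨sdiff_subset_allEdges hI.sub, ?_⟩
  have h1 := card_sdiff_tri hI.sub hT
  have h2 := hI.card
  show (σ.E \ T.sym2).card + 3 * (i + 1) = n.choose 2
  omega

theorem adj_allEdges {u v : Fin n} (huv : u ≠ v) : adj (allEdges n) u v = 1 := by
  unfold adj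
  rw [if_pos]
  unfold allEdges
  rw [Finset.mem_filter]
  exact ⟨Finset.mem_univ _, by simpa using huv⟩

private theorem A9_adj (u w : Fin n) :
    adj (allEdges n) u w = 1 - (if w = u then (1:ℝ) else 0) := by
  by_cases h : w = u
  · subst h
    rw [adj_self (Finset.Subset.refl _)]
    simp
  · rw [adj_allEdges (fun h' => h h'.symm), if_neg h]
    simp

private theorem A9_deg (u : Fin n) : deg (allEdges n) u = n - 1 := by
  unfold deg
  rw [Finset.sum_congr rfl (fun w _ => A9_adj u w), Finset.sum_sub_distrib]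
  simp

private theorem A9_cod {u v : Fin n} (huv : u ≠ v) : cod (allEdges n) u v = n - 2 := by
  unfold cod
  have h : ∀ w : Fin n, adj (allEdges n) u w * adj (allEdges n) v w
      = 1 - (if w = u then (1:ℝ) else 0) - (if w = v then (1:ℝ) else 0) := by
    intro w
    rw [A9_adj u w, A9_adj v w]
    by_cases h1 : w = u
    · have h2 : w ≠ v := fun h => huv (h1.symm.trans h)
      simp [h1, huv]
    · by_cases h2 : w = v
      · simp [h2, huv.symm]
      · simp [h1, h2]
  rw [Finset.sum_congr rfl (fun w _ => h w), Finset.sum_sub_distrib, Finset.sum_sub_distrib]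
  simp
  ring

private theorem A9_cod3 {u v x : Fin n} (huv : u ≠ v) (hux : u ≠ x) (hvx : v ≠ x) :
    cod3 (allEdges n) u v x = n - 3 := by
  unfold cod3
  have h : ∀ w : Fin n, adj (allEdges n) u w * adj (allEdges n) v w * adj (allEdges n) x w
      = 1 - (if w = u then (1:ℝ) else 0) - (if w = v then (1:ℝ) else 0)
        - (if w = x then (1:ℝ) else 0) := by
    intro w
    rw [A9_adj u w, A9_adj v w, A9_adj x w]
    by_cases h1 : w = u
    · simp [h1, huv, hux]
    · by_cases h2 : w = v
      · simp [h2, hvx, huv.symm]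
      · by_cases h3 : w = x
        · simp [h3, hux.symm, hvx.symm]
        · simp [h1, h2, h3]
  rw [Finset.sum_congr rfl (fun w _ => h w), Finset.sum_sub_distrib, Finset.sum_sub_distrib,
    Finset.sum_sub_distrib]
  simp
  ring

theorem pp_zero (h : Reg n L i₁) : pp n 0 = 1 := by
  have hN := h.NN_pos
  unfold pp MM
  simp only [Nat.cast_zero, mul_zero, sub_zero]
  exact div_self hN.ne'

private theorem A9_yb (h : Reg n L i₁) : yb n 0 = n := by
  unfold yb
  rw [pp_zero h]
  ring

private theorem A9_n_ge (h : Reg n L i₁) : (3 : ℝ) ≤ n := by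
  have h1 := h.n_ge
  have h2 := h.L6
  have h3 : (1 : ℝ) ≤ L := by linarith [show (1:ℝ) ≤ 10 ^ 6 by norm_num]
  have h4 : L ≤ L ^ 20 := le_self_pow₀ h3 (by norm_num)
  have h5 : (3 : ℝ) ≤ 10 ^ 6 := by norm_num
  linarith

/-- `deg = n-1`. -/
theorem init_d (h : Reg n L i₁) (u : Fin n) :
    |deg (st0 n).E u / (n * pp n 0) - 1| ≤ 1 / n := by
  have hn := h.n_pos
  have h1 : deg (st0 n).E u = n - 1 := A9_deg u
  rw [h1, pp_zero h, mul_one]
  have h2 : ((n : ℝ) - 1) / n - 1 = -(1 / n) := by
    field_simp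
    ring
  rw [h2, abs_neg, abs_of_nonneg (by positivity)]

/-- `Q = C(n,3)`, `θ = 3 C(n,3)/(C(n,2) n) = 1 - 2/n`. -/
theorem init_th (h : Reg n L i₁) : |th 0 (st0 n).E - 1| ≤ 2 / n := by
  classical
  have hn := h.n_pos
  have hn3 := A9_n_ge h
  have hN := h.NN_pos
  have hQ : triangles (allEdges n) = (Finset.univ.powersetCard 3 : Finset (Finset (Fin n))) := by
    unfold triangles
    apply Finset.filter_true_of_mem
    intro t _ u _ v _ huv
    unfold allEdges
    rw [Finset.mem_filter]
    exact ⟨Finset.mem_univ _, by simpa using huv⟩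
  have hQ2 : (triangles (allEdges n)).card = n.choose 3 := by
    rw [hQ, Finset.card_powersetCard, Finset.card_univ, Fintype.card_fin]
  have hn3' : 3 ≤ n := by exact_mod_cast hn3
  have hQ3 : 3 * QQ (allEdges n) = NN n * (n - 2) := by
    unfold QQ NN
    rw [hQ2]
    have := Nat.choose_succ_right_eq n 2
    have h4 : ((n - 2 : ℕ) : ℝ) = (n : ℝ) - 2 := by
      rw [Nat.cast_sub (by omega)]
      norm_num
    have h5 : ((n.choose 3 : ℕ) : ℝ) * 3 = (n.choose 2 : ℝ) * ((n - 2 : ℕ) : ℝ) := by
      exact_mod_cast this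
    rw [← h4, ← h5]
    ring
  have hth : th 0 (st0 n).E = 1 - 2 / n := by
    unfold th
    have hM : MM n 0 = NN n := by
      unfold MM
      simp
    rw [hM, A9_yb h]
    have : 3 * QQ (st0 n).E = NN n * (n - 2) := hQ3
    rw [this]
    field_simp
  rw [hth]
  have h2 : (1 : ℝ) - 2 / n - 1 = -(2 / n) := by ring
  rw [h2, abs_neg, abs_of_nonneg (by positivity)]

/-- `cod = n-2`. -/
theorem init_rho (h : Reg n L i₁) {u v : Fin n} (huv : u ≠ v) : |rho 0 (st0 n) u v| ≤ 2 / n := by
  have hn := h.n_pos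
  have hr : rho 0 (st0 n) u v = -(2 / n) := by
    unfold rho rr
    have h1 : cod (st0 n).E u v = n - 2 := A9_cod huv
    rw [h1, A9_yb h]
    have ha : ∀ w, (st0 n).a w = 0 := fun _ => rfl
    rw [ha, ha]
    field_simp
    ring
  rw [hr, abs_neg, abs_of_nonneg (by positivity)]

theorem init_M (u v : Fin n) : Mf (st0 n) u v = 0 := by
  unfold Mf
  apply Finset.sum_eq_zero
  intro w _
  have ha : (st0 n).a w = 0 := rfl
  rw [ha, mul_zero]

theorem init_k (h : Reg n L i₁) {u v : Fin n} (huv : u ≠ v) :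
    |kf 0 (st0 n) u v / pp n 0 ^ 2| ≤ 2 := by
  have hn := h.n_pos
  rw [pp_zero h, one_pow, div_one]
  unfold kf
  calc |∑ w, adj (st0 n).E u w * adj (st0 n).E v w * rho 0 (st0 n) u w|
      ≤ ∑ w, |adj (st0 n).E u w * adj (st0 n).E v w * rho 0 (st0 n) u w| :=
        Finset.abs_sum_le_sum_abs _ _
    _ ≤ ∑ w : Fin n, (2 / n : ℝ) := by
        apply Finset.sum_le_sum
        intro w _
        by_cases huw : u = w
        · subst huw
          have : adj (st0 n).E u u = 0 := adj_self (Finset.Subset.refl _) u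
          rw [this, zero_mul, zero_mul, abs_zero]
          positivity
        · rw [abs_mul]
          have h1 : |adj (st0 n).E u w * adj (st0 n).E v w| ≤ 1 := by
            rw [abs_of_nonneg (mul_nonneg (adj_nonneg _ _ _) (adj_nonneg _ _ _))]
            exact mul_le_one₀ (adj_le_one _ _ _) (adj_nonneg _ _ _) (adj_le_one _ _ _)
          calc |adj (st0 n).E u w * adj (st0 n).E v w| * |rho 0 (st0 n) u w|
              ≤ 1 * (2 / n) := mul_le_mul h1 (init_rho h huw) (abs_nonneg _) zero_le_one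
            _ = 2 / n := one_mul _
    _ = 2 := by
        rw [Finset.sum_const, Finset.card_univ, Fintype.card_fin, nsmul_eq_mul]
        field_simp

theorem init_c (h : Reg n L i₁) {u v x : Fin n} (huv : u ≠ v) (hux : u ≠ x) (hvx : v ≠ x) :
    |(cod3 (st0 n).E u v x - cb n 0) / pp n 0 ^ 3| ≤ 3 := by
  have h1 : cod3 (st0 n).E u v x = n - 3 := A9_cod3 huv hux hvx
  unfold cb
  rw [h1, pp_zero h]
  have h2 : ((n : ℝ) - 3 - n * 1 ^ 3) / 1 ^ 3 = -3 := by
    ring
  rw [h2, abs_neg, abs_of_nonneg (by norm_num)]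

end Crest.Agent.TRem
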