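import Crest.Agent.TRem.AC1

/-!
# Row 30, AC2: the family `c` (triple codegrees), one-step bounds

`x := L/√ȳ`. `Z = (c - c̄)/p³ = c/p³ - n`, so `Z' - Z = (c' - (1-μ)³ c)/(p³ (1-μ)³)`.
-/

namespace Crest.Agent.TRem

open Finset Crest.CombinatoricsR.TriangleRemoval

variable {n : ℕ} {L : ℝ} {i₁ i : ℕ} {σ : St n}

private theorem ac2_L1 (h : Reg n L i₁) : 1 ≤ L := le_trans (by norm_num) h.L6

private theorem ac2_inv_pow (h : Reg n L i₁) {k : ℕ} (hk : 1 ≤ k) : 1 / L ^ k ≤ 1 / 10 ^ 6 := by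
  have h1 := ac2_L1 h
  have h2 : (10:ℝ) ^ 6 ≤ L ^ k := h.L6.trans (by
    calc L = L ^ 1 := (pow_one L).symm
      _ ≤ L ^ k := pow_le_pow_right₀ h1 hk)
  exact one_div_le_one_div_of_le (by norm_num) h2

private theorem ac2_x_pos (h : Reg n L i₁) {l : ℕ} (hl : l ≤ i₁) : 0 < L / Real.sqrt (yb n l) :=
  div_pos h.L_pos (Real.sqrt_pos.2 (h.yb_pos hl))

private theorem ac2_x_le (h : Reg n L i₁) {l : ℕ} (hl : l ≤ i₁) : L / Real.sqrt (yb n l) ≤ 1 / 10 ^ 6 :=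
  (h.x_le hl).trans (ac2_inv_pow h (by norm_num))

/-- `1/ȳ ≤ x / 10^6` -/
private theorem ac2_inv_yb (h : Reg n L i₁) {l : ℕ} (hl : l ≤ i₁) :
    1 / yb n l ≤ L / Real.sqrt (yb n l) / 10 ^ 6 := by
  have h1 := ac2_L1 h
  have hs : 1 ≤ Real.sqrt (yb n l) := (one_le_pow₀ h1).trans (h.sqrt_yb_ge hl)
  have hy := h.yb_pos hl
  have hsq : Real.sqrt (yb n l) * Real.sqrt (yb n l) = yb n l := Real.mul_self_sqrt hy.le
  rw [div_div, div_le_div_iff₀ hy (by positivity), one_mul]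
  have h6 := h.L6
  calc Real.sqrt (yb n l) * 10 ^ 6 ≤ Real.sqrt (yb n l) * L := mul_le_mul_of_nonneg_left h6 (by positivity)
    _ ≤ (Real.sqrt (yb n l) * Real.sqrt (yb n l)) * L := by
        refine mul_le_mul_of_nonneg_right ?_ h.L_pos.le
        nlinarith
    _ = L * yb n l := by rw [hsq, mul_comm]

/-- `μ ≤ x / 10^6` -/
private theorem ac2_mu_le_x (h : Reg n L i₁) {l : ℕ} (hl : l ≤ i₁) :
    mu n l ≤ L / Real.sqrt (yb n l) / 10 ^ 6 := by
  have hy := h.yb_pos hl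
  have hmy : mu n l * yb n l ≤ 1 :=
    (h.mu_yb hl).trans ((ac2_inv_pow h (by norm_num)).trans (by norm_num))
  refine le_trans ?_ (ac2_inv_yb h hl)
  rw [le_div_iff₀ hy]
  exact hmy

private theorem ac2_mu_le (h : Reg n L i₁) {l : ℕ} (hl : l ≤ i₁) : mu n l ≤ 1 / 10 ^ 6 :=
  (h.mu_small hl).trans (ac2_inv_pow h (by norm_num))

private theorem ac2_cb_nonneg (h : Reg n L i₁) {l : ℕ} (hl : l ≤ i₁) : 0 ≤ cb n l := by
  unfold cb
  exact mul_nonneg h.n_pos.le (pow_nonneg (h.pp_pos hl).le _)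

/-- `c ≤ c̄ + L²√c̄ + L⁴ ≤ (3/2)(c̄ + L⁴)` (AM-GM: `L²√c̄ ≤ (c̄ + L⁴)/2`). -/
theorem gd_cod3_le (h : Reg n L i₁) (hi : i ≤ i₁) (hG : Good L i σ) {u v x : Fin n}
    (huv : u ≠ v) (hux : u ≠ x) (hvx : v ≠ x) :
    cod3 σ.E u v x ≤ 3 / 2 * (cb n i + L ^ 4) := by
  have h1 := (abs_le.1 (hG.c u v x huv hux hvx)).2
  have h2 := ac2_cb_nonneg h hi
  have h3 : Real.sqrt (cb n i) * Real.sqrt (cb n i) = cb n i := Real.mul_self_sqrt h2
  nlinarith [sq_nonneg (Real.sqrt (cb n i) - L ^ 2)]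

theorem cod3_nonneg (E : Finset (Sym2 (Fin n))) (u v x : Fin n) : 0 ≤ cod3 E u v x := by
  unfold cod3
  exact Finset.sum_nonneg fun w _ =>
    mul_nonneg (mul_nonneg (adj_nonneg _ _ _) (adj_nonneg _ _ _)) (adj_nonneg _ _ _)

/-- `c_{uvx} ≤ y_{uv}`. -/
theorem cod3_le_cod (E : Finset (Sym2 (Fin n))) (u v x : Fin n) : cod3 E u v x ≤ cod E u v := by
  unfold cod3 cod
  exact Finset.sum_le_sum fun w _ =>
    mul_le_of_le_one_right (mul_nonneg (adj_nonneg _ _ _) (adj_nonneg _ _ _)) (adj_le_one _ _ _)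

private theorem ac2_ne {E : Finset (Sym2 (Fin n))} (hE : E ⊆ allEdges n) {a b : Fin n}
    (h : adj E a b = 1) : a ≠ b := by
  rintro rfl
  rw [adj_self hE] at h
  norm_num at h

/-- `P(w lost) = 3μ + O(9.2 μ x)`: by `XX3_le`, `XX3_ge`, `gd_Av_II_eq`
(`Av II = μ(1+r)/θ`), `|r| ≤ 3x`, `|θ-1| ≤ x/100`, and `Av (II w u * II w v) ≤ 1/Q = μ/(θȳ)`
(`Av_II_II`), `1/ȳ ≤ x/L`. -/
theorem gd_Av_XX3 (h : Reg n L i₁) (hi : i ≤ i₁) (hI : Inv i σ) (hG : Good L i σ)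
    {u v x w : Fin n} (huv : u ≠ v) (hux : u ≠ x) (hvx : v ≠ x)
    (h1 : adj σ.E u w = 1) (h2 : adj σ.E v w = 1) (h3 : adj σ.E x w = 1) :
    |Av (triangles σ.E) (XX3 u v x w) - 3 * mu n i| ≤
      92 / 10 * mu n i * (L / Real.sqrt (yb n i)) := by
  have huw := ac2_ne hI.sub h1
  have hvw := ac2_ne hI.sub h2
  have hxw := ac2_ne hI.sub h3
  have hX0 := ac2_x_pos h hi
  have hX1 := ac2_x_le h hi
  have hmu := h.mu_pos hi
  have hy := h.yb_pos hi
  have hiy := ac2_inv_yb h hi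
  have hQ := gd_QQ_pos h hi hG
  have hθ := abs_le.1 (gd_th_le h hi hG)
  have hθ99 := gd_th_ge h hi hG
  have r1 := abs_le.1 (gd_rr_le h hi hG huw)
  have r2 := abs_le.1 (gd_rr_le h hi hG hvw)
  have r3 := abs_le.1 (gd_rr_le h hi hG hxw)
  have e1 := gd_Av_II_eq h hi hI hG huw h1
  have e2 := gd_Av_II_eq h hi hI hG hvw h2
  have e3 := gd_Av_II_eq h hi hI hG hxw h3
  have hinv := gd_inv_QQ h hi hG
  set X := L / Real.sqrt (yb n i) with hXdef
  set μ := mu n i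
  set θ := th i σ.E
  have hθ0 : 0 < θ := by linarith
  -- the pair terms
  have hp : ∀ a b : Fin n, w ≠ a → w ≠ b → a ≠ b →
      Av (triangles σ.E) (fun T => II w a T * II w b T) ≤ μ / (θ * yb n i) := by
    intro a b ha hb hab
    rw [Av_II_II hI.sub ha hb hab, ← hinv]
    refine div_le_div_of_nonneg_right ?_ hQ.le
    have := adj_le_one σ.E w a
    have := adj_le_one σ.E w b
    have := adj_le_one σ.E a b
    have := adj_nonneg σ.E w a
    have := adj_nonneg σ.E w b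
    have := adj_nonneg σ.E a b
    calc adj σ.E w a * adj σ.E w b * adj σ.E a b ≤ 1 * 1 * 1 := by gcongr
      _ = 1 := by norm_num
  have up : Av (triangles σ.E) (XX3 u v x w) ≤
      Av (triangles σ.E) (II u w) + Av (triangles σ.E) (II v w) + Av (triangles σ.E) (II x w) := by
    rw [← Av_add, ← Av_add]
    exact Av_mono fun T _ => XX3_le u v x w T
  have lo : Av (triangles σ.E) (II u w) + Av (triangles σ.E) (II v w) + Av (triangles σ.E) (II x w) -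
      (Av (triangles σ.E) (fun T => II w u T * II w v T) + Av (triangles σ.E) (fun T => II w u T * II w x T) +
        Av (triangles σ.E) (fun T => II w v T * II w x T)) ≤ Av (triangles σ.E) (XX3 u v x w) := by
    rw [← Av_add, ← Av_add, ← Av_add, ← Av_add, ← Av_sub]
    exact Av_mono fun T _ => XX3_ge u v x w T
  have p1 := hp u v huw.symm hvw.symm huv
  have p2 := hp u x huw.symm hxw.symm hux
  have p3 := hp v x hvw.symm hxw.symm hvx
  rw [e1, e2, e3] at up lo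
  norm_num at hX1 hiy
  rw [abs_le]
  constructor
  · -- lower bound
    have hlow : μ * (3 - 9 * X - 3 * (1 / yb n i)) / θ ≤ Av (triangles σ.E) (XX3 u v x w) := by
      have e : μ * (3 - 9 * X - 3 * (1 / yb n i)) / θ =
          μ * (3 - 9 * X) / θ - 3 * (μ / (θ * yb n i)) := by
        field_simp
      rw [e]
      have e' : μ * (3 - 9 * X) / θ ≤ μ * (1 + rr i σ.E u w) / θ + μ * (1 + rr i σ.E v w) / θ +
          μ * (1 + rr i σ.E x w) / θ := by
        rw [← add_div, ← add_div]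
        refine div_le_div_of_nonneg_right ?_ hθ0.le
        nlinarith
      linarith
    have hlow2 : μ * (3 - 92 / 10 * X) ≤ μ * (3 - 9 * X - 3 * (1 / yb n i)) / θ := by
      rw [mul_div_assoc]
      refine mul_le_mul_of_nonneg_left ?_ hmu.le
      rw [le_div_iff₀ hθ0]
      have s1 : (3 - 92 / 10 * X) * θ ≤ (3 - 92 / 10 * X) * (1 + X / 100) :=
        mul_le_mul_of_nonneg_left (by linarith) (by linarith)
      have s2 : 1 / yb n i ≤ X / 1000000 := by rw [one_div]; exact hiy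
      nlinarith [mul_pos hX0 hX0]
    linarith [hlow2.trans hlow, (by ring : μ * (3 - 92 / 10 * X) = 3 * μ - 92 / 10 * μ * X)]
  · have hup : Av (triangles σ.E) (XX3 u v x w) ≤ μ * (3 + 9 * X) / θ := by
      refine up.trans ?_
      rw [← add_div, ← add_div]
      refine div_le_div_of_nonneg_right ?_ hθ0.le
      nlinarith
    have hup2 : μ * (3 + 9 * X) / θ ≤ μ * (3 + 92 / 10 * X) := by
      rw [mul_div_assoc]
      refine mul_le_mul_of_nonneg_left ?_ hmu.le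
      rw [div_le_iff₀ hθ0]
      have s1 : (3 + 92 / 10 * X) * (1 - X / 100) ≤ (3 + 92 / 10 * X) * θ :=
        mul_le_mul_of_nonneg_left (by linarith) (by linarith)
      nlinarith [mul_pos hX0 hX0]
    linarith [hup.trans hup2, (by ring : μ * (3 + 92 / 10 * X) = 3 * μ + 92 / 10 * μ * X)]

private theorem ac2_r1 {μ c K : ℝ} (hc0 : 0 ≤ c) (hK1 : K ≤ 3 * μ) : c * K ≤ 3 * (μ * c) := by
  calc c * K ≤ c * (3 * μ) := mul_le_mul_of_nonneg_left hK1 hc0
    _ = _ := by ring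

private theorem ac2_r2 {m δ cK : ℝ} (hm : 0 ≤ m) (h0 : 0 ≤ cK) (h1 : cK ≤ 3 * m) (a1 : 0 ≤ δ) (a2 : δ ≤ 2) :
    (cK - δ) ^ 2 ≤ 4 * δ + 18 * m ^ 2 := by
  have a3 : cK ^ 2 ≤ (3 * m) ^ 2 := pow_le_pow_left₀ h0 h1 2
  have a4 : δ ^ 2 ≤ 2 * δ := by nlinarith
  nlinarith [sq_nonneg (cK + δ)]

private theorem ac2_r3 {μ c B q : ℝ} (hμ : 0 < μ) (hc1 : c ≤ 3 / 2 * B) (hB : 0 ≤ B)
    (hq : 98 / 100 ≤ q) : 125 / 10 * (μ * c) ≤ 32 * μ * B * q := by
  have h1 : μ * c ≤ μ * (3 / 2 * B) := mul_le_mul_of_nonneg_left hc1 hμ.le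
  have h2 : 32 * μ * B * (98 / 100) ≤ 32 * μ * B * q := mul_le_mul_of_nonneg_left hq (by positivity)
  have h3 : 0 ≤ μ * B := by positivity
  nlinarith

private theorem ac2_r4 {Y c B q : ℝ} (hY : 0 < Y) (hc1 : c ≤ 3 / 2 * B) (hB : 0 ≤ B)
    (hq : 99 / 100 ≤ q) : 93 / 10 * Y * c ≤ 20 * Y * B * q := by
  have h1 : 93 / 10 * Y * c ≤ 93 / 10 * Y * (3 / 2 * B) := mul_le_mul_of_nonneg_left hc1 (by positivity)
  have h2 : 20 * Y * B * (99 / 100) ≤ 20 * Y * B * q := mul_le_mul_of_nonneg_left hq (by positivity)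
  have h3 : 0 ≤ Y * B := by positivity
  nlinarith

/-- Drift: `Av c' - (1-μ)³ c = Σ_w A A A [(1-(1-μ)³) - Av XX3]`, each bracket `≤ 9.3 μ x` (as
`|1-(1-μ)³-3μ| ≤ 3μ² ≤ 0.01 μ x`), so `|drift| ≤ 9.3 μ x c/(p³(1-μ)³) ≤ 14 μ x (c̄+L⁴)/p³ (1+..)`.
QV: `c' - (1-μ)³c = -δ + c(1-(1-μ)³)`, `0 ≤ δ = Σ A A A XX3 ≤ 2`, so the square is
`≤ 2δ² + 18 μ² c² ≤ 4δ + 18μ²c²`, `Av δ ≤ 3.1 μ c`, `μ c ≤ μ y ≤ 1.01 L^{-19}`, so the average is
`≤ 12.5 μ c ≤ 19 μ (c̄ + L⁴)`. Jump: `≤ (2 + 3μc)/(p³(1-μ)³) ≤ 3/p³`. -/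
theorem step_c (h : Reg n L i₁) (hi : i < i₁) (hI : Inv i σ) (hG : Good L i σ) (u v x : Fin n)
    (huv : u ≠ v) (hux : u ≠ x) (hvx : v ≠ x) :
    OneStep i σ (fun i σ => (cod3 σ.E u v x - cb n i) / pp n i ^ 3)
      (20 * mu n i * (L / Real.sqrt (yb n i)) * (n + L ^ 4 / pp n i ^ 3))
      (32 * mu n i * (n / pp n i ^ 3 + L ^ 4 / pp n i ^ 6)) (3 / pp n i ^ 3) := by
  have hne := gd_nonempty h hi.le hG
  have hX0 := ac2_x_pos h hi.le
  have hX1 := ac2_x_le h hi.le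
  have hmu := h.mu_pos hi.le
  have hmu6 := ac2_mu_le h hi.le
  have hmuX := ac2_mu_le_x h hi.le
  have hpp := h.pp_pos hi.le
  have hpp' := h.pp_pos (Nat.succ_le_of_lt hi)
  have hn := h.n_pos
  have hc0 := cod3_nonneg σ.E u v x
  have hc1 := gd_cod3_le h hi.le hG huv hux hvx
  have hL0 := h.L_pos
  -- `μ c ≤ 10^{-5}`
  have hmc : mu n i * cod3 σ.E u v x ≤ 1 / 10 ^ 5 := by
    have a1 := (cod3_le_cod σ.E u v x).trans (gd_cod_le h hi.le hG huv)
    have a2 := (h.mu_yb hi.le).trans (ac2_inv_pow h (by norm_num : 1 ≤ 19))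
    have a3 : mu n i * cod3 σ.E u v x ≤ mu n i * (101 / 100 * yb n i) := mul_le_mul_of_nonneg_left a1 hmu.le
    norm_num at a2 ⊢
    nlinarith
  set c := cod3 σ.E u v x with hcdef
  set X := L / Real.sqrt (yb n i) with hXdef
  set μ := mu n i with hμdef
  set p := pp n i with hpdef
  set K : ℝ := 1 - (1 - μ) ^ 3 with hK
  norm_num at hX1 hmu6 hmuX hmc
  have hK0 : 0 ≤ K := by rw [hK]; nlinarith [mul_pos hmu hmu, mul_pos (mul_pos hmu hmu) hmu]
  have hK1 : K ≤ 3 * μ := by rw [hK]; nlinarith [mul_pos hmu hmu, mul_pos (mul_pos hmu hmu) hmu]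
  have hK2 : |K - 3 * μ| ≤ 1 / 100 * (μ * X) := by
    have e : K - 3 * μ = -(μ * (3 * μ - μ * μ)) := by rw [hK]; ring
    have h0 : 0 ≤ μ * (3 * μ - μ * μ) := by
      refine mul_nonneg hmu.le ?_
      nlinarith
    rw [e, abs_neg, abs_of_nonneg h0]
    have h3 : 3 * μ - μ * μ ≤ 1 / 100 * X := by nlinarith
    calc μ * (3 * μ - μ * μ) ≤ μ * (1 / 100 * X) := mul_le_mul_of_nonneg_left h3 hmu.le
      _ = _ := by ring
  set δ : Finset (Fin n) → ℝ := fun T => ∑ w, adj σ.E u w * adj σ.E v w * adj σ.E x w * XX3 u v x w T with hδ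
  have hδ0 : ∀ T, 0 ≤ δ T := fun T => Finset.sum_nonneg fun w _ =>
    mul_nonneg (mul_nonneg (mul_nonneg (adj_nonneg _ _ _) (adj_nonneg _ _ _)) (adj_nonneg _ _ _))
      (XX3_nonneg _ _ _ _ _)
  have hδ2 : ∀ T ∈ triangles σ.E, δ T ≤ 2 := fun T hT => sum_XX3_le hI.sub hT
  have hq : 0 < (1 - μ) ^ 3 := by
    have : 0 < 1 - μ := by linarith
    positivity
  have hq99 : 99 / 100 ≤ (1 - μ) ^ 3 := by
    have e : (1 - μ) ^ 3 = 1 - K := by rw [hK]; ring
    rw [e]; linarith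
  have hdiff : ∀ T, (cod3 (σ.E \ T.sym2) u v x - cb n (i + 1)) / pp n (i + 1) ^ 3 - (c - cb n i) / p ^ 3 =
      (c * K - δ T) / (p ^ 3 * (1 - μ) ^ 3) := by
    intro T
    rw [cod3_sdiff, h.cb_succ hi, h.pp_succ hi]
    have e : cb n i = n * p ^ 3 := rfl
    rw [e, mul_pow, ← hpdef, ← hμdef]
    have hp3 : p ^ 3 ≠ 0 := by positivity
    have hq3 : (1 - μ) ≠ 0 := by
      have : 0 < 1 - μ := by linarith
      exact this.ne'
    rw [hK]
    change (c - δ T - _) / _ - _ = _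
    field_simp
    ring
  -- average of δ
  have hAvδ : Av (triangles σ.E) δ =
      ∑ w, adj σ.E u w * adj σ.E v w * adj σ.E x w * Av (triangles σ.E) (XX3 u v x w) := by
    rw [hδ, Av_sum]
    refine Finset.sum_congr rfl fun w _ => ?_
    rw [Av_mul]
  have hcsum : c = ∑ w, adj σ.E u w * adj σ.E v w * adj σ.E x w := rfl
  have hterm : ∀ w, |adj σ.E u w * adj σ.E v w * adj σ.E x w * K -
      adj σ.E u w * adj σ.E v w * adj σ.E x w * Av (triangles σ.E) (XX3 u v x w)| ≤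
      adj σ.E u w * adj σ.E v w * adj σ.E x w * (93 / 10 * (μ * X)) := by
    intro w
    rcases adj_eq_zero_or_one σ.E u w with h1 | h1
    · simp [h1]
    rcases adj_eq_zero_or_one σ.E v w with h2 | h2
    · simp [h2]
    rcases adj_eq_zero_or_one σ.E x w with h3 | h3
    · simp [h3]
    rw [h1, h2, h3]
    have hA := gd_Av_XX3 h hi.le hI hG huv hux hvx h1 h2 h3
    rw [← hμdef, ← hXdef] at hA
    rw [abs_le] at hA hK2 ⊢
    constructor <;> nlinarith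
  have hmain : |c * K - Av (triangles σ.E) δ| ≤ 93 / 10 * (μ * X) * c := by
    rw [hAvδ, hcsum, Finset.sum_mul, ← Finset.sum_sub_distrib, mul_comm (93 / 10 * (μ * X)), Finset.sum_mul]
    exact (Finset.abs_sum_le_sum_abs _ _).trans (Finset.sum_le_sum fun w _ => hterm w)
  have hp3 : 0 < p ^ 3 := by positivity
  refine ⟨?_, ?_, ?_⟩
  · -- drift
    have e : Av (triangles σ.E) (fun T => (cod3 (nxt i σ T).E u v x - cb n (i + 1)) / pp n (i + 1) ^ 3) -
        (c - cb n i) / p ^ 3 = (c * K - Av (triangles σ.E) δ) / (p ^ 3 * (1 - μ) ^ 3) := by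
      rw [← Av_const hne ((c - cb n i) / p ^ 3), ← Av_sub]
      have e1 : Av (triangles σ.E) (fun T => (cod3 (nxt i σ T).E u v x - cb n (i + 1)) / pp n (i + 1) ^ 3 -
          (c - cb n i) / p ^ 3) = Av (triangles σ.E) (fun T => (p ^ 3 * (1 - μ) ^ 3)⁻¹ * (c * K - δ T)) :=
        Av_congr fun T _ => by
          rw [show (nxt i σ T).E = σ.E \ T.sym2 from rfl, hdiff T, div_eq_inv_mul]
      rw [e1, Av_mul, Av_sub, Av_const hne, div_eq_inv_mul]
    change |Av (triangles σ.E) (fun T => (cod3 (nxt i σ T).E u v x - cb n (i + 1)) / pp n (i + 1) ^ 3) -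
        (c - cb n i) / p ^ 3| ≤ _
    rw [e, abs_div, abs_of_pos (by positivity : 0 < p ^ 3 * (1 - μ) ^ 3), div_le_iff₀ (by positivity)]
    refine hmain.trans ?_
    have hr : 20 * μ * X * (n + L ^ 4 / p ^ 3) * (p ^ 3 * (1 - μ) ^ 3) =
        20 * (μ * X) * (cb n i + L ^ 4) * (1 - μ) ^ 3 := by
      have e' : cb n i = n * p ^ 3 := rfl
      rw [e']
      field_simp
    rw [hr]
    have hcb : 0 ≤ cb n i + L ^ 4 := by
      have := ac2_cb_nonneg h hi.le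
      positivity
    exact ac2_r4 (mul_pos hmu hX0) hc1 hcb hq99
  · -- quadratic variation
    change Av (triangles σ.E) (fun T => ((cod3 (nxt i σ T).E u v x - cb n (i + 1)) / pp n (i + 1) ^ 3 -
        (c - cb n i) / p ^ 3) ^ 2) ≤ _
    have hδavg : Av (triangles σ.E) δ ≤ 31 / 10 * (μ * c) := by
      have := (abs_le.1 hmain).1
      have h93 : 93 / 10 * (μ * X) * c ≤ 1 / 100 * (μ * c) := by
        have : 0 ≤ μ * c := mul_nonneg hmu.le hc0
        nlinarith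
      have h3 : c * K ≤ 3 * (μ * c) := ac2_r1 hc0 hK1
      linarith [mul_nonneg hmu.le hc0]
    have e1 : Av (triangles σ.E) (fun T => ((cod3 (nxt i σ T).E u v x - cb n (i + 1)) / pp n (i + 1) ^ 3 -
        (c - cb n i) / p ^ 3) ^ 2) ≤
        Av (triangles σ.E) (fun T => ((p ^ 3 * (1 - μ) ^ 3) ^ 2)⁻¹ * (4 * δ T + 18 * (μ * c) ^ 2)) :=
      Av_mono fun T hT => by
        rw [show (nxt i σ T).E = σ.E \ T.sym2 from rfl, hdiff T, div_pow, div_eq_inv_mul]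
        refine mul_le_mul_of_nonneg_left ?_ (by positivity)
        have a1 := hδ0 T
        have a2 := hδ2 T hT
        exact ac2_r2 (mul_nonneg hmu.le hc0) (mul_nonneg hc0 hK0) (ac2_r1 hc0 hK1) a1 a2
    refine e1.trans ?_
    rw [Av_mul, Av_add, Av_mul, Av_const hne, inv_mul_le_iff₀ (by positivity)]
    have hmc0 : 0 ≤ μ * c := mul_nonneg hmu.le hc0
    have hsq : 18 * (μ * c) ^ 2 ≤ 1 / 100 * (μ * c) := by nlinarith
    have hcb0 := ac2_cb_nonneg h hi.le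
    have hr : (p ^ 3 * (1 - μ) ^ 3) ^ 2 * (32 * μ * (n / p ^ 3 + L ^ 4 / p ^ 6)) =
        32 * μ * (cb n i + L ^ 4) * ((1 - μ) ^ 3) ^ 2 := by
      have e' : cb n i = n * p ^ 3 := rfl
      rw [e']
      field_simp
    rw [hr]
    have hq98 : 98 / 100 ≤ ((1 - μ) ^ 3) ^ 2 := by
      have := pow_le_pow_left₀ (by norm_num : (0:ℝ) ≤ 99 / 100) hq99 2
      norm_num at this ⊢
      linarith
    have hcb : 0 ≤ cb n i + L ^ 4 := by positivity
    have hfin : 4 * Av (triangles σ.E) δ + 18 * (μ * c) ^ 2 ≤ 125 / 10 * (μ * c) := by linarith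
    exact hfin.trans (ac2_r3 hmu hc1 hcb hq98)
  · -- jump
    intro T hT
    change |(cod3 (nxt i σ T).E u v x - cb n (i + 1)) / pp n (i + 1) ^ 3 - (c - cb n i) / p ^ 3| ≤ _
    rw [show (nxt i σ T).E = σ.E \ T.sym2 from rfl, hdiff T, abs_div,
      abs_of_pos (by positivity : 0 < p ^ 3 * (1 - μ) ^ 3), div_le_div_iff₀ (by positivity) hp3]
    have a1 := hδ0 T
    have a2 := hδ2 T hT
    have a3 : c * K ≤ 3 * (μ * c) := ac2_r1 hc0 hK1
    have a4 : 0 ≤ c * K := mul_nonneg hc0 hK0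
    have a5 : |c * K - δ T| ≤ 21 / 10 := by
      rw [abs_le]; constructor <;> linarith
    calc |c * K - δ T| * p ^ 3 ≤ 21 / 10 * p ^ 3 := mul_le_mul_of_nonneg_right a5 hp3.le
      _ ≤ 3 * (p ^ 3 * (99 / 100)) := by nlinarith
      _ ≤ 3 * (p ^ 3 * (1 - μ) ^ 3) := by
          refine mul_le_mul_of_nonneg_left ?_ (by norm_num)
          exact mul_le_mul_of_nonneg_left hq99 hp3.le

end Crest.Agent.TRem
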