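import Crest.Agent.TRem.AK1

/-!
# Row 30, AK5a: mean of `PPk`
-/

namespace Crest.Agent.TRem

open Finset Crest.CombinatoricsR.TriangleRemoval

variable {n : ℕ} {L : ℝ} {i₁ i : ℕ} {σ : St n}

/-- fine form of the drift of `ρ` (from helper9's rho files; the statement used here). -/
def RhoDrift (L : ℝ) (i : ℕ) (σ : St n) : Prop :=
  ∀ u w : Fin n, u ≠ w →
    |Av (triangles σ.E) (fun T => rho (i + 1) (nxt i σ T) u w) - rho i σ u w| ≤
      mu n i / yb n i * (2 * L ^ 4 * (1 + ss n i) * (1 + 2 * (L / Real.sqrt (yb n i))) + 5 * L ^ 3)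
        + 7 * mu n i * L ^ 2 / (Real.sqrt (n * pp n i) * Real.sqrt (yb n i))

/-- `|Av PPk| ≤ Σ A A |Av ρ' - ρ| ≤ y_uv (…)`, `y_uv ≤ ȳ(1+3x)`, `√ȳ ≤ √(np)`. -/
theorem gd_PPk_mean (h : Reg n L i₁) (hi : i < i₁) (hI : Inv i σ) (hG : Good L i σ)
    (hρ : RhoDrift L i σ) {u v : Fin n} (huv : u ≠ v) :
    |Av (triangles σ.E) (fun T => PPk i σ u v T)| ≤
      mu n i * (2 * L ^ 4 * (1 + ss n i) * (1 + 6 * (L / Real.sqrt (yb n i))) + 6 * L ^ 3) := by
  have hi' := hi.le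
  have hne := gd_nonempty h hi' hG
  have hL := h.L_pos
  have hL6 := h.L6
  have hy := h.yb_pos hi'
  have hmu := h.mu_pos hi'
  have hsy : 0 < Real.sqrt (yb n i) := Real.sqrt_pos.2 hy
  have hnp : 0 < n * pp n i := mul_pos h.n_pos (h.pp_pos hi')
  have hsn : 0 < Real.sqrt (n * pp n i) := Real.sqrt_pos.2 hnp
  have hss := h.ss_nonneg hi'
  set x : ℝ := L / Real.sqrt (yb n i) with hx
  have hx0 : 0 < x := div_pos hL hsy
  have hx1 : x ≤ 1 / L ^ 9 := h.x_le hi'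
  have hx2 : x ≤ 1 / 10 ^ 6 := by
    refine hx1.trans ?_
    apply one_div_le_one_div_of_le (by norm_num)
    calc (10:ℝ) ^ 6 ≤ L := hL6
      _ = L ^ 1 := (pow_one L).symm
      _ ≤ L ^ 9 := pow_le_pow_right₀ (by linarith [show (1:ℝ) ≤ 10 ^ 6 by norm_num]) (by norm_num)
  set B : ℝ := mu n i / yb n i * (2 * L ^ 4 * (1 + ss n i) * (1 + 2 * x) + 5 * L ^ 3)
        + 7 * mu n i * L ^ 2 / (Real.sqrt (n * pp n i) * Real.sqrt (yb n i)) with hB
  have hB0 : 0 ≤ B := by positivity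
  -- the average of `PPk`
  have h1 : Av (triangles σ.E) (fun T => PPk i σ u v T) =
      ∑ w, adj σ.E u w * adj σ.E v w *
        (Av (triangles σ.E) (fun T => rho (i + 1) (nxt i σ T) u w) - rho i σ u w) := by
    unfold PPk
    rw [Av_sum]
    refine Finset.sum_congr rfl fun w _ => ?_
    rw [Av_mul, Av_sub, Av_const hne]
  have h2 : |Av (triangles σ.E) (fun T => PPk i σ u v T)| ≤ cod σ.E u v * B := by
    rw [h1]
    refine (Finset.abs_sum_le_sum_abs _ _).trans ?_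
    unfold cod
    rw [Finset.sum_mul]
    refine Finset.sum_le_sum fun w _ => ?_
    have ha : 0 ≤ adj σ.E u w * adj σ.E v w := mul_nonneg (adj_nonneg _ _ _) (adj_nonneg _ _ _)
    rw [abs_mul, abs_of_nonneg ha]
    rcases eq_or_ne u w with rfl | huw
    · rw [adj_self hI.sub, zero_mul, zero_mul, zero_mul]
    · exact mul_le_mul_of_nonneg_left (hρ u w huw) ha
  have h3 : cod σ.E u v ≤ yb n i * (1 + 3 * x) := by
    rw [gd_cod_eq h hi']
    have := (abs_le.mp (gd_rr_le h hi' hG huv)).2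
    exact mul_le_mul_of_nonneg_left (by linarith) hy.le
  have h4 : cod σ.E u v * B ≤ yb n i * (1 + 3 * x) * B := mul_le_mul_of_nonneg_right h3 hB0
  have h5 : yb n i * B ≤ mu n i * (2 * L ^ 4 * (1 + ss n i) * (1 + 2 * x) + 5 * L ^ 3 + 7 * L ^ 2) := by
    have e1 : yb n i / (Real.sqrt (n * pp n i) * Real.sqrt (yb n i)) ≤ 1 := by
      rw [div_le_one (by positivity)]
      calc yb n i = Real.sqrt (yb n i) * Real.sqrt (yb n i) := (Real.mul_self_sqrt hy.le).symm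
        _ ≤ Real.sqrt (n * pp n i) * Real.sqrt (yb n i) :=
            mul_le_mul_of_nonneg_right (h.sqrt_yb_le hi') hsy.le
    have e2 : yb n i * B = mu n i * (2 * L ^ 4 * (1 + ss n i) * (1 + 2 * x) + 5 * L ^ 3) +
        7 * mu n i * L ^ 2 * (yb n i / (Real.sqrt (n * pp n i) * Real.sqrt (yb n i))) := by
      rw [hB]
      field_simp
    rw [e2]
    have e3 : 7 * mu n i * L ^ 2 * (yb n i / (Real.sqrt (n * pp n i) * Real.sqrt (yb n i))) ≤
        7 * mu n i * L ^ 2 * 1 := mul_le_mul_of_nonneg_left e1 (by positivity)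
    linarith
  have h6 : yb n i * (1 + 3 * x) * B ≤
      (1 + 3 * x) * (mu n i * (2 * L ^ 4 * (1 + ss n i) * (1 + 2 * x) + 5 * L ^ 3 + 7 * L ^ 2)) := by
    calc yb n i * (1 + 3 * x) * B = (1 + 3 * x) * (yb n i * B) := by ring
      _ ≤ _ := mul_le_mul_of_nonneg_left h5 (by positivity)
  refine (h2.trans h4).trans (h6.trans ?_)
  have h7 : (1 + 3 * x) * (1 + 2 * x) ≤ 1 + 6 * x := by nlinarith
  have h8 : (1 + 3 * x) * (5 * L ^ 3 + 7 * L ^ 2) ≤ 6 * L ^ 3 := by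
    have e1 : 7 * L ^ 2 ≤ 1 / 2 * L ^ 3 := by nlinarith [sq_nonneg L, pow_pos hL 2]
    have e2 : (1 + 3 * x) ≤ 101 / 100 := by linarith
    have e3 : 0 ≤ 5 * L ^ 3 + 7 * L ^ 2 := by positivity
    have e4 : 0 < L ^ 3 := by positivity
    calc (1 + 3 * x) * (5 * L ^ 3 + 7 * L ^ 2) ≤ 101 / 100 * (5 * L ^ 3 + 7 * L ^ 2) :=
          mul_le_mul_of_nonneg_right e2 e3
      _ ≤ 6 * L ^ 3 := by linarith
  have h9 : 0 ≤ 2 * L ^ 4 * (1 + ss n i) := by positivity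
  calc (1 + 3 * x) * (mu n i * (2 * L ^ 4 * (1 + ss n i) * (1 + 2 * x) + 5 * L ^ 3 + 7 * L ^ 2))
      = mu n i * (2 * L ^ 4 * (1 + ss n i) * ((1 + 3 * x) * (1 + 2 * x)) +
          (1 + 3 * x) * (5 * L ^ 3 + 7 * L ^ 2)) := by ring
    _ ≤ mu n i * (2 * L ^ 4 * (1 + ss n i) * (1 + 6 * x) + 6 * L ^ 3) := by
        apply mul_le_mul_of_nonneg_left _ hmu.le
        exact add_le_add (mul_le_mul_of_nonneg_left h7 h9) h8

end Crest.Agent.TRem
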