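import Crest.Agent.TRem.AK4b
import Crest.Agent.TRem.AK5a

/-!
# Row 30, AK5b: the family `k`, one-step bounds
-/

namespace Crest.Agent.TRem

open Finset Crest.CombinatoricsR.TriangleRemoval

variable {n : ℕ} {L : ℝ} {i₁ i : ℕ} {σ : St n}

set_option maxHeartbeats 2000000 in
/-- Drift: `Av k' - (1-μ)²k = Av PPk - (Av Nk - (2μ/θ)k) + (2μ - μ² - 2μ/θ) k`, the last coefficient
is `≤ μ (3L³/ȳ + μ)`, `|k| ≤ L⁴(1+s) ≤ L⁵`. QV: `(k'-k)² ≤ 2PPk² + 2Nk²`, and
`Z' - Z = [(k'-k) + (2μ-μ²)k]/(p²(1-μ)²)`. Jump: `|k'-k| ≤ 5 + 2.1x`. -/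
theorem step_k_of (h : Reg n L i₁) (hi : i < i₁) (hI : Inv i σ) (hG : Good L i σ)
    (hρ : RhoDrift L i σ) (u v : Fin n) (huv : u ≠ v) :
    OneStep i σ (fun i σ => kf i σ u v / pp n i ^ 2)
      (mu n i / pp n i ^ 2 * (2 * L ^ 4 * (1 + ss n i) * (1 + 20 * (L / Real.sqrt (yb n i)))
        + 20 * L ^ 3))
      (1000 * mu n i * L ^ 4 / pp n i ^ 4) (L / pp n i ^ 2) := by
  have hle : i ≤ i₁ := hi.le
  have hL := h.L6
  have hL0 : 0 < L := h.L_pos
  have hP := h.pp_pos hle
  have hP1 := h.pp_le_one i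
  have hm := h.mu_pos hle
  have hyb := h.yb_pos hle
  have hne := gd_nonempty h hle hG
  have hs0 := h.ss_nonneg hle
  have hs := h.ss_le hle
  have hx := h.x_le hle
  have hsq : 0 < Real.sqrt (yb n i) := Real.sqrt_pos.2 hyb
  have hsq1 : 1 ≤ Real.sqrt (yb n i) := le_trans (one_le_pow₀ (by linarith)) (h.sqrt_yb_ge hle)
  have hmy := h.mu_yb hle
  have hm39 := h.mu_small hle
  have hk := hG.k u v huv
  have hth := hG.th
  have hth2 := gd_th_le h hle hG
  have hthge := gd_th_ge h hle hG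
  have hPm := gd_PPk_mean h hi hI hG hρ huv
  have hNm := gd_Nk_mean h hi hI hG huv
  have hPq := gd_PPk_qv h hi hI hG huv
  have hNq := gd_Nk_qv h hi hI hG huv
  have hpp := h.pp_succ hi
  set x : ℝ := L / Real.sqrt (yb n i) with hxdef
  have hx0 : 0 < x := div_pos hL0 hsq
  have hL9 : (1:ℝ) / L ^ 9 ≤ 1 / 10 ^ 6 := by
    apply one_div_le_one_div_of_le (by norm_num)
    calc (10:ℝ) ^ 6 ≤ L := hL
      _ ≤ L ^ 9 := le_self_pow₀ (by linarith) (by norm_num)
  have hx6 : x ≤ 1 / 10 ^ 6 := hx.trans hL9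
  -- `μ ≤ x / 100`
  have hmx : mu n i ≤ x / 100 := by
    have h1 : mu n i * Real.sqrt (yb n i) ≤ 1 := by
      have h2 : Real.sqrt (yb n i) ≤ yb n i := by
        nlinarith [Real.mul_self_sqrt hyb.le]
      calc mu n i * Real.sqrt (yb n i) ≤ mu n i * yb n i := mul_le_mul_of_nonneg_left h2 hm.le
        _ ≤ 1 / L ^ 19 := hmy
        _ ≤ 1 := by
          rw [div_le_one (by positivity)]
          exact one_le_pow₀ (by linarith)
    rw [hxdef, div_div, le_div_iff₀ (by positivity)]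
    nlinarith
  set m : ℝ := mu n i with hmdef
  set P : ℝ := pp n i with hPdef
  set K : ℝ := kf i σ u v with hKdef
  have hm6 : m ≤ 1 / 10 ^ 8 := by linarith
  -- `|K|`
  have hKL : |K| ≤ L ^ 5 := by
    refine hk.trans ?_
    have : L ^ 5 = L ^ 4 * L := by ring
    rw [this]
    exact mul_le_mul_of_nonneg_left (by linarith) (by positivity)
  have hmK : m * |K| ≤ 1 / 100 := by
    calc m * |K| ≤ (1 / L ^ 39) * L ^ 5 := mul_le_mul hm39 hKL (abs_nonneg _) (by positivity)
      _ = 1 / L ^ 34 := by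
        field_simp
      _ ≤ 1 / 100 := by
        apply one_div_le_one_div_of_le (by norm_num)
        calc (100:ℝ) ≤ L := by linarith
          _ ≤ L ^ 34 := le_self_pow₀ (by linarith) (by norm_num)
  have hmK2 : m * |K| ^ 2 ≤ 1 := by
    calc m * |K| ^ 2 ≤ (1 / L ^ 39) * (L ^ 5) ^ 2 :=
          mul_le_mul hm39 (pow_le_pow_left₀ (abs_nonneg _) hKL 2) (by positivity) (by positivity)
      _ = 1 / L ^ 29 := by
        field_simp
      _ ≤ 1 := by
        rw [div_le_one (by positivity)]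
        exact one_le_pow₀ (by linarith)
  have h1m : 0 < 1 - m := by linarith
  set A : ℝ := ((1 - m) ^ 2)⁻¹ with hAdef
  have hA0 : 0 < A := by positivity
  have hA1 : A ≤ 1 + 3 * m := by
    rw [hAdef, inv_le_comm₀ (by positivity) (by positivity)]
    rw [inv_le_iff_one_le_mul₀ (by positivity)]
    have : 0 ≤ m * (1 - 5 * m + 3 * m ^ 2) := mul_nonneg hm.le (by nlinarith)
    linarith
  have hA2 : A ≤ 1 + 1 / 1000 := by linarith
  -- one step
  have hstep : ∀ T, kf (i + 1) (nxt i σ T) u v / pp n (i + 1) ^ 2 =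
      K / P ^ 2 + A / P ^ 2 * (PPk i σ u v T - Nk i σ u v T + (2 * m - m ^ 2) * K) := by
    intro T
    have h1 := kf_step i σ u v T
    have h2 : kf (i + 1) (nxt i σ T) u v = K + (PPk i σ u v T - Nk i σ u v T) := by
      rw [hKdef]; linarith
    rw [h2, hpp, hAdef]
    field_simp
    ring
  have hdiff : ∀ T, kf (i + 1) (nxt i σ T) u v / pp n (i + 1) ^ 2 - K / P ^ 2 =
      A / P ^ 2 * (PPk i σ u v T - Nk i σ u v T + (2 * m - m ^ 2) * K) := by
    intro T; rw [hstep T]; ring
  have hAP : 0 < A / P ^ 2 := by positivity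
  refine ⟨?_, ?_, ?_⟩
  · -- drift
    have e1 : Av (triangles σ.E) (fun T => kf (i + 1) (nxt i σ T) u v / pp n (i + 1) ^ 2) -
        K / P ^ 2 = A / P ^ 2 * (Av (triangles σ.E) (fun T => PPk i σ u v T) -
          Av (triangles σ.E) (fun T => Nk i σ u v T) + (2 * m - m ^ 2) * K) := by
      rw [Av_congr (fun T _ => hstep T), Av_add, Av_const hne, Av_mul, Av_add, Av_sub, Av_const hne]
      ring
    show |Av (triangles σ.E) (fun T => kf (i + 1) (nxt i σ T) u v / pp n (i + 1) ^ 2) -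
        K / P ^ 2| ≤ _
    rw [e1, abs_mul, abs_of_pos hAP]
    set aP := Av (triangles σ.E) (fun T => PPk i σ u v T)
    set aN := Av (triangles σ.E) (fun T => Nk i σ u v T)
    set θ := th i σ.E
    have hθ0 : 0 < θ := by linarith
    have e2 : aP - aN + (2 * m - m ^ 2) * K =
        aP - (aN - 2 * m / θ * K) + (2 * m * (θ - 1) / θ - m ^ 2) * K := by
      field_simp
      ring
    have e3 : |2 * m * (θ - 1) / θ - m ^ 2| ≤ m * (x / 20) := by
      have h1 : |2 * m * (θ - 1) / θ| ≤ m * (x / 40) := by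
        rw [abs_div, abs_mul, abs_of_pos hθ0, abs_of_pos (by positivity : (0:ℝ) < 2 * m),
          div_le_iff₀ hθ0]
        have : |θ - 1| ≤ x / 100 := hth2
        calc 2 * m * |θ - 1| ≤ 2 * m * (x / 100) := mul_le_mul_of_nonneg_left this (by positivity)
          _ ≤ m * (x / 40) * θ := by
            have : 2 * m * (x / 100) = m * x * (1 / 50) := by ring
            rw [this]
            have : m * (x / 40) * θ = m * x * (θ / 40) := by ring
            rw [this]
            exact mul_le_mul_of_nonneg_left (by linarith) (by positivity)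
      have h2 : |m ^ 2| ≤ m * (x / 40) := by
        rw [abs_of_nonneg (by positivity), pow_two]
        exact mul_le_mul_of_nonneg_left (by linarith) hm.le
      calc _ ≤ |2 * m * (θ - 1) / θ| + |m ^ 2| := abs_sub _ _
        _ ≤ m * (x / 40) + m * (x / 40) := add_le_add h1 h2
        _ = _ := by ring
    have e4 : |(2 * m * (θ - 1) / θ - m ^ 2) * K| ≤ m * (x / 20) * (L ^ 4 * (1 + ss n i)) := by
      rw [abs_mul]
      exact mul_le_mul e3 hk (abs_nonneg _) (by positivity)
    have e5 : |aP - aN + (2 * m - m ^ 2) * K| ≤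
        m * (2 * L ^ 4 * (1 + ss n i) * (1 + 7 * x) + 7 * L ^ 3) := by
      rw [e2]
      have b1 := abs_add_le (aP - (aN - 2 * m / θ * K)) ((2 * m * (θ - 1) / θ - m ^ 2) * K)
      have b2 := abs_sub aP (aN - 2 * m / θ * K)
      have b3 : m * (2 * L ^ 4 * (1 + ss n i) * (1 + 6 * x) + 6 * L ^ 3) + 8 * m * L ^ 2 +
          m * (x / 20) * (L ^ 4 * (1 + ss n i)) ≤
          m * (2 * L ^ 4 * (1 + ss n i) * (1 + 7 * x) + 7 * L ^ 3) := by
        have c1 : m * (8 * L ^ 2) ≤ m * L ^ 3 := by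
          apply mul_le_mul_of_nonneg_left _ hm.le
          have : L ^ 3 = L * L ^ 2 := by ring
          rw [this]
          exact mul_le_mul_of_nonneg_right (by linarith) (by positivity)
        have c2 : 0 ≤ m * x * (L ^ 4 * (1 + ss n i)) := by positivity
        linarith
      linarith
    calc A / P ^ 2 * |aP - aN + (2 * m - m ^ 2) * K|
        ≤ A / P ^ 2 * (m * (2 * L ^ 4 * (1 + ss n i) * (1 + 7 * x) + 7 * L ^ 3)) :=
          mul_le_mul_of_nonneg_left e5 hAP.le
      _ = m / P ^ 2 * (A * (2 * L ^ 4 * (1 + ss n i) * (1 + 7 * x) + 7 * L ^ 3)) := by ring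
      _ ≤ m / P ^ 2 * (2 * L ^ 4 * (1 + ss n i) * (1 + 20 * x) + 20 * L ^ 3) := by
        apply mul_le_mul_of_nonneg_left _ (by positivity)
        have c0 : A ≤ 1 + x := by linarith
        have c1 : A * (1 + 7 * x) ≤ 1 + 20 * x := by
          calc A * (1 + 7 * x) ≤ (1 + x) * (1 + 7 * x) :=
                mul_le_mul_of_nonneg_right c0 (by positivity)
            _ ≤ 1 + 20 * x := by nlinarith
        have c2 : 0 ≤ 2 * L ^ 4 * (1 + ss n i) := by positivity
        have c3 : 0 ≤ L ^ 3 := by positivity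
        calc A * (2 * L ^ 4 * (1 + ss n i) * (1 + 7 * x) + 7 * L ^ 3)
            = 2 * L ^ 4 * (1 + ss n i) * (A * (1 + 7 * x)) + A * (7 * L ^ 3) := by ring
          _ ≤ 2 * L ^ 4 * (1 + ss n i) * (1 + 20 * x) + 2 * (7 * L ^ 3) :=
              add_le_add (mul_le_mul_of_nonneg_left c1 c2)
                (mul_le_mul_of_nonneg_right (by linarith) (by positivity))
          _ ≤ _ := by linarith
  · -- second moment
    show Av (triangles σ.E) (fun T => (kf (i + 1) (nxt i σ T) u v / pp n (i + 1) ^ 2 -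
        K / P ^ 2) ^ 2) ≤ _
    have e1 : ∀ T ∈ triangles σ.E, (kf (i + 1) (nxt i σ T) u v / pp n (i + 1) ^ 2 -
        K / P ^ 2) ^ 2 ≤ (A / P ^ 2) ^ 2 * (3 * ((PPk i σ u v T) ^ 2 + (Nk i σ u v T) ^ 2 +
          4 * m * (m * |K| ^ 2))) := by
      intro T _
      rw [hdiff T, mul_pow]
      apply mul_le_mul_of_nonneg_left _ (by positivity)
      have c1 : ((2 * m - m ^ 2) * K) ^ 2 ≤ 4 * m * (m * |K| ^ 2) := by
        rw [mul_pow, sq_abs]
        have : (2 * m - m ^ 2) ^ 2 ≤ (2 * m) ^ 2 :=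
          pow_le_pow_left₀ (by nlinarith) (by nlinarith) 2
        nlinarith [mul_le_mul_of_nonneg_right this (sq_nonneg K)]
      have c2 := sq_nonneg (PPk i σ u v T + Nk i σ u v T)
      have c3 := sq_nonneg (PPk i σ u v T - (2 * m - m ^ 2) * K)
      have c4 := sq_nonneg (Nk i σ u v T + (2 * m - m ^ 2) * K)
      generalize (2 * m - m ^ 2) * K = W at *
      generalize PPk i σ u v T = a at *
      generalize Nk i σ u v T = b at *
      linarith
    refine (Av_mono e1).trans ?_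
    rw [Av_mul, Av_mul, Av_add, Av_add, Av_const hne]
    have c2 : 3 * (Av (triangles σ.E) (fun T => (PPk i σ u v T) ^ 2) +
        Av (triangles σ.E) (fun T => (Nk i σ u v T) ^ 2) + 4 * m * (m * |K| ^ 2)) ≤
        m * (330 * L ^ 4) := by
      have c3 : m * L ^ 2 ≤ m * L ^ 4 :=
        mul_le_mul_of_nonneg_left (pow_le_pow_right₀ (by linarith) (by norm_num)) hm.le
      have c4 : 4 * m * (m * |K| ^ 2) ≤ 4 * m * 1 :=
        mul_le_mul_of_nonneg_left hmK2 (by positivity)
      have c5 : m * 1 ≤ m * L ^ 4 :=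
        mul_le_mul_of_nonneg_left (one_le_pow₀ (by linarith)) hm.le
      linarith
    calc _ ≤ (A / P ^ 2) ^ 2 * (m * (330 * L ^ 4)) := mul_le_mul_of_nonneg_left c2 (by positivity)
      _ = (A ^ 2 * 330) * (m * L ^ 4 / P ^ 4) := by
        field_simp
      _ ≤ 1000 * (m * L ^ 4 / P ^ 4) := by
        apply mul_le_mul_of_nonneg_right _ (by positivity)
        nlinarith
      _ = _ := by ring
  · -- jump
    intro T hT
    show |kf (i + 1) (nxt i σ T) u v / pp n (i + 1) ^ 2 - K / P ^ 2| ≤ _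
    rw [hdiff T, abs_mul, abs_of_pos hAP]
    have hPj := gd_PPk_le h hi hI hG hT huv
    have hNj := gd_Nk_le h hi hI hG hT huv
    have hc : |(2 * m - m ^ 2) * K| ≤ 1 := by
      rw [abs_mul]
      have : |2 * m - m ^ 2| ≤ 2 * m := by
        rw [abs_of_nonneg (by nlinarith)]; nlinarith
      calc |2 * m - m ^ 2| * |K| ≤ 2 * m * |K| := mul_le_mul_of_nonneg_right this (abs_nonneg _)
        _ = 2 * (m * |K|) := by ring
        _ ≤ 1 := by linarith
    have b1 := abs_add_le (PPk i σ u v T - Nk i σ u v T) ((2 * m - m ^ 2) * K)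
    have b2 := abs_sub (PPk i σ u v T) (Nk i σ u v T)
    have b3 : |PPk i σ u v T - Nk i σ u v T + (2 * m - m ^ 2) * K| ≤ 10 := by
      have : 21 / 10 * (L / Real.sqrt (yb n i)) ≤ 1 := by
        change 21 / 10 * x ≤ 1
        linarith
      linarith
    calc A / P ^ 2 * |PPk i σ u v T - Nk i σ u v T + (2 * m - m ^ 2) * K|
        ≤ A / P ^ 2 * 10 := mul_le_mul_of_nonneg_left b3 hAP.le
      _ = (A * 10) / P ^ 2 := by ring
      _ ≤ L / P ^ 2 := by
        apply div_le_div_of_nonneg_right _ (by positivity)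
        linarith

end Crest.Agent.TRem
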