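import Crest.Agent.TRem.ARhoF
import Crest.Agent.TRem.AK5b

/-!
# Row 30, part A: the family `k`, final form
-/

namespace Crest.Agent.TRem

open Finset Crest.CombinatoricsR.TriangleRemoval

variable {n : ℕ} {L : ℝ} {i₁ i : ℕ} {σ : St n}

theorem step_k (h : Reg n L i₁) (hi : i < i₁) (hI : Inv i σ) (hG : Good L i σ) (u v : Fin n)
    (huv : u ≠ v) :
    OneStep i σ (fun i σ => kf i σ u v / pp n i ^ 2)
      (mu n i / pp n i ^ 2 * (2 * L ^ 4 * (1 + ss n i) * (1 + 20 * (L / Real.sqrt (yb n i)))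
        + 20 * L ^ 3))
      (1000 * mu n i * L ^ 4 / pp n i ^ 4) (L / pp n i ^ 2) :=
  step_k_of h hi hI hG (fun _ _ huw => drift_rho_fine h hi hI hG huw) u v huv

end Crest.Agent.TRem
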