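import Crest.Agent.TRem.ARhoF

/-!
# Row 30 (S0040), part A: the family `M` (one-step mean, quadratic variation, jump)
-/

namespace Crest.Agent.TRem

open Finset Crest.CombinatoricsR.TriangleRemoval

variable {n : ℕ}

/-- the indicator that the common neighbour `w` of `u, v` is lost -/
noncomputable def lw (u v : Fin n) (T : Finset (Fin n)) (w : Fin n) : ℝ :=
  ind T w * (ind T u + ind T v - ind T u * ind T v)

theorem lw_nonneg (u v : Fin n) (T : Finset (Fin n)) (w : Fin n) : 0 ≤ lw u v T w :=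
  mul_nonneg (ind_nonneg _ _) (ind_union_nonneg _ _ _)

theorem lw_mul_ind (u v : Fin n) (T : Finset (Fin n)) (w : Fin n) :
    lw u v T w * ind T w = lw u v T w := by
  unfold lw
  have h := ind_mul_self T w
  linear_combination (ind T u + ind T v - ind T u * ind T v) * h

theorem lw_one_sub (u v : Fin n) (T : Finset (Fin n)) (w : Fin n) :
    (1 - ind T u * ind T w) * (1 - ind T v * ind T w) = 1 - lw u v T w := by
  unfold lw
  have h := ind_mul_self T w
  linear_combination (ind T u * ind T v) * h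

theorem Av_lw {E : Finset (Sym2 (Fin n))} (hE : E ⊆ allEdges n) {u v : Fin n} (huv : u ≠ v)
    (w : Fin n) :
    adj E u w * adj E v w * Av (triangles E) (fun T => lw u v T w) =
      adj E u w * adj E v w * ((cod E u w + cod E v w - adj E u v) / QQ E) := by
  by_cases huw : u = w
  · subst huw
    rw [adj_self9 hE]; simp
  by_cases hvw : v = w
  · subst hvw
    rw [adj_self9 hE v]; simp
  have h2 : Av (triangles E) (fun T => lw u v T w) =
      Av (triangles E) (fun T => ind T u * ind T w) + Av (triangles E) (fun T => ind T v * ind T w)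
      - Av (triangles E) (fun T => ind T u * ind T v * ind T w) := by
    rw [← Av_add9, ← Av_sub9]
    exact Av_congr9 fun T _ => by unfold lw; ring
  rw [h2, Av_ind2 hE huw, Av_ind2 hE hvw, Av_ind3 E huv huw hvw]
  have h3 := adj_mul_self E u w
  have h4 := adj_mul_self E v w
  have h5 : adj E u w * adj E v w * (adj E u w * cod E u w / QQ E + adj E v w * cod E v w / QQ E -
      adj E u v * adj E u w * adj E v w / QQ E) =
      ((adj E u w * adj E u w) * adj E v w * cod E u w +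
      adj E u w * (adj E v w * adj E v w) * cod E v w -
      adj E u v * (adj E u w * adj E u w) * (adj E v w * adj E v w)) / QQ E := by ring
  rw [h5, h3, h4]; ring

/-- first part of the change of `M` -/
noncomputable def MS1 (σ : St n) (u v : Fin n) (T : Finset (Fin n)) : ℝ :=
  ∑ w, adj σ.E u w * adj σ.E v w * σ.a w * lw u v T w
/-- second part of the change of `M` -/
noncomputable def MS2 (σ : St n) (u v : Fin n) (T : Finset (Fin n)) : ℝ :=
  ∑ w, adj σ.E u w * adj σ.E v w * (ind T w - piv σ.E w)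
/-- third part of the change of `M` -/
noncomputable def MS3 (σ : St n) (u v : Fin n) (T : Finset (Fin n)) : ℝ :=
  ∑ w, adj σ.E u w * adj σ.E v w * (1 - piv σ.E w) * lw u v T w

theorem Mf_nxt (i : ℕ) (σ : St n) (T : Finset (Fin n)) (u v : Fin n) :
    Mf (nxt i σ T) u v = (1 - mu n i) * Mf σ u v - (1 - mu n i) * MS1 σ u v T -
      2 / (n * pp n i) * MS2 σ u v T + 2 / (n * pp n i) * MS3 σ u v T := by
  unfold Mf MS1 MS2 MS3
  rw [Finset.mul_sum, Finset.mul_sum, Finset.mul_sum, Finset.mul_sum, ← Finset.sum_sub_distrib,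
    ← Finset.sum_sub_distrib, ← Finset.sum_add_distrib]
  refine Finset.sum_congr rfl fun w _ => ?_
  rw [adj_nxt, adj_nxt, nxt_a]
  have h1 := lw_one_sub u v T w
  have h2 := lw_mul_ind u v T w
  have h3 : adj σ.E u w * (1 - ind T u * ind T w) * (adj σ.E v w * (1 - ind T v * ind T w)) =
      adj σ.E u w * adj σ.E v w * (1 - lw u v T w) := by rw [← h1]; ring
  rw [h3]
  linear_combination (adj σ.E u w * adj σ.E v w * (2 / (n * pp n i))) * h2

section fam

variable {L : ℝ} {i₁ i : ℕ} {σ : St n}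

theorem MS3_nonneg (σ : St n) (u v : Fin n) (T : Finset (Fin n)) : 0 ≤ MS3 σ u v T :=
  Finset.sum_nonneg fun w _ => mul_nonneg (mul_nonneg (adj2_nonneg _ _ _ _)
    (by linarith [piv_le_one σ.E w])) (lw_nonneg _ _ _ _)

theorem MS3_le (σ : St n) (u v : Fin n) (T : Finset (Fin n)) : MS3 σ u v T ≤ loss σ.E u v T := by
  unfold MS3 loss
  apply Finset.sum_le_sum
  intro w _
  have h1 := adj2_nonneg σ.E u v w
  have h2 := lw_nonneg u v T w
  have h3 := piv_nonneg σ.E w
  change _ ≤ adj σ.E u w * adj σ.E v w * lw u v T w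
  have h4 : 0 ≤ adj σ.E u w * adj σ.E v w * lw u v T w := mul_nonneg h1 h2
  nlinarith

theorem abs_MS1_le (hG : Good L i σ) (u v : Fin n)
    (T : Finset (Fin n)) :
    |MS1 σ u v T| ≤ L / Real.sqrt (n * pp n i) * loss σ.E u v T := by
  unfold MS1 loss
  rw [Finset.mul_sum]
  refine le_trans (Finset.abs_sum_le_sum_abs _ _) (Finset.sum_le_sum fun w _ => ?_)
  have h1 := adj2_nonneg σ.E u v w
  have h2 := lw_nonneg u v T w
  have h3 := hG.a w
  rw [abs_mul, abs_mul, abs_of_nonneg h1, abs_of_nonneg h2]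
  change _ ≤ L / Real.sqrt (n * pp n i) * (adj σ.E u w * adj σ.E v w * lw u v T w)
  calc adj σ.E u w * adj σ.E v w * |σ.a w| * lw u v T w
      ≤ adj σ.E u w * adj σ.E v w * (L / Real.sqrt (n * pp n i)) * lw u v T w := by gcongr
    _ = _ := by ring

theorem sum_adj2_ind_le3 {E : Finset (Sym2 (Fin n))} (u v : Fin n)
    {T : Finset (Fin n)} (hT : T ∈ triangles E) :
    ∑ w, adj E u w * adj E v w * ind T w ≤ 3 := by
  rw [← sum_ind hT]
  apply Finset.sum_le_sum
  intro w _
  have h5 := adj2_le_one E u v w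
  have h6 := ind_nonneg T w
  nlinarith

theorem sum_adj2_piv_le3 {E : Finset (Sym2 (Fin n))} (hQ : QQ E ≠ 0) (u v : Fin n) :
    ∑ w, adj E u w * adj E v w * piv E w ≤ 3 := by
  rw [← sum_piv hQ]
  apply Finset.sum_le_sum
  intro w _
  have h5 := adj2_le_one E u v w
  have h6 := piv_nonneg E w
  nlinarith

theorem abs_MS2_le (h : Reg n L i₁) (hi : i ≤ i₁) (hG : Good L i σ) (u v : Fin n)
    {T : Finset (Fin n)} (hT : T ∈ triangles σ.E) : |MS2 σ u v T| ≤ 3 := by
  have h1 : MS2 σ u v T = ∑ w, adj σ.E u w * adj σ.E v w * ind T w -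
      ∑ w, adj σ.E u w * adj σ.E v w * piv σ.E w := by
    unfold MS2
    rw [← Finset.sum_sub_distrib]
    exact Finset.sum_congr rfl fun w _ => by ring
  have h2 := sum_adj2_ind_le3 u v hT
  have h3 := sum_adj2_piv_le3 (hG.QQ_pos h hi).ne' u v
  have h4 : 0 ≤ ∑ w, adj σ.E u w * adj σ.E v w * ind T w :=
    Finset.sum_nonneg fun w _ => mul_nonneg (adj2_nonneg _ _ _ _) (ind_nonneg _ _)
  have h5 : 0 ≤ ∑ w, adj σ.E u w * adj σ.E v w * piv σ.E w :=
    Finset.sum_nonneg fun w _ => mul_nonneg (adj2_nonneg _ _ _ _) (piv_nonneg _ _)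
  rw [h1, abs_le]
  constructor <;> linarith

theorem Av_MS2 (h : Reg n L i₁) (hi : i ≤ i₁) (hG : Good L i σ) (u v : Fin n) :
    Av (triangles σ.E) (fun T => MS2 σ u v T) = 0 := by
  unfold MS2
  rw [Av_sum9]
  apply Finset.sum_eq_zero
  intro w _
  rw [Av_mul_left, Av_ind_sub (hG.QQ_pos h hi).ne', mul_zero]

theorem Av_MS2_sq (h : Reg n L i₁) (hi : i ≤ i₁) (hI : Inv i σ) (hG : Good L i σ) {u v : Fin n}
    (huv : u ≠ v) :
    Av (triangles σ.E) (fun T => MS2 σ u v T ^ 2) ≤
      7 * (mu n i * (n * pp n i) * yb n i) := by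
  have hQ := (hG.QQ_pos h hi).ne'
  have hc := hG.card_ne h hi
  have hm := h.mu_pos9 hi
  have hnp := h.np_pos hi
  have hy := h.yb_pos9 hi
  set P := ∑ w, adj σ.E u w * adj σ.E v w * piv σ.E w with hP
  have h0 : ∀ T ∈ triangles σ.E, MS2 σ u v T ^ 2 ≤
      6 * ∑ w, adj σ.E u w * adj σ.E v w * ind T w + 6 * P := by
    intro T hT
    have h1 : MS2 σ u v T = ∑ w, adj σ.E u w * adj σ.E v w * ind T w - P := by
      unfold MS2
      rw [hP, ← Finset.sum_sub_distrib]
      exact Finset.sum_congr rfl fun w _ => by ring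
    have h2 := sum_adj2_ind_le3 u v hT
    have h3 := sum_adj2_piv_le3 hQ u v
    rw [← hP] at h3
    have h4 : 0 ≤ ∑ w, adj σ.E u w * adj σ.E v w * ind T w :=
      Finset.sum_nonneg fun w _ => mul_nonneg (adj2_nonneg _ _ _ _) (ind_nonneg _ _)
    have h5 : 0 ≤ P :=
      Finset.sum_nonneg fun w _ => mul_nonneg (adj2_nonneg _ _ _ _) (piv_nonneg _ _)
    rw [h1]
    nlinarith [sq_nonneg (∑ w, adj σ.E u w * adj σ.E v w * ind T w + P)]
  refine le_trans (Av_mono9 h0) ?_
  have h1 : Av (triangles σ.E) (fun T => ∑ w, adj σ.E u w * adj σ.E v w * ind T w) = P := by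
    rw [Av_sum9, hP]
    refine Finset.sum_congr rfl fun w _ => ?_
    rw [Av_mul_left, piv_eq_Av]
  rw [Av_add9, Av_const9 hc, Av_mul_left, h1]
  have h2 : P ≤ 57 / 100 * (mu n i * (n * pp n i)) * (101 / 100 * yb n i) := by
    calc P ≤ ∑ w, adj σ.E u w * adj σ.E v w * (57 / 100 * (mu n i * (n * pp n i))) := by
          apply Finset.sum_le_sum
          intro w _
          exact mul_le_mul_of_nonneg_left (hG.piv_le h hi hI w) (adj2_nonneg _ _ _ _)
      _ = 57 / 100 * (mu n i * (n * pp n i)) * cod σ.E u v := by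
          rw [← Finset.sum_mul, mul_comm]; rfl
      _ ≤ _ := by
          apply mul_le_mul_of_nonneg_left (hG.cod_le h hi huv) (by positivity)
  have h3 : 0 < mu n i * (n * pp n i) * yb n i := by positivity
  nlinarith

theorem Av_MS3 (h : Reg n L i₁) (hi : i ≤ i₁) (hI : Inv i σ) (hG : Good L i σ) {u v : Fin n}
    (huv : u ≠ v) :
    |Av (triangles σ.E) (fun T => MS3 σ u v T)| ≤ 21 / 10 * (mu n i * yb n i) := by
  rw [abs_of_nonneg (Av_nonneg9 fun T _ => MS3_nonneg σ u v T)]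
  exact le_trans (Av_mono9 fun T _ => MS3_le σ u v T) (hG.Av_loss_le h hi hI huv)

/-- mean of `MS1` : `2 μ M / θ` up to `8 μ L² √p` -/
theorem Av_MS1 (h : Reg n L i₁) (hi : i ≤ i₁) (hI : Inv i σ) (hG : Good L i σ) {u v : Fin n}
    (huv : u ≠ v) :
    |Av (triangles σ.E) (fun T => MS1 σ u v T) - 2 * mu n i * (1 / th i σ.E) * Mf σ u v| ≤
      75 / 10 * mu n i * L ^ 2 * Real.sqrt (pp n i) := by
  have hm := h.mu_pos9 hi
  have hy := h.yb_pos9 hi
  have hL := h.L0
  have hth := hG.th_pos h hi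
  have hQ := hG.QQ_pos h hi
  have h1 : Av (triangles σ.E) (fun T => MS1 σ u v T) - 2 * mu n i * (1 / th i σ.E) * Mf σ u v =
      ∑ w, adj σ.E u w * adj σ.E v w * (σ.a w * (mu n i * (1 / th i σ.E) *
        (rr i σ.E u w + rr i σ.E v w - adj σ.E u v / yb n i))) := by
    unfold MS1 Mf
    rw [Av_sum9, Finset.mul_sum, ← Finset.sum_sub_distrib]
    refine Finset.sum_congr rfl fun w _ => ?_
    rw [Av_mul_left]
    have h2 := Av_lw hI.sub huv w
    have h3 : adj σ.E u w * adj σ.E v w * σ.a w * Av (triangles σ.E) (fun T => lw u v T w) =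
        σ.a w * (adj σ.E u w * adj σ.E v w * ((cod σ.E u w + cod σ.E v w - adj σ.E u v) *
          (1 / QQ σ.E))) := by
      rw [← div_eq_mul_one_div, ← h2]; ring
    rw [h3, inv_QQ h hi hG, cod_eq h hi, cod_eq h hi σ.E v w]
    have h4 := hy.ne'
    have h5 := hth.ne'
    field_simp
    ring
  rw [h1]
  have ht : |1 / th i σ.E| ≤ 101 / 100 := by
    rw [abs_of_pos (by positivity), div_le_iff₀ hth]
    have h3 := (abs_le.1 (hG.th_near h hi)).1
    norm_num at h3
    linarith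
  have hR : ∀ w, adj σ.E u w * adj σ.E v w * |σ.a w * (mu n i * (1 / th i σ.E) *
        (rr i σ.E u w + rr i σ.E v w - adj σ.E u v / yb n i))| ≤
      adj σ.E u w * adj σ.E v w * (L / Real.sqrt (n * pp n i) * (mu n i * (101 / 100) *
        (7 * L / Real.sqrt (yb n i)))) := by
    intro w
    by_cases huw : u = w
    · subst huw; rw [adj_self9 hI.sub]; simp
    by_cases hvw : v = w
    · subst hvw; rw [adj_self9 hI.sub v]; simp
    apply mul_le_mul_of_nonneg_left _ (adj2_nonneg _ _ _ _)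
    apply abs_mul_le' (hG.a w)
    apply abs_mul_le'
    · rw [abs_mul, abs_of_pos hm]
      gcongr
    · have e1 := hG.rr_le h hi huw
      have e2 := hG.rr_le h hi hvw
      have e3 : |adj σ.E u v / yb n i| ≤ L / Real.sqrt (yb n i) := by
        rw [abs_of_nonneg (div_nonneg (adj_nonneg9 _ _ _) hy.le)]
        have e4 : adj σ.E u v / yb n i ≤ 1 / yb n i := by
          apply div_le_div_of_nonneg_right (adj_le_one9 _ _ _) hy.le
        refine le_trans e4 ?_
        have e5 := Real.mul_self_sqrt hy.le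
        have e6 := h.sqrt_yb_pos hi
        rw [div_le_div_iff₀ hy e6]
        have e7 := h.L10_le_sqrt hi
        have e8 : 1 ≤ Real.sqrt (yb n i) := le_trans (one_le_pow₀ h.L1) e7
        have e9 := h.L1
        nlinarith
      calc |rr i σ.E u w + rr i σ.E v w - adj σ.E u v / yb n i|
          ≤ |rr i σ.E u w + rr i σ.E v w| + |adj σ.E u v / yb n i| := abs_sub _ _
        _ ≤ (|rr i σ.E u w| + |rr i σ.E v w|) + |adj σ.E u v / yb n i| := by
            gcongr; exact abs_add_le _ _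
        _ ≤ (3 * L / Real.sqrt (yb n i) + 3 * L / Real.sqrt (yb n i)) +
            L / Real.sqrt (yb n i) := by gcongr
        _ = 7 * L / Real.sqrt (yb n i) := by ring
  calc |∑ w, adj σ.E u w * adj σ.E v w * (σ.a w * (mu n i * (1 / th i σ.E) *
        (rr i σ.E u w + rr i σ.E v w - adj σ.E u v / yb n i)))|
      ≤ ∑ w, |adj σ.E u w * adj σ.E v w * (σ.a w * (mu n i * (1 / th i σ.E) *
        (rr i σ.E u w + rr i σ.E v w - adj σ.E u v / yb n i)))| :=
        Finset.abs_sum_le_sum_abs _ _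
    _ = ∑ w, adj σ.E u w * adj σ.E v w * |σ.a w * (mu n i * (1 / th i σ.E) *
        (rr i σ.E u w + rr i σ.E v w - adj σ.E u v / yb n i))| := by
        refine Finset.sum_congr rfl fun w _ => ?_
        rw [abs_mul, abs_of_nonneg (adj2_nonneg σ.E u v w)]
    _ ≤ ∑ w, adj σ.E u w * adj σ.E v w * (L / Real.sqrt (n * pp n i) * (mu n i * (101 / 100) *
        (7 * L / Real.sqrt (yb n i)))) := Finset.sum_le_sum fun w _ => hR w
    _ = cod σ.E u v * (L / Real.sqrt (n * pp n i) * (mu n i * (101 / 100) *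
        (7 * L / Real.sqrt (yb n i)))) := by rw [← Finset.sum_mul]; rfl
    _ ≤ 101 / 100 * yb n i * (L / Real.sqrt (n * pp n i) * (mu n i * (101 / 100) *
        (7 * L / Real.sqrt (yb n i)))) := by
        apply mul_le_mul_of_nonneg_right (hG.cod_le h hi huv)
        have := h.sqrt_np_pos hi
        have := h.sqrt_yb_pos hi
        positivity
    _ ≤ 75 / 10 * mu n i * L ^ 2 * Real.sqrt (pp n i) := by
        have e1 := h.sqrt_np_pos hi
        have e2 := h.sqrt_yb_pos hi
        have e3 := h.sqrt_yb_eq9 hi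
        have e4 := Real.mul_self_sqrt hy.le
        have e5 := h.pp_pos9 hi
        have e6 : 0 < Real.sqrt (pp n i) := Real.sqrt_pos.2 e5
        have e7 : 101 / 100 * yb n i * (L / Real.sqrt (n * pp n i) * (mu n i * (101 / 100) *
          (7 * L / Real.sqrt (yb n i)))) =
          (101 / 100 * (101 / 100) * 7) * mu n i * L ^ 2 *
            (yb n i / (Real.sqrt (n * pp n i) * Real.sqrt (yb n i))) := by
          field_simp
        have e8 : yb n i / (Real.sqrt (n * pp n i) * Real.sqrt (yb n i)) = Real.sqrt (pp n i) := by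
          rw [div_eq_iff (by positivity)]
          nth_rewrite 1 [← e4]
          rw [e3]; ring
        rw [e7, e8]
        have e9 : 0 < mu n i * L ^ 2 * Real.sqrt (pp n i) := by positivity
        nlinarith

/-- the unnormalized change of `M` -/
theorem Mf_change (i : ℕ) (σ : St n) (T : Finset (Fin n)) (u v : Fin n) :
    Mf (nxt i σ T) u v - (1 - mu n i) ^ 3 * Mf σ u v =
      ((1 - mu n i) - (1 - mu n i) ^ 3) * Mf σ u v - (1 - mu n i) * MS1 σ u v T -
      2 / (n * pp n i) * MS2 σ u v T + 2 / (n * pp n i) * MS3 σ u v T := by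
  rw [Mf_nxt]; ring

theorem MZ_change (h : Reg n L i₁) (hi : i < i₁) (T : Finset (Fin n)) (u v : Fin n) :
    Mf (nxt i σ T) u v / pp n (i + 1) ^ 3 - Mf σ u v / pp n i ^ 3 =
      (Mf (nxt i σ T) u v - (1 - mu n i) ^ 3 * Mf σ u v) / (pp n i ^ 3 * (1 - mu n i) ^ 3) := by
  have h1 := (h.pp_pos9 hi.le).ne'
  have h2 : 1 - mu n i ≠ 0 := by
    have := h.mu_le hi.le
    norm_num at this
    intro h0
    linarith
  rw [h.pp_succ9 hi.le]
  field_simp

theorem Reg.one_sub_mu_cube (h : Reg n L i₁) (hi : i ≤ i₁) :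
    99 / 100 ≤ (1 - mu n i) ^ 3 := by
  have h1 := h.mu_le hi
  have h2 := h.mu_pos9 hi
  norm_num at h1
  nlinarith [mul_pos h2 h2, mul_pos h2 (mul_pos h2 h2)]

theorem Good.D0_le (h : Reg n L i₁) (hi : i ≤ i₁) (hG : Good L i σ) {u v : Fin n}
    (huv : u ≠ v) :
    |((1 - mu n i) - (1 - mu n i) ^ 3) * Mf σ u v| ≤
      2 * mu n i * (L ^ 3 * Real.sqrt (pp n i)) := by
  have h1 := h.mu_le hi
  have h2 := h.mu_pos9 hi
  norm_num at h1
  apply abs_mul_le' _ (hG.M u v huv)
  have e1 : (1 - mu n i) - (1 - mu n i) ^ 3 = (1 - mu n i) * (mu n i * (2 - mu n i)) := by ring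
  rw [e1, abs_of_nonneg (mul_nonneg (by linarith) (mul_nonneg h2.le (by linarith)))]
  nlinarith [mul_pos h2 h2, mul_pos h2 (mul_pos h2 h2)]

/-- **M, mean** (unnormalized) -/
theorem M_mean (h : Reg n L i₁) (hi : i < i₁) (hI : Inv i σ) (hG : Good L i σ)
    {u v : Fin n} (huv : u ≠ v) :
    |Av (triangles σ.E) (fun T => Mf (nxt i σ T) u v - (1 - mu n i) ^ 3 * Mf σ u v)| ≤
      8 * mu n i * L ^ 2 * Real.sqrt (pp n i) := by
  have hc := hG.card_ne h hi.le
  have hm := h.mu_pos9 hi.le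
  have hm1 := h.mu_le hi.le
  norm_num at hm1
  have hy := h.yb_pos9 hi.le
  have hL := h.L0
  have hL1 := h.L1
  have hL6 : (1000000:ℝ) ≤ L := by have := h.L6; norm_num at this; exact this
  have hth := hG.th_pos h hi.le
  have hnp := h.np_pos hi.le
  have hp := h.pp_pos9 hi.le
  have hsp : 0 < Real.sqrt (pp n i) := Real.sqrt_pos.2 hp
  have hsp1 : Real.sqrt (pp n i) ≤ 1 :=
    Real.sqrt_le_iff.2 ⟨zero_le_one, by simpa using h.pp_le_one9 i⟩
  have hspp := Real.mul_self_sqrt hp.le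
  have hpow : ∀ {a b : ℕ}, a ≤ b → L ^ a ≤ L ^ b := fun hab => pow_le_pow_right₀ hL1 hab
  set A1 := Av (triangles σ.E) (fun T => MS1 σ u v T) with hA1
  set A3 := Av (triangles σ.E) (fun T => MS3 σ u v T) with hA3
  set m := mu n i with hmdef
  have e0 : Av (triangles σ.E) (fun T => Mf (nxt i σ T) u v - (1 - m) ^ 3 * Mf σ u v) =
      ((1 - m) - (1 - m) ^ 3) * Mf σ u v - (1 - m) * A1 + 2 / (n * pp n i) * A3 := by
    rw [Av_congr9 (fun T _ => Mf_change i σ T u v), Av_add9, Av_sub9, Av_sub9, Av_const9 hc,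
      Av_mul_left, Av_mul_left, Av_mul_left, Av_MS2 h hi.le hG]
    ring
  have e1 : ((1 - m) - (1 - m) ^ 3) * Mf σ u v - (1 - m) * A1 + 2 / (n * pp n i) * A3 =
      ((1 - m) * (m * (2 * (1 - 1 / th i σ.E) - m))) * Mf σ u v
      - (1 - m) * (A1 - 2 * m * (1 / th i σ.E) * Mf σ u v) + 2 / (n * pp n i) * A3 := by ring
  rw [e0, e1]
  have b2 : |(1 - m) * (A1 - 2 * m * (1 / th i σ.E) * Mf σ u v)| ≤
      1 * (75 / 10 * m * L ^ 2 * Real.sqrt (pp n i)) := by
    apply abs_mul_le' _ (Av_MS1 h hi.le hI hG huv)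
    rw [abs_of_nonneg (by linarith)]; linarith
  have b3 : |2 / (n * pp n i) * A3| ≤ 42 / 10 * m * Real.sqrt (pp n i) := by
    have f1 : |2 / (n * pp n i) * A3| ≤ 2 / (n * pp n i) * (21 / 10 * (m * yb n i)) := by
      apply abs_mul_le' _ (Av_MS3 h hi.le hI hG huv)
      rw [abs_of_nonneg (by positivity)]
    refine le_trans f1 ?_
    have f2 : 2 / (n * pp n i) * (21 / 10 * (m * yb n i)) = 42 / 10 * m * pp n i := by
      have hn := h.n_pos9.ne'
      rw [Reg.yb_eq]
      field_simp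
      norm_num
    rw [f2]
    have f3 : pp n i ≤ Real.sqrt (pp n i) := by nlinarith
    gcongr
  have b1 : |((1 - m) * (m * (2 * (1 - 1 / th i σ.E) - m))) * Mf σ u v| ≤
      m * Real.sqrt (pp n i) := by
    have f1 : |(1 - m) * (m * (2 * (1 - 1 / th i σ.E) - m))| ≤
        1 * (m * (2 * (101 / 100 * L ^ 3 / yb n i) + m)) := by
      apply abs_mul_le'
      · rw [abs_of_nonneg (by linarith)]; linarith
      · apply abs_mul_le' (le_of_eq (abs_of_pos hm))
        refine le_trans (abs_sub _ _) ?_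
        rw [abs_mul, abs_of_pos hm, abs_of_pos (by norm_num : (0:ℝ) < 2), abs_sub_comm]
        have := hG.inv_th_near' h hi.le
        gcongr
    refine le_trans (abs_mul_le' f1 (hG.M u v huv)) ?_
    have f2 : 1 * (m * (2 * (101 / 100 * L ^ 3 / yb n i) + m)) * (L ^ 3 * Real.sqrt (pp n i)) =
        m * Real.sqrt (pp n i) * (202 / 100 * L ^ 6 / yb n i + m * L ^ 3) := by ring
    rw [f2]
    have f3 : 202 / 100 * L ^ 6 / yb n i ≤ 1 / 10 := by
      rw [div_le_div_iff₀ hy (by norm_num)]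
      have g1 := h.L20_le_yb hi.le
      have g2 : L ^ 6 * L ≤ L ^ 20 := by
        calc L ^ 6 * L = L ^ 7 := by ring
          _ ≤ L ^ 20 := hpow (by norm_num)
      have g3 : 0 < L ^ 6 := by positivity
      nlinarith
    have f4 : m * L ^ 3 ≤ 1 / 10 := by
      have g1 := h.mu_small9 hi.le
      have g2 : L ^ 3 * L ≤ L ^ 39 := by
        calc L ^ 3 * L = L ^ 4 := by ring
          _ ≤ L ^ 39 := hpow (by norm_num)
      have g3 : 0 < L ^ 3 := by positivity
      have g4 : m * (L ^ 3 * L) ≤ m * L ^ 39 := by gcongr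
      have g5 : m * L ^ 3 * 10 ≤ m * L ^ 3 * L := by
        apply mul_le_mul_of_nonneg_left _ (by positivity)
        linarith
      have g6 : m * L ^ 3 * L = m * (L ^ 3 * L) := by ring
      rw [le_div_iff₀ (by norm_num)]
      linarith
    have f5 : 0 < m * Real.sqrt (pp n i) := by positivity
    nlinarith
  calc _ ≤ |((1 - m) * (m * (2 * (1 - 1 / th i σ.E) - m))) * Mf σ u v| +
        |(1 - m) * (A1 - 2 * m * (1 / th i σ.E) * Mf σ u v)| + |2 / (n * pp n i) * A3| := by
        refine le_trans (abs_add_le _ _) (add_le_add ?_ le_rfl)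
        exact abs_sub _ _
    _ ≤ m * Real.sqrt (pp n i) + 1 * (75 / 10 * m * L ^ 2 * Real.sqrt (pp n i)) +
        42 / 10 * m * Real.sqrt (pp n i) := by gcongr
    _ = m * Real.sqrt (pp n i) * (52 / 10 + 75 / 10 * L ^ 2) := by ring
    _ ≤ m * Real.sqrt (pp n i) * (8 * L ^ 2) := by
        apply mul_le_mul_of_nonneg_left _ (by positivity)
        nlinarith
    _ = 8 * m * L ^ 2 * Real.sqrt (pp n i) := by ring

set_option maxHeartbeats 1600000 in
/-- **M, quadratic variation** (unnormalized) -/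
theorem M_qv (h : Reg n L i₁) (hi : i < i₁) (hI : Inv i σ) (hG : Good L i σ)
    {u v : Fin n} (huv : u ≠ v) :
    Av (triangles σ.E) (fun T => (Mf (nxt i σ T) u v - (1 - mu n i) ^ 3 * Mf σ u v) ^ 2) ≤
      20 * mu n i * L ^ 2 * pp n i := by
  have hc := hG.card_ne h hi.le
  have hm := h.mu_pos9 hi.le
  have hm1 := h.mu_le hi.le
  norm_num at hm1
  have hy := h.yb_pos9 hi.le
  have hL := h.L0
  have hL1 := h.L1
  have hL6 : (1000000:ℝ) ≤ L := by have := h.L6; norm_num at this; exact this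
  have hnp := h.np_pos hi.le
  have hp := h.pp_pos9 hi.le
  have hsp : 0 < Real.sqrt (pp n i) := Real.sqrt_pos.2 hp
  have hspp := Real.mul_self_sqrt hp.le
  have hsnp := Real.mul_self_sqrt hnp.le
  have hsn := h.sqrt_np_pos hi.le
  have hpow : ∀ {a b : ℕ}, a ≤ b → L ^ a ≤ L ^ b := fun hab => pow_le_pow_right₀ hL1 hab
  set m := mu n i with hmdef
  have hyp : yb n i = n * pp n i * pp n i := Reg.yb_eq n i
  set N := n * pp n i with hN
  have e1 : ∀ T ∈ triangles σ.E, (Mf (nxt i σ T) u v - (1 - m) ^ 3 * Mf σ u v) ^ 2 ≤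
      16 * m ^ 2 * (L ^ 6 * pp n i) + 8 * (L ^ 2 / N) * loss σ.E u v T +
        16 / N ^ 2 * MS2 σ u v T ^ 2 + 32 / N ^ 2 * loss σ.E u v T := by
    intro T hT
    rw [Mf_change i σ T u v]
    have hl2 := loss_le_two hI.sub (u := u) (v := v) hT
    have hl0 := loss_nonneg σ.E u v T
    have g1 : (((1 - m) - (1 - m) ^ 3) * Mf σ u v) ^ 2 ≤ 4 * m ^ 2 * (L ^ 6 * pp n i) := by
      have := hG.D0_le h hi.le huv
      rw [abs_le] at this
      have g := sq_le_sq' this.1 this.2
      refine le_trans g (le_of_eq ?_)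
      calc (2 * mu n i * (L ^ 3 * Real.sqrt (pp n i))) ^ 2 =
          4 * (mu n i) ^ 2 * (L ^ 6 * (Real.sqrt (pp n i) * Real.sqrt (pp n i))) := by ring
        _ = _ := by rw [hspp]
    have g2 : ((1 - m) * MS1 σ u v T) ^ 2 ≤ 2 * (L ^ 2 / N) * loss σ.E u v T := by
      have f1 : |(1 - m) * MS1 σ u v T| ≤ 1 * (L / Real.sqrt N * loss σ.E u v T) := by
        apply abs_mul_le' _ (abs_MS1_le hG u v T)
        rw [abs_of_nonneg (by linarith)]; linarith
      rw [abs_le] at f1
      have g := sq_le_sq' f1.1 f1.2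
      refine le_trans g ?_
      have f2 : (1 * (L / Real.sqrt N * loss σ.E u v T)) ^ 2 =
          L ^ 2 / (Real.sqrt N * Real.sqrt N) * (loss σ.E u v T * loss σ.E u v T) := by
        field_simp
      rw [f2, hsnp]
      calc L ^ 2 / N * (loss σ.E u v T * loss σ.E u v T)
          ≤ L ^ 2 / N * (2 * loss σ.E u v T) := by
            apply mul_le_mul_of_nonneg_left _ (by positivity)
            nlinarith
        _ = _ := by ring
    have g4 : (2 / N * MS3 σ u v T) ^ 2 ≤ 8 / N ^ 2 * loss σ.E u v T := by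
      have f1 := MS3_nonneg σ u v T
      have f2 := MS3_le σ u v T
      have f3 : (2 / N * MS3 σ u v T) ^ 2 = 4 / N ^ 2 * (MS3 σ u v T * MS3 σ u v T) := by
        field_simp
        ring
      rw [f3]
      calc 4 / N ^ 2 * (MS3 σ u v T * MS3 σ u v T) ≤ 4 / N ^ 2 * (2 * loss σ.E u v T) := by
            apply mul_le_mul_of_nonneg_left _ (by positivity)
            nlinarith
        _ = _ := by ring
    have g3 : (2 / N * MS2 σ u v T) ^ 2 = 4 / N ^ 2 * MS2 σ u v T ^ 2 := by
      field_simp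
      ring
    set x1 := ((1 - m) - (1 - m) ^ 3) * Mf σ u v
    set x2 := (1 - m) * MS1 σ u v T
    set x3 := 2 / N * MS2 σ u v T
    set x4 := 2 / N * MS3 σ u v T
    have g5 : (x1 - x2 - x3 + x4) ^ 2 ≤ 4 * (x1 ^ 2 + x2 ^ 2 + x3 ^ 2 + x4 ^ 2) := by
      nlinarith [sq_nonneg (x1 + x2), sq_nonneg (x1 + x3), sq_nonneg (x1 - x4),
        sq_nonneg (x2 - x3), sq_nonneg (x2 + x4), sq_nonneg (x3 + x4)]
    have g6 : 16 / N ^ 2 * MS2 σ u v T ^ 2 = 4 * x3 ^ 2 := by rw [g3]; ring
    rw [g6]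
    have g7 : 32 / N ^ 2 * loss σ.E u v T = 4 * (8 / N ^ 2 * loss σ.E u v T) := by ring
    have g8 : 8 * (L ^ 2 / N) * loss σ.E u v T = 4 * (2 * (L ^ 2 / N) * loss σ.E u v T) := by ring
    have g9 : 16 * m ^ 2 * (L ^ 6 * pp n i) = 4 * (4 * m ^ 2 * (L ^ 6 * pp n i)) := by ring
    rw [g7, g8, g9]
    linarith
  refine le_trans (Av_mono9 e1) ?_
  rw [Av_add9, Av_add9, Av_add9, Av_const9 hc, Av_mul_left, Av_mul_left, Av_mul_left]
  have a1 := hG.Av_loss_le h hi.le hI huv
  have a2 := Av_MS2_sq h hi.le hI hG huv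
  have t1 : 16 * m ^ 2 * (L ^ 6 * pp n i) ≤ 1 * (m * L ^ 2 * pp n i) := by
    have g1 := h.mu_small9 hi.le
    have g2 : L ^ 4 * L ≤ L ^ 39 := by
      calc L ^ 4 * L = L ^ 5 := by ring
        _ ≤ L ^ 39 := hpow (by norm_num)
    have g3 : 0 < L ^ 4 := by positivity
    have g4 : m * (L ^ 4 * L) ≤ m * L ^ 39 := by gcongr
    have g5 : m * L ^ 4 * 16 ≤ m * L ^ 4 * L := by
      apply mul_le_mul_of_nonneg_left _ (by positivity)
      linarith
    have g6 : m * L ^ 4 * L = m * (L ^ 4 * L) := by ring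
    have g7 : 16 * m ^ 2 * (L ^ 6 * pp n i) = (m * L ^ 4 * 16) * (m * L ^ 2 * pp n i) := by ring
    rw [g7]
    apply mul_le_mul_of_nonneg_right _ (by positivity)
    linarith
  have t2 : 8 * (L ^ 2 / N) * Av (triangles σ.E) (fun T => loss σ.E u v T) ≤
      168 / 10 * (m * L ^ 2 * pp n i) := by
    calc _ ≤ 8 * (L ^ 2 / N) * (21 / 10 * (m * yb n i)) := by gcongr
      _ = _ := by
          rw [hyp]
          field_simp
          norm_num
  have hNN : 1 ≤ N := le_trans (le_trans (one_le_pow₀ hL1) (h.L20_le_yb hi.le))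
    (h.yb_le_np9 hi.le)
  have t3 : 16 / N ^ 2 * Av (triangles σ.E) (fun T => MS2 σ u v T ^ 2) ≤
      1 * (m * L ^ 2 * pp n i) := by
    calc _ ≤ 16 / N ^ 2 * (7 * (m * N * yb n i)) := by gcongr
      _ = 112 * (m * pp n i) := by
          rw [hyp]
          field_simp
          norm_num
      _ ≤ L ^ 2 * (m * pp n i) := by
          apply mul_le_mul_of_nonneg_right _ (by positivity)
          nlinarith
      _ = _ := by ring
  have t4 : 32 / N ^ 2 * Av (triangles σ.E) (fun T => loss σ.E u v T) ≤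
      1 * (m * L ^ 2 * pp n i) := by
    calc _ ≤ 32 / N ^ 2 * (21 / 10 * (m * yb n i)) := by gcongr
      _ = 672 / 10 * (m * pp n i) / N := by
          rw [hyp]
          field_simp
          norm_num
      _ ≤ 672 / 10 * (m * pp n i) / 1 := by
          apply div_le_div_of_nonneg_left (by positivity) one_pos hNN
      _ = 672 / 10 * (m * pp n i) := by ring
      _ ≤ L ^ 2 * (m * pp n i) := by
          apply mul_le_mul_of_nonneg_right _ (by positivity)
          nlinarith
      _ = _ := by ring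
  have t5 : 0 < m * L ^ 2 * pp n i := by positivity
  have t6 : 20 * m * L ^ 2 * pp n i = 20 * (m * L ^ 2 * pp n i) := by ring
  rw [t6]
  linarith

/-- **M, jump** (unnormalized) -/
theorem M_jump (h : Reg n L i₁) (hi : i < i₁) (hI : Inv i σ) (hG : Good L i σ)
    {u v : Fin n} (huv : u ≠ v) {T : Finset (Fin n)} (hT : T ∈ triangles σ.E) :
    |Mf (nxt i σ T) u v - (1 - mu n i) ^ 3 * Mf σ u v| ≤
      3 * L / Real.sqrt (n * pp n i) := by
  have hm := h.mu_pos9 hi.le
  have hm1 := h.mu_le hi.le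
  norm_num at hm1
  have hy := h.yb_pos9 hi.le
  have hL := h.L0
  have hL1 := h.L1
  have hL6 : (1000000:ℝ) ≤ L := by have := h.L6; norm_num at this; exact this
  have hnp := h.np_pos hi.le
  have hp := h.pp_pos9 hi.le
  have hsp : 0 < Real.sqrt (pp n i) := Real.sqrt_pos.2 hp
  have hspp := Real.mul_self_sqrt hp.le
  have hsnp := Real.mul_self_sqrt hnp.le
  have hsn := h.sqrt_np_pos hi.le
  have hsy := h.sqrt_yb_eq9 hi.le
  have hss := Real.mul_self_sqrt hy.le
  have hpow : ∀ {a b : ℕ}, a ≤ b → L ^ a ≤ L ^ b := fun hab => pow_le_pow_right₀ hL1 hab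
  have hmy := h.mu_yb_small hi.le
  have hNN : 1 ≤ n * pp n i := le_trans (le_trans (one_le_pow₀ hL1) (h.L20_le_yb hi.le))
    (h.yb_le_np9 hi.le)
  have hyy : 1 ≤ yb n i := le_trans (one_le_pow₀ hL1) (h.L20_le_yb hi.le)
  set m := mu n i with hmdef
  set N := n * pp n i with hN
  set w := Real.sqrt N with hw
  have hw1 : 1 ≤ w := by
    rw [hw]; exact Real.one_le_sqrt.2 hNN
  have hl2 := loss_le_two hI.sub (u := u) (v := v) hT
  have hl0 := loss_nonneg σ.E u v T
  rw [Mf_change i σ T u v]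
  have b1 : |((1 - m) - (1 - m) ^ 3) * Mf σ u v| ≤ 1 / 10 * (L / w) := by
    refine le_trans (hG.D0_le h hi.le huv) ?_
    rw [← mul_div_assoc, le_div_iff₀ hsn]
    have g1 : 2 * mu n i * (L ^ 3 * Real.sqrt (pp n i)) * w =
        2 * m * L ^ 3 * Real.sqrt (yb n i) := by rw [hsy]; ring
    rw [g1]
    have g2 : Real.sqrt (yb n i) ≤ yb n i := by
      have : 1 ≤ Real.sqrt (yb n i) := Real.one_le_sqrt.2 hyy
      nlinarith
    have g3 : 20 * L ^ 2 ≤ L ^ 19 := by
      calc 20 * L ^ 2 ≤ L * L ^ 2 := by gcongr; linarith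
        _ = L ^ 3 := by ring
        _ ≤ L ^ 19 := hpow (by norm_num)
    have g4 : m * yb n i * (20 * L ^ 2) ≤ 1 := le_trans (by gcongr) hmy
    calc 2 * m * L ^ 3 * Real.sqrt (yb n i) ≤ 2 * m * L ^ 3 * yb n i := by gcongr
      _ = (1 / 10 * L) * (m * yb n i * (20 * L ^ 2)) := by ring
      _ ≤ (1 / 10 * L) * 1 := by gcongr
      _ = 1 / 10 * L := by ring
  have b2 : |(1 - m) * MS1 σ u v T| ≤ 2 * (L / w) := by
    have f1 : |(1 - m) * MS1 σ u v T| ≤ 1 * (L / Real.sqrt N * loss σ.E u v T) := by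
      apply abs_mul_le' _ (abs_MS1_le hG u v T)
      rw [abs_of_nonneg (by linarith)]; linarith
    refine le_trans f1 ?_
    have f2 : 0 < L / w := by positivity
    change 1 * (L / w * loss σ.E u v T) ≤ 2 * (L / w)
    nlinarith
  have hNw : 1 / N ≤ 1 / w := by
    apply one_div_le_one_div_of_le hsn
    rw [← hsnp]; nlinarith
  have b3 : |2 / N * MS2 σ u v T| ≤ 1 / 10 * (L / w) := by
    have f1 : |2 / N * MS2 σ u v T| ≤ 2 / N * 3 := by
      apply abs_mul_le' _ (abs_MS2_le h hi.le hG u v hT)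
      rw [abs_of_nonneg (by positivity)]
    refine le_trans f1 ?_
    calc 2 / N * 3 = 6 * (1 / N) := by ring
      _ ≤ 6 * (1 / w) := by gcongr
      _ ≤ (1 / 10 * L) * (1 / w) := by
          apply mul_le_mul_of_nonneg_right _ (by positivity)
          linarith
      _ = _ := by ring
  have b4 : |2 / N * MS3 σ u v T| ≤ 1 / 10 * (L / w) := by
    have f1 : |2 / N * MS3 σ u v T| ≤ 2 / N * 2 := by
      apply abs_mul_le'
      · rw [abs_of_nonneg (by positivity)]
      · rw [abs_of_nonneg (MS3_nonneg σ u v T)]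
        exact le_trans (MS3_le σ u v T) hl2
    refine le_trans f1 ?_
    calc 2 / N * 2 = 4 * (1 / N) := by ring
      _ ≤ 4 * (1 / w) := by gcongr
      _ ≤ (1 / 10 * L) * (1 / w) := by
          apply mul_le_mul_of_nonneg_right _ (by positivity)
          linarith
      _ = _ := by ring
  have f2 : 0 < L / w := by positivity
  calc _ ≤ |((1 - m) - (1 - m) ^ 3) * Mf σ u v| + |(1 - m) * MS1 σ u v T| +
        |2 / N * MS2 σ u v T| + |2 / N * MS3 σ u v T| := by
        refine le_trans (abs_add_le _ _) (add_le_add ?_ le_rfl)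
        refine le_trans (abs_sub _ _) (add_le_add ?_ le_rfl)
        exact abs_sub _ _
    _ ≤ 3 * (L / w) := by linarith
    _ = 3 * L / w := by ring

theorem step_M (h : Reg n L i₁) (hi : i < i₁) (hI : Inv i σ) (hG : Good L i σ) (u v : Fin n)
    (huv : u ≠ v) :
    OneStep i σ (fun i σ => Mf σ u v / pp n i ^ 3)
      (20 * mu n i * L ^ 2 * Real.sqrt (pp n i) / pp n i ^ 3)
      (100 * mu n i * L ^ 2 / pp n i ^ 5)
      (4 * L / (Real.sqrt (n * pp n i) * pp n i ^ 3)) where
  drift := by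
    have hc := hG.card_ne h hi.le
    have hp := h.pp_pos9 hi.le
    have hm := h.mu_pos9 hi.le
    have hL := h.L0
    have h3 := h.one_sub_mu_cube hi.le
    have hsp : 0 < Real.sqrt (pp n i) := Real.sqrt_pos.2 hp
    have e1 : Av (triangles σ.E) (fun T => Mf (nxt i σ T) u v / pp n (i + 1) ^ 3) -
        Mf σ u v / pp n i ^ 3 =
        Av (triangles σ.E) (fun T => Mf (nxt i σ T) u v - (1 - mu n i) ^ 3 * Mf σ u v) /
          (pp n i ^ 3 * (1 - mu n i) ^ 3) := by
      have e2 : Av (triangles σ.E) (fun T => Mf (nxt i σ T) u v / pp n (i + 1) ^ 3 -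
          Mf σ u v / pp n i ^ 3) =
          Av (triangles σ.E) (fun T => Mf (nxt i σ T) u v - (1 - mu n i) ^ 3 * Mf σ u v) *
            (1 / (pp n i ^ 3 * (1 - mu n i) ^ 3)) := by
        rw [← Av_mul_right]
        exact Av_congr9 fun T _ => by rw [MZ_change h hi, div_eq_mul_one_div]
      rw [Av_sub9, Av_const9 hc] at e2
      rw [e2, ← div_eq_mul_one_div]
    change |Av (triangles σ.E) (fun T => Mf (nxt i σ T) u v / pp n (i + 1) ^ 3) -
      Mf σ u v / pp n i ^ 3| ≤ _
    rw [e1, abs_div, abs_of_pos (show 0 < pp n i ^ 3 * (1 - mu n i) ^ 3 by positivity)]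
    have h4 := M_mean h hi hI hG huv
    rw [div_le_div_iff₀ (by positivity) (by positivity)]
    calc _ ≤ 8 * mu n i * L ^ 2 * Real.sqrt (pp n i) * pp n i ^ 3 := by gcongr
      _ ≤ 20 * (99 / 100) * mu n i * L ^ 2 * Real.sqrt (pp n i) * pp n i ^ 3 := by
          gcongr; norm_num
      _ = 20 * mu n i * L ^ 2 * Real.sqrt (pp n i) * (pp n i ^ 3 * (99 / 100)) := by ring
      _ ≤ 20 * mu n i * L ^ 2 * Real.sqrt (pp n i) * (pp n i ^ 3 * (1 - mu n i) ^ 3) := by gcongr
  qv := by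
    have hp := h.pp_pos9 hi.le
    have hm := h.mu_pos9 hi.le
    have hL := h.L0
    have h3 := h.one_sub_mu_cube hi.le
    have e1 : ∀ T ∈ triangles σ.E, (Mf (nxt i σ T) u v / pp n (i + 1) ^ 3 -
        Mf σ u v / pp n i ^ 3) ^ 2 =
        (Mf (nxt i σ T) u v - (1 - mu n i) ^ 3 * Mf σ u v) ^ 2 *
          (1 / (pp n i ^ 3 * (1 - mu n i) ^ 3) ^ 2) := by
      intro T _
      rw [MZ_change h hi, div_pow, div_eq_mul_one_div]
    change Av (triangles σ.E) (fun T => (Mf (nxt i σ T) u v / pp n (i + 1) ^ 3 -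
      Mf σ u v / pp n i ^ 3) ^ 2) ≤ _
    rw [Av_congr9 e1, Av_mul_right, ← div_eq_mul_one_div]
    have h4 := M_qv h hi hI hG huv
    rw [div_le_div_iff₀ (by positivity) (by positivity)]
    have h5 : 98 / 100 ≤ ((1 - mu n i) ^ 3) ^ 2 := by nlinarith
    calc _ ≤ 20 * mu n i * L ^ 2 * pp n i * pp n i ^ 5 := by gcongr
      _ ≤ 100 * (98 / 100) * mu n i * L ^ 2 * pp n i * pp n i ^ 5 := by gcongr; norm_num
      _ = 100 * mu n i * L ^ 2 * ((pp n i ^ 3) ^ 2 * (98 / 100)) := by ring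
      _ ≤ 100 * mu n i * L ^ 2 * ((pp n i ^ 3) ^ 2 * ((1 - mu n i) ^ 3) ^ 2) := by gcongr
      _ = _ := by ring
  jump := by
    intro T hT
    have hp := h.pp_pos9 hi.le
    have hm := h.mu_pos9 hi.le
    have hL := h.L0
    have h3 := h.one_sub_mu_cube hi.le
    have hsn := h.sqrt_np_pos hi.le
    change |Mf (nxt i σ T) u v / pp n (i + 1) ^ 3 - Mf σ u v / pp n i ^ 3| ≤ _
    rw [MZ_change h hi, abs_div,
      abs_of_pos (show 0 < pp n i ^ 3 * (1 - mu n i) ^ 3 by positivity)]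
    have h4 := M_jump h hi hI hG huv hT
    rw [le_div_iff₀ hsn] at h4
    rw [div_le_div_iff₀ (by positivity) (by positivity)]
    calc _ = (|Mf (nxt i σ T) u v - (1 - mu n i) ^ 3 * Mf σ u v| * Real.sqrt (n * pp n i)) *
          pp n i ^ 3 := by ring
      _ ≤ 3 * L * pp n i ^ 3 := by gcongr
      _ ≤ 4 * (99 / 100) * L * pp n i ^ 3 := by gcongr; norm_num
      _ = 4 * L * (pp n i ^ 3 * (99 / 100)) := by ring
      _ ≤ 4 * L * (pp n i ^ 3 * (1 - mu n i) ^ 3) := by gcongr

end fam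

end Crest.Agent.TRem
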