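import Crest.Agent.TRem.ARho

/-!
# Row 30 (S0040), part A: the family `ρ`, final form
-/

namespace Crest.Agent.TRem

open Finset Crest.CombinatoricsR.TriangleRemoval

variable {n : ℕ} {L : ℝ} {i₁ i : ℕ} {σ : St n}

theorem step_rho (h : Reg n L i₁) (hi : i < i₁) (hI : Inv i σ) (hG : Good L i σ) (u v : Fin n)
    (huv : u ≠ v) :
    OneStep i σ (fun i σ => rho i σ u v)
      (mu n i * (8 * L ^ 5 / yb n i + 10 * L ^ 2 / (Real.sqrt (n * pp n i) * Real.sqrt (yb n i))))
      (100 * mu n i / yb n i) (10 / yb n i) where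
  drift := by
    refine le_trans (rho_mean h hi hI hG huv) ?_
    have h0 := h.L0
    have h1 := h.yb_pos9 hi.le
    have h2 := h.mu_pos9 hi.le
    have h3 : 0 ≤ mu n i * (7 * L ^ 5 / yb n i +
        10 * L ^ 2 / (Real.sqrt (n * pp n i) * Real.sqrt (yb n i))) := by positivity
    have h4 : mu n i * (8 * L ^ 5 / yb n i +
        10 * L ^ 2 / (Real.sqrt (n * pp n i) * Real.sqrt (yb n i))) =
        L ^ 5 * mu n i / yb n i + mu n i * (7 * L ^ 5 / yb n i +
        10 * L ^ 2 / (Real.sqrt (n * pp n i) * Real.sqrt (yb n i))) := by ring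
    rw [h4]
    linarith
  qv := rho_qv h hi hI hG huv
  jump := fun T hT => rho_jump h hi hI hG huv hT

/-- pure real-number estimate behind the fine drift of `ρ` -/
theorem rho_real_fine {y m x K S t A R κ s τ : ℝ} (hy : 1 ≤ y) (hm : 0 < m)
    (hmy : m * y ≤ 1 / 10 ^ 6) (hx : |x - 1| ≤ R)
    (hK : |K| ≤ κ) (hS : |S| ≤ s)
    (ht : |t - 1| ≤ τ) (hR : R ≤ 1 / 100) (hκ : κ ≤ 1 / 100) (hs : s ≤ 1 / 100)
    (hτ : τ ≤ 1 / 100) (hA0 : 0 ≤ A) (hA1 : A ≤ 1) :
    |1 / (1 - m) ^ 2 * (x - m * t * (2 * x + K + S * x) + m * t / y * A * x) - x + m * S| ≤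
      m * (1 + τ) * κ + 21 / 10 * m * τ + m * s * (τ + (1 + τ) * R) + 2 * (m / y) := by
  have hy0 : 0 < y := by linarith
  have hm1 : m ≤ 1 / 10 ^ 6 := le_trans (by nlinarith) hmy
  norm_num at hm1 hmy
  have hmm : m * m ≤ 1 / 10 ^ 6 * (m / y) := by
    rw [← mul_div_assoc, le_div_iff₀ hy0]; norm_num; nlinarith
  set e := m / y with he
  have he0 : 0 < e := by positivity
  have hτ0 : 0 ≤ τ := le_trans (abs_nonneg _) ht
  have hR0 : 0 ≤ R := le_trans (abs_nonneg _) hx
  have hκ0 : 0 ≤ κ := le_trans (abs_nonneg _) hK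
  have hs0 : 0 ≤ s := le_trans (abs_nonneg _) hS
  have hx2 : |x| ≤ 101 / 100 := by
    rw [abs_le] at hx ⊢; constructor <;> linarith [hx.1, hx.2]
  have ht2 : |t| ≤ 1 + τ := by
    rw [abs_le] at ht ⊢; constructor <;> linarith [ht.1, ht.2]
  have ht3 : |t| ≤ 101 / 100 := by linarith
  have hA : |A| ≤ 1 := by rw [abs_of_nonneg hA0]; exact hA1
  have h1m : 0 < 1 - m := by linarith
  set q := 1 / (1 - m) ^ 2 with hq
  have hq1 : |q - 1 - 2 * m| ≤ 4 * (m * m) := by
    have : q - 1 - 2 * m = (3 - 2 * m) * (m * m) / (1 - m) ^ 2 := by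
      rw [hq]; field_simp; ring
    rw [this, abs_of_nonneg (by
      apply div_nonneg _ (by positivity)
      apply mul_nonneg (by linarith) (by positivity)), div_le_iff₀ (by positivity)]
    have h2 : (0:ℝ) < m * m := by positivity
    nlinarith
  have hq2 : |q - 1| ≤ 3 * m := by
    have h3 : |q - 1| ≤ |q - 1 - 2 * m| + |2 * m| := by
      have : q - 1 = (q - 1 - 2 * m) + 2 * m := by ring
      calc |q - 1| = |(q - 1 - 2 * m) + 2 * m| := by rw [← this]
        _ ≤ _ := abs_add_le _ _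
    rw [abs_of_pos (show 0 < 2 * m by linarith)] at h3
    nlinarith
  have hq3 : |q| ≤ 101 / 100 := by
    rw [abs_le] at hq2 ⊢; constructor <;> linarith [hq2.1, hq2.2]
  have hdec : q * (x - m * t * (2 * x + K + S * x) + m * t / y * A * x) - x + m * S =
      (q - 1 - 2 * m) * x + 2 * m * x * (1 - t) + (- (m * t * K)) + m * S * (1 - t * x)
        + (1 - q) * (m * t * (2 * x + K + S * x)) + q * (e * t * A * x) := by
    rw [he]; ring
  rw [hdec]
  have T1 : |(q - 1 - 2 * m) * x| ≤ 1 / 10 * e := by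
    refine le_trans (abs_mul_le' hq1 hx2) ?_
    norm_num at hmm ⊢
    linarith
  have T2 : |2 * m * x * (1 - t)| ≤ 21 / 10 * m * τ := by
    have h1 : |2 * m * x| ≤ 21 / 10 * m := by
      rw [abs_mul, abs_of_pos (show 0 < 2 * m by linarith)]
      nlinarith
    have h2 : |1 - t| ≤ τ := by rw [abs_sub_comm]; exact ht
    exact abs_mul_le' h1 h2
  have T3 : |(- (m * t * K))| ≤ m * (1 + τ) * κ := by
    rw [abs_neg]
    have h1 : |m * t| ≤ m * (1 + τ) := by
      rw [abs_mul, abs_of_pos hm]; exact mul_le_mul_of_nonneg_left ht2 hm.le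
    exact abs_mul_le' h1 hK
  have T4 : |m * S * (1 - t * x)| ≤ m * s * (τ + (1 + τ) * R) := by
    have h1 : |1 - t * x| ≤ τ + (1 + τ) * R := by
      have : 1 - t * x = -((t - 1) + t * (x - 1)) := by ring
      rw [this, abs_neg]
      exact le_trans (abs_add_le _ _) (add_le_add ht (abs_mul_le' ht2 hx))
    have h2 : |m * S| ≤ m * s := by
      rw [abs_mul, abs_of_pos hm]; exact mul_le_mul_of_nonneg_left hS hm.le
    exact abs_mul_le' h2 h1
  have T5 : |(1 - q) * (m * t * (2 * x + K + S * x))| ≤ 1 / 10 * e := by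
    have h1 : |2 * x + K + S * x| ≤ 2 * (101 / 100) + 1 / 100 + 1 / 100 * (101 / 100) := by
      refine le_trans (abs_add_three _ _ _) ?_
      gcongr
      · rw [abs_mul, abs_of_pos (by norm_num : (0:ℝ) < 2)]; gcongr
      · linarith
      · exact abs_mul_le' (by linarith) hx2
    have h2 : |m * t| ≤ m * (101 / 100) := by
      rw [abs_mul, abs_of_pos hm]; exact mul_le_mul_of_nonneg_left ht3 hm.le
    have h3 : |1 - q| ≤ 3 * m := by rw [abs_sub_comm]; exact hq2
    refine le_trans (abs_mul_le' h3 (abs_mul_le' h2 h1)) ?_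
    norm_num at hmm ⊢
    nlinarith
  have T6 : |q * (e * t * A * x)| ≤ 11 / 10 * e := by
    have h1 : |e * t| ≤ e * (101 / 100) := by
      rw [abs_mul, abs_of_pos he0]; exact mul_le_mul_of_nonneg_left ht3 he0.le
    refine le_trans (abs_mul_le' hq3 (abs_mul_le' (abs_mul_le' h1 hA) hx2)) ?_
    norm_num
    linarith
  calc _ ≤ |(q - 1 - 2 * m) * x| + |2 * m * x * (1 - t)| + |(- (m * t * K))| +
        |m * S * (1 - t * x)| + |(1 - q) * (m * t * (2 * x + K + S * x))| +
        |q * (e * t * A * x)| := by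
        refine le_trans (abs_add_le _ _) (add_le_add ?_ le_rfl)
        refine le_trans (abs_add_le _ _) (add_le_add ?_ le_rfl)
        refine le_trans (abs_add_le _ _) (add_le_add ?_ le_rfl)
        refine le_trans (abs_add_le _ _) (add_le_add ?_ le_rfl)
        exact abs_add_le _ _
    _ ≤ _ := by linarith

theorem Good.inv_th_near' (h : Reg n L i₁) (hi : i ≤ i₁) (hG : Good L i σ) :
    |1 / TRem.th i σ.E - 1| ≤ 101 / 100 * L ^ 3 / yb n i := by
  have h1 := hG.th
  have h2 := hG.th_pos h hi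
  have h3 := (abs_le.1 (hG.th_near h hi)).1
  have h4 : (100/101 : ℝ) ≤ TRem.th i σ.E := by norm_num at h3; linarith
  have h5 : 1 / TRem.th i σ.E - 1 = -(TRem.th i σ.E - 1) / TRem.th i σ.E := by
    field_simp; ring
  rw [h5, abs_div, abs_neg, abs_of_pos h2, div_le_iff₀ h2]
  refine le_trans h1 ?_
  have h6 := h.yb_pos9 hi
  have h7 := h.L0
  have h8 : L ^ 3 / yb n i = 101 / 100 * L ^ 3 / yb n i * (100 / 101) := by ring
  rw [h8]
  gcongr

set_option maxHeartbeats 1000000 in
/-- the fine form of the drift of `ρ` (used in the drift of `k`). -/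
theorem drift_rho_fine (h : Reg n L i₁) (hi : i < i₁) (hI : Inv i σ) (hG : Good L i σ)
    {u v : Fin n} (huv : u ≠ v) :
    |Av (triangles σ.E) (fun T => rho (i + 1) (nxt i σ T) u v) - rho i σ u v| ≤
      mu n i / yb n i * (2 * L ^ 4 * (1 + ss n i) * (1 + 2 * (L / Real.sqrt (yb n i)))
        + 5 * L ^ 3) +
      7 * mu n i * L ^ 2 / (Real.sqrt (n * pp n i) * Real.sqrt (yb n i)) := by
  rw [Av_rho h hi hI hG huv]
  have hy := h.yb_pos9 hi.le
  have hL := h.L0
  have hL1 := h.L1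
  have hm := h.mu_pos9 hi.le
  have hpow : ∀ {a b : ℕ}, a ≤ b → L ^ a ≤ L ^ b := fun hab => pow_le_pow_right₀ hL1 hab
  have hL6 : (1000000:ℝ) ≤ L := by have := h.L6; norm_num at this; exact this
  have h20 := h.L20_le_yb hi.le
  have h10 := h.L10_le_sqrt hi.le
  have hsy := h.sqrt_yb_pos hi.le
  have hsn := h.sqrt_np_pos hi.le
  have hss := Real.mul_self_sqrt hy.le
  have hs0 := h.ss_nonneg9 hi.le
  have hp1 : Real.sqrt (pp n i) ≤ 1 :=
    Real.sqrt_le_iff.2 ⟨zero_le_one, by simpa using h.pp_le_one9 i⟩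
  have hy1 : 1 ≤ yb n i := le_trans (one_le_pow₀ hL1) h20
  -- smallness of the four parameters
  have b1 : 3 * L / Real.sqrt (yb n i) ≤ 1 / 100 := by
    have := h.R_small hi.le
    norm_num at this ⊢
    linarith
  have b2 : (2 * (L ^ 4 * (1 + ss n i)) + 2 * L ^ 3) / yb n i ≤ 1 / 100 := by
    rw [div_le_div_iff₀ hy (by norm_num)]
    have e1 := h.ss_le9 hi.le
    have e2 : L ^ 4 * (1 + ss n i) ≤ L ^ 4 * L := by
      apply mul_le_mul_of_nonneg_left _ (by positivity)
      norm_num at e1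
      linarith
    have e3 : L ^ 3 ≤ L ^ 5 := hpow (by norm_num)
    have e4 : L ^ 5 * L ≤ L ^ 20 := by
      calc L ^ 5 * L = L ^ 6 := by ring
        _ ≤ L ^ 20 := hpow (by norm_num)
    have e5 : 0 < L ^ 5 := by positivity
    nlinarith
  have b3 : 2 * L / Real.sqrt (n * pp n i) ≤ 1 / 100 := by
    refine le_trans (div_le_div_of_nonneg_left (by positivity) hsy (h.sqrt_yb_le9 hi.le)) ?_
    refine le_trans ?_ b1
    gcongr
    norm_num
  have b4 : 101 / 100 * L ^ 3 / yb n i ≤ 1 / 100 := by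
    rw [div_le_div_iff₀ hy (by norm_num)]
    have e4 : L ^ 3 * L ≤ L ^ 20 := by
      calc L ^ 3 * L = L ^ 4 := by ring
        _ ≤ L ^ 20 := hpow (by norm_num)
    have e5 : 0 < L ^ 3 := by positivity
    nlinarith
  have hmy : mu n i * yb n i ≤ 1 / 10 ^ 6 := by
    have h1 := h.mu_yb_small hi.le
    have h2 : mu n i * yb n i * 10 ^ 6 ≤ mu n i * yb n i * L ^ 19 := by
      apply mul_le_mul_of_nonneg_left _ (by positivity)
      have : L ^ 1 ≤ L ^ 19 := hpow (by norm_num)
      rw [pow_one] at this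
      norm_num
      linarith
    rw [le_div_iff₀ (by norm_num)]; linarith
  have key := rho_real_fine (A := adj σ.E u v) (x := 1 + rr i σ.E u v)
    (K := (kf i σ u v + kf i σ v u + 2 * Mf σ u v) / yb n i) (S := σ.a u + σ.a v)
    (t := 1 / th i σ.E) (R := 3 * L / Real.sqrt (yb n i))
    (κ := (2 * (L ^ 4 * (1 + ss n i)) + 2 * L ^ 3) / yb n i)
    (s := 2 * L / Real.sqrt (n * pp n i)) (τ := 101 / 100 * L ^ 3 / yb n i) hy1 hm hmy
    (by rw [add_sub_cancel_left]; exact hG.rr_le h hi.le huv)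
    (by
      rw [abs_div, abs_of_pos hy]
      apply div_le_div_of_nonneg_right _ hy.le
      have h1 := hG.k u v huv
      have h2 := hG.k v u huv.symm
      have h3 := hG.M u v huv
      have h6 : L ^ 3 * Real.sqrt (pp n i) ≤ L ^ 3 := by
        have h7 : 0 < L ^ 3 := by positivity
        nlinarith
      calc |kf i σ u v + kf i σ v u + 2 * Mf σ u v|
          ≤ |kf i σ u v| + |kf i σ v u| + |2 * Mf σ u v| := abs_add_three _ _ _
        _ ≤ 2 * (L ^ 4 * (1 + ss n i)) + 2 * L ^ 3 := by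
            rw [abs_mul, abs_of_pos (by norm_num : (0:ℝ) < 2)]
            linarith)
    (by
      refine le_trans (abs_add_le _ _) ?_
      have h1 := hG.a u
      have h2 := hG.a v
      have h3 : 2 * L / Real.sqrt (n * pp n i) =
          L / Real.sqrt (n * pp n i) + L / Real.sqrt (n * pp n i) := by
        ring
      rw [h3]; exact add_le_add h1 h2)
    (hG.inv_th_near' h hi.le) b1 b2 b3 b4 (adj_nonneg9 _ _ _) (adj_le_one9 _ _ _)
  have e0 : ∀ X a b : ℝ, X - 1 - (1 - mu n i) * (a + b) - (rr i σ.E u v - a - b) =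
      X - (1 + rr i σ.E u v) + mu n i * (a + b) := by intro X a b; ring
  rw [show rho i σ u v = rr i σ.E u v - σ.a u - σ.a v from rfl, e0]
  refine le_trans key ?_
  -- final numerics
  set y := yb n i
  set m := mu n i
  set w := Real.sqrt y with hw
  set z := Real.sqrt (n * pp n i) with hz
  have hτ0 : 0 ≤ 101 / 100 * L ^ 3 / y := by positivity
  have hτx : 101 / 100 * L ^ 3 / y ≤ 1 / 100 * (L / w) := by
    rw [show 101 / 100 * L ^ 3 / y = (101 / 100 * L ^ 3) / (w * w) by rw [hss],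
      show 1 / 100 * (L / w) = (1 / 100 * L) / w by ring, div_le_div_iff₀ (by positivity) hsy]
    have e1 : 1000000 * L ^ 2 ≤ w := by
      calc 1000000 * L ^ 2 ≤ L * L ^ 2 := by gcongr
        _ = L ^ 3 := by ring
        _ ≤ w := le_trans (hpow (by norm_num)) h10
    have e2 : 101 / 100 * L ^ 3 * w = L * ((101 / 100 * L ^ 2) * w) := by ring
    have e3 : 1 / 100 * L * (w * w) = L * ((1 / 100 * w) * w) := by ring
    rw [e2, e3]
    have e4 : 101 / 100 * L ^ 2 ≤ 1 / 100 * w := by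
      have : 0 < L ^ 2 := by positivity
      linarith
    gcongr
  have hτs : 101 / 100 * L ^ 3 / y ≤ 1 / 1000 := by
    rw [div_le_div_iff₀ hy (by norm_num)]
    have e4 : L ^ 3 * L ≤ L ^ 20 := by
      calc L ^ 3 * L = L ^ 4 := by ring
        _ ≤ L ^ 20 := hpow (by norm_num)
    have e5 : 0 < L ^ 3 := by positivity
    nlinarith
  set τ := 101 / 100 * L ^ 3 / y with hτ
  have hLw : 0 < L / w := by positivity
  have f1 : m * (1 + τ) * ((2 * (L ^ 4 * (1 + ss n i)) + 2 * L ^ 3) / y) ≤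
      m / y * (2 * L ^ 4 * (1 + ss n i) * (1 + 2 * (L / w)) + 201 / 100 * L ^ 3) := by
    have e1 : m * (1 + τ) * ((2 * (L ^ 4 * (1 + ss n i)) + 2 * L ^ 3) / y) =
        m / y * (2 * L ^ 4 * (1 + ss n i) * (1 + τ) +
          2 * L ^ 3 * (1 + τ)) := by ring
    rw [e1]
    have e2 : 1 + τ ≤ 1 + 2 * (L / w) := by linarith
    have e3 : 2 * L ^ 3 * (1 + τ) ≤ 201 / 100 * L ^ 3 := by
      have e5 : 0 < L ^ 3 := by positivity
      nlinarith
    gcongr
  have f2 : 21 / 10 * m * τ = m / y * (2121 / 1000 * L ^ 3) := by rw [hτ]; ring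
  have f3 : m * (2 * L / z) * (τ + (1 + τ) * (3 * L / w)) ≤
      7 * m * L ^ 2 / (z * w) := by
    have e1 : τ + (1 + τ) * (3 * L / w) ≤ 35 / 10 * (L / w) := by
      rw [show 3 * L / w = 3 * (L / w) by ring]
      nlinarith
    calc m * (2 * L / z) * (τ + (1 + τ) * (3 * L / w)) ≤ m * (2 * L / z) * (35 / 10 * (L / w)) := by
          gcongr
      _ = 7 * m * L ^ 2 / (z * w) := by
          field_simp
          ring
  have f4 : m / y * 2 ≤ m / y * (8 / 10 * L ^ 3) := by
    have e5 : (1:ℝ) ≤ L ^ 3 / 1000 := by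
      have : L ^ 1 ≤ L ^ 3 := hpow (by norm_num)
      rw [pow_one] at this
      linarith
    apply mul_le_mul_of_nonneg_left _ (by positivity)
    linarith
  rw [f2]
  have f5 : 0 < m / y := by positivity
  have f6 : 0 < L ^ 3 := by positivity
  have f7 : m / y * (2 * L ^ 4 * (1 + ss n i) * (1 + 2 * (L / w)) + 5 * L ^ 3) =
      m / y * (2 * L ^ 4 * (1 + ss n i) * (1 + 2 * (L / w)) + 201 / 100 * L ^ 3) +
      m / y * (2121 / 1000 * L ^ 3) + m / y * (8 / 10 * L ^ 3) +
      m / y * (69 / 1000 * L ^ 3) := by ring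
  rw [f7]
  have f8 : 0 < m / y * (69 / 1000 * L ^ 3) := by positivity
  linarith

end Crest.Agent.TRem
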