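import Crest.Agent.TRem.A4d
import Crest.Agent.TRem.A4th
import Crest.Agent.TRem.ARhoF
import Crest.Agent.TRem.AMF
import Crest.Agent.TRem.AKF
import Crest.Agent.TRem.AC2
import Crest.Agent.TRem.A5r
import Crest.Agent.TRem.A6d
import Crest.Agent.TRem.A6r
import Crest.Agent.TRem.A6k
import Crest.Agent.TRem.A7
import Crest.Agent.TRem.A8
import Crest.Agent.TRem.A9

/-!
# Row 30, A10: assembly of part A
-/

namespace Crest.Agent.TRem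

open Finset Crest.CombinatoricsR.TriangleRemoval

variable {n : ℕ} {L : ℝ} {i₁ : ℕ}

/-- a potential for one family. -/
structure PotFam (n : ℕ) (L : ℝ) (i₁ : ℕ) (F : ℕ → St n → ℝ) (bad : ℕ → St n → Prop) : Prop where
  nonneg : ∀ i σ, 0 ≤ F i σ
  step : ∀ i σ, i < i₁ → Inv i σ → Good L i σ →
    Av (triangles σ.E) (fun T => F (i + 1) (nxt i σ T)) ≤ F i σ
  bad : ∀ i σ, i ≤ i₁ → bad i σ → 1 ≤ F i σ
  init : F 0 (st0 n) ≤ (n : ℝ) ^ 3 * (2 * (i₁ + 1)) / (n : ℝ) ^ 20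

theorem PotFam.mk' (h : Reg n L i₁) {O : Type} [Fintype O] (hO : (Fintype.card O : ℝ) ≤ (n:ℝ) ^ 3)
    (Z : O → ℕ → St n → ℝ) {b v B tol κ δ : ℕ → ℝ} {z₀ : ℝ} (hnum : Num n i₁ b v B tol κ δ z₀)
    (hz : ∀ o, |Z o 0 (st0 n)| ≤ z₀)
    (h1 : ∀ i σ o, i < i₁ → Inv i σ → Good L i σ → OneStep i σ (Z o) (b i) (v i) (B i)) :
    ∃ F, PotFam n L i₁ F (fun i σ => ∃ o, tol i ≤ |Z o i σ|) := by
  classical
  refine ⟨Pot Z b v tol κ i₁, fun i σ => Pot_nonneg _ _ _ _ _ _ _ _, ?_, ?_, ?_⟩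
  · intro i σ hi hI hG
    exact Pot_step Z b v tol κ B i₁ i hi σ (gd_nonempty h hi.le hG)
      (fun j _ hj => hnum.κ0 j hj) (fun j hij hj => hnum.κB i j hij hj)
      (fun o => h1 i σ o hi hI hG)
  · intro i σ hi hb
    exact Pot_bad Z b v tol κ i₁ i hi σ (hnum.κ0 i hi) hb
  · have hn : 1 ≤ n := by
      have := h.n_pos
      exact_mod_cast this
    refine (Pot_init Z b v tol κ δ i₁ (st0 n) z₀ hn hz hnum.κ0 hnum.hb hnum.hv hnum.hδ).trans ?_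
    gcongr

theorem fam_d (h : Reg n L i₁) : ∃ F, PotFam n L i₁ F
    (fun i σ => ∃ u, 1 / 10 < |deg σ.E u / (n * pp n i) - 1|) := by
  have hn : 1 ≤ (n : ℝ) := by
    have := h.n_pos
    exact_mod_cast this
  obtain ⟨F, hF⟩ := PotFam.mk' h (O := Fin n) (by
    rw [Fintype.card_fin]; nlinarith [pow_le_pow_right₀ hn (show 1 ≤ 3 by norm_num)])
    (fun u i σ => deg σ.E u / (n * pp n i) - 1) (num_d h) (fun u => init_d h u)
    (fun i σ u hi hI hG => step_d h hi hI hG u)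
  exact ⟨F, hF.nonneg, hF.step, fun i σ hi ⟨u, hu⟩ => hF.bad i σ hi ⟨u, hu.le⟩, hF.init⟩

theorem fam_a (h : Reg n L i₁) : ∃ F, PotFam n L i₁ F
    (fun i σ => i ≤ i₁ ∧ ∃ u, L / Real.sqrt (n * pp n i) < |σ.a u|) := by
  have hn : 1 ≤ (n : ℝ) := by
    have := h.n_pos
    exact_mod_cast this
  obtain ⟨F, hF⟩ := PotFam.mk' h (O := Fin n) (by
    rw [Fintype.card_fin]; nlinarith [pow_le_pow_right₀ hn (show 1 ≤ 3 by norm_num)])
    (fun u i σ => σ.a u / pp n i) (num_a h) (fun u => by simp [st0])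
    (fun i σ u hi hI hG => step_a h hi hI hG u)
  refine ⟨F, hF.nonneg, hF.step, fun i σ hi ⟨_, u, hu⟩ => hF.bad i σ hi ⟨u, ?_⟩, hF.init⟩
  have hp := h.pp_pos hi
  rw [abs_div, abs_of_pos hp, ← div_div]
  gcongr

theorem fam_th (h : Reg n L i₁) : ∃ F, PotFam n L i₁ F
    (fun i σ => L ^ 3 / yb n i < |th i σ.E - 1|) := by
  have hn : 1 ≤ (n : ℝ) := by
    have := h.n_pos
    exact_mod_cast this
  obtain ⟨F, hF⟩ := PotFam.mk' h (O := Unit) (by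
    simp; exact one_le_pow₀ hn)
    (fun _ i σ => th i σ.E - 1) (num_th h) (fun u => init_th h)
    (fun i σ u hi hI hG => step_th h hi hI hG)
  exact ⟨F, hF.nonneg, hF.step, fun i σ hi hu => hF.bad i σ hi ⟨(), hu.le⟩, hF.init⟩

theorem card_pairs_le (n : ℕ) (h : 1 ≤ (n:ℝ)) :
    (Fintype.card {x : Fin n × Fin n // x.1 ≠ x.2} : ℝ) ≤ (n : ℝ) ^ 3 := by
  have h1 : Fintype.card {x : Fin n × Fin n // x.1 ≠ x.2} ≤ n ^ 2 := by
    refine (Fintype.card_subtype_le _).trans ?_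
    simp [sq]
  have h2 : ((Fintype.card {x : Fin n × Fin n // x.1 ≠ x.2} : ℕ) : ℝ) ≤ (n : ℝ) ^ 2 := by
    exact_mod_cast h1
  exact h2.trans (pow_le_pow_right₀ h (by norm_num))

theorem fam_rho (h : Reg n L i₁) : ∃ F, PotFam n L i₁ F
    (fun i σ => ∃ u v, u ≠ v ∧ L / Real.sqrt (yb n i) < |rho i σ u v|) := by
  have hn : 1 ≤ (n : ℝ) := by
    have := h.n_pos
    exact_mod_cast this
  obtain ⟨F, hF⟩ := PotFam.mk' h (O := {x : Fin n × Fin n // x.1 ≠ x.2}) (card_pairs_le n hn)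
    (fun x i σ => rho i σ x.1.1 x.1.2) (num_rho h) (fun x => init_rho h x.2)
    (fun i σ x hi hI hG => step_rho h hi hI hG _ _ x.2)
  exact ⟨F, hF.nonneg, hF.step,
    fun i σ hi ⟨u, v, huv, hu⟩ => hF.bad i σ hi ⟨⟨(u, v), huv⟩, hu.le⟩, hF.init⟩

theorem fam_M (h : Reg n L i₁) : ∃ F, PotFam n L i₁ F
    (fun i σ => i ≤ i₁ ∧ ∃ u v, u ≠ v ∧ L ^ 3 * Real.sqrt (pp n i) < |Mf σ u v|) := by
  have hn : 1 ≤ (n : ℝ) := by
    have := h.n_pos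
    exact_mod_cast this
  obtain ⟨F, hF⟩ := PotFam.mk' h (O := {x : Fin n × Fin n // x.1 ≠ x.2}) (card_pairs_le n hn)
    (fun x i σ => Mf σ x.1.1 x.1.2 / pp n i ^ 3) (num_M h) (fun x => by simp [init_M])
    (fun i σ x hi hI hG => step_M h hi hI hG _ _ x.2)
  refine ⟨F, hF.nonneg, hF.step,
    fun i σ hi ⟨_, u, v, huv, hu⟩ => hF.bad i σ hi ⟨⟨(u, v), huv⟩, ?_⟩, hF.init⟩
  have hp := h.pp_pos hi
  dsimp only
  rw [abs_div, abs_of_pos (pow_pos hp 3)]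
  gcongr

theorem fam_k (h : Reg n L i₁) : ∃ F, PotFam n L i₁ F
    (fun i σ => i ≤ i₁ ∧ ∃ u v, u ≠ v ∧ L ^ 4 * (1 + ss n i) < |kf i σ u v|) := by
  have hn : 1 ≤ (n : ℝ) := by
    have := h.n_pos
    exact_mod_cast this
  obtain ⟨F, hF⟩ := PotFam.mk' h (O := {x : Fin n × Fin n // x.1 ≠ x.2}) (card_pairs_le n hn)
    (fun x i σ => kf i σ x.1.1 x.1.2 / pp n i ^ 2) (num_k h) (fun x => init_k h x.2)
    (fun i σ x hi hI hG => step_k h hi hI hG _ _ x.2)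
  refine ⟨F, hF.nonneg, hF.step,
    fun i σ hi ⟨_, u, v, huv, hu⟩ => hF.bad i σ hi ⟨⟨(u, v), huv⟩, ?_⟩, hF.init⟩
  have hp := h.pp_pos hi
  dsimp only
  rw [abs_div, abs_of_pos (pow_pos hp 2)]
  gcongr

theorem fam_c (h : Reg n L i₁) : ∃ F, PotFam n L i₁ F
    (fun i σ => i ≤ i₁ ∧ ∃ u v x, u ≠ v ∧ u ≠ x ∧ v ≠ x ∧
      L ^ 2 * Real.sqrt (cb n i) + L ^ 4 < |cod3 σ.E u v x - cb n i|) := by
  have hn : 1 ≤ (n : ℝ) := by
    have := h.n_pos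
    exact_mod_cast this
  have hc : (Fintype.card {x : Fin n × Fin n × Fin n // x.1 ≠ x.2.1 ∧ x.1 ≠ x.2.2 ∧ x.2.1 ≠ x.2.2}
      : ℝ) ≤ (n : ℝ) ^ 3 := by
    have h1 : Fintype.card {x : Fin n × Fin n × Fin n //
        x.1 ≠ x.2.1 ∧ x.1 ≠ x.2.2 ∧ x.2.1 ≠ x.2.2} ≤ n ^ 3 := by
      refine (Fintype.card_subtype_le _).trans ?_
      simp [pow_succ, mul_assoc]
    exact_mod_cast h1
  obtain ⟨F, hF⟩ := PotFam.mk' h
    (O := {x : Fin n × Fin n × Fin n // x.1 ≠ x.2.1 ∧ x.1 ≠ x.2.2 ∧ x.2.1 ≠ x.2.2}) hc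
    (fun x i σ => (cod3 σ.E x.1.1 x.1.2.1 x.1.2.2 - cb n i) / pp n i ^ 3) (num_c h)
    (fun x => init_c h x.2.1 x.2.2.1 x.2.2.2)
    (fun i σ x hi hI hG => step_c h hi hI hG _ _ _ x.2.1 x.2.2.1 x.2.2.2)
  refine ⟨F, hF.nonneg, hF.step,
    fun i σ hi ⟨_, u, v, x, huv, hux, hvx, hu⟩ =>
      hF.bad i σ hi ⟨⟨(u, v, x), huv, hux, hvx⟩, ?_⟩, hF.init⟩
  have hp := h.pp_pos hi
  dsimp only
  rw [abs_div, abs_of_pos (pow_pos hp 3)]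
  gcongr

end Crest.Agent.TRem
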