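import Crest.Agent.TRem.A10

/-!
# Row 30, A11: part A
-/

namespace Crest.Agent.TRem

open Finset Crest.CombinatoricsR.TriangleRemoval

variable {n : ℕ} {L : ℝ} {i₁ : ℕ}

theorem WS_nonneg (h : Reg n L i₁) (S : Finset (Sym2 (Fin n))) (i : ℕ) (σ : St n) :
    0 ≤ WS L i₁ S i σ := by
  unfold WS
  refine mul_nonneg (by split_ifs <;> norm_num) (pow_nonneg (Finset.prod_nonneg fun l hl => ?_) _)
  exact (fac_pos h (by rw [mem_Ico] at hl; exact hl.2)).le

theorem i₁_le (h : Reg n L i₁) : ((i₁ : ℝ) + 1) ≤ (n : ℝ) ^ 2 := by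
  have h1 := h.hi
  have h2 : n.choose 2 ≤ n ^ 2 := Nat.choose_le_pow n 2
  have h3 : i₁ + 1 ≤ n ^ 2 := by omega
  exact_mod_cast h3

theorem partA (h : Reg n L i₁) (hcb : cb n i₁ ≤ 1) (φ : ℕ → ℝ) (m : ℕ) (K η w : ℝ)
    (hK : 0 ≤ K) (hφ : ∀ e, e ≤ n.choose 2 → φ e ≤ K) (hη : 0 ≤ η) (hw : 0 ≤ w)
    {κ : Type} (𝒮 : Finset κ) (S : κ → Finset (Sym2 (Fin n)))
    (hS : ∀ c ∈ 𝒮, ((S c).card : ℝ) ≤ L * Real.sqrt (yb n i₁))
    (hgood : ∀ E : Finset (Sym2 (Fin n)), GoodOut n L i₁ E →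
      expectFinal φ m E ≤ η + w * ((𝒮.filter (fun c => S c ⊆ E)).card : ℝ)) :
    expectFinal φ (i₁ + m) (allEdges n) ≤
      η + w * ∑ c ∈ 𝒮, (11 / 10 * pp n i₁) ^ (S c).card + K / (n : ℝ) ^ 10 := by
  classical
  obtain ⟨F1, h1⟩ := fam_d h
  obtain ⟨F2, h2⟩ := fam_a h
  obtain ⟨F3, h3⟩ := fam_th h
  obtain ⟨F4, h4⟩ := fam_rho h
  obtain ⟨F5, h5⟩ := fam_M h
  obtain ⟨F6, h6⟩ := fam_k h
  obtain ⟨F7, h7⟩ := fam_c h
  set F : ℕ → St n → ℝ := fun i σ =>
    F1 i σ + F2 i σ + F3 i σ + F4 i σ + F5 i σ + F6 i σ + F7 i σ with hFdef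
  set W : ℕ → St n → ℝ := fun i σ => η + w * ∑ c ∈ 𝒮, WS L i₁ (S c) i σ with hWdef
  have hF0 : ∀ i σ, 0 ≤ F i σ := by
    intro i σ
    have := h1.nonneg i σ
    have := h2.nonneg i σ
    have := h3.nonneg i σ
    have := h4.nonneg i σ
    have := h5.nonneg i σ
    have := h6.nonneg i σ
    have := h7.nonneg i σ
    simp only [hFdef]
    positivity
  have hW0 : ∀ i σ, 0 ≤ W i σ := by
    intro i σ
    have := Finset.sum_nonneg (s := 𝒮) (f := fun c => WS L i₁ (S c) i σ)
      (fun c _ => WS_nonneg h (S c) i σ)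
    simp only [hWdef]
    positivity
  have key := run_le i₁ (Good L) Inv F W (fun σ => expectFinal φ m σ.E) K hF0 hW0 hK
    (fun i σ hI => expectFinal_le φ K m σ.E (fun e he => hφ e (he.trans (by have := hI.card; omega))))
    ?_ ?_ (fun i σ hi hI hG => gd_nonempty h hi.le hG) ?_ ?_
    (fun i σ T hi hI hT => hI.next hT) i₁ 0 (st0 n) (by omega) (inv_st0 n)
  · -- conclusion
    have e1 : expectFinal φ (i₁ + m) (allEdges n) =
        run i₁ 0 (fun σ' => expectFinal φ m σ'.E) (st0 n) := expectFinal_add φ i₁ m 0 (st0 n)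
    rw [e1]
    refine key.trans ?_
    have hn : 1 ≤ (n : ℝ) := by
      have := h.n_pos
      exact_mod_cast this
    have hnL : (10:ℝ) ^ 6 ≤ n := by
      refine le_trans ?_ h.n_ge
      refine h.L6.trans ?_
      have := one_le_pow₀ (n := 19) (show (1:ℝ) ≤ L from le_trans (by norm_num) h.L6)
      have hL := h.L_pos
      calc L = L * 1 := by ring
        _ ≤ L * L ^ 19 := by gcongr
        _ = L ^ 20 := by ring
    have hWle : W 0 (st0 n) ≤ η + w * ∑ c ∈ 𝒮, (11 / 10 * pp n i₁) ^ (S c).card := by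
      simp only [hWdef]
      gcongr with c hc
      unfold WS
      have hp0 : 0 ≤ ∏ l ∈ Ico 0 i₁, fac n L l :=
        Finset.prod_nonneg fun l hl => (fac_pos h (by rw [mem_Ico] at hl; exact hl.2)).le
      calc (if S c ⊆ (st0 n).E then (1:ℝ) else 0) * (∏ l ∈ Ico 0 i₁, fac n L l) ^ (S c).card
          ≤ 1 * (∏ l ∈ Ico 0 i₁, fac n L l) ^ (S c).card := by
            gcongr
            split_ifs <;> norm_num
        _ ≤ (11 / 10 * pp n i₁) ^ (S c).card := by
            rw [one_mul]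
            gcongr
            exact prod_fac_le h
    have hFle : F 0 (st0 n) ≤ 1 / (n : ℝ) ^ 10 := by
      have hb : (n : ℝ) ^ 3 * (2 * (i₁ + 1)) / (n : ℝ) ^ 20 ≤ (1 / 7) * (1 / (n : ℝ) ^ 10) := by
        have := i₁_le h
        rw [div_le_iff₀ (by positivity)]
        calc (n : ℝ) ^ 3 * (2 * (i₁ + 1)) ≤ (n : ℝ) ^ 3 * (2 * (n:ℝ) ^ 2) := by gcongr
          _ = 2 * (n:ℝ) ^ 5 := by ring
          _ ≤ (1 / 7) * ((10 : ℝ) ^ 6 * (n:ℝ) ^ 5) := by nlinarith [pow_pos h.n_pos 5]
          _ ≤ (1 / 7) * (n * (n:ℝ) ^ 5) := by gcongr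
          _ = (1 / 7) * (n : ℝ) ^ 6 := by ring
          _ ≤ (1 / 7) * (n : ℝ) ^ 10 := by gcongr <;> norm_num
          _ = 1 / 7 * (1 / (n : ℝ) ^ 10) * (n : ℝ) ^ 20 := by
            field_simp
      have := h1.init
      have := h2.init
      have := h3.init
      have := h4.init
      have := h5.init
      have := h6.init
      have := h7.init
      simp only [hFdef]
      linarith
    have : K * F 0 (st0 n) ≤ K / (n : ℝ) ^ 10 := by
      rw [div_eq_mul_one_div]
      gcongr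
    linarith
  · -- end
    intro σ hI hG
    refine (hgood σ.E (hG.out h hI hcb)).trans ?_
    simp only [hWdef]
    gcongr
    rw [Finset.card_filter]
    push_cast
    refine Finset.sum_le_sum fun c _ => ?_
    unfold WS
    simp
  · -- bad
    intro i σ hi hI hG
    have p1 := h1.nonneg i σ
    have p2 := h2.nonneg i σ
    have p3 := h3.nonneg i σ
    have p4 := h4.nonneg i σ
    have p5 := h5.nonneg i σ
    have p6 := h6.nonneg i σ
    have p7 := h7.nonneg i σ
    simp only [hFdef]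
    by_contra hlt
    refine hG ⟨?_, ?_, ?_, ?_, ?_, ?_, ?_⟩
    · intro u
      by_contra hc
      have := h1.bad i σ hi ⟨u, lt_of_not_ge hc⟩
      linarith
    · intro u
      by_contra hc
      have := h2.bad i σ hi ⟨hi, u, lt_of_not_ge hc⟩
      linarith
    · by_contra hc
      have := h3.bad i σ hi (lt_of_not_ge hc)
      linarith
    · intro u v huv
      by_contra hc
      have := h4.bad i σ hi ⟨u, v, huv, lt_of_not_ge hc⟩
      linarith
    · intro u v huv
      by_contra hc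
      have := h5.bad i σ hi ⟨hi, u, v, huv, lt_of_not_ge hc⟩
      linarith
    · intro u v huv
      by_contra hc
      have := h6.bad i σ hi ⟨hi, u, v, huv, lt_of_not_ge hc⟩
      linarith
    · intro u v x huv hux hvx
      by_contra hc
      have := h7.bad i σ hi ⟨hi, u, v, x, huv, hux, hvx, lt_of_not_ge hc⟩
      linarith
  · -- F supermartingale
    intro i σ hi hI hG
    simp only [hFdef]
    rw [Av_add, Av_add, Av_add, Av_add, Av_add, Av_add]
    have := h1.step i σ hi hI hG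
    have := h2.step i σ hi hI hG
    have := h3.step i σ hi hI hG
    have := h4.step i σ hi hI hG
    have := h5.step i σ hi hI hG
    have := h6.step i σ hi hI hG
    have := h7.step i σ hi hI hG
    linarith
  · -- W supermartingale
    intro i σ hi hI hG
    simp only [hWdef]
    rw [Av_add, Av_const (gd_nonempty h hi.le hG), Av_mul, Av_sum]
    gcongr with c hc
    exact WS_step h hi hI hG (S c) (hS c hc)

end Crest.Agent.TRem
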