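import Crest.Agent.TRem.ADefs

/-!
# Row 30, A1a: adjacency indicators and the removal of one triangle
-/

namespace Crest.Agent.TRem

open Finset Crest.CombinatoricsR.TriangleRemoval

variable {n : ℕ} {E : Finset (Sym2 (Fin n))} {T : Finset (Fin n)}

theorem adj_nonneg (E : Finset (Sym2 (Fin n))) (u v : Fin n) : 0 ≤ adj E u v := by
  unfold adj
  split_ifs <;> norm_num

theorem adj_le_one (E : Finset (Sym2 (Fin n))) (u v : Fin n) : adj E u v ≤ 1 := by
  unfold adj
  split_ifs <;> norm_num

theorem adj_sq (E : Finset (Sym2 (Fin n))) (u v : Fin n) : adj E u v * adj E u v = adj E u v := by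
  unfold adj
  split_ifs <;> norm_num

theorem adj_comm (E : Finset (Sym2 (Fin n))) (u v : Fin n) : adj E u v = adj E v u := by
  unfold adj
  rw [Sym2.eq_swap]

theorem adj_self (hE : E ⊆ allEdges n) (u : Fin n) : adj E u u = 0 := by
  unfold adj
  rw [if_neg]
  intro h
  have := hE h
  unfold allEdges at this
  rw [Finset.mem_filter] at this
  exact this.2 (Sym2.mk_isDiag_iff.2 rfl)

theorem adj_eq_zero_or_one (E : Finset (Sym2 (Fin n))) (u v : Fin n) :
    adj E u v = 0 ∨ adj E u v = 1 := by
  unfold adj
  split_ifs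
  · exact Or.inr rfl
  · exact Or.inl rfl

theorem mem_tri_card (hT : T ∈ triangles E) : T.card = 3 := by
  unfold triangles at hT
  rw [Finset.mem_filter, Finset.mem_powersetCard] at hT
  exact hT.1.2

theorem mem_tri_adj (hT : T ∈ triangles E) {a b : Fin n} (ha : a ∈ T) (hb : b ∈ T) (hab : a ≠ b) :
    adj E a b = 1 := by
  unfold triangles at hT
  rw [Finset.mem_filter] at hT
  unfold adj
  rw [if_pos (hT.2 a ha b hb hab)]

private theorem adj_one_iff (E : Finset (Sym2 (Fin n))) (a b : Fin n) :
    adj E a b = 1 ↔ s(a, b) ∈ E := by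
  unfold adj
  split_ifs with h
  · exact ⟨fun _ => h, fun _ => rfl⟩
  · exact ⟨fun h' => absurd h' (by norm_num), fun h' => absurd h' h⟩

/-- three distinct vertices form a triangle iff the three pairs are alive. -/
theorem mem_tri_iff {a b c : Fin n} (hab : a ≠ b) (hac : a ≠ c) (hbc : b ≠ c) :
    ({a, b, c} : Finset (Fin n)) ∈ triangles E ↔
      adj E a b = 1 ∧ adj E a c = 1 ∧ adj E b c = 1 := by
  constructor
  · intro h
    exact ⟨mem_tri_adj h (by simp) (by simp) hab, mem_tri_adj h (by simp) (by simp) hac,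
      mem_tri_adj h (by simp) (by simp) hbc⟩
  · rintro ⟨h1, h2, h3⟩
    rw [adj_one_iff] at h1 h2 h3
    unfold triangles
    rw [Finset.mem_filter, Finset.mem_powersetCard]
    refine ⟨⟨Finset.subset_univ _, Finset.card_eq_three.2 ⟨a, b, c, hab, hac, hbc, rfl⟩⟩, ?_⟩
    intro u hu v hv huv
    simp only [Finset.mem_insert, Finset.mem_singleton] at hu hv
    rcases hu with rfl | rfl | rfl <;> rcases hv with rfl | rfl | rfl
    · exact absurd rfl huv
    · exact h1
    · exact h2
    · rw [Sym2.eq_swap]; exact h1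
    · exact absurd rfl huv
    · exact h3
    · rw [Sym2.eq_swap]; exact h2
    · rw [Sym2.eq_swap]; exact h3
    · exact absurd rfl huv

theorem II_nonneg (a b : Fin n) (T : Finset (Fin n)) : 0 ≤ II a b T := by
  unfold II
  split_ifs <;> norm_num

theorem II_le_one (a b : Fin n) (T : Finset (Fin n)) : II a b T ≤ 1 := by
  unfold II
  split_ifs <;> norm_num

theorem II_sq (a b : Fin n) (T : Finset (Fin n)) : II a b T * II a b T = II a b T := by
  unfold II
  split_ifs <;> norm_num

theorem II_comm (a b : Fin n) (T : Finset (Fin n)) : II a b T = II b a T := by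
  unfold II
  simp only [and_comm]

/-- adjacency after the removal of the pairs of `T`. -/
theorem adj_sdiff (E : Finset (Sym2 (Fin n))) (T : Finset (Fin n)) (a b : Fin n) :
    adj (E \ T.sym2) a b = adj E a b * (1 - II a b T) := by
  unfold adj II
  simp only [Finset.mem_sdiff, Finset.mk_mem_sym2_iff]
  by_cases h1 : s(a, b) ∈ E <;> by_cases h2 : a ∈ T ∧ b ∈ T <;> simp [h1, h2]

private theorem sum_II_eq (hT : T.card = 3) (u : Fin n) :
    ∑ w ∈ univ.erase u, II u w T = 2 * (if u ∈ T then 1 else 0) := by
  by_cases hu : u ∈ T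
  · have h1 : ∀ w ∈ univ.erase u, II u w T = if w ∈ T.erase u then 1 else 0 := by
      intro w hw
      rw [Finset.mem_erase] at hw
      unfold II
      simp [hu, hw.1]
    rw [Finset.sum_congr rfl h1, Finset.sum_ite_mem, Finset.sum_const, if_pos hu]
    have h2 : univ.erase u ∩ T.erase u = T.erase u := by
      ext w
      simp
    rw [h2, Finset.card_erase_of_mem hu, hT]
    norm_num
  · rw [if_neg hu, mul_zero]
    refine Finset.sum_eq_zero fun w _ => ?_
    unfold II
    simp [hu]

/-- at most two vertices of a triangle are different from `u`, if `u ∈ T`. -/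
theorem sum_II_le (hT : T ∈ triangles E) (u : Fin n) :
    ∑ w ∈ univ.erase u, II u w T ≤ 2 := by
  rw [sum_II_eq (mem_tri_card hT)]
  split_ifs <;> norm_num

theorem sdiff_subset_allEdges (hE : E ⊆ allEdges n) : E \ T.sym2 ⊆ allEdges n :=
  Finset.sdiff_subset.trans hE

/-- removing a triangle removes exactly three pairs. -/
theorem card_sdiff_tri (hE : E ⊆ allEdges n) (hT : T ∈ triangles E) :
    (E \ T.sym2).card + 3 = E.card := by
  have hc := mem_tri_card hT
  rw [Finset.card_eq_three] at hc
  obtain ⟨a, b, c, hab, hac, hbc, rfl⟩ := hc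
  have h := (mem_tri_iff hab hac hbc).1 hT
  rw [adj_one_iff, adj_one_iff, adj_one_iff] at h
  obtain ⟨h1, h2, h3⟩ := h
  have hd : ∀ x, s(x, x) ∉ E := by
    intro x hx
    have := hE hx
    unfold allEdges at this
    rw [Finset.mem_filter] at this
    exact this.2 (Sym2.mk_isDiag_iff.2 rfl)
  have hI : E ∩ ({a, b, c} : Finset (Fin n)).sym2 = {s(a, b), s(a, c), s(b, c)} := by
    ext z
    induction z with
    | _ x y =>
      rw [Finset.mem_inter, Finset.mk_mem_sym2_iff]
      simp only [Finset.mem_insert, Finset.mem_singleton]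
      constructor
      · rintro ⟨hz, hx, hy⟩
        rcases hx with rfl | rfl | rfl <;> rcases hy with rfl | rfl | rfl
        · exact absurd hz (hd _)
        · exact Or.inl rfl
        · exact Or.inr (Or.inl rfl)
        · exact Or.inl Sym2.eq_swap
        · exact absurd hz (hd _)
        · exact Or.inr (Or.inr rfl)
        · exact Or.inr (Or.inl Sym2.eq_swap)
        · exact Or.inr (Or.inr Sym2.eq_swap)
        · exact absurd hz (hd _)
      · rintro (hz | hz | hz) <;> rw [Sym2.eq_iff] at hz <;>
          rcases hz with ⟨rfl, rfl⟩ | ⟨rfl, rfl⟩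
        · simp [h1]
        · rw [Sym2.eq_swap] at h1; simp [h1]
        · simp [h2]
        · rw [Sym2.eq_swap] at h2; simp [h2]
        · simp [h3]
        · rw [Sym2.eq_swap] at h3; simp [h3]
  have hcI : (E ∩ ({a, b, c} : Finset (Fin n)).sym2).card = 3 := by
    rw [hI, Finset.card_eq_three]
    refine ⟨s(a, b), s(a, c), s(b, c), ?_, ?_, ?_, rfl⟩
    · intro h; rw [Sym2.eq_iff] at h
      rcases h with ⟨_, h⟩ | ⟨h, _⟩
      · exact hbc h
      · exact hac h
    · intro h; rw [Sym2.eq_iff] at h
      rcases h with ⟨h, _⟩ | ⟨h, _⟩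
      · exact hab h
      · exact hac h
    · intro h; rw [Sym2.eq_iff] at h
      rcases h with ⟨h, _⟩ | ⟨h, _⟩
      · exact hab h
      · exact hac h
  rw [← hcI]
  exact Finset.card_sdiff_add_card_inter _ _

theorem cod_comm (E : Finset (Sym2 (Fin n))) (u v : Fin n) : cod E u v = cod E v u := by
  unfold cod
  refine Finset.sum_congr rfl fun w _ => ?_
  ring

theorem deg_sdiff (hE : E ⊆ allEdges n) (hT : T ∈ triangles E) (u : Fin n) :
    deg (E \ T.sym2) u = deg E u - 2 * (if u ∈ T then 1 else 0) := by
  rw [← sum_II_eq (mem_tri_card hT) u]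
  unfold deg
  rw [← Finset.add_sum_erase _ _ (Finset.mem_univ u),
    ← Finset.add_sum_erase _ (fun w => adj E u w) (Finset.mem_univ u), adj_sdiff, adj_self hE, zero_mul,
    zero_add, zero_add, ← Finset.sum_sub_distrib]
  refine Finset.sum_congr rfl fun w hw => ?_
  rw [Finset.mem_erase] at hw
  rw [adj_sdiff, mul_sub, mul_one]
  congr 1
  unfold II
  split_ifs with h
  · rw [mem_tri_adj hT h.1 h.2 (Ne.symm hw.1), mul_one]
  · rw [mul_zero]

/-- `X_w` = indicator that `w` is lost as a common neighbour of `u, v`. -/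
def XX (u v w : Fin n) (T : Finset (Fin n)) : ℝ := 1 - (1 - II u w T) * (1 - II v w T)

private theorem XX_eq (u v w : Fin n) (T : Finset (Fin n)) :
    XX u v w T = if (u ∈ T ∨ v ∈ T) ∧ w ∈ T then 1 else 0 := by
  unfold XX II
  by_cases h1 : u ∈ T <;> by_cases h2 : v ∈ T <;> by_cases h3 : w ∈ T <;> simp [h1, h2, h3]

theorem XX_nonneg (u v w : Fin n) (T : Finset (Fin n)) : 0 ≤ XX u v w T := by
  rw [XX_eq]
  split_ifs <;> norm_num

theorem XX_le_one (u v w : Fin n) (T : Finset (Fin n)) : XX u v w T ≤ 1 := by
  rw [XX_eq]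
  split_ifs <;> norm_num

theorem XX_sq (u v w : Fin n) (T : Finset (Fin n)) : XX u v w T * XX u v w T = XX u v w T := by
  rw [XX_eq]
  split_ifs <;> norm_num

theorem cod_sdiff (E : Finset (Sym2 (Fin n))) (T : Finset (Fin n)) (u v : Fin n) :
    cod (E \ T.sym2) u v = cod E u v - ∑ w, adj E u w * adj E v w * XX u v w T := by
  unfold cod
  rw [← Finset.sum_sub_distrib]
  refine Finset.sum_congr rfl fun w _ => ?_
  rw [adj_sdiff, adj_sdiff]
  unfold XX
  ring

/-- at most two common neighbours are lost. -/
theorem sum_XX_le (hE : E ⊆ allEdges n) (hT : T ∈ triangles E) {u v : Fin n} (huv : u ≠ v) :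
    ∑ w, adj E u w * adj E v w * XX u v w T ≤ 2 := by
  by_cases h : u ∈ T ∨ v ∈ T
  · have hc : ((T.erase u).erase v).card ≤ 2 := by
      have h3 := mem_tri_card hT
      rcases h with h | h
      · have h1 : (T.erase u).card = 2 := by rw [Finset.card_erase_of_mem h, h3]
        exact (Finset.card_le_card (Finset.erase_subset _ _)).trans h1.le
      · rw [Finset.erase_right_comm]
        have h1 : (T.erase v).card = 2 := by rw [Finset.card_erase_of_mem h, h3]
        exact (Finset.card_le_card (Finset.erase_subset _ _)).trans h1.le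
    calc ∑ w, adj E u w * adj E v w * XX u v w T
        ≤ ∑ w, (if w ∈ (T.erase u).erase v then (1 : ℝ) else 0) := by
          refine Finset.sum_le_sum fun w _ => ?_
          rcases eq_or_ne w u with rfl | h1
          · rw [adj_self hE, zero_mul, zero_mul]
            split_ifs <;> norm_num
          rcases eq_or_ne w v with rfl | h2
          · rw [adj_self hE, mul_zero, zero_mul]
            split_ifs <;> norm_num
          by_cases h3 : w ∈ T
          · rw [if_pos (by simp [h1, h2, h3])]
            have e1 := adj_nonneg E u w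
            have e2 := adj_le_one E u w
            have e3 := adj_nonneg E v w
            have e4 := adj_le_one E v w
            have e5 : adj E u w * adj E v w ≤ 1 := mul_le_one₀ e2 e3 e4
            exact mul_le_one₀ e5 (XX_nonneg _ _ _ _) (XX_le_one _ _ _ _)
          · rw [XX_eq, if_neg (fun hh => h3 hh.2), mul_zero]
            split_ifs <;> norm_num
      _ = (((T.erase u).erase v).card : ℝ) := by
          rw [Finset.sum_ite_mem, Finset.univ_inter, Finset.sum_const, nsmul_eq_mul, mul_one]
      _ ≤ 2 := by exact_mod_cast hc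
  · have : ∑ w, adj E u w * adj E v w * XX u v w T = 0 := by
      refine Finset.sum_eq_zero fun w _ => ?_
      rw [XX_eq, if_neg (fun hh => h hh.1), mul_zero]
    rw [this]
    norm_num

end Crest.Agent.TRem
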