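import Crest.Agent.TRem.A1a

/-!
# Row 30, A1b: probabilities of small events for a uniform random triangle
-/

namespace Crest.Agent.TRem

open Finset Crest.CombinatoricsR.TriangleRemoval

variable {n : ℕ} {E : Finset (Sym2 (Fin n))}

private theorem A1b_sum_II (hE : E ⊆ allEdges n) {a b : Fin n} (hab : a ≠ b) :
    ∑ T ∈ triangles E, II a b T = adj E a b * cod E a b := by
  classical
  have hcount : ∑ T ∈ triangles E, II a b T
      = (((triangles E).filter (fun T => a ∈ T ∧ b ∈ T)).card : ℝ) := by
    unfold II
    rw [Finset.sum_boole]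
  rcases adj_eq_zero_or_one E a b with h0 | h1
  · rw [hcount, h0, zero_mul]
    have : (triangles E).filter (fun T => a ∈ T ∧ b ∈ T) = ∅ := by
      apply Finset.filter_eq_empty_iff.mpr
      intro T hT hab'
      have := mem_tri_adj hT hab'.1 hab'.2 hab
      rw [h0] at this
      exact zero_ne_one this
    rw [this]
    simp
  · rw [hcount, h1, one_mul]
    have hcod : cod E a b = ((univ.filter (fun w => adj E a w = 1 ∧ adj E b w = 1)).card : ℝ) := by
      unfold cod
      rw [← Finset.sum_boole]
      refine Finset.sum_congr rfl (fun w _ => ?_)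
      rcases adj_eq_zero_or_one E a w with ha | ha <;> rcases adj_eq_zero_or_one E b w with hb | hb <;>
        simp [ha, hb]
    rw [hcod]
    have hne : ∀ w : Fin n, adj E a w = 1 → adj E b w = 1 → a ≠ w ∧ b ≠ w := by
      intro w ha hb
      constructor
      · rintro rfl
        rw [adj_self hE] at ha
        exact zero_ne_one ha
      · rintro rfl
        rw [adj_self hE] at hb
        exact zero_ne_one hb
    have himg : (triangles E).filter (fun T => a ∈ T ∧ b ∈ T)
        = (univ.filter (fun w => adj E a w = 1 ∧ adj E b w = 1)).image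
            (fun w => ({a, b, w} : Finset (Fin n))) := by
      ext T
      simp only [Finset.mem_filter, Finset.mem_image, Finset.mem_univ, true_and]
      constructor
      · rintro ⟨hT, ha, hb⟩
        have hc := mem_tri_card hT
        have hsub : ({a, b} : Finset (Fin n)) ⊆ T := by
          intro x hx
          rw [Finset.mem_insert, Finset.mem_singleton] at hx
          rcases hx with rfl | rfl
          · exact ha
          · exact hb
        have hcd : (T \ {a, b}).card = 1 := by
          rw [Finset.card_sdiff_of_subset hsub, hc, Finset.card_pair hab]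
        obtain ⟨c, hc'⟩ := Finset.card_eq_one.mp hcd
        have hcT : c ∈ T ∧ c ∉ ({a, b} : Finset (Fin n)) := by
          rw [← Finset.mem_sdiff, hc']
          exact Finset.mem_singleton_self c
        have hca : a ≠ c := by
          rintro rfl
          exact hcT.2 (by simp)
        have hcb : b ≠ c := by
          rintro rfl
          exact hcT.2 (by simp)
        refine ⟨c, ⟨mem_tri_adj hT ha hcT.1 hca, mem_tri_adj hT hb hcT.1 hcb⟩, ?_⟩
        have : T = {a, b} ∪ (T \ {a, b}) := (Finset.union_sdiff_of_subset hsub).symm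
        rw [this, hc']
        ext x
        simp [or_assoc]
      · rintro ⟨w, ⟨ha, hb⟩, rfl⟩
        obtain ⟨n1, n2⟩ := hne w ha hb
        refine ⟨(mem_tri_iff hab n1 n2).mpr ⟨h1, ha, hb⟩, by simp, by simp⟩
    rw [himg, Finset.card_image_of_injOn]
    intro w hw w' hw' heq
    rw [Finset.mem_coe, Finset.mem_filter] at hw hw'
    obtain ⟨n1, n2⟩ := hne w hw.2.1 hw.2.2
    simp only at heq
    have : w ∈ ({a, b, w'} : Finset (Fin n)) := by
      rw [← heq]
      simp
    simp only [Finset.mem_insert, Finset.mem_singleton] at this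
    rcases this with h | h | h
    · exact absurd h.symm n1
    · exact absurd h.symm n2
    · exact h

/-- the triangles containing `a, b` correspond to the common neighbours of `a, b`, if `ab` is alive. -/
theorem Av_II (hE : E ⊆ allEdges n) {a b : Fin n} (hab : a ≠ b) :
    Av (triangles E) (II a b) = adj E a b * cod E a b / QQ E := by
  unfold Av QQ
  rw [A1b_sum_II hE hab, div_eq_inv_mul]

theorem Av_II_II (hE : E ⊆ allEdges n) {a b c : Fin n} (hab : a ≠ b) (hac : a ≠ c) (hbc : b ≠ c) :
    Av (triangles E) (fun T => II a b T * II a c T) = adj E a b * adj E a c * adj E b c / QQ E := by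
  classical
  unfold Av QQ
  have h1 : ∀ T ∈ triangles E, II a b T * II a c T = if T = {a, b, c} then (1 : ℝ) else 0 := by
    intro T hT
    have hc := mem_tri_card hT
    have hiff : (a ∈ T ∧ b ∈ T ∧ c ∈ T) ↔ T = {a, b, c} := by
      constructor
      · rintro ⟨ha, hb, hc1⟩
        symm
        apply Finset.eq_of_subset_of_card_le
        · intro x hx
          simp only [Finset.mem_insert, Finset.mem_singleton] at hx
          rcases hx with rfl | rfl | rfl
          · exact ha
          · exact hb
          · exact hc1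
        · rw [hc, Finset.card_insert_of_notMem (by simp [hab, hac]), Finset.card_pair hbc]
      · rintro rfl
        simp
    unfold II
    by_cases hh : T = {a, b, c}
    · obtain ⟨ha, hb, hc1⟩ := hiff.mpr hh
      rw [if_pos ⟨ha, hb⟩, if_pos ⟨ha, hc1⟩, if_pos hh, one_mul]
    · rw [if_neg hh]
      by_cases h2 : a ∈ T ∧ b ∈ T
      · by_cases h3 : a ∈ T ∧ c ∈ T
        · exact absurd (hiff.mp ⟨h2.1, h2.2, h3.2⟩) hh
        · rw [if_neg h3, mul_zero]
      · rw [if_neg h2, zero_mul]
  rw [Finset.sum_congr rfl h1, Finset.sum_ite_eq']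
  have h2 : (if ({a, b, c} : Finset (Fin n)) ∈ triangles E then (1 : ℝ) else 0)
      = adj E a b * adj E a c * adj E b c := by
    have hm := mem_tri_iff (E := E) hab hac hbc
    rcases adj_eq_zero_or_one E a b with ha | ha <;> rcases adj_eq_zero_or_one E a c with hb | hb <;>
      rcases adj_eq_zero_or_one E b c with hc | hc <;> rw [ha, hb, hc] at hm <;> simp [hm, ha, hb, hc]
  rw [h2, div_eq_inv_mul]

theorem Av_mem (E : Finset (Sym2 (Fin n))) (u : Fin n) :
    Av (triangles E) (fun T => if u ∈ T then (1:ℝ) else 0) = piv E u := by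
  unfold Av piv QQ
  rw [Finset.sum_boole, div_eq_inv_mul]

private theorem A1b_sum_erase {T : Finset (Fin n)} (hT : T ∈ triangles E) (u : Fin n) :
    ∑ w ∈ univ.erase u, II u w T = 2 * (if u ∈ T then (1:ℝ) else 0) := by
  classical
  have hc := mem_tri_card hT
  by_cases hu : u ∈ T
  · rw [if_pos hu]
    have h1 : ∑ w ∈ univ.erase u, II u w T = (((univ.erase u).filter (fun w => w ∈ T)).card : ℝ) := by
      unfold II
      rw [← Finset.sum_boole]
      refine Finset.sum_congr rfl (fun w _ => ?_)
      simp [hu]
    rw [h1]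
    have h2 : (univ.erase u).filter (fun w => w ∈ T) = T.erase u := by
      ext x
      simp [Finset.mem_filter, Finset.mem_erase]
    rw [h2, Finset.card_erase_of_mem hu, hc]
    norm_num
  · rw [if_neg hu, mul_zero]
    apply Finset.sum_eq_zero
    intro w _
    unfold II
    rw [if_neg (fun h => hu h.1)]

private theorem A1b_sum_adj_cod_one (hE : E ⊆ allEdges n) (u : Fin n) :
    ∑ w, adj E u w * cod E u w = 2 * (((triangles E).filter (fun t => u ∈ t)).card : ℝ) := by
  classical
  have h1 : ∑ w, adj E u w * cod E u w = ∑ w ∈ univ.erase u, adj E u w * cod E u w := by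
    rw [← Finset.add_sum_erase _ _ (Finset.mem_univ u), adj_self hE, zero_mul, zero_add]
  have h2 : ∑ w ∈ univ.erase u, adj E u w * cod E u w
      = ∑ w ∈ univ.erase u, ∑ T ∈ triangles E, II u w T := by
    refine Finset.sum_congr rfl (fun w hw => ?_)
    rw [A1b_sum_II hE (Finset.ne_of_mem_erase hw).symm]
  rw [h1, h2, Finset.sum_comm, Finset.sum_congr rfl (fun T hT => A1b_sum_erase hT u), ← Finset.mul_sum,
    Finset.sum_boole]

/-- each triangle containing `u` contains two pairs at `u`. -/
theorem piv_eq (hE : E ⊆ allEdges n) (u : Fin n) :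
    piv E u = (∑ w, adj E u w * cod E u w) / (2 * QQ E) := by
  unfold piv
  rw [A1b_sum_adj_cod_one hE u, mul_div_mul_left _ _ (two_ne_zero)]

theorem sum_adj_cod (hE : E ⊆ allEdges n) : ∑ u, ∑ v, adj E u v * cod E u v = 6 * QQ E := by
  classical
  rw [Finset.sum_congr rfl (fun u _ => A1b_sum_adj_cod_one hE u), ← Finset.mul_sum]
  have h1 : ∀ u : Fin n, (((triangles E).filter (fun t => u ∈ t)).card : ℝ)
      = ∑ T ∈ triangles E, (if u ∈ T then (1:ℝ) else 0) := by
    intro u
    rw [Finset.sum_boole]
  rw [Finset.sum_congr rfl (fun u _ => h1 u), Finset.sum_comm]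
  have h2 : ∀ T ∈ triangles E, ∑ u, (if u ∈ T then (1:ℝ) else 0) = 3 := by
    intro T hT
    rw [Finset.sum_boole]
    have : univ.filter (fun u => u ∈ T) = T := by
      ext x
      simp
    rw [this, mem_tri_card hT]
    norm_num
  rw [Finset.sum_congr rfl h2, Finset.sum_const, nsmul_eq_mul]
  unfold QQ
  ring

theorem sum_adj (hE : E ⊆ allEdges n) : ∑ u, ∑ v, adj E u v = 2 * (E.card : ℝ) := by
  classical
  have h1 : ∑ u, ∑ v, adj E u v = ∑ p : Fin n × Fin n, ∑ e ∈ E, (if s(p.1, p.2) = e then (1:ℝ) else 0) := by
    rw [Fintype.sum_prod_type]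
    refine Finset.sum_congr rfl (fun u _ => Finset.sum_congr rfl (fun v _ => ?_))
    unfold adj
    rw [Finset.sum_ite_eq]
  rw [h1, Finset.sum_comm]
  have h2 : ∀ e ∈ E, ∑ p : Fin n × Fin n, (if s(p.1, p.2) = e then (1:ℝ) else 0) = 2 := by
    intro e he
    have hd : ¬ e.IsDiag := (Finset.mem_filter.mp (hE he)).2
    induction e using Sym2.ind with
    | _ a b =>
      have hab : a ≠ b := by simpa using hd
      rw [Finset.sum_boole]
      have : (univ.filter (fun p : Fin n × Fin n => s(p.1, p.2) = s(a, b))) = {(a, b), (b, a)} := by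
        ext ⟨x, y⟩
        simp [Sym2.eq_iff]
      rw [this, Finset.card_pair]
      · norm_num
      · intro h
        exact hab (Prod.ext_iff.mp h).1
  rw [Finset.sum_congr rfl h2, Finset.sum_const, nsmul_eq_mul]
  ring

/-- expectation of the loss indicator of a common neighbour. -/
theorem Av_XX (hE : E ⊆ allEdges n) {u v w : Fin n} (huv : u ≠ v) (huw : u ≠ w) (hvw : v ≠ w)
    (h1 : adj E u w = 1) (h2 : adj E v w = 1) :
    Av (triangles E) (XX u v w) = (cod E u w + cod E v w) / QQ E - adj E u v / QQ E := by
  have hx : Av (triangles E) (XX u v w)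
      = Av (triangles E) (fun T => (II u w T + II v w T) - II w u T * II w v T) := by
    apply Av_congr
    intro T _
    unfold XX
    rw [II_comm w u, II_comm w v]
    ring
  rw [hx, Av_sub, Av_add, Av_II hE huw, Av_II hE hvw, Av_II_II hE huw.symm hvw.symm huv, h1, h2,
    adj_comm E w u, adj_comm E w v, h1, h2]
  ring

end Crest.Agent.TRem
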