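import Crest.Agent.TRem.ADefs

/-!
# Row 30, A2a: pointwise facts about the deterministic trajectory

Write `N = n(n-1)/2`, `M_i = N - 3i`, `p = M/N`, `μ = 3/M`, `ȳ = n p²`. For `i ≤ i₁` we have
`M_i ≥ M_{i₁} > 0`, `p_i ≥ p_{i₁}`, hence `ȳ_i ≥ ȳ_{i₁} ≥ L^20`.
-/

namespace Crest.Agent.TRem

open Finset

variable {n : ℕ} {L : ℝ} {i₁ i : ℕ}

theorem Reg.L_pos (h : Reg n L i₁) : 0 < L := by
  have := h.L6
  linarith

private theorem NN_pos_aux (h : Reg n L i₁) : 0 < NN n := by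
  have h1 := h.hi
  have h2 : 0 < n.choose 2 := by omega
  unfold NN
  exact_mod_cast h2

private theorem MM_pos_aux (h : Reg n L i₁) (hi : i ≤ i₁) : 0 < MM n i := by
  have h1 := h.hi
  have h2 : 3 * i < n.choose 2 := by omega
  have h3 : (3 : ℝ) * i < (n.choose 2 : ℝ) := by exact_mod_cast h2
  unfold MM NN
  linarith

private theorem pp_pos_aux (h : Reg n L i₁) (hi : i ≤ i₁) : 0 < pp n i :=
  div_pos (MM_pos_aux h hi) (NN_pos_aux h)

private theorem pp_le_one_aux (h : Reg n L i₁) (i : ℕ) : pp n i ≤ 1 := by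
  unfold pp
  rw [div_le_one (NN_pos_aux h)]
  unfold MM
  have : (0:ℝ) ≤ i := Nat.cast_nonneg i
  linarith

/-- `n ≥ L^20` since `ȳ ≤ n`. -/
theorem Reg.n_ge (h : Reg n L i₁) : L ^ 20 ≤ n := by
  refine h.hD.trans ?_
  unfold yb
  have h1 := pp_le_one_aux h i₁
  have h2 := pp_pos_aux h le_rfl
  have h3 : (0:ℝ) ≤ n := Nat.cast_nonneg n
  have h4 : pp n i₁ ^ 2 ≤ 1 := pow_le_one₀ h2.le h1
  nlinarith

theorem Reg.n_pos (h : Reg n L i₁) : 0 < (n : ℝ) :=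
  lt_of_lt_of_le (pow_pos h.L_pos 20) h.n_ge

theorem Reg.NN_pos (h : Reg n L i₁) : 0 < NN n := NN_pos_aux h

theorem Reg.MM_pos (h : Reg n L i₁) (hi : i ≤ i₁) : 0 < MM n i := MM_pos_aux h hi

theorem Reg.pp_pos (h : Reg n L i₁) (hi : i ≤ i₁) : 0 < pp n i := pp_pos_aux h hi

theorem Reg.pp_le_one (h : Reg n L i₁) (i : ℕ) : pp n i ≤ 1 := pp_le_one_aux h i

theorem Reg.pp_anti (h : Reg n L i₁) {j : ℕ} (hij : i ≤ j) : pp n j ≤ pp n i := by
  unfold pp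
  refine div_le_div_of_nonneg_right ?_ h.NN_pos.le
  unfold MM
  have : (i:ℝ) ≤ j := by exact_mod_cast hij
  linarith

theorem Reg.yb_anti (h : Reg n L i₁) {j : ℕ} (hij : i ≤ j) (hj : j ≤ i₁) : yb n j ≤ yb n i := by
  unfold yb
  exact mul_le_mul_of_nonneg_left
    (pow_le_pow_left₀ (h.pp_pos hj).le (h.pp_anti hij) 2) h.n_pos.le

theorem Reg.yb_ge (h : Reg n L i₁) (hi : i ≤ i₁) : L ^ 20 ≤ yb n i :=
  h.hD.trans (h.yb_anti hi le_rfl)

theorem Reg.yb_pos (h : Reg n L i₁) (hi : i ≤ i₁) : 0 < yb n i :=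
  lt_of_lt_of_le (pow_pos h.L_pos 20) (h.yb_ge hi)

theorem Reg.yb_le_np (h : Reg n L i₁) (hi : i ≤ i₁) : yb n i ≤ n * pp n i := by
  unfold yb
  refine mul_le_mul_of_nonneg_left ?_ h.n_pos.le
  have h1 := h.pp_le_one i
  have h2 := h.pp_pos hi
  nlinarith

theorem Reg.np_ge (h : Reg n L i₁) (hi : i ≤ i₁) : L ^ 20 ≤ n * pp n i :=
  (h.yb_ge hi).trans (h.yb_le_np hi)

/-- `√ȳ ≥ L^10`. -/
theorem Reg.sqrt_yb_ge (h : Reg n L i₁) (hi : i ≤ i₁) : L ^ 10 ≤ Real.sqrt (yb n i) := by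
  apply Real.le_sqrt_of_sq_le
  rw [← pow_mul]
  exact h.yb_ge hi

/-- `√ȳ ≤ √(np)`. -/
theorem Reg.sqrt_yb_le (h : Reg n L i₁) (hi : i ≤ i₁) :
    Real.sqrt (yb n i) ≤ Real.sqrt (n * pp n i) := Real.sqrt_le_sqrt (h.yb_le_np hi)

/-- `√ȳ = √n · p`. -/
theorem Reg.sqrt_yb_eq (h : Reg n L i₁) (hi : i ≤ i₁) :
    Real.sqrt (yb n i) = Real.sqrt n * pp n i := by
  unfold yb
  rw [Real.sqrt_mul h.n_pos.le, Real.sqrt_sq (h.pp_pos hi).le]

theorem Reg.mu_pos (h : Reg n L i₁) (hi : i ≤ i₁) : 0 < mu n i :=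
  div_pos (by norm_num) (h.MM_pos hi)

private theorem n_ge_7 (h : Reg n L i₁) : (7:ℝ) ≤ n := by
  have h1 := h.n_ge
  have h2 := h.L6
  have h3 : (10:ℝ) ^ 6 ≤ L ^ 20 := by
    calc (10:ℝ) ^ 6 ≤ L := h2
      _ = L ^ 1 := (pow_one L).symm
      _ ≤ L ^ 20 := pow_le_pow_right₀ (by linarith) (by norm_num)
  have h4 : (7:ℝ) ≤ 10 ^ 6 := by norm_num
  linarith

private theorem mu_eq (h : Reg n L i₁) (hi : i ≤ i₁) :
    mu n i = 6 / (n * (n - 1) * pp n i) := by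
  have h1 := h.NN_pos
  have h2 := h.MM_pos hi
  have h3 : NN n = n * (n - 1) / 2 := by
    unfold NN
    rw [Nat.cast_choose_two]
  have h4 := n_ge_7 h
  unfold mu pp
  rw [h3]
  have h5 : (n : ℝ) - 1 ≠ 0 := by
    intro h0
    linarith
  have h6 : (n : ℝ) ≠ 0 := by
    intro h0
    linarith
  field_simp
  norm_num

/-- `μ = 6/(n(n-1)p)`. -/
theorem Reg.mu_lower (h : Reg n L i₁) (hi : i ≤ i₁) : 6 / (n ^ 2 * pp n i) ≤ mu n i := by
  rw [mu_eq h hi]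
  have h4 := n_ge_7 h
  have h5 := h.pp_pos hi
  have h6 : (0:ℝ) < n - 1 := by linarith
  have h7 : (0:ℝ) < n := by linarith
  apply div_le_div_of_nonneg_left (by norm_num) (by positivity)
  apply mul_le_mul_of_nonneg_right _ h5.le
  nlinarith

theorem Reg.mu_upper (h : Reg n L i₁) (hi : i ≤ i₁) : mu n i ≤ 7 / (n ^ 2 * pp n i) := by
  rw [mu_eq h hi]
  have h4 := n_ge_7 h
  have h5 := h.pp_pos hi
  have h6 : (0:ℝ) < n - 1 := by linarith
  have h7 : (0:ℝ) < n := by linarith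
  rw [div_le_div_iff₀ (by positivity) (by positivity)]
  have h8 : 6 * (n ^ 2 * pp n i) ≤ 7 * (n * (n - 1) * pp n i) ↔
      0 ≤ (n * pp n i) * (n - 7) := by
    constructor <;> intro h9 <;> nlinarith
  rw [h8]
  have : (0:ℝ) ≤ n - 7 := by linarith
  positivity

private theorem seven_div (h : Reg n L i₁) {x : ℝ} (hx : L ^ 20 ≤ x) : 7 / x ≤ 1 / L ^ 19 := by
  have h1 := h.L_pos
  have h2 := h.L6
  have h3 : 0 < x := lt_of_lt_of_le (pow_pos h1 20) hx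
  rw [div_le_div_iff₀ h3 (by positivity)]
  calc 7 * L ^ 19 ≤ L * L ^ 19 := by
        apply mul_le_mul_of_nonneg_right _ (by positivity)
        linarith
    _ = L ^ 20 := by ring
    _ ≤ 1 * x := by linarith

/-- `μ ȳ ≤ 7p/n ≤ L^{-19}`. -/
theorem Reg.mu_yb (h : Reg n L i₁) (hi : i ≤ i₁) : mu n i * yb n i ≤ 1 / L ^ 19 := by
  have h1 := h.mu_upper hi
  have h2 := h.pp_pos hi
  have h3 := h.n_pos
  have h4 := h.pp_le_one i
  calc mu n i * yb n i ≤ 7 / (n ^ 2 * pp n i) * yb n i :=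
        mul_le_mul_of_nonneg_right h1 (h.yb_pos hi).le
    _ = 7 / n * pp n i := by
        unfold yb
        field_simp
    _ ≤ 7 / n * 1 := mul_le_mul_of_nonneg_left h4 (by positivity)
    _ = 7 / n := mul_one _
    _ ≤ 1 / L ^ 19 := seven_div h h.n_ge

/-- `μ ≤ L^{-39}` (from `mu_yb` and `yb_ge`). -/
theorem Reg.mu_small (h : Reg n L i₁) (hi : i ≤ i₁) : mu n i ≤ 1 / L ^ 39 := by
  have h1 := h.mu_yb hi
  have h2 := h.yb_ge hi
  have h3 := h.L_pos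
  have h4 := h.mu_pos hi
  rw [le_div_iff₀ (by positivity)] at h1 ⊢
  calc mu n i * L ^ 39 = mu n i * L ^ 20 * L ^ 19 := by ring
    _ ≤ mu n i * yb n i * L ^ 19 := by gcongr
    _ ≤ 1 := h1

/-- `μ n ≤ 7/(np) ≤ L^{-19}`. -/
theorem Reg.mu_n (h : Reg n L i₁) (hi : i ≤ i₁) : mu n i * n ≤ 1 / L ^ 19 := by
  have h1 := h.mu_upper hi
  have h2 := h.pp_pos hi
  have h3 := h.n_pos
  calc mu n i * n ≤ 7 / (n ^ 2 * pp n i) * n := mul_le_mul_of_nonneg_right h1 h3.le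
    _ = 7 / (n * pp n i) := by
        field_simp
    _ ≤ 1 / L ^ 19 := seven_div h (h.np_ge hi)

theorem Reg.MM_succ (h : Reg n L i₁) (hi : i < i₁) : MM n (i + 1) = MM n i * (1 - mu n i) := by
  have h1 := (h.MM_pos hi.le).ne'
  have h2 : MM n (i + 1) = MM n i - 3 := by
    unfold MM
    push_cast
    ring
  rw [h2, mul_sub, mul_one]
  unfold mu
  rw [mul_div_cancel₀ _ h1]

theorem Reg.pp_succ (h : Reg n L i₁) (hi : i < i₁) : pp n (i + 1) = pp n i * (1 - mu n i) := by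
  unfold pp
  rw [h.MM_succ hi]
  ring

theorem Reg.yb_succ (h : Reg n L i₁) (hi : i < i₁) :
    yb n (i + 1) = yb n i * (1 - mu n i) ^ 2 := by
  unfold yb
  rw [h.pp_succ hi]
  ring

theorem Reg.cb_succ (h : Reg n L i₁) (hi : i < i₁) :
    cb n (i + 1) = cb n i * (1 - mu n i) ^ 3 := by
  unfold cb
  rw [h.pp_succ hi]
  ring

theorem Reg.ss_nonneg (h : Reg n L i₁) (hi : i ≤ i₁) : 0 ≤ ss n i := by
  unfold ss
  have := Real.log_nonpos (h.pp_pos hi).le (h.pp_le_one i)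
  linarith

/-- `1/p ≤ √n` (since `n p² ≥ 1`), so `s ≤ (1/2) log n ≤ L / 10^6`. -/
theorem Reg.ss_le (h : Reg n L i₁) (hi : i ≤ i₁) : ss n i ≤ L / 10 ^ 6 := by
  have h1 := h.yb_ge hi
  have h2 := h.logn
  have h3 := h.L6
  have h4 : (1:ℝ) ≤ L ^ 20 := one_le_pow₀ (by linarith)
  have h5 := h.pp_pos hi
  have h6 : 0 ≤ Real.log (yb n i) := Real.log_nonneg (h4.trans h1)
  unfold yb at h6
  rw [Real.log_mul h.n_pos.ne' (by positivity), Real.log_pow] at h6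
  unfold ss
  push_cast at h6
  have h7 : 0 ≤ Real.log n := Real.log_nonneg (by
    have := n_ge_7 h
    linarith)
  rw [le_div_iff₀ (by positivity)]
  nlinarith

/-- `s_{i+1} - s_i = -log(1-μ) ≥ μ`. -/
theorem Reg.ss_succ (h : Reg n L i₁) (hi : i < i₁) : ss n i + mu n i ≤ ss n (i + 1) := by
  have h1 := h.pp_pos hi.le
  have h2 := h.pp_pos (i := i + 1) hi
  have h3 := h.pp_succ hi
  have h4 : 0 < 1 - mu n i := by
    rw [h3] at h2
    exact (mul_pos_iff_of_pos_left h1).1 h2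
  unfold ss
  rw [h3, Real.log_mul h1.ne' h4.ne']
  have h5 := Real.log_le_sub_one_of_pos h4
  linarith

end Crest.Agent.TRem
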