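import Crest.Agent.TRem.A1b
import Crest.Agent.TRem.A2a

/-!
# Row 30, A3: consequences of `Good`

Throughout `x := L/√ȳ ≤ L^{-9}` (tiny), and `1/√(np) ≤ 1/√ȳ`.
-/

namespace Crest.Agent.TRem

open Finset Crest.CombinatoricsR.TriangleRemoval

variable {n : ℕ} {L : ℝ} {i₁ i : ℕ} {σ : St n}

/-- `x = L/√ȳ ≤ 1/L^9`. -/
theorem Reg.x_le (h : Reg n L i₁) (hi : i ≤ i₁) : L / Real.sqrt (yb n i) ≤ 1 / L ^ 9 := by
  have hL := h.L_pos
  have h1 := h.sqrt_yb_ge hi
  have h2 : (0:ℝ) < L ^ 10 := by positivity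
  rw [div_le_div_iff₀ (lt_of_lt_of_le h2 h1) (by positivity)]
  calc L * L ^ 9 = L ^ 10 := by ring
    _ ≤ Real.sqrt (yb n i) := h1
    _ = 1 * Real.sqrt (yb n i) := by ring

private theorem sqrt_yb_pos (h : Reg n L i₁) (hi : i ≤ i₁) : 0 < Real.sqrt (yb n i) :=
  Real.sqrt_pos.mpr (h.yb_pos hi)

private theorem x_pos (h : Reg n L i₁) (hi : i ≤ i₁) : 0 < L / Real.sqrt (yb n i) :=
  div_pos h.L_pos (sqrt_yb_pos h hi)

private theorem x_small (h : Reg n L i₁) (hi : i ≤ i₁) :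
    L / Real.sqrt (yb n i) ≤ 1 / 10 ^ 6 := by
  have hL := h.L_pos
  have h1 := h.x_le hi
  have h6 := h.L6
  have h3 : (10:ℝ) ^ 6 ≤ L ^ 9 := by
    have : (1:ℝ) ≤ L := by linarith [show (1:ℝ) ≤ 10 ^ 6 by norm_num]
    calc (10:ℝ) ^ 6 ≤ L := h6
      _ = L ^ 1 := by ring
      _ ≤ L ^ 9 := pow_le_pow_right₀ this (by norm_num)
  refine h1.trans ?_
  exact one_div_le_one_div_of_le (by positivity) h3

/-- `|r| ≤ |ρ| + |a_u| + |a_v| ≤ 3L/√ȳ`. -/
theorem gd_rr_le (h : Reg n L i₁) (hi : i ≤ i₁) (hG : Good L i σ) {u v : Fin n} (huv : u ≠ v) :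
    |rr i σ.E u v| ≤ 3 * (L / Real.sqrt (yb n i)) := by
  have h1 := hG.rho u v huv
  have h2 : ∀ w, |σ.a w| ≤ L / Real.sqrt (yb n i) := fun w =>
    (hG.a w).trans (div_le_div_of_nonneg_left h.L_pos.le (sqrt_yb_pos h hi) (h.sqrt_yb_le hi))
  have h3 : rr i σ.E u v = rho i σ u v + σ.a u + σ.a v := by
    unfold rho
    ring
  rw [h3]
  have h4 := h2 u
  have h5 := h2 v
  rw [abs_le] at *
  constructor <;> linarith [h1.1, h1.2, h4.1, h4.2, h5.1, h5.2]

private theorem rr_small (h : Reg n L i₁) (hi : i ≤ i₁) (hG : Good L i σ) {u v : Fin n}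
    (huv : u ≠ v) : |rr i σ.E u v| ≤ 3 / 10 ^ 6 := by
  have h1 := gd_rr_le h hi hG huv
  have h2 := x_small h hi
  linarith

theorem gd_cod_eq (h : Reg n L i₁) (hi : i ≤ i₁) (E : Finset (Sym2 (Fin n))) (u v : Fin n) :
    cod E u v = yb n i * (1 + rr i E u v) := by
  have h1 := (h.yb_pos hi).ne'
  unfold rr
  field_simp
  ring

theorem gd_cod_le (h : Reg n L i₁) (hi : i ≤ i₁) (hG : Good L i σ) {u v : Fin n} (huv : u ≠ v) :
    cod σ.E u v ≤ 101 / 100 * yb n i := by
  rw [gd_cod_eq h hi]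
  have h1 := (abs_le.mp (rr_small h hi hG huv)).2
  have h2 := h.yb_pos hi
  nlinarith

theorem gd_cod_ge (h : Reg n L i₁) (hi : i ≤ i₁) (hG : Good L i σ) {u v : Fin n} (huv : u ≠ v) :
    99 / 100 * yb n i ≤ cod σ.E u v := by
  rw [gd_cod_eq h hi]
  have h1 := (abs_le.mp (rr_small h hi hG huv)).1
  have h2 := h.yb_pos hi
  nlinarith

/-- `|θ-1| ≤ L³/ȳ ≤ x/100`. -/
theorem gd_th_le (h : Reg n L i₁) (hi : i ≤ i₁) (hG : Good L i σ) :
    |th i σ.E - 1| ≤ (L / Real.sqrt (yb n i)) / 100 := by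
  refine hG.th.trans ?_
  have hL := h.L_pos
  have hs := sqrt_yb_pos h hi
  have h1 := h.sqrt_yb_ge hi
  have h6 := h.L6
  have hL1 : (1:ℝ) ≤ L := by linarith [show (1:ℝ) ≤ 10 ^ 6 by norm_num]
  have hy : yb n i = Real.sqrt (yb n i) * Real.sqrt (yb n i) :=
    (Real.mul_self_sqrt (h.yb_pos hi).le).symm
  have h2 : 100 * L ^ 2 ≤ Real.sqrt (yb n i) := by
    calc 100 * L ^ 2 ≤ L * L ^ 2 := by
          apply mul_le_mul_of_nonneg_right _ (by positivity)
          linarith [show (100:ℝ) ≤ 10 ^ 6 by norm_num]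
      _ = L ^ 3 := by ring
      _ ≤ L ^ 10 := pow_le_pow_right₀ hL1 (by norm_num)
      _ ≤ _ := h1
  rw [div_div]
  rw [div_le_div_iff₀ (h.yb_pos hi) (by positivity)]
  calc L ^ 3 * (Real.sqrt (yb n i) * 100)
      = L * Real.sqrt (yb n i) * (100 * L ^ 2) := by ring
    _ ≤ L * Real.sqrt (yb n i) * Real.sqrt (yb n i) :=
        mul_le_mul_of_nonneg_left h2 (by positivity)
    _ = L * (Real.sqrt (yb n i) * Real.sqrt (yb n i)) := by ring
    _ = L * yb n i := by rw [← hy]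

private theorem th_small (h : Reg n L i₁) (hi : i ≤ i₁) (hG : Good L i σ) :
    |th i σ.E - 1| ≤ 1 / 10 ^ 8 := by
  have h1 := gd_th_le h hi hG
  have h2 := x_small h hi
  linarith

theorem gd_th_ge (h : Reg n L i₁) (hi : i ≤ i₁) (hG : Good L i σ) : 99 / 100 ≤ th i σ.E := by
  have h1 := (abs_le.mp (th_small h hi hG)).1
  linarith

theorem gd_QQ_pos (h : Reg n L i₁) (hi : i ≤ i₁) (hG : Good L i σ) : 0 < QQ σ.E := by
  have h1 := gd_th_ge h hi hG
  have h2 : 0 ≤ QQ σ.E := by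
    unfold QQ
    positivity
  rcases h2.lt_or_eq with h3 | h3
  · exact h3
  · exfalso
    unfold th at h1
    rw [← h3] at h1
    norm_num at h1

theorem gd_nonempty (h : Reg n L i₁) (hi : i ≤ i₁) (hG : Good L i σ) :
    (triangles σ.E).Nonempty := by
  have h1 := gd_QQ_pos h hi hG
  unfold QQ at h1
  exact Finset.card_pos.mp (by exact_mod_cast h1)

/-- `1/Q = μ/(θ ȳ)`. -/
theorem gd_inv_QQ (h : Reg n L i₁) (hi : i ≤ i₁) (hG : Good L i σ) :
    1 / QQ σ.E = mu n i / (th i σ.E * yb n i) := by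
  have h1 := (gd_QQ_pos h hi hG).ne'
  have h2 := (h.yb_pos hi).ne'
  have h3 := (h.MM_pos hi).ne'
  unfold mu th
  field_simp

theorem gd_deg_le (h : Reg n L i₁) (hi : i ≤ i₁) (hG : Good L i σ) (u : Fin n) :
    deg σ.E u ≤ 11 / 10 * (n * pp n i) := by
  have h1 := (abs_le.mp (hG.d u)).2
  have h2 : 0 < n * pp n i := mul_pos h.n_pos (h.pp_pos hi)
  have h3 : deg σ.E u / (n * pp n i) ≤ 11 / 10 := by linarith
  rwa [div_le_iff₀ h2] at h3

/-- `P(u ∈ T) ≤ 4/n`. -/
theorem gd_piv_le (h : Reg n L i₁) (hi : i ≤ i₁) (hI : Inv i σ) (hG : Good L i σ) (u : Fin n) :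
    piv σ.E u ≤ 4 / n := by
  have hQ := gd_QQ_pos h hi hG
  have hn := h.n_pos
  have hp := h.pp_pos hi
  have hy := h.yb_pos hi
  have hth := gd_th_ge h hi hG
  have hmu := h.mu_pos hi
  have hthpos : 0 < th i σ.E := by linarith
  rw [piv_eq hI.sub u]
  have h1 : ∑ w, adj σ.E u w * cod σ.E u w ≤ 11 / 10 * (n * pp n i) * (101 / 100 * yb n i) := by
    calc ∑ w, adj σ.E u w * cod σ.E u w ≤ ∑ w, adj σ.E u w * (101 / 100 * yb n i) := by
          apply Finset.sum_le_sum
          intro w _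
          by_cases huw : u = w
          · subst huw
            rw [adj_self hI.sub]
            simp
          · exact mul_le_mul_of_nonneg_left (gd_cod_le h hi hG huw) (adj_nonneg _ _ _)
      _ = deg σ.E u * (101 / 100 * yb n i) := by
          unfold deg
          rw [Finset.sum_mul]
      _ ≤ _ := mul_le_mul_of_nonneg_right (gd_deg_le h hi hG u) (by positivity)
  have h2 : (∑ w, adj σ.E u w * cod σ.E u w) / (2 * QQ σ.E)
      = (∑ w, adj σ.E u w * cod σ.E u w) / 2 * (1 / QQ σ.E) := by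
    field_simp
  rw [h2, gd_inv_QQ h hi hG]
  have hmu2 := h.mu_upper hi
  have h3 : mu n i * (n * pp n i) ≤ 7 / n := by
    calc mu n i * (n * pp n i) ≤ 7 / (n ^ 2 * pp n i) * (n * pp n i) :=
          mul_le_mul_of_nonneg_right hmu2 (by positivity)
      _ = 7 / n := by
          field_simp
  have h4 : 0 < mu n i / (th i σ.E * yb n i) := by positivity
  calc (∑ w, adj σ.E u w * cod σ.E u w) / 2 * (mu n i / (th i σ.E * yb n i))
      ≤ (11 / 10 * (n * pp n i) * (101 / 100 * yb n i)) / 2 * (mu n i / (th i σ.E * yb n i)) := by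
        apply mul_le_mul_of_nonneg_right _ h4.le
        linarith
    _ = 1111 / 2000 * (mu n i * (n * pp n i)) / th i σ.E := by
        field_simp
        ring
    _ ≤ 1111 / 2000 * (7 / n) / th i σ.E := by
        apply div_le_div_of_nonneg_right _ hthpos.le
        linarith
    _ ≤ 1111 / 2000 * (7 / n) / (99 / 100) := by
        apply div_le_div_of_nonneg_left _ (by norm_num) hth
        positivity
    _ ≤ 4 / n := by
        rw [div_le_iff₀ (by norm_num), mul_div_assoc', div_le_iff₀ hn]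
        have : 4 / (n:ℝ) * (99 / 100) * n = 4 * (99 / 100) := by
          field_simp
        rw [this]
        norm_num

/-- `P(ab ∈ T) ≤ 1.02 μ A_{ab}`. -/
theorem gd_Av_II_le (h : Reg n L i₁) (hi : i ≤ i₁) (hI : Inv i σ) (hG : Good L i σ)
    {a b : Fin n} (hab : a ≠ b) :
    Av (triangles σ.E) (II a b) ≤ 51 / 50 * mu n i * adj σ.E a b := by
  have hQ := gd_QQ_pos h hi hG
  have hy := h.yb_pos hi
  have hmu := h.mu_pos hi
  have hth := (abs_le.mp (th_small h hi hG)).1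
  have hthpos : 0 < th i σ.E := by linarith
  have hr := (abs_le.mp (rr_small h hi hG hab)).2
  rw [Av_II hI.sub hab, div_eq_mul_one_div, gd_inv_QQ h hi hG, gd_cod_eq h hi]
  have h1 : adj σ.E a b * (yb n i * (1 + rr i σ.E a b)) * (mu n i / (th i σ.E * yb n i))
      = (1 + rr i σ.E a b) / th i σ.E * mu n i * adj σ.E a b := by
    field_simp
  rw [h1]
  apply mul_le_mul_of_nonneg_right _ (adj_nonneg _ _ _)
  apply mul_le_mul_of_nonneg_right _ hmu.le
  rw [div_le_iff₀ hthpos]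
  linarith

/-- exact probability of an alive pair: `P(ab ∈ T) = μ (1+r_ab)/θ`. -/
theorem gd_Av_II_eq (h : Reg n L i₁) (hi : i ≤ i₁) (hI : Inv i σ) (hG : Good L i σ)
    {a b : Fin n} (hab : a ≠ b) (h1 : adj σ.E a b = 1) :
    Av (triangles σ.E) (II a b) = mu n i * (1 + rr i σ.E a b) / th i σ.E := by
  have hy := h.yb_pos hi
  have hth := gd_th_ge h hi hG
  have hthpos : 0 < th i σ.E := by linarith
  rw [Av_II hI.sub hab, div_eq_mul_one_div, gd_inv_QQ h hi hG, gd_cod_eq h hi, h1]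
  field_simp

/-- exact probability of losing the common neighbour `w`. -/
theorem gd_Av_XX_eq (h : Reg n L i₁) (hi : i ≤ i₁) (hI : Inv i σ) (hG : Good L i σ)
    {u v w : Fin n} (huv : u ≠ v) (h1 : adj σ.E u w = 1) (h2 : adj σ.E v w = 1) :
    Av (triangles σ.E) (XX u v w) =
      mu n i * (2 + rr i σ.E u w + rr i σ.E v w) / th i σ.E
        - adj σ.E u v * mu n i / (th i σ.E * yb n i) := by
  have hy := h.yb_pos hi
  have hth := gd_th_ge h hi hG
  have hthpos : 0 < th i σ.E := by linarith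
  have huw : u ≠ w := by
    rintro rfl
    rw [adj_self hI.sub] at h1
    norm_num at h1
  have hvw : v ≠ w := by
    rintro rfl
    rw [adj_self hI.sub] at h2
    norm_num at h2
  rw [Av_XX hI.sub huv huw hvw h1 h2, div_eq_mul_one_div, div_eq_mul_one_div (adj σ.E u v),
    gd_inv_QQ h hi hG, gd_cod_eq h hi, gd_cod_eq h hi]
  field_simp
  ring

/-- `P(w lost) ≤ 2.1 μ`. -/
theorem gd_Av_XX_le (h : Reg n L i₁) (hi : i ≤ i₁) (hI : Inv i σ) (hG : Good L i σ)
    {u v w : Fin n} (huv : u ≠ v) (h1 : adj σ.E u w = 1) (h2 : adj σ.E v w = 1) :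
    Av (triangles σ.E) (XX u v w) ≤ 21 / 10 * mu n i := by
  have hy := h.yb_pos hi
  have hmu := h.mu_pos hi
  have hth := (abs_le.mp (th_small h hi hG)).1
  have hthpos : 0 < th i σ.E := by linarith
  have huw : u ≠ w := by
    rintro rfl
    rw [adj_self hI.sub] at h1
    norm_num at h1
  have hvw : v ≠ w := by
    rintro rfl
    rw [adj_self hI.sub] at h2
    norm_num at h2
  have hr := (abs_le.mp (rr_small h hi hG huw)).2
  have hr' := (abs_le.mp (rr_small h hi hG hvw)).2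
  rw [gd_Av_XX_eq h hi hI hG huv h1 h2]
  have h3 : 0 ≤ adj σ.E u v * mu n i / (th i σ.E * yb n i) := by
    have := adj_nonneg σ.E u v
    positivity
  have h4 : mu n i * (2 + rr i σ.E u w + rr i σ.E v w) / th i σ.E ≤ 21 / 10 * mu n i := by
    rw [div_le_iff₀ hthpos]
    have h5 : 2 + rr i σ.E u w + rr i σ.E v w ≤ 21 / 10 * th i σ.E := by linarith
    calc mu n i * (2 + rr i σ.E u w + rr i σ.E v w) ≤ mu n i * (21 / 10 * th i σ.E) :=
          mul_le_mul_of_nonneg_left h5 hmu.le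
      _ = 21 / 10 * mu n i * th i σ.E := by ring
  linarith

/-- expected number of lost common neighbours: `≤ 2.2 μ ȳ`. -/
theorem gd_Av_sum_XX_le (h : Reg n L i₁) (hi : i ≤ i₁) (hI : Inv i σ) (hG : Good L i σ)
    {u v : Fin n} (huv : u ≠ v) :
    Av (triangles σ.E) (fun T => ∑ w, adj σ.E u w * adj σ.E v w * XX u v w T)
      ≤ 11 / 5 * (mu n i * yb n i) := by
  have hy := h.yb_pos hi
  have hmu := h.mu_pos hi
  have hc := gd_cod_le h hi hG huv
  rw [Av_sum]
  have h1 : ∀ w ∈ (univ : Finset (Fin n)),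
      Av (triangles σ.E) (fun T => adj σ.E u w * adj σ.E v w * XX u v w T)
        ≤ adj σ.E u w * adj σ.E v w * (21 / 10 * mu n i) := by
    intro w _
    rw [Av_mul]
    rcases adj_eq_zero_or_one σ.E u w with h1 | h1
    · rw [h1]
      simp
    · rcases adj_eq_zero_or_one σ.E v w with h2 | h2
      · rw [h2]
        simp
      · rw [h1, h2]
        have := gd_Av_XX_le h hi hI hG huv h1 h2
        linarith
  refine (Finset.sum_le_sum h1).trans ?_
  rw [← Finset.sum_mul]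
  change cod σ.E u v * (21 / 10 * mu n i) ≤ _
  calc cod σ.E u v * (21 / 10 * mu n i) ≤ 101 / 100 * yb n i * (21 / 10 * mu n i) :=
        mul_le_mul_of_nonneg_right hc (by positivity)
    _ ≤ 11 / 5 * (mu n i * yb n i) := by
        have : 0 < mu n i * yb n i := by positivity
        nlinarith

end Crest.Agent.TRem
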