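import Crest.Agent.TRem.A3

/-!
# Row 30, A3j: jumps of `r`, `a`, `ρ` and the decomposition of `S`

`Δr`: by `cod_sdiff`, `cod' = cod - δ`, `0 ≤ δ ≤ 2` (`sum_XX_le`), `ȳ' = ȳ(1-μ)²`, so
`r' - r = (cod (1-(1-μ)²) - δ)/(ȳ(1-μ)²)`, and `cod (2μ-μ²) ≤ 2.02 μ ȳ` is tiny (`Reg.mu_yb`).
`Δa_u = -μ a_u - (2/(np)) (1[u∈T] - π_u)`, `|a_u| ≤ L/√(np)`, `μ n ≤ L^{-19}`.
-/

namespace Crest.Agent.TRem

open Finset Crest.CombinatoricsR.TriangleRemoval

variable {n : ℕ} {L : ℝ} {i₁ i : ℕ} {σ : St n}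

/-- `S_{uv} = Σ_{w∈N(u,v)} (r_uw + r_vw) = k_{u;v} + k_{v;u} + (a_u + a_v) y_{uv} + 2 M_{uv}`
(identity, no hypotheses besides definitions). -/
theorem sum_rr_eq (i : ℕ) (σ : St n) (u v : Fin n) :
    ∑ w, adj σ.E u w * adj σ.E v w * (rr i σ.E u w + rr i σ.E v w) =
      kf i σ u v + kf i σ v u + (σ.a u + σ.a v) * cod σ.E u v + 2 * Mf σ u v := by
  unfold kf cod Mf
  rw [Finset.mul_sum, Finset.mul_sum, ← Finset.sum_add_distrib, ← Finset.sum_add_distrib,
    ← Finset.sum_add_distrib]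
  refine Finset.sum_congr rfl fun w _ => ?_
  unfold rho
  ring

private theorem A3j_inv_pow_le (h : Reg n L i₁) (k : ℕ) : 1 / L ^ (k + 1) ≤ 1 / 10 ^ 6 := by
  have hL : (10:ℝ) ^ 6 ≤ L := h.L6
  have hL1 : (1:ℝ) ≤ L := le_trans (by norm_num) hL
  have hk : (10:ℝ) ^ 6 ≤ L ^ (k + 1) := by
    have h1 : (1:ℝ) ≤ L ^ k := one_le_pow₀ hL1
    calc (10:ℝ) ^ 6 ≤ L := hL
      _ = 1 * L := (one_mul L).symm
      _ ≤ L ^ k * L := mul_le_mul_of_nonneg_right h1 (le_trans zero_le_one hL1)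
      _ = L ^ (k + 1) := (pow_succ L k).symm
  exact one_div_le_one_div_of_le (by norm_num) hk

/-- jump of `cod/ȳ - 1`: `|Δr| ≤ 2.1/ȳ` for every triangle. -/
theorem gd_jump_rr (h : Reg n L i₁) (hi : i < i₁) (hI : Inv i σ) (hG : Good L i σ)
    {T : Finset (Fin n)} (hT : T ∈ triangles σ.E) {u v : Fin n} (huv : u ≠ v) :
    |rr (i + 1) (σ.E \ T.sym2) u v - rr i σ.E u v| ≤ 21 / 10 / yb n i := by
  have hy : 0 < yb n i := h.yb_pos hi.le
  have hm : 0 < mu n i := h.mu_pos hi.le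
  have hms : mu n i ≤ 1 / 10 ^ 6 := (h.mu_small hi.le).trans (A3j_inv_pow_le h 38)
  have hmy : mu n i * yb n i ≤ 1 / 10 ^ 6 := (h.mu_yb hi.le).trans (A3j_inv_pow_le h 18)
  have hc : cod σ.E u v ≤ 101 / 100 * yb n i := gd_cod_le h hi.le hG huv
  have hc0 : 0 ≤ cod σ.E u v := by
    have := gd_cod_ge h hi.le hG huv
    linarith [mul_pos (by norm_num : (0:ℝ) < 99 / 100) hy]
  have hd2 : ∑ w, adj σ.E u w * adj σ.E v w * XX u v w T ≤ 2 := sum_XX_le hI.sub hT huv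
  have hd0 : 0 ≤ ∑ w, adj σ.E u w * adj σ.E v w * XX u v w T :=
    Finset.sum_nonneg fun w _ =>
      mul_nonneg (mul_nonneg (adj_nonneg _ _ _) (adj_nonneg _ _ _)) (XX_nonneg _ _ _ _)
  have e : rr (i + 1) (σ.E \ T.sym2) u v - rr i σ.E u v
      = (cod σ.E u v * (2 * mu n i - mu n i ^ 2) - ∑ w, adj σ.E u w * adj σ.E v w * XX u v w T)
        / (yb n i * (1 - mu n i) ^ 2) := by
    unfold rr
    rw [cod_sdiff, h.yb_succ hi]
    have h1 : (1 - mu n i) ≠ 0 := by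
      have : mu n i < 1 := lt_of_le_of_lt hms (by norm_num)
      exact (sub_pos.2 this).ne'
    have h2 : yb n i ≠ 0 := hy.ne'
    field_simp
    ring
  generalize hδ : ∑ w, adj σ.E u w * adj σ.E v w * XX u v w T = δ at *
  generalize cod σ.E u v = c at *
  generalize yb n i = y at *
  generalize mu n i = m at *
  rw [e, abs_div]
  have hq : (1 - m) ^ 2 ≥ 20 / 21 := by nlinarith
  have hden : 0 < y * (1 - m) ^ 2 := by positivity
  rw [abs_of_pos hden, div_le_div_iff₀ hden hy]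
  have hx0 : 0 ≤ c * (2 * m - m ^ 2) := by
    apply mul_nonneg hc0
    nlinarith
  have hx1 : c * (2 * m - m ^ 2) ≤ 2 := by
    have h1 : c * (2 * m - m ^ 2) ≤ c * (2 * m) := by
      apply mul_le_mul_of_nonneg_left _ hc0
      nlinarith
    have h2 : c * (2 * m) ≤ 101 / 100 * y * (2 * m) := by
      apply mul_le_mul_of_nonneg_right hc
      linarith
    nlinarith
  have hab : |c * (2 * m - m ^ 2) - δ| ≤ 2 := by
    rw [abs_le]
    constructor <;> linarith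
  calc |c * (2 * m - m ^ 2) - δ| * y ≤ 2 * y := by
        exact mul_le_mul_of_nonneg_right hab hy.le
    _ ≤ 21 / 10 * (y * (1 - m) ^ 2) := by nlinarith

private theorem A3j_piv_nonneg (E : Finset (Sym2 (Fin n))) (u : Fin n) : 0 ≤ piv E u := by
  unfold piv QQ
  positivity

private theorem A3j_piv_le_one (E : Finset (Sym2 (Fin n))) (u : Fin n) : piv E u ≤ 1 := by
  unfold piv QQ
  apply div_le_one_of_le₀
  · exact_mod_cast Finset.card_le_card (Finset.filter_subset _ _)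
  · positivity

/-- jump of the filter: `|Δa_u| ≤ 2.1/(np)`. -/
theorem gd_jump_a (h : Reg n L i₁) (hi : i < i₁) (hI : Inv i σ) (hG : Good L i σ)
    {T : Finset (Fin n)} (hT : T ∈ triangles σ.E) (u : Fin n) :
    |(nxt i σ T).a u - σ.a u| ≤ 21 / 10 / (n * pp n i) := by
  have hL : (10:ℝ) ^ 6 ≤ L := h.L6
  have hL0 : 0 < L := lt_of_lt_of_le (by norm_num) hL
  have hm : 0 < mu n i := h.mu_pos hi.le
  have hn : 0 < (n : ℝ) := h.n_pos
  have hp : 0 < pp n i := h.pp_pos hi.le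
  have hnp : 0 < n * pp n i := mul_pos hn hp
  have hnp1 : 1 ≤ n * pp n i := by
    refine le_trans ?_ (h.np_ge hi.le)
    exact one_le_pow₀ (le_trans (by norm_num) hL)
  have hmn : mu n i * (n * pp n i) ≤ 1 / L ^ 19 := by
    refine le_trans ?_ (h.mu_n hi.le)
    have := h.pp_le_one i
    have h2 : (n : ℝ) * pp n i ≤ n := by nlinarith
    exact mul_le_mul_of_nonneg_left h2 hm.le
  have ha : |σ.a u| ≤ L / Real.sqrt (n * pp n i) := hG.a u
  have e : (nxt i σ T).a u - σ.a u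
      = - (mu n i * σ.a u) - 2 / (n * pp n i) * ((if u ∈ T then 1 else 0) - piv σ.E u) := by
    unfold nxt
    simp only
    ring
  have hind : |(if u ∈ T then (1:ℝ) else 0) - piv σ.E u| ≤ 1 := by
    have h0 := A3j_piv_nonneg σ.E u
    have h1 := A3j_piv_le_one σ.E u
    rw [abs_le]
    split_ifs <;> constructor <;> linarith
  have hsq : 1 ≤ Real.sqrt (n * pp n i) := by
    rw [Real.one_le_sqrt]
    exact hnp1
  have hsq0 : 0 < Real.sqrt (n * pp n i) := lt_of_lt_of_le one_pos hsq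
  have hsq2 : Real.sqrt (n * pp n i) * Real.sqrt (n * pp n i) = n * pp n i :=
    Real.mul_self_sqrt hnp.le
  have hb1 : |mu n i * σ.a u| ≤ 1 / 10 / (n * pp n i) := by
    rw [abs_mul, abs_of_pos hm, le_div_iff₀ hnp]
    have h1 : mu n i * |σ.a u| * (n * pp n i) = mu n i * (n * pp n i) * |σ.a u| := by ring
    have h2 : |σ.a u| ≤ L := ha.trans (div_le_self hL0.le hsq)
    have h3 : mu n i * (n * pp n i) * |σ.a u| ≤ 1 / L ^ 19 * L := by
      apply mul_le_mul hmn h2 (abs_nonneg _) (by positivity)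
    have h4 : 1 / L ^ 19 * L = 1 / L ^ 18 := by
      field_simp
    have h5 : 1 / L ^ 18 ≤ 1 / 10 ^ 6 := A3j_inv_pow_le h 17
    rw [h1]
    refine h3.trans ?_
    rw [h4]
    refine h5.trans ?_
    norm_num
  have hb2 : |2 / (n * pp n i) * ((if u ∈ T then (1:ℝ) else 0) - piv σ.E u)|
      ≤ 2 / (n * pp n i) := by
    rw [abs_mul, abs_of_pos (by positivity : 0 < 2 / (n * pp n i))]
    exact mul_le_of_le_one_right (by positivity) hind
  rw [e]
  calc |-(mu n i * σ.a u) - 2 / (n * pp n i) * ((if u ∈ T then (1:ℝ) else 0) - piv σ.E u)|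
      ≤ |-(mu n i * σ.a u)| + |2 / (n * pp n i) * ((if u ∈ T then (1:ℝ) else 0) - piv σ.E u)| :=
        abs_sub _ _
    _ = |mu n i * σ.a u| + |2 / (n * pp n i) * ((if u ∈ T then (1:ℝ) else 0) - piv σ.E u)| := by
        rw [abs_neg]
    _ ≤ 1 / 10 / (n * pp n i) + 2 / (n * pp n i) := add_le_add hb1 hb2
    _ = 21 / 10 / (n * pp n i) := by ring

/-- jump of `ρ`: `≤ 7/ȳ`. -/
theorem gd_jump_rho (h : Reg n L i₁) (hi : i < i₁) (hI : Inv i σ) (hG : Good L i σ)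
    {T : Finset (Fin n)} (hT : T ∈ triangles σ.E) {u v : Fin n} (huv : u ≠ v) :
    |rho (i + 1) (nxt i σ T) u v - rho i σ u v| ≤ 7 / yb n i := by
  have hy : 0 < yb n i := h.yb_pos hi.le
  have h1 := gd_jump_rr h hi hI hG hT huv
  have h2 := gd_jump_a h hi hI hG hT u
  have h3 := gd_jump_a h hi hI hG hT v
  have hnp : 21 / 10 / (n * pp n i) ≤ 21 / 10 / yb n i :=
    div_le_div_of_nonneg_left (by norm_num) hy (h.yb_le_np hi.le)
  have e : rho (i + 1) (nxt i σ T) u v - rho i σ u v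
      = (rr (i + 1) (σ.E \ T.sym2) u v - rr i σ.E u v) - ((nxt i σ T).a u - σ.a u)
        - ((nxt i σ T).a v - σ.a v) := by
    unfold rho
    rw [show (nxt i σ T).E = σ.E \ T.sym2 from rfl]
    ring
  rw [e]
  have h4 : 7 / yb n i = 21 / 10 / yb n i + 21 / 10 / yb n i + 21 / 10 / yb n i
      + 7 / 10 / yb n i := by ring
  have h5 : 0 ≤ 7 / 10 / yb n i := by positivity
  rw [abs_le] at *
  constructor <;> linarith [h1.1, h1.2, h2.1, h2.2, h3.1, h3.2]

end Crest.Agent.TRem
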