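import Crest.Agent.TRem.A3j

/-!
# Row 30, A4d: one-step bounds for the degree and the filter
-/

namespace Crest.Agent.TRem

open Finset Crest.CombinatoricsR.TriangleRemoval

variable {n : ℕ} {L : ℝ} {i₁ i : ℕ} {σ : St n}

private theorem A4d_pow (h : Reg n L i₁) (k : ℕ) (hk : 1 ≤ k) : 1 / L ^ k ≤ 1 / 10 ^ 6 := by
  have hL := h.L6
  have h1 : (1 : ℝ) ≤ L := le_trans (by norm_num) hL
  have h2 : L ≤ L ^ k := le_self_pow₀ h1 (by omega)
  exact one_div_le_one_div_of_le (by norm_num) (hL.trans h2)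

private theorem A4d_mu (h : Reg n L i₁) (hi : i ≤ i₁) : mu n i ≤ 1 / 10 ^ 6 :=
  (h.mu_small hi).trans (A4d_pow h 39 (by norm_num))

private theorem A4d_muP (h : Reg n L i₁) (hi : i ≤ i₁) : mu n i * (n * pp n i) ≤ 1 / 10 ^ 6 := by
  refine le_trans ?_ ((h.mu_n hi).trans (A4d_pow h 19 (by norm_num)))
  have h1 := h.pp_le_one i
  have h2 := h.mu_pos hi
  have h3 := h.n_pos
  have h4 : (n : ℝ) * pp n i ≤ n * 1 := mul_le_mul_of_nonneg_left h1 h3.le
  calc mu n i * (n * pp n i) ≤ mu n i * (n * 1) := mul_le_mul_of_nonneg_left h4 h2.le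
    _ = mu n i * n := by ring

private theorem A4d_x (h : Reg n L i₁) (hi : i ≤ i₁) : L / Real.sqrt (yb n i) ≤ 1 / 10 ^ 6 :=
  (h.x_le hi).trans (A4d_pow h 9 (by norm_num))

private theorem A4d_deg_nonneg (E : Finset (Sym2 (Fin n))) (u : Fin n) : 0 ≤ deg E u :=
  Finset.sum_nonneg (fun w _ => adj_nonneg E u w)

/-- `2π = (μ/θ) Σ_w A (1+r)` -/
private theorem A4d_piv (h : Reg n L i₁) (hi : i ≤ i₁) (hI : Inv i σ) (hG : Good L i σ) (u : Fin n) :
    2 * piv σ.E u = mu n i / th i σ.E * ∑ w, adj σ.E u w * (1 + rr i σ.E u w) := by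
  have hQ := gd_QQ_pos h hi hG
  have hyb := h.yb_pos hi
  have hth : 0 < th i σ.E := lt_of_lt_of_le (by norm_num) (gd_th_ge h hi hG)
  have h1 : 2 * piv σ.E u = (∑ w, adj σ.E u w * cod σ.E u w) * (1 / QQ σ.E) := by
    rw [piv_eq hI.sub u]
    field_simp
  rw [h1, gd_inv_QQ h hi hG]
  have h2 : ∑ w, adj σ.E u w * cod σ.E u w = yb n i * ∑ w, adj σ.E u w * (1 + rr i σ.E u w) := by
    rw [Finset.mul_sum]
    refine Finset.sum_congr rfl (fun w _ => ?_)
    rw [gd_cod_eq h hi σ.E u w]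
    ring
  rw [h2]
  field_simp

private theorem A4d_drift (h : Reg n L i₁) (hi : i ≤ i₁) (hI : Inv i σ) (hG : Good L i σ) (u : Fin n) :
    |mu n i * deg σ.E u - 2 * piv σ.E u| ≤ 4 * mu n i * (n * pp n i) * (L / Real.sqrt (yb n i)) := by
  have hμ := h.mu_pos hi
  have hθ := gd_th_ge h hi hG
  have hth : 0 < th i σ.E := lt_of_lt_of_le (by norm_num) hθ
  have hx0 : 0 ≤ L / Real.sqrt (yb n i) := div_nonneg h.L_pos.le (Real.sqrt_nonneg _)
  have h1 := A4d_piv h hi hI hG u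
  have h2 : mu n i * deg σ.E u - 2 * piv σ.E u =
      mu n i / th i σ.E * ∑ w, adj σ.E u w * ((th i σ.E - 1) - rr i σ.E u w) := by
    rw [h1]
    unfold deg
    have : mu n i * ∑ w, adj σ.E u w = mu n i / th i σ.E * ∑ w, adj σ.E u w * th i σ.E := by
      rw [← Finset.sum_mul]
      field_simp
    rw [this, ← mul_sub, ← Finset.sum_sub_distrib]
    congr 1
    refine Finset.sum_congr rfl (fun w _ => ?_)
    ring
  rw [h2, abs_mul, abs_of_pos (div_pos hμ hth)]
  have h3 : |∑ w, adj σ.E u w * ((th i σ.E - 1) - rr i σ.E u w)| ≤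
      deg σ.E u * (301 / 100 * (L / Real.sqrt (yb n i))) := by
    refine (Finset.abs_sum_le_sum_abs _ _).trans ?_
    unfold deg
    rw [Finset.sum_mul]
    refine Finset.sum_le_sum (fun w _ => ?_)
    rw [abs_mul, abs_of_nonneg (adj_nonneg _ _ _)]
    rcases adj_eq_zero_or_one σ.E u w with h0 | h0
    · rw [h0]; simp
    · refine mul_le_mul_of_nonneg_left ?_ (adj_nonneg _ _ _)
      have huw : u ≠ w := by
        rintro rfl
        rw [adj_self hI.sub] at h0
        exact zero_ne_one h0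
      have h4 := gd_rr_le h hi hG huw
      have h5 := gd_th_le h hi hG
      have h6 := abs_sub (th i σ.E - 1) (rr i σ.E u w)
      calc |th i σ.E - 1 - rr i σ.E u w| ≤ |th i σ.E - 1| + |rr i σ.E u w| := abs_sub _ _
        _ ≤ (L / Real.sqrt (yb n i)) / 100 + 3 * (L / Real.sqrt (yb n i)) := add_le_add h5 h4
        _ = 301 / 100 * (L / Real.sqrt (yb n i)) := by ring
  have h7 := gd_deg_le h hi hG u
  have h8 : mu n i / th i σ.E ≤ mu n i * (100 / 99) := by
    rw [div_le_iff₀ hth]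
    nlinarith
  have hdeg := A4d_deg_nonneg σ.E u
  calc mu n i / th i σ.E * |∑ w, adj σ.E u w * ((th i σ.E - 1) - rr i σ.E u w)|
      ≤ (mu n i * (100 / 99)) * (deg σ.E u * (301 / 100 * (L / Real.sqrt (yb n i)))) :=
        mul_le_mul h8 h3 (abs_nonneg _) (by positivity)
    _ ≤ (mu n i * (100 / 99)) * ((11 / 10 * (n * pp n i)) * (301 / 100 * (L / Real.sqrt (yb n i)))) := by
        apply mul_le_mul_of_nonneg_left _ (by positivity)
        exact mul_le_mul_of_nonneg_right h7 (by positivity)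
    _ = (100 / 99 * (11 / 10) * (301 / 100)) * (mu n i * (n * pp n i) * (L / Real.sqrt (yb n i))) := by ring
    _ ≤ 4 * (mu n i * (n * pp n i) * (L / Real.sqrt (yb n i))) := by
        apply mul_le_mul_of_nonneg_right (by norm_num)
        have := h.pp_pos hi
        positivity
    _ = 4 * mu n i * (n * pp n i) * (L / Real.sqrt (yb n i)) := by ring

private theorem A4d_piv_nonneg (E : Finset (Sym2 (Fin n))) (u : Fin n) : 0 ≤ piv E u := by
  unfold piv QQ; positivity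

private theorem A4d_piv_le_one (E : Finset (Sym2 (Fin n))) (u : Fin n) : piv E u ≤ 1 := by
  unfold piv QQ
  refine div_le_one_of_le₀ ?_ (by positivity)
  exact_mod_cast Finset.card_le_card (Finset.filter_subset _ _)

private theorem A4d_piv_le (h : Reg n L i₁) (hi : i ≤ i₁) (hI : Inv i σ) (hG : Good L i σ) (u : Fin n) :
    piv σ.E u ≤ 29 / 50 * (mu n i * (n * pp n i)) := by
  have h1 := A4d_drift h hi hI hG u
  have h2 := gd_deg_le h hi hG u
  have h3 := A4d_x h hi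
  have hμ := h.mu_pos hi
  have hP : 0 < (n : ℝ) * pp n i := mul_pos h.n_pos (h.pp_pos hi)
  have h4 := (abs_le.1 h1).1
  have h5 : mu n i * deg σ.E u ≤ mu n i * (11 / 10 * (n * pp n i)) := mul_le_mul_of_nonneg_left h2 hμ.le
  have h6 : 4 * mu n i * (n * pp n i) * (L / Real.sqrt (yb n i)) ≤
      4 * mu n i * (n * pp n i) * (1 / 10 ^ 6) := mul_le_mul_of_nonneg_left h3 (by positivity)
  have h7 : 0 ≤ mu n i * (n * pp n i) := by positivity
  nlinarith

/-- Degree. `deg' = deg - 2·1[u∈T]` (`deg_sdiff`), `p' = p(1-μ)`, so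
`Z' - Z = (μ deg - 2·1[u∈T])/(n p (1-μ))`.
DRIFT: `(μ deg - 2π)/(np(1-μ))`, `2π = (Σ_w A_uw y_uw)/Q = (μ/θ) Σ_w A_uw (1+r_uw)` (`piv_eq`,
`gd_inv_QQ`, `gd_cod_eq`), so `|μ deg - 2π| ≤ μ Σ_w A_uw |1 - (1+r)/θ| ≤ μ·deg·(|θ-1|+|r|)/θ ≤
μ · 1.1 np · 3.01x/0.99` with `x = L/√ȳ`.
JUMP: `≤ max(μ·1.1np, 2)/(np(1-μ)) ≤ 2.1/(np)` (`μ n ≤ L^{-19}`).
QV: `(Z'-Z)² ≤ (2·4·1[u∈T] + 2 μ² deg²)/(n²p²(1-μ)²)`, average `≤ 1.01(8π + 2.42 μ²n²p²)/(n²p²)`,
`π ≤ 4/n` but better: `π = (μ/2θ)Σ_w A(1+r) ≤ 0.58 μ n p`, so `8π/(n²p²) ≤ 4.7 μ/(np)`, and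
`μ² ≤ μ/(np)·(μ n p) ≤ tiny`. Total `≤ 7μ/(np)`. -/
theorem step_d (h : Reg n L i₁) (hi : i < i₁) (hI : Inv i σ) (hG : Good L i σ) (u : Fin n) :
    OneStep i σ (fun i σ => deg σ.E u / (n * pp n i) - 1)
      (8 * mu n i * (L / Real.sqrt (yb n i))) (7 * mu n i / (n * pp n i)) (4 / (n * pp n i)) := by
  have hi' := hi.le
  have hμ := h.mu_pos hi'
  have hμs := A4d_mu h hi'
  have hμP := A4d_muP h hi'
  have hP : 0 < (n : ℝ) * pp n i := mul_pos h.n_pos (h.pp_pos hi')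
  have hm : 0 < 1 - mu n i := by
    have : (1 : ℝ) / 10 ^ 6 < 1 := by norm_num
    linarith
  have hm9 : 9 / 10 ≤ 1 - mu n i := by
    have : (1 : ℝ) / 10 ^ 6 ≤ 1 / 10 := by norm_num
    linarith
  have hne := gd_nonempty h hi' hG
  have hP' : (n : ℝ) * pp n (i + 1) = n * pp n i * (1 - mu n i) := by rw [h.pp_succ hi]; ring
  have hx0 : 0 ≤ L / Real.sqrt (yb n i) := div_nonneg h.L_pos.le (Real.sqrt_nonneg _)
  have hdiff : ∀ T ∈ triangles σ.E, (deg (nxt i σ T).E u / (n * pp n (i + 1)) - 1) - (deg σ.E u / (n * pp n i) - 1) =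
      (mu n i * deg σ.E u - 2 * (if u ∈ T then 1 else 0)) / (n * pp n i * (1 - mu n i)) := by
    intro T hT
    have h1 : (nxt i σ T).E = σ.E \ T.sym2 := rfl
    rw [h1, deg_sdiff hI.sub hT u, hP']
    generalize (n : ℝ) * pp n i = P at *
    field_simp
    ring
  have hdeg0 := A4d_deg_nonneg σ.E u
  have hdeg1 := gd_deg_le h hi' hG u
  have hμd : mu n i * deg σ.E u ≤ 2 / 10 ^ 6 := by
    have : mu n i * deg σ.E u ≤ mu n i * (11 / 10 * (n * pp n i)) := mul_le_mul_of_nonneg_left hdeg1 hμ.le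
    nlinarith
  have hμd0 : 0 ≤ mu n i * deg σ.E u := mul_nonneg hμ.le hdeg0
  refine ⟨?_, ?_, ?_⟩
  · show |Av (triangles σ.E) (fun T => deg (nxt i σ T).E u / (n * pp n (i + 1)) - 1) - (deg σ.E u / (n * pp n i) - 1)| ≤ _
    have h1 : Av (triangles σ.E) (fun T => deg (nxt i σ T).E u / (n * pp n (i + 1)) - 1) - (deg σ.E u / (n * pp n i) - 1) =
        (mu n i * deg σ.E u - 2 * piv σ.E u) / (n * pp n i * (1 - mu n i)) := by
      rw [← Av_const hne (deg σ.E u / (n * pp n i) - 1), ← Av_sub, Av_congr hdiff]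
      have : (fun T : Finset (Fin n) => (mu n i * deg σ.E u - 2 * (if u ∈ T then 1 else 0)) / (n * pp n i * (1 - mu n i))) =
          fun T => (1 / (n * pp n i * (1 - mu n i))) * (mu n i * deg σ.E u - 2 * (if u ∈ T then (1:ℝ) else 0)) := by
        funext T; rw [one_div_mul_eq_div]
      rw [this, Av_mul, Av_sub, Av_const hne, Av_mul, Av_mem]
      rw [one_div_mul_eq_div]
    rw [h1, abs_div, abs_of_pos (mul_pos hP hm), div_le_iff₀ (mul_pos hP hm)]
    refine (A4d_drift h hi' hI hG u).trans ?_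
    have : 0 ≤ mu n i * (n * pp n i) * (L / Real.sqrt (yb n i)) := by positivity
    nlinarith
  · show Av (triangles σ.E) (fun T => ((deg (nxt i σ T).E u / (n * pp n (i + 1)) - 1) - (deg σ.E u / (n * pp n i) - 1)) ^ 2) ≤ _
    have h1 : ∀ T ∈ triangles σ.E, ((deg (nxt i σ T).E u / (n * pp n (i + 1)) - 1) - (deg σ.E u / (n * pp n i) - 1)) ^ 2 ≤
        (1 / (n * pp n i * (1 - mu n i)) ^ 2) * ((mu n i * deg σ.E u) ^ 2 + 4 * (if u ∈ T then (1:ℝ) else 0)) := by
      intro T hT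
      rw [hdiff T hT, div_pow, one_div_mul_eq_div]
      refine div_le_div_of_nonneg_right ?_ (by positivity)
      split_ifs
      · nlinarith
      · nlinarith
    refine (Av_mono h1).trans ?_
    rw [Av_mul, Av_add, Av_const hne, Av_mul, Av_mem, one_div_mul_eq_div, div_le_div_iff₀ (by positivity) hP]
    have h2 := A4d_piv_le h hi' hI hG u
    have h3 : (mu n i * deg σ.E u) ^ 2 ≤ mu n i * (n * pp n i) := by
      have h4 : mu n i * deg σ.E u ≤ mu n i * (11 / 10 * (n * pp n i)) := mul_le_mul_of_nonneg_left hdeg1 hμ.le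
      have h5 : 0 ≤ mu n i * (n * pp n i) := by positivity
      nlinarith
    have h6 : (mu n i * deg σ.E u) ^ 2 + 4 * piv σ.E u ≤ 4 * (mu n i * (n * pp n i)) := by
      have h5 : 0 ≤ mu n i * (n * pp n i) := by positivity
      linarith
    have h7 : (81 / 100 : ℝ) ≤ (1 - mu n i) ^ 2 := by nlinarith
    calc ((mu n i * deg σ.E u) ^ 2 + 4 * piv σ.E u) * (n * pp n i)
        ≤ 4 * (mu n i * (n * pp n i)) * (n * pp n i) := mul_le_mul_of_nonneg_right h6 hP.le
      _ ≤ 7 * mu n i * ((n * pp n i) ^ 2 * (81 / 100)) := by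
          have : 0 ≤ mu n i * (n * pp n i) ^ 2 := by positivity
          nlinarith
      _ ≤ 7 * mu n i * ((n * pp n i) ^ 2 * (1 - mu n i) ^ 2) := by
          apply mul_le_mul_of_nonneg_left _ (by positivity)
          exact mul_le_mul_of_nonneg_left h7 (by positivity)
      _ = 7 * mu n i * (n * pp n i * (1 - mu n i)) ^ 2 := by ring
  · intro T hT
    show |(deg (nxt i σ T).E u / (n * pp n (i + 1)) - 1) - (deg σ.E u / (n * pp n i) - 1)| ≤ _
    rw [hdiff T hT, abs_div, abs_of_pos (mul_pos hP hm), div_le_div_iff₀ (mul_pos hP hm) hP]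
    have h1 : |mu n i * deg σ.E u - 2 * (if u ∈ T then (1:ℝ) else 0)| ≤ 2 := by
      rw [abs_le]
      have : (2 : ℝ) / 10 ^ 6 ≤ 2 := by norm_num
      split_ifs <;> constructor <;> linarith
    calc |mu n i * deg σ.E u - 2 * (if u ∈ T then (1:ℝ) else 0)| * (n * pp n i) ≤ 2 * (n * pp n i) :=
          mul_le_mul_of_nonneg_right h1 hP.le
      _ ≤ 4 * (n * pp n i * (1 - mu n i)) := by nlinarith

/-- Filter. `a'_u/p' - a_u/p = -(2/(n p²(1-μ))) (1[u∈T] - π_u)` exactly (the factors `(1-μ)`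
cancel). Drift `0` because `Av 1[u∈T] = π_u` (`Av_mem`). Jump `≤ 2.1/(np²)`.
QV: `Av (1[u∈T]-π)² = π - π² ≤ π ≤ 0.58 μ n p` (as in `step_d`), so
QV `≤ 4.1/(n²p⁴) · 0.58 μ n p ≤ 2.4 μ/(n p³)`. -/
theorem step_a (h : Reg n L i₁) (hi : i < i₁) (hI : Inv i σ) (hG : Good L i σ) (u : Fin n) :
    OneStep i σ (fun i σ => σ.a u / pp n i)
      0 (3 * mu n i / (n * pp n i ^ 3)) (3 / (n * pp n i ^ 2)) := by
  have hi' := hi.le
  have hμ := h.mu_pos hi'
  have hμs := A4d_mu h hi'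
  have hn := h.n_pos
  have hp := h.pp_pos hi'
  have hm : 0 < 1 - mu n i := by
    have : (1 : ℝ) / 10 ^ 6 < 1 := by norm_num
    linarith
  have hm9 : 9 / 10 ≤ 1 - mu n i := by
    have : (1 : ℝ) / 10 ^ 6 ≤ 1 / 10 := by norm_num
    linarith
  have hne := gd_nonempty h hi' hG
  have hpiv0 := A4d_piv_nonneg σ.E u
  have hpiv1 := A4d_piv_le_one σ.E u
  have hpiv := A4d_piv_le h hi' hI hG u
  have hdiff : ∀ T ∈ triangles σ.E, (nxt i σ T).a u / pp n (i + 1) - σ.a u / pp n i =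
      (2 / (n * pp n i ^ 2 * (1 - mu n i))) * (piv σ.E u - (if u ∈ T then 1 else 0)) := by
    intro T hT
    have h1 : (nxt i σ T).a u =
        (1 - mu n i) * σ.a u - 2 / (n * pp n i) * ((if u ∈ T then 1 else 0) - piv σ.E u) := rfl
    rw [h1, h.pp_succ hi]
    field_simp
    ring
  have hK : 0 < n * pp n i ^ 2 * (1 - mu n i) := by positivity
  refine ⟨?_, ?_, ?_⟩
  · show |Av (triangles σ.E) (fun T => (nxt i σ T).a u / pp n (i + 1)) - σ.a u / pp n i| ≤ 0
    have h1 : Av (triangles σ.E) (fun T => (nxt i σ T).a u / pp n (i + 1)) - σ.a u / pp n i = 0 := by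
      have h2 := Av_const hne (σ.a u / pp n i)
      rw [← h2, ← Av_sub, Av_congr hdiff, Av_mul, Av_sub, Av_const hne, Av_mem]
      ring
    rw [h1, abs_zero]
  · show Av (triangles σ.E) (fun T => ((nxt i σ T).a u / pp n (i + 1) - σ.a u / pp n i) ^ 2) ≤ _
    have h1 : ∀ T ∈ triangles σ.E, ((nxt i σ T).a u / pp n (i + 1) - σ.a u / pp n i) ^ 2 =
        (2 / (n * pp n i ^ 2 * (1 - mu n i))) ^ 2 *
          (piv σ.E u ^ 2 + (1 - 2 * piv σ.E u) * (if u ∈ T then (1:ℝ) else 0)) := by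
      intro T hT
      rw [hdiff T hT, mul_pow]
      congr 1
      split_ifs <;> ring
    rw [Av_congr h1, Av_mul, Av_add, Av_const hne, Av_mul, Av_mem]
    have h2 : piv σ.E u ^ 2 + (1 - 2 * piv σ.E u) * piv σ.E u ≤ 29 / 50 * (mu n i * (n * pp n i)) := by
      nlinarith
    have h7 : (81 / 100 : ℝ) ≤ (1 - mu n i) ^ 2 := by nlinarith
    calc (2 / (n * pp n i ^ 2 * (1 - mu n i))) ^ 2 * (piv σ.E u ^ 2 + (1 - 2 * piv σ.E u) * piv σ.E u)
        ≤ (2 / (n * pp n i ^ 2 * (1 - mu n i))) ^ 2 * (29 / 50 * (mu n i * (n * pp n i))) :=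
          mul_le_mul_of_nonneg_left h2 (by positivity)
      _ = (116 / 50 * mu n i / (n * pp n i ^ 3)) * (1 / (1 - mu n i) ^ 2) := by
          field_simp
          ring
      _ ≤ (116 / 50 * mu n i / (n * pp n i ^ 3)) * (100 / 81) := by
          apply mul_le_mul_of_nonneg_left _ (by positivity)
          rw [div_le_div_iff₀ (by positivity) (by norm_num)]
          linarith
      _ ≤ 3 * mu n i / (n * pp n i ^ 3) := by
          have : 0 ≤ mu n i / (n * pp n i ^ 3) := by positivity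
          have e1 : (116 / 50 * mu n i / (n * pp n i ^ 3)) * (100 / 81) = (116 / 50 * (100 / 81)) * (mu n i / (n * pp n i ^ 3)) := by ring
          have e2 : 3 * mu n i / (n * pp n i ^ 3) = 3 * (mu n i / (n * pp n i ^ 3)) := by ring
          rw [e1, e2]
          exact mul_le_mul_of_nonneg_right (by norm_num) this
  · intro T hT
    show |(nxt i σ T).a u / pp n (i + 1) - σ.a u / pp n i| ≤ _
    rw [hdiff T hT, abs_mul, abs_of_pos (div_pos two_pos hK)]
    have h1 : |piv σ.E u - (if u ∈ T then (1:ℝ) else 0)| ≤ 1 := by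
      rw [abs_le]
      split_ifs <;> constructor <;> linarith
    calc 2 / (n * pp n i ^ 2 * (1 - mu n i)) * |piv σ.E u - (if u ∈ T then (1:ℝ) else 0)|
        ≤ 2 / (n * pp n i ^ 2 * (1 - mu n i)) * 1 := mul_le_mul_of_nonneg_left h1 (by positivity)
      _ ≤ 3 / (n * pp n i ^ 2) := by
          rw [mul_one, div_le_div_iff₀ hK (by positivity)]
          have : 0 < (n : ℝ) * pp n i ^ 2 := by positivity
          nlinarith

end Crest.Agent.TRem
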