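import Crest.Agent.TRem.ADefs

/-!
# Row 30, A5: exponential potentials, backward induction
-/

namespace Crest.Agent.TRem

open Finset Crest.CombinatoricsR.TriangleRemoval

variable {n : ℕ}

/-- `e^x ≤ 1 + x + x²` for `x ≤ 1`. (For `x ≤ 0` and `x ∈ [0,1]`; Mathlib has
`Real.abs_exp_sub_one_sub_id_le` for `|x| ≤ 1`; for `x < -1`: `e^x ≤ 1 ≤ 1 + x + x²`.) -/
theorem exp_le_quad {x : ℝ} (hx : x ≤ 1) : Real.exp x ≤ 1 + x + x ^ 2 := by
  by_cases h : -1 ≤ x
  · have h1 : |x| ≤ 1 := abs_le.mpr ⟨h, hx⟩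
    have h2 := (abs_le.mp (Real.abs_exp_sub_one_sub_id_le h1)).2
    linarith
  · have h1 : Real.exp x ≤ 1 := Real.exp_le_one_iff.mpr (by linarith)
    nlinarith

/-- the exponential potential of the observable `Z` with target time `j`. -/
noncomputable def Phi (Z : ℕ → St n → ℝ) (b v : ℕ → ℝ) (tol κ : ℕ → ℝ) (j i : ℕ) (σ : St n) : ℝ :=
  Real.exp (κ j * (Z i σ - tol j + ∑ l ∈ Ico i j, b l) + κ j ^ 2 * ∑ l ∈ Ico i j, v l)

/-- one step: `Av e^{κ(Z'-Z)} ≤ 1 + κ (Av Z' - Z) + κ² Av (Z'-Z)² ≤ 1 + κ b + κ² v ≤ e^{κ b + κ² v}`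
(uses `κ (Z'-Z) ≤ κ B ≤ 1` and `exp_le_quad`). -/
theorem Phi_step (Z : ℕ → St n → ℝ) (b v : ℕ → ℝ) (tol κ : ℕ → ℝ) (B : ℝ) (i j : ℕ) (hij : i < j)
    (σ : St n) (hne : (triangles σ.E).Nonempty) (hκ : 0 ≤ κ j) (hB : κ j * B ≤ 1)
    (hdr : Av (triangles σ.E) (fun T => Z (i + 1) (nxt i σ T)) - Z i σ ≤ b i)
    (hqv : Av (triangles σ.E) (fun T => (Z (i + 1) (nxt i σ T) - Z i σ) ^ 2) ≤ v i)
    (hj : ∀ T ∈ triangles σ.E, Z (i + 1) (nxt i σ T) - Z i σ ≤ B) :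
    Av (triangles σ.E) (fun T => Phi Z b v tol κ j (i + 1) (nxt i σ T)) ≤ Phi Z b v tol κ j i σ := by
  have hb : ∑ l ∈ Ico i j, b l = b i + ∑ l ∈ Ico (i + 1) j, b l :=
    Finset.sum_eq_sum_Ico_succ_bot hij b
  have hv : ∑ l ∈ Ico i j, v l = v i + ∑ l ∈ Ico (i + 1) j, v l :=
    Finset.sum_eq_sum_Ico_succ_bot hij v
  have key : ∀ T, Phi Z b v tol κ j (i + 1) (nxt i σ T) =
      (Phi Z b v tol κ j i σ * Real.exp (-(κ j * b i + κ j ^ 2 * v i))) *
        Real.exp (κ j * (Z (i + 1) (nxt i σ T) - Z i σ)) := by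
    intro T
    unfold Phi
    rw [← Real.exp_add, ← Real.exp_add, hb, hv]
    congr 1
    ring
  rw [Av_congr (fun T _ => key T), Av_mul]
  have hpos : 0 ≤ Phi Z b v tol κ j i σ := (Real.exp_pos _).le
  have h1 : Av (triangles σ.E) (fun T => Real.exp (κ j * (Z (i + 1) (nxt i σ T) - Z i σ))) ≤
      1 + κ j * b i + κ j ^ 2 * v i := by
    calc Av (triangles σ.E) (fun T => Real.exp (κ j * (Z (i + 1) (nxt i σ T) - Z i σ)))
        ≤ Av (triangles σ.E) (fun T => (1 - κ j * Z i σ + κ j * Z (i + 1) (nxt i σ T)) +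
            κ j ^ 2 * (Z (i + 1) (nxt i σ T) - Z i σ) ^ 2) := by
          apply Av_mono
          intro T hT
          have h2 : κ j * (Z (i + 1) (nxt i σ T) - Z i σ) ≤ 1 :=
            (mul_le_mul_of_nonneg_left (hj T hT) hκ).trans hB
          have h3 := exp_le_quad h2
          nlinarith
      _ = 1 + κ j * (Av (triangles σ.E) (fun T => Z (i + 1) (nxt i σ T)) - Z i σ) +
            κ j ^ 2 * Av (triangles σ.E) (fun T => (Z (i + 1) (nxt i σ T) - Z i σ) ^ 2) := by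
          rw [Av_add, Av_add, Av_const hne, Av_mul, Av_mul]
          ring
      _ ≤ 1 + κ j * b i + κ j ^ 2 * v i := by
          have h4 := mul_le_mul_of_nonneg_left hdr hκ
          have h5 := mul_le_mul_of_nonneg_left hqv (sq_nonneg (κ j))
          linarith
  have h2 : 1 + κ j * b i + κ j ^ 2 * v i ≤ Real.exp (κ j * b i + κ j ^ 2 * v i) := by
    have := Real.add_one_le_exp (κ j * b i + κ j ^ 2 * v i)
    linarith
  have h3 : (Phi Z b v tol κ j i σ * Real.exp (-(κ j * b i + κ j ^ 2 * v i))) *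
      Real.exp (κ j * b i + κ j ^ 2 * v i) = Phi Z b v tol κ j i σ := by
    rw [mul_assoc, ← Real.exp_add, neg_add_cancel, Real.exp_zero, mul_one]
  calc _ ≤ (Phi Z b v tol κ j i σ * Real.exp (-(κ j * b i + κ j ^ 2 * v i))) *
      Real.exp (κ j * b i + κ j ^ 2 * v i) :=
        mul_le_mul_of_nonneg_left (h1.trans h2) (mul_nonneg hpos (Real.exp_pos _).le)
    _ = _ := h3

/-- at the target time a violated tolerance makes the potential at least `1`. -/
theorem Phi_bad (Z : ℕ → St n → ℝ) (b v : ℕ → ℝ) (tol κ : ℕ → ℝ) (j : ℕ) (σ : St n)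
    (hκ : 0 ≤ κ j) (hbad : tol j ≤ Z j σ) : 1 ≤ Phi Z b v tol κ j j σ := by
  unfold Phi
  rw [Finset.Ico_self, Finset.sum_empty, Finset.sum_empty, add_zero, mul_zero, add_zero]
  exact Real.one_le_exp (mul_nonneg hκ (sub_nonneg.mpr hbad))

/-- the potential of a family of observables `Z o`, both signs, all target times in `[i, i₁]`. -/
noncomputable def Pot {O : Type} [Fintype O] (Z : O → ℕ → St n → ℝ) (b v tol κ : ℕ → ℝ) (i₁ : ℕ)
    (i : ℕ) (σ : St n) : ℝ :=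
  ∑ o : O, ∑ j ∈ Icc i i₁, (Phi (Z o) b v tol κ j i σ + Phi (fun i σ => - Z o i σ) b v tol κ j i σ)

private theorem Phi_nonneg' (Z : ℕ → St n → ℝ) (b v : ℕ → ℝ) (tol κ : ℕ → ℝ) (j i : ℕ) (σ : St n) :
    0 ≤ Phi Z b v tol κ j i σ := (Real.exp_pos _).le

theorem Pot_nonneg {O : Type} [Fintype O] (Z : O → ℕ → St n → ℝ) (b v tol κ : ℕ → ℝ) (i₁ i : ℕ)
    (σ : St n) : 0 ≤ Pot Z b v tol κ i₁ i σ := by
  unfold Pot
  exact Finset.sum_nonneg fun o _ => Finset.sum_nonneg fun j _ =>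
    add_nonneg (Phi_nonneg' _ _ _ _ _ _ _ _) (Phi_nonneg' _ _ _ _ _ _ _ _)

/-- supermartingale property (the target `j = i` terms are dropped; `OneStep` gives both signs). -/
theorem Pot_step {O : Type} [Fintype O] (Z : O → ℕ → St n → ℝ) (b v tol κ B : ℕ → ℝ) (i₁ i : ℕ)
    (hi : i < i₁) (σ : St n) (hne : (triangles σ.E).Nonempty) (hκ : ∀ j, i < j → j ≤ i₁ → 0 ≤ κ j)
    (hB : ∀ j, i < j → j ≤ i₁ → κ j * B i ≤ 1)
    (h1 : ∀ o, OneStep i σ (Z o) (b i) (v i) (B i)) :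
    Av (triangles σ.E) (fun T => Pot Z b v tol κ i₁ (i + 1) (nxt i σ T)) ≤ Pot Z b v tol κ i₁ i σ := by
  unfold Pot
  rw [Av_sum]
  apply Finset.sum_le_sum
  intro o _
  rw [Av_sum]
  calc ∑ j ∈ Icc (i + 1) i₁, Av (triangles σ.E) (fun T =>
        Phi (Z o) b v tol κ j (i + 1) (nxt i σ T) +
          Phi (fun i σ => - Z o i σ) b v tol κ j (i + 1) (nxt i σ T))
      ≤ ∑ j ∈ Icc (i + 1) i₁, (Phi (Z o) b v tol κ j i σ +
          Phi (fun i σ => - Z o i σ) b v tol κ j i σ) := by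
        apply Finset.sum_le_sum
        intro j hj
        rw [Finset.mem_Icc] at hj
        rw [Av_add]
        have hij : i < j := hj.1
        apply add_le_add
        · apply Phi_step (Z o) b v tol κ (B i) i j hij σ hne (hκ j hij hj.2) (hB j hij hj.2)
          · exact (le_abs_self _).trans (h1 o).drift
          · exact (h1 o).qv
          · intro T hT
            exact (le_abs_self _).trans ((h1 o).jump T hT)
        · apply Phi_step (fun i σ => - Z o i σ) b v tol κ (B i) i j hij σ hne (hκ j hij hj.2)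
            (hB j hij hj.2)
          · have h2 := (h1 o).drift
            have h3 := (abs_le.mp h2).1
            simp only [Av_neg]
            linarith
          · refine le_of_eq_of_le (Av_congr ?_) (h1 o).qv
            intro T _
            ring
          · intro T hT
            have h2 := (abs_le.mp ((h1 o).jump T hT)).1
            linarith
    _ ≤ ∑ j ∈ Icc i i₁, (Phi (Z o) b v tol κ j i σ +
          Phi (fun i σ => - Z o i σ) b v tol κ j i σ) := by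
        apply Finset.sum_le_sum_of_subset_of_nonneg
        · exact Finset.Icc_subset_Icc_left (Nat.le_succ i)
        · intro j _ _
          exact add_nonneg (Phi_nonneg' _ _ _ _ _ _ _ _) (Phi_nonneg' _ _ _ _ _ _ _ _)

theorem Pot_bad {O : Type} [Fintype O] (Z : O → ℕ → St n → ℝ) (b v tol κ : ℕ → ℝ) (i₁ i : ℕ)
    (hi : i ≤ i₁) (σ : St n) (hκ : 0 ≤ κ i) (hbad : ∃ o, tol i ≤ |Z o i σ|) :
    1 ≤ Pot Z b v tol κ i₁ i σ := by
  obtain ⟨o, ho⟩ := hbad
  have h1 : 1 ≤ Phi (Z o) b v tol κ i i σ + Phi (fun i σ => - Z o i σ) b v tol κ i i σ := by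
    rcases le_total 0 (Z o i σ) with h | h
    · rw [abs_of_nonneg h] at ho
      have := Phi_bad (Z o) b v tol κ i σ hκ ho
      have h2 := Phi_nonneg' (fun i σ => - Z o i σ) b v tol κ i i σ
      linarith
    · rw [abs_of_nonpos h] at ho
      have := Phi_bad (fun i σ => - Z o i σ) b v tol κ i σ hκ ho
      have h2 := Phi_nonneg' (Z o) b v tol κ i i σ
      linarith
  unfold Pot
  calc (1:ℝ) ≤ Phi (Z o) b v tol κ i i σ + Phi (fun i σ => - Z o i σ) b v tol κ i i σ := h1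
    _ ≤ ∑ j ∈ Icc i i₁, (Phi (Z o) b v tol κ j i σ +
          Phi (fun i σ => - Z o i σ) b v tol κ j i σ) :=
        Finset.single_le_sum (f := fun j => Phi (Z o) b v tol κ j i σ +
          Phi (fun i σ => - Z o i σ) b v tol κ j i σ)
          (fun j _ => add_nonneg (Phi_nonneg' _ _ _ _ _ _ _ _) (Phi_nonneg' _ _ _ _ _ _ _ _))
          (Finset.mem_Icc.mpr ⟨le_rfl, hi⟩)
    _ ≤ _ := Finset.single_le_sum (f := fun o => ∑ j ∈ Icc i i₁, (Phi (Z o) b v tol κ j i σ +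
          Phi (fun i σ => - Z o i σ) b v tol κ j i σ))
          (fun o _ => Finset.sum_nonneg fun j _ =>
            add_nonneg (Phi_nonneg' _ _ _ _ _ _ _ _) (Phi_nonneg' _ _ _ _ _ _ _ _))
          (Finset.mem_univ o)

private theorem Phi_init (Z : ℕ → St n → ℝ) (b v tol κ δ : ℕ → ℝ) (j : ℕ)
    (σ : St n) (z₀ : ℝ) (hn : 1 ≤ n) (hz : Z 0 σ ≤ z₀)
    (hκ : 0 ≤ κ j)
    (hb : z₀ + ∑ l ∈ range j, b l ≤ tol j - δ j)
    (hv : κ j * ∑ l ∈ range j, v l ≤ δ j / 2)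
    (hδ : 20 * Real.log n ≤ κ j * δ j / 2) :
    Phi Z b v tol κ j 0 σ ≤ 1 / (n : ℝ) ^ 20 := by
  have hnpos : (0:ℝ) < n := by exact_mod_cast hn
  unfold Phi
  rw [← Finset.range_eq_Ico]
  have h1 : Real.exp (-(20 * Real.log n)) = 1 / (n:ℝ) ^ 20 := by
    rw [Real.exp_neg, one_div]
    congr 1
    have : (20:ℝ) * Real.log n = ((20:ℕ):ℝ) * Real.log n := by norm_num
    rw [this, Real.exp_nat_mul, Real.exp_log hnpos]
  rw [← h1]
  apply Real.exp_le_exp.mpr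
  have h2 : κ j * (Z 0 σ - tol j + ∑ l ∈ range j, b l) ≤ κ j * (- δ j) :=
    mul_le_mul_of_nonneg_left (by linarith) hκ
  have h3 : κ j ^ 2 * ∑ l ∈ range j, v l ≤ κ j * (δ j / 2) := by
    have := mul_le_mul_of_nonneg_left hv hκ
    nlinarith
  linarith

/-- initial value: if `|Z₀| + Σ_{l<j} b_l ≤ tol_j - δ_j`, `κ_j Σ_{l<j} v_l ≤ δ_j/2`,
`κ_j δ_j/2 ≥ 20 log n` then every exponential is at most `n^{-20}`. -/
theorem Pot_init {O : Type} [Fintype O] (Z : O → ℕ → St n → ℝ) (b v tol κ δ : ℕ → ℝ) (i₁ : ℕ)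
    (σ : St n) (z₀ : ℝ) (hn : 1 ≤ n) (hz : ∀ o, |Z o 0 σ| ≤ z₀)
    (hκ : ∀ j ≤ i₁, 0 ≤ κ j)
    (hb : ∀ j ≤ i₁, z₀ + ∑ l ∈ range j, b l ≤ tol j - δ j)
    (hv : ∀ j ≤ i₁, κ j * ∑ l ∈ range j, v l ≤ δ j / 2)
    (hδ : ∀ j ≤ i₁, 20 * Real.log n ≤ κ j * δ j / 2) :
    Pot Z b v tol κ i₁ 0 σ ≤ (Fintype.card O) * (2 * (i₁ + 1)) / (n : ℝ) ^ 20 := by
  unfold Pot
  calc ∑ o : O, ∑ j ∈ Icc 0 i₁, (Phi (Z o) b v tol κ j 0 σ +
        Phi (fun i σ => - Z o i σ) b v tol κ j 0 σ)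
      ≤ ∑ o : O, ∑ j ∈ Icc 0 i₁, (2 / (n : ℝ) ^ 20) := by
        apply Finset.sum_le_sum
        intro o _
        apply Finset.sum_le_sum
        intro j hj
        have hj' : j ≤ i₁ := (Finset.mem_Icc.mp hj).2
        have h1 := Phi_init (Z o) b v tol κ δ j σ z₀ hn ((le_abs_self _).trans (hz o)) (hκ j hj')
          (hb j hj') (hv j hj') (hδ j hj')
        have h2 := Phi_init (fun i σ => - Z o i σ) b v tol κ δ j σ z₀ hn
          ((neg_le_abs _).trans (hz o)) (hκ j hj') (hb j hj') (hv j hj') (hδ j hj')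
        have h3 : (2:ℝ) / (n:ℝ) ^ 20 = 1 / (n:ℝ) ^ 20 + 1 / (n:ℝ) ^ 20 := by ring
        rw [h3]
        exact add_le_add h1 h2
    _ = (Fintype.card O) * (2 * (i₁ + 1)) / (n : ℝ) ^ 20 := by
        rw [Finset.sum_const, Finset.sum_const, Nat.card_Icc, Finset.card_univ, nsmul_eq_mul,
          nsmul_eq_mul]
        push_cast
        ring

end Crest.Agent.TRem
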