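import Crest.Agent.TRem.A5
import Crest.Agent.TRem.A2b

/-!
# Row 30, A6: numerical conditions for the potentials
-/

namespace Crest.Agent.TRem

open Finset

/-- the numerical conditions on drift `b`, second moment `v`, jump `B`, tolerance `tol`,
exponent `κ`, slack `δ`, initial value bound `z₀`. -/
structure Num (n i₁ : ℕ) (b v B tol κ δ : ℕ → ℝ) (z₀ : ℝ) : Prop where
  κ0 : ∀ j ≤ i₁, 0 ≤ κ j
  κB : ∀ l j, l < j → j ≤ i₁ → κ j * B l ≤ 1
  hb : ∀ j ≤ i₁, z₀ + ∑ l ∈ range j, b l ≤ tol j - δ j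
  hv : ∀ j ≤ i₁, κ j * ∑ l ∈ range j, v l ≤ δ j / 2
  hδ : ∀ j ≤ i₁, 20 * Real.log n ≤ κ j * δ j / 2

end Crest.Agent.TRem
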