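import Crest.Agent.TRem.A3j

/-!
# Row 30, AC1: triple codegrees after the removal of one triangle

`XX3 u v x w T` = indicator that `w` is lost as a common neighbour of `u, v, x`.
-/

namespace Crest.Agent.TRem

open Finset Crest.CombinatoricsR.TriangleRemoval

variable {n : ℕ} {E : Finset (Sym2 (Fin n))} {T : Finset (Fin n)}

/-- indicator that `w` is lost as a common neighbour of `u, v, x`. -/
def XX3 (u v x w : Fin n) (T : Finset (Fin n)) : ℝ :=
  1 - (1 - II u w T) * (1 - II v w T) * (1 - II x w T)

theorem XX3_nonneg (u v x w : Fin n) (T : Finset (Fin n)) : 0 ≤ XX3 u v x w T := by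
  unfold XX3 II
  split_ifs <;> norm_num

theorem XX3_le_one (u v x w : Fin n) (T : Finset (Fin n)) : XX3 u v x w T ≤ 1 := by
  unfold XX3 II
  split_ifs <;> norm_num

/-- union bound -/
theorem XX3_le (u v x w : Fin n) (T : Finset (Fin n)) :
    XX3 u v x w T ≤ II u w T + II v w T + II x w T := by
  unfold XX3 II
  split_ifs <;> norm_num

/-- Bonferroni -/
theorem XX3_ge (u v x w : Fin n) (T : Finset (Fin n)) :
    II u w T + II v w T + II x w T -
      (II w u T * II w v T + II w u T * II w x T + II w v T * II w x T) ≤ XX3 u v x w T := by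
  unfold XX3 II
  by_cases hu : u ∈ T <;> by_cases hv : v ∈ T <;> by_cases hx : x ∈ T <;> by_cases hw : w ∈ T <;>
    simp [hu, hv, hx, hw]

theorem cod3_sdiff (E : Finset (Sym2 (Fin n))) (T : Finset (Fin n)) (u v x : Fin n) :
    cod3 (E \ T.sym2) u v x =
      cod3 E u v x - ∑ w, adj E u w * adj E v w * adj E x w * XX3 u v x w T := by
  unfold cod3
  rw [← Finset.sum_sub_distrib]
  refine Finset.sum_congr rfl fun w _ => ?_
  rw [adj_sdiff, adj_sdiff, adj_sdiff]
  unfold XX3
  ring

/-- at most two triple common neighbours are lost: a lost `w` is a vertex of `T` different from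
`u, v, x` (`adj_self`), and one of `u, v, x` is a vertex of `T`. -/
theorem sum_XX3_le (hE : E ⊆ allEdges n) (hT : T ∈ triangles E) {u v x : Fin n} :
    ∑ w, adj E u w * adj E v w * adj E x w * XX3 u v x w T ≤ 2 := by
  have hterm : ∀ w, 0 ≤ adj E u w * adj E v w * adj E x w ∧
      adj E u w * adj E v w * adj E x w ≤ 1 := by
    intro w
    have a1 := adj_nonneg E u w
    have a2 := adj_le_one E u w
    have b1 := adj_nonneg E v w
    have b2 := adj_le_one E v w
    have c1 := adj_nonneg E x w
    have c2 := adj_le_one E x w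
    exact ⟨mul_nonneg (mul_nonneg a1 b1) c1, mul_le_one₀ (mul_le_one₀ a2 b1 b2) c1 c2⟩
  by_cases h : ∃ z, z ∈ T ∧ (z = u ∨ z = v ∨ z = x)
  · obtain ⟨z, hzT, hz⟩ := h
    have hc : (T.erase z).card ≤ 2 := by
      rw [Finset.card_erase_of_mem hzT, mem_tri_card hT]
    calc ∑ w, adj E u w * adj E v w * adj E x w * XX3 u v x w T
        ≤ ∑ w, (if w ∈ T.erase z then (1 : ℝ) else 0) := by
          refine Finset.sum_le_sum fun w _ => ?_
          obtain ⟨t1, t2⟩ := hterm w
          by_cases h1 : w = z
          · have h0 : adj E u w * adj E v w * adj E x w = 0 := by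
              rcases hz with rfl | rfl | rfl
              · rw [h1, adj_self hE]; ring
              · rw [h1, adj_self hE]; ring
              · rw [h1, adj_self hE]; ring
            rw [h0, zero_mul]
            split_ifs <;> norm_num
          by_cases h3 : w ∈ T
          · rw [if_pos (by simp [h1, h3])]
            exact mul_le_one₀ t2 (XX3_nonneg _ _ _ _ _) (XX3_le_one _ _ _ _ _)
          · have h4 : XX3 u v x w T = 0 := by
              unfold XX3 II
              simp [h3]
            rw [h4, mul_zero]
            split_ifs <;> norm_num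
      _ = ((T.erase z).card : ℝ) := by
          rw [Finset.sum_ite_mem, Finset.univ_inter, Finset.sum_const, nsmul_eq_mul, mul_one]
      _ ≤ 2 := by exact_mod_cast hc
  · have : ∑ w, adj E u w * adj E v w * adj E x w * XX3 u v x w T = 0 := by
      refine Finset.sum_eq_zero fun w _ => ?_
      have hu : u ∉ T := fun hh => h ⟨u, hh, Or.inl rfl⟩
      have hv : v ∉ T := fun hh => h ⟨v, hh, Or.inr (Or.inl rfl)⟩
      have hx : x ∉ T := fun hh => h ⟨x, hh, Or.inr (Or.inr rfl)⟩
      have h4 : XX3 u v x w T = 0 := by
        unfold XX3 II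
        simp [hu, hv, hx]
      rw [h4, mul_zero]
    rw [this]
    norm_num

end Crest.Agent.TRem
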