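import Crest.Agent.TRem.GDefs

/-!
# Row 30, part A: one-step bounds, basic lemmas on averages
-/

namespace Crest.Agent.TRem

open Finset Crest.CombinatoricsR.TriangleRemoval

variable {n : ℕ}

/-- one-step bounds for an observable `Z`: drift `b`, second moment `v`, jump `B`. -/
structure OneStep (i : ℕ) (σ : St n) (Z : ℕ → St n → ℝ) (b v B : ℝ) : Prop where
  drift : |Av (triangles σ.E) (fun T => Z (i + 1) (nxt i σ T)) - Z i σ| ≤ b
  qv : Av (triangles σ.E) (fun T => (Z (i + 1) (nxt i σ T) - Z i σ) ^ 2) ≤ v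
  jump : ∀ T ∈ triangles σ.E, |Z (i + 1) (nxt i σ T) - Z i σ| ≤ B

/-- indicator that both `a` and `b` are vertices of `T` -/
def II (a b : Fin n) (T : Finset (Fin n)) : ℝ := if a ∈ T ∧ b ∈ T then 1 else 0

section Av
variable {α : Type} {A : Finset α}

theorem Av_mono {f g : α → ℝ} (h : ∀ t ∈ A, f t ≤ g t) : Av A f ≤ Av A g := by
  unfold Av
  exact mul_le_mul_of_nonneg_left (Finset.sum_le_sum h) (by positivity)

theorem Av_congr {f g : α → ℝ} (h : ∀ t ∈ A, f t = g t) : Av A f = Av A g := by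
  unfold Av
  rw [Finset.sum_congr rfl h]

theorem Av_const (hA : A.Nonempty) (c : ℝ) : Av A (fun _ => c) = c := by
  unfold Av
  rw [Finset.sum_const, nsmul_eq_mul, ← mul_assoc, inv_mul_cancel₀, one_mul]
  exact_mod_cast hA.card_pos.ne'

theorem Av_add (f g : α → ℝ) : Av A (fun t => f t + g t) = Av A f + Av A g := by
  unfold Av
  rw [Finset.sum_add_distrib, mul_add]

theorem Av_sub (f g : α → ℝ) : Av A (fun t => f t - g t) = Av A f - Av A g := by
  unfold Av
  rw [Finset.sum_sub_distrib, mul_sub]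

theorem Av_neg (f : α → ℝ) : Av A (fun t => - f t) = - Av A f := by
  unfold Av
  rw [Finset.sum_neg_distrib, mul_neg]

theorem Av_mul (c : ℝ) (f : α → ℝ) : Av A (fun t => c * f t) = c * Av A f := by
  unfold Av
  rw [← Finset.mul_sum]
  ring

theorem Av_sum {β : Type} (s : Finset β) (f : β → α → ℝ) :
    Av A (fun t => ∑ x ∈ s, f x t) = ∑ x ∈ s, Av A (f x) := by
  unfold Av
  rw [Finset.sum_comm, Finset.mul_sum]

theorem Av_nonneg {f : α → ℝ} (h : ∀ t ∈ A, 0 ≤ f t) : 0 ≤ Av A f := by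
  unfold Av
  exact mul_nonneg (by positivity) (Finset.sum_nonneg h)

theorem abs_Av_le {f : α → ℝ} : |Av A f| ≤ Av A (fun t => |f t|) := by
  unfold Av
  rw [abs_mul, abs_of_nonneg (by positivity : (0:ℝ) ≤ ((A.card : ℝ))⁻¹)]
  exact mul_le_mul_of_nonneg_left (Finset.abs_sum_le_sum_abs _ _) (by positivity)

theorem Av_le_of_le (hA : A.Nonempty) {f : α → ℝ} {c : ℝ} (h : ∀ t ∈ A, f t ≤ c) : Av A f ≤ c :=
  (Av_mono h).trans_eq (Av_const hA c)

end Av

end Crest.Agent.TRem
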