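import Crest.Agent.TRem.AC2

/-!
# Row 30, AK1: the family `k`: decomposition of one step, the loss part `Nk`

`k'_{u;v} - k_{u;v} = PPk - Nk`, `PPk = Σ_w A_uw A_vw (ρ'_uw - ρ_uw)`,
`Nk = Σ_w A_uw A_vw X_w ρ'_uw` (`X_w = XX u v w T` = indicator that the common neighbour `w` is lost).
-/

namespace Crest.Agent.TRem

open Finset Crest.CombinatoricsR.TriangleRemoval

variable {n : ℕ} {L : ℝ} {i₁ i : ℕ} {σ : St n}

/-- change of `ρ` over the common neighbours. -/
noncomputable def PPk (i : ℕ) (σ : St n) (u v : Fin n) (T : Finset (Fin n)) : ℝ :=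
  ∑ w, adj σ.E u w * adj σ.E v w * (rho (i + 1) (nxt i σ T) u w - rho i σ u w)

/-- the contribution of the lost common neighbours. -/
noncomputable def Nk (i : ℕ) (σ : St n) (u v : Fin n) (T : Finset (Fin n)) : ℝ :=
  ∑ w, adj σ.E u w * adj σ.E v w * (XX u v w T * rho (i + 1) (nxt i σ T) u w)

theorem kf_step (i : ℕ) (σ : St n) (u v : Fin n) (T : Finset (Fin n)) :
    kf (i + 1) (nxt i σ T) u v - kf i σ u v = PPk i σ u v T - Nk i σ u v T := by
  unfold kf PPk Nk
  rw [← Finset.sum_sub_distrib, ← Finset.sum_sub_distrib]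
  refine Finset.sum_congr rfl fun w _ => ?_
  have hE : (nxt i σ T).E = σ.E \ T.sym2 := rfl
  rw [hE, adj_sdiff, adj_sdiff]
  unfold XX
  ring

private theorem AK1_pow (h : Reg n L i₁) (k : ℕ) (hk : 1 ≤ k) : 1 / L ^ k ≤ 1 / 10 ^ 6 := by
  have hL := h.L6
  have h1 : (1 : ℝ) ≤ L := le_trans (by norm_num) hL
  have h2 : L ≤ L ^ k := le_self_pow₀ h1 (by omega)
  exact one_div_le_one_div_of_le (by norm_num) (hL.trans h2)

private theorem AK1_x (h : Reg n L i₁) (hi : i ≤ i₁) : L / Real.sqrt (yb n i) ≤ 1 / 10 ^ 6 :=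
  (h.x_le hi).trans (AK1_pow h 9 (by norm_num))

private theorem AK1_x0 (h : Reg n L i₁) (hi : i ≤ i₁) : 0 < L / Real.sqrt (yb n i) :=
  div_pos h.L_pos (Real.sqrt_pos.2 (h.yb_pos hi))

private theorem AK1_xy (h : Reg n L i₁) (hi : i ≤ i₁) : (L / Real.sqrt (yb n i)) ^ 2 * yb n i = L ^ 2 := by
  have hy := h.yb_pos hi
  rw [div_pow, Real.sq_sqrt hy.le]
  field_simp

private theorem AK1_7 (h : Reg n L i₁) (hi : i ≤ i₁) : 7 / yb n i ≤ (L / Real.sqrt (yb n i)) / 20 := by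
  have hy := h.yb_pos hi
  have hx := AK1_x h hi
  have hx0 := AK1_x0 h hi
  have hxy := AK1_xy h hi
  have hL : (1 : ℝ) ≤ L ^ 2 := one_le_pow₀ (le_trans (by norm_num) h.L6)
  rw [div_le_iff₀ hy]
  generalize L / Real.sqrt (yb n i) = x at *
  have h1 : x * (x * yb n i) = L ^ 2 := by rw [← hxy]; ring
  have h2 : 10 ^ 6 ≤ x * yb n i := by
    by_contra hc
    push Not at hc
    have h3 : x * (x * yb n i) < x * 10 ^ 6 := mul_lt_mul_of_pos_left hc hx0
    have h4 : x * 10 ^ 6 ≤ 1 := by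
      have := mul_le_mul_of_nonneg_right hx (by norm_num : (0:ℝ) ≤ 10 ^ 6)
      linarith
    linarith
  linarith

/-- the mass of the lost neighbours -/
private theorem AK1_S0 (σ : St n) (u v : Fin n) (T : Finset (Fin n)) (w : Fin n) :
    0 ≤ adj σ.E u w * adj σ.E v w * XX u v w T :=
  mul_nonneg (mul_nonneg (adj_nonneg _ _ _) (adj_nonneg _ _ _)) (XX_nonneg _ _ _ _)

/-- `u ≠ w` when `A_uw A_vw ≠ 0` -/
private theorem AK1_cases (hI : Inv i σ) (u v w : Fin n) :
    adj σ.E u w * adj σ.E v w = 0 ∨ (adj σ.E u w = 1 ∧ adj σ.E v w = 1 ∧ u ≠ w ∧ v ≠ w) := by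
  rcases adj_eq_zero_or_one σ.E u w with h | h
  · left; rw [h, zero_mul]
  · rcases adj_eq_zero_or_one σ.E v w with h' | h'
    · left; rw [h', mul_zero]
    · right
      refine ⟨h, h', ?_, ?_⟩
      · rintro rfl; rw [adj_self hI.sub] at h; exact zero_ne_one h
      · rintro rfl; rw [adj_self hI.sub] at h'; exact zero_ne_one h'

private theorem AK1_abs (h : Reg n L i₁) (hi : i < i₁) (hI : Inv i σ) (hG : Good L i σ)
    {T : Finset (Fin n)} (hT : T ∈ triangles σ.E) {u v : Fin n} :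
    |Nk i σ u v T| ≤ 21 / 20 * (L / Real.sqrt (yb n i)) *
      ∑ w, adj σ.E u w * adj σ.E v w * XX u v w T := by
  unfold Nk
  refine (Finset.abs_sum_le_sum_abs _ _).trans ?_
  rw [Finset.mul_sum]
  refine Finset.sum_le_sum (fun w _ => ?_)
  rcases AK1_cases hI u v w with h0 | ⟨h1, h2, huw, hvw⟩
  · rw [h0]; simp
  · rw [h1, h2, one_mul, one_mul, one_mul, abs_mul, abs_of_nonneg (XX_nonneg _ _ _ _), mul_comm]
    refine mul_le_mul_of_nonneg_right ?_ (XX_nonneg _ _ _ _)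
    have h3 := hG.rho u w huw
    have h4 := gd_jump_rho h hi hI hG hT huw
    have h5 := AK1_7 h hi.le
    have h6 : rho (i + 1) (nxt i σ T) u w = rho i σ u w + (rho (i + 1) (nxt i σ T) u w - rho i σ u w) := by ring
    rw [h6]
    refine (abs_add_le _ _).trans ?_
    linarith

/-- `|ρ'| ≤ |ρ| + 7/ȳ ≤ 1.05 x`, and at most two common neighbours are lost (`sum_XX_le`). -/
theorem gd_Nk_le (h : Reg n L i₁) (hi : i < i₁) (hI : Inv i σ) (hG : Good L i σ)
    {T : Finset (Fin n)} (hT : T ∈ triangles σ.E) {u v : Fin n} (huv : u ≠ v) :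
    |Nk i σ u v T| ≤ 21 / 10 * (L / Real.sqrt (yb n i)) := by
  have h1 := AK1_abs h hi hI hG hT (u := u) (v := v)
  have h2 := sum_XX_le hI.sub hT huv
  have hx0 := AK1_x0 h hi.le
  calc |Nk i σ u v T| ≤ 21 / 20 * (L / Real.sqrt (yb n i)) *
        ∑ w, adj σ.E u w * adj σ.E v w * XX u v w T := h1
    _ ≤ 21 / 20 * (L / Real.sqrt (yb n i)) * 2 := mul_le_mul_of_nonneg_left h2 (by positivity)
    _ = 21 / 10 * (L / Real.sqrt (yb n i)) := by ring

/-- `Nk² ≤ (1.05 x)² (Σ A A X)² ≤ 2 (1.05x)² Σ A A X`, `Av Σ A A X ≤ 2.2 μ ȳ` (`gd_Av_sum_XX_le`),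
`x² ȳ = L²`. -/
theorem gd_Nk_qv (h : Reg n L i₁) (hi : i < i₁) (hI : Inv i σ) (hG : Good L i σ)
    {u v : Fin n} (huv : u ≠ v) :
    Av (triangles σ.E) (fun T => (Nk i σ u v T) ^ 2) ≤ 5 * mu n i * L ^ 2 := by
  have hx0 := AK1_x0 h hi.le
  have hxy := AK1_xy h hi.le
  have hμ := h.mu_pos hi.le
  have h1 : ∀ T ∈ triangles σ.E, (Nk i σ u v T) ^ 2 ≤
      (441 / 200 * (L / Real.sqrt (yb n i)) ^ 2) * ∑ w, adj σ.E u w * adj σ.E v w * XX u v w T := by
    intro T hT
    have h2 := AK1_abs h hi hI hG hT (u := u) (v := v)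
    have h3 := sum_XX_le hI.sub hT huv
    have h4 : 0 ≤ ∑ w, adj σ.E u w * adj σ.E v w * XX u v w T :=
      Finset.sum_nonneg (fun w _ => AK1_S0 σ u v T w)
    generalize (∑ w, adj σ.E u w * adj σ.E v w * XX u v w T) = S at *
    rw [← sq_abs]
    calc |Nk i σ u v T| ^ 2 ≤ (21 / 20 * (L / Real.sqrt (yb n i)) * S) ^ 2 :=
          pow_le_pow_left₀ (abs_nonneg _) h2 2
      _ = (21 / 20 * (L / Real.sqrt (yb n i))) ^ 2 * (S * S) := by ring
      _ ≤ (21 / 20 * (L / Real.sqrt (yb n i))) ^ 2 * (2 * S) := by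
          apply mul_le_mul_of_nonneg_left _ (by positivity)
          exact mul_le_mul_of_nonneg_right h3 h4
      _ = _ := by ring
  refine (Av_mono h1).trans ?_
  rw [Av_mul]
  have h5 := gd_Av_sum_XX_le h hi.le hI hG huv
  calc 441 / 200 * (L / Real.sqrt (yb n i)) ^ 2 *
        Av (triangles σ.E) (fun T => ∑ w, adj σ.E u w * adj σ.E v w * XX u v w T)
      ≤ 441 / 200 * (L / Real.sqrt (yb n i)) ^ 2 * (11 / 5 * (mu n i * yb n i)) :=
        mul_le_mul_of_nonneg_left h5 (by positivity)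
    _ = 441 / 200 * (11 / 5) * mu n i * ((L / Real.sqrt (yb n i)) ^ 2 * yb n i) := by ring
    _ = 441 / 200 * (11 / 5) * mu n i * L ^ 2 := by rw [hxy]
    _ ≤ 5 * mu n i * L ^ 2 := by
        have : 0 ≤ mu n i * L ^ 2 := by positivity
        linarith

/-- `Av Nk = Σ A A ρ_uw Av X_w + Σ A A Av(X_w (ρ'-ρ))`. First sum: `Av X_w = μ(2+r_uw+r_vw)/θ -
A_uv μ/(θȳ)` (`gd_Av_XX_eq`), so it is `(2μ/θ) k + (μ/θ) Σ A A ρ (r+r) - A_uv (μ/(θȳ)) k`, with
`|Σ A A ρ (r + r)| ≤ y · x · 6x ≤ 6.06 L²` and `|k|/ȳ ≤ 1`. Second sum: `|ρ'-ρ| ≤ 7/ȳ`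
(`gd_jump_rho`), `Σ A A Av X_w ≤ 2.2 μ ȳ`, so it is `≤ 15.4 μ`. -/
theorem gd_Nk_mean (h : Reg n L i₁) (hi : i < i₁) (hI : Inv i σ) (hG : Good L i σ)
    {u v : Fin n} (huv : u ≠ v) :
    |Av (triangles σ.E) (fun T => Nk i σ u v T) - 2 * mu n i / th i σ.E * kf i σ u v| ≤
      8 * mu n i * L ^ 2 := by
  have hx0 := AK1_x0 h hi.le
  have hx := AK1_x h hi.le
  have hxy := AK1_xy h hi.le
  have hμ := h.mu_pos hi.le
  have hy := h.yb_pos hi.le
  have hθ := gd_th_ge h hi.le hG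
  have hth : 0 < th i σ.E := lt_of_lt_of_le (by norm_num) hθ
  have hcod := gd_cod_le h hi.le hG huv
  have hcod0 : 0 ≤ cod σ.E u v :=
    Finset.sum_nonneg (fun w _ => mul_nonneg (adj_nonneg _ _ _) (adj_nonneg _ _ _))
  have hL6 := h.L6
  set x := L / Real.sqrt (yb n i) with hxdef
  -- decomposition
  have e1 : Av (triangles σ.E) (fun T => Nk i σ u v T) =
      (∑ w, adj σ.E u w * adj σ.E v w * (rho i σ u w * Av (triangles σ.E) (XX u v w))) +
      Av (triangles σ.E) (fun T => ∑ w, adj σ.E u w * adj σ.E v w *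
        (XX u v w T * (rho (i + 1) (nxt i σ T) u w - rho i σ u w))) := by
    have h1 : (fun T => Nk i σ u v T) = fun T =>
        (∑ w, adj σ.E u w * adj σ.E v w * rho i σ u w * XX u v w T) +
        ∑ w, adj σ.E u w * adj σ.E v w * (XX u v w T * (rho (i + 1) (nxt i σ T) u w - rho i σ u w)) := by
      funext T
      unfold Nk
      rw [← Finset.sum_add_distrib]
      refine Finset.sum_congr rfl (fun w _ => ?_)
      ring
    rw [h1, Av_add, Av_sum]
    congr 1
    refine Finset.sum_congr rfl (fun w _ => ?_)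
    rw [Av_mul]; ring
  -- first sum
  have e2 : (∑ w, adj σ.E u w * adj σ.E v w * (rho i σ u w * Av (triangles σ.E) (XX u v w))) =
      2 * mu n i / th i σ.E * kf i σ u v +
      (mu n i / th i σ.E) * (∑ w, adj σ.E u w * adj σ.E v w * (rho i σ u w * (rr i σ.E u w + rr i σ.E v w))) -
      adj σ.E u v * (mu n i / (th i σ.E * yb n i)) * kf i σ u v := by
    unfold kf
    rw [Finset.mul_sum, Finset.mul_sum, Finset.mul_sum, ← Finset.sum_add_distrib, ← Finset.sum_sub_distrib]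
    refine Finset.sum_congr rfl (fun w _ => ?_)
    rcases AK1_cases hI u v w with h0 | ⟨h1, h2, huw, hvw⟩
    · rw [h0]; ring
    · rw [gd_Av_XX_eq h hi.le hI hG huv h1 h2, h1, h2]
      ring
  have b1 : |∑ w, adj σ.E u w * adj σ.E v w * (rho i σ u w * (rr i σ.E u w + rr i σ.E v w))| ≤
      cod σ.E u v * (6 * x ^ 2) := by
    refine (Finset.abs_sum_le_sum_abs _ _).trans ?_
    unfold cod
    rw [Finset.sum_mul]
    refine Finset.sum_le_sum (fun w _ => ?_)
    rcases AK1_cases hI u v w with h0 | ⟨h1, h2, huw, hvw⟩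
    · rw [h0]; simp
    · rw [h1, h2, one_mul, one_mul, one_mul, abs_mul]
      have h3 := hG.rho u w huw
      have h4 := gd_rr_le h hi.le hG huw
      have h5 := gd_rr_le h hi.le hG hvw
      have h6 : |rr i σ.E u w + rr i σ.E v w| ≤ 6 * x := (abs_add_le _ _).trans (by rw [hxdef]; linarith)
      calc |rho i σ u w| * |rr i σ.E u w + rr i σ.E v w| ≤ x * (6 * x) :=
            mul_le_mul h3 h6 (abs_nonneg _) hx0.le
        _ = 6 * x ^ 2 := by ring
  have b2 : |kf i σ u v| ≤ cod σ.E u v * x := by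
    unfold kf cod
    refine (Finset.abs_sum_le_sum_abs _ _).trans ?_
    rw [Finset.sum_mul]
    refine Finset.sum_le_sum (fun w _ => ?_)
    rcases AK1_cases hI u v w with h0 | ⟨h1, h2, huw, hvw⟩
    · rw [h0]; simp
    · rw [h1, h2, one_mul, one_mul, one_mul]
      exact hG.rho u w huw
  have b3 : |Av (triangles σ.E) (fun T => ∑ w, adj σ.E u w * adj σ.E v w *
        (XX u v w T * (rho (i + 1) (nxt i σ T) u w - rho i σ u w)))| ≤ 77 / 5 * mu n i := by
    refine abs_Av_le.trans ?_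
    have h1 : ∀ T ∈ triangles σ.E, |∑ w, adj σ.E u w * adj σ.E v w *
        (XX u v w T * (rho (i + 1) (nxt i σ T) u w - rho i σ u w))| ≤
        7 / yb n i * ∑ w, adj σ.E u w * adj σ.E v w * XX u v w T := by
      intro T hT
      refine (Finset.abs_sum_le_sum_abs _ _).trans ?_
      rw [Finset.mul_sum]
      refine Finset.sum_le_sum (fun w _ => ?_)
      rcases AK1_cases hI u v w with h0 | ⟨h1, h2, huw, hvw⟩
      · rw [h0]; simp
      · rw [h1, h2, one_mul, one_mul, one_mul, abs_mul, abs_of_nonneg (XX_nonneg _ _ _ _), mul_comm]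
        exact mul_le_mul_of_nonneg_right (gd_jump_rho h hi hI hG hT huw) (XX_nonneg _ _ _ _)
    refine (Av_mono h1).trans ?_
    rw [Av_mul]
    calc 7 / yb n i * Av (triangles σ.E) (fun T => ∑ w, adj σ.E u w * adj σ.E v w * XX u v w T)
        ≤ 7 / yb n i * (11 / 5 * (mu n i * yb n i)) :=
          mul_le_mul_of_nonneg_left (gd_Av_sum_XX_le h hi.le hI hG huv) (by positivity)
      _ = 77 / 5 * mu n i := by field_simp; ring
  have hμθ : mu n i / th i σ.E ≤ 100 / 99 * mu n i := by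
    rw [div_le_iff₀ hth]; nlinarith
  have hμθ0 : 0 < mu n i / th i σ.E := div_pos hμ hth
  have c1 : |(mu n i / th i σ.E) * (∑ w, adj σ.E u w * adj σ.E v w * (rho i σ u w * (rr i σ.E u w + rr i σ.E v w)))| ≤
      7 * mu n i * L ^ 2 := by
    rw [abs_mul, abs_of_pos hμθ0]
    calc mu n i / th i σ.E * |∑ w, adj σ.E u w * adj σ.E v w * (rho i σ u w * (rr i σ.E u w + rr i σ.E v w))|
        ≤ (100 / 99 * mu n i) * ((101 / 100 * yb n i) * (6 * x ^ 2)) := by
          refine mul_le_mul hμθ (b1.trans ?_) (abs_nonneg _) (by positivity)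
          exact mul_le_mul_of_nonneg_right hcod (by positivity)
      _ = (100 / 99 * (101 / 100) * 6) * mu n i * (x ^ 2 * yb n i) := by ring
      _ = (100 / 99 * (101 / 100) * 6) * mu n i * L ^ 2 := by rw [hxy]
      _ ≤ 7 * mu n i * L ^ 2 := by
          have : 0 ≤ mu n i * L ^ 2 := by positivity
          linarith
  have c2 : |adj σ.E u v * (mu n i / (th i σ.E * yb n i)) * kf i σ u v| ≤ mu n i := by
    have h1 : adj σ.E u v * (mu n i / (th i σ.E * yb n i)) * kf i σ u v =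
        adj σ.E u v * (mu n i / th i σ.E) * (kf i σ u v / yb n i) := by
      field_simp
    rw [h1, abs_mul, abs_of_nonneg (mul_nonneg (adj_nonneg _ _ _) hμθ0.le), abs_div, abs_of_pos hy]
    have h2 : |kf i σ u v| / yb n i ≤ 1 / 10 := by
      rw [div_le_iff₀ hy]
      calc |kf i σ u v| ≤ cod σ.E u v * x := b2
        _ ≤ (101 / 100 * yb n i) * (1 / 10 ^ 6) := mul_le_mul hcod hx hx0.le (by positivity)
        _ ≤ 1 / 10 * yb n i := by nlinarith
    calc adj σ.E u v * (mu n i / th i σ.E) * (|kf i σ u v| / yb n i)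
        ≤ 1 * (100 / 99 * mu n i) * (1 / 10) := by
          refine mul_le_mul ?_ h2 (by positivity) (by positivity)
          exact mul_le_mul (adj_le_one _ _ _) hμθ hμθ0.le (by norm_num)
      _ ≤ mu n i := by linarith
  have e3 : Av (triangles σ.E) (fun T => Nk i σ u v T) - 2 * mu n i / th i σ.E * kf i σ u v =
      (mu n i / th i σ.E) * (∑ w, adj σ.E u w * adj σ.E v w * (rho i σ u w * (rr i σ.E u w + rr i σ.E v w))) -
      adj σ.E u v * (mu n i / (th i σ.E * yb n i)) * kf i σ u v +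
      Av (triangles σ.E) (fun T => ∑ w, adj σ.E u w * adj σ.E v w *
        (XX u v w T * (rho (i + 1) (nxt i σ T) u w - rho i σ u w))) := by
    rw [e1, e2]; ring
  rw [e3]
  have hL2 : (10 ^ 12 : ℝ) ≤ L ^ 2 := by nlinarith
  have hfin : 7 * mu n i * L ^ 2 + mu n i + 77 / 5 * mu n i ≤ 8 * mu n i * L ^ 2 := by
    nlinarith
  refine le_trans ?_ hfin
  refine (abs_add_le _ _).trans (add_le_add ?_ b3)
  exact (abs_sub _ _).trans (add_le_add c1 c2)

end Crest.Agent.TRem
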