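import Crest.Agent.TRem.AK1

/-!
# Row 30, AK2: explicit form of `PPk`

`G(T) = Σ_{w,x} A_uw A_vw A_ux A_wx X_{uwx}(T)` is the total loss of the codegrees `y_uw`, `w ∈ N(u,v)`.
-/

namespace Crest.Agent.TRem

open Finset Crest.CombinatoricsR.TriangleRemoval

variable {n : ℕ} {L : ℝ} {i₁ i : ℕ} {σ : St n}

/-- total loss of the codegrees `y_uw`, `w ∈ N(u,v)`. -/
noncomputable def GGk (E : Finset (Sym2 (Fin n))) (u v : Fin n) (T : Finset (Fin n)) : ℝ :=
  ∑ w, adj E u w * adj E v w * ∑ x, adj E u x * adj E w x * XX u w x T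

/-- number of common neighbours of `u, v` in `T`. -/
noncomputable def WTk (E : Finset (Sym2 (Fin n))) (u v : Fin n) (T : Finset (Fin n)) : ℝ :=
  ∑ w, adj E u w * adj E v w * (if w ∈ T then 1 else 0)

/-- the deterministic part of `PPk`. -/
noncomputable def D0k (i : ℕ) (σ : St n) (u v : Fin n) : ℝ :=
  ∑ w, adj σ.E u w * adj σ.E v w *
    ((1 + rr i σ.E u w) * (((1 - mu n i) ^ 2)⁻¹ - 1) + mu n i * (σ.a u + σ.a w)
      - 2 / (n * pp n i) * (piv σ.E u + piv σ.E w))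

private theorem AK2_mu (h : Reg n L i₁) (hi : i ≤ i₁) : mu n i ≤ 1 / 10 ^ 6 := by
  have hL := h.L_pos
  have h6 := h.L6
  have hL1 : (1:ℝ) ≤ L := by linarith [show (1:ℝ) ≤ 10 ^ 6 by norm_num]
  refine (h.mu_small hi).trans ?_
  apply one_div_le_one_div_of_le (by positivity)
  calc (10:ℝ) ^ 6 ≤ L := h6
    _ = L ^ 1 := (pow_one L).symm
    _ ≤ L ^ 39 := pow_le_pow_right₀ hL1 (by norm_num)

/-- Algebra: `ρ'_uw - ρ_uw = [y'_uw/(ȳ(1-μ)²) - y_uw/ȳ] - (a'_u - a_u) - (a'_w - a_w)` with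
`y' = y - Σ_x A_ux A_wx X_{uwx}` (`cod_sdiff`), `ȳ_{i+1} = ȳ(1-μ)²` (`Reg.yb_succ`),
`a'_u - a_u = -μ a_u - (2/(np)) (1[u∈T] - π_u)`, `y_uw = ȳ (1 + r_uw)` (`gd_cod_eq`). -/
theorem PPk_eq (h : Reg n L i₁) (hi : i < i₁) (u v : Fin n) (T : Finset (Fin n)) :
    PPk i σ u v T = - (GGk σ.E u v T / (yb n i * (1 - mu n i) ^ 2))
      + 2 / (n * pp n i) * ((if u ∈ T then 1 else 0) * cod σ.E u v + WTk σ.E u v T)
      + D0k i σ u v := by
  have hy := (h.yb_pos hi.le).ne'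
  have hmu := AK2_mu h hi.le
  have hm : (1 - mu n i) ≠ 0 := by
    have : mu n i < 1 := lt_of_le_of_lt hmu (by norm_num)
    linarith
  have key : ∀ w, rho (i + 1) (nxt i σ T) u w - rho i σ u w =
      - ((∑ x, adj σ.E u x * adj σ.E w x * XX u w x T) / (yb n i * (1 - mu n i) ^ 2))
      + 2 / (n * pp n i) * ((if u ∈ T then 1 else 0) + (if w ∈ T then 1 else 0))
      + ((1 + rr i σ.E u w) * (((1 - mu n i) ^ 2)⁻¹ - 1) + mu n i * (σ.a u + σ.a w)
      - 2 / (n * pp n i) * (piv σ.E u + piv σ.E w)) := by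
    intro w
    have h1 : rho (i + 1) (nxt i σ T) u w =
        (cod σ.E u w - ∑ x, adj σ.E u x * adj σ.E w x * XX u w x T) /
          (yb n i * (1 - mu n i) ^ 2) - 1
        - ((1 - mu n i) * σ.a u - 2 / (n * pp n i) * ((if u ∈ T then 1 else 0) - piv σ.E u))
        - ((1 - mu n i) * σ.a w - 2 / (n * pp n i) * ((if w ∈ T then 1 else 0) - piv σ.E w)) := by
      unfold rho rr
      have hE : (nxt i σ T).E = σ.E \ T.sym2 := rfl
      rw [hE, cod_sdiff, h.yb_succ hi]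
      rfl
    rw [h1]
    unfold rho
    rw [gd_cod_eq h hi.le]
    have h2 : (yb n i * (1 + rr i σ.E u w) - ∑ x, adj σ.E u x * adj σ.E w x * XX u w x T) /
          (yb n i * (1 - mu n i) ^ 2) = (1 + rr i σ.E u w) * ((1 - mu n i) ^ 2)⁻¹ -
          (∑ x, adj σ.E u x * adj σ.E w x * XX u w x T) / (yb n i * (1 - mu n i) ^ 2) := by
      rw [sub_div]
      congr 1
      field_simp
    rw [h2]
    ring
  unfold PPk
  have h3 : ∑ w, adj σ.E u w * adj σ.E v w * (rho (i + 1) (nxt i σ T) u w - rho i σ u w) =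
      ∑ w, (- (adj σ.E u w * adj σ.E v w * (∑ x, adj σ.E u x * adj σ.E w x * XX u w x T)
          / (yb n i * (1 - mu n i) ^ 2))
        + 2 / (n * pp n i) * ((if u ∈ T then 1 else 0) * (adj σ.E u w * adj σ.E v w) +
            adj σ.E u w * adj σ.E v w * (if w ∈ T then 1 else 0))
        + adj σ.E u w * adj σ.E v w *
          ((1 + rr i σ.E u w) * (((1 - mu n i) ^ 2)⁻¹ - 1) + mu n i * (σ.a u + σ.a w)
            - 2 / (n * pp n i) * (piv σ.E u + piv σ.E w))) := by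
    refine Finset.sum_congr rfl fun w _ => ?_
    rw [key w]
    ring
  rw [h3, Finset.sum_add_distrib, Finset.sum_add_distrib, Finset.sum_neg_distrib,
    ← Finset.sum_div, ← Finset.mul_sum, Finset.sum_add_distrib, ← Finset.mul_sum]
  rfl

/-- `|D0k| ≤ 5 μ ȳ`: `y_uv ≤ 1.01 ȳ` terms, `((1-μ)²)⁻¹ - 1 ≤ 2.02 μ`, `|a| ≤ L/√(np) ≤ L^{-9}`,
`π ≤ 4/n` (`gd_piv_le`), `6/(n²p) ≤ μ` (`Reg.mu_lower`), so the second part is
`(2/(np))(8/n) = 16/(n²p) ≤ 2.7 μ`. -/
theorem gd_D0k_le (h : Reg n L i₁) (hi : i < i₁) (hI : Inv i σ) (hG : Good L i σ)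
    {u v : Fin n} (huv : u ≠ v) :
    |D0k i σ u v| ≤ 5 * (mu n i * yb n i) := by
  have hy := h.yb_pos hi.le
  have hmu := AK2_mu h hi.le
  have hmu0 := h.mu_pos hi.le
  have hn := h.n_pos
  have hp := h.pp_pos hi.le
  have hL := h.L_pos
  have h6 := h.L6
  have hL1 : (1:ℝ) ≤ L := by linarith [show (1:ℝ) ≤ 10 ^ 6 by norm_num]
  have hx : L / Real.sqrt (yb n i) ≤ 1 / 10 ^ 6 := by
    refine (h.x_le hi.le).trans ?_
    apply one_div_le_one_div_of_le (by positivity)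
    calc (10:ℝ) ^ 6 ≤ L := h6
      _ = L ^ 1 := (pow_one L).symm
      _ ≤ L ^ 9 := pow_le_pow_right₀ hL1 (by norm_num)
  have hsy : 0 < Real.sqrt (yb n i) := Real.sqrt_pos.mpr hy
  have ha : ∀ w, |σ.a w| ≤ 1 / 10 ^ 6 := fun w =>
    ((hG.a w).trans (div_le_div_of_nonneg_left hL.le hsy (h.sqrt_yb_le hi.le))).trans hx
  have hpiv0 : ∀ w, 0 ≤ piv σ.E w := by
    intro w
    unfold piv QQ
    positivity
  have hlow := h.mu_lower hi.le
  -- the bracket
  have hinv : ((1 - mu n i) ^ 2)⁻¹ - 1 ≤ 202 / 100 * mu n i := by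
    have h1 : 0 < (1 - mu n i) ^ 2 := by
      have : 0 < 1 - mu n i := by
        have : mu n i < 1 := lt_of_le_of_lt hmu (by norm_num)
        linarith
      positivity
    rw [sub_le_iff_le_add, inv_le_iff_one_le_mul₀ h1]
    have h2 : mu n i ^ 2 ≤ 1 / 10 ^ 6 * mu n i := by nlinarith
    have h3 : 0 ≤ mu n i ^ 3 := by positivity
    nlinarith
  have hinv0 : 0 ≤ ((1 - mu n i) ^ 2)⁻¹ - 1 := by
    have h1 : 0 < (1 - mu n i) ^ 2 := by
      have : 0 < 1 - mu n i := by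
        have : mu n i < 1 := lt_of_le_of_lt hmu (by norm_num)
        linarith
      positivity
    rw [sub_nonneg, one_le_inv₀ h1]
    nlinarith
  have hpi : ∀ w, 2 / (n * pp n i) * (piv σ.E u + piv σ.E w) ≤ 8 / 3 * mu n i := by
    intro w
    have h1 := gd_piv_le h hi.le hI hG u
    have h2 := gd_piv_le h hi.le hI hG w
    calc 2 / (n * pp n i) * (piv σ.E u + piv σ.E w) ≤ 2 / (n * pp n i) * (4 / n + 4 / n) :=
          mul_le_mul_of_nonneg_left (by linarith) (by positivity)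
      _ = 8 / 3 * (6 / (n ^ 2 * pp n i)) := by
          field_simp
          norm_num
      _ ≤ 8 / 3 * mu n i := mul_le_mul_of_nonneg_left hlow (by norm_num)
  have hterm : ∀ w, adj σ.E u w * adj σ.E v w *
      |(1 + rr i σ.E u w) * (((1 - mu n i) ^ 2)⁻¹ - 1) + mu n i * (σ.a u + σ.a w)
      - 2 / (n * pp n i) * (piv σ.E u + piv σ.E w)| ≤
      adj σ.E u w * adj σ.E v w * (47 / 10 * mu n i) := by
    intro w
    by_cases huw : u = w
    · subst huw
      rw [adj_self hI.sub]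
      simp
    · apply mul_le_mul_of_nonneg_left _ (mul_nonneg (adj_nonneg _ _ _) (adj_nonneg _ _ _))
      have h1 := gd_rr_le h hi.le hG huw
      have h2 := abs_le.mp (h1.trans (mul_le_mul_of_nonneg_left hx (by norm_num)))
      have h3 := abs_le.mp (ha u)
      have h4 := abs_le.mp (ha w)
      have h5 := hpi w
      have h6 : 0 ≤ 2 / (n * pp n i) * (piv σ.E u + piv σ.E w) :=
        mul_nonneg (by positivity) (add_nonneg (hpiv0 u) (hpiv0 w))
      have h7 : (1 + rr i σ.E u w) * (((1 - mu n i) ^ 2)⁻¹ - 1) ≤ 203 / 100 * mu n i := by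
        calc (1 + rr i σ.E u w) * (((1 - mu n i) ^ 2)⁻¹ - 1)
            ≤ (1 + 3 * (1 / 10 ^ 6)) * (202 / 100 * mu n i) :=
              mul_le_mul (by linarith [h2.2]) hinv hinv0 (by norm_num)
          _ ≤ 203 / 100 * mu n i := by nlinarith
      have h8 : 0 ≤ (1 + rr i σ.E u w) * (((1 - mu n i) ^ 2)⁻¹ - 1) :=
        mul_nonneg (by linarith [h2.1, show 3 * (1 / (10:ℝ) ^ 6) ≤ 1 by norm_num]) hinv0
      have h9 : |mu n i * (σ.a u + σ.a w)| ≤ 1 / 1000 * mu n i := by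
        rw [abs_mul, abs_of_pos hmu0, mul_comm]
        apply mul_le_mul_of_nonneg_right _ hmu0.le
        rw [abs_le]
        constructor <;> linarith [h3.1, h3.2, h4.1, h4.2, show 2 * (1 / (10:ℝ) ^ 6) ≤ 1 / 1000 by norm_num]
      have h10 := abs_le.mp h9
      rw [abs_le]
      constructor <;> linarith [h10.1, h10.2]
  calc |D0k i σ u v| ≤ ∑ w, adj σ.E u w * adj σ.E v w * (47 / 10 * mu n i) := by
        unfold D0k
        refine (Finset.abs_sum_le_sum_abs _ _).trans (Finset.sum_le_sum fun w _ => ?_)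
        rw [abs_mul, abs_of_nonneg (mul_nonneg (adj_nonneg _ _ _) (adj_nonneg _ _ _))]
        exact hterm w
    _ = cod σ.E u v * (47 / 10 * mu n i) := by
        unfold cod
        rw [Finset.sum_mul]
    _ ≤ (101 / 100 * yb n i) * (47 / 10 * mu n i) :=
        mul_le_mul_of_nonneg_right (gd_cod_le h hi.le hG huv) (by positivity)
    _ ≤ 5 * (mu n i * yb n i) := by
        have : 0 < mu n i * yb n i := by positivity
        nlinarith

/-- `μ ȳ² ≤ 7` (`Reg.mu_upper`: `μ ȳ² ≤ 7 n² p⁴/(n² p) = 7 p³`). -/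
theorem Reg.mu_yb_sq (h : Reg n L i₁) (hi : i ≤ i₁) : mu n i * yb n i ^ 2 ≤ 7 := by
  have hn := h.n_pos
  have hp := h.pp_pos hi
  have hp1 := h.pp_le_one i
  calc mu n i * yb n i ^ 2 ≤ 7 / (n ^ 2 * pp n i) * yb n i ^ 2 :=
        mul_le_mul_of_nonneg_right (h.mu_upper hi) (by positivity)
    _ = 7 * pp n i ^ 3 := by
        unfold yb
        field_simp
    _ ≤ 7 * 1 := by
        apply mul_le_mul_of_nonneg_left _ (by norm_num)
        exact pow_le_one₀ hp.le hp1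
    _ = 7 := by norm_num

end Crest.Agent.TRem
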