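import Crest.Agent.TRem.AK2

/-!
# Row 30, AK3a: combinatorics of `GGk` and `WTk`
-/

namespace Crest.Agent.TRem

open Finset Crest.CombinatoricsR.TriangleRemoval

variable {n : ℕ} {E : Finset (Sym2 (Fin n))} {T : Finset (Fin n)}

theorem GGk_nonneg (E : Finset (Sym2 (Fin n))) (u v : Fin n) (T : Finset (Fin n)) :
    0 ≤ GGk E u v T := by
  unfold GGk
  exact Finset.sum_nonneg fun w _ => mul_nonneg (mul_nonneg (adj_nonneg _ _ _) (adj_nonneg _ _ _))
    (Finset.sum_nonneg fun x _ => mul_nonneg (mul_nonneg (adj_nonneg _ _ _) (adj_nonneg _ _ _))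
      (XX_nonneg _ _ _ _))

theorem WTk_nonneg (E : Finset (Sym2 (Fin n))) (u v : Fin n) (T : Finset (Fin n)) :
    0 ≤ WTk E u v T := by
  unfold WTk
  exact Finset.sum_nonneg fun w _ => mul_nonneg (mul_nonneg (adj_nonneg _ _ _) (adj_nonneg _ _ _))
    (by split_ifs <;> norm_num)

/-- If `u ∈ T` then `X_{uwx}(T) = 1[x ∈ T]` (`II u x T = 1[x∈T]`, `II w x T ≤ II u x T`), so
`G = Σ_{x ∈ T} A_ux Σ_w A_uw A_vw A_wx`, and `A_ux = 1` for `x ∈ T \ {u}` (`mem_tri_adj`), `A_uu = 0`. -/
theorem GGk_mem (hE : E ⊆ allEdges n) (hT : T ∈ triangles E) {u v : Fin n} (hu : u ∈ T) :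
    GGk E u v T = ∑ x ∈ T.erase u, cod3 E u v x := by
  have h1 : GGk E u v T = ∑ x, ∑ w, (if x ∈ T.erase u then
      adj E u w * adj E v w * adj E x w else 0) := by
    unfold GGk
    rw [Finset.sum_comm' (t' := univ) (s' := fun _ => univ) (by simp)]
    refine Finset.sum_congr rfl fun w _ => ?_
    rw [Finset.mul_sum]
    refine Finset.sum_congr rfl fun x _ => ?_
    rcases eq_or_ne x u with rfl | hx
    · rw [adj_self hE, if_neg (by simp)]
      ring
    · by_cases hxT : x ∈ T
      · have e1 : XX u w x T = 1 := by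
          unfold XX II
          simp [hu, hxT]
        rw [e1, mem_tri_adj hT hu hxT (Ne.symm hx), if_pos (Finset.mem_erase.2 ⟨hx, hxT⟩),
          adj_comm E w x]
        ring
      · have e1 : XX u w x T = 0 := by
          unfold XX II
          simp [hxT]
        rw [e1, if_neg (by simp [hxT])]
        ring
  rw [h1]
  unfold cod3
  rw [← Finset.sum_subset (Finset.subset_univ (T.erase u))]
  · refine Finset.sum_congr rfl fun x hx => ?_
    refine Finset.sum_congr rfl fun w _ => ?_
    rw [if_pos hx]
  · intro x _ hx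
    refine Finset.sum_eq_zero fun w _ => ?_
    rw [if_neg hx]

/-- If `u ∉ T` then `X_{uwx}(T) = II w x T`, and `A_wx = 0` for `w = x`: at most `6` ordered pairs. -/
theorem GGk_not_mem_le (hE : E ⊆ allEdges n) (hT : T ∈ triangles E) {u v : Fin n} (hu : u ∉ T) :
    GGk E u v T ≤ 6 := by
  have h1 : GGk E u v T ≤ ∑ w, ∑ x, (if w ∈ T ∧ x ∈ T.erase w then (1 : ℝ) else 0) := by
    unfold GGk
    refine Finset.sum_le_sum fun w _ => ?_
    rw [Finset.mul_sum]
    refine Finset.sum_le_sum fun x _ => ?_
    by_cases hw : w ∈ T ∧ x ∈ T.erase w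
    · rw [if_pos hw]
      have a1 := adj_nonneg E u w
      have a2 := adj_le_one E u w
      have a3 := adj_nonneg E v w
      have a4 := adj_le_one E v w
      have a5 := adj_nonneg E u x
      have a6 := adj_le_one E u x
      have a7 := adj_nonneg E w x
      have a8 := adj_le_one E w x
      have b1 : adj E u w * adj E v w ≤ 1 := mul_le_one₀ a2 a3 a4
      have b2 : adj E u x * adj E w x ≤ 1 := mul_le_one₀ a6 a7 a8
      have b3 : adj E u x * adj E w x * XX u w x T ≤ 1 :=
        mul_le_one₀ b2 (XX_nonneg _ _ _ _) (XX_le_one _ _ _ _)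
      exact mul_le_one₀ b1 (mul_nonneg (mul_nonneg a5 a7) (XX_nonneg _ _ _ _)) b3
    · rw [if_neg hw]
      rcases eq_or_ne x w with rfl | hxw
      · rw [adj_self hE x]
        apply le_of_eq
        ring
      · have e1 : XX u w x T = 0 := by
          unfold XX II
          by_cases h2 : w ∈ T <;> by_cases h3 : x ∈ T
          · exact absurd ⟨h2, Finset.mem_erase.2 ⟨hxw, h3⟩⟩ hw
          · simp [h3]
          · simp [hu, h2]
          · simp [h3]
        rw [e1]
        apply le_of_eq
        ring
  refine h1.trans ?_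
  have hc := mem_tri_card hT
  have h2 : ∀ w ∈ T, ∑ x, (if w ∈ T ∧ x ∈ T.erase w then (1 : ℝ) else 0) = 2 := by
    intro w hw
    have e1 : ∀ x ∈ (univ : Finset (Fin n)), (if w ∈ T ∧ x ∈ T.erase w then (1 : ℝ) else 0) =
        if x ∈ T.erase w then 1 else 0 := by
      intro x _
      simp [hw]
    rw [Finset.sum_congr rfl e1, Finset.sum_ite_mem, Finset.univ_inter, Finset.sum_const,
      Finset.card_erase_of_mem hw, hc]
    norm_num
  rw [← Finset.sum_subset (Finset.subset_univ T), Finset.sum_congr rfl h2, Finset.sum_const, hc]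
  · norm_num
  · intro w _ hw
    refine Finset.sum_eq_zero fun x _ => ?_
    rw [if_neg (fun hh => hw hh.1)]

/-- at most three vertices. -/
theorem WTk_le (hT : T ∈ triangles E) (u v : Fin n) : WTk E u v T ≤ 3 := by
  have hc := mem_tri_card hT
  calc WTk E u v T ≤ ∑ w, (if w ∈ T then (1 : ℝ) else 0) := by
        unfold WTk
        refine Finset.sum_le_sum fun w _ => ?_
        have a1 := adj_nonneg E u w
        have a2 := adj_le_one E u w
        have a3 := adj_nonneg E v w
        have a4 := adj_le_one E v w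
        have b1 : adj E u w * adj E v w ≤ 1 := mul_le_one₀ a2 a3 a4
        split_ifs
        · linarith
        · linarith
    _ = 3 := by
        rw [Finset.sum_ite_mem, Finset.univ_inter, Finset.sum_const, hc]
        norm_num

/-- `u` itself is not a common neighbour. -/
theorem WTk_mem_le (hE : E ⊆ allEdges n) (hT : T ∈ triangles E) {u v : Fin n} (hu : u ∈ T) :
    WTk E u v T ≤ 2 := by
  have hc := mem_tri_card hT
  calc WTk E u v T ≤ ∑ w, (if w ∈ T.erase u then (1 : ℝ) else 0) := by
        unfold WTk
        refine Finset.sum_le_sum fun w _ => ?_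
        rcases eq_or_ne w u with rfl | hw
        · rw [adj_self hE, if_neg (Finset.notMem_erase w T)]
          apply le_of_eq
          ring
        have a1 := adj_nonneg E u w
        have a2 := adj_le_one E u w
        have a3 := adj_nonneg E v w
        have a4 := adj_le_one E v w
        have b1 : adj E u w * adj E v w ≤ 1 := mul_le_one₀ a2 a3 a4
        by_cases h3 : w ∈ T
        · rw [if_pos h3, if_pos (Finset.mem_erase.2 ⟨hw, h3⟩)]
          linarith
        · rw [if_neg h3, if_neg (by simp [h3])]
          linarith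
    _ = 2 := by
        rw [Finset.sum_ite_mem, Finset.univ_inter, Finset.sum_const, Finset.card_erase_of_mem hu, hc]
        norm_num

end Crest.Agent.TRem
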