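import Crest.Agent.TRem.AK3a

/-!
# Row 30, AK3b: averages of `GGk`, `WTk` and the sum of squares of triple codegree deviations
-/

namespace Crest.Agent.TRem

open Finset Crest.CombinatoricsR.TriangleRemoval

variable {n : ℕ} {L : ℝ} {i₁ i : ℕ} {σ : St n}

private theorem adj_mul_le {E : Finset (Sym2 (Fin n))} (hE : E ⊆ allEdges n) {u w : Fin n}
    {c C : ℝ} (hc : u ≠ w → c ≤ C) : adj E u w * c ≤ adj E u w * C := by
  by_cases h : u = w
  · subst h; rw [adj_self hE]; simp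
  · exact mul_le_mul_of_nonneg_left (hc h) (adj_nonneg _ _ _)

/-- For `u ∉ T`, `G = Σ_{w,x} A_uw A_vw A_ux A_wx II w x T` (and this is an upper bound by `0` for
`u ∈ T`), `Av (II w x) ≤ 1.02 μ` (`gd_Av_II_le`), and the number of pairs is
`Σ_w A_uw A_vw y_uw ≤ (1.01 ȳ)²`. -/
theorem gd_Av_GGk (h : Reg n L i₁) (hi : i ≤ i₁) (hI : Inv i σ) (hG : Good L i σ) {u v : Fin n}
    (huv : u ≠ v) :
    Av (triangles σ.E) (fun T => if u ∈ T then 0 else GGk σ.E u v T) ≤
      21 / 20 * mu n i * yb n i ^ 2 := by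
  have hmu := h.mu_pos hi
  have hy := h.yb_pos hi
  have h1 : Av (triangles σ.E) (fun T => if u ∈ T then 0 else GGk σ.E u v T) ≤
      Av (triangles σ.E) (fun T => ∑ w, adj σ.E u w * adj σ.E v w *
        ∑ x, adj σ.E u x * adj σ.E w x * II w x T) := by
    apply Av_mono
    intro T hT
    by_cases hu : u ∈ T
    · rw [if_pos hu]
      exact Finset.sum_nonneg fun w _ => mul_nonneg (mul_nonneg (adj_nonneg _ _ _) (adj_nonneg _ _ _))
        (Finset.sum_nonneg fun x _ => mul_nonneg (mul_nonneg (adj_nonneg _ _ _) (adj_nonneg _ _ _))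
          (II_nonneg _ _ _))
    · rw [if_neg hu]
      unfold GGk
      refine Finset.sum_le_sum fun w _ => ?_
      refine mul_le_mul_of_nonneg_left ?_ (mul_nonneg (adj_nonneg _ _ _) (adj_nonneg _ _ _))
      refine Finset.sum_le_sum fun x _ => ?_
      refine mul_le_mul_of_nonneg_left ?_ (mul_nonneg (adj_nonneg _ _ _) (adj_nonneg _ _ _))
      unfold XX II
      simp [hu]
  refine h1.trans ?_
  rw [Av_sum]
  have h2 : ∀ w ∈ (univ : Finset (Fin n)), Av (triangles σ.E) (fun T => adj σ.E u w * adj σ.E v w *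
        ∑ x, adj σ.E u x * adj σ.E w x * II w x T) ≤
      adj σ.E u w * adj σ.E v w * (51 / 50 * mu n i * (101 / 100 * yb n i)) := by
    intro w _
    rw [Av_mul]
    have h3 : ∀ x ∈ (univ : Finset (Fin n)), Av (triangles σ.E) (fun T => adj σ.E u x * adj σ.E w x * II w x T) ≤
        adj σ.E u x * adj σ.E w x * (51 / 50 * mu n i) := by
      intro x _
      rw [Av_mul]
      by_cases hwx : w = x
      · subst hwx; rw [adj_self hI.sub]; simp
      · refine mul_le_mul_of_nonneg_left ?_ (mul_nonneg (adj_nonneg _ _ _) (adj_nonneg _ _ _))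
        refine (gd_Av_II_le h hi hI hG hwx).trans ?_
        have := adj_le_one σ.E w x
        nlinarith [adj_nonneg σ.E w x]
    by_cases huw : u = w
    · subst huw; rw [adj_self hI.sub]; simp
    · refine mul_le_mul_of_nonneg_left ?_ (mul_nonneg (adj_nonneg _ _ _) (adj_nonneg _ _ _))
      rw [Av_sum]
      refine (Finset.sum_le_sum h3).trans ?_
      rw [← Finset.sum_mul]
      have h4 : ∑ x, adj σ.E u x * adj σ.E w x = cod σ.E u w := rfl
      rw [h4]
      have h5 := gd_cod_le h hi hG huw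
      nlinarith
  refine (Finset.sum_le_sum h2).trans ?_
  rw [← Finset.sum_mul]
  have h4 : ∑ x, adj σ.E u x * adj σ.E v x = cod σ.E u v := rfl
  rw [h4]
  have h5 := gd_cod_le h hi hG huv
  have h6 : 0 ≤ 51 / 50 * mu n i * (101 / 100 * yb n i) := by positivity
  calc cod σ.E u v * (51 / 50 * mu n i * (101 / 100 * yb n i))
      ≤ (101 / 100 * yb n i) * (51 / 50 * mu n i * (101 / 100 * yb n i)) :=
        mul_le_mul_of_nonneg_right h5 h6
    _ = (101 / 100 * (51 / 50) * (101 / 100)) * (mu n i * yb n i ^ 2) := by ring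
    _ ≤ 21 / 20 * (mu n i * yb n i ^ 2) := by
        apply mul_le_mul_of_nonneg_right (by norm_num) (by positivity)
    _ = 21 / 20 * mu n i * yb n i ^ 2 := by ring

/-- `Av WTk = Σ_w A_uw A_vw π_w ≤ 1.01 ȳ · 4/n`. -/
theorem gd_Av_WTk (h : Reg n L i₁) (hi : i ≤ i₁) (hI : Inv i σ) (hG : Good L i σ) {u v : Fin n}
    (huv : u ≠ v) :
    Av (triangles σ.E) (fun T => WTk σ.E u v T) ≤ 41 / 10 * yb n i / n := by
  have hn := h.n_pos
  have hy := h.yb_pos hi
  unfold WTk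
  rw [Av_sum]
  have h2 : ∀ w ∈ (univ : Finset (Fin n)), Av (triangles σ.E) (fun T => adj σ.E u w * adj σ.E v w *
        (if w ∈ T then 1 else 0)) ≤ adj σ.E u w * adj σ.E v w * (4 / n) := by
    intro w _
    rw [Av_mul, Av_mem]
    exact mul_le_mul_of_nonneg_left (gd_piv_le h hi hI hG w)
      (mul_nonneg (adj_nonneg _ _ _) (adj_nonneg _ _ _))
  refine (Finset.sum_le_sum h2).trans ?_
  rw [← Finset.sum_mul]
  have h4 : ∑ x, adj σ.E u x * adj σ.E v x = cod σ.E u v := rfl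
  rw [h4]
  have h5 := gd_cod_le h hi hG huv
  calc cod σ.E u v * (4 / n) ≤ (101 / 100 * yb n i) * (4 / n) :=
        mul_le_mul_of_nonneg_right h5 (by positivity)
    _ = (101 / 100 * 4) * (yb n i / n) := by ring
    _ ≤ 41 / 10 * (yb n i / n) := mul_le_mul_of_nonneg_right (by norm_num) (by positivity)
    _ = 41 / 10 * yb n i / n := by ring

/-- `(c - c̄)² ≤ 4L⁴ (c + c̄)`. If `c̄ ≥ L⁴` then `L⁴ ≤ L²√c̄`, so `|c - c̄| ≤ 2L²√c̄` and
`(c-c̄)² ≤ 4L⁴c̄`. If `c̄ < L⁴` then `|c - c̄| ≤ 2L⁴`, so `(c-c̄)² ≤ 2L⁴|c-c̄| ≤ 2L⁴(c + c̄)`. -/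
theorem gd_cod3_sq (h : Reg n L i₁) (hi : i ≤ i₁) (hG : Good L i σ) {u v x : Fin n}
    (huv : u ≠ v) (hux : u ≠ x) (hvx : v ≠ x) :
    (cod3 σ.E u v x - cb n i) ^ 2 ≤ 4 * L ^ 4 * (cod3 σ.E u v x + cb n i) := by
  have hc := hG.c u v x huv hux hvx
  have hp := h.pp_pos hi
  have hn := h.n_pos
  have hcb : 0 ≤ cb n i := by unfold cb; positivity
  have hL := h.L_pos
  have hc0 := cod3_nonneg σ.E u v x
  set c := cod3 σ.E u v x with hcdef
  set C := cb n i with hCdef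
  set s := Real.sqrt C with hs
  have hs0 : 0 ≤ s := Real.sqrt_nonneg _
  have hss : s * s = C := Real.mul_self_sqrt hcb
  have hL2 : 0 < L ^ 2 := by positivity
  rcases le_total (L ^ 2) s with hle | hle
  · have h1 : |c - C| ≤ 2 * L ^ 2 * s := by
      have : L ^ 4 ≤ L ^ 2 * s := by nlinarith
      linarith
    have h2 : (c - C) ^ 2 ≤ (2 * L ^ 2 * s) ^ 2 := by
      rw [← sq_abs]; exact pow_le_pow_left₀ (abs_nonneg _) h1 2
    have h3 : (2 * L ^ 2 * s) ^ 2 = 4 * L ^ 4 * C := by rw [← hss]; ring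
    have h4 : 0 ≤ 4 * L ^ 4 * c := by positivity
    nlinarith
  · have h1 : |c - C| ≤ 2 * L ^ 4 := by
      have : L ^ 2 * s ≤ L ^ 4 := by nlinarith
      linarith
    have h2 : |c - C| ≤ c + C := by
      rw [abs_le]; constructor <;> linarith
    have h3 : (c - C) ^ 2 = |c - C| * |c - C| := by rw [← sq_abs]; ring
    rw [h3]
    have h4 : |c - C| * |c - C| ≤ (2 * L ^ 4) * (c + C) :=
      mul_le_mul h1 h2 (abs_nonneg _) (by positivity)
    have h5 : 0 ≤ L ^ 4 * (c + C) := by positivity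
    nlinarith

/-- `Σ_{x ≠ u,v} A_ux (c_uvx - c̄)² ≤ 4L⁴ (Σ_x A_ux c_uvx + c̄ d_u)`,
`Σ_x A_ux c_uvx = Σ_w A_uw A_vw y_uw ≤ (1.01ȳ)²`, `c̄ d_u ≤ 1.1 c̄ n p = 1.1 ȳ²`. -/
theorem gd_sum_cod3_sq (h : Reg n L i₁) (hi : i ≤ i₁) (hI : Inv i σ) (hG : Good L i σ)
    {u v : Fin n} (huv : u ≠ v) :
    ∑ x ∈ (univ.erase u).erase v, adj σ.E u x * (cod3 σ.E u v x - cb n i) ^ 2 ≤
      43 / 5 * L ^ 4 * yb n i ^ 2 := by
  have hp := h.pp_pos hi
  have hn := h.n_pos
  have hy := h.yb_pos hi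
  have hL := h.L_pos
  have hcb : 0 ≤ cb n i := by unfold cb; positivity
  have h1 : ∑ x ∈ (univ.erase u).erase v, adj σ.E u x * (cod3 σ.E u v x - cb n i) ^ 2 ≤
      ∑ x ∈ (univ.erase u).erase v, adj σ.E u x * (4 * L ^ 4 * (cod3 σ.E u v x + cb n i)) := by
    refine Finset.sum_le_sum fun x hx => ?_
    simp only [Finset.mem_erase, Finset.mem_univ, and_true] at hx
    exact mul_le_mul_of_nonneg_left (gd_cod3_sq h hi hG huv (Ne.symm hx.2) (Ne.symm hx.1))
      (adj_nonneg _ _ _)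
  have h2 : ∑ x ∈ (univ.erase u).erase v, adj σ.E u x * (4 * L ^ 4 * (cod3 σ.E u v x + cb n i)) ≤
      ∑ x, adj σ.E u x * (4 * L ^ 4 * (cod3 σ.E u v x + cb n i)) := by
    apply Finset.sum_le_sum_of_subset_of_nonneg (Finset.subset_univ _)
    intro x _ _
    have := cod3_nonneg σ.E u v x
    exact mul_nonneg (adj_nonneg _ _ _) (by positivity)
  have h3 : ∑ x, adj σ.E u x * (4 * L ^ 4 * (cod3 σ.E u v x + cb n i)) =
      4 * L ^ 4 * ((∑ w, adj σ.E u w * adj σ.E v w * cod σ.E u w) + cb n i * deg σ.E u) := by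
    have h4 : ∑ x, adj σ.E u x * cod3 σ.E u v x = ∑ w, adj σ.E u w * adj σ.E v w * cod σ.E u w := by
      unfold cod3 cod
      simp_rw [Finset.mul_sum]
      rw [Finset.sum_comm]
      refine Finset.sum_congr rfl fun w _ => Finset.sum_congr rfl fun x _ => ?_
      rw [adj_comm σ.E x w]; ring
    rw [← h4]
    unfold deg
    rw [mul_add, Finset.mul_sum, Finset.mul_sum, Finset.mul_sum, ← Finset.sum_add_distrib]
    refine Finset.sum_congr rfl fun x _ => ?_
    ring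
  have h5 : ∑ w, adj σ.E u w * adj σ.E v w * cod σ.E u w ≤ (101 / 100 * yb n i) * (101 / 100 * yb n i) := by
    have h6 : ∀ w ∈ (univ : Finset (Fin n)), adj σ.E u w * adj σ.E v w * cod σ.E u w ≤
        adj σ.E u w * adj σ.E v w * (101 / 100 * yb n i) := by
      intro w _
      by_cases huw : u = w
      · subst huw; rw [adj_self hI.sub]; simp
      · exact mul_le_mul_of_nonneg_left (gd_cod_le h hi hG huw)
          (mul_nonneg (adj_nonneg _ _ _) (adj_nonneg _ _ _))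
    refine (Finset.sum_le_sum h6).trans ?_
    rw [← Finset.sum_mul]
    exact mul_le_mul_of_nonneg_right (gd_cod_le h hi hG huv) (by positivity)
  have h6 : cb n i * deg σ.E u ≤ 11 / 10 * yb n i ^ 2 := by
    calc cb n i * deg σ.E u ≤ cb n i * (11 / 10 * (n * pp n i)) :=
          mul_le_mul_of_nonneg_left (gd_deg_le h hi hG u) hcb
      _ = 11 / 10 * yb n i ^ 2 := by unfold cb yb; ring
  refine h1.trans (h2.trans ?_)
  rw [h3]
  have h7 : (∑ w, adj σ.E u w * adj σ.E v w * cod σ.E u w) + cb n i * deg σ.E u ≤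
      43 / 20 * yb n i ^ 2 := by nlinarith
  calc 4 * L ^ 4 * ((∑ w, adj σ.E u w * adj σ.E v w * cod σ.E u w) + cb n i * deg σ.E u)
      ≤ 4 * L ^ 4 * (43 / 20 * yb n i ^ 2) := mul_le_mul_of_nonneg_left h7 (by positivity)
    _ = 43 / 5 * L ^ 4 * yb n i ^ 2 := by ring

end Crest.Agent.TRem
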