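import Crest.Agent.TRem.AK3b

/-!
# Row 30, AK4a: pointwise bounds for `PPk`

`x := L/√ȳ`, `p = pp n i`.
-/

namespace Crest.Agent.TRem

open Finset Crest.CombinatoricsR.TriangleRemoval

variable {n : ℕ} {L : ℝ} {i₁ i : ℕ} {σ : St n}

private theorem AK4_one_div_pow (h : Reg n L i₁) {k : ℕ} (hk : k ≠ 0) : 1 / L ^ k ≤ 1 / 10 ^ 6 := by
  have h1 := h.L6
  have h2 : (1 : ℝ) ≤ L := by linarith [show (1:ℝ) ≤ 10 ^ 6 by norm_num]
  have h3 : L ≤ L ^ k := le_self_pow₀ h2 hk
  exact one_div_le_one_div_of_le (by norm_num) (h1.trans h3)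

private theorem AK4_mu (h : Reg n L i₁) (hi : i ≤ i₁) : mu n i ≤ 1 / 10 ^ 6 :=
  (h.mu_small hi).trans (AK4_one_div_pow h (by norm_num))

private theorem AK4_muyb (h : Reg n L i₁) (hi : i ≤ i₁) : mu n i * yb n i ≤ 1 / 10 ^ 6 :=
  (h.mu_yb hi).trans (AK4_one_div_pow h (by norm_num))

private theorem AK4_ybge (h : Reg n L i₁) (hi : i ≤ i₁) : 10 ^ 6 ≤ yb n i := by
  have h1 := h.L6
  have h2 : (1 : ℝ) ≤ L := by linarith [show (1:ℝ) ≤ 10 ^ 6 by norm_num]
  exact (h1.trans (le_self_pow₀ h2 (by norm_num : (20:ℕ) ≠ 0))).trans (h.yb_ge hi)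

private theorem AK4_npge (h : Reg n L i₁) (hi : i ≤ i₁) : 10 ^ 6 ≤ n * pp n i := by
  have h1 := h.L6
  have h2 : (1 : ℝ) ≤ L := by linarith [show (1:ℝ) ≤ 10 ^ 6 by norm_num]
  exact (h1.trans (le_self_pow₀ h2 (by norm_num : (20:ℕ) ≠ 0))).trans (h.np_ge hi)

/-- `1 ≤ ((1-μ)²)⁻¹ ≤ 1 + 2.02 μ` -/
private theorem AK4_inv (h : Reg n L i₁) (hi : i ≤ i₁) :
    1 ≤ ((1 - mu n i) ^ 2)⁻¹ ∧ ((1 - mu n i) ^ 2)⁻¹ ≤ 1 + 202 / 100 * mu n i := by
  have hm := h.mu_pos hi
  have hm2 := AK4_mu h hi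
  have hm3 : mu n i ≤ 1 / 1000 := hm2.trans (by norm_num)
  have hpos : 0 < (1 - mu n i) ^ 2 := by
    apply pow_pos
    linarith
  constructor
  · rw [one_le_inv₀ hpos]
    nlinarith
  · rw [inv_le_comm₀ hpos (by positivity), inv_le_iff_one_le_mul₀ (by positivity)]
    nlinarith [mul_pos hm hm, mul_pos (mul_pos hm hm) hm]

private theorem AK4_div (h : Reg n L i₁) (hi : i ≤ i₁) (G : ℝ) :
    G / (yb n i * (1 - mu n i) ^ 2) = G / yb n i * ((1 - mu n i) ^ 2)⁻¹ := by
  rw [div_mul_eq_div_div, div_eq_mul_inv (G / yb n i)]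

/-- Case `u ∈ T`, `v ∉ T`. From `PPk_eq`, `GGk_mem`: `G = Σ_{x∈T∖u} c_uvx` (two terms), `c̄/ȳ = p`,
`(2/(np)) y_uv = 2p(1+r_uv)`, so `PPk = -Σ_{x∈T∖u} (c_uvx - c̄)/(ȳ(1-μ)²) + 2p(1 - (1-μ)^{-2}) +
2p r_uv + (2/(np)) WTk + D0k`, `WTk ≤ 2` (`WTk_mem_le`), `|D0k| ≤ 5μȳ`, `2p·2.02μ ≤ μȳ`. -/
theorem gd_PPk_mem (h : Reg n L i₁) (hi : i < i₁) (hI : Inv i σ) (hG : Good L i σ)
    {T : Finset (Fin n)} (hT : T ∈ triangles σ.E) {u v : Fin n} (huv : u ≠ v) (hu : u ∈ T)
    (hv : v ∉ T) :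
    |PPk i σ u v T| ≤ (∑ x ∈ T.erase u, |cod3 σ.E u v x - cb n i|) * (101 / 100) / yb n i
      + 6 * pp n i * (L / Real.sqrt (yb n i)) + (4 / (n * pp n i) + 6 * (mu n i * yb n i)) := by
  have hi' := hi.le
  have hY := h.yb_pos hi'
  have hP := h.pp_pos hi'
  have hP1 := h.pp_le_one i
  have hn := h.n_pos
  have hm := h.mu_pos hi'
  have hmu := AK4_mu h hi'
  have hYge := AK4_ybge h hi'
  obtain ⟨hinv1, hinv2⟩ := AK4_inv h hi'
  have hr := gd_rr_le h hi' hG huv
  have hD := gd_D0k_le h hi hI hG huv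
  have hW0 := WTk_nonneg σ.E u v T
  have hW := WTk_mem_le hI.sub hT hu (v := v)
  have hcard : (T.erase u).card = 2 := by
    rw [Finset.card_erase_of_mem hu, mem_tri_card hT]
  set A : ℝ := ∑ x ∈ T.erase u, |cod3 σ.E u v x - cb n i| with hA
  set S : ℝ := ∑ x ∈ T.erase u, (cod3 σ.E u v x - cb n i) with hS
  have hSA : |S| ≤ A := Finset.abs_sum_le_sum_abs _ _
  have hA0 : 0 ≤ A := (abs_nonneg _).trans hSA
  have hGG : GGk σ.E u v T = S + 2 * cb n i := by
    rw [GGk_mem hI.sub hT hu, hS, Finset.sum_sub_distrib, Finset.sum_const, hcard]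
    simp
  have hYP : yb n i = n * pp n i ^ 2 := rfl
  have hcb : cb n i / yb n i = pp n i := by
    rw [hYP]
    unfold cb
    field_simp
  have hcodeq := gd_cod_eq h hi' σ.E u v
  set J : ℝ := ((1 - mu n i) ^ 2)⁻¹ with hJ
  have hkey : PPk i σ u v T = -(S / yb n i * J) + 2 * pp n i * (1 - J) + 2 * pp n i * rr i σ.E u v
      + 2 / (n * pp n i) * WTk σ.E u v T + D0k i σ u v := by
    rw [PPk_eq h hi, AK4_div h hi', hGG, if_pos hu, hcodeq, add_div, mul_div_assoc, hcb]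
    have h2 : 2 / ((n : ℝ) * pp n i) * yb n i = 2 * pp n i := by
      rw [hYP]
      field_simp
    have h3 : 2 / ((n : ℝ) * pp n i) * (1 * (yb n i * (1 + rr i σ.E u v)) + WTk σ.E u v T)
        = (2 / ((n : ℝ) * pp n i) * yb n i) * (1 + rr i σ.E u v)
          + 2 / (n * pp n i) * WTk σ.E u v T := by ring
    rw [h3, h2]
    ring
  have t1 : |S / yb n i * J| ≤ A * (101 / 100) / yb n i := by
    rw [abs_mul, abs_div, abs_of_pos hY, abs_of_pos (lt_of_lt_of_le one_pos hinv1)]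
    have hJ2 : J ≤ 101 / 100 := by
      have : mu n i ≤ 1 / 1000 := hmu.trans (by norm_num)
      linarith
    calc |S| / yb n i * J ≤ A / yb n i * (101 / 100) := by
          apply mul_le_mul _ hJ2 (by linarith) (by positivity)
          exact div_le_div_of_nonneg_right hSA hY.le
      _ = A * (101 / 100) / yb n i := by ring
  have t2 : |2 * pp n i * (1 - J)| ≤ mu n i * yb n i := by
    rw [abs_mul, abs_of_nonneg (by positivity : (0:ℝ) ≤ 2 * pp n i), abs_sub_comm,
      abs_of_nonneg (by linarith : 0 ≤ J - 1)]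
    have : J - 1 ≤ 202 / 100 * mu n i := by linarith
    have h10 : (10 : ℝ) ≤ yb n i := le_trans (by norm_num) hYge
    calc 2 * pp n i * (J - 1) ≤ 2 * 1 * (202 / 100 * mu n i) := by
          apply mul_le_mul _ this (by linarith) (by norm_num)
          linarith
      _ ≤ mu n i * yb n i := by nlinarith
  have t3 : |2 * pp n i * rr i σ.E u v| ≤ 6 * pp n i * (L / Real.sqrt (yb n i)) := by
    rw [abs_mul, abs_of_nonneg (by positivity : (0:ℝ) ≤ 2 * pp n i)]
    calc 2 * pp n i * |rr i σ.E u v| ≤ 2 * pp n i * (3 * (L / Real.sqrt (yb n i))) :=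
          mul_le_mul_of_nonneg_left hr (by positivity)
      _ = 6 * pp n i * (L / Real.sqrt (yb n i)) := by ring
  have t4 : |2 / (n * pp n i) * WTk σ.E u v T| ≤ 4 / (n * pp n i) := by
    rw [abs_of_nonneg (by positivity)]
    calc 2 / (n * pp n i) * WTk σ.E u v T ≤ 2 / (n * pp n i) * 2 :=
          mul_le_mul_of_nonneg_left hW (by positivity)
      _ = 4 / (n * pp n i) := by ring
  rw [hkey]
  have e1 := abs_le.mp t1
  have e2 := abs_le.mp t2
  have e3 := abs_le.mp t3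
  have e4 := abs_le.mp t4
  have e5 := abs_le.mp hD
  rw [abs_le]
  constructor <;> linarith [e1.1, e1.2, e2.1, e2.2, e3.1, e3.2, e4.1, e4.2, e5.1, e5.2]

/-- Case `u, v ∈ T`: `G = c_uvb + c_uvv ≤ 2 y_uv ≤ 2.02ȳ`, `(2/(np)) y_uv ≤ 2.02 p ≤ 2.02`. -/
theorem gd_PPk_mem_mem (h : Reg n L i₁) (hi : i < i₁) (hI : Inv i σ) (hG : Good L i σ)
    {T : Finset (Fin n)} (hT : T ∈ triangles σ.E) {u v : Fin n} (huv : u ≠ v) (hu : u ∈ T)
    (hv : v ∈ T) : |PPk i σ u v T| ≤ 5 := by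
  have hi' := hi.le
  have hY := h.yb_pos hi'
  have hP := h.pp_pos hi'
  have hP1 := h.pp_le_one i
  have hn := h.n_pos
  have hm := h.mu_pos hi'
  have hmu := AK4_mu h hi'
  have hmuY := AK4_muyb h hi'
  have hnp := AK4_npge h hi'
  obtain ⟨hinv1, hinv2⟩ := AK4_inv h hi'
  have hD := gd_D0k_le h hi hI hG huv
  have hW0 := WTk_nonneg σ.E u v T
  have hW := WTk_mem_le hI.sub hT hu (v := v)
  have hcard : (T.erase u).card = 2 := by
    rw [Finset.card_erase_of_mem hu, mem_tri_card hT]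
  have hG0 := GGk_nonneg σ.E u v T
  have hcod := gd_cod_le h hi' hG huv
  have hc3 : ∀ x, cod3 σ.E u v x ≤ cod σ.E u v := by
    intro x
    unfold cod3 cod
    apply Finset.sum_le_sum
    intro w _
    have h1 : 0 ≤ adj σ.E u w * adj σ.E v w := mul_nonneg (adj_nonneg _ _ _) (adj_nonneg _ _ _)
    calc adj σ.E u w * adj σ.E v w * adj σ.E x w ≤ adj σ.E u w * adj σ.E v w * 1 :=
          mul_le_mul_of_nonneg_left (adj_le_one _ _ _) h1
      _ = adj σ.E u w * adj σ.E v w := mul_one _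
  have hGle : GGk σ.E u v T ≤ 2 * cod σ.E u v := by
    rw [GGk_mem hI.sub hT hu]
    calc ∑ x ∈ T.erase u, cod3 σ.E u v x ≤ ∑ x ∈ T.erase u, cod σ.E u v :=
          Finset.sum_le_sum (fun x _ => hc3 x)
      _ = 2 * cod σ.E u v := by
          rw [Finset.sum_const, hcard]
          simp
  have hcod0 : 0 ≤ cod σ.E u v := by
    unfold cod
    exact Finset.sum_nonneg (fun w _ => mul_nonneg (adj_nonneg _ _ _) (adj_nonneg _ _ _))
  have hYP : yb n i = n * pp n i ^ 2 := rfl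
  set J : ℝ := ((1 - mu n i) ^ 2)⁻¹ with hJ
  have hJ2 : J ≤ 101 / 100 := by
    have : mu n i ≤ 1 / 1000 := hmu.trans (by norm_num)
    linarith
  have t1 : GGk σ.E u v T / yb n i * J ≤ 204 / 100 + 1 / 1000 := by
    have h1 : GGk σ.E u v T / yb n i ≤ 202 / 100 := by
      rw [div_le_iff₀ hY]
      linarith
    calc GGk σ.E u v T / yb n i * J ≤ 202 / 100 * (101 / 100) :=
          mul_le_mul h1 hJ2 (by linarith) (by norm_num)
      _ ≤ 204 / 100 + 1 / 1000 := by norm_num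
  have t1' : 0 ≤ GGk σ.E u v T / yb n i * J :=
    mul_nonneg (div_nonneg hG0 hY.le) (by linarith)
  have t2 : 2 / (n * pp n i) * cod σ.E u v ≤ 202 / 100 := by
    calc 2 / (n * pp n i) * cod σ.E u v ≤ 2 / (n * pp n i) * (101 / 100 * yb n i) :=
          mul_le_mul_of_nonneg_left hcod (by positivity)
      _ = 202 / 100 * pp n i := by
          rw [hYP]
          field_simp
          ring
      _ ≤ 202 / 100 := by linarith
  have t2' : 0 ≤ 2 / (n * pp n i) * cod σ.E u v := by positivity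
  have t4 : 2 / (n * pp n i) * WTk σ.E u v T ≤ 1 / 1000 := by
    calc 2 / (n * pp n i) * WTk σ.E u v T ≤ 2 / (n * pp n i) * 2 :=
          mul_le_mul_of_nonneg_left hW (by positivity)
      _ ≤ 2 / 10 ^ 6 * 2 := by
          apply mul_le_mul_of_nonneg_right _ (by norm_num)
          exact div_le_div_of_nonneg_left (by norm_num) (by norm_num) hnp
      _ ≤ 1 / 1000 := by norm_num
  have t4' : 0 ≤ 2 / (n * pp n i) * WTk σ.E u v T := by positivity
  have e5 := abs_le.mp hD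
  have hmuY' : mu n i * yb n i ≤ 1 / 1000 := hmuY.trans (by norm_num)
  rw [PPk_eq h hi, AK4_div h hi', if_pos hu, one_mul, mul_add, abs_le]
  constructor <;> linarith [e5.1, e5.2]

/-- Case `u ∉ T`. -/
theorem gd_PPk_not_mem (h : Reg n L i₁) (hi : i < i₁) (hI : Inv i σ) (hG : Good L i σ)
    {T : Finset (Fin n)} (hT : T ∈ triangles σ.E) {u v : Fin n} (huv : u ≠ v) (hu : u ∉ T) :
    |PPk i σ u v T| ≤ 101 / 100 * (GGk σ.E u v T / yb n i) + 2 / (n * pp n i) * WTk σ.E u v T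
      + 5 * (mu n i * yb n i) := by
  have hi' := hi.le
  have hY := h.yb_pos hi'
  have hP := h.pp_pos hi'
  have hn := h.n_pos
  have hm := h.mu_pos hi'
  have hmu := AK4_mu h hi'
  obtain ⟨hinv1, hinv2⟩ := AK4_inv h hi'
  have hD := gd_D0k_le h hi hI hG huv
  have hW0 := WTk_nonneg σ.E u v T
  have hG0 := GGk_nonneg σ.E u v T
  set J : ℝ := ((1 - mu n i) ^ 2)⁻¹ with hJ
  have hJ2 : J ≤ 101 / 100 := by
    have : mu n i ≤ 1 / 1000 := hmu.trans (by norm_num)
    linarith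
  have t1 : GGk σ.E u v T / yb n i * J ≤ 101 / 100 * (GGk σ.E u v T / yb n i) := by
    rw [mul_comm (101 / 100 : ℝ)]
    exact mul_le_mul_of_nonneg_left hJ2 (div_nonneg hG0 hY.le)
  have t1' : 0 ≤ GGk σ.E u v T / yb n i * J :=
    mul_nonneg (div_nonneg hG0 hY.le) (by linarith)
  have t4' : 0 ≤ 2 / (n * pp n i) * WTk σ.E u v T := by positivity
  have e5 := abs_le.mp hD
  rw [PPk_eq h hi, AK4_div h hi', if_neg hu, zero_mul, zero_add, abs_le]
  constructor <;> linarith [e5.1, e5.2]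

/-- Jump: `|PPk| ≤ 5`. In the first case `|c - c̄| ≤ L²√c̄ + L⁴`, `L²√c̄/ȳ = L²/√(np) ≤ L^{-8}`,
`L⁴/ȳ ≤ L^{-16}`, `x ≤ L^{-9}`, `μȳ ≤ L^{-19}`, `1/(np) ≤ L^{-20}`; in the third `GGk ≤ 6`,
`WTk ≤ 3`. -/
theorem gd_PPk_le (h : Reg n L i₁) (hi : i < i₁) (hI : Inv i σ) (hG : Good L i σ)
    {T : Finset (Fin n)} (hT : T ∈ triangles σ.E) {u v : Fin n} (huv : u ≠ v) :
    |PPk i σ u v T| ≤ 5 := by
  have hi' := hi.le
  have hY := h.yb_pos hi'
  have hP := h.pp_pos hi'
  have hP1 := h.pp_le_one i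
  have hn := h.n_pos
  have hL := h.L_pos
  have hL6 := h.L6
  have hL1 : (1 : ℝ) ≤ L := by linarith [show (1:ℝ) ≤ 10 ^ 6 by norm_num]
  have hm := h.mu_pos hi'
  have hmuY := AK4_muyb h hi'
  have hmuY' : mu n i * yb n i ≤ 1 / 1000 := hmuY.trans (by norm_num)
  have hnp := AK4_npge h hi'
  have hYge := AK4_ybge h hi'
  have hnp0 : 0 < (n : ℝ) * pp n i := mul_pos hn hP
  by_cases hu : u ∈ T
  · by_cases hv : v ∈ T
    · exact gd_PPk_mem_mem h hi hI hG hT huv hu hv
    · have h0 := gd_PPk_mem h hi hI hG hT huv hu hv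
      have hcard : (T.erase u).card = 2 := by
        rw [Finset.card_erase_of_mem hu, mem_tri_card hT]
      have hYP : yb n i = n * pp n i ^ 2 := rfl
      -- bound for the sum
      have hb : ∀ x ∈ T.erase u, |cod3 σ.E u v x - cb n i| ≤ 2 / 100 * yb n i := by
        intro x hx
        have hxu : u ≠ x := (Finset.ne_of_mem_erase hx).symm
        have hxv : v ≠ x := by
          rintro rfl
          exact hv (Finset.mem_of_mem_erase hx)
        have h1 := hG.c u v x huv hxu hxv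
        have hs1 : Real.sqrt (cb n i) * Real.sqrt (n * pp n i) = yb n i := by
          rw [← Real.sqrt_mul (by unfold cb; positivity), hYP]
          unfold cb
          rw [show (n : ℝ) * pp n i ^ 3 * (n * pp n i) = (n * pp n i ^ 2) ^ 2 by ring]
          exact Real.sqrt_sq (by positivity)
        have hs2 : L ^ 10 ≤ Real.sqrt (n * pp n i) := (h.sqrt_yb_ge hi').trans (h.sqrt_yb_le hi')
        have hs3 : L ^ 2 * Real.sqrt (cb n i) ≤ 1 / 100 * yb n i := by
          have h100 : 100 * L ^ 2 ≤ L ^ 10 := by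
            have h8 : (100 : ℝ) ≤ L ^ 8 := by
              have : L ≤ L ^ 8 := le_self_pow₀ hL1 (by norm_num)
              linarith [show (100:ℝ) ≤ 10 ^ 6 by norm_num]
            calc 100 * L ^ 2 ≤ L ^ 8 * L ^ 2 := mul_le_mul_of_nonneg_right h8 (by positivity)
              _ = L ^ 10 := by ring
          have h101 : 100 * L ^ 2 * Real.sqrt (cb n i) ≤ yb n i := by
            calc 100 * L ^ 2 * Real.sqrt (cb n i) ≤ Real.sqrt (n * pp n i) * Real.sqrt (cb n i) :=
                  mul_le_mul_of_nonneg_right (h100.trans hs2) (Real.sqrt_nonneg _)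
              _ = yb n i := by rw [mul_comm, hs1]
          linarith
        have hs4 : L ^ 4 ≤ 1 / 100 * yb n i := by
          have h20 := h.yb_ge hi'
          have h16 : (100 : ℝ) ≤ L ^ 16 := by
            have : L ≤ L ^ 16 := le_self_pow₀ hL1 (by norm_num)
            linarith [show (100:ℝ) ≤ 10 ^ 6 by norm_num]
          have : 100 * L ^ 4 ≤ L ^ 20 := by
            calc 100 * L ^ 4 ≤ L ^ 16 * L ^ 4 := mul_le_mul_of_nonneg_right h16 (by positivity)
              _ = L ^ 20 := by ring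
          linarith
        linarith
      have hsum : ∑ x ∈ T.erase u, |cod3 σ.E u v x - cb n i| ≤ 4 / 100 * yb n i := by
        calc ∑ x ∈ T.erase u, |cod3 σ.E u v x - cb n i| ≤ ∑ x ∈ T.erase u, 2 / 100 * yb n i :=
              Finset.sum_le_sum hb
          _ = 4 / 100 * yb n i := by
              rw [Finset.sum_const, hcard, nsmul_eq_mul]
              push_cast
              ring
      have t1 : (∑ x ∈ T.erase u, |cod3 σ.E u v x - cb n i|) * (101 / 100) / yb n i ≤ 1 := by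
        rw [div_le_one hY]
        linarith
      have t2 : 6 * pp n i * (L / Real.sqrt (yb n i)) ≤ 1 := by
        have hx := (h.x_le hi').trans (AK4_one_div_pow h (by norm_num : (9:ℕ) ≠ 0))
        have hx0 : 0 ≤ L / Real.sqrt (yb n i) := by positivity
        calc 6 * pp n i * (L / Real.sqrt (yb n i)) ≤ 6 * 1 * (1 / 10 ^ 6) := by
              apply mul_le_mul _ hx hx0 (by norm_num)
              linarith
          _ ≤ 1 := by norm_num
      have t3 : 4 / (n * pp n i) ≤ 1 := by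
        rw [div_le_one hnp0]
        exact le_trans (by norm_num) hnp
      linarith
  · have h0 := gd_PPk_not_mem h hi hI hG hT huv hu
    have hGG := GGk_not_mem_le hI.sub hT hu (v := v)
    have hW := WTk_le hT u v (E := σ.E)
    have t1 : GGk σ.E u v T / yb n i ≤ 1 := by
      rw [div_le_one hY]
      exact hGG.trans (le_trans (by norm_num) hYge)
    have t2 : 2 / (n * pp n i) * WTk σ.E u v T ≤ 1 := by
      calc 2 / (n * pp n i) * WTk σ.E u v T ≤ 2 / (n * pp n i) * 3 :=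
            mul_le_mul_of_nonneg_left hW (by positivity)
        _ ≤ 2 / 10 ^ 6 * 3 := by
            apply mul_le_mul_of_nonneg_right _ (by norm_num)
            exact div_le_div_of_nonneg_left (by norm_num) (by norm_num) hnp
        _ ≤ 1 := by norm_num
    linarith

end Crest.Agent.TRem
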