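import Crest.Agent.TRem.AK4a

/-!
# Row 30, AK4b: quadratic bound for `PPk`

`x := L/√ȳ`, `p = pp n i`.
-/

namespace Crest.Agent.TRem

open Finset Crest.CombinatoricsR.TriangleRemoval

variable {n : ℕ} {L : ℝ} {i₁ i : ℕ} {σ : St n}

/-- `(a+b+c)² ≤ 3(a²+b²+c²)` in the form used here -/
theorem AK4b_sq3 {P A B C : ℝ} (h : |P| ≤ A + B + C) :
    P ^ 2 ≤ 3 * A ^ 2 + 3 * B ^ 2 + 3 * C ^ 2 := by
  have h0 := abs_nonneg P
  have h1 : |P| ^ 2 ≤ (A + B + C) ^ 2 := pow_le_pow_left₀ h0 h 2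
  rw [sq_abs] at h1
  nlinarith [sq_nonneg (A - B), sq_nonneg (A - C), sq_nonneg (B - C)]

/-- case `u ∈ T`, `v ∉ T` -/
theorem AK4b_case1 {P S y px C Q2 : ℝ} (hy : 0 < y)
    (hSsq : S ^ 2 ≤ 2 * Q2) (hQ2 : 0 ≤ Q2)
    (h : |P| ≤ S * (101 / 100) / y + 6 * px + C) :
    P ^ 2 ≤ 613 / 100 / y ^ 2 * Q2 + 108 * px ^ 2 + 3 * C ^ 2 := by
  have h1 := AK4b_sq3 h
  have hc : (S * (101 / 100) / y) ^ 2 ≤ 10201 / 5000 * (Q2 / y ^ 2) := by
    have e : (S * (101 / 100) / y) ^ 2 = 10201 / 10000 * (S ^ 2 / y ^ 2) := by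
      rw [div_pow, mul_pow]; ring
    rw [e]
    have h2 : S ^ 2 / y ^ 2 ≤ 2 * Q2 / y ^ 2 :=
      div_le_div_of_nonneg_right hSsq (by positivity)
    have h3 : 2 * Q2 / y ^ 2 = 2 * (Q2 / y ^ 2) := by ring
    rw [h3] at h2
    linarith
  have h4 : 0 ≤ Q2 / y ^ 2 := by positivity
  have e2 : 613 / 100 / y ^ 2 * Q2 = 613 / 100 * (Q2 / y ^ 2) := by ring
  have e3 : (6 * px) ^ 2 = 36 * px ^ 2 := by ring
  rw [e2]
  rw [e3] at h1
  linarith

/-- case `u ∉ T` -/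
theorem AK4b_case2 {P G W y q D : ℝ} (hy : 0 < y) (hq : 0 < q)
    (hG0 : 0 ≤ G) (hG6 : G ≤ 6) (hW0 : 0 ≤ W) (hW3 : W ≤ 3)
    (h : |P| ≤ 101 / 100 * (G / y) + 2 / q * W + 5 * D) :
    P ^ 2 ≤ 92 / 5 / y ^ 2 * G + 36 / q ^ 2 * W + 75 * D ^ 2 := by
  have h1 := AK4b_sq3 h
  have hc : (101 / 100 * (G / y)) ^ 2 ≤ 10201 / 10000 * (6 * (G / y ^ 2)) := by
    have e : (101 / 100 * (G / y)) ^ 2 = 10201 / 10000 * (G * G / y ^ 2) := by
      rw [mul_pow, div_pow]; ring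
    rw [e]
    have h2 : G * G / y ^ 2 ≤ 6 * G / y ^ 2 :=
      div_le_div_of_nonneg_right (mul_le_mul_of_nonneg_right hG6 hG0) (by positivity)
    have h3 : 6 * G / y ^ 2 = 6 * (G / y ^ 2) := by ring
    rw [h3] at h2
    linarith
  have hw : (2 / q * W) ^ 2 ≤ 12 * (W / q ^ 2) := by
    have e : (2 / q * W) ^ 2 = 4 * (W * W / q ^ 2) := by
      rw [mul_pow, div_pow]; ring
    rw [e]
    have h2 : W * W / q ^ 2 ≤ 3 * W / q ^ 2 :=
      div_le_div_of_nonneg_right (mul_le_mul_of_nonneg_right hW3 hW0) (by positivity)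
    have h3 : 3 * W / q ^ 2 = 3 * (W / q ^ 2) := by ring
    rw [h3] at h2
    linarith
  have h4 : 0 ≤ G / y ^ 2 := by positivity
  have e2 : 92 / 5 / y ^ 2 * G = 92 / 5 * (G / y ^ 2) := by ring
  have e3 : (5 * D) ^ 2 = 25 * D ^ 2 := by ring
  have e4 : 36 / q ^ 2 * W = 36 * (W / q ^ 2) := by ring
  rw [e2, e4]
  rw [e3] at h1
  linarith

/-- the pointwise majorant of `PPk²` -/
noncomputable def FFk (L : ℝ) (i : ℕ) (σ : St n) (u v : Fin n) (T : Finset (Fin n)) : ℝ :=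
  613 / 100 / yb n i ^ 2 * (∑ z ∈ (univ.erase u).erase v,
      (cod3 σ.E u v z - cb n i) ^ 2 * II u z T)
    + (108 * (pp n i * (L / Real.sqrt (yb n i))) ^ 2
        + 3 * (4 / (n * pp n i) + 6 * (mu n i * yb n i)) ^ 2) * (if u ∈ T then 1 else 0)
    + 25 * II u v T
    + 92 / 5 / yb n i ^ 2 * (if u ∈ T then 0 else GGk σ.E u v T)
    + 36 / (n * pp n i) ^ 2 * WTk σ.E u v T
    + 75 * (mu n i * yb n i) ^ 2

theorem AK4b_sum_eq {u v : Fin n} {T : Finset (Fin n)}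
    (hu : u ∈ T) (hv : v ∉ T) (f : Fin n → ℝ) :
    ∑ z ∈ T.erase u, f z = ∑ z ∈ (univ.erase u).erase v, f z * II u z T := by
  have hsub : T.erase u ⊆ (univ.erase u).erase v := by
    intro z hz
    rw [Finset.mem_erase] at hz
    rw [Finset.mem_erase, Finset.mem_erase]
    refine ⟨?_, hz.1, Finset.mem_univ _⟩
    rintro rfl
    exact hv hz.2
  rw [← Finset.sum_subset hsub]
  · refine Finset.sum_congr rfl fun z hz => ?_
    rw [Finset.mem_erase] at hz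
    have : II u z T = 1 := by unfold II; simp [hu, hz.2]
    rw [this, mul_one]
  · intro z hz hz'
    rw [Finset.mem_erase, Finset.mem_erase] at hz
    have hzT : z ∉ T := fun hzT => hz' (Finset.mem_erase.mpr ⟨hz.2.1, hzT⟩)
    have : II u z T = 0 := by unfold II; simp [hzT]
    rw [this, mul_zero]

theorem PPk_sq_le (h : Reg n L i₁) (hi : i < i₁) (hI : Inv i σ) (hG : Good L i σ)
    {u v : Fin n} (huv : u ≠ v) {T : Finset (Fin n)} (hT : T ∈ triangles σ.E) :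
    (PPk i σ u v T) ^ 2 ≤ FFk L i σ u v T := by
  have hy : 0 < yb n i := h.yb_pos hi.le
  have hp : 0 < pp n i := h.pp_pos hi.le
  have hn : 0 < (n : ℝ) := h.n_pos
  have hq : 0 < (n : ℝ) * pp n i := mul_pos hn hp
  have hG0 := GGk_nonneg σ.E u v T
  have hW0 := WTk_nonneg σ.E u v T
  have hS0 : 0 ≤ ∑ z ∈ (univ.erase u).erase v, (cod3 σ.E u v z - cb n i) ^ 2 * II u z T :=
    Finset.sum_nonneg fun z _ => mul_nonneg (sq_nonneg _) (II_nonneg _ _ _)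
  have e1 : 0 ≤ 613 / 100 / yb n i ^ 2 * (∑ z ∈ (univ.erase u).erase v,
      (cod3 σ.E u v z - cb n i) ^ 2 * II u z T) := mul_nonneg (by positivity) hS0
  have e5 : 0 ≤ 36 / (n * pp n i) ^ 2 * WTk σ.E u v T := mul_nonneg (by positivity) hW0
  have e6 : 0 ≤ 75 * (mu n i * yb n i) ^ 2 := by positivity
  unfold FFk
  by_cases hu : u ∈ T
  · by_cases hv : v ∈ T
    · -- both
      have h5 := gd_PPk_mem_mem h hi hI hG hT huv hu hv
      have hsq : (PPk i σ u v T) ^ 2 ≤ 25 := by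
        have := abs_le.mp h5
        nlinarith [this.1, this.2]
      have hIv : II u v T = 1 := by unfold II; simp [hu, hv]
      have e2 : 0 ≤ (108 * (pp n i * (L / Real.sqrt (yb n i))) ^ 2
        + 3 * (4 / (n * pp n i) + 6 * (mu n i * yb n i)) ^ 2) := by positivity
      rw [hIv, if_pos hu, if_pos hu]
      linarith
    · -- u ∈ T, v ∉ T
      have h5 := gd_PPk_mem h hi hI hG hT huv hu hv
      have hcard : (T.erase u).card = 2 := by
        rw [Finset.card_erase_of_mem hu, mem_tri_card hT]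
      have hSsq : (∑ z ∈ T.erase u, |cod3 σ.E u v z - cb n i|) ^ 2 ≤
          2 * ∑ z ∈ T.erase u, (cod3 σ.E u v z - cb n i) ^ 2 := by
        have := sq_sum_le_card_mul_sum_sq (s := T.erase u) (f := fun z => |cod3 σ.E u v z - cb n i|)
        rw [hcard] at this
        simpa [sq_abs] using this
      have hQ2n : 0 ≤ ∑ z ∈ T.erase u, (cod3 σ.E u v z - cb n i) ^ 2 :=
        Finset.sum_nonneg fun z _ => sq_nonneg _
      have hSum := AK4b_sum_eq hu hv (fun z => (cod3 σ.E u v z - cb n i) ^ 2)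
      have hb := AK4b_case1 (px := pp n i * (L / Real.sqrt (yb n i)))
        (C := 4 / (n * pp n i) + 6 * (mu n i * yb n i)) hy hSsq hQ2n (by
          have e : 6 * (pp n i * (L / Real.sqrt (yb n i))) =
            6 * pp n i * (L / Real.sqrt (yb n i)) := by ring
          rw [e]; exact h5)
      rw [hSum] at hb
      have hIv : II u v T = 0 := by unfold II; simp [hv]
      rw [hIv, if_pos hu, if_pos hu]
      linarith
  · -- u ∉ T
    have h5 := gd_PPk_not_mem h hi hI hG hT huv hu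
    have hG6 := GGk_not_mem_le (v := v) hI.sub hT hu
    have hW3 := WTk_le (E := σ.E) hT u v
    have hb := AK4b_case2 hy hq hG0 hG6 hW0 hW3 h5
    have hIv : II u v T = 0 := by unfold II; simp [hu]
    rw [if_neg hu, if_neg hu, hIv]
    linarith

/-! numerical pieces (`q = np`, `y = np²`, `m = μ`) -/

theorem AK4b_s1 {y m L : ℝ} (hy : 0 < y) (hm : 0 < m) (hL : 0 < L) :
    613 / 100 / y ^ 2 * (51 / 50 * m * (43 / 5 * L ^ 4 * y ^ 2)) ≤ 54 * (m * L ^ 4) := by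
  have e : 613 / 100 / y ^ 2 * (51 / 50 * m * (43 / 5 * L ^ 4 * y ^ 2)) =
      613 / 100 * (51 / 50) * (43 / 5) * (m * L ^ 4) := by
    field_simp
  rw [e]
  have : 0 < m * L ^ 4 := by positivity
  linarith

theorem AK4b_s2 {N p y m L : ℝ} (hN : 0 < N) (hN6 : (10:ℝ) ^ 6 ≤ N) (hp : 0 < p) (hp1 : p ≤ 1)
    (hyeq : y = N * p ^ 2) (hy : 0 < y) (hm : 0 < m) (hNp : (10:ℝ) ^ 6 ≤ N * p)
    (hml : 6 / (N ^ 2 * p) ≤ m) (hmy : m * y ^ 2 ≤ 7) :
    (108 * (p * (L / Real.sqrt y)) ^ 2 + 3 * (4 / (N * p) + 6 * (m * y)) ^ 2) * (4 / N) ≤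
      72 * (m * L ^ 2) + 2 * m := by
  have hn2 : 6 / N ^ 2 ≤ m := by
    refine le_trans ?_ hml
    apply div_le_div_of_nonneg_left (by norm_num) (by positivity)
    have : N ^ 2 * p ≤ N ^ 2 * 1 := mul_le_mul_of_nonneg_left hp1 (by positivity)
    linarith
  have hxx : (p * (L / Real.sqrt y)) ^ 2 = L ^ 2 / N := by
    rw [mul_pow, div_pow, Real.sq_sqrt hy.le, hyeq]
    field_simp
  have hs0 : (4 / (N * p) + 6 * (m * y)) ^ 2 ≤ 32 / (N * p) ^ 2 + 72 * (m * y) ^ 2 := by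
    have e : 32 / (N * p) ^ 2 = 2 * (4 / (N * p)) ^ 2 := by
      rw [div_pow]; ring
    rw [e]
    nlinarith [sq_nonneg (4 / (N * p) - 6 * (m * y))]
  rw [hxx]
  have a1 : 108 * (L ^ 2 / N) * (4 / N) ≤ 72 * (m * L ^ 2) := by
    have e : 108 * (L ^ 2 / N) * (4 / N) = 6 / N ^ 2 * (72 * L ^ 2) := by
      field_simp
      ring
    rw [e]
    have := mul_le_mul_of_nonneg_right hn2 (by positivity : 0 ≤ 72 * L ^ 2)
    linarith
  have a2 : 3 * (32 / (N * p) ^ 2) * (4 / N) ≤ m := by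
    have e : 3 * (32 / (N * p) ^ 2) * (4 / N) = 64 / (N * p) * (6 / (N ^ 2 * p)) := by
      field_simp
      norm_num
    rw [e]
    have b1 : 64 / (N * p) ≤ 1 := by
      rw [div_le_one (by positivity)]
      linarith
    calc 64 / (N * p) * (6 / (N ^ 2 * p)) ≤ 1 * m :=
          mul_le_mul b1 hml (by positivity) (by norm_num)
      _ = m := one_mul _
  have a3 : 3 * (72 * (m * y) ^ 2) * (4 / N) ≤ m := by
    have e : 3 * (72 * (m * y) ^ 2) * (4 / N) = 864 / N * (m * y ^ 2) * m := by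
      field_simp
      norm_num
    rw [e]
    have b1 : 864 / N * (m * y ^ 2) ≤ 1 := by
      calc 864 / N * (m * y ^ 2) ≤ 864 / N * 7 :=
            mul_le_mul_of_nonneg_left hmy (by positivity)
        _ = 6048 / N := by ring
        _ ≤ 1 := by
            rw [div_le_one hN]
            linarith
    calc 864 / N * (m * y ^ 2) * m ≤ 1 * m := mul_le_mul_of_nonneg_right b1 hm.le
      _ = m := one_mul _
  have a4 : 3 * (4 / (N * p) + 6 * (m * y)) ^ 2 * (4 / N) ≤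
      3 * (32 / (N * p) ^ 2) * (4 / N) + 3 * (72 * (m * y) ^ 2) * (4 / N) := by
    have := mul_le_mul_of_nonneg_right hs0 (by positivity : 0 ≤ 3 * (4 / N))
    linarith
  linarith

theorem AK4b_s4 {y m : ℝ} (hy : 0 < y) (hm : 0 < m) :
    92 / 5 / y ^ 2 * (21 / 20 * m * y ^ 2) ≤ 20 * m := by
  have e : 92 / 5 / y ^ 2 * (21 / 20 * m * y ^ 2) = 92 / 5 * (21 / 20) * m := by
    field_simp
  rw [e]
  linarith

theorem AK4b_s5 {N p y m : ℝ} (hN : 0 < N) (hp : 0 < p) (hp1 : p ≤ 1)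
    (hyeq : y = N * p ^ 2) (hm : 0 < m) (hml : 6 / (N ^ 2 * p) ≤ m) :
    36 / (N * p) ^ 2 * (41 / 10 * y / N) ≤ 25 * m := by
  have hn2 : 6 / N ^ 2 ≤ m := by
    refine le_trans ?_ hml
    apply div_le_div_of_nonneg_left (by norm_num) (by positivity)
    have : N ^ 2 * p ≤ N ^ 2 * 1 := mul_le_mul_of_nonneg_left hp1 (by positivity)
    linarith
  have e : 36 / (N * p) ^ 2 * (41 / 10 * y / N) = 123 / 5 * (6 / N ^ 2) := by
    rw [hyeq]
    field_simp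
    norm_num
  rw [e]
  linarith

theorem AK4b_s6 {y m : ℝ} (hm : 0 < m) (hmy : m * y ^ 2 ≤ 7) :
    75 * (m * y) ^ 2 ≤ 525 * m := by
  have e : 75 * (m * y) ^ 2 = 75 * m * (m * y ^ 2) := by ring
  rw [e]
  have := mul_le_mul_of_nonneg_left hmy (by positivity : 0 ≤ 75 * m)
  linarith

theorem AK4b_fin {m L : ℝ} (hm : 0 < m) (hL : (10:ℝ) ^ 6 ≤ L) :
    54 * (m * L ^ 4) + (72 * (m * L ^ 2) + 2 * m) + 25 * (51 / 50 * m) + 20 * m + 25 * m
      + 525 * m ≤ 100 * m * L ^ 4 := by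
  have hL2 : (10:ℝ) ^ 12 ≤ L ^ 2 := by
    calc (10:ℝ) ^ 12 = ((10:ℝ) ^ 6) ^ 2 := by norm_num
      _ ≤ L ^ 2 := pow_le_pow_left₀ (by norm_num) hL 2
  have hL4 : (10:ℝ) ^ 12 * L ^ 2 ≤ L ^ 4 := by
    calc (10:ℝ) ^ 12 * L ^ 2 ≤ L ^ 2 * L ^ 2 := mul_le_mul_of_nonneg_right hL2 (by positivity)
      _ = L ^ 4 := by ring
  have h1 : 72 * L ^ 2 + 2 + 25 * (51 / 50) + 20 + 25 + 525 ≤ 46 * L ^ 4 := by linarith
  have h2 := mul_le_mul_of_nonneg_left h1 hm.le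
  linarith

theorem AK4b_Av {u v : Fin n} (hne : (triangles σ.E).Nonempty) :
    Av (triangles σ.E) (fun T => FFk L i σ u v T) =
      613 / 100 / yb n i ^ 2 * (∑ z ∈ (univ.erase u).erase v,
          (cod3 σ.E u v z - cb n i) ^ 2 * Av (triangles σ.E) (II u z))
      + (108 * (pp n i * (L / Real.sqrt (yb n i))) ^ 2
          + 3 * (4 / (n * pp n i) + 6 * (mu n i * yb n i)) ^ 2) * piv σ.E u
      + 25 * Av (triangles σ.E) (II u v)
      + 92 / 5 / yb n i ^ 2 *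
          Av (triangles σ.E) (fun T => if u ∈ T then 0 else GGk σ.E u v T)
      + 36 / (n * pp n i) ^ 2 * Av (triangles σ.E) (fun T => WTk σ.E u v T)
      + 75 * (mu n i * yb n i) ^ 2 := by
  unfold FFk
  rw [Av_add, Av_add, Av_add, Av_add, Av_add, Av_mul, Av_mul, Av_mul, Av_mul, Av_mul,
    Av_const hne, Av_mem, Av_sum]
  simp_rw [Av_mul]

/-- Quadratic bound. Pointwise, with `δ_x = c_uvx - c̄`, `s₀ = 4/(np) + 6μȳ`:
`PPk² ≤ (6.13/ȳ²) Σ_{x≠u,v} δ_x² II u x T + (108 p² x² + 3 s₀²) 1[u∈T] + 25 II u v T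
   + (18.4/ȳ²) (if u ∈ T then 0 else GGk) + 36 WTk/(np)² + 75 (μȳ)²`
(case `u∈T, v∉T`: `(a+b+c)² ≤ 3(a²+b²+c²)` and `(|δ_b|+|δ_c|)² ≤ 2(δ_b²+δ_c²)`; case `u∉T`:
`GGk² ≤ 6 GGk`, `WTk² ≤ 3 WTk`). Averages: `Av II u x ≤ 1.02 μ A_ux` and `gd_sum_cod3_sq` give
`53.8 μ L⁴`; `π_u ≤ 4/n`, `p²x² = L²/n` and `6/(n²p) ≤ μ` give `≤ 72 μ L² + 2 μ`; `25.5 μ`;
`gd_Av_GGk` gives `19.4 μ`; `gd_Av_WTk` gives `≤ 25 μ`; `75 μ²ȳ² ≤ 525 μ` (`Reg.mu_yb_sq`). -/
theorem gd_PPk_qv (h : Reg n L i₁) (hi : i < i₁) (hI : Inv i σ) (hG : Good L i σ)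
    {u v : Fin n} (huv : u ≠ v) :
    Av (triangles σ.E) (fun T => (PPk i σ u v T) ^ 2) ≤ 100 * mu n i * L ^ 4 := by
  have hy : 0 < yb n i := h.yb_pos hi.le
  have hμ : 0 < mu n i := h.mu_pos hi.le
  have hp : 0 < pp n i := h.pp_pos hi.le
  have hn : 0 < (n : ℝ) := h.n_pos
  have hL : (10:ℝ) ^ 6 ≤ L := h.L6
  have hp1 : pp n i ≤ 1 := h.pp_le_one i
  have hml := h.mu_lower hi.le
  have hmy := h.mu_yb_sq hi.le
  have hyeq : yb n i = n * pp n i ^ 2 := rfl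
  have hne := gd_nonempty h hi.le hG
  have hL0 : 0 < L := by linarith
  have hL20 : (10:ℝ) ^ 6 ≤ L ^ 20 := by
    calc (10:ℝ) ^ 6 ≤ L := hL
      _ = L ^ 1 := (pow_one L).symm
      _ ≤ L ^ 20 := pow_le_pow_right₀ (by linarith) (by norm_num)
  have hn6 : (10:ℝ) ^ 6 ≤ n := hL20.trans h.n_ge
  have hnp6 : (10:ℝ) ^ 6 ≤ n * pp n i := hL20.trans (h.np_ge hi.le)
  refine (Av_mono (fun T hT => PPk_sq_le h hi hI hG huv hT)).trans ?_
  rw [AK4b_Av hne]
  -- bounds of the pieces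
  have t1 : ∑ z ∈ (univ.erase u).erase v,
      (cod3 σ.E u v z - cb n i) ^ 2 * Av (triangles σ.E) (II u z) ≤
      51 / 50 * mu n i * (43 / 5 * L ^ 4 * yb n i ^ 2) := by
    have hs := gd_sum_cod3_sq h hi.le hI hG huv
    calc ∑ z ∈ (univ.erase u).erase v,
        (cod3 σ.E u v z - cb n i) ^ 2 * Av (triangles σ.E) (II u z)
        ≤ ∑ z ∈ (univ.erase u).erase v,
          51 / 50 * mu n i * (adj σ.E u z * (cod3 σ.E u v z - cb n i) ^ 2) := by
          refine Finset.sum_le_sum fun z hz => ?_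
          rw [Finset.mem_erase, Finset.mem_erase] at hz
          have := gd_Av_II_le h hi.le hI hG (a := u) (b := z) (fun e => hz.2.1 e.symm)
          calc (cod3 σ.E u v z - cb n i) ^ 2 * Av (triangles σ.E) (II u z)
              ≤ (cod3 σ.E u v z - cb n i) ^ 2 * (51 / 50 * mu n i * adj σ.E u z) :=
                mul_le_mul_of_nonneg_left this (sq_nonneg _)
            _ = _ := by ring
      _ = 51 / 50 * mu n i *
          ∑ z ∈ (univ.erase u).erase v, adj σ.E u z * (cod3 σ.E u v z - cb n i) ^ 2 := by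
          rw [Finset.mul_sum]
      _ ≤ _ := mul_le_mul_of_nonneg_left hs (by positivity)
  have t2 := gd_piv_le h hi.le hI hG u
  have t3 : Av (triangles σ.E) (II u v) ≤ 51 / 50 * mu n i := by
    refine (gd_Av_II_le h hi.le hI hG huv).trans ?_
    exact mul_le_of_le_one_right (by positivity) (adj_le_one _ _ _)
  have t4 := gd_Av_GGk h hi.le hI hG huv
  have t5 := gd_Av_WTk h hi.le hI hG huv
  have hC2 : 0 ≤ 108 * (pp n i * (L / Real.sqrt (yb n i))) ^ 2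
          + 3 * (4 / (n * pp n i) + 6 * (mu n i * yb n i)) ^ 2 := by positivity
  have r1 := (mul_le_mul_of_nonneg_left t1 (by positivity : 0 ≤ 613 / 100 / yb n i ^ 2)).trans
    (AK4b_s1 hy hμ hL0)
  have r2 := (mul_le_mul_of_nonneg_left t2 hC2).trans
    (AK4b_s2 hn hn6 hp hp1 hyeq hy hμ hnp6 hml hmy)
  have r4 := (mul_le_mul_of_nonneg_left t4 (by positivity : 0 ≤ 92 / 5 / yb n i ^ 2)).trans
    (AK4b_s4 hy hμ)
  have r5 := (mul_le_mul_of_nonneg_left t5 (by positivity : 0 ≤ 36 / (n * pp n i) ^ 2)).trans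
    (AK4b_s5 hn hp hp1 hyeq hμ hml)
  have r6 := AK4b_s6 hμ hmy
  have hf := AK4b_fin hμ hL
  linarith

end Crest.Agent.TRem
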