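import Crest.Agent.TRem.ADefs

/-!
# Row 30 (S0040), part A: common one-step facts

* algebra of the average `Av`;
* averages of indicators of vertices over the triangles of the current graph;
* the numerical regime (`Reg`) and elementary consequences of `Good`.
-/

namespace Crest.Agent.TRem

open Finset Crest.CombinatoricsR.TriangleRemoval

variable {n : ℕ}

/-! ## Averages -/

section Avl

variable {α : Type} {A : Finset α}

theorem Av_add9 (f g : α → ℝ) : Av A (fun t => f t + g t) = Av A f + Av A g := by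
  unfold Av; rw [Finset.sum_add_distrib]; ring

theorem Av_sub9 (f g : α → ℝ) : Av A (fun t => f t - g t) = Av A f - Av A g := by
  unfold Av; rw [Finset.sum_sub_distrib]; ring

theorem Av_neg9 (f : α → ℝ) : Av A (fun t => - f t) = - Av A f := by
  unfold Av; rw [Finset.sum_neg_distrib]; ring

theorem Av_mul_left (c : ℝ) (f : α → ℝ) : Av A (fun t => c * f t) = c * Av A f := by
  unfold Av; rw [← Finset.mul_sum]; ring

theorem Av_mul_right (c : ℝ) (f : α → ℝ) : Av A (fun t => f t * c) = Av A f * c := by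
  unfold Av; rw [← Finset.sum_mul]; ring

theorem Av_const9 (h : A.card ≠ 0) (c : ℝ) : Av A (fun _ => c) = c := by
  unfold Av
  rw [Finset.sum_const, nsmul_eq_mul]
  field_simp

theorem Av_zero : Av A (fun _ => (0:ℝ)) = 0 := by
  unfold Av; simp

theorem Av_sum9 {β : Type} (s : Finset β) (f : β → α → ℝ) :
    Av A (fun t => ∑ b ∈ s, f b t) = ∑ b ∈ s, Av A (f b) := by
  unfold Av; rw [Finset.sum_comm, Finset.mul_sum]

theorem Av_mono9 {f g : α → ℝ} (h : ∀ t ∈ A, f t ≤ g t) : Av A f ≤ Av A g := by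
  unfold Av
  exact mul_le_mul_of_nonneg_left (Finset.sum_le_sum h) (by positivity)

theorem Av_congr9 {f g : α → ℝ} (h : ∀ t ∈ A, f t = g t) : Av A f = Av A g := by
  unfold Av; rw [Finset.sum_congr rfl h]

theorem Av_nonneg9 {f : α → ℝ} (h : ∀ t ∈ A, 0 ≤ f t) : 0 ≤ Av A f := by
  unfold Av
  exact mul_nonneg (by positivity) (Finset.sum_nonneg h)

theorem abs_Av_le9 (f : α → ℝ) : |Av A f| ≤ Av A (fun t => |f t|) := by
  unfold Av
  rw [abs_mul, abs_of_nonneg (show (0:ℝ) ≤ (A.card : ℝ)⁻¹ by positivity)]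
  exact mul_le_mul_of_nonneg_left (Finset.abs_sum_le_sum_abs _ _) (by positivity)

theorem Av_le_const {f : α → ℝ} {c : ℝ} (hc : 0 ≤ c) (h : ∀ t ∈ A, f t ≤ c) : Av A f ≤ c := by
  rcases Nat.eq_zero_or_pos A.card with h0 | h0
  · unfold Av; rw [h0]; simpa using hc
  · calc Av A f ≤ Av A (fun _ => c) := Av_mono9 h
      _ = c := Av_const9 (by omega) c

end Avl

/-! ## Adjacency and vertex indicators -/

/-- indicator of `u ∈ T` -/
noncomputable def ind (T : Finset (Fin n)) (u : Fin n) : ℝ := if u ∈ T then 1 else 0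

theorem ind_nonneg (T : Finset (Fin n)) (u : Fin n) : 0 ≤ ind T u := by
  unfold ind; split_ifs <;> norm_num

theorem ind_le_one (T : Finset (Fin n)) (u : Fin n) : ind T u ≤ 1 := by
  unfold ind; split_ifs <;> norm_num

theorem ind_mul_self (T : Finset (Fin n)) (u : Fin n) : ind T u * ind T u = ind T u := by
  unfold ind; split_ifs <;> norm_num

theorem ind_of_mem {T : Finset (Fin n)} {u : Fin n} (h : u ∈ T) : ind T u = 1 := if_pos h

theorem ind_of_not_mem {T : Finset (Fin n)} {u : Fin n} (h : u ∉ T) : ind T u = 0 := if_neg h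

theorem adj_comm9 (E : Finset (Sym2 (Fin n))) (u v : Fin n) : adj E u v = adj E v u := by
  unfold adj; rw [Sym2.eq_swap]

theorem adj_nonneg9 (E : Finset (Sym2 (Fin n))) (u v : Fin n) : 0 ≤ adj E u v := by
  unfold adj; split_ifs <;> norm_num

theorem adj_le_one9 (E : Finset (Sym2 (Fin n))) (u v : Fin n) : adj E u v ≤ 1 := by
  unfold adj; split_ifs <;> norm_num

theorem adj_mul_self (E : Finset (Sym2 (Fin n))) (u v : Fin n) :
    adj E u v * adj E u v = adj E u v := by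
  unfold adj; split_ifs <;> norm_num

theorem adj_self9 {E : Finset (Sym2 (Fin n))} (hE : E ⊆ allEdges n) (u : Fin n) :
    adj E u u = 0 := by
  unfold adj
  rw [if_neg]
  intro h
  have := hE h
  simp [allEdges] at this

theorem adj_eq_zero_or_one9 (E : Finset (Sym2 (Fin n))) (u v : Fin n) :
    adj E u v = 0 ∨ adj E u v = 1 := by
  unfold adj; split_ifs <;> simp

theorem cod_comm9 (E : Finset (Sym2 (Fin n))) (u v : Fin n) : cod E u v = cod E v u := by
  unfold cod; exact Finset.sum_congr rfl fun _ _ => mul_comm _ _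

theorem cod_nonneg (E : Finset (Sym2 (Fin n))) (u v : Fin n) : 0 ≤ cod E u v :=
  Finset.sum_nonneg fun _ _ => mul_nonneg (adj_nonneg9 _ _ _) (adj_nonneg9 _ _ _)

theorem cod3_nonneg9 (E : Finset (Sym2 (Fin n))) (u v x : Fin n) : 0 ≤ cod3 E u v x :=
  Finset.sum_nonneg fun _ _ =>
    mul_nonneg (mul_nonneg (adj_nonneg9 _ _ _) (adj_nonneg9 _ _ _)) (adj_nonneg9 _ _ _)

theorem deg_nonneg (E : Finset (Sym2 (Fin n))) (u : Fin n) : 0 ≤ deg E u :=
  Finset.sum_nonneg fun _ _ => adj_nonneg9 _ _ _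

/-- the adjacency after the removal of `T` -/
theorem adj_nxt (i : ℕ) (σ : St n) (T : Finset (Fin n)) (a b : Fin n) :
    adj (nxt i σ T).E a b = adj σ.E a b * (1 - ind T a * ind T b) := by
  unfold adj ind nxt
  simp only [Finset.mem_sdiff, Finset.mk_mem_sym2_iff]
  by_cases h1 : s(a, b) ∈ σ.E <;> by_cases h2 : a ∈ T <;> by_cases h3 : b ∈ T <;>
    simp [h1, h2, h3]

/-- the filter after the removal of `T` -/
theorem nxt_a (i : ℕ) (σ : St n) (T : Finset (Fin n)) (u : Fin n) :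
    (nxt i σ T).a u = (1 - mu n i) * σ.a u - 2 / (n * pp n i) * (ind T u - piv σ.E u) := rfl

/-! ## Triangles -/

theorem mem_triangles_card {E : Finset (Sym2 (Fin n))} {T : Finset (Fin n)}
    (hT : T ∈ triangles E) : T.card = 3 := by
  unfold triangles at hT
  rw [Finset.mem_filter, Finset.mem_powersetCard] at hT
  exact hT.1.2

theorem adj_of_mem_triangles {E : Finset (Sym2 (Fin n))} {T : Finset (Fin n)}
    (hT : T ∈ triangles E) {a b : Fin n} (ha : a ∈ T) (hb : b ∈ T) (hab : a ≠ b) :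
    adj E a b = 1 := by
  unfold triangles at hT
  rw [Finset.mem_filter] at hT
  unfold adj
  rw [if_pos (hT.2 a ha b hb hab)]

theorem ind_mul_adj {E : Finset (Sym2 (Fin n))} {T : Finset (Fin n)}
    (hT : T ∈ triangles E) {a b : Fin n} (hab : a ≠ b) :
    ind T a * ind T b * adj E a b = ind T a * ind T b := by
  by_cases ha : a ∈ T
  · by_cases hb : b ∈ T
    · rw [adj_of_mem_triangles hT ha hb hab, mul_one]
    · rw [ind_of_not_mem hb]; ring
  · rw [ind_of_not_mem ha]; ring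

theorem sum_ind {E : Finset (Sym2 (Fin n))} {T : Finset (Fin n)}
    (hT : T ∈ triangles E) : ∑ w, ind T w = 3 := by
  unfold ind
  rw [Finset.sum_ite_mem, Finset.univ_inter, Finset.sum_const, mem_triangles_card hT]
  norm_num

theorem mem_triangles_iff {E : Finset (Sym2 (Fin n))} {a b c : Fin n} (hab : a ≠ b)
    (hac : a ≠ c) (hbc : b ≠ c) :
    ({a, b, c} : Finset (Fin n)) ∈ triangles E ↔
      s(a, b) ∈ E ∧ s(a, c) ∈ E ∧ s(b, c) ∈ E := by
  unfold triangles
  rw [Finset.mem_filter, Finset.mem_powersetCard]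
  constructor
  · rintro ⟨-, h⟩
    exact ⟨h a (by simp) b (by simp) hab, h a (by simp) c (by simp) hac,
      h b (by simp) c (by simp) hbc⟩
  · rintro ⟨h1, h2, h3⟩
    refine ⟨⟨Finset.subset_univ _, Finset.card_eq_three.2 ⟨a, b, c, hab, hac, hbc, rfl⟩⟩, ?_⟩
    intro u hu v hv huv
    simp only [Finset.mem_insert, Finset.mem_singleton] at hu hv
    rcases hu with rfl | rfl | rfl <;> rcases hv with rfl | rfl | rfl <;>
      first
      | exact absurd rfl huv
      | assumption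
      | (rw [Sym2.eq_swap]; assumption)

theorem ind3_eq {E : Finset (Sym2 (Fin n))} {T : Finset (Fin n)}
    (hT : T ∈ triangles E) {a b c : Fin n} (hab : a ≠ b) (hac : a ≠ c) (hbc : b ≠ c) :
    ind T a * ind T b * ind T c = if T = {a, b, c} then 1 else 0 := by
  by_cases h : T = {a, b, c}
  · rw [if_pos h, h]; simp [ind]
  · rw [if_neg h]
    by_contra hne
    apply h
    have ha : a ∈ T := by
      by_contra h'; exact hne (by rw [ind_of_not_mem h']; ring)
    have hb : b ∈ T := by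
      by_contra h'; exact hne (by rw [ind_of_not_mem h']; ring)
    have hc : c ∈ T := by
      by_contra h'; exact hne (by rw [ind_of_not_mem h']; ring)
    symm
    apply Finset.eq_of_subset_of_card_le
    · intro x hx
      simp only [Finset.mem_insert, Finset.mem_singleton] at hx
      rcases hx with rfl | rfl | rfl <;> assumption
    · rw [mem_triangles_card hT, Finset.card_eq_three.2 ⟨a, b, c, hab, hac, hbc, rfl⟩]

/-- four distinct vertices are never all in a triangle -/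
theorem ind4_eq {E : Finset (Sym2 (Fin n))} {T : Finset (Fin n)}
    (hT : T ∈ triangles E) {a b c d : Fin n} (hab : a ≠ b) (hac : a ≠ c) (hbc : b ≠ c)
    (had : a ≠ d) (hbd : b ≠ d) (hcd : c ≠ d) :
    ind T a * ind T b * ind T c * ind T d = 0 := by
  rw [ind3_eq hT hab hac hbc]
  by_cases h : T = {a, b, c}
  · rw [if_pos h, ind_of_not_mem]
    · ring
    · rw [h]; simp [Ne.symm had, Ne.symm hbd, Ne.symm hcd]
  · rw [if_neg h]; ring

theorem Av_eq_sum_div (E : Finset (Sym2 (Fin n))) (f : Finset (Fin n) → ℝ) :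
    Av (triangles E) f = (∑ T ∈ triangles E, f T) / QQ E := by
  unfold Av QQ; rw [div_eq_inv_mul]

theorem sum_ind3 (E : Finset (Sym2 (Fin n))) {a b c : Fin n} (hab : a ≠ b) (hac : a ≠ c)
    (hbc : b ≠ c) :
    ∑ T ∈ triangles E, ind T a * ind T b * ind T c = adj E a b * adj E a c * adj E b c := by
  rw [Finset.sum_congr rfl (fun T hT => ind3_eq hT hab hac hbc), Finset.sum_ite_eq']
  unfold adj
  by_cases h1 : s(a, b) ∈ E <;> by_cases h2 : s(a, c) ∈ E <;> by_cases h3 : s(b, c) ∈ E <;>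
    simp [h1, h2, h3, mem_triangles_iff hab hac hbc]

/-- decomposition of `1` on triangles through two given vertices -/
theorem ind2_eq {E : Finset (Sym2 (Fin n))} {T : Finset (Fin n)}
    (hT : T ∈ triangles E) {a b : Fin n} (hab : a ≠ b) :
    ind T a * ind T b = ∑ w ∈ (univ.erase a).erase b, ind T a * ind T b * ind T w := by
  rw [← Finset.mul_sum]
  have h := sum_ind hT
  rw [← Finset.add_sum_erase _ _ (Finset.mem_univ a),
    ← Finset.add_sum_erase _ _ (show b ∈ univ.erase a by simp [Ne.symm hab])] at h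
  by_cases ha : a ∈ T
  · by_cases hb : b ∈ T
    · rw [ind_of_mem ha, ind_of_mem hb] at h ⊢
      have : ∑ x ∈ (univ.erase a).erase b, ind T x = 1 := by linarith
      rw [this]; ring
    · rw [ind_of_not_mem hb]; ring
  · rw [ind_of_not_mem ha]; ring

theorem sum_ind2 {E : Finset (Sym2 (Fin n))} (hE : E ⊆ allEdges n) {a b : Fin n} (hab : a ≠ b) :
    ∑ T ∈ triangles E, ind T a * ind T b = adj E a b * cod E a b := by
  rw [Finset.sum_congr rfl (fun T hT => ind2_eq hT hab), Finset.sum_comm]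
  have h1 : ∀ w ∈ (univ.erase a).erase b,
      ∑ T ∈ triangles E, ind T a * ind T b * ind T w = adj E a b * (adj E a w * adj E b w) := by
    intro w hw
    simp only [Finset.mem_erase, Finset.mem_univ, and_true] at hw
    rw [sum_ind3 E hab (Ne.symm hw.2) (Ne.symm hw.1)]; ring
  rw [Finset.sum_congr rfl h1]
  unfold cod
  rw [Finset.mul_sum, ← Finset.add_sum_erase _ _ (Finset.mem_univ a),
    ← Finset.add_sum_erase _ _ (show b ∈ univ.erase a by simp [Ne.symm hab]), adj_self9 hE a,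
    adj_self9 hE b]
  ring

/-- `Σ_{T ∋ a} f(a)` through pairs: each triangle at `a` contains two further vertices -/
theorem ind1_eq {E : Finset (Sym2 (Fin n))} {T : Finset (Fin n)}
    (hT : T ∈ triangles E) (a : Fin n) :
    2 * ind T a = ∑ w ∈ univ.erase a, ind T a * ind T w := by
  rw [← Finset.mul_sum]
  have h := sum_ind hT
  rw [← Finset.add_sum_erase _ _ (Finset.mem_univ a)] at h
  by_cases ha : a ∈ T
  · rw [ind_of_mem ha] at h ⊢
    linarith
  · rw [ind_of_not_mem ha]; ring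

theorem sum_ind1 {E : Finset (Sym2 (Fin n))} (hE : E ⊆ allEdges n) (a : Fin n) :
    2 * ∑ T ∈ triangles E, ind T a = ∑ w, adj E a w * cod E a w := by
  rw [Finset.mul_sum, Finset.sum_congr rfl (fun T hT => ind1_eq hT a), Finset.sum_comm]
  have h1 : ∀ w ∈ univ.erase a,
      ∑ T ∈ triangles E, ind T a * ind T w = adj E a w * cod E a w := by
    intro w hw
    simp only [Finset.mem_erase, Finset.mem_univ, and_true] at hw
    exact sum_ind2 hE (Ne.symm hw)
  rw [Finset.sum_congr rfl h1, ← Finset.add_sum_erase _ _ (Finset.mem_univ a), adj_self9 hE a]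
  ring

theorem sum_ind0 (E : Finset (Sym2 (Fin n))) :
    3 * QQ E = ∑ w, ∑ T ∈ triangles E, ind T w := by
  rw [Finset.sum_comm, Finset.sum_congr rfl (fun T hT => sum_ind hT), Finset.sum_const]
  unfold QQ
  rw [nsmul_eq_mul]; ring

theorem six_QQ9 {E : Finset (Sym2 (Fin n))} (hE : E ⊆ allEdges n) :
    6 * QQ E = ∑ a, ∑ w, adj E a w * cod E a w := by
  have := sum_ind0 E
  rw [← Finset.sum_congr rfl (fun a _ => sum_ind1 hE a), ← Finset.mul_sum, ← this]; ring

/-! ## Averages of indicators -/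

theorem piv_eq_Av (E : Finset (Sym2 (Fin n))) (u : Fin n) :
    Av (triangles E) (fun T => ind T u) = piv E u := by
  rw [Av_eq_sum_div]
  unfold piv ind
  rw [Finset.sum_ite, Finset.sum_const_zero, add_zero, Finset.sum_const, nsmul_eq_mul, mul_one]

theorem Av_ind2 {E : Finset (Sym2 (Fin n))} (hE : E ⊆ allEdges n) {a b : Fin n} (hab : a ≠ b) :
    Av (triangles E) (fun T => ind T a * ind T b) = adj E a b * cod E a b / QQ E := by
  rw [Av_eq_sum_div, sum_ind2 hE hab]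

theorem Av_ind3 (E : Finset (Sym2 (Fin n))) {a b c : Fin n} (hab : a ≠ b) (hac : a ≠ c)
    (hbc : b ≠ c) :
    Av (triangles E) (fun T => ind T a * ind T b * ind T c) =
      adj E a b * adj E a c * adj E b c / QQ E := by
  rw [Av_eq_sum_div, sum_ind3 E hab hac hbc]

theorem piv_eq9 {E : Finset (Sym2 (Fin n))} (hE : E ⊆ allEdges n) (u : Fin n) :
    piv E u = (∑ w, adj E u w * cod E u w) / (2 * QQ E) := by
  rw [← piv_eq_Av, Av_eq_sum_div, ← sum_ind1 hE u, mul_div_mul_left _ _ two_ne_zero]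

theorem piv_nonneg (E : Finset (Sym2 (Fin n))) (u : Fin n) : 0 ≤ piv E u := by
  rw [← piv_eq_Av]; exact Av_nonneg9 fun T _ => ind_nonneg T u

theorem piv_le_one (E : Finset (Sym2 (Fin n))) (u : Fin n) : piv E u ≤ 1 := by
  rw [← piv_eq_Av]; exact Av_le_const zero_le_one fun T _ => ind_le_one T u

theorem sum_piv {E : Finset (Sym2 (Fin n))} (hQ : QQ E ≠ 0) : ∑ u, piv E u = 3 := by
  rw [← Finset.sum_congr rfl (fun u _ => piv_eq_Av E u), ← Av_sum9]
  rw [Av_congr9 (g := fun _ => (3:ℝ)) (fun T hT => sum_ind hT)]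
  apply Av_const9
  unfold QQ at hQ; exact_mod_cast hQ

/-- centred second moment of a vertex indicator -/
theorem Av_ind_sub_sq {E : Finset (Sym2 (Fin n))} (hQ : QQ E ≠ 0) (u : Fin n) :
    Av (triangles E) (fun T => (ind T u - piv E u) ^ 2) = piv E u - piv E u ^ 2 := by
  have hc : (triangles E).card ≠ 0 := by unfold QQ at hQ; exact_mod_cast hQ
  have h : ∀ T ∈ triangles E, (ind T u - piv E u) ^ 2 =
      ind T u - 2 * piv E u * ind T u + piv E u ^ 2 := by
    intro T _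
    have := ind_mul_self T u
    nlinarith [this]
  rw [Av_congr9 h, Av_add9, Av_sub9, Av_mul_left, Av_const9 hc, piv_eq_Av]; ring

theorem Av_ind_sub {E : Finset (Sym2 (Fin n))} (hQ : QQ E ≠ 0) (u : Fin n) :
    Av (triangles E) (fun T => ind T u - piv E u) = 0 := by
  have hc : (triangles E).card ≠ 0 := by unfold QQ at hQ; exact_mod_cast hQ
  rw [Av_sub9, Av_const9 hc, piv_eq_Av]; ring

/-- the filter is an exact martingale up to the factor `1 - μ` -/
theorem Av_nxt_a (i : ℕ) (σ : St n) (hQ : QQ σ.E ≠ 0) (u : Fin n) :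
    Av (triangles σ.E) (fun T => (nxt i σ T).a u) = (1 - mu n i) * σ.a u := by
  have hc : (triangles σ.E).card ≠ 0 := by unfold QQ at hQ; exact_mod_cast hQ
  have h : ∀ T ∈ triangles σ.E, (nxt i σ T).a u =
      (1 - mu n i) * σ.a u - 2 / (n * pp n i) * (ind T u - piv σ.E u) := fun T _ => nxt_a i σ T u
  rw [Av_congr9 h, Av_sub9, Av_const9 hc, Av_mul_left, Av_ind_sub hQ]; ring

/-! ## The numerical regime -/

theorem MM_succ (n i : ℕ) : MM n (i + 1) = MM n i - 3 := by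
  unfold MM; push_cast; ring

section regime

variable {L : ℝ} {i₁ i : ℕ}

theorem Reg.L1 (h : Reg n L i₁) : 1 ≤ L := le_trans (by norm_num) h.L6

theorem Reg.L0 (h : Reg n L i₁) : 0 < L := lt_of_lt_of_le (by norm_num) h.L1

theorem Reg.MM_pos9 (h : Reg n L i₁) (hi : i ≤ i₁) : 0 < MM n i := by
  unfold MM NN
  have h1 : 3 * i < n.choose 2 := lt_of_le_of_lt (by omega) h.hi
  have h2 : (3:ℝ) * i < (n.choose 2 : ℝ) := by exact_mod_cast h1
  linarith

theorem Reg.NN_pos9 (h : Reg n L i₁) : 0 < NN n := by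
  unfold NN
  have h1 : 0 < n.choose 2 := lt_of_le_of_lt (by omega) h.hi
  exact_mod_cast h1

theorem Reg.pp_pos9 (h : Reg n L i₁) (hi : i ≤ i₁) : 0 < pp n i :=
  div_pos (h.MM_pos9 hi) h.NN_pos9

theorem Reg.pp_le_one9 (h : Reg n L i₁) (i : ℕ) : pp n i ≤ 1 := by
  unfold pp
  rw [div_le_one h.NN_pos9]
  unfold MM
  have : (0:ℝ) ≤ i := by positivity
  linarith

theorem Reg.pp_anti9 (h : Reg n L i₁) {i j : ℕ} (hij : i ≤ j) : pp n j ≤ pp n i := by
  unfold pp MM
  have h1 := h.NN_pos9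
  have h2 : (i:ℝ) ≤ j := by exact_mod_cast hij
  gcongr

theorem Reg.L20_le_yb (h : Reg n L i₁) (hi : i ≤ i₁) : L ^ 20 ≤ yb n i := by
  refine le_trans h.hD ?_
  unfold yb
  have h1 := h.pp_anti9 hi
  have h2 := h.pp_pos9 (le_refl i₁)
  gcongr

theorem Reg.yb_pos9 (h : Reg n L i₁) (hi : i ≤ i₁) : 0 < yb n i :=
  lt_of_lt_of_le (by have := h.L0; positivity) (h.L20_le_yb hi)

theorem Reg.yb_le_np9 (h : Reg n L i₁) (hi : i ≤ i₁) : yb n i ≤ n * pp n i := by
  unfold yb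
  have h1 := h.pp_pos9 hi
  have h2 := h.pp_le_one9 i
  have h3 : pp n i ^ 2 ≤ pp n i := by nlinarith
  have h4 : (0:ℝ) ≤ n := by positivity
  nlinarith

theorem Reg.yb_eq (n i : ℕ) : yb n i = n * pp n i * pp n i := by unfold yb; ring

theorem Reg.np_le_n (h : Reg n L i₁) (i : ℕ) : n * pp n i ≤ n := by
  have h2 := h.pp_le_one9 i
  have h4 : (0:ℝ) ≤ n := by positivity
  nlinarith

theorem Reg.L20_le_n (h : Reg n L i₁) : L ^ 20 ≤ n :=
  le_trans (h.L20_le_yb (le_refl i₁)) (le_trans (h.yb_le_np9 (le_refl i₁)) (h.np_le_n i₁))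

theorem Reg.n_pos9 (h : Reg n L i₁) : (0:ℝ) < n :=
  lt_of_lt_of_le (by have := h.L0; positivity) h.L20_le_n

theorem Reg.np_pos (h : Reg n L i₁) (hi : i ≤ i₁) : 0 < n * pp n i :=
  mul_pos h.n_pos9 (h.pp_pos9 hi)

theorem Reg.mu_pos9 (h : Reg n L i₁) (hi : i ≤ i₁) : 0 < mu n i :=
  div_pos (by norm_num) (h.MM_pos9 hi)

theorem Reg.pp_succ9 (h : Reg n L i₁) (hi : i ≤ i₁) : pp n (i + 1) = pp n i * (1 - mu n i) := by
  have h1 := (h.MM_pos9 hi).ne'
  have h2 := h.NN_pos9.ne'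
  unfold pp mu
  rw [MM_succ]
  field_simp

theorem Reg.yb_succ9 (h : Reg n L i₁) (hi : i ≤ i₁) :
    yb n (i + 1) = yb n i * (1 - mu n i) ^ 2 := by
  unfold yb; rw [h.pp_succ9 hi]; ring

theorem Reg.cb_succ9 (h : Reg n L i₁) (hi : i ≤ i₁) :
    cb n (i + 1) = cb n i * (1 - mu n i) ^ 3 := by
  unfold cb; rw [h.pp_succ9 hi]; ring

theorem Reg.NN_eq (n : ℕ) : NN n = n * (n - 1) / 2 := by
  unfold NN; rw [Nat.cast_choose_two]

theorem Reg.n_ge9 (h : Reg n L i₁) : (1000000:ℝ) ≤ n := by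
  have h1 := h.L20_le_n
  have h2 := h.L1
  have h3 : L ^ 1 ≤ L ^ 20 := pow_le_pow_right₀ h2 (by norm_num)
  have h4 := h.L6
  rw [pow_one] at h3
  norm_num at h4
  linarith

/-- `μ n p ≤ 7/n` (in fact `6/(n-1)`) -/
theorem Reg.mu_np_le (h : Reg n L i₁) (hi : i ≤ i₁) : mu n i * (n * pp n i) ≤ 7 / n := by
  have h1 := h.MM_pos9 hi
  have h2 := h.NN_pos9
  have h3 := h.n_ge9
  have h4 : mu n i * (n * pp n i) = 6 / (n - 1) := by
    have h5 : (n:ℝ) - 1 ≠ 0 := by
      intro h0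
      linarith
    have h6 : (n:ℝ) ≠ 0 := h.n_pos9.ne'
    unfold mu pp
    rw [Reg.NN_eq]
    have h7 : MM n i ≠ 0 := h1.ne'
    field_simp
    ring
  rw [h4]
  have h5 : (0:ℝ) < n - 1 := by linarith
  rw [div_le_div_iff₀ h5 h.n_pos9]
  linarith

theorem Reg.mu_yb_le (h : Reg n L i₁) (hi : i ≤ i₁) : mu n i * yb n i ≤ 7 / n :=
  le_trans (mul_le_mul_of_nonneg_left (h.yb_le_np9 hi) (h.mu_pos9 hi).le) (h.mu_np_le hi)

/-- `7/n ≤ L^{-19}` -/
theorem Reg.seven_div_n (h : Reg n L i₁) : 7 / (n:ℝ) ≤ 1 / L ^ 19 := by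
  have h0 := h.L0
  rw [div_le_div_iff₀ h.n_pos9 (by positivity)]
  have h1 := h.L20_le_n
  have h2 : (7:ℝ) ≤ L := le_trans (by norm_num) h.L6
  have h3 : 7 * L ^ 19 ≤ L ^ 20 := by
    have : 0 < L ^ 19 := by positivity
    nlinarith
  linarith

theorem Reg.mu_yb_small (h : Reg n L i₁) (hi : i ≤ i₁) : mu n i * yb n i * L ^ 19 ≤ 1 := by
  have h0 := h.L0
  have h1 := le_trans (h.mu_yb_le hi) h.seven_div_n
  rw [le_div_iff₀ (by positivity)] at h1
  exact h1

theorem Reg.mu_np_small (h : Reg n L i₁) (hi : i ≤ i₁) : mu n i * (n * pp n i) * L ^ 19 ≤ 1 := by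
  have h0 := h.L0
  have h1 := le_trans (h.mu_np_le hi) h.seven_div_n
  rw [le_div_iff₀ (by positivity)] at h1
  exact h1

theorem Reg.mu_small9 (h : Reg n L i₁) (hi : i ≤ i₁) : mu n i * L ^ 39 ≤ 1 := by
  have h0 := h.L0
  have h1 := h.mu_yb_small hi
  have h2 := h.L20_le_yb hi
  have h3 := h.mu_pos9 hi
  calc mu n i * L ^ 39 = mu n i * L ^ 20 * L ^ 19 := by ring
    _ ≤ mu n i * yb n i * L ^ 19 := by gcongr
    _ ≤ 1 := h1

theorem Reg.mu_le (h : Reg n L i₁) (hi : i ≤ i₁) : mu n i ≤ 1 / 10 ^ 6 := by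
  have h0 := h.L0
  have h1 := h.mu_small9 hi
  have h3 := h.mu_pos9 hi
  have h4 : L ^ 1 ≤ L ^ 39 := pow_le_pow_right₀ h.L1 (by norm_num)
  rw [pow_one] at h4
  have h5 := h.L6
  rw [le_div_iff₀ (by norm_num)]
  calc mu n i * 10 ^ 6 ≤ mu n i * L ^ 39 := by
        apply mul_le_mul_of_nonneg_left _ h3.le
        linarith
    _ ≤ 1 := h1

theorem Reg.ss_nonneg9 (h : Reg n L i₁) (hi : i ≤ i₁) : 0 ≤ ss n i := by
  unfold ss
  have := Real.log_nonpos (h.pp_pos9 hi).le (h.pp_le_one9 i)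
  linarith

/-- `1 + s ≤ L / 10^5` -/
theorem Reg.ss_le9 (h : Reg n L i₁) (hi : i ≤ i₁) : 1 + ss n i ≤ L / 10 ^ 5 := by
  have h1 : 1 ≤ yb n i := by
    refine le_trans ?_ (h.L20_le_yb hi)
    exact one_le_pow₀ h.L1
  have h2 := h.pp_pos9 hi
  have h3 : 0 ≤ Real.log (yb n i) := Real.log_nonneg h1
  unfold yb at h3
  rw [Real.log_mul h.n_pos9.ne' (by positivity), Real.log_pow] at h3
  have h4 := h.logn
  have h5 := h.L6
  unfold ss
  have h6 : Real.log n ≤ L / 10 ^ 6 := by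
    rw [le_div_iff₀ (by norm_num)]; linarith
  push_cast at h3
  have h7 : (1:ℝ) ≤ L / 10 ^ 6 := by
    rw [le_div_iff₀ (by norm_num)]; linarith
  have h8 : L / 10 ^ 5 = 10 * (L / 10 ^ 6) := by ring
  rw [h8]
  linarith

/-- `√ȳ ≥ L^10` -/
theorem Reg.L10_le_sqrt (h : Reg n L i₁) (hi : i ≤ i₁) : L ^ 10 ≤ Real.sqrt (yb n i) := by
  apply Real.le_sqrt_of_sq_le
  calc (L ^ 10) ^ 2 = L ^ 20 := by ring
    _ ≤ yb n i := h.L20_le_yb hi

theorem Reg.sqrt_yb_pos (h : Reg n L i₁) (hi : i ≤ i₁) : 0 < Real.sqrt (yb n i) :=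
  Real.sqrt_pos.2 (h.yb_pos9 hi)

theorem Reg.sqrt_np_pos (h : Reg n L i₁) (hi : i ≤ i₁) : 0 < Real.sqrt (n * pp n i) :=
  Real.sqrt_pos.2 (h.np_pos hi)

theorem Reg.sqrt_yb_le9 (h : Reg n L i₁) (hi : i ≤ i₁) :
    Real.sqrt (yb n i) ≤ Real.sqrt (n * pp n i) :=
  Real.sqrt_le_sqrt (h.yb_le_np9 hi)

/-- `√ȳ = √(np) √p` -/
theorem Reg.sqrt_yb_eq9 (h : Reg n L i₁) (hi : i ≤ i₁) :
    Real.sqrt (yb n i) = Real.sqrt (n * pp n i) * Real.sqrt (pp n i) := by
  rw [Reg.yb_eq, Real.sqrt_mul (h.np_pos hi).le]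

end regime

/-! ## Consequences of `Good` -/

section good

variable {L : ℝ} {i₁ i : ℕ} {σ : St n}

theorem Good.th_near (h : Reg n L i₁) (hi : i ≤ i₁) (hG : Good L i σ) :
    |TRem.th i σ.E - 1| ≤ 1 / 10 ^ 6 := by
  have h0 := h.L0
  refine le_trans hG.th ?_
  have h1 := h.L20_le_yb hi
  have h2 := h.L6
  rw [div_le_div_iff₀ (h.yb_pos9 hi) (by norm_num)]
  have h3 : L ^ 3 * 10 ^ 6 ≤ L ^ 3 * L := by gcongr
  have h4 : L ^ 4 ≤ L ^ 20 := pow_le_pow_right₀ h.L1 (by norm_num)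
  calc L ^ 3 * 10 ^ 6 ≤ L ^ 3 * L := h3
    _ = L ^ 4 := by ring
    _ ≤ L ^ 20 := h4
    _ ≤ 1 * yb n i := by linarith

theorem Good.th_pos (h : Reg n L i₁) (hi : i ≤ i₁) (hG : Good L i σ) : 0 < TRem.th i σ.E := by
  have := abs_le.1 (hG.th_near h hi)
  norm_num at this
  linarith [this.1]

/-- `Q = θ ȳ / μ` -/
theorem QQ_eq (h : Reg n L i₁) (hi : i ≤ i₁) (E : Finset (Sym2 (Fin n))) :
    QQ E = th i E * yb n i / mu n i := by
  unfold th mu
  have h1 := (h.MM_pos9 hi).ne'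
  have h2 := (h.yb_pos9 hi).ne'
  field_simp

theorem Good.QQ_pos (h : Reg n L i₁) (hi : i ≤ i₁) (hG : Good L i σ) : 0 < QQ σ.E := by
  rw [QQ_eq h hi]
  exact div_pos (mul_pos (hG.th_pos h hi) (h.yb_pos9 hi)) (h.mu_pos9 hi)

theorem Good.card_ne (h : Reg n L i₁) (hi : i ≤ i₁) (hG : Good L i σ) :
    (triangles σ.E).card ≠ 0 := by
  have := (hG.QQ_pos h hi).ne'
  unfold QQ at this; exact_mod_cast this

/-- `1/Q = μ/(θ ȳ)` -/
theorem inv_QQ (h : Reg n L i₁) (hi : i ≤ i₁) (hG : Good L i σ) :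
    1 / QQ σ.E = mu n i / (th i σ.E * yb n i) := by
  rw [QQ_eq h hi, one_div_div]

theorem cod_eq (h : Reg n L i₁) (hi : i ≤ i₁) (E : Finset (Sym2 (Fin n))) (u v : Fin n) :
    cod E u v = yb n i * (1 + rr i E u v) := by
  unfold rr
  have h2 := (h.yb_pos9 hi).ne'
  field_simp
  ring

theorem rr_eq (i : ℕ) (σ : St n) (u v : Fin n) :
    rr i σ.E u v = rho i σ u v + σ.a u + σ.a v := by unfold rho; ring

theorem Good.a_le (h : Reg n L i₁) (hi : i ≤ i₁) (hG : Good L i σ) (u : Fin n) :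
    |σ.a u| ≤ L / Real.sqrt (yb n i) :=
  le_trans (hG.a u) (div_le_div_of_nonneg_left h.L0.le (h.sqrt_yb_pos hi) (h.sqrt_yb_le9 hi))

theorem Good.rr_le (h : Reg n L i₁) (hi : i ≤ i₁) (hG : Good L i σ) {u v : Fin n} (huv : u ≠ v) :
    |rr i σ.E u v| ≤ 3 * L / Real.sqrt (yb n i) := by
  rw [rr_eq]
  have h1 := hG.rho u v huv
  have h2 := hG.a_le h hi u
  have h3 := hG.a_le h hi v
  calc |TRem.rho i σ u v + σ.a u + σ.a v| ≤ |TRem.rho i σ u v| + |σ.a u| + |σ.a v| := abs_add_three _ _ _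
    _ ≤ L / Real.sqrt (yb n i) + L / Real.sqrt (yb n i) + L / Real.sqrt (yb n i) := by gcongr
    _ = 3 * L / Real.sqrt (yb n i) := by ring

/-- `3L/√ȳ ≤ 10^{-6}` -/
theorem Reg.R_small (h : Reg n L i₁) (hi : i ≤ i₁) :
    3 * L / Real.sqrt (yb n i) ≤ 1 / 10 ^ 6 := by
  have h0 := h.L0
  have h1 := h.L10_le_sqrt hi
  have h2 := h.L6
  rw [div_le_div_iff₀ (h.sqrt_yb_pos hi) (by norm_num)]
  have h3 : L ^ 3 ≤ L ^ 10 := pow_le_pow_right₀ h.L1 (by norm_num)
  have h4 : L * 10 ^ 6 ≤ L * L := by gcongr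
  have h5 : 3 * (L * L) ≤ L * (L * L) := by
    have : (3:ℝ) ≤ L := le_trans (by norm_num) h2
    gcongr
  calc 3 * L * 10 ^ 6 = 3 * (L * 10 ^ 6) := by ring
    _ ≤ 3 * (L * L) := by gcongr
    _ ≤ L * (L * L) := h5
    _ = L ^ 3 := by ring
    _ ≤ L ^ 10 := h3
    _ ≤ 1 * Real.sqrt (yb n i) := by linarith

theorem Good.rr_small (h : Reg n L i₁) (hi : i ≤ i₁) (hG : Good L i σ) {u v : Fin n}
    (huv : u ≠ v) : |rr i σ.E u v| ≤ 1 / 10 ^ 6 :=
  le_trans (hG.rr_le h hi huv) (h.R_small hi)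

theorem Good.deg_le (h : Reg n L i₁) (hi : i ≤ i₁) (hG : Good L i σ) (u : Fin n) :
    deg σ.E u ≤ 11 / 10 * (n * pp n i) := by
  have h1 := (abs_le.1 (hG.d u)).2
  have h2 := h.np_pos hi
  have h3 : deg σ.E u / (n * pp n i) ≤ 11 / 10 := by linarith
  rwa [div_le_iff₀ h2] at h3

theorem Good.deg_ge (h : Reg n L i₁) (hi : i ≤ i₁) (hG : Good L i σ) (u : Fin n) :
    9 / 10 * (n * pp n i) ≤ deg σ.E u := by
  have h1 := (abs_le.1 (hG.d u)).1
  have h2 := h.np_pos hi
  have h3 : 9 / 10 ≤ deg σ.E u / (n * pp n i) := by linarith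
  rwa [le_div_iff₀ h2] at h3

theorem Good.cod_le (h : Reg n L i₁) (hi : i ≤ i₁) (hG : Good L i σ) {u v : Fin n}
    (huv : u ≠ v) : cod σ.E u v ≤ 101 / 100 * yb n i := by
  rw [cod_eq h hi]
  have h1 := (abs_le.1 (hG.rr_small h hi huv)).2
  have h2 := h.yb_pos9 hi
  norm_num at h1
  nlinarith

theorem Good.cod_ge (h : Reg n L i₁) (hi : i ≤ i₁) (hG : Good L i σ) {u v : Fin n}
    (huv : u ≠ v) : 99 / 100 * yb n i ≤ cod σ.E u v := by
  rw [cod_eq h hi]
  have h1 := (abs_le.1 (hG.rr_small h hi huv)).1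
  have h2 := h.yb_pos9 hi
  norm_num at h1
  nlinarith

/-- `π_u ≤ 0.57 μ n p` -/
theorem Good.piv_le (h : Reg n L i₁) (hi : i ≤ i₁) (hI : Inv i σ) (hG : Good L i σ)
    (u : Fin n) : piv σ.E u ≤ 57 / 100 * (mu n i * (n * pp n i)) := by
  have hQ := hG.QQ_pos h hi
  have h1 : ∑ w, adj σ.E u w * cod σ.E u w ≤ 101 / 100 * yb n i * deg σ.E u := by
    unfold deg
    rw [Finset.mul_sum]
    apply Finset.sum_le_sum
    intro w _
    by_cases hw : u = w
    · subst hw; rw [adj_self9 hI.sub]; simp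
    · have := hG.cod_le h hi hw
      have h3 := adj_nonneg9 σ.E u w
      nlinarith
  have h2 := hG.deg_le h hi u
  have h3 := h.yb_pos9 hi
  have h4 := h.np_pos hi
  have h5 := h.mu_pos9 hi
  rw [piv_eq9 hI.sub]
  have h6 : ∑ w, adj σ.E u w * cod σ.E u w ≤ 1112 / 1000 * (yb n i * (n * pp n i)) := by
    nlinarith [mul_le_mul_of_nonneg_left h2 h3.le, mul_pos h3 h4]
  have h7 : (∑ w, adj σ.E u w * cod σ.E u w) / (2 * QQ σ.E) =
      (∑ w, adj σ.E u w * cod σ.E u w) / 2 * (1 / QQ σ.E) := by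
    field_simp
  rw [h7, inv_QQ h hi hG]
  have h8 := (abs_le.1 (hG.th_near h hi)).1
  have h9 := hG.th_pos h hi
  rw [mul_div_assoc', div_le_iff₀ (mul_pos h9 h3)]
  have h10 : (999/1000 : ℝ) ≤ TRem.th i σ.E := by norm_num at h8; linarith
  have hx : 0 < mu n i * (yb n i * (n * pp n i)) := by positivity
  calc (∑ w, adj σ.E u w * cod σ.E u w) / 2 * mu n i
      ≤ (1112 / 1000 * (yb n i * (n * pp n i))) / 2 * mu n i := by gcongr
    _ = 556 / 1000 * (mu n i * (yb n i * (n * pp n i))) := by ring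
    _ ≤ 57 / 100 * (999 / 1000) * (mu n i * (yb n i * (n * pp n i))) := by nlinarith
    _ ≤ 57 / 100 * (TRem.th i σ.E) * (mu n i * (yb n i * (n * pp n i))) := by gcongr
    _ = 57 / 100 * (mu n i * (n * pp n i)) * (TRem.th i σ.E * yb n i) := by ring

/-- sum over the common neighbours of the codegrees with `u` -/
theorem sum_cod (h : Reg n L i₁) (hi : i ≤ i₁) (σ : St n) (u v : Fin n) :
    ∑ w, adj σ.E u w * adj σ.E v w * cod σ.E u w =
      yb n i * ((1 + σ.a u) * cod σ.E u v + kf i σ u v + Mf σ u v) := by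
  have h1 : ∀ w, adj σ.E u w * adj σ.E v w * cod σ.E u w =
      yb n i * ((1 + σ.a u) * (adj σ.E u w * adj σ.E v w) +
        adj σ.E u w * adj σ.E v w * rho i σ u w + adj σ.E u w * adj σ.E v w * σ.a w) := by
    intro w
    rw [cod_eq h hi, rr_eq]; ring
  rw [Finset.sum_congr rfl (fun w _ => h1 w), ← Finset.mul_sum, Finset.sum_add_distrib,
    Finset.sum_add_distrib, ← Finset.mul_sum]
  rfl

end good

end Crest.Agent.TRem
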