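import Crest.Agent.TRem.AOne

/-!
# Row 30 (S0040), part A: the family `ρ` (one-step mean, quadratic variation, jump)
-/

namespace Crest.Agent.TRem

open Finset Crest.CombinatoricsR.TriangleRemoval

variable {n : ℕ}

theorem abs_mul_le' {a b A B : ℝ} (ha : |a| ≤ A) (hb : |b| ≤ B) : |a * b| ≤ A * B := by
  rw [abs_mul]
  exact mul_le_mul ha hb (abs_nonneg _) (le_trans (abs_nonneg _) ha)

/-! ## The codegree loss -/

/-- the number of common neighbours of `u,v` lost when `T` is removed -/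
noncomputable def loss (E : Finset (Sym2 (Fin n))) (u v : Fin n) (T : Finset (Fin n)) : ℝ :=
  ∑ w, adj E u w * adj E v w * (ind T w * (ind T u + ind T v - ind T u * ind T v))

theorem cod_nxt (i : ℕ) (σ : St n) (T : Finset (Fin n)) (u v : Fin n) :
    cod (nxt i σ T).E u v = cod σ.E u v - loss σ.E u v T := by
  unfold cod loss
  rw [← Finset.sum_sub_distrib]
  refine Finset.sum_congr rfl fun w _ => ?_
  rw [adj_nxt, adj_nxt]
  have h1 := ind_mul_self T w
  linear_combination (adj σ.E u w * adj σ.E v w * ind T u * ind T v) * h1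

theorem ind_union_nonneg (T : Finset (Fin n)) (u v : Fin n) :
    0 ≤ ind T u + ind T v - ind T u * ind T v := by
  unfold ind; split_ifs <;> norm_num

theorem ind_union_le_one (T : Finset (Fin n)) (u v : Fin n) :
    ind T u + ind T v - ind T u * ind T v ≤ 1 := by
  unfold ind; split_ifs <;> norm_num

theorem loss_nonneg (E : Finset (Sym2 (Fin n))) (u v : Fin n) (T : Finset (Fin n)) :
    0 ≤ loss E u v T :=
  Finset.sum_nonneg fun _ _ => mul_nonneg (mul_nonneg (adj_nonneg9 _ _ _) (adj_nonneg9 _ _ _))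
    (mul_nonneg (ind_nonneg _ _) (ind_union_nonneg _ _ _))

theorem adj2_nonneg (E : Finset (Sym2 (Fin n))) (u v w : Fin n) : 0 ≤ adj E u w * adj E v w :=
  mul_nonneg (adj_nonneg9 _ _ _) (adj_nonneg9 _ _ _)

theorem adj2_le_one (E : Finset (Sym2 (Fin n))) (u v w : Fin n) : adj E u w * adj E v w ≤ 1 :=
  mul_le_one₀ (adj_le_one9 _ _ _) (adj_nonneg9 _ _ _) (adj_le_one9 _ _ _)

/-- if `u ∈ T` then at most two elements of `T` are common neighbours of `u,v` -/
theorem sum_adj2_ind_le {E : Finset (Sym2 (Fin n))} (hE : E ⊆ allEdges n) {u v : Fin n}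
    {T : Finset (Fin n)} (hT : T ∈ triangles E) (h : u ∈ T ∨ v ∈ T) :
    ∑ w, adj E u w * adj E v w * ind T w ≤ 2 := by
  have key : ∀ z : Fin n, z ∈ T → adj E u z * adj E v z = 0 →
      ∑ w, adj E u w * adj E v w * ind T w ≤ 2 := by
    intro z hz h0
    have h3 := sum_ind hT
    rw [← Finset.add_sum_erase _ _ (Finset.mem_univ z), ind_of_mem hz] at h3
    rw [← Finset.add_sum_erase _ _ (Finset.mem_univ z), h0, zero_mul, zero_add]
    have h4 : ∑ w ∈ univ.erase z, adj E u w * adj E v w * ind T w ≤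
        ∑ w ∈ univ.erase z, ind T w := by
      apply Finset.sum_le_sum
      intro w _
      have h5 := adj2_le_one E u v w
      have h6 := ind_nonneg T w
      nlinarith
    linarith
  rcases h with h | h
  · exact key u h (by rw [adj_self9 hE]; ring)
  · exact key v h (by rw [adj_self9 hE v]; ring)

theorem loss_le_two {E : Finset (Sym2 (Fin n))} (hE : E ⊆ allEdges n) {u v : Fin n}
    {T : Finset (Fin n)} (hT : T ∈ triangles E) : loss E u v T ≤ 2 := by
  by_cases h : u ∈ T ∨ v ∈ T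
  · refine le_trans ?_ (sum_adj2_ind_le hE hT h)
    unfold loss
    apply Finset.sum_le_sum
    intro w _
    apply mul_le_mul_of_nonneg_left _ (adj2_nonneg E u v w)
    have h5 := ind_union_le_one T u v
    have h6 := ind_nonneg T w
    nlinarith
  · rw [not_or] at h
    unfold loss
    rw [ind_of_not_mem h.1, ind_of_not_mem h.2]
    simp

theorem Av_loss {E : Finset (Sym2 (Fin n))} (hE : E ⊆ allEdges n) {u v : Fin n} (huv : u ≠ v) :
    Av (triangles E) (fun T => loss E u v T) =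
      (∑ w, adj E u w * adj E v w * (cod E u w + cod E v w) - adj E u v * cod E u v) / QQ E := by
  have h1 : ∀ w, Av (triangles E) (fun T => adj E u w * adj E v w *
      (ind T w * (ind T u + ind T v - ind T u * ind T v))) =
      adj E u w * adj E v w * (cod E u w + cod E v w) / QQ E -
        adj E u v * (adj E u w * adj E v w) / QQ E := by
    intro w
    by_cases huw : u = w
    · subst huw
      rw [adj_self9 hE]; simp [Av_zero]
    by_cases hvw : v = w
    · subst hvw
      rw [adj_self9 hE v]; simp [Av_zero]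
    rw [Av_mul_left]
    have h2 : Av (triangles E) (fun T => ind T w * (ind T u + ind T v - ind T u * ind T v)) =
        Av (triangles E) (fun T => ind T u * ind T w) + Av (triangles E) (fun T => ind T v * ind T w)
        - Av (triangles E) (fun T => ind T u * ind T v * ind T w) := by
      rw [← Av_add9, ← Av_sub9]
      exact Av_congr9 fun T _ => by ring
    rw [h2, Av_ind2 hE huw, Av_ind2 hE hvw, Av_ind3 E huv huw hvw]
    have h3 := adj_mul_self E u w
    have h4 := adj_mul_self E v w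
    have h5 : adj E u w * adj E v w * (adj E u w * cod E u w / QQ E + adj E v w * cod E v w / QQ E -
        adj E u v * adj E u w * adj E v w / QQ E) =
        ((adj E u w * adj E u w) * adj E v w * cod E u w +
        adj E u w * (adj E v w * adj E v w) * cod E v w -
        adj E u v * (adj E u w * adj E u w) * (adj E v w * adj E v w)) / QQ E := by ring
    rw [h5, h3, h4]; ring
  unfold loss
  rw [Av_sum9, Finset.sum_congr rfl (fun w _ => h1 w), Finset.sum_sub_distrib, ← Finset.sum_div,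
    ← Finset.sum_div, ← Finset.mul_sum, sub_div]
  rfl

section fam

variable {L : ℝ} {i₁ i : ℕ} {σ : St n}

/-- `Av loss ≤ 2.1 μ ȳ` -/
theorem Good.Av_loss_le (h : Reg n L i₁) (hi : i ≤ i₁) (hI : Inv i σ) (hG : Good L i σ)
    {u v : Fin n} (huv : u ≠ v) :
    Av (triangles σ.E) (fun T => loss σ.E u v T) ≤ 21 / 10 * (mu n i * yb n i) := by
  rw [Av_loss hI.sub huv]
  have hQ := hG.QQ_pos h hi
  have h3 := h.yb_pos9 hi
  have h5 := h.mu_pos9 hi
  have h9 := hG.th_pos h hi
  have h1 : ∑ w, adj σ.E u w * adj σ.E v w * (cod σ.E u w + cod σ.E v w) ≤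
      202 / 100 * yb n i * cod σ.E u v := by
    unfold cod
    rw [Finset.mul_sum]
    apply Finset.sum_le_sum
    intro w _
    change adj σ.E u w * adj σ.E v w * (cod σ.E u w + cod σ.E v w) ≤
      202 / 100 * yb n i * (adj σ.E u w * adj σ.E v w)
    by_cases huw : u = w
    · subst huw; rw [adj_self9 hI.sub]; simp
    by_cases hvw : v = w
    · subst hvw; rw [adj_self9 hI.sub v]; simp
    have e1 := hG.cod_le h hi huw
    have e2 := hG.cod_le h hi hvw
    have e3 := adj2_nonneg σ.E u v w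
    nlinarith
  have h2 := hG.cod_le h hi huv
  have h4 : 0 ≤ adj σ.E u v * cod σ.E u v := mul_nonneg (adj_nonneg9 _ _ _) (cod_nonneg _ _ _)
  have h8 := (abs_le.1 (hG.th_near h hi)).1
  have h10 : (999/1000 : ℝ) ≤ TRem.th i σ.E := by norm_num at h8; linarith
  rw [div_eq_mul_one_div, inv_QQ h hi hG, mul_div_assoc', div_le_iff₀ (mul_pos h9 h3)]
  have hx : 0 < mu n i * yb n i * yb n i := by positivity
  calc (∑ w, adj σ.E u w * adj σ.E v w * (cod σ.E u w + cod σ.E v w) -
        adj σ.E u v * cod σ.E u v) * mu n i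
      ≤ (202 / 100 * yb n i * (101 / 100 * yb n i)) * mu n i := by
        apply mul_le_mul_of_nonneg_right _ h5.le
        have : 202 / 100 * yb n i * cod σ.E u v ≤ 202 / 100 * yb n i * (101 / 100 * yb n i) := by
          gcongr
        linarith
    _ = 20402 / 10000 * (mu n i * yb n i * yb n i) := by ring
    _ ≤ 21 / 10 * (999 / 1000) * (mu n i * yb n i * yb n i) := by nlinarith
    _ ≤ 21 / 10 * TRem.th i σ.E * (mu n i * yb n i * yb n i) := by gcongr
    _ = 21 / 10 * (mu n i * yb n i) * (TRem.th i σ.E * yb n i) := by ring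

/-- relative codegree after one step -/
theorem rr_nxt (h : Reg n L i₁) (hi : i < i₁) (T : Finset (Fin n)) (u v : Fin n) :
    rr (i + 1) (nxt i σ T).E u v =
      (1 / (1 - mu n i) ^ 2) * (1 + rr i σ.E u v) -
        (1 / (1 - mu n i) ^ 2) * loss σ.E u v T / yb n i - 1 := by
  have h1 := (h.yb_pos9 hi.le).ne'
  have h2 : 1 - mu n i ≠ 0 := by
    have := h.mu_le hi.le
    norm_num at this
    intro h0
    linarith
  unfold rr
  rw [cod_nxt, h.yb_succ9 hi.le]
  field_simp
  ring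

set_option maxHeartbeats 2000000 in
/-- pure real-number estimate behind the drift of `ρ` -/
theorem rho_real {L y m x K S t A : ℝ} (hL : 10 ^ 6 ≤ L) (hy : L ^ 20 ≤ y) (hm : 0 < m)
    (hmy : m * y * L ^ 19 ≤ 1) (hx : |x - 1| ≤ 3 * L / Real.sqrt y)
    (hK : |K| ≤ (2 * L ^ 3 + 2 * L ^ 5 / 10 ^ 5) / y) (hS : |S| ≤ 2 * L / Real.sqrt y)
    (ht : |t - 1| ≤ 2 * L ^ 3 / y) (hA0 : 0 ≤ A) (hA1 : A ≤ 1) :
    |1 / (1 - m) ^ 2 * (x - m * t * (2 * x + K + S * x) + m * t / y * A * x) - x + m * S| ≤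
      L ^ 5 * m / y := by
  have hL0 : 0 < L := lt_of_lt_of_le (by norm_num) hL
  have hL1 : 1 ≤ L := le_trans (by norm_num) hL
  have hy0 : 0 < y := lt_of_lt_of_le (by positivity) hy
  have hs10 : L ^ 10 ≤ Real.sqrt y := by
    apply Real.le_sqrt_of_sq_le
    calc (L ^ 10) ^ 2 = L ^ 20 := by ring
      _ ≤ y := hy
  have hs0 : 0 < Real.sqrt y := lt_of_lt_of_le (by positivity) hs10
  have hss : Real.sqrt y * Real.sqrt y = y := Real.mul_self_sqrt hy0.le
  have hpow : ∀ {a b : ℕ}, a ≤ b → L ^ a ≤ L ^ b := fun hab => pow_le_pow_right₀ hL1 hab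
  -- `m y ≤ 1`
  have hmy1 : m * y ≤ 1 / 10 ^ 6 := by
    have h1 : m * y * 10 ^ 6 ≤ m * y * L ^ 19 := by
      apply mul_le_mul_of_nonneg_left _ (by positivity)
      calc (10:ℝ) ^ 6 ≤ L := hL
        _ = L ^ 1 := (pow_one L).symm
        _ ≤ L ^ 19 := hpow (by norm_num)
    rw [le_div_iff₀ (by norm_num)]; linarith
  have hy1 : 1 ≤ y := le_trans (one_le_pow₀ hL1) hy
  have hm1 : m ≤ 1 / 10 ^ 6 := le_trans (by nlinarith) hmy1
  norm_num at hm1 hmy1
  have hmm : m * m ≤ m / y := by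
    rw [le_div_iff₀ hy0]; nlinarith
  set e := m / y with he
  have he0 : 0 < e := by positivity
  -- bounds
  have hx1 : |x - 1| ≤ 1 / 10 := by
    refine le_trans hx ?_
    rw [div_le_div_iff₀ hs0 (by norm_num)]
    have h1 : L ^ 2 ≤ L ^ 10 := hpow (by norm_num)
    nlinarith
  have hS1 : |S| ≤ 1 / 10 := by
    refine le_trans hS ?_
    rw [div_le_div_iff₀ hs0 (by norm_num)]
    have h1 : L ^ 2 ≤ L ^ 10 := hpow (by norm_num)
    nlinarith
  have ht1 : |t - 1| ≤ 1 / 10 := by
    refine le_trans ht ?_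
    rw [div_le_div_iff₀ hy0 (by norm_num)]
    have h1 : L ^ 4 ≤ L ^ 20 := hpow (by norm_num)
    have h2 : L ^ 4 = L * L ^ 3 := by ring
    have h3 : 0 < L ^ 3 := by positivity
    nlinarith
  have hK1 : |K| ≤ 1 := by
    refine le_trans hK ?_
    rw [div_le_one hy0]
    have h1 : L ^ 6 ≤ L ^ 20 := hpow (by norm_num)
    have h2 : L ^ 6 = L * L ^ 5 := by ring
    have h3 : L ^ 3 ≤ L ^ 5 := hpow (by norm_num)
    have h4 : 0 < L ^ 5 := by positivity
    nlinarith
  have hx2 : |x| ≤ 2 := by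
    rw [abs_le] at hx1 ⊢; constructor <;> linarith [hx1.1, hx1.2]
  have ht2 : |t| ≤ 2 := by
    rw [abs_le] at ht1 ⊢; constructor <;> linarith [ht1.1, ht1.2]
  have hA : |A| ≤ 1 := by rw [abs_of_nonneg hA0]; exact hA1
  have h1m : 0 < 1 - m := by linarith
  set q := 1 / (1 - m) ^ 2 with hq
  have hq1 : |q - 1 - 2 * m| ≤ 4 * (m * m) := by
    have : q - 1 - 2 * m = (3 - 2 * m) * (m * m) / (1 - m) ^ 2 := by
      rw [hq]; field_simp; ring
    rw [this, abs_of_nonneg (by
      apply div_nonneg _ (by positivity)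
      apply mul_nonneg (by linarith) (by positivity)), div_le_iff₀ (by positivity)]
    have h2 : (0:ℝ) < m * m := by positivity
    nlinarith
  have hq2 : |q - 1| ≤ 3 * m := by
    have h3 : |q - 1| ≤ |q - 1 - 2 * m| + |2 * m| := by
      have : q - 1 = (q - 1 - 2 * m) + 2 * m := by ring
      calc |q - 1| = |(q - 1 - 2 * m) + 2 * m| := by rw [← this]
        _ ≤ _ := abs_add_le _ _
    rw [abs_of_pos (show 0 < 2 * m by linarith)] at h3
    nlinarith
  have hq3 : |q| ≤ 2 := by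
    rw [abs_le] at hq2 ⊢; constructor <;> linarith [hq2.1, hq2.2]
  -- decomposition
  have hdec : q * (x - m * t * (2 * x + K + S * x) + m * t / y * A * x) - x + m * S =
      (q - 1 - 2 * m) * x + 2 * m * x * (1 - t) + (- (m * t * K)) + m * S * (1 - t * x)
        + (1 - q) * (m * t * (2 * x + K + S * x)) + q * (e * t * A * x) := by
    rw [he]; ring
  rw [hdec]
  have T1 : |(q - 1 - 2 * m) * x| ≤ 8 * e := by
    refine le_trans (abs_mul_le' hq1 hx2) ?_
    linarith
  have T2 : |2 * m * x * (1 - t)| ≤ 8 * L ^ 3 * e := by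
    have h1 : |2 * m * x| ≤ 2 * m * 2 := by
      rw [abs_mul, abs_of_pos (show 0 < 2 * m by linarith)]
      exact mul_le_mul_of_nonneg_left hx2 (by linarith)
    have h2 : |1 - t| ≤ 2 * L ^ 3 / y := by rw [abs_sub_comm]; exact ht
    refine le_trans (abs_mul_le' h1 h2) (le_of_eq ?_)
    rw [he]; ring
  have T3 : |(- (m * t * K))| ≤ (4 * L ^ 3 + 4 * L ^ 5 / 10 ^ 5) * e := by
    rw [abs_neg]
    have h1 : |m * t| ≤ m * 2 := by
      rw [abs_mul, abs_of_pos hm]; exact mul_le_mul_of_nonneg_left ht2 hm.le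
    refine le_trans (abs_mul_le' h1 hK) (le_of_eq ?_)
    rw [he]; ring
  have T4 : |m * S * (1 - t * x)| ≤ (1 + 12 * L ^ 2) * e := by
    have h1 : |1 - t * x| ≤ 2 * L ^ 3 / y + 2 * (3 * L / Real.sqrt y) := by
      have : 1 - t * x = -((t - 1) + t * (x - 1)) := by ring
      rw [this, abs_neg]
      exact le_trans (abs_add_le _ _) (add_le_add ht (abs_mul_le' ht2 hx))
    have h2 : |m * S| ≤ m * (2 * L / Real.sqrt y) := by
      rw [abs_mul, abs_of_pos hm]; exact mul_le_mul_of_nonneg_left hS hm.le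
    refine le_trans (abs_mul_le' h2 h1) ?_
    have h3 : m * (2 * L / Real.sqrt y) * (2 * L ^ 3 / y + 2 * (3 * L / Real.sqrt y)) =
        (4 * L ^ 4 / Real.sqrt y) * e + (12 * L ^ 2) * (m / (Real.sqrt y * Real.sqrt y)) := by
      rw [he]; field_simp; ring
    rw [h3, hss]
    have h4 : 4 * L ^ 4 / Real.sqrt y ≤ 1 := by
      rw [div_le_one hs0]
      refine le_trans ?_ hs10
      have h5 : L ^ 5 ≤ L ^ 10 := hpow (by norm_num)
      have h6 : L ^ 5 = L * L ^ 4 := by ring
      have h7 : 0 < L ^ 4 := by positivity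
      nlinarith
    have h5 := mul_le_mul_of_nonneg_right h4 he0.le
    rw [he] at h5 ⊢
    linarith
  have T5 : |(1 - q) * (m * t * (2 * x + K + S * x))| ≤ 60 * e := by
    have h1 : |2 * x + K + S * x| ≤ 2 * 2 + 1 + 1 / 10 * 2 := by
      refine le_trans (abs_add_three _ _ _) ?_
      gcongr
      · rw [abs_mul, abs_of_pos (by norm_num : (0:ℝ) < 2)]; gcongr
      · exact abs_mul_le' hS1 hx2
    have h2 : |m * t| ≤ m * 2 := by
      rw [abs_mul, abs_of_pos hm]; exact mul_le_mul_of_nonneg_left ht2 hm.le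
    have h3 : |1 - q| ≤ 3 * m := by rw [abs_sub_comm]; exact hq2
    refine le_trans (abs_mul_le' h3 (abs_mul_le' h2 h1)) ?_
    nlinarith
  have T6 : |q * (e * t * A * x)| ≤ 8 * e := by
    have h1 : |e * t| ≤ e * 2 := by
      rw [abs_mul, abs_of_pos he0]; exact mul_le_mul_of_nonneg_left ht2 he0.le
    refine le_trans (abs_mul_le' hq3 (abs_mul_le' (abs_mul_le' h1 hA) hx2)) ?_
    linarith
  have hsum : 8 * e + 8 * L ^ 3 * e + (4 * L ^ 3 + 4 * L ^ 5 / 10 ^ 5) * e + (1 + 12 * L ^ 2) * e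
      + 60 * e + 8 * e ≤ L ^ 5 * m / y := by
    have h1 : L ^ 5 * m / y = L ^ 5 * e := by rw [he]; ring
    rw [h1]
    have h2 : 8 + 8 * L ^ 3 + (4 * L ^ 3 + 4 * L ^ 5 / 10 ^ 5) + (1 + 12 * L ^ 2) + 60 + 8 ≤
        L ^ 5 := by
      have h3 : L ^ 3 ≤ L ^ 5 / 10 ^ 6 := by
        rw [le_div_iff₀ (by norm_num)]
        have : L ^ 5 = L ^ 3 * (L * L) := by ring
        rw [this]
        have h5 : (10:ℝ) ^ 6 ≤ L * L := by nlinarith
        gcongr
      have h4 : L ^ 2 ≤ L ^ 3 := hpow (by norm_num)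
      have h5 : 1 ≤ L ^ 3 := one_le_pow₀ hL1
      have h6 : 0 < L ^ 5 := by positivity
      norm_num at h3 ⊢
      linarith
    have h3 := mul_le_mul_of_nonneg_right h2 he0.le
    linarith
  calc _ ≤ |(q - 1 - 2 * m) * x| + |2 * m * x * (1 - t)| + |(- (m * t * K))| +
        |m * S * (1 - t * x)| + |(1 - q) * (m * t * (2 * x + K + S * x))| +
        |q * (e * t * A * x)| := by
        refine le_trans (abs_add_le _ _) (add_le_add ?_ le_rfl)
        refine le_trans (abs_add_le _ _) (add_le_add ?_ le_rfl)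
        refine le_trans (abs_add_le _ _) (add_le_add ?_ le_rfl)
        refine le_trans (abs_add_le _ _) (add_le_add ?_ le_rfl)
        exact abs_add_le _ _
    _ ≤ _ := le_trans (by linarith) hsum

theorem Mf_comm (σ : St n) (u v : Fin n) : Mf σ u v = Mf σ v u := by
  unfold Mf; exact Finset.sum_congr rfl fun w _ => by ring

theorem Good.inv_th_near (h : Reg n L i₁) (hi : i ≤ i₁) (hG : Good L i σ) :
    |1 / TRem.th i σ.E - 1| ≤ 2 * L ^ 3 / yb n i := by
  have h1 := hG.th
  have h2 := hG.th_pos h hi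
  have h3 := (abs_le.1 (hG.th_near h hi)).1
  have h4 : (1/2 : ℝ) ≤ TRem.th i σ.E := by norm_num at h3; linarith
  have h5 : 1 / TRem.th i σ.E - 1 = -(TRem.th i σ.E - 1) / TRem.th i σ.E := by
    field_simp; ring
  rw [h5, abs_div, abs_neg, abs_of_pos h2, div_le_iff₀ h2]
  refine le_trans h1 ?_
  have h6 := h.yb_pos9 hi
  have h7 := h.L0
  have h8 : L ^ 3 / yb n i = 2 * L ^ 3 / yb n i * (1 / 2) := by ring
  rw [h8]
  gcongr

/-- exact mean of `ρ` after one step -/
theorem Av_rho (h : Reg n L i₁) (hi : i < i₁) (hI : Inv i σ) (hG : Good L i σ)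
    {u v : Fin n} (huv : u ≠ v) :
    Av (triangles σ.E) (fun T => rho (i + 1) (nxt i σ T) u v) =
      1 / (1 - mu n i) ^ 2 * ((1 + rr i σ.E u v) - mu n i * (1 / th i σ.E) *
        (2 * (1 + rr i σ.E u v) + (kf i σ u v + kf i σ v u + 2 * Mf σ u v) / yb n i +
          (σ.a u + σ.a v) * (1 + rr i σ.E u v)) +
        mu n i * (1 / th i σ.E) / yb n i * adj σ.E u v * (1 + rr i σ.E u v)) - 1
      - (1 - mu n i) * (σ.a u + σ.a v) := by
  have hc := hG.card_ne h hi.le
  have hQ := (hG.QQ_pos h hi.le).ne'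
  have h1 : ∀ T ∈ triangles σ.E, rho (i + 1) (nxt i σ T) u v =
      (1 / (1 - mu n i) ^ 2) * (1 + rr i σ.E u v) -
        (1 / (1 - mu n i) ^ 2) / yb n i * loss σ.E u v T - 1
        - (nxt i σ T).a u - (nxt i σ T).a v := by
    intro T _
    unfold rho
    rw [rr_nxt h hi]; ring
  rw [Av_congr9 h1, Av_sub9, Av_sub9, Av_sub9, Av_sub9, Av_const9 hc, Av_const9 hc, Av_mul_left,
    Av_nxt_a i σ hQ, Av_nxt_a i σ hQ, Av_loss hI.sub huv]
  have h2 : ∑ w, adj σ.E u w * adj σ.E v w * (cod σ.E u w + cod σ.E v w) =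
      yb n i * ((1 + σ.a u) * cod σ.E u v + kf i σ u v + Mf σ u v) +
      yb n i * ((1 + σ.a v) * cod σ.E u v + kf i σ v u + Mf σ u v) := by
    rw [← sum_cod h hi.le σ u v, cod_comm9 σ.E u v, Mf_comm σ u v, ← sum_cod h hi.le σ v u,
      ← Finset.sum_add_distrib]
    exact Finset.sum_congr rfl fun w _ => by ring
  rw [h2, div_eq_mul_one_div _ (QQ σ.E), inv_QQ h hi.le hG, cod_eq h hi.le]
  have h3 := (h.yb_pos9 hi.le).ne'
  have h4 := (hG.th_pos h hi.le).ne'
  have h5 : 1 - mu n i ≠ 0 := by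
    have := h.mu_le hi.le
    norm_num at this
    intro h0
    linarith
  field_simp
  ring

/-- **ρ, mean.** -/
theorem rho_mean (h : Reg n L i₁) (hi : i < i₁) (hI : Inv i σ) (hG : Good L i σ)
    {u v : Fin n} (huv : u ≠ v) :
    |Av (triangles σ.E) (fun T => rho (i + 1) (nxt i σ T) u v) - rho i σ u v| ≤
      L ^ 5 * mu n i / yb n i := by
  rw [Av_rho h hi hI hG huv]
  have hy := h.yb_pos9 hi.le
  have key := rho_real (A := adj σ.E u v) (x := 1 + rr i σ.E u v)
    (K := (kf i σ u v + kf i σ v u + 2 * Mf σ u v) / yb n i) (S := σ.a u + σ.a v)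
    (t := 1 / th i σ.E) h.L6 (h.L20_le_yb hi.le) (h.mu_pos9 hi.le) (h.mu_yb_small hi.le)
    (by rw [add_sub_cancel_left]; exact hG.rr_le h hi.le huv)
    (by
      rw [abs_div, abs_of_pos hy]
      apply div_le_div_of_nonneg_right _ hy.le
      have h1 := hG.k u v huv
      have h2 := hG.k v u huv.symm
      have h3 := hG.M u v huv
      have h4 := h.ss_le9 hi.le
      have hL := h.L0
      have h5 : L ^ 4 * (1 + ss n i) ≤ L ^ 5 / 10 ^ 5 := by
        calc L ^ 4 * (1 + ss n i) ≤ L ^ 4 * (L / 10 ^ 5) := by gcongr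
          _ = L ^ 5 / 10 ^ 5 := by ring
      have h6 : L ^ 3 * Real.sqrt (pp n i) ≤ L ^ 3 := by
        have : Real.sqrt (pp n i) ≤ 1 := by
          exact Real.sqrt_le_iff.2 ⟨zero_le_one, by simpa using h.pp_le_one9 i⟩
        have h7 : 0 < L ^ 3 := by positivity
        nlinarith
      calc |kf i σ u v + kf i σ v u + 2 * Mf σ u v|
          ≤ |kf i σ u v| + |kf i σ v u| + |2 * Mf σ u v| := abs_add_three _ _ _
        _ ≤ L ^ 5 / 10 ^ 5 + L ^ 5 / 10 ^ 5 + 2 * L ^ 3 := by
            rw [abs_mul, abs_of_pos (by norm_num : (0:ℝ) < 2)]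
            linarith
        _ = 2 * L ^ 3 + 2 * L ^ 5 / 10 ^ 5 := by ring)
    (by
      refine le_trans (abs_add_le _ _) ?_
      have h1 := hG.a_le h hi.le u
      have h2 := hG.a_le h hi.le v
      have h3 : 2 * L / Real.sqrt (yb n i) = L / Real.sqrt (yb n i) + L / Real.sqrt (yb n i) := by
        ring
      rw [h3]; exact add_le_add h1 h2)
    (hG.inv_th_near h hi.le) (adj_nonneg9 _ _ _) (adj_le_one9 _ _ _)
  refine le_trans (le_of_eq ?_) key
  congr 1
  rw [show rho i σ u v = rr i σ.E u v - σ.a u - σ.a v from rfl]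
  ring

/-- one step of the filter: jump -/
theorem Good.delta_a (h : Reg n L i₁) (hi : i ≤ i₁) (hG : Good L i σ)
    (T : Finset (Fin n)) (u : Fin n) :
    |(nxt i σ T).a u - σ.a u| ≤ 21 / 10 / (n * pp n i) := by
  have h1 := h.np_pos hi
  have h2 := h.mu_pos9 hi
  have h3 : (nxt i σ T).a u - σ.a u =
      -(mu n i * σ.a u) - 2 / (n * pp n i) * (ind T u - piv σ.E u) := by
    rw [nxt_a]; ring
  have h4 : |ind T u - piv σ.E u| ≤ 1 := by
    rw [abs_le]
    constructor <;> linarith [ind_nonneg T u, ind_le_one T u, piv_nonneg σ.E u, piv_le_one σ.E u]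
  have h5 : |σ.a u| ≤ 1 := by
    have e1 := hG.a_le h hi u
    have e2 := h.R_small hi
    have e3 : L / Real.sqrt (yb n i) ≤ 3 * L / Real.sqrt (yb n i) := by
      have := h.L0
      gcongr
      linarith
    norm_num at e2
    linarith
  have h6 : mu n i ≤ 1 / 10 / (n * pp n i) := by
    rw [le_div_iff₀ h1]
    have e1 := h.mu_np_le hi
    have e2 := h.n_ge9
    have e3 : 7 / (n:ℝ) ≤ 1 / 10 := by
      rw [div_le_div_iff₀ h.n_pos9 (by norm_num)]; linarith
    linarith
  rw [h3]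
  calc |-(mu n i * σ.a u) - 2 / (n * pp n i) * (ind T u - piv σ.E u)|
      ≤ |-(mu n i * σ.a u)| + |2 / (n * pp n i) * (ind T u - piv σ.E u)| := abs_sub _ _
    _ ≤ mu n i * 1 + 2 / (n * pp n i) * 1 := by
        rw [abs_neg, abs_mul, abs_mul, abs_of_pos h2, abs_of_pos (div_pos two_pos h1)]
        gcongr
    _ ≤ 1 / 10 / (n * pp n i) + 2 / (n * pp n i) := by linarith
    _ = 21 / 10 / (n * pp n i) := by rw [← add_div]; norm_num

/-- one step of the filter: quadratic variation -/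
theorem Good.delta_a_sq (h : Reg n L i₁) (hi : i ≤ i₁) (hI : Inv i σ) (hG : Good L i σ)
    (u : Fin n) :
    Av (triangles σ.E) (fun T => ((nxt i σ T).a u - σ.a u) ^ 2) ≤
      3 * mu n i / (n * pp n i) := by
  have hc := hG.card_ne h hi
  have hQ := (hG.QQ_pos h hi).ne'
  have h1 := h.np_pos hi
  have h2 := h.mu_pos9 hi
  have h3 : ∀ T ∈ triangles σ.E, ((nxt i σ T).a u - σ.a u) ^ 2 =
      (mu n i * σ.a u) ^ 2 + 2 * (mu n i * σ.a u) * (2 / (n * pp n i)) * (ind T u - piv σ.E u) +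
        (2 / (n * pp n i)) ^ 2 * (ind T u - piv σ.E u) ^ 2 := by
    intro T _
    rw [nxt_a]; ring
  rw [Av_congr9 h3, Av_add9, Av_add9, Av_const9 hc, Av_mul_left, Av_mul_left, Av_ind_sub hQ,
    Av_ind_sub_sq hQ]
  have h4 := hG.piv_le h hi hI u
  have h5 : |σ.a u| ≤ 1 := by
    have e1 := hG.a_le h hi u
    have e2 := h.R_small hi
    have e3 : L / Real.sqrt (yb n i) ≤ 3 * L / Real.sqrt (yb n i) := by
      have := h.L0
      gcongr
      linarith
    norm_num at e2
    linarith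
  have h6 : (mu n i * σ.a u) ^ 2 ≤ mu n i * mu n i := by
    rw [mul_pow]
    have : σ.a u ^ 2 ≤ 1 := by
      rw [abs_le] at h5; nlinarith
    nlinarith [mul_pos h2 h2]
  have h7 : mu n i * mu n i ≤ 1 / 10 * mu n i / (n * pp n i) := by
    rw [le_div_iff₀ h1]
    have e1 := h.mu_np_le hi
    have e2 := h.n_ge9
    have e3 : 7 / (n:ℝ) ≤ 1 / 10 := by
      rw [div_le_div_iff₀ h.n_pos9 (by norm_num)]; linarith
    nlinarith
  have h8 : (2 / (n * pp n i)) ^ 2 * (piv σ.E u - piv σ.E u ^ 2) ≤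
      228 / 100 * mu n i / (n * pp n i) := by
    calc (2 / (n * pp n i)) ^ 2 * (piv σ.E u - piv σ.E u ^ 2)
        ≤ (2 / (n * pp n i)) ^ 2 * (57 / 100 * (mu n i * (n * pp n i))) := by
          gcongr
          have : 0 ≤ piv σ.E u ^ 2 := sq_nonneg _
          linarith
      _ = 228 / 100 * mu n i / (n * pp n i) := by
          field_simp
          ring
  have h9 : 3 * mu n i / (n * pp n i) = 1 / 10 * mu n i / (n * pp n i) +
      228 / 100 * mu n i / (n * pp n i) + 62 / 100 * mu n i / (n * pp n i) := by ring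
  have h10 : 0 < 62 / 100 * mu n i / (n * pp n i) := by positivity
  rw [h9]
  linarith

theorem Reg.q_bounds (h : Reg n L i₁) (hi : i ≤ i₁) :
    0 ≤ 1 / (1 - mu n i) ^ 2 - 1 ∧ 1 / (1 - mu n i) ^ 2 - 1 ≤ 21 / 10 * mu n i := by
  have h1 := h.mu_le hi
  have h2 := h.mu_pos9 hi
  norm_num at h1
  have h3 : 0 < 1 - mu n i := by linarith
  constructor
  · rw [sub_nonneg, one_le_div (by positivity)]
    nlinarith
  · rw [sub_le_iff_le_add, div_le_iff₀ (by positivity)]
    nlinarith [mul_pos h2 h2, mul_pos h2 (mul_pos h2 h2)]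

/-- one step of the relative codegree: jump -/
theorem Good.delta_rr (h : Reg n L i₁) (hi : i < i₁) (hI : Inv i σ) (hG : Good L i σ)
    {u v : Fin n} (huv : u ≠ v) {T : Finset (Fin n)} (hT : T ∈ triangles σ.E) :
    |rr (i + 1) (nxt i σ T).E u v - rr i σ.E u v| ≤ 21 / 10 / yb n i := by
  have hy := h.yb_pos9 hi.le
  have h1 := h.q_bounds hi.le
  have h2 := h.mu_pos9 hi.le
  have h3 := hG.rr_small h hi.le huv
  have h4 := loss_le_two hI.sub (u := u) (v := v) hT
  have h5 := loss_nonneg σ.E u v T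
  have h6 := h.mu_le hi.le
  have h7 : mu n i ≤ 1 / 1000 / yb n i := by
    rw [le_div_iff₀ hy]
    have e1 := h.mu_yb_le hi.le
    have e2 := h.n_ge9
    have e3 : 7 / (n:ℝ) ≤ 1 / 1000 := by
      rw [div_le_div_iff₀ h.n_pos9 (by norm_num)]; linarith
    linarith
  rw [rr_nxt h hi]
  set q := 1 / (1 - mu n i) ^ 2 with hq
  have h8 : q * (1 + rr i σ.E u v) - q * loss σ.E u v T / yb n i - 1 - rr i σ.E u v =
      (q - 1) * (1 + rr i σ.E u v) - q * (loss σ.E u v T / yb n i) := by ring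
  rw [h8]
  have h9 : |(q - 1) * (1 + rr i σ.E u v)| ≤ (21 / 10 * mu n i) * (101 / 100) := by
    apply abs_mul_le'
    · rw [abs_of_nonneg h1.1]; exact h1.2
    · rw [abs_le] at h3 ⊢
      norm_num at h3
      constructor <;> linarith [h3.1, h3.2]
  have h10 : |q * (loss σ.E u v T / yb n i)| ≤ (1001 / 1000) * (2 / yb n i) := by
    apply abs_mul_le'
    · rw [abs_of_nonneg (by linarith [h1.1])]
      norm_num at h6
      linarith [h1.2]
    · rw [abs_of_nonneg (by positivity)]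
      gcongr
  calc _ ≤ |(q - 1) * (1 + rr i σ.E u v)| + |q * (loss σ.E u v T / yb n i)| := abs_sub _ _
    _ ≤ (21 / 10 * (1 / 1000 / yb n i)) * (101 / 100) + (1001 / 1000) * (2 / yb n i) := by
        linarith
    _ = (21 / 10 * (1 / 1000) * (101 / 100) + (1001 / 1000) * 2) / yb n i := by ring
    _ ≤ 21 / 10 / yb n i := by
        gcongr
        norm_num

/-- one step of the relative codegree: quadratic variation -/
theorem Good.delta_rr_sq (h : Reg n L i₁) (hi : i < i₁) (hI : Inv i σ) (hG : Good L i σ)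
    {u v : Fin n} (huv : u ≠ v) :
    Av (triangles σ.E) (fun T => (rr (i + 1) (nxt i σ T).E u v - rr i σ.E u v) ^ 2) ≤
      9 * mu n i / yb n i := by
  have hy := h.yb_pos9 hi.le
  have hc := hG.card_ne h hi.le
  have h1 := h.q_bounds hi.le
  have h2 := h.mu_pos9 hi.le
  have h3 := hG.rr_small h hi.le huv
  have h6 := h.mu_le hi.le
  have h7 : mu n i ≤ 1 / 1000 / yb n i := by
    rw [le_div_iff₀ hy]
    have e1 := h.mu_yb_le hi.le
    have e2 := h.n_ge9
    have e3 : 7 / (n:ℝ) ≤ 1 / 1000 := by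
      rw [div_le_div_iff₀ h.n_pos9 (by norm_num)]; linarith
    linarith
  set q := 1 / (1 - mu n i) ^ 2 with hq
  have hq2 : q ^ 2 ≤ 101 / 100 := by
    norm_num at h6
    have : q ≤ 1001 / 1000 := by linarith [h1.2]
    have h0 : 0 ≤ q := by linarith [h1.1]
    nlinarith
  have h9 : |(q - 1) * (1 + rr i σ.E u v)| ≤ 3 * mu n i := by
    refine le_trans (abs_mul_le' (A := 21 / 10 * mu n i) (B := 101 / 100) ?_ ?_) ?_
    · rw [abs_of_nonneg h1.1]; exact h1.2
    · rw [abs_le] at h3 ⊢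
      norm_num at h3
      constructor <;> linarith [h3.1, h3.2]
    · linarith
  have h9' : ((q - 1) * (1 + rr i σ.E u v)) ^ 2 ≤ 9 * (mu n i * mu n i) := by
    have := sq_le_sq' (by linarith [(abs_le.1 h9).1]) (abs_le.1 h9).2
    linarith
  have h10 : ∀ T ∈ triangles σ.E, (rr (i + 1) (nxt i σ T).E u v - rr i σ.E u v) ^ 2 ≤
      18 * (mu n i * mu n i) + 404 / 100 / yb n i ^ 2 * loss σ.E u v T := by
    intro T hT
    have h4 := loss_le_two hI.sub (u := u) (v := v) hT
    have h5 := loss_nonneg σ.E u v T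
    rw [rr_nxt h hi]
    have h8 : q * (1 + rr i σ.E u v) - q * loss σ.E u v T / yb n i - 1 - rr i σ.E u v =
        (q - 1) * (1 + rr i σ.E u v) - q * loss σ.E u v T / yb n i := by ring
    rw [h8]
    have h11 : (q * loss σ.E u v T / yb n i) ^ 2 ≤ 202 / 100 / yb n i ^ 2 * loss σ.E u v T := by
      have e1 : (q * loss σ.E u v T / yb n i) ^ 2 = q ^ 2 * (loss σ.E u v T * loss σ.E u v T)
          / yb n i ^ 2 := by ring
      have e2 : loss σ.E u v T * loss σ.E u v T ≤ 2 * loss σ.E u v T := by nlinarith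
      rw [e1]
      calc q ^ 2 * (loss σ.E u v T * loss σ.E u v T) / yb n i ^ 2
          ≤ 101 / 100 * (2 * loss σ.E u v T) / yb n i ^ 2 := by gcongr
        _ = 202 / 100 / yb n i ^ 2 * loss σ.E u v T := by ring
    have h12 : 404 / 100 / yb n i ^ 2 * loss σ.E u v T =
        2 * (202 / 100 / yb n i ^ 2 * loss σ.E u v T) := by ring
    rw [h12]
    nlinarith [sq_nonneg ((q - 1) * (1 + rr i σ.E u v) + q * loss σ.E u v T / yb n i)]
  refine le_trans (Av_mono9 h10) ?_
  rw [Av_add9, Av_const9 hc, Av_mul_left]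
  have h13 := hG.Av_loss_le h hi.le hI huv
  have h14 : mu n i * mu n i ≤ 1 / 1000 * mu n i / yb n i := by
    calc mu n i * mu n i ≤ mu n i * (1 / 1000 / yb n i) := by gcongr
      _ = _ := by ring
  calc 18 * (mu n i * mu n i) + 404 / 100 / yb n i ^ 2 *
        Av (triangles σ.E) (fun T => loss σ.E u v T)
      ≤ 18 * (1 / 1000 * mu n i / yb n i) +
        404 / 100 / yb n i ^ 2 * (21 / 10 * (mu n i * yb n i)) := by gcongr
    _ = (18 / 1000 + 404 / 100 * (21 / 10)) * mu n i / yb n i := by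
        field_simp
    _ ≤ 9 * mu n i / yb n i := by
        gcongr
        norm_num

/-- **ρ, quadratic variation.** -/
theorem rho_qv (h : Reg n L i₁) (hi : i < i₁) (hI : Inv i σ) (hG : Good L i σ)
    {u v : Fin n} (huv : u ≠ v) :
    Av (triangles σ.E) (fun T => (rho (i + 1) (nxt i σ T) u v - rho i σ u v) ^ 2) ≤
      100 * mu n i / yb n i := by
  have hy := h.yb_pos9 hi.le
  have hm := h.mu_pos9 hi.le
  have h1 := hG.delta_rr_sq h hi hI huv
  have h2 := hG.delta_a_sq h hi.le hI u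
  have h3 := hG.delta_a_sq h hi.le hI v
  have h4 : 3 * mu n i / (n * pp n i) ≤ 3 * mu n i / yb n i :=
    div_le_div_of_nonneg_left (by linarith) hy (h.yb_le_np9 hi.le)
  have h5 : ∀ T ∈ triangles σ.E, (rho (i + 1) (nxt i σ T) u v - rho i σ u v) ^ 2 ≤
      3 * (rr (i + 1) (nxt i σ T).E u v - rr i σ.E u v) ^ 2 +
      3 * ((nxt i σ T).a u - σ.a u) ^ 2 + 3 * ((nxt i σ T).a v - σ.a v) ^ 2 := by
    intro T _
    have e : rho (i + 1) (nxt i σ T) u v - rho i σ u v =
        (rr (i + 1) (nxt i σ T).E u v - rr i σ.E u v) - ((nxt i σ T).a u - σ.a u) -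
          ((nxt i σ T).a v - σ.a v) := by
      unfold rho; ring
    rw [e]
    set x := rr (i + 1) (nxt i σ T).E u v - rr i σ.E u v
    set y := (nxt i σ T).a u - σ.a u
    set z := (nxt i σ T).a v - σ.a v
    nlinarith [sq_nonneg (x + y), sq_nonneg (x + z), sq_nonneg (y - z)]
  refine le_trans (Av_mono9 h5) ?_
  rw [Av_add9, Av_add9, Av_mul_left, Av_mul_left, Av_mul_left]
  have h6 : 100 * mu n i / yb n i = 3 * (9 * mu n i / yb n i) + 3 * (3 * mu n i / yb n i) +
      3 * (3 * mu n i / yb n i) + 55 * (mu n i / yb n i) := by ring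
  have h7 : 0 < mu n i / yb n i := by positivity
  rw [h6]
  linarith

/-- **ρ, jump.** -/
theorem rho_jump (h : Reg n L i₁) (hi : i < i₁) (hI : Inv i σ) (hG : Good L i σ)
    {u v : Fin n} (huv : u ≠ v) {T : Finset (Fin n)} (hT : T ∈ triangles σ.E) :
    |rho (i + 1) (nxt i σ T) u v - rho i σ u v| ≤ 10 / yb n i := by
  have hy := h.yb_pos9 hi.le
  have h1 := hG.delta_rr h hi hI huv hT
  have h2 := hG.delta_a h hi.le T u
  have h3 := hG.delta_a h hi.le T v
  have h4 : 21 / 10 / (n * pp n i) ≤ 21 / 10 / yb n i :=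
    div_le_div_of_nonneg_left (by norm_num) hy (h.yb_le_np9 hi.le)
  have e : rho (i + 1) (nxt i σ T) u v - rho i σ u v =
      (rr (i + 1) (nxt i σ T).E u v - rr i σ.E u v) - ((nxt i σ T).a u - σ.a u) -
        ((nxt i σ T).a v - σ.a v) := by
    unfold rho; ring
  rw [e]
  have h5 : 0 < 1 / yb n i := by positivity
  have h6 : 10 / yb n i = 21 / 10 / yb n i + 21 / 10 / yb n i + 21 / 10 / yb n i +
      37 / 10 * (1 / yb n i) := by ring
  calc _ ≤ |rr (i + 1) (nxt i σ T).E u v - rr i σ.E u v| + |(nxt i σ T).a u - σ.a u| +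
        |(nxt i σ T).a v - σ.a v| := le_trans (abs_sub _ _) (add_le_add (abs_sub _ _) le_rfl)
    _ ≤ _ := by rw [h6]; linarith

end fam

end Crest.Agent.TRem
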