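import Crest.Agent.TRem.HDefs

/-!
# Row 30, B0: basic facts about the iid uniform clocks `clk τ`

Chunk R30-B0 (3 short statements).
* `clk τ` is the product of `volume.restrict (Icc 0 1)`, which is a probability measure
  (`volume (Icc 0 1) = 1`, `Measure.restrict_apply_univ`), so `Measure.pi` instance applies.
* a.e. injectivity: for `s ≠ t` the set `{ω | ω s = ω t}` is null. (E.g. for each fixed pair push forward
  by `ω ↦ (ω s, ω t)`, whose law is `μ.prod μ` (`iIndepFun_pi` + `indepFun_iff_map_prod_eq_prod_map_map`)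
  and use that the diagonal is null because `μ` has no atoms (`Measure.measure_prod_null`); or
  `Measure.pi` hyperplane lemma.)  `0 ≤ ω t < 1` a.e.: evaluation at `t` has law `volume.restrict (Icc 0 1)`
  (`measurePreserving_eval`), and `{1}` is null.
* permutation invariance: `measurePreserving_piCongrLeft` (or `measurePreserving_arrowCongr'`).
-/

namespace Crest.Agent.TRem

open MeasureTheory Finset

variable {τ : Type}

instance instProbUnitI : IsProbabilityMeasure ((volume : Measure ℝ).restrict (Set.Icc 0 1)) := by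
  constructor
  rw [Measure.restrict_apply_univ, Real.volume_Icc]
  norm_num

instance instProbClk [Fintype τ] : IsProbabilityMeasure (clk τ) := by
  unfold clk
  infer_instance

theorem clk_ae_ne [Fintype τ] (s t : τ) (hst : s ≠ t) : ∀ᵐ ω ∂(clk τ), ω s ≠ ω t := by
  have hind : ProbabilityTheory.iIndepFun (fun (i : τ) (ω : τ → ℝ) => ω i)
      (Measure.pi (fun _ : τ => (volume : Measure ℝ).restrict (Set.Icc 0 1))) :=
    ProbabilityTheory.iIndepFun_pi (X := fun _ => id) (fun _ => aemeasurable_id)
  have h2 := hind.indepFun hst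
  rw [ProbabilityTheory.indepFun_iff_map_prod_eq_prod_map_map (measurable_pi_apply s).aemeasurable
    (measurable_pi_apply t).aemeasurable] at h2
  have e1 : (Measure.pi (fun _ : τ => (volume : Measure ℝ).restrict (Set.Icc 0 1))).map
      (fun ω : τ → ℝ => ω s) = (volume : Measure ℝ).restrict (Set.Icc 0 1) :=
    (measurePreserving_eval (fun _ : τ => (volume : Measure ℝ).restrict (Set.Icc 0 1)) s).map_eq
  have e2 : (Measure.pi (fun _ : τ => (volume : Measure ℝ).restrict (Set.Icc 0 1))).map
      (fun ω : τ → ℝ => ω t) = (volume : Measure ℝ).restrict (Set.Icc 0 1) :=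
    (measurePreserving_eval (fun _ : τ => (volume : Measure ℝ).restrict (Set.Icc 0 1)) t).map_eq
  rw [e1, e2] at h2
  have hdiag : MeasurableSet {p : ℝ × ℝ | p.1 = p.2} :=
    measurableSet_eq_fun measurable_fst measurable_snd
  have hnull : ((volume : Measure ℝ).restrict (Set.Icc 0 1)).prod
      ((volume : Measure ℝ).restrict (Set.Icc 0 1)) {p : ℝ × ℝ | p.1 = p.2} = 0 := by
    rw [Measure.measure_prod_null hdiag]
    refine Filter.Eventually.of_forall fun x => ?_
    have : Prod.mk x ⁻¹' {p : ℝ × ℝ | p.1 = p.2} = {x} := by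
      ext y
      simp [eq_comm]
    change ((volume : Measure ℝ).restrict (Set.Icc 0 1)) (Prod.mk x ⁻¹' {p : ℝ × ℝ | p.1 = p.2}) = 0
    rw [this]
    exact measure_singleton x
  rw [← h2, Measure.map_apply (by fun_prop) hdiag] at hnull
  rw [ae_iff]
  unfold clk
  convert hnull using 2
  ext ω
  simp

theorem clk_ae_inj [Fintype τ] :
    ∀ᵐ ω ∂(clk τ), Function.Injective ω ∧ ∀ t, 0 ≤ ω t ∧ ω t < 1 := by
  have h1 : ∀ᵐ ω ∂(clk τ), ∀ s t : τ, s ≠ t → ω s ≠ ω t := by
    rw [ae_all_iff]
    intro s
    rw [ae_all_iff]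
    intro t
    by_cases hst : s = t
    · exact Filter.Eventually.of_forall fun ω h => absurd hst h
    · exact (clk_ae_ne s t hst).mono fun ω h _ => h
  have h2 : ∀ᵐ ω ∂(clk τ), ∀ t : τ, 0 ≤ ω t ∧ ω t < 1 := by
    rw [ae_all_iff]
    intro t
    have h3 : ∀ᵐ x ∂((volume : Measure ℝ).restrict (Set.Icc 0 1)), 0 ≤ x ∧ x < 1 := by
      have h4 : ∀ᵐ x ∂((volume : Measure ℝ).restrict (Set.Icc 0 1)), x ∈ Set.Icc (0 : ℝ) 1 :=
        ae_restrict_mem measurableSet_Icc
      have h5 : ∀ᵐ x ∂((volume : Measure ℝ).restrict (Set.Icc 0 1)), x ≠ 1 := by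
        rw [ae_iff]
        simp
      filter_upwards [h4, h5] with x hx hx1
      exact ⟨hx.1, lt_of_le_of_ne hx.2 hx1⟩
    have h6 := (measurePreserving_eval
      (fun _ : τ => (volume : Measure ℝ).restrict (Set.Icc 0 1)) t).quasiMeasurePreserving.ae h3
    exact h6
  filter_upwards [h1, h2] with ω hω1 hω2
  refine ⟨fun s t hst => ?_, hω2⟩
  by_contra hne
  exact hω1 s t hne hst

theorem clk_map_perm [Fintype τ] (σ : Equiv.Perm τ) :
    MeasurePreserving (fun ω : τ → ℝ => ω ∘ σ) (clk τ) (clk τ) := by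
  unfold clk
  have h := measurePreserving_piCongrLeft
    (fun _ : τ => (volume : Measure ℝ).restrict (Set.Icc 0 1)) (σ.symm : τ ≃ τ)
  convert h using 1
  ext ω t
  simp [MeasurableEquiv.piCongrLeft, Equiv.piCongrLeft, Equiv.piCongrLeft']

end Crest.Agent.TRem
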