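import Crest.Agent.TRem.B1b0

/-!
# Row 30, B1b: random order = uniform greedy choice

Chunk R30-B1b (this file: `avo_go`; the rest is in B1b0.lean, a black box).

`avo X F` = average of `F l` over all orderings `l` of the finite set `X`.

(1) `avo_cons`: for `X` nonempty `avo X F = (1/|X|) ∑_{t ∈ X} avo (X.erase t) (fun l => F (t :: l))`.
(The orderings of `X` starting with `t` are `t :: l`, `l` an ordering of `X.erase t`. Bijection
`P(X) = ⋃_t (cons t) '' P(X.erase t)`; `l ∈ P(X) ↔ l.Nodup ∧ l.toFinset = X`, see `mem_orderings`.)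
(2) `avo_const`.
(3) `avo_go`: for all `X ⊆ 𝒯` containing all `t ∈ 𝒯` with `tri t ⊆ A`, and `A.card ≤ fuel`:
`avo X (fun l => φ (go tri l A).card) = xF 𝒯 tri φ fuel A`. Induction on `X.card`, generalizing `A`, `fuel`.
Let `I = {t ∈ 𝒯 | tri t ⊆ A}`, `Q = I.card`.
 If `Q = 0`: `go tri l A = A` for every ordering `l` of `X` (no element of `X` fits), both sides `φ A.card`.
 If `Q > 0`: then `X` nonempty, `A` nonempty (`tri t` nonempty), so `fuel = k + 1`. By `avo_cons`
 `LHS = (1/|X|) [∑_{t ∈ X \ I} avo (X.erase t) (φ ∘ card ∘ go · A) + ∑_{t ∈ I} avo (X.erase t) (φ∘card∘go · (A \ tri t))]`.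
 First sum: every term is `V := xF 𝒯 tri φ (k+1) A` by the induction hypothesis for `X.erase t`
 (it still contains `I`). Second sum: `{t' ∈ 𝒯 | tri t' ⊆ A \ tri t} ⊆ X.erase t` because `tri t` is nonempty,
 `(A \ tri t).card ≤ k`, so the term is `xF 𝒯 tri φ k (A \ tri t)`; and
 `∑_{t ∈ I} xF 𝒯 tri φ k (A \ tri t) = Q * V`. Total `(1/|X|) ((|X| - Q) V + Q V) = V`.
-/

namespace Crest.Agent.TRem

open Finset

variable {ι τ : Type} [DecidableEq ι] [DecidableEq τ]

private theorem go_of_none (tri : τ → Finset ι) (l : List τ) (A : Finset ι)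
    (h : ∀ t ∈ l, ¬ tri t ⊆ A) : go tri l A = A := by
  induction l with
  | nil => rfl
  | cons t l ih =>
    rw [go, if_neg (h t List.mem_cons_self)]
    exact ih (fun t' ht' => h t' (List.mem_cons_of_mem _ ht'))

theorem avo_go (𝒯 : Finset τ) (tri : τ → Finset ι) (h : ∀ t ∈ 𝒯, (tri t).Nonempty) (φ : ℕ → ℝ)
    (X : Finset τ) (hX : X ⊆ 𝒯) (A : Finset ι) (hA : 𝒯.filter (fun t => tri t ⊆ A) ⊆ X)
    (fuel : ℕ) (hfuel : A.card ≤ fuel) :
    avo X (fun l => φ ((go tri l A).card)) = xF 𝒯 tri φ fuel A := by
  induction X using Finset.strongInduction generalizing A fuel with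
  | H X ih =>
  by_cases hI : (𝒯.filter (fun t => tri t ⊆ A)).card = 0
  · have h1 : avo X (fun l => φ ((go tri l A).card)) = avo X (fun _ => φ A.card) := by
      apply avo_congr
      intro l _ hl
      rw [go_of_none]
      intro t ht hsub
      rw [← List.mem_toFinset, hl] at ht
      rw [Finset.card_eq_zero] at hI
      have : t ∈ 𝒯.filter (fun t => tri t ⊆ A) := Finset.mem_filter.mpr ⟨hX ht, hsub⟩
      rw [hI] at this
      exact absurd this (Finset.notMem_empty _)
    rw [h1, avo_const]
    cases fuel with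
    | zero => rw [xF]
    | succ k => rw [xF, if_pos hI]
  · have hIn : (𝒯.filter (fun t => tri t ⊆ A)).Nonempty := by
      rw [← Finset.card_pos]; omega
    obtain ⟨t₀, ht₀⟩ := hIn
    have ht₀' := Finset.mem_filter.mp ht₀
    have hApos : 0 < A.card := by
      rw [Finset.card_pos]
      exact (h t₀ ht₀'.1).mono ht₀'.2
    obtain ⟨k, rfl⟩ : ∃ k, fuel = k + 1 := ⟨fuel - 1, by omega⟩
    have hXne : X.Nonempty := ⟨t₀, hA ht₀⟩
    rw [avo_cons X hXne]
    set V := xF 𝒯 tri φ (k + 1) A with hV
    have hterm : ∀ t ∈ X, avo (X.erase t) (fun l => φ ((go tri (t :: l) A).card)) =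
        if tri t ⊆ A then xF 𝒯 tri φ k (A \ tri t) else V := by
      intro t ht
      by_cases hs : tri t ⊆ A
      · rw [if_pos hs]
        have hgo : (fun l => φ ((go tri (t :: l) A).card)) =
            (fun l => φ ((go tri l (A \ tri t)).card)) := by
          funext l
          rw [go, if_pos hs]
        rw [hgo]
        apply ih (X.erase t) (Finset.erase_ssubset ht) ((Finset.erase_subset _ _).trans hX)
        · intro t' ht'
          rw [Finset.mem_filter] at ht'
          rw [Finset.mem_erase]
          refine ⟨?_, hA (Finset.mem_filter.mpr ⟨ht'.1, ht'.2.trans Finset.sdiff_subset⟩)⟩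
          rintro rfl
          obtain ⟨x, hx⟩ := h _ ht'.1
          exact (Finset.mem_sdiff.mp (ht'.2 hx)).2 hx
        · have h3 : (A \ tri t).card < A.card := by
            apply Finset.card_lt_card
            rw [Finset.ssubset_iff_subset_ne]
            refine ⟨Finset.sdiff_subset, ?_⟩
            intro heq
            obtain ⟨x, hx⟩ := h t (hX ht)
            have := hs hx
            rw [← heq] at this
            exact (Finset.mem_sdiff.mp this).2 hx
          omega
      · rw [if_neg hs]
        have hgo : (fun l => φ ((go tri (t :: l) A).card)) =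
            (fun l => φ ((go tri l A).card)) := by
          funext l
          rw [go, if_neg hs]
        rw [hgo]
        apply ih (X.erase t) (Finset.erase_ssubset ht) ((Finset.erase_subset _ _).trans hX)
        · intro t' ht'
          rw [Finset.mem_erase]
          refine ⟨?_, hA ht'⟩
          rintro rfl
          exact hs (Finset.mem_filter.mp ht').2
        · exact hfuel
    rw [Finset.sum_congr rfl hterm, Finset.sum_ite]
    have hfe : X.filter (fun t => tri t ⊆ A) = 𝒯.filter (fun t => tri t ⊆ A) := by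
      ext t
      simp only [Finset.mem_filter]
      constructor
      · rintro ⟨h1, h2⟩; exact ⟨hX h1, h2⟩
      · rintro ⟨h1, h2⟩; exact ⟨hA (Finset.mem_filter.mpr ⟨h1, h2⟩), h2⟩
    have hcard : ((X.filter (fun t => ¬ tri t ⊆ A)).card : ℝ) =
        (X.card : ℝ) - ((𝒯.filter (fun t => tri t ⊆ A)).card : ℝ) := by
      have h4 := Finset.card_filter_add_card_filter_not (s := X) (fun t => tri t ⊆ A)
      rw [hfe] at h4
      rw [← h4]; push_cast; ring
    rw [hfe, Finset.sum_const, nsmul_eq_mul, hcard]
    have hVdef : ∑ t ∈ 𝒯.filter (fun t => tri t ⊆ A), xF 𝒯 tri φ k (A \ tri t) =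
        ((𝒯.filter (fun t => tri t ⊆ A)).card : ℝ) * V := by
      rw [hV, xF, if_neg hI, ← mul_assoc, mul_inv_cancel₀, one_mul]
      exact_mod_cast hI
    rw [hVdef]
    have hXc : (X.card : ℝ) ≠ 0 := by exact_mod_cast hXne.card_pos.ne'
    field_simp
    ring

end Crest.Agent.TRem
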