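import Crest.Agent.TRem.B1a
import Crest.Agent.TRem.B1b

/-!
# Row 30, B1: the process driven by iid clocks
-/

namespace Crest.Agent.TRem

open MeasureTheory Finset

variable {ι τ : Type} [DecidableEq ι] [DecidableEq τ]

theorem xF_eq_integral [Fintype τ] (𝒯 : Finset τ) (tri : τ → Finset ι)
    (h : ∀ t ∈ 𝒯, (tri t).Nonempty) (φ : ℕ → ℝ) (A : Finset ι) (fuel : ℕ) (hfuel : A.card ≤ fuel) :
    xF 𝒯 tri φ fuel A = ∫ ω, φ ((fin 𝒯 tri ω A).card) ∂(clk τ) := by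
  rw [← avo_go 𝒯 tri h φ 𝒯 (Finset.Subset.refl _) A (Finset.filter_subset _ _) fuel hfuel]
  exact (integral_sorted 𝒯 (fun l => φ ((go tri l A).card))).symm

end Crest.Agent.TRem
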