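import Crest.Agent.TRem.B1a0

/-!
# Row 30, B1a: the clock order of `𝒯` is a uniformly random ordering

Chunk R30-B1a.

Proof of `integral_sorted`. Let `P = 𝒯.toList.permutations.toFinset` (it has `m!` elements, `m = 𝒯.card`:
`List.length_permutations`, `List.nodup_permutations`, `List.mem_permutations`, `List.toFinset_card_of_nodup`).
For every `ω` the list `sorted 𝒯 ω` is a permutation of `𝒯.toList` (`List.perm_insertionSort`), so
`F (sorted 𝒯 ω) = ∑ l ∈ P, F l * 1[sorted 𝒯 ω = l]`.
For a.e. `ω` (`clk_ae_inj`), `sorted 𝒯 ω = l ↔ l.Pairwise (fun s t => ω s < ω t)` for `l ∈ P`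
(`sorted_eq_iff`; two lists that are permutations of each other and both strictly sorted for the
order pulled back by the injective `ω` are equal: `List.Perm.eq_of_pairwise` or similar; `List.pairwise_insertionSort`).
The set `A l = {ω | l.Pairwise (fun s t => ω s < ω t)}` is measurable (finite intersection; induction on `l`).
All `A l`, `l ∈ P`, have the same `clk` measure: for `l, l' ∈ P` (nodup lists with the same elements) there is
`σ : Equiv.Perm τ` with `l' = l.map σ` (`exists_perm_map`), and `A (l.map σ) = (· ∘ σ) ⁻¹' (A l)`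
(`List.pairwise_map`), so `clk_map_perm` gives equality. They are a.e. a partition, so each has measure
`1 / m!`.
-/

namespace Crest.Agent.TRem

open MeasureTheory Finset

variable {τ : Type} [DecidableEq τ]

private theorem mem_P (𝒯 : Finset τ) (l : List τ) :
    l ∈ 𝒯.toList.permutations.toFinset ↔ l.Perm 𝒯.toList := by
  rw [List.mem_toFinset, List.mem_permutations]

private theorem card_P (𝒯 : Finset τ) :
    𝒯.toList.permutations.toFinset.card = 𝒯.card.factorial := by
  rw [List.toFinset_card_of_nodup (List.nodup_permutations _ (Finset.nodup_toList 𝒯)),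
    List.length_permutations, Finset.length_toList]

private theorem ae_sorted [Fintype τ] (𝒯 : Finset τ) (F : List τ → ℝ) :
    ∀ᵐ ω ∂(clk τ), F (sorted 𝒯 ω) = ∑ l ∈ 𝒯.toList.permutations.toFinset,
      F l * ({ω : τ → ℝ | l.Pairwise (fun s t => ω s < ω t)}.indicator (fun _ => (1:ℝ)) ω) := by
  filter_upwards [clk_ae_inj (τ := τ)] with ω hω
  have hinj : Set.InjOn ω (𝒯 : Set τ) := hω.1.injOn
  rw [Finset.sum_eq_single (sorted 𝒯 ω)]
  · have h1 : (sorted 𝒯 ω).Pairwise (fun s t => ω s < ω t) :=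
      (sorted_eq_iff 𝒯 ω hinj _ (sorted_perm 𝒯 ω)).1 rfl
    have h2 : ω ∈ {ω' : τ → ℝ | (sorted 𝒯 ω).Pairwise (fun s t => ω' s < ω' t)} := h1
    rw [Set.indicator_of_mem h2, mul_one]
  · intro l hl hne
    rw [Set.indicator_of_notMem, mul_zero]
    intro h2
    exact hne ((sorted_eq_iff 𝒯 ω hinj l ((mem_P 𝒯 l).1 hl)).2 h2).symm
  · intro h
    exact absurd ((mem_P 𝒯 _).2 (sorted_perm 𝒯 ω)) h

private theorem meas_eq [Fintype τ] (𝒯 : Finset τ) (l : List τ) (hl : l.Perm 𝒯.toList) :
    (clk τ).real {ω : τ → ℝ | l.Pairwise (fun s t => ω s < ω t)} =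
      (clk τ).real {ω : τ → ℝ | 𝒯.toList.Pairwise (fun s t => ω s < ω t)} := by
  obtain ⟨σ, hσ⟩ := exists_perm_map hl.symm (Finset.nodup_toList 𝒯)
  have h1 := (clk_map_perm σ).measure_preimage
    (measurableSet_pairwise (𝒯.toList)).nullMeasurableSet
  have h2 : (fun ω : τ → ℝ => ω ∘ σ) ⁻¹' {ω : τ → ℝ | 𝒯.toList.Pairwise (fun s t => ω s < ω t)} =
      {ω : τ → ℝ | l.Pairwise (fun s t => ω s < ω t)} := by
    ext ω
    simp only [Set.mem_preimage, Set.mem_ofPred_eq, hσ, List.pairwise_map, Function.comp]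
  rw [h2] at h1
  rw [Measure.real, Measure.real, h1]

theorem integral_sorted [Fintype τ] (𝒯 : Finset τ) (F : List τ → ℝ) :
    ∫ ω, F (sorted 𝒯 ω) ∂(clk τ) =
      ((𝒯.card.factorial : ℝ))⁻¹ * ∑ l ∈ 𝒯.toList.permutations.toFinset, F l := by
  classical
  set v : ℝ := (clk τ).real {ω : τ → ℝ | 𝒯.toList.Pairwise (fun s t => ω s < ω t)} with hv
  have key : ∀ G : List τ → ℝ, ∫ ω, G (sorted 𝒯 ω) ∂(clk τ) =
      (∑ l ∈ 𝒯.toList.permutations.toFinset, G l) * v := by
    intro G
    rw [integral_congr_ae (ae_sorted 𝒯 G), integral_finsetSum]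
    · rw [Finset.sum_mul]
      refine Finset.sum_congr rfl fun l hl => ?_
      rw [integral_const_mul, integral_indicator (measurableSet_pairwise l)]
      rw [setIntegral_const, smul_eq_mul, mul_one, meas_eq 𝒯 l ((mem_P 𝒯 l).1 hl)]
    · intro l _
      exact ((integrable_const (1:ℝ)).indicator (measurableSet_pairwise l)).const_mul _
  have h1 := key (fun _ => 1)
  simp only [integral_const, smul_eq_mul, mul_one, Finset.sum_const, nsmul_eq_mul] at h1
  rw [card_P, probReal_univ] at h1
  have hm : ((𝒯.card.factorial : ℕ) : ℝ) ≠ 0 := by exact_mod_cast Nat.factorial_ne_zero _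
  have hv' : v = ((𝒯.card.factorial : ℕ) : ℝ)⁻¹ := by
    field_simp
    linarith
  rw [key F, hv', mul_comm]

end Crest.Agent.TRem
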