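import Crest.Agent.TRem.B0

/-!
# Row 30, B1a0: sorted lists and permutations

Chunk R30-B1a0.
-/

namespace Crest.Agent.TRem

open MeasureTheory Finset

variable {τ : Type} [DecidableEq τ]

/-- two duplicate free lists that are permutations of each other differ by a permutation of the type -/
theorem exists_perm_map [Fintype τ] {l l' : List τ} (h : l.Perm l') (hn : l.Nodup) :
    ∃ σ : Equiv.Perm τ, l' = l.map σ := by
  induction h with
  | nil => exact ⟨1, rfl⟩
  | @cons x l₁ l₂ h ih =>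
    obtain ⟨σ, hσ⟩ := ih (List.nodup_cons.1 hn).2
    have hx1 : x ∉ l₁ := (List.nodup_cons.1 hn).1
    -- `τ' = swap (σ x) x * σ`: fixes `x`, and agrees with `σ` on `l₁`
    refine ⟨Equiv.swap (σ x) x * σ, ?_⟩
    have hx2 : x ∉ l₂ := fun hx => hx1 (h.mem_iff.2 hx)
    rw [List.map_cons]
    congr 1
    · simp
    · rw [hσ]
      apply List.map_congr_left
      intro y hy
      have hy2 : σ y ∈ l₂ := by
        rw [hσ]; exact List.mem_map_of_mem hy
      have h1 : σ y ≠ x := fun h => hx2 (h ▸ hy2)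
      have h2 : σ y ≠ σ x := fun h => hx1 (σ.injective h ▸ hy)
      simp [Equiv.swap_apply_of_ne_of_ne h2 h1]
  | swap x y l =>
    refine ⟨Equiv.swap x y, ?_⟩
    have hn' := hn
    simp only [List.nodup_cons, List.mem_cons, not_or] at hn'
    obtain ⟨⟨hyx, hyl⟩, hxl, hl⟩ := hn'
    simp only [List.map_cons, Equiv.swap_apply_left, Equiv.swap_apply_right]
    congr 2
    symm
    conv_rhs => rw [← List.map_id l]
    apply List.map_congr_left
    intro z hz
    have h1 : z ≠ x := fun h => hxl (h ▸ hz)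
    have h2 : z ≠ y := fun h => hyl (h ▸ hz)
    simp [Equiv.swap_apply_of_ne_of_ne h1 h2]
  | trans h1 h2 ih1 ih2 =>
    obtain ⟨σ, hσ⟩ := ih1 hn
    obtain ⟨σ', hσ'⟩ := ih2 (h1.nodup_iff.1 hn)
    refine ⟨σ' * σ, ?_⟩
    rw [hσ', hσ, List.map_map]
    rfl

theorem sorted_perm (𝒯 : Finset τ) (ω : τ → ℝ) : (sorted 𝒯 ω).Perm 𝒯.toList := by
  unfold sorted
  exact List.perm_insertionSort _ _

theorem sorted_pairwise (𝒯 : Finset τ) (ω : τ → ℝ) :
    (sorted 𝒯 ω).Pairwise (fun s t => ω s ≤ ω t) := by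
  unfold sorted
  have : Std.Total (fun s t : τ => ω s ≤ ω t) := ⟨fun a b => le_total _ _⟩
  have : IsTrans τ (fun s t : τ => ω s ≤ ω t) := ⟨fun a b c h1 h2 => le_trans h1 h2⟩
  exact List.pairwise_insertionSort _ _

theorem sorted_eq_iff (𝒯 : Finset τ) (ω : τ → ℝ) (hinj : Set.InjOn ω (𝒯 : Set τ)) (l : List τ)
    (hl : l.Perm 𝒯.toList) : sorted 𝒯 ω = l ↔ l.Pairwise (fun s t => ω s < ω t) := by
  have hmem : ∀ a ∈ l, a ∈ (𝒯 : Set τ) := fun a ha => by
    have := hl.mem_iff.1 ha
    simpa using this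
  constructor
  · rintro rfl
    have h1 := sorted_pairwise 𝒯 ω
    have hnd : (sorted 𝒯 ω).Nodup := hl.nodup_iff.2 𝒯.nodup_toList
    have h2 := List.Pairwise.and h1 hnd
    refine h2.imp_of_mem ?_
    intro a b ha hb hab
    exact lt_of_le_of_ne hab.1 (fun h => hab.2 (hinj (hmem a ha) (hmem b hb) h))
  · intro h
    refine List.Perm.eq_of_pairwise (le := fun s t => ω s ≤ ω t) ?_ (sorted_pairwise 𝒯 ω)
      (h.imp (fun hab => le_of_lt hab)) ((sorted_perm 𝒯 ω).trans hl.symm)
    intro a b ha hb hab hba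
    have ha' : a ∈ (𝒯 : Set τ) := by
      have := (sorted_perm 𝒯 ω).mem_iff.1 ha
      simpa using this
    exact hinj ha' (hmem b hb) (le_antisymm hab hba)

theorem measurableSet_pairwise (l : List τ) :
    MeasurableSet {ω : τ → ℝ | l.Pairwise (fun s t => ω s < ω t)} := by
  induction l with
  | nil => simp
  | cons a l ih =>
    have : {ω : τ → ℝ | (a :: l).Pairwise (fun s t => ω s < ω t)}
        = (⋂ b ∈ l.toFinset, {ω : τ → ℝ | ω a < ω b})
          ∩ {ω : τ → ℝ | l.Pairwise (fun s t => ω s < ω t)} := by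
      ext ω
      simp [List.pairwise_cons]
    rw [this]
    refine MeasurableSet.inter ?_ ih
    refine Finset.measurableSet_biInter _ (fun b _ => ?_)
    exact measurableSet_lt (measurable_pi_apply a) (measurable_pi_apply b)

end Crest.Agent.TRem
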