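import Crest.Agent.TRem.HDefs

/-!
# Row 30, B1b0: random order = uniform greedy choice

Chunk R30-B1b0 (this file: everything up to `avo_cons`; `avo_go` is in B1b.lean).

`avo X F` = average of `F l` over all orderings `l` of the finite set `X`.

(1) `avo_cons`: for `X` nonempty `avo X F = (1/|X|) ∑_{t ∈ X} avo (X.erase t) (fun l => F (t :: l))`.
(The orderings of `X` starting with `t` are `t :: l`, `l` an ordering of `X.erase t`. Bijection
`P(X) = ⋃_t (cons t) '' P(X.erase t)`; `l ∈ P(X) ↔ l.Nodup ∧ l.toFinset = X`, see `mem_orderings`.)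
(2) `avo_const`.
(3) `avo_go`: for all `X ⊆ 𝒯` containing all `t ∈ 𝒯` with `tri t ⊆ A`, and `A.card ≤ fuel`:
`avo X (fun l => φ (go tri l A).card) = xF 𝒯 tri φ fuel A`. Induction on `X.card`, generalizing `A`, `fuel`.
Let `I = {t ∈ 𝒯 | tri t ⊆ A}`, `Q = I.card`.
 If `Q = 0`: `go tri l A = A` for every ordering `l` of `X` (no element of `X` fits), both sides `φ A.card`.
 If `Q > 0`: then `X` nonempty, `A` nonempty (`tri t` nonempty), so `fuel = k + 1`. By `avo_cons`
 `LHS = (1/|X|) [∑_{t ∈ X \ I} avo (X.erase t) (φ ∘ card ∘ go · A) + ∑_{t ∈ I} avo (X.erase t) (φ∘card∘go · (A \ tri t))]`.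
 First sum: every term is `V := xF 𝒯 tri φ (k+1) A` by the induction hypothesis for `X.erase t`
 (it still contains `I`). Second sum: `{t' ∈ 𝒯 | tri t' ⊆ A \ tri t} ⊆ X.erase t` because `tri t` is nonempty,
 `(A \ tri t).card ≤ k`, so the term is `xF 𝒯 tri φ k (A \ tri t)`; and
 `∑_{t ∈ I} xF 𝒯 tri φ k (A \ tri t) = Q * V`. Total `(1/|X|) ((|X| - Q) V + Q V) = V`.
-/

namespace Crest.Agent.TRem

open Finset

variable {ι τ : Type} [DecidableEq ι] [DecidableEq τ]

/-- average over all orderings of `X` -/
noncomputable def avo (X : Finset τ) (F : List τ → ℝ) : ℝ :=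
  ((X.card.factorial : ℝ))⁻¹ * ∑ l ∈ X.toList.permutations.toFinset, F l

theorem mem_orderings (X : Finset τ) (l : List τ) :
    l ∈ X.toList.permutations.toFinset ↔ l.Nodup ∧ l.toFinset = X := by
  rw [List.mem_toFinset, List.mem_permutations]
  constructor
  · intro h
    refine ⟨h.nodup_iff.mpr X.nodup_toList, ?_⟩
    rw [List.toFinset_eq_of_perm _ _ h, Finset.toList_toFinset]
  · rintro ⟨h1, h2⟩
    refine List.perm_of_nodup_nodup_toFinset_eq h1 X.nodup_toList ?_
    rw [h2, Finset.toList_toFinset]

theorem card_orderings (X : Finset τ) :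
    X.toList.permutations.toFinset.card = X.card.factorial := by
  rw [List.toFinset_card_of_nodup (List.nodup_permutations _ X.nodup_toList),
    List.length_permutations, Finset.length_toList]

theorem avo_congr (X : Finset τ) (F G : List τ → ℝ)
    (h : ∀ l : List τ, l.Nodup → l.toFinset = X → F l = G l) : avo X F = avo X G := by
  unfold avo
  congr 1
  refine Finset.sum_congr rfl (fun l hl => ?_)
  rw [mem_orderings] at hl
  exact h l hl.1 hl.2

theorem avo_const (X : Finset τ) (c : ℝ) : avo X (fun _ => c) = c := by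
  unfold avo
  rw [Finset.sum_const, card_orderings, nsmul_eq_mul, ← mul_assoc, inv_mul_cancel₀, one_mul]
  exact_mod_cast X.card.factorial_ne_zero

private theorem orderings_cons (X : Finset τ) (hX : X.Nonempty) :
    X.toList.permutations.toFinset =
      X.biUnion (fun t => ((X.erase t).toList.permutations.toFinset).image (fun l => t :: l)) := by
  ext l
  rw [mem_orderings]
  simp only [Finset.mem_biUnion, Finset.mem_image, mem_orderings]
  constructor
  · rintro ⟨h1, h2⟩
    cases l with
    | nil =>
      rw [List.toFinset_nil] at h2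
      rw [← h2] at hX
      exact absurd hX Finset.not_nonempty_empty
    | cons t l =>
      rw [List.nodup_cons] at h1
      rw [List.toFinset_cons] at h2
      refine ⟨t, ?_, l, ⟨h1.2, ?_⟩, rfl⟩
      · rw [← h2]; exact Finset.mem_insert_self _ _
      · rw [← h2, Finset.erase_insert]
        rw [List.mem_toFinset]; exact h1.1
  · rintro ⟨t, ht, l', ⟨h1, h2⟩, rfl⟩
    constructor
    · rw [List.nodup_cons]
      refine ⟨?_, h1⟩
      intro hm
      rw [← List.mem_toFinset, h2] at hm
      exact Finset.notMem_erase t X hm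
    · rw [List.toFinset_cons, h2, Finset.insert_erase ht]

theorem avo_cons (X : Finset τ) (hX : X.Nonempty) (F : List τ → ℝ) :
    avo X F = ((X.card : ℝ))⁻¹ * ∑ t ∈ X, avo (X.erase t) (fun l => F (t :: l)) := by
  unfold avo
  rw [orderings_cons X hX, Finset.sum_biUnion]
  · have h1 : ∀ t ∈ X, (((X.erase t).card.factorial : ℝ))⁻¹ *
        ∑ l ∈ (X.erase t).toList.permutations.toFinset, F (t :: l) =
        (((X.card - 1).factorial : ℝ))⁻¹ *
        ∑ l ∈ (X.erase t).toList.permutations.toFinset, F (t :: l) := by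
      intro t ht
      rw [Finset.card_erase_of_mem ht]
    rw [Finset.sum_congr rfl h1, ← Finset.mul_sum, ← mul_assoc, ← mul_inv]
    congr 1
    · congr 1
      have h2 := Nat.mul_factorial_pred (Nat.pos_iff_ne_zero.mp hX.card_pos)
      rw [← h2]
      push_cast
      ring
    · refine Finset.sum_congr rfl (fun t _ => ?_)
      rw [Finset.sum_image]
      intro a _ b _ hab
      exact List.cons_injective hab
  · intro t _ t' _ htt'
    rw [Function.onFun, Finset.disjoint_left]
    intro l hl hl'
    simp only [Finset.mem_image] at hl hl'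
    obtain ⟨a, _, rfl⟩ := hl
    obtain ⟨b, _, hb⟩ := hl'
    rw [List.cons.injEq] at hb
    exact htt' hb.1.symm

end Crest.Agent.TRem
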