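import Crest.Agent.TRem.B2a

/-!
# Row 30, B2: deterministic sandwich between the events `ev` and survival

Chunk R30-B2 (this file: `sandwich_aux` = (S5); (S1)-(S4) are black boxes in B2a.lean).

`Al ω A s` = the alive set just before time `s` = result of processing, in clock order, the hyperedges
with clock `< s`.

`go_append`: `go tri (l ++ l') A = go tri l' (go tri l A)`.
`go_subset`: `go tri l A ⊆ A`.
(S1) `Al_anti`: for `s ≤ s'`, `Al ω A s' ⊆ Al ω A s` (sorted list: the filter `ω < s` is a prefix of the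
     filter `ω < s'`: `List.filter` of a list sorted by `ω`; so `go_append` + `go_subset`).
(S2) `Al_kill`: `t ∈ 𝒯`, `tri t ⊆ Al (ω t)`, `ω t < s`, `f ∈ tri t` ⟹ `f ∉ Al s`. (Filter list for `s` is
     `filter (ω < ω t) ++ t :: rest`, by injectivity of `ω` on `𝒯`; processing `t` deletes `tri t`.)
(S3) `Al_dead`: `f ∈ A`, `f ∉ Al s` ⟹ some `t ∈ 𝒯` with `f ∈ tri t`, `ω t < s`, `tri t ⊆ Al (ω t)`.
     (Look at the first list element whose processing removes `f`.)
(S4) `fin_eq_Al`: if all clocks are `< 1` then `fin 𝒯 tri ω A = Al ω A 1`.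
(S5) sandwich_aux, induction on `d` generalizing `f, x, s`: if `x = none` or `x = some T0` with `f ∈ tri T0`,
     `s ≤ ω T0`, and `f ∈ A`:
       `ev d false f x s ω → f ∈ Al s`   and   `f ∈ Al s → ev d true f x s ω`.
  `d = 0` trivial (`false = true` is absurd; `true = true`).
  Lower, `d+1`: if `f ∉ Al s`, take `T` from (S3); `some T ≠ x` since `ω T < s ≤ ω T0`. So `T ∈ ch f x`
  and the event says: not all `g ∈ (tri T).erase f` satisfy `ev d true g (some T) (ω T)`. But
  `g ∈ tri T ⊆ Al (ω T)` and the induction hypothesis (upper, at `(g, some T, ω T)`) gives exactly this.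
  Upper, `d+1`: let `f ∈ Al s` and `t' ∈ ch f x`, `ω t' < s` with `ev d false g (some t') (ω t')` for all
  `g ∈ (tri t').erase f`. By the induction hypothesis (lower) `g ∈ Al (ω t')`; also
  `f ∈ Al s ⊆ Al (ω t')` (S1); so `tri t' ⊆ Al (ω t')` and (S2) gives `f ∉ Al s`, contradiction.
-/

namespace Crest.Agent.TRem

open Finset

variable {ι τ : Type} [DecidableEq ι] [DecidableEq τ]

theorem sandwich_aux (𝒯 : Finset τ) (tri : τ → Finset ι) (ω : τ → ℝ)
    (hinj : Set.InjOn ω (𝒯 : Set τ)) (A : Finset ι) (hA : ∀ t ∈ 𝒯, tri t ⊆ A) (d : ℕ) :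
    ∀ (f : ι) (x : Option τ) (s : ℝ), f ∈ A → (∀ T0, x = some T0 → s ≤ ω T0) →
      (ev 𝒯 tri d false f x s ω → f ∈ Al 𝒯 tri ω A s) ∧
      (f ∈ Al 𝒯 tri ω A s → ev 𝒯 tri d true f x s ω) := by
  induction d with
  | zero =>
    intro f x s _ _
    refine ⟨?_, ?_⟩
    · intro h
      simp [ev] at h
    · intro _
      simp [ev]
  | succ d ih =>
    intro f x s hf hx
    refine ⟨?_, ?_⟩
    · intro hev
      by_contra hdead
      obtain ⟨T, hT, hfT, hlt, hsub⟩ := Al_dead 𝒯 tri ω hinj A hf hdead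
      have hne : some T ≠ x := by
        intro h
        have := hx T h.symm
        linarith
      rw [ev] at hev
      refine hev T ?_ hlt ?_
      · unfold ch
        rw [mem_filter]
        exact ⟨hT, hfT, hne⟩
      · intro g hg
        have hg' := (mem_erase.1 hg).2
        refine (ih g (some T) (ω T) (hA T hT hg') ?_).2 (hsub hg')
        intro T0 h0
        rw [Option.some.injEq] at h0
        rw [h0]
    · intro hal
      rw [ev]
      intro t' ht' hlt hall
      unfold ch at ht'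
      rw [mem_filter] at ht'
      obtain ⟨ht, hft, _⟩ := ht'
      have hsub : tri t' ⊆ Al 𝒯 tri ω A (ω t') := by
        intro g hg
        by_cases hgf : g = f
        · rw [hgf]
          exact Al_anti 𝒯 tri ω A hlt.le hal
        · refine (ih g (some t') (ω t') (hA t' ht hg) ?_).1 (hall g (mem_erase.2 ⟨hgf, hg⟩))
          intro T0 h0
          rw [Option.some.injEq] at h0
          rw [h0]
      exact Al_kill 𝒯 tri ω hinj A ht hsub hlt hft hal

theorem sandwich (𝒯 : Finset τ) (tri : τ → Finset ι) (A : Finset ι) (hA : ∀ t ∈ 𝒯, tri t ⊆ A)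
    (ω : τ → ℝ) (hinj : Set.InjOn ω (𝒯 : Set τ)) (hlt : ∀ t ∈ 𝒯, ω t < 1) (d : ℕ) (e : ι)
    (he : e ∈ A) :
    (ev 𝒯 tri d false e none 1 ω → e ∈ fin 𝒯 tri ω A) ∧
      (e ∈ fin 𝒯 tri ω A → ev 𝒯 tri d true e none 1 ω) := by
  rw [fin_eq_Al 𝒯 tri ω A hlt]
  exact sandwich_aux 𝒯 tri ω hinj A hA d e none 1 he (by simp)

end Crest.Agent.TRem
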