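import Crest.Agent.TRem.HDefs

/-!
# Row 30, B2a: deterministic sandwich between the events `ev` and survival

Chunk R30-B2a (this file: `go_append` ... `fin_eq_Al`, i.e. (S1)-(S4); (S5) is in B2.lean).

`Al ω A s` = the alive set just before time `s` = result of processing, in clock order, the hyperedges
with clock `< s`.

`go_append`: `go tri (l ++ l') A = go tri l' (go tri l A)`.
`go_subset`: `go tri l A ⊆ A`.
(S1) `Al_anti`: for `s ≤ s'`, `Al ω A s' ⊆ Al ω A s` (sorted list: the filter `ω < s` is a prefix of the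
     filter `ω < s'`: `List.filter` of a list sorted by `ω`; so `go_append` + `go_subset`).
(S2) `Al_kill`: `t ∈ 𝒯`, `tri t ⊆ Al (ω t)`, `ω t < s`, `f ∈ tri t` ⟹ `f ∉ Al s`. (Filter list for `s` is
     `filter (ω < ω t) ++ t :: rest`, by injectivity of `ω` on `𝒯`; processing `t` deletes `tri t`.)
(S3) `Al_dead`: `f ∈ A`, `f ∉ Al s` ⟹ some `t ∈ 𝒯` with `f ∈ tri t`, `ω t < s`, `tri t ⊆ Al (ω t)`.
     (Look at the first list element whose processing removes `f`.)
(S4) `fin_eq_Al`: if all clocks are `< 1` then `fin 𝒯 tri ω A = Al ω A 1`.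
(S5) sandwich_aux, induction on `d` generalizing `f, x, s`: if `x = none` or `x = some T0` with `f ∈ tri T0`,
     `s ≤ ω T0`, and `f ∈ A`:
       `ev d false f x s ω → f ∈ Al s`   and   `f ∈ Al s → ev d true f x s ω`.
  `d = 0` trivial (`false = true` is absurd; `true = true`).
  Lower, `d+1`: if `f ∉ Al s`, take `T` from (S3); `some T ≠ x` since `ω T < s ≤ ω T0`. So `T ∈ ch f x`
  and the event says: not all `g ∈ (tri T).erase f` satisfy `ev d true g (some T) (ω T)`. But
  `g ∈ tri T ⊆ Al (ω T)` and the induction hypothesis (upper, at `(g, some T, ω T)`) gives exactly this.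
  Upper, `d+1`: let `f ∈ Al s` and `t' ∈ ch f x`, `ω t' < s` with `ev d false g (some t') (ω t')` for all
  `g ∈ (tri t').erase f`. By the induction hypothesis (lower) `g ∈ Al (ω t')`; also
  `f ∈ Al s ⊆ Al (ω t')` (S1); so `tri t' ⊆ Al (ω t')` and (S2) gives `f ∉ Al s`, contradiction.
-/

namespace Crest.Agent.TRem

open Finset

variable {ι τ : Type} [DecidableEq ι] [DecidableEq τ]

theorem go_append (tri : τ → Finset ι) (l l' : List τ) (A : Finset ι) :
    go tri (l ++ l') A = go tri l' (go tri l A) := by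
  induction l generalizing A with
  | nil => rfl
  | cons a l ih =>
    rw [List.cons_append]
    simp only [go]
    exact ih _

theorem go_subset (tri : τ → Finset ι) (l : List τ) (A : Finset ι) : go tri l A ⊆ A := by
  induction l generalizing A with
  | nil => exact subset_rfl
  | cons a l ih =>
    simp only [go]
    refine (ih _).trans ?_
    split_ifs
    · exact sdiff_subset
    · exact subset_rfl

/-- the alive set just before time `s` -/
noncomputable def Al (𝒯 : Finset τ) (tri : τ → Finset ι) (ω : τ → ℝ) (A : Finset ι) (s : ℝ) :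
    Finset ι := by
  classical exact go tri ((sorted 𝒯 ω).filter (fun t => decide (ω t < s))) A

theorem Al_subset (𝒯 : Finset τ) (tri : τ → Finset ι) (ω : τ → ℝ) (A : Finset ι) (s : ℝ) :
    Al 𝒯 tri ω A s ⊆ A := by
  unfold Al
  exact go_subset _ _ _

private theorem sorted_perm' (𝒯 : Finset τ) (ω : τ → ℝ) : (sorted 𝒯 ω).Perm 𝒯.toList := by
  classical
  unfold sorted
  exact List.perm_insertionSort _ _

private theorem mem_sorted (𝒯 : Finset τ) (ω : τ → ℝ) (t : τ) : t ∈ sorted 𝒯 ω ↔ t ∈ 𝒯 := by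
  rw [(sorted_perm' 𝒯 ω).mem_iff, Finset.mem_toList]

private theorem sorted_nodup (𝒯 : Finset τ) (ω : τ → ℝ) : (sorted 𝒯 ω).Nodup :=
  (sorted_perm' 𝒯 ω).nodup_iff.2 𝒯.nodup_toList

private theorem sorted_pairwise (𝒯 : Finset τ) (ω : τ → ℝ) :
    (sorted 𝒯 ω).Pairwise (fun s t => ω s ≤ ω t) := by
  classical
  unfold sorted
  haveI h1 : Std.Total (fun s t : τ => ω s ≤ ω t) := ⟨fun a b => le_total (ω a) (ω b)⟩
  haveI h2 : IsTrans τ (fun s t : τ => ω s ≤ ω t) := ⟨fun a b c h h' => le_trans h h'⟩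
  exact List.pairwise_insertionSort _ _

private theorem filter_split (ω : τ → ℝ) (l : List τ) (hl : l.Pairwise (fun s t => ω s ≤ ω t))
    {s s' : ℝ} (h : s ≤ s') : ∃ l', l.filter (fun t => decide (ω t < s')) =
      l.filter (fun t => decide (ω t < s)) ++ l' := by
  induction l with
  | nil => exact ⟨[], rfl⟩
  | cons a l ih =>
    rw [List.pairwise_cons] at hl
    obtain ⟨l', hl'⟩ := ih hl.2
    by_cases ha : ω a < s
    · refine ⟨l', ?_⟩
      rw [List.filter_cons_of_pos (by simpa using ha.trans_le h),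
        List.filter_cons_of_pos (by simpa using ha), hl', List.cons_append]
    · have h1 : (a :: l).filter (fun t => decide (ω t < s)) = [] := by
        rw [List.filter_eq_nil_iff]
        intro b hb
        rw [List.mem_cons] at hb
        simp only [decide_eq_true_eq]
        rcases hb with rfl | hb
        · exact ha
        · have := hl.1 b hb
          intro h2
          exact ha (lt_of_le_of_lt this h2)
      rw [h1]
      exact ⟨_, rfl⟩

private theorem filter_eq_left (ω : τ → ℝ) (l l1 l2 : List τ) (t : τ) (h : l = l1 ++ t :: l2)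
    (hl : l.Pairwise (fun s t => ω s ≤ ω t)) (hn : l.Nodup)
    (hinj : ∀ a ∈ l, ∀ b ∈ l, ω a = ω b → a = b) :
    l.filter (fun t' => decide (ω t' < ω t)) = l1 := by
  subst h
  rw [List.filter_append]
  have h1 : l1.filter (fun t' => decide (ω t' < ω t)) = l1 := by
    rw [List.filter_eq_self]
    intro a ha
    simp only [decide_eq_true_eq]
    have h2 : ω a ≤ ω t := (List.pairwise_append.1 hl).2.2 a ha t (by simp)
    refine lt_of_le_of_ne h2 ?_
    intro h3
    have h4 := hinj a (by simp [ha]) t (by simp) h3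
    subst h4
    rw [List.nodup_append] at hn
    exact hn.2.2 a ha a (by simp) rfl
  have h5 : (t :: l2).filter (fun t' => decide (ω t' < ω t)) = [] := by
    rw [List.filter_eq_nil_iff]
    intro b hb
    simp only [decide_eq_true_eq, not_lt]
    rw [List.mem_cons] at hb
    rcases hb with rfl | hb
    · exact le_rfl
    · have h6 := (List.pairwise_append.1 hl).2.1
      rw [List.pairwise_cons] at h6
      exact h6.1 b hb
  rw [h1, h5, List.append_nil]

private theorem go_dead (tri : τ → Finset ι) (l : List τ) (A : Finset ι) {f : ι} (hA : f ∈ A)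
    (hf : f ∉ go tri l A) :
    ∃ l1 t l2, l = l1 ++ t :: l2 ∧ f ∈ tri t ∧ tri t ⊆ go tri l1 A := by
  induction l generalizing A with
  | nil => exact absurd hA hf
  | cons a l ih =>
    simp only [go] at hf
    by_cases h1 : tri a ⊆ A
    · by_cases h2 : f ∈ tri a
      · exact ⟨[], a, l, rfl, h2, h1⟩
      · rw [if_pos h1] at hf
        obtain ⟨l1, t, l2, h3, h4, h5⟩ := ih (A \ tri a) (mem_sdiff.2 ⟨hA, h2⟩) hf
        refine ⟨a :: l1, t, l2, by rw [h3, List.cons_append], h4, ?_⟩
        simp only [go]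
        rw [if_pos h1]
        exact h5
    · rw [if_neg h1] at hf
      obtain ⟨l1, t, l2, h3, h4, h5⟩ := ih A hA hf
      refine ⟨a :: l1, t, l2, by rw [h3, List.cons_append], h4, ?_⟩
      simp only [go]
      rw [if_neg h1]
      exact h5

theorem Al_anti (𝒯 : Finset τ) (tri : τ → Finset ι) (ω : τ → ℝ) (A : Finset ι) {s s' : ℝ}
    (h : s ≤ s') : Al 𝒯 tri ω A s' ⊆ Al 𝒯 tri ω A s := by
  obtain ⟨l', hl'⟩ := filter_split ω (sorted 𝒯 ω) (sorted_pairwise 𝒯 ω) h
  unfold Al
  rw [hl', go_append]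
  exact go_subset _ _ _

private theorem filter_sorted_split (𝒯 : Finset τ) (ω : τ → ℝ)
    (hinj : Set.InjOn ω (𝒯 : Set τ)) {s : ℝ} {l1 l2 : List τ} {t : τ} (hs : ω t < s)
    (h : (sorted 𝒯 ω).filter (fun t => decide (ω t < s)) = l1 ++ t :: l2) :
    (sorted 𝒯 ω).filter (fun t' => decide (ω t' < ω t)) = l1 := by
  have h1 := filter_eq_left ω _ l1 l2 t h ((sorted_pairwise 𝒯 ω).sublist List.filter_sublist)
    ((sorted_nodup 𝒯 ω).sublist List.filter_sublist) (by
      intro a ha b hb hab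
      rw [List.mem_filter, mem_sorted] at ha hb
      exact hinj ha.1 hb.1 hab)
  rw [← h1, List.filter_filter]
  apply List.filter_congr
  intro x _
  by_cases hx : ω x < ω t
  · simp [hx, hx.trans hs]
  · simp [hx]

theorem Al_kill (𝒯 : Finset τ) (tri : τ → Finset ι) (ω : τ → ℝ) (hinj : Set.InjOn ω (𝒯 : Set τ))
    (A : Finset ι) {t : τ} (ht : t ∈ 𝒯) (hal : tri t ⊆ Al 𝒯 tri ω A (ω t)) {s : ℝ} (hs : ω t < s)
    {f : ι} (hf : f ∈ tri t) : f ∉ Al 𝒯 tri ω A s := by
  have h1 : t ∈ (sorted 𝒯 ω).filter (fun t => decide (ω t < s)) := by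
    rw [List.mem_filter, mem_sorted]
    exact ⟨ht, by simpa using hs⟩
  obtain ⟨l1, l2, h2⟩ := List.append_of_mem h1
  have h3 := filter_sorted_split 𝒯 ω hinj hs h2
  unfold Al at hal ⊢
  rw [h3] at hal
  rw [h2, go_append]
  simp only [go]
  rw [if_pos hal]
  intro h4
  have h5 := go_subset _ _ _ h4
  exact (mem_sdiff.1 h5).2 hf

theorem Al_dead (𝒯 : Finset τ) (tri : τ → Finset ι) (ω : τ → ℝ) (hinj : Set.InjOn ω (𝒯 : Set τ))
    (A : Finset ι) {s : ℝ} {f : ι} (hfA : f ∈ A) (hf : f ∉ Al 𝒯 tri ω A s) :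
    ∃ t ∈ 𝒯, f ∈ tri t ∧ ω t < s ∧ tri t ⊆ Al 𝒯 tri ω A (ω t) := by
  unfold Al at hf
  obtain ⟨l1, t, l2, h1, h2, h3⟩ := go_dead tri _ A hfA hf
  have h4 : t ∈ (sorted 𝒯 ω).filter (fun t => decide (ω t < s)) := by
    rw [h1]
    simp
  rw [List.mem_filter, mem_sorted] at h4
  have h5 : ω t < s := by simpa using h4.2
  refine ⟨t, h4.1, h2, h5, ?_⟩
  unfold Al
  rw [filter_sorted_split 𝒯 ω hinj h5 h1]
  exact h3

theorem fin_eq_Al (𝒯 : Finset τ) (tri : τ → Finset ι) (ω : τ → ℝ) (A : Finset ι)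
    (hlt : ∀ t ∈ 𝒯, ω t < 1) : fin 𝒯 tri ω A = Al 𝒯 tri ω A 1 := by
  unfold fin Al
  have h1 : (sorted 𝒯 ω).filter (fun t => decide (ω t < 1)) = sorted 𝒯 ω := by
    rw [List.filter_eq_self]
    intro a ha
    rw [mem_sorted] at ha
    simpa using hlt a ha
  rw [h1]

end Crest.Agent.TRem
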