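import Crest.Agent.TRem.B3Defs

/-!
# Row 30, B3a: basic facts about the messages
-/

namespace Crest.Agent.TRem

open Finset MeasureTheory

variable {ι τ : Type} [DecidableEq ι] [DecidableEq τ] (𝒯 : Finset τ) (tri : τ → Finset ι)

/-- `hh` is continuous in `t` on all of `ℝ` (finite products of `1 - ∫_0^t (continuous)`), by
induction on `d` (`intervalIntegral.continuous_primitive` / `Continuous.intervalIntegral..`). -/
theorem hh_continuous (d : ℕ) (c : Bool) (f : ι) (x : Option τ) :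
    Continuous (fun t => hh 𝒯 tri d c f x t) := by
  induction d generalizing c f x with
  | zero => simp only [hh]; exact continuous_const
  | succ d ih =>
    simp only [hh]
    refine continuous_finsetProd _ (fun t' _ => continuous_const.sub ?_)
    refine intervalIntegral.continuous_primitive (fun a b => ?_) 0
    exact (continuous_finsetProd _ (fun g _ => ih (!c) g (some t'))).intervalIntegrable a b

private theorem hh_prod_continuous (d : ℕ) (c : Bool) (f : ι) (t' : τ) :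
    Continuous (fun z => ∏ g ∈ (tri t').erase f, hh 𝒯 tri d c g (some t') z) :=
  continuous_finsetProd _ (fun g _ => hh_continuous 𝒯 tri d c g (some t'))

theorem hh_bd (d : ℕ) (c : Bool) (f : ι) (x : Option τ) {t : ℝ} (h0 : 0 ≤ t) (h1 : t ≤ 1) :
    0 ≤ hh 𝒯 tri d c f x t ∧ hh 𝒯 tri d c f x t ≤ 1 := by
  induction d generalizing c f x t with
  | zero => simp only [hh]; split_ifs <;> norm_num
  | succ d ih =>
    simp only [hh]
    have key : ∀ t' ∈ ch 𝒯 tri f x,
        0 ≤ 1 - ∫ z in (0:ℝ)..t, ∏ g ∈ (tri t').erase f, hh 𝒯 tri d (!c) g (some t') z ∧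
        1 - ∫ z in (0:ℝ)..t, ∏ g ∈ (tri t').erase f, hh 𝒯 tri d (!c) g (some t') z ≤ 1 := by
      intro t' _
      have hn : 0 ≤ ∫ z in (0:ℝ)..t, ∏ g ∈ (tri t').erase f, hh 𝒯 tri d (!c) g (some t') z := by
        refine intervalIntegral.integral_nonneg h0 (fun z hz => ?_)
        exact Finset.prod_nonneg (fun g _ => (ih (!c) g (some t') hz.1 (hz.2.trans h1)).1)
      have hu : ∫ z in (0:ℝ)..t, ∏ g ∈ (tri t').erase f, hh 𝒯 tri d (!c) g (some t') z ≤ 1 := by
        have : ∫ z in (0:ℝ)..t, ∏ g ∈ (tri t').erase f, hh 𝒯 tri d (!c) g (some t') z ≤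
            ∫ z in (0:ℝ)..t, (1:ℝ) := by
          refine intervalIntegral.integral_mono_on h0
            ((hh_prod_continuous 𝒯 tri d (!c) f t').intervalIntegrable _ _)
            (continuous_const.intervalIntegrable _ _) (fun z hz => ?_)
          refine Finset.prod_le_one (fun g _ => (ih (!c) g (some t') hz.1 (hz.2.trans h1)).1)
            (fun g _ => (ih (!c) g (some t') hz.1 (hz.2.trans h1)).2)
        simp at this
        linarith
      constructor <;> linarith
    exact ⟨Finset.prod_nonneg (fun t' ht' => (key t' ht').1),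
      Finset.prod_le_one (fun t' ht' => (key t' ht').1) (fun t' ht' => (key t' ht').2)⟩

private theorem hh_int_bd (d : ℕ) (c : Bool) (f : ι) (t' : τ) {t : ℝ} (h0 : 0 ≤ t) (h1 : t ≤ 1) :
    0 ≤ ∫ z in (0:ℝ)..t, ∏ g ∈ (tri t').erase f, hh 𝒯 tri d c g (some t') z ∧
    ∫ z in (0:ℝ)..t, ∏ g ∈ (tri t').erase f, hh 𝒯 tri d c g (some t') z ≤ 1 := by
  constructor
  · refine intervalIntegral.integral_nonneg h0 (fun z hz => ?_)
    exact Finset.prod_nonneg (fun g _ => (hh_bd 𝒯 tri d c g (some t') hz.1 (hz.2.trans h1)).1)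
  · have : ∫ z in (0:ℝ)..t, ∏ g ∈ (tri t').erase f, hh 𝒯 tri d c g (some t') z ≤
        ∫ z in (0:ℝ)..t, (1:ℝ) := by
      refine intervalIntegral.integral_mono_on h0
        ((hh_prod_continuous 𝒯 tri d c f t').intervalIntegrable _ _)
        (continuous_const.intervalIntegrable _ _) (fun z hz => ?_)
      refine Finset.prod_le_one (fun g _ => (hh_bd 𝒯 tri d c g (some t') hz.1 (hz.2.trans h1)).1)
        (fun g _ => (hh_bd 𝒯 tri d c g (some t') hz.1 (hz.2.trans h1)).2)
    simp at this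
    linarith

private theorem hh_step_le (d d' : ℕ) (c c' : Bool)
    (h : ∀ (g : ι) (x : Option τ) (z : ℝ), 0 ≤ z → z ≤ 1 →
      hh 𝒯 tri d (!c) g x z ≤ hh 𝒯 tri d' (!c') g x z)
    (f : ι) (x : Option τ) {t : ℝ} (h0 : 0 ≤ t) (h1 : t ≤ 1) :
    hh 𝒯 tri (d' + 1) c' f x t ≤ hh 𝒯 tri (d + 1) c f x t := by
  simp only [hh]
  refine Finset.prod_le_prod (fun t' _ => ?_) (fun t' _ => ?_)
  · have := (hh_int_bd 𝒯 tri d' (!c') f t' h0 h1).2
    linarith
  · have : ∫ z in (0:ℝ)..t, ∏ g ∈ (tri t').erase f, hh 𝒯 tri d (!c) g (some t') z ≤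
        ∫ z in (0:ℝ)..t, ∏ g ∈ (tri t').erase f, hh 𝒯 tri d' (!c') g (some t') z := by
      refine intervalIntegral.integral_mono_on h0
        ((hh_prod_continuous 𝒯 tri d (!c) f t').intervalIntegrable _ _)
        ((hh_prod_continuous 𝒯 tri d' (!c') f t').intervalIntegrable _ _) (fun z hz => ?_)
      exact Finset.prod_le_prod
        (fun g _ => (hh_bd 𝒯 tri d (!c) g (some t') hz.1 (hz.2.trans h1)).1)
        (fun g _ => h g (some t') z hz.1 (hz.2.trans h1))
    linarith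

/-- lower ≤ upper at the same depth. (Induction: product of `1-∫` is antitone in the inner
messages, all in `[0,1]`.) -/
theorem hh_low_le_up (d : ℕ) (f : ι) (x : Option τ) {t : ℝ} (h0 : 0 ≤ t) (h1 : t ≤ 1) :
    hh 𝒯 tri d false f x t ≤ hh 𝒯 tri d true f x t := by
  induction d generalizing f x t with
  | zero => simp [hh]
  | succ d ih =>
    exact hh_step_le 𝒯 tri d d true false (fun g x z hz0 hz1 => ih g x hz0 hz1) f x h0 h1

/-- the lower messages increase with the depth, the upper ones decrease (joint induction). -/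
theorem hh_mono_depth (d : ℕ) (f : ι) (x : Option τ) {t : ℝ} (h0 : 0 ≤ t) (h1 : t ≤ 1) :
    hh 𝒯 tri d false f x t ≤ hh 𝒯 tri (d + 1) false f x t ∧
      hh 𝒯 tri (d + 1) true f x t ≤ hh 𝒯 tri d true f x t := by
  induction d generalizing f x t with
  | zero =>
    constructor
    · have : hh 𝒯 tri 0 false f x t = 0 := by simp [hh]
      rw [this]; exact (hh_bd 𝒯 tri 1 false f x h0 h1).1
    · have : hh 𝒯 tri 0 true f x t = 1 := by simp [hh]
      rw [this]; exact (hh_bd 𝒯 tri 1 true f x h0 h1).2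
  | succ d ih =>
    exact ⟨hh_step_le 𝒯 tri (d + 1) d false false (fun g x z hz0 hz1 => (ih g x hz0 hz1).2)
      f x h0 h1, hh_step_le 𝒯 tri d (d + 1) true true (fun g x z hz0 hz1 => (ih g x hz0 hz1).1)
      f x h0 h1⟩

/-- messages are nonincreasing in time. -/
theorem hh_anti (d : ℕ) (c : Bool) (f : ι) (x : Option τ) {t t' : ℝ} (h0 : 0 ≤ t) (h : t ≤ t')
    (h1 : t' ≤ 1) : hh 𝒯 tri d c f x t' ≤ hh 𝒯 tri d c f x t := by
  cases d with
  | zero => simp [hh]
  | succ d =>
    simp only [hh]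
    refine Finset.prod_le_prod (fun u _ => ?_) (fun u _ => ?_)
    · have := (hh_int_bd 𝒯 tri d (!c) f u (h0.trans h) h1).2
      linarith
    · have hI := (hh_prod_continuous 𝒯 tri d (!c) f u)
      have e := intervalIntegral.integral_add_adjacent_intervals (μ := volume)
        (hI.intervalIntegrable 0 t) (hI.intervalIntegrable t t')
      have hn : 0 ≤ ∫ z in t..t', ∏ g ∈ (tri u).erase f, hh 𝒯 tri d (!c) g (some u) z := by
        refine intervalIntegral.integral_nonneg h (fun z hz => ?_)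
        exact Finset.prod_nonneg
          (fun g _ => (hh_bd 𝒯 tri d (!c) g (some u) (h0.trans hz.1) (hz.2.trans h1)).1)
      linarith

theorem tt_nonneg {D s : ℝ} (hD : 0 < D) (hs : 0 ≤ s) : 0 ≤ tt D s := by
  unfold tt
  refine div_nonneg ?_ (by linarith)
  have : 1 ≤ Real.exp (2 * s) := Real.one_le_exp (by linarith)
  linarith

theorem tt_mono {D s s' : ℝ} (hD : 0 < D) (h : s ≤ s') : tt D s ≤ tt D s' := by
  unfold tt
  have : Real.exp (2 * s) ≤ Real.exp (2 * s') := Real.exp_le_exp.2 (by linarith)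
  exact div_le_div_of_nonneg_right (by linarith) (by linarith)

theorem tt_SS {D : ℝ} (hD : 0 < D) : tt D (SS D) = 1 := by
  unfold tt SS
  rw [mul_div_cancel₀ _ (two_ne_zero), Real.exp_log (by linarith)]
  field_simp
  ring

theorem tt_le_one {D s : ℝ} (hD : 0 < D) (hs : s ≤ SS D) : tt D s ≤ 1 := by
  rw [← tt_SS hD]; exact tt_mono hD hs

private theorem tt_continuous (D : ℝ) : Continuous (tt D) := by
  unfold tt
  fun_prop

theorem ms_continuous {D : ℝ} (hD : 0 < D) (d : ℕ) (c : Bool) (f : ι) (x : Option τ) :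
    Continuous (fun s => ms 𝒯 tri D d c f x s) := by
  unfold ms
  exact Real.continuous_exp.mul ((hh_continuous 𝒯 tri d c f x).comp (tt_continuous D))

theorem ms_nonneg {D s : ℝ} (hD : 0 < D) (d : ℕ) (c : Bool) (f : ι) (x : Option τ)
    (h0 : 0 ≤ s) (h1 : s ≤ SS D) : 0 ≤ ms 𝒯 tri D d c f x s :=
  mul_nonneg (Real.exp_pos s).le (hh_bd 𝒯 tri d c f x (tt_nonneg hD h0) (tt_le_one hD h1)).1

theorem ms_le_exp {D s : ℝ} (hD : 0 < D) (d : ℕ) (c : Bool) (f : ι) (x : Option τ)
    (h0 : 0 ≤ s) (h1 : s ≤ SS D) : ms 𝒯 tri D d c f x s ≤ Real.exp s := by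
  unfold ms
  have := (hh_bd 𝒯 tri d c f x (tt_nonneg hD h0) (tt_le_one hD h1)).2
  nlinarith [Real.exp_pos s]

theorem ms_low_le_up {D s : ℝ} (hD : 0 < D) (d : ℕ) (f : ι) (x : Option τ)
    (h0 : 0 ≤ s) (h1 : s ≤ SS D) : ms 𝒯 tri D d false f x s ≤ ms 𝒯 tri D d true f x s :=
  mul_le_mul_of_nonneg_left (hh_low_le_up 𝒯 tri d f x (tt_nonneg hD h0) (tt_le_one hD h1))
    (Real.exp_pos s).le

theorem ms_mono_depth {D s : ℝ} (hD : 0 < D) (d : ℕ) (f : ι) (x : Option τ)
    (h0 : 0 ≤ s) (h1 : s ≤ SS D) :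
    ms 𝒯 tri D d false f x s ≤ ms 𝒯 tri D (d + 1) false f x s ∧
      ms 𝒯 tri D (d + 1) true f x s ≤ ms 𝒯 tri D d true f x s :=
  ⟨mul_le_mul_of_nonneg_left (hh_mono_depth 𝒯 tri d f x (tt_nonneg hD h0) (tt_le_one hD h1)).1
    (Real.exp_pos s).le,
   mul_le_mul_of_nonneg_left (hh_mono_depth 𝒯 tri d f x (tt_nonneg hD h0) (tt_le_one hD h1)).2
    (Real.exp_pos s).le⟩

/-- `ms` grows at most like `e^{s'-s}`. -/
theorem ms_growth {D s s' : ℝ} (hD : 0 < D) (d : ℕ) (c : Bool) (f : ι) (x : Option τ)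
    (h0 : 0 ≤ s) (h : s ≤ s') (h1 : s' ≤ SS D) :
    ms 𝒯 tri D d c f x s' ≤ Real.exp (s' - s) * ms 𝒯 tri D d c f x s := by
  unfold ms
  rw [← mul_assoc, ← Real.exp_add, sub_add_cancel]
  exact mul_le_mul_of_nonneg_left
    (hh_anti 𝒯 tri d c f x (tt_nonneg hD h0) (tt_mono hD h) (tt_le_one hD h1))
    (Real.exp_pos s').le

/-- the recursion in the s-coordinate: change of variables `z ↦ tt D z`, `dt = e^{2z}/D dz`, and
`(tri t').erase f` has exactly two elements, so `Π_g hh = e^{-2z} Π_g ms`. -/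
theorem ms_succ {D : ℝ} (hD : 0 < D) (h3 : ∀ t ∈ 𝒯, (tri t).card = 3) (d : ℕ) (c : Bool) (f : ι)
    (x : Option τ) (s : ℝ) :
    ms 𝒯 tri D (d + 1) c f x s = Real.exp s * ∏ t' ∈ ch 𝒯 tri f x,
      (1 - (1 / D) * ∫ z in (0:ℝ)..s, ∏ g ∈ (tri t').erase f, ms 𝒯 tri D d (!c) g (some t') z) := by
  have e0 : ms 𝒯 tri D (d + 1) c f x s = Real.exp s * ∏ t' ∈ ch 𝒯 tri f x,
      (1 - ∫ z in (0:ℝ)..(tt D s), ∏ g ∈ (tri t').erase f, hh 𝒯 tri d (!c) g (some t') z) := by
    simp only [ms, hh]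
  rw [e0]
  congr 1
  refine Finset.prod_congr rfl (fun t' ht' => ?_)
  congr 1
  have ht := (Finset.mem_filter.1 ht')
  have hcard : ((tri t').erase f).card = 2 := by
    rw [Finset.card_erase_of_mem ht.2.1, h3 t' ht.1]
  have e1 : ∀ z, ∏ g ∈ (tri t').erase f, ms 𝒯 tri D d (!c) g (some t') z =
      Real.exp (2 * z) * ∏ g ∈ (tri t').erase f, hh 𝒯 tri d (!c) g (some t') (tt D z) := by
    intro z
    simp only [ms]
    rw [Finset.prod_mul_distrib, Finset.prod_const, hcard, ← Real.exp_nat_mul]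
    norm_num
  have hder : ∀ z, HasDerivAt (tt D) (Real.exp (2 * z) / D) z := by
    intro z
    have h1 : HasDerivAt (fun z : ℝ => 2 * z) 2 z := by
      simpa using (hasDerivAt_id z).const_mul (2:ℝ)
    have h2 := (h1.exp.sub_const 1).div_const (2 * D)
    have h3 : Real.exp (2 * z) * 2 / (2 * D) = Real.exp (2 * z) / D := by
      field_simp
    rw [h3] at h2
    exact h2
  have hch := intervalIntegral.integral_comp_mul_deriv (a := 0) (b := s) (f := tt D)
    (f' := fun z => Real.exp (2 * z) / D)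
    (g := fun z => ∏ g ∈ (tri t').erase f, hh 𝒯 tri d (!c) g (some t') z)
    (fun z _ => hder z) (by fun_prop) (hh_prod_continuous 𝒯 tri d (!c) f t')
  have htt0 : tt D 0 = 0 := by simp [tt]
  rw [htt0] at hch
  rw [← hch, ← intervalIntegral.integral_const_mul]
  congr 1
  funext z
  rw [e1 z]
  simp only [Function.comp]
  ring

end Crest.Agent.TRem
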