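import Crest.Agent.TRem.B3Defs

/-!
# Row 30, B3b: numerical consequences of `BH`
(`δ = 3L/√D`, `η = 1/log D`.)
-/

namespace Crest.Agent.TRem

open Finset MeasureTheory

variable {ι τ : Type} [DecidableEq ι] [DecidableEq τ] {𝒯 : Finset τ} {tri : τ → Finset ι}
  {A₀ : Finset ι} {D L : ℝ}

theorem BH.L_pos (h : BH 𝒯 tri A₀ D L) : 0 < L := lt_of_lt_of_le (by norm_num) h.L6

private theorem BH.L_one (h : BH 𝒯 tri A₀ D L) : 1 ≤ L := le_trans (by norm_num) h.L6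

theorem BH.D_pos (h : BH 𝒯 tri A₀ D L) : 0 < D :=
  lt_of_lt_of_le (pow_pos h.L_pos 1000) h.hD

theorem BH.D_ge (h : BH 𝒯 tri A₀ D L) : (10:ℝ) ^ 6000 ≤ D := by
  refine le_trans ?_ h.hD
  have h1 : ((10:ℝ) ^ 6) ^ 1000 ≤ L ^ 1000 := pow_le_pow_left₀ (by norm_num) h.L6 1000
  rw [← pow_mul] at h1
  exact h1

private theorem BH.sqrtD (h : BH 𝒯 tri A₀ D L) : L ^ 500 ≤ Real.sqrt D := by
  apply Real.le_sqrt_of_sq_le
  rw [← pow_mul]
  exact h.hD

/-- `δ ≤ L^{-400}`. -/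
theorem BH.delta_le (h : BH 𝒯 tri A₀ D L) : 3 * L / Real.sqrt D ≤ 1 / L ^ 400 := by
  have h0 := h.L_pos
  have h1 := h.L_one
  have h2 := h.sqrtD
  have h3 : 0 < Real.sqrt D := Real.sqrt_pos.2 h.D_pos
  rw [div_le_div_iff₀ h3 (pow_pos h0 400)]
  have h4 : (3:ℝ) ≤ L := le_trans (by norm_num) h.L6
  have h5 : 3 * L * L ^ 400 ≤ L * L * L ^ 400 := by gcongr
  have h6 : L * L * L ^ 400 = L ^ 402 := by
    rw [← pow_two, ← pow_add]
  have h7 : L ^ 402 ≤ L ^ 500 := pow_le_pow_right₀ h1 (by norm_num)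
  linarith

theorem BH.re_le (h : BH 𝒯 tri A₀ D L) {e : ι} (he : e ∈ A₀) : |re 𝒯 tri D e| ≤ 1 / L ^ 400 :=
  le_trans (h.deg e he) h.delta_le

/-- `dg f = D (1 + r_f)`. -/
theorem BH.dg_eq (h : BH 𝒯 tri A₀ D L) (f : ι) : dg 𝒯 tri f = D * (1 + re 𝒯 tri D f) := by
  have h1 := h.D_pos.ne'
  unfold re
  rw [add_sub_cancel, mul_div_assoc', mul_div_cancel_left₀ _ h1]

theorem BH.dg_le (h : BH 𝒯 tri A₀ D L) {e : ι} (he : e ∈ A₀) : dg 𝒯 tri e ≤ D * (1 + 1 / L ^ 400) := by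
  rw [h.dg_eq]
  have h1 := (abs_le.1 (h.re_le he)).2
  exact mul_le_mul_of_nonneg_left (by linarith) h.D_pos.le

private theorem BH.three_le_D (h : BH 𝒯 tri A₀ D L) : 3 ≤ D := by
  have h1 : L ^ 1 ≤ L ^ 1000 := pow_le_pow_right₀ h.L_one (by norm_num)
  rw [pow_one] at h1
  have h4 : (3:ℝ) ≤ L := le_trans (by norm_num) h.L6
  exact le_trans h4 (le_trans h1 h.hD)

theorem BH.one_le_logD (h : BH 𝒯 tri A₀ D L) : 1 ≤ Real.log D := by
  rw [Real.le_log_iff_exp_le h.D_pos]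
  have := Real.exp_one_lt_d9
  have := h.three_le_D
  linarith

private theorem BH.L20_lt (h : BH 𝒯 tri A₀ D L) : L ^ 20 < D := by
  refine lt_of_lt_of_le ?_ h.hD
  apply pow_lt_pow_right₀ _ (by norm_num)
  exact lt_of_lt_of_le (by norm_num) h.L6

theorem BH.s3_pos (h : BH 𝒯 tri A₀ D L) : 0 < s3 D L := by
  unfold s3
  apply div_pos _ two_pos
  apply Real.log_pos
  rw [one_lt_div (pow_pos h.L_pos 20)]
  exact h.L20_lt

/-- `s₃ ≤ (log D)/2 ≤ L/2`. -/
theorem BH.s3_le (h : BH 𝒯 tri A₀ D L) : s3 D L ≤ Real.log D / 2 := by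
  unfold s3
  apply div_le_div_of_nonneg_right _ two_pos.le
  apply Real.log_le_log (div_pos h.D_pos (pow_pos h.L_pos 20))
  exact div_le_self h.D_pos.le (one_le_pow₀ h.L_one)

theorem BH.s3_le_SS (h : BH 𝒯 tri A₀ D L) : s3 D L ≤ SS D := by
  refine le_trans h.s3_le ?_
  unfold SS
  apply div_le_div_of_nonneg_right _ two_pos.le
  apply Real.log_le_log h.D_pos
  linarith [h.D_pos]

/-- `e^{2 s₃} = D/L^20`. -/
theorem BH.exp_s3 (h : BH 𝒯 tri A₀ D L) : Real.exp (2 * s3 D L) = D / L ^ 20 := by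
  unfold s3
  rw [mul_div_cancel₀ _ (two_ne_zero), Real.exp_log (div_pos h.D_pos (pow_pos h.L_pos 20))]

theorem om_nonneg {s : ℝ} (hD : 0 < D) (hL : 0 < L) : 0 ≤ om D L s := by
  unfold om; positivity

/-- `ω(s) ≤ ω(s₃) ≤ 2 (L^8/D) (D/L^20) e = 2e L^{-12}` because `2 s₃/log D ≤ 1`. -/
theorem BH.om_le (h : BH 𝒯 tri A₀ D L) {s : ℝ} (hs : s ≤ s3 D L) : om D L s ≤ 6 / L ^ 12 := by
  have hD := h.D_pos
  have hL := h.L_pos
  have hlog : 0 < Real.log D := lt_of_lt_of_le one_pos h.one_le_logD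
  have h1 : 2 * (1 + 1 / Real.log D) * s ≤ 2 * s3 D L + 1 := by
    have e1 : 2 * (1 + 1 / Real.log D) * s ≤ 2 * (1 + 1 / Real.log D) * s3 D L := by
      apply mul_le_mul_of_nonneg_left hs; positivity
    have e2 : 2 * (1 + 1 / Real.log D) * s3 D L = 2 * s3 D L + 2 * s3 D L / Real.log D := by ring
    have e3 : 2 * s3 D L / Real.log D ≤ 1 := by
      rw [div_le_one hlog]; linarith [h.s3_le]
    linarith
  have h2 : Real.exp (2 * (1 + 1 / Real.log D) * s) ≤ D / L ^ 20 * 3 := by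
    refine le_trans (Real.exp_le_exp.2 h1) ?_
    rw [Real.exp_add, h.exp_s3]
    apply mul_le_mul_of_nonneg_left _ (by positivity)
    have := Real.exp_one_lt_d9
    linarith
  unfold om
  calc 2 * (L ^ 8 / D) * Real.exp (2 * (1 + 1 / Real.log D) * s)
      ≤ 2 * (L ^ 8 / D) * (D / L ^ 20 * 3) := by
        apply mul_le_mul_of_nonneg_left h2; positivity
    _ = 6 / L ^ 12 := by
        field_simp
        norm_num

private theorem int_exp_aux (a b c : ℝ) (hc : c ≠ 0) (s : ℝ) :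
    ∫ z in (0:ℝ)..s, a * Real.exp (b + c * z) =
      (a * Real.exp (b + c * s) - a * Real.exp (b + c * 0)) / c := by
  have h1 : ∀ z ∈ Set.uIcc 0 s, HasDerivAt (fun z => a * Real.exp (b + c * z) / c)
      (a * Real.exp (b + c * z)) z := by
    intro z _
    have h2 : HasDerivAt (fun z : ℝ => b + c * z) (c * 1) z :=
      ((hasDerivAt_id z).const_mul c).const_add b
    have h3 := ((h2.exp).const_mul a).div_const c
    refine h3.congr_deriv ?_
    field_simp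
  rw [intervalIntegral.integral_eq_sub_of_hasDerivAt h1]
  · ring
  · apply Continuous.intervalIntegrable
    fun_prop

/-- `∫_0^s ω = (ω(s) - ω(0))/(2(1+η))`. -/
theorem BH.int_om (h : BH 𝒯 tri A₀ D L) (s : ℝ) :
    ∫ z in (0:ℝ)..s, om D L z = (om D L s - om D L 0) / (2 * (1 + 1 / Real.log D)) := by
  have hlog : 0 < Real.log D := lt_of_lt_of_le one_pos h.one_le_logD
  have hc : 2 * (1 + 1 / Real.log D) ≠ 0 := by positivity
  have := int_exp_aux (2 * (L ^ 8 / D)) 0 (2 * (1 + 1 / Real.log D)) hc s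
  simp only [zero_add] at this
  exact this

/-- `∫_0^s W_d ≤ W_d(s)/20`. -/
theorem int_Wf (d : ℕ) (s : ℝ) : ∫ z in (0:ℝ)..s, Wf d z ≤ Wf d s / 20 := by
  have h1 := int_exp_aux 1 (-(d:ℝ)) 20 (by norm_num) s
  have h2 : ∀ z, Wf d z = 1 * Real.exp (-(d:ℝ) + 20 * z) := by
    intro z; unfold Wf; rw [one_mul]; congr 1; ring
  rw [show (fun z => Wf d z) = fun z => 1 * Real.exp (-(d:ℝ) + 20 * z) from funext h2] at *
  rw [h1, h2 s]
  have h3 : 0 ≤ 1 * Real.exp (-(d:ℝ) + 20 * 0) := by positivity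
  apply div_le_div_of_nonneg_right _ (by norm_num)
  linarith

/-- `∫_0^s W_d² ≤ W_d(s)²/40`. -/
theorem int_Wf_sq (d : ℕ) (s : ℝ) : ∫ z in (0:ℝ)..s, Wf d z ^ 2 ≤ Wf d s ^ 2 / 40 := by
  have h1 := int_exp_aux 1 (-(2 * d:ℝ)) 40 (by norm_num) s
  have h2 : ∀ z, Wf d z ^ 2 = 1 * Real.exp (-(2 * d:ℝ) + 40 * z) := by
    intro z; unfold Wf; rw [one_mul, ← Real.exp_nat_mul]; congr 1; push_cast; ring
  rw [show (fun z => Wf d z ^ 2) = fun z => 1 * Real.exp (-(2 * d:ℝ) + 40 * z) from funext h2] at *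
  rw [h1, h2 s]
  have h3 : 0 ≤ 1 * Real.exp (-(2 * d:ℝ) + 40 * 0) := by positivity
  apply div_le_div_of_nonneg_right _ (by norm_num)
  linarith

theorem Wf_succ (d : ℕ) (s : ℝ) : Wf d s = Real.exp 1 * Wf (d + 1) s := by
  unfold Wf
  rw [← Real.exp_add]
  congr 1
  push_cast
  ring

private theorem exp_new_lower {x : ℝ} :
    Real.exp (-1) * (1 + 20 * x) ≤ Real.exp (-1 + 20 * x) := by
  rw [Real.exp_add]
  apply mul_le_mul_of_nonneg_left _ (Real.exp_pos _).le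
  linarith [Real.add_one_le_exp (20 * x)]

/-- numerical inequality of the upper bound in the new region. -/
theorem num_new_up {x : ℝ} (h0 : 0 ≤ x) (h1 : x ≤ 1 / 20) :
    3 / 100 * Real.exp (-1) + 11 / 10 * x ≤ 1 / 10 * Real.exp (-1 + 20 * x) - 1 / 1000 := by
  have h2 := exp_new_lower (x := x)
  have h3 := Real.exp_neg_one_gt_d9
  have h4 := Real.exp_neg_one_lt_d9
  have h5 : 36 / 100 * x ≤ Real.exp (-1) * x := by
    apply mul_le_mul_of_nonneg_right _ h0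
    linarith
  nlinarith

/-- numerical inequality of the lower bound in the new region (note `-x` on the right: the
explicit factor `e^s` helps). -/
theorem num_new_lo {x : ℝ} (h0 : 0 ≤ x) (h1 : x ≤ 1 / 20) :
    1 / 25 * Real.exp (-1) + 5 / 4 * ((Real.exp (2 * x) - 1) / 2) - x
      ≤ 1 / 10 * Real.exp (-1 + 20 * x) - 1 / 1000 := by
  have h2 := exp_new_lower (x := x)
  have h3 := Real.exp_neg_one_gt_d9
  have h4 := Real.exp_neg_one_lt_d9
  have h5 : 36 / 100 * x ≤ Real.exp (-1) * x := by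
    apply mul_le_mul_of_nonneg_right _ h0
    linarith
  have h6 : |Real.exp (2 * x) - 1 - 2 * x| ≤ (2 * x) ^ 2 := by
    apply Real.abs_exp_sub_one_sub_id_le
    rw [abs_of_nonneg (by linarith)]
    linarith
  have h7 := (abs_le.1 h6).2
  nlinarith

end Crest.Agent.TRem
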