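import Crest.Agent.TRem.B3eDefs

/-!
# Row 30, B3e0: energy algebra and Gronwall (STEP 3)

Chunk R30-B3e0. Pure finite sums.
* `sum_SA`: double counting `Σ_{e∈A₀} v e * SA u e = Σ_{t∈𝒯} Σ_{e∈tri t} Σ_{g∈(tri t).erase e} v e * u g`
  (`tri t ⊆ A₀`).
* `SA_psd`: `Σ_e u_e (A u)_e = Σ_t [(Σ_{e∈t} u_e)² - Σ_{e∈t} u_e²] ≥ - Σ_t Σ_{e∈t} u_e² = - Σ_e y_e u_e² ≥ - Y Σ u_e²`.
* `SA_abs`: `Σ_e |u_e| (A|u|)_e = Σ_t [(Σ_{e∈t} |u_e|)² - Σ_{e∈t} u_e²] ≤ Σ_t 2 Σ_{e∈t} u_e² ≤ 2 Y Σ u_e²`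
  (`(Σ_{e∈t}|u_e|)² ≤ 3 Σ u_e²`, `inner_mul_le_norm_mul_norm`/`sq_sum_le_card_mul_sum_sq`).
* `gronwall_simple`: `v(s) = e^{-Ks} u(s) - C s` has derivative `e^{-Ks}(u' - K u) - C ≤ 0` on `(0,S)`
  (`C ≥ 0`, `e^{-Ks} ≤ 1`), so `v(S) ≤ v(0) = 0` (`antitoneOn_of_deriv_nonpos` on `Icc 0 S`).
-/

namespace Crest.Agent.TRem

open Finset MeasureTheory

variable {ι τ : Type} [DecidableEq ι] [DecidableEq τ]

private theorem swap_aux (𝒯 : Finset τ) (tri : τ → Finset ι) (A₀ : Finset ι) (hA : ∀ t ∈ 𝒯, tri t ⊆ A₀)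
    (F : ι → τ → ℝ) :
    ∑ e ∈ A₀, ∑ t ∈ 𝒯.filter (fun t => e ∈ tri t), F e t = ∑ t ∈ 𝒯, ∑ e ∈ tri t, F e t := by
  have h1 : ∀ e ∈ A₀, ∑ t ∈ 𝒯.filter (fun t => e ∈ tri t), F e t =
      ∑ t ∈ 𝒯, if e ∈ tri t then F e t else 0 := by
    intro e _
    rw [Finset.sum_filter]
  rw [Finset.sum_congr rfl h1, Finset.sum_comm]
  refine Finset.sum_congr rfl (fun t ht => ?_)
  rw [← Finset.sum_filter]
  refine Finset.sum_congr ?_ (fun _ _ => rfl)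
  ext e
  rw [Finset.mem_filter]
  exact ⟨fun h => h.2, fun h => ⟨hA t ht h, h⟩⟩

theorem sum_SA (𝒯 : Finset τ) (tri : τ → Finset ι) (A₀ : Finset ι) (hA : ∀ t ∈ 𝒯, tri t ⊆ A₀)
    (v u : ι → ℝ) :
    ∑ e ∈ A₀, v e * SA 𝒯 tri u e = ∑ t ∈ 𝒯, ∑ e ∈ tri t, ∑ g ∈ (tri t).erase e, v e * u g := by
  rw [← swap_aux 𝒯 tri A₀ hA (fun e t => ∑ g ∈ (tri t).erase e, v e * u g)]
  refine Finset.sum_congr rfl (fun e _ => ?_)
  unfold SA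
  rw [Finset.mul_sum]
  refine Finset.sum_congr rfl (fun t _ => ?_)
  rw [Finset.mul_sum]

private theorem sq_aux (A : Finset ι) (v : ι → ℝ) :
    ∑ e ∈ A, ∑ g ∈ A.erase e, v e * v g = (∑ e ∈ A, v e) ^ 2 - ∑ e ∈ A, v e ^ 2 := by
  have h1 : ∀ e ∈ A, ∑ g ∈ A.erase e, v e * v g = v e * (∑ g ∈ A, v g) - v e ^ 2 := by
    intro e he
    rw [← Finset.mul_sum]
    have := Finset.add_sum_erase A v he
    rw [← this]
    ring
  rw [Finset.sum_congr rfl h1, Finset.sum_sub_distrib, ← Finset.sum_mul, sq]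

private theorem deg_aux (𝒯 : Finset τ) (tri : τ → Finset ι) (A₀ : Finset ι) (hA : ∀ t ∈ 𝒯, tri t ⊆ A₀)
    (Y : ℝ) (hY : ∀ e ∈ A₀, dg 𝒯 tri e ≤ Y) (u : ι → ℝ) :
    ∑ t ∈ 𝒯, ∑ e ∈ tri t, u e ^ 2 ≤ Y * ∑ e ∈ A₀, u e ^ 2 := by
  rw [← swap_aux 𝒯 tri A₀ hA (fun e _ => u e ^ 2), Finset.mul_sum]
  refine Finset.sum_le_sum (fun e he => ?_)
  rw [Finset.sum_const, nsmul_eq_mul]
  exact mul_le_mul_of_nonneg_right (hY e he) (sq_nonneg _)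

theorem SA_psd (𝒯 : Finset τ) (tri : τ → Finset ι) (A₀ : Finset ι) (hA : ∀ t ∈ 𝒯, tri t ⊆ A₀)
    (Y : ℝ) (hY : ∀ e ∈ A₀, dg 𝒯 tri e ≤ Y) (u : ι → ℝ) :
    - (Y * ∑ e ∈ A₀, u e ^ 2) ≤ ∑ e ∈ A₀, u e * SA 𝒯 tri u e := by
  rw [sum_SA 𝒯 tri A₀ hA]
  have h1 := deg_aux 𝒯 tri A₀ hA Y hY u
  have h2 : - (∑ t ∈ 𝒯, ∑ e ∈ tri t, u e ^ 2) ≤
      ∑ t ∈ 𝒯, ∑ e ∈ tri t, ∑ g ∈ (tri t).erase e, u e * u g := by
    rw [← Finset.sum_neg_distrib]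
    refine Finset.sum_le_sum (fun t _ => ?_)
    rw [sq_aux]
    have := sq_nonneg (∑ e ∈ tri t, u e)
    linarith
  linarith

theorem SA_abs (𝒯 : Finset τ) (tri : τ → Finset ι) (A₀ : Finset ι) (hA : ∀ t ∈ 𝒯, tri t ⊆ A₀)
    (h3 : ∀ t ∈ 𝒯, (tri t).card = 3) (Y : ℝ) (hY : ∀ e ∈ A₀, dg 𝒯 tri e ≤ Y) (u : ι → ℝ) :
    ∑ e ∈ A₀, |u e| * SA 𝒯 tri (fun g => |u g|) e ≤ 2 * Y * ∑ e ∈ A₀, u e ^ 2 := by
  rw [sum_SA 𝒯 tri A₀ hA (fun e => |u e|) (fun g => |u g|)]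
  have h1 := deg_aux 𝒯 tri A₀ hA Y hY u
  have h2 : ∑ t ∈ 𝒯, ∑ e ∈ tri t, ∑ g ∈ (tri t).erase e, |u e| * |u g| ≤
      ∑ t ∈ 𝒯, 2 * ∑ e ∈ tri t, u e ^ 2 := by
    refine Finset.sum_le_sum (fun t ht => ?_)
    rw [sq_aux (tri t) (fun e => |u e|)]
    have h4 := sq_sum_le_card_mul_sum_sq (s := tri t) (f := fun e => |u e|)
    simp only [sq_abs] at h4 ⊢
    rw [h3 t ht] at h4
    push_cast at h4
    linarith
  rw [← Finset.mul_sum] at h2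
  linarith

theorem gronwall_simple {u u' : ℝ → ℝ} {K C S : ℝ} (hS : 0 ≤ S) (hK : 0 ≤ K) (hC : 0 ≤ C)
    (hd : ∀ s, 0 ≤ s → s ≤ S → HasDerivAt u (u' s) s)
    (hu : ∀ s, 0 ≤ s → s ≤ S → u' s ≤ K * u s + C) (h0 : u 0 = 0) :
    u S ≤ C * S * Real.exp (K * S) := by
  have hdv : ∀ s, 0 ≤ s → s ≤ S → HasDerivAt (fun s => Real.exp (-K * s) * u s - C * s)
      (Real.exp (-K * s) * (u' s - K * u s) - C) s := by
    intro s hs hs'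
    have h1 : HasDerivAt (fun s => Real.exp (-K * s)) (Real.exp (-K * s) * (-K * 1)) s :=
      ((hasDerivAt_id s).const_mul (-K)).exp
    have h2 := (h1.mul (hd s hs hs')).sub ((hasDerivAt_id s).const_mul C)
    have h3 : Real.exp (-K * s) * (u' s - K * u s) - C =
        Real.exp (-K * s) * (-K * 1) * u s + Real.exp (-K * s) * u' s - C * 1 := by ring
    rw [h3]
    exact h2
  have hanti : AntitoneOn (fun s => Real.exp (-K * s) * u s - C * s) (Set.Icc 0 S) := by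
    refine antitoneOn_of_deriv_nonpos (convex_Icc 0 S) ?_ ?_ ?_
    · intro s hs
      exact (hdv s hs.1 hs.2).continuousAt.continuousWithinAt
    · intro s hs
      rw [interior_Icc] at hs
      exact (hdv s hs.1.le hs.2.le).differentiableAt.differentiableWithinAt
    · intro s hs
      rw [interior_Icc] at hs
      rw [(hdv s hs.1.le hs.2.le).deriv]
      have h1 := hu s hs.1.le hs.2.le
      have h2 : Real.exp (-K * s) ≤ 1 := by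
        rw [Real.exp_le_one_iff]
        have := mul_nonneg hK hs.1.le
        linarith
      have h3 : 0 < Real.exp (-K * s) := Real.exp_pos _
      have h4 : Real.exp (-K * s) * (u' s - K * u s) ≤ Real.exp (-K * s) * C :=
        mul_le_mul_of_nonneg_left (by linarith) h3.le
      have h5 : Real.exp (-K * s) * C ≤ 1 * C := mul_le_mul_of_nonneg_right h2 hC
      linarith
  have h1 := hanti (Set.left_mem_Icc.2 hS) (Set.right_mem_Icc.2 hS) hS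
  simp only [h0, mul_zero, sub_zero] at h1
  have h2 : Real.exp (-K * S) * u S ≤ C * S := by linarith
  have h3 : u S = Real.exp (K * S) * (Real.exp (-K * S) * u S) := by
    rw [← mul_assoc, ← Real.exp_add]
    have : K * S + -K * S = 0 := by ring
    rw [this, Real.exp_zero, one_mul]
  rw [h3, mul_comm (C * S)]
  exact mul_le_mul_of_nonneg_left h2 (Real.exp_pos _).le

end Crest.Agent.TRem
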