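import Crest.Agent.TRem.B3eDefs

/-!
# Row 30, B3e1: comparison of the messages with the root messages (STEP 3)

Chunk R30-B3e1.  `κ = kap L = 7/L^14 ≤ 10^{-80}`, `e^κ ≤ 1.01`, `e^{-κ} ≥ 0.99`; `s₃ ≤ L/2` (`BH.s3_le`, `BH.logD`),
`D ≥ L^1000`; `s₃ ≤ SS D` (`BH.s3_le_SS`).

* `al_bd`: `α_d = ms d false`: `0.99 ≤ α_d ≤ 1.01` for `f ∈ A₀`, `0 ≤ s ≤ s₃` (`E12.lo`, `ms_low_le_up`, `E12.up`).
* `Bm_bd`: `e^{-κ} ≤ α_d ≤ ms (d+1) false ≤ ms (d+1) true = B ≤ ms d true ≤ e^κ` (`ms_mono_depth`, `ms_low_le_up`),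
  hence `|ε| ≤ κ`, `0.99 ≤ B ≤ 1.01`.
* `Xm_bd`: `0 ≤ X_{e,t}(s) ≤ (1/D) 1.01² s ≤ L/D ≤ 1/100` (`intervalIntegral` monotone/bounded; the product has
  exactly two factors in `[0, 1.01]`; the elements of `tri t` are in `A₀`).
* `al_near`: `g ∈ A₀`, `t ∈ 𝒯`, `g ∈ tri t`: `|α_d(g,t;s) - B_g(s)| ≤ 2L/D`: by `ms_succ` and
  `ch g none = insert t (ch g (some t))`: `B_g = P (1 - X_{g,t})`, `P = ms (d+1) true g (some t) s ≤ ms d true ≤ 1.01`,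
  so `0 ≤ P - B_g = P X ≤ 1.01 · 1.03 · (s/D) ≤ 2L/D`, and `α_d ≤ ms (d+1) false ≤ P ≤ ms d true ≤ α_d + 2/D^20`,
  so `0 ≤ P - α_d ≤ 2/D^20 ≤ L/D`.
-/

namespace Crest.Agent.TRem

open Finset MeasureTheory

variable {ι τ : Type} [DecidableEq ι] [DecidableEq τ] {𝒯 : Finset τ} {tri : τ → Finset ι}
  {A₀ : Finset ι} {D L : ℝ} {d : ℕ}

theorem BH.kap_pos (h : BH 𝒯 tri A₀ D L) : 0 < kap L :=
  div_pos (by norm_num) (pow_pos h.L_pos 12)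

theorem BH.kap_le (h : BH 𝒯 tri A₀ D L) : kap L ≤ 1 / 10 ^ 6 := by
  unfold kap
  rw [div_le_div_iff₀ (pow_pos h.L_pos 12) (by norm_num)]
  have h1 : ((10:ℝ) ^ 6) ^ 12 ≤ L ^ 12 := pow_le_pow_left₀ (by norm_num) h.L6 12
  have h2 : (7:ℝ) * 10 ^ 6 ≤ ((10:ℝ) ^ 6) ^ 12 := by norm_num
  linarith

theorem BH.s3_le_L (h : BH 𝒯 tri A₀ D L) : s3 D L ≤ L / 2 := by
  have h1 := h.s3_le
  have h2 := h.logD
  linarith

private theorem BH.exp_kap (h : BH 𝒯 tri A₀ D L) :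
    99 / 100 ≤ Real.exp (- kap L) ∧ Real.exp (kap L) ≤ 101 / 100 := by
  have h1 := h.kap_pos
  have h2 := h.kap_le
  constructor
  · have := Real.add_one_le_exp (- kap L)
    have h3 : (1:ℝ) / 10 ^ 6 ≤ 1 / 100 := by norm_num
    linarith
  · have h3 : |kap L| ≤ 1 := by
      rw [abs_of_pos h1]
      exact h2.trans (by norm_num)
    have h4 := (abs_le.mp (Real.abs_exp_sub_one_le h3)).2
    rw [abs_of_pos h1] at h4
    have h5 : (2:ℝ) * (1 / 10 ^ 6) ≤ 1 / 100 := by norm_num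
    linarith

theorem al_bd (h : BH 𝒯 tri A₀ D L) (hE : E12 𝒯 tri A₀ D L d) {f : ι} (hf : f ∈ A₀)
    (x : Option τ) {s : ℝ} (h0 : 0 ≤ s) (h1 : s ≤ s3 D L) :
    99 / 100 ≤ ms 𝒯 tri D d false f x s ∧ ms 𝒯 tri D d false f x s ≤ 101 / 100 := by
  refine ⟨le_trans h.exp_kap.1 (hE.lo f hf x s h0 h1), ?_⟩
  exact le_trans (ms_low_le_up 𝒯 tri h.D_pos d f x h0 (h1.trans h.s3_le_SS))
    (le_trans (hE.up f hf x s h0 h1) h.exp_kap.2)

private theorem Bm_exp (h : BH 𝒯 tri A₀ D L) (hE : E12 𝒯 tri A₀ D L d) {f : ι} (hf : f ∈ A₀)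
    {s : ℝ} (h0 : 0 ≤ s) (h1 : s ≤ s3 D L) :
    Real.exp (- kap L) ≤ Bm 𝒯 tri D d f s ∧ Bm 𝒯 tri D d f s ≤ Real.exp (kap L) := by
  have hs := h1.trans h.s3_le_SS
  unfold Bm
  constructor
  · exact (hE.lo f hf none s h0 h1).trans
      ((ms_mono_depth 𝒯 tri h.D_pos d f none h0 hs).1.trans
        (ms_low_le_up 𝒯 tri h.D_pos (d + 1) f none h0 hs))
  · exact (ms_mono_depth 𝒯 tri h.D_pos d f none h0 hs).2.trans (hE.up f hf none s h0 h1)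

theorem Bm_bd (h : BH 𝒯 tri A₀ D L) (hE : E12 𝒯 tri A₀ D L d) {f : ι} (hf : f ∈ A₀)
    {s : ℝ} (h0 : 0 ≤ s) (h1 : s ≤ s3 D L) :
    99 / 100 ≤ Bm 𝒯 tri D d f s ∧ Bm 𝒯 tri D d f s ≤ 101 / 100 :=
  ⟨h.exp_kap.1.trans (Bm_exp h hE hf h0 h1).1, (Bm_exp h hE hf h0 h1).2.trans h.exp_kap.2⟩

theorem eps_bd (h : BH 𝒯 tri A₀ D L) (hE : E12 𝒯 tri A₀ D L d) {f : ι} (hf : f ∈ A₀)
    {s : ℝ} (h0 : 0 ≤ s) (h1 : s ≤ s3 D L) : |eps 𝒯 tri D d f s| ≤ kap L := by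
  obtain ⟨h2, h3⟩ := Bm_exp h hE hf h0 h1
  have hpos : 0 < Bm 𝒯 tri D d f s := lt_of_lt_of_le (Real.exp_pos _) h2
  unfold eps
  rw [abs_neg, abs_le]
  exact ⟨(Real.le_log_iff_exp_le hpos).mpr h2, (Real.log_le_iff_le_exp hpos).mpr h3⟩

private theorem prod_bd (h : BH 𝒯 tri A₀ D L) (hE : E12 𝒯 tri A₀ D L d) {e : ι} {t : τ}
    (ht : t ∈ 𝒯) (he : e ∈ tri t) {s : ℝ} (h0 : 0 ≤ s) (h1 : s ≤ s3 D L) :
    0 ≤ ∏ g ∈ (tri t).erase e, ms 𝒯 tri D d false g (some t) s ∧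
      ∏ g ∈ (tri t).erase e, ms 𝒯 tri D d false g (some t) s ≤ (101 / 100) ^ 2 := by
  have hmem : ∀ g ∈ (tri t).erase e, g ∈ A₀ := fun g hg => h.hA t ht (Finset.mem_of_mem_erase hg)
  have hnn : ∀ g ∈ (tri t).erase e, 0 ≤ ms 𝒯 tri D d false g (some t) s := fun g hg =>
    le_trans (by norm_num) (al_bd h hE (hmem g hg) (some t) h0 h1).1
  refine ⟨Finset.prod_nonneg hnn, ?_⟩
  have hcard : ((tri t).erase e).card = 2 := by
    rw [Finset.card_erase_of_mem he, h.h3 t ht]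
  calc ∏ g ∈ (tri t).erase e, ms 𝒯 tri D d false g (some t) s
      ≤ ∏ g ∈ (tri t).erase e, (101 / 100 : ℝ) :=
        Finset.prod_le_prod hnn (fun g hg => (al_bd h hE (hmem g hg) (some t) h0 h1).2)
    _ = (101 / 100) ^ 2 := by rw [Finset.prod_const, hcard]

theorem Xm_bd (h : BH 𝒯 tri A₀ D L) (hE : E12 𝒯 tri A₀ D L d) {e : ι} {t : τ} (ht : t ∈ 𝒯)
    (he : e ∈ tri t) {s : ℝ} (h0 : 0 ≤ s) (h1 : s ≤ s3 D L) :
    0 ≤ Xm 𝒯 tri D d e t s ∧ Xm 𝒯 tri D d e t s ≤ L / D := by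
  have hD := h.D_pos
  have hI : 0 ≤ ∫ z in (0:ℝ)..s, ∏ g ∈ (tri t).erase e, ms 𝒯 tri D d false g (some t) z := by
    apply intervalIntegral.integral_nonneg h0
    intro z hz
    exact (prod_bd h hE ht he hz.1 (hz.2.trans h1)).1
  have hI2 : ∫ z in (0:ℝ)..s, ∏ g ∈ (tri t).erase e, ms 𝒯 tri D d false g (some t) z ≤ L := by
    have h2 : ‖∫ z in (0:ℝ)..s, ∏ g ∈ (tri t).erase e, ms 𝒯 tri D d false g (some t) z‖ ≤
        (101 / 100) ^ 2 * |s - 0| := by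
      apply intervalIntegral.norm_integral_le_of_norm_le_const
      intro z hz
      rw [Set.uIoc_of_le h0] at hz
      have h3 := prod_bd h hE ht he hz.1.le (hz.2.trans h1)
      rw [Real.norm_eq_abs, abs_of_nonneg h3.1]
      exact h3.2
    rw [Real.norm_eq_abs, abs_of_nonneg hI, sub_zero, abs_of_nonneg h0] at h2
    have h3 := h.s3_le_L
    have h4 := h.L_pos
    have h5 : (101 / 100 : ℝ) ^ 2 * s ≤ (101 / 100 : ℝ) ^ 2 * (L / 2) :=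
      mul_le_mul_of_nonneg_left (h1.trans h3) (by norm_num)
    have h6 : (101 / 100 : ℝ) ^ 2 * (L / 2) ≤ L := by nlinarith
    linarith
  unfold Xm
  constructor
  · positivity
  · rw [div_mul_eq_mul_div, one_mul]
    exact div_le_div_of_nonneg_right hI2 hD.le

private theorem BH.hundred (h : BH 𝒯 tri A₀ D L) : 100 * L ≤ D := by
  have h1 := h.L_pos
  have h2 := h.L6
  have h3 : (1:ℝ) ≤ L := le_trans (by norm_num) h2
  have h4 : L ^ 2 ≤ L ^ 1000 := pow_le_pow_right₀ h3 (by norm_num)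
  have h5 : 100 * L ≤ L ^ 2 := by
    have h6 : (100:ℝ) ≤ L := le_trans (by norm_num) h2
    nlinarith
  exact h5.trans (h4.trans h.hD)

theorem L_div_D (h : BH 𝒯 tri A₀ D L) : L / D ≤ 1 / 100 := by
  rw [div_le_div_iff₀ h.D_pos (by norm_num)]
  have := h.hundred
  linarith

theorem al_near (h : BH 𝒯 tri A₀ D L) (hE : E12 𝒯 tri A₀ D L d) {g : ι} {t : τ} (ht : t ∈ 𝒯)
    (hg : g ∈ tri t) {s : ℝ} (h0 : 0 ≤ s) (h1 : s ≤ s3 D L) :
    |ms 𝒯 tri D d false g (some t) s - Bm 𝒯 tri D d g s| ≤ 2 * L / D := by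
  have hD := h.D_pos
  have hs := h1.trans h.s3_le_SS
  have hgA : g ∈ A₀ := h.hA t ht hg
  have hch : ch 𝒯 tri g none = insert t (ch 𝒯 tri g (some t)) := by
    ext t'
    simp only [ch, Finset.mem_filter, Finset.mem_insert]
    constructor
    · rintro ⟨a, b, c⟩
      by_cases h' : t' = t
      · exact Or.inl h'
      · exact Or.inr ⟨a, b, fun h'' => h' (Option.some.inj h'')⟩
    · rintro (rfl | ⟨a, b, c⟩)
      · exact ⟨ht, hg, by simp⟩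
      · exact ⟨a, b, by simp⟩
  have hnot : t ∉ ch 𝒯 tri g (some t) := by
    simp [ch]
  have hB : Bm 𝒯 tri D d g s =
      ms 𝒯 tri D (d + 1) true g (some t) s * (1 - Xm 𝒯 tri D d g t s) := by
    unfold Bm
    rw [ms_succ 𝒯 tri hD h.h3, ms_succ 𝒯 tri hD h.h3, hch, Finset.prod_insert hnot]
    unfold Xm
    simp only [Bool.not_true]
    ring
  obtain ⟨hX0, hX1⟩ := Xm_bd h hE ht hg h0 h1
  have hP1 := (ms_mono_depth 𝒯 tri hD d g (some t) h0 hs).2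
  have hP2 : ms 𝒯 tri D d false g (some t) s ≤ ms 𝒯 tri D (d + 1) true g (some t) s :=
    (ms_mono_depth 𝒯 tri hD d g (some t) h0 hs).1.trans
      (ms_low_le_up 𝒯 tri hD (d + 1) g (some t) h0 hs)
  have hP3 := (hE.up g hgA (some t) s h0 h1).trans h.exp_kap.2
  have hgap := hE.gap g hgA (some t) s h0 h1
  have hP0 : 0 ≤ ms 𝒯 tri D (d + 1) true g (some t) s := ms_nonneg 𝒯 tri hD (d + 1) true g _ h0 hs
  have hD20 : 2 / D ^ 20 ≤ L / D := by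
    rw [div_le_div_iff₀ (by positivity) hD]
    have h2 : (2:ℝ) ≤ L := le_trans (by norm_num) h.L6
    have h3 : 1 ≤ D := by
      have := h.hundred
      linarith
    have h4 : D ≤ D ^ 20 := le_self_pow₀ h3 (by norm_num)
    nlinarith [h.L_pos]
  have e : 2 * L / D = 2 * (L / D) := by ring
  rw [e, hB, abs_le]
  generalize ms 𝒯 tri D (d + 1) true g (some t) s = P at *
  generalize Xm 𝒯 tri D d g t s = X at *
  generalize ms 𝒯 tri D d false g (some t) s = a at *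
  generalize ms 𝒯 tri D d true g (some t) s = b at *
  generalize L / D = q at *
  have h5 : 0 ≤ P * X := mul_nonneg hP0 hX0
  have h6 : P * X ≤ 101 / 100 * q := mul_le_mul (hP1.trans hP3) hX1 hX0 (by norm_num)
  constructor <;> nlinarith

end Crest.Agent.TRem
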