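import Crest.Agent.TRem.B3e1

/-!
# Row 30, B3e2: the derivative of `ε` (STEP 3)

Chunk R30-B3e2.
`Bm_eq`: `ms_succ` with `c = true`, `x = none`, `ch e none = 𝒯.filter (e ∈ tri t)`:
`B_e(s) = e^s Π_{t∋e} (1 - X_{e,t}(s))`.
`hasDerivAt_Xm`: fundamental theorem of calculus; the integrand is continuous (`ms_continuous`, finite product).
`hasDerivAt_eps`: on `[0,s₃]`, `1 - X ≥ 0.99 > 0` (`Xm_bd`, `L_div_D`); near `s` (continuity of `X`) still `1 - X > 0`, so
`ε_e = -s - Σ_{t∋e} log (1 - X_{e,t})` in a neighbourhood (`Real.log_mul`, `Real.log_prod`), derivative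
`-1 + Σ (1/D) Π α /(1 - X) = deps`. (`HasDerivAt.log`; alternatively `HasDerivAt` of the product and of `log`.)
`eps_zero`: `B_e(0) = 1`.
-/

namespace Crest.Agent.TRem

open Finset MeasureTheory

variable {ι τ : Type} [DecidableEq ι] [DecidableEq τ] {𝒯 : Finset τ} {tri : τ → Finset ι}
  {A₀ : Finset ι} {D L : ℝ} {d : ℕ}

theorem Bm_eq (h : BH 𝒯 tri A₀ D L) (d : ℕ) (e : ι) (s : ℝ) :
    Bm 𝒯 tri D d e s = Real.exp s * ∏ t ∈ 𝒯.filter (fun t => e ∈ tri t),
      (1 - Xm 𝒯 tri D d e t s) := by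
  unfold Bm Xm
  rw [ms_succ 𝒯 tri h.D_pos h.h3]
  have hch : ch 𝒯 tri e none = 𝒯.filter (fun t => e ∈ tri t) := by
    unfold ch
    refine Finset.filter_congr fun t _ => ?_
    simp
  rw [hch]
  rfl

theorem hasDerivAt_Xm (h : BH 𝒯 tri A₀ D L) (d : ℕ) (e : ι) (t : τ) (s : ℝ) :
    HasDerivAt (Xm 𝒯 tri D d e t)
      ((1 / D) * ∏ g ∈ (tri t).erase e, ms 𝒯 tri D d false g (some t) s) s := by
  have hc : Continuous (fun z => ∏ g ∈ (tri t).erase e, ms 𝒯 tri D d false g (some t) z) :=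
    continuous_finsetProd _ fun g _ => ms_continuous 𝒯 tri h.D_pos d false g (some t)
  exact ((hc.integral_hasStrictDerivAt 0 s).hasDerivAt).const_mul (1 / D)

theorem hasDerivAt_eps (h : BH 𝒯 tri A₀ D L) (hE : E12 𝒯 tri A₀ D L d) {e : ι} (he : e ∈ A₀)
    {s : ℝ} (h0 : 0 ≤ s) (h1 : s ≤ s3 D L) :
    HasDerivAt (eps 𝒯 tri D d e) (deps 𝒯 tri D d e s) s := by
  have hpos : ∀ t ∈ 𝒯.filter (fun t => e ∈ tri t), 0 < 1 - Xm 𝒯 tri D d e t s := by
    intro t ht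
    rw [Finset.mem_filter] at ht
    have h2 := (Xm_bd h hE ht.1 ht.2 h0 h1).2
    have h3 := L_div_D h
    linarith
  have hev : ∀ᶠ u in nhds s, ∀ t ∈ 𝒯.filter (fun t => e ∈ tri t), 0 < 1 - Xm 𝒯 tri D d e t u := by
    rw [Filter.eventually_all_finset]
    intro t ht
    have hc : ContinuousAt (fun u => 1 - Xm 𝒯 tri D d e t u) s :=
      continuousAt_const.sub (hasDerivAt_Xm h d e t s).continuousAt
    exact hc.eventually (lt_mem_nhds (hpos t ht))
  have heq : eps 𝒯 tri D d e =ᶠ[nhds s] fun u =>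
      -u - ∑ t ∈ 𝒯.filter (fun t => e ∈ tri t), Real.log (1 - Xm 𝒯 tri D d e t u) := by
    filter_upwards [hev] with u hu
    unfold eps
    rw [Bm_eq h, Real.log_mul (Real.exp_pos u).ne' (Finset.prod_pos hu).ne', Real.log_exp,
      Real.log_prod fun t ht => (hu t ht).ne']
    ring
  refine HasDerivAt.congr_of_eventuallyEq ?_ heq
  have hs : HasDerivAt (fun u => ∑ t ∈ 𝒯.filter (fun t => e ∈ tri t),
      Real.log (1 - Xm 𝒯 tri D d e t u))
      (∑ t ∈ 𝒯.filter (fun t => e ∈ tri t),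
        (-((1 / D) * ∏ g ∈ (tri t).erase e, ms 𝒯 tri D d false g (some t) s)) /
          (1 - Xm 𝒯 tri D d e t s)) s := by
    refine HasDerivAt.fun_sum fun t ht => ?_
    exact ((hasDerivAt_Xm h d e t s).const_sub 1).log (hpos t ht).ne'
  have hfin := ((hasDerivAt_id s).neg).sub hs
  refine hfin.congr_deriv ?_
  unfold deps
  rw [sub_eq_add_neg, ← Finset.sum_neg_distrib]
  congr 1
  refine Finset.sum_congr rfl fun t _ => ?_
  rw [neg_div, neg_neg]

theorem eps_zero (h : BH 𝒯 tri A₀ D L) (d : ℕ) (e : ι) : eps 𝒯 tri D d e 0 = 0 := by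
  unfold eps
  rw [Bm_eq h]
  have : ∏ t ∈ 𝒯.filter (fun t => e ∈ tri t), (1 - Xm 𝒯 tri D d e t 0) = 1 := by
    refine Finset.prod_eq_one fun t _ => ?_
    unfold Xm
    simp
  rw [this]
  simp

end Crest.Agent.TRem
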