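import Crest.Agent.TRem.B3e1

/-!
# Row 30, B3e3: the pointwise drift estimate (STEP 3)

Chunk R30-B3e3.
(1) `drift_tri`: `t ∈ 𝒯`, `e ∈ tri t`, `(tri t).erase e = {g, h}`; put `P = α_g α_h`, `α_g = ms d false g (some t) s`, ….
 `|α_g α_h - B_g B_h| ≤ 1.01 (|α_g - B_g| + |α_h - B_h|) ≤ 5 L/D`; `|P/(1-X) - P| = P X/(1-X) ≤ 1.1 L/D`;
 `B_g B_h = e^{-(ε_g+ε_h)}` (`Real.exp_log`, `B > 0`), `|e^{-w} - 1 + w| ≤ w²` for `|w| ≤ 1`
 (`Real.abs_exp_sub_one_sub_id_le`). Hence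
 `|Π α/(1-X) - 1 + Σ_{g∈t\e} ε_g| ≤ 7 L/D + (Σ_{g∈t\e} ε_g)²`.
(2) `eps_sq`: `ε² ≤ 2 κ |η| + (9/4) L^4/D`: `ε = η + s r`, `|s r| ≤ (L/2) δ`, `(s r)² ≤ (L/2)² 9L²/D = (9/4) L^4/D`,
 `|s r| ≤ κ` (`BH.re_le`: `|r| ≤ 1/L^400`); `ε² ≤ |ε||η| + |ε||s r| ≤ κ|η| + (|η| + |s r|)|s r| ≤ 2κ|η| + (s r)²`.
(3) `drift`: sum (1) over `t ∋ e` times `1/D`; `Σ_{t∋e} 1/D - 1 = r_e` (`re`, `dg`), `y_e/D ≤ 1.01` (`BH.dg_le`),
 `(Σ_{g∈t\e} ε_g)² ≤ 2 Σ_g ε_g² ≤ Σ_g (4κ|η_g| + (9/2) L^4/D)`, `SA ε = SA η + s SA r` and `|SA r| ≤ L^5` (`BH.cor`),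
 `s ≤ L/2`:
 `|deps_e - r_e + (1/D) SA η e| ≤ 1.01·7 L/D + 1.01·2·(9/2) L^4/D + (L/2) L^5/D + 4κ (1/D) SA |η| e
   ≤ L^6/D + 4κ (1/D) SA |η| e`.
-/

namespace Crest.Agent.TRem

open Finset MeasureTheory

variable {ι τ : Type} [DecidableEq ι] [DecidableEq τ] {𝒯 : Finset τ} {tri : τ → Finset ι}
  {A₀ : Finset ι} {D L : ℝ} {d : ℕ}

theorem drift_tri (h : BH 𝒯 tri A₀ D L) (hE : E12 𝒯 tri A₀ D L d) {e : ι} {t : τ} (ht : t ∈ 𝒯)
    (he : e ∈ tri t) {s : ℝ} (h0 : 0 ≤ s) (h1 : s ≤ s3 D L) :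
    |(∏ g ∈ (tri t).erase e, ms 𝒯 tri D d false g (some t) s) / (1 - Xm 𝒯 tri D d e t s) - 1
        + ∑ g ∈ (tri t).erase e, eps 𝒯 tri D d g s| ≤
      7 * L / D + (∑ g ∈ (tri t).erase e, eps 𝒯 tri D d g s) ^ 2 := by
  have hcard : ((tri t).erase e).card = 2 := by
    rw [Finset.card_erase_of_mem he, h.h3 t ht]
  obtain ⟨g, k, hgk, hgkeq⟩ := Finset.card_eq_two.1 hcard
  have hg : g ∈ tri t := Finset.mem_of_mem_erase (by rw [hgkeq]; simp : g ∈ (tri t).erase e)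
  have hk : k ∈ tri t := Finset.mem_of_mem_erase (by rw [hgkeq]; simp : k ∈ (tri t).erase e)
  have hgA := h.hA t ht hg
  have hkA := h.hA t ht hk
  rw [hgkeq, Finset.prod_pair hgk, Finset.sum_pair hgk]
  have a1 := al_bd h hE hgA (some t) h0 h1
  have a2 := al_bd h hE hkA (some t) h0 h1
  have b1 := Bm_bd h hE hgA h0 h1
  have b2 := Bm_bd h hE hkA h0 h1
  have n1 := al_near h hE ht hg h0 h1
  have n2 := al_near h hE ht hk h0 h1
  have e1 := eps_bd h hE hgA h0 h1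
  have e2 := eps_bd h hE hkA h0 h1
  have hX := Xm_bd h hE ht he h0 h1
  have hLD := L_div_D h
  have hk6 := h.kap_le
  set αg := ms 𝒯 tri D d false g (some t) s with hαg
  set αk := ms 𝒯 tri D d false k (some t) s with hαk
  set X := Xm 𝒯 tri D d e t s with hXdef
  set q := L / D with hq
  have hq7 : 7 * L / D = 7 * q := by rw [hq]; ring
  have hq2 : 2 * L / D = 2 * q := by rw [hq]; ring
  rw [hq2] at n1 n2
  have hBg : Real.exp (- eps 𝒯 tri D d g s) = Bm 𝒯 tri D d g s := by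
    unfold eps; rw [neg_neg, Real.exp_log (by linarith [b1.1])]
  have hBk : Real.exp (- eps 𝒯 tri D d k s) = Bm 𝒯 tri D d k s := by
    unfold eps; rw [neg_neg, Real.exp_log (by linarith [b2.1])]
  set Bg := Bm 𝒯 tri D d g s with hBgdef
  set Bk := Bm 𝒯 tri D d k s with hBkdef
  set w := eps 𝒯 tri D d g s + eps 𝒯 tri D d k s with hw
  have hwabs : |w| ≤ 1 := by
    refine (abs_add_le _ _).trans ?_
    linarith
  have hexp : Real.exp (-w) = Bg * Bk := by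
    rw [← hBg, ← hBk, ← Real.exp_add, hw]
    congr 1; ring
  have hE2 : |Real.exp (-w) - 1 - (-w)| ≤ (-w) ^ 2 :=
    Real.abs_exp_sub_one_sub_id_le (by rwa [abs_neg])
  rw [hexp] at hE2
  have hq0 : 0 ≤ q := hX.1.trans hX.2
  -- first difference
  have d1 : |αg * αk - Bg * Bk| ≤ 5 * q := by
    have : αg * αk - Bg * Bk = αg * (αk - Bk) + (αg - Bg) * Bk := by ring
    rw [this]
    refine (abs_add_le _ _).trans ?_
    rw [abs_mul, abs_mul, abs_of_nonneg (by linarith [a1.1] : 0 ≤ αg),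
      abs_of_nonneg (by linarith [b2.1] : 0 ≤ Bk)]
    have i1 : αg * |αk - Bk| ≤ 101 / 100 * (2 * q) :=
      mul_le_mul a1.2 n2 (abs_nonneg _) (by norm_num)
    have i2 : |αg - Bg| * Bk ≤ (2 * q) * (101 / 100) :=
      mul_le_mul n1 b2.2 (by linarith [b2.1]) (by positivity)
    linarith
  have hX1 : 99 / 100 ≤ 1 - X := by linarith [hX.2]
  have hX1' : 0 < 1 - X := by linarith
  have d2 : |αg * αk / (1 - X) - αg * αk| ≤ 2 * q := by
    have h2 : αg * αk / (1 - X) - αg * αk = αg * αk * X / (1 - X) := by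
      field_simp; ring
    rw [h2]
    have h3 : 0 ≤ αg * αk := mul_nonneg (by linarith [a1.1]) (by linarith [a2.1])
    rw [abs_of_nonneg (div_nonneg (mul_nonneg h3 hX.1) hX1'.le), div_le_iff₀ hX1']
    have h4 : αg * αk ≤ 101 / 100 * (101 / 100) :=
      mul_le_mul a1.2 a2.2 (by linarith [a2.1]) (by norm_num)
    calc αg * αk * X ≤ (101 / 100 * (101 / 100)) * q := mul_le_mul h4 hX.2 hX.1 (by norm_num)
      _ ≤ 2 * q * (99 / 100) := by nlinarith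
      _ ≤ 2 * q * (1 - X) := mul_le_mul_of_nonneg_left hX1 (by positivity)
  rw [hq7]
  have hsplit : αg * αk / (1 - X) - 1 + w
      = (αg * αk / (1 - X) - αg * αk) + (αg * αk - Bg * Bk) + (Bg * Bk - 1 - (-w)) := by ring
  rw [hsplit]
  refine (abs_add_le _ _).trans ?_
  have := abs_add_le (αg * αk / (1 - X) - αg * αk) (αg * αk - Bg * Bk)
  have h5 : (-w) ^ 2 = w ^ 2 := by ring
  rw [h5] at hE2
  linarith

private theorem b3e3_L (h : BH 𝒯 tri A₀ D L) : 1 ≤ L :=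
  le_trans (by norm_num) h.L6

private theorem b3e3_sre (h : BH 𝒯 tri A₀ D L) {f : ι} (hf : f ∈ A₀)
    {s : ℝ} (h0 : 0 ≤ s) (h1 : s ≤ s3 D L) :
    |s * re 𝒯 tri D f| ≤ kap L ∧ |s * re 𝒯 tri D f| ^ 2 ≤ 9 / 4 * L ^ 4 / D := by
  have hL := h.L_pos
  have hL1 := b3e3_L h
  have hD := h.D_pos
  have hs : s ≤ L / 2 := h1.trans h.s3_le_L
  constructor
  · rw [abs_mul, abs_of_nonneg h0]
    have h2 : s * |re 𝒯 tri D f| ≤ (L / 2) * (1 / L ^ 400) :=
      mul_le_mul hs (h.re_le hf) (abs_nonneg _) (by positivity)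
    refine h2.trans ?_
    unfold kap
    have h3 : L ^ 13 ≤ L ^ 400 := pow_le_pow_right₀ hL1 (by norm_num)
    rw [mul_one_div, div_le_div_iff₀ (by positivity) (by positivity)]
    have h4 : L / 2 * L ^ 12 = L ^ 13 / 2 := by ring
    rw [h4]
    have : 0 ≤ L ^ 400 := by positivity
    linarith
  · rw [abs_mul, abs_of_nonneg h0, mul_pow]
    have h2 : |re 𝒯 tri D f| ^ 2 ≤ (3 * L / Real.sqrt D) ^ 2 :=
      pow_le_pow_left₀ (abs_nonneg _) (h.deg f hf) 2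
    have h3 : (3 * L / Real.sqrt D) ^ 2 = 9 * L ^ 2 / D := by
      rw [div_pow, Real.sq_sqrt hD.le]; ring
    rw [h3] at h2
    have h4 : s ^ 2 ≤ (L / 2) ^ 2 := pow_le_pow_left₀ h0 hs 2
    calc s ^ 2 * |re 𝒯 tri D f| ^ 2 ≤ (L / 2) ^ 2 * (9 * L ^ 2 / D) :=
          mul_le_mul h4 h2 (by positivity) (by positivity)
      _ = 9 / 4 * L ^ 4 / D := by ring

theorem eps_sq (h : BH 𝒯 tri A₀ D L) (hE : E12 𝒯 tri A₀ D L d) {f : ι} (hf : f ∈ A₀)
    {s : ℝ} (h0 : 0 ≤ s) (h1 : s ≤ s3 D L) :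
    eps 𝒯 tri D d f s ^ 2 ≤ 2 * kap L * |eta 𝒯 tri D d f s| + 9 / 4 * L ^ 4 / D := by
  obtain ⟨hb, hb2⟩ := b3e3_sre h hf h0 h1
  have he := eps_bd h hE hf h0 h1
  have hsplit : eps 𝒯 tri D d f s = eta 𝒯 tri D d f s + s * re 𝒯 tri D f := by
    unfold eta; ring
  have htri : |eps 𝒯 tri D d f s| ≤ |eta 𝒯 tri D d f s| + |s * re 𝒯 tri D f| := by
    rw [hsplit]; exact abs_add_le _ _
  rw [← sq_abs (eps 𝒯 tri D d f s)]
  set E := |eps 𝒯 tri D d f s| with hEdef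
  set a := |eta 𝒯 tri D d f s| with ha
  set b := |s * re 𝒯 tri D f| with hbdef
  have hE0 : 0 ≤ E := abs_nonneg _
  have ha0 : 0 ≤ a := abs_nonneg _
  have hb0 : 0 ≤ b := abs_nonneg _
  have i1 : E * E ≤ E * (a + b) := mul_le_mul_of_nonneg_left htri hE0
  have i2 : E * a ≤ kap L * a := mul_le_mul_of_nonneg_right he ha0
  have i3 : E * b ≤ (a + b) * b := mul_le_mul_of_nonneg_right htri hb0
  have i4 : a * b ≤ a * kap L := mul_le_mul_of_nonneg_left hb ha0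
  nlinarith

theorem drift (h : BH 𝒯 tri A₀ D L) (hE : E12 𝒯 tri A₀ D L d) {e : ι} (he : e ∈ A₀)
    {s : ℝ} (h0 : 0 ≤ s) (h1 : s ≤ s3 D L) :
    |deps 𝒯 tri D d e s - re 𝒯 tri D e + (1 / D) * SA 𝒯 tri (fun g => eta 𝒯 tri D d g s) e| ≤
      L ^ 6 / D + 4 * kap L * ((1 / D) * SA 𝒯 tri (fun g => |eta 𝒯 tri D d g s|) e) := by
  have hL := h.L_pos
  have hL1 := b3e3_L h
  have hD := h.D_pos
  set F := 𝒯.filter (fun t => e ∈ tri t) with hF
  have hcardF : (F.card : ℝ) = dg 𝒯 tri e := rfl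
  have hdg : (F.card : ℝ) ≤ D * (101 / 100) := by
    rw [hcardF]
    refine (h.dg_le he).trans ?_
    apply mul_le_mul_of_nonneg_left _ hD.le
    have h2 : (100:ℝ) ≤ L ^ 400 := by
      calc (100:ℝ) ≤ L := le_trans (by norm_num) h.L6
        _ = L ^ 1 := (pow_one _).symm
        _ ≤ L ^ 400 := pow_le_pow_right₀ hL1 (by norm_num)
    have h3 : 1 / L ^ 400 ≤ 1 / 100 := one_div_le_one_div_of_le (by norm_num) h2
    linarith
  -- per-triangle quantities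
  set G : τ → ℝ := fun t => (∏ g ∈ (tri t).erase e, ms 𝒯 tri D d false g (some t) s) /
    (1 - Xm 𝒯 tri D d e t s) - 1 + ∑ g ∈ (tri t).erase e, eps 𝒯 tri D d g s with hG
  have hid : deps 𝒯 tri D d e s - re 𝒯 tri D e
      + (1 / D) * SA 𝒯 tri (fun g => eta 𝒯 tri D d g s) e
      = (1 / D) * ∑ t ∈ F, G t - (s / D) * ∑ t ∈ F, ∑ g ∈ (tri t).erase e, re 𝒯 tri D g := by
    have e1 : re 𝒯 tri D e = (1 / D) * ∑ t ∈ F, (1:ℝ) - 1 := by
      unfold re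
      rw [Finset.sum_const, nsmul_eq_mul, mul_one, ← hcardF]; ring
    have e2 : SA 𝒯 tri (fun g => eta 𝒯 tri D d g s) e
        = ∑ t ∈ F, ∑ g ∈ (tri t).erase e, eps 𝒯 tri D d g s
          - s * ∑ t ∈ F, ∑ g ∈ (tri t).erase e, re 𝒯 tri D g := by
      unfold SA eta
      rw [Finset.mul_sum, ← Finset.sum_sub_distrib]
      refine Finset.sum_congr rfl fun t _ => ?_
      rw [Finset.mul_sum, ← Finset.sum_sub_distrib]
    have e3 : deps 𝒯 tri D d e s = -1 + (1 / D) * ∑ t ∈ F,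
        (∏ g ∈ (tri t).erase e, ms 𝒯 tri D d false g (some t) s) / (1 - Xm 𝒯 tri D d e t s) := by
      unfold deps
      rw [Finset.mul_sum]
      congr 1
      refine Finset.sum_congr rfl fun t _ => ?_
      rw [mul_div_assoc]
    rw [e1, e2, e3, hG]
    simp only [Finset.sum_add_distrib, Finset.sum_sub_distrib]
    ring
  rw [hid]
  have hcor := h.cor e he
  have hs : s ≤ L / 2 := h1.trans h.s3_le_L
  -- second part
  have p2 : |(s / D) * ∑ t ∈ F, ∑ g ∈ (tri t).erase e, re 𝒯 tri D g| ≤ L ^ 6 / 2 / D := by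
    rw [abs_mul, abs_of_nonneg (by positivity : 0 ≤ s / D)]
    calc s / D * |∑ t ∈ F, ∑ g ∈ (tri t).erase e, re 𝒯 tri D g| ≤ (L / 2 / D) * L ^ 5 := by
          apply mul_le_mul _ hcor (abs_nonneg _) (by positivity)
          gcongr
      _ = L ^ 6 / 2 / D := by ring
  -- first part
  have p1 : |(1 / D) * ∑ t ∈ F, G t| ≤ (1 / D) * ∑ t ∈ F,
      ((7 * L / D + 9 * L ^ 4 / D) + 4 * kap L * ∑ g ∈ (tri t).erase e, |eta 𝒯 tri D d g s|) := by
    rw [abs_mul, abs_of_nonneg (by positivity : 0 ≤ 1 / D)]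
    apply mul_le_mul_of_nonneg_left _ (by positivity)
    refine (Finset.abs_sum_le_sum_abs _ _).trans (Finset.sum_le_sum fun t ht => ?_)
    rw [hF, Finset.mem_filter] at ht
    refine (drift_tri h hE ht.1 ht.2 h0 h1).trans ?_
    have hcard : ((tri t).erase e).card = 2 := by
      rw [Finset.card_erase_of_mem ht.2, h.h3 t ht.1]
    have hsq : (∑ g ∈ (tri t).erase e, eps 𝒯 tri D d g s) ^ 2 ≤
        2 * ∑ g ∈ (tri t).erase e, eps 𝒯 tri D d g s ^ 2 := by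
      have := sq_sum_le_card_mul_sum_sq (s := (tri t).erase e) (f := fun g => eps 𝒯 tri D d g s)
      rw [hcard] at this
      exact_mod_cast this
    have hsum : ∑ g ∈ (tri t).erase e, eps 𝒯 tri D d g s ^ 2 ≤
        ∑ g ∈ (tri t).erase e, (2 * kap L * |eta 𝒯 tri D d g s| + 9 / 4 * L ^ 4 / D) := by
      refine Finset.sum_le_sum fun g hg => ?_
      exact eps_sq h hE (h.hA t ht.1 (Finset.mem_of_mem_erase hg)) h0 h1
    rw [Finset.sum_add_distrib, ← Finset.mul_sum, Finset.sum_const, hcard, nsmul_eq_mul] at hsum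
    push_cast at hsum
    have : 9 * L ^ 4 / D = 2 * (2 * (9 / 4 * L ^ 4 / D)) := by ring
    rw [this]
    linarith
  have p3 : (1 / D) * ∑ t ∈ F,
      ((7 * L / D + 9 * L ^ 4 / D) + 4 * kap L * ∑ g ∈ (tri t).erase e, |eta 𝒯 tri D d g s|)
      = (F.card : ℝ) / D * (7 * L / D + 9 * L ^ 4 / D)
        + 4 * kap L * ((1 / D) * SA 𝒯 tri (fun g => |eta 𝒯 tri D d g s|) e) := by
    unfold SA
    rw [Finset.sum_add_distrib, Finset.sum_const, nsmul_eq_mul, ← Finset.mul_sum]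
    ring
  have p4 : (F.card : ℝ) / D * (7 * L / D + 9 * L ^ 4 / D) ≤ L ^ 6 / 2 / D := by
    have i1 : (F.card : ℝ) / D ≤ 101 / 100 := by
      rw [div_le_iff₀ hD]; linarith
    have i2 : 7 * L / D + 9 * L ^ 4 / D ≤ 16 * L ^ 4 / D := by
      have : L ≤ L ^ 4 := by
        calc L = L ^ 1 := (pow_one _).symm
          _ ≤ L ^ 4 := pow_le_pow_right₀ hL1 (by norm_num)
      rw [← add_div]
      gcongr
      linarith
    calc (F.card : ℝ) / D * (7 * L / D + 9 * L ^ 4 / D) ≤ 101 / 100 * (16 * L ^ 4 / D) :=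
          mul_le_mul i1 i2 (by positivity) (by norm_num)
      _ = (101 / 100 * 16 * L ^ 4) / D := by ring
      _ ≤ (L ^ 6 / 2) / D := by
          gcongr
          have h2 : (10:ℝ) ^ 12 ≤ L ^ 2 := by
            calc (10:ℝ) ^ 12 = (10 ^ 6) ^ 2 := by norm_num
              _ ≤ L ^ 2 := pow_le_pow_left₀ (by norm_num) h.L6 2
          have h3 : 0 ≤ L ^ 4 := by positivity
          calc 101 / 100 * 16 * L ^ 4 ≤ (10 ^ 12 / 2) * L ^ 4 := by
                apply mul_le_mul_of_nonneg_right (by norm_num) h3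
            _ ≤ (L ^ 2 / 2) * L ^ 4 := by
                apply mul_le_mul_of_nonneg_right _ h3
                linarith
            _ = L ^ 6 / 2 := by ring
      _ = L ^ 6 / 2 / D := rfl
  have hfin := abs_sub ((1 / D) * ∑ t ∈ F, G t) ((s / D) * ∑ t ∈ F, ∑ g ∈ (tri t).erase e, re 𝒯 tri D g)
  have htwo : L ^ 6 / D = L ^ 6 / 2 / D + L ^ 6 / 2 / D := by ring
  rw [htwo]
  rw [p3] at p1
  linarith

end Crest.Agent.TRem
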