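import Crest.Agent.TRem.B3e0
import Crest.Agent.TRem.B3e2
import Crest.Agent.TRem.B3e3

/-!
# Row 30, B3e4: energy inequality and conclusion of STEP 3

Chunk R30-B3e4.  `u(s) = Σ_{e∈A₀} η_e(s)²`, `M = A₀.card`, `Y = D(1 + 1/L^400)` (`BH.dg_le`).
(1) `energy_deriv`: `u' = Σ 2 η_e (deps_e - r_e) ≤ (2 + 2/L) u + M L^13/D²`:
 by `drift`, `2 η_e (deps_e - r_e) ≤ -(2/D) η_e SA η e + 2|η_e| L^6/D + 8κ (1/D) |η_e| SA|η| e`;
 `SA_psd`: first part `≤ 2 (Y/D) u`; `2|η_e| L^6/D ≤ η_e²/L + L (L^6/D)²`; `SA_abs`: third part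
 `≤ 16 κ (Y/D) u`.  `2(1+1/L^400) + 1/L + 16 κ (1+1/L^400) ≤ 2 + 2/L`.
(2) `gronwall_simple` with `K = 2 + 2/L`, `C = M L^13/D²`, `S = s₃`:
 `u(s₃) ≤ M L^13/D² · (L/2) · e^{2 s₃} e^{1}` (`2 s₃/L ≤ 1`) `= M (e/2) L^14/D² · D/L^20 ≤ 2 M/(L^6 D)`.
(3) `step3_of`: `Σ ε² ≤ 2 u(s₃) + 2 s₃² Σ r² ≤ 4M/(L^6 D) + 2 (L²/4)(9 L²/D) M ≤ M L^6/D`,
 `(log B)² = ε²`.
-/

namespace Crest.Agent.TRem

open Finset MeasureTheory

variable {ι τ : Type} [DecidableEq ι] [DecidableEq τ] {𝒯 : Finset τ} {tri : τ → Finset ι}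
  {A₀ : Finset ι} {D L : ℝ} {d : ℕ}

theorem energy_deriv (h : BH 𝒯 tri A₀ D L) (hE : E12 𝒯 tri A₀ D L d) {s : ℝ} (h0 : 0 ≤ s)
    (h1 : s ≤ s3 D L) :
    ∑ e ∈ A₀, 2 * eta 𝒯 tri D d e s * (deps 𝒯 tri D d e s - re 𝒯 tri D e) ≤
      (2 + 2 / L) * (∑ e ∈ A₀, eta 𝒯 tri D d e s ^ 2) + A₀.card * L ^ 13 / D ^ 2 := by
  have hD := h.D_pos
  have hL := h.L_pos
  have hL6 := h.L6
  have hL1 : (1:ℝ) ≤ L := le_trans (by norm_num) hL6
  set η : ι → ℝ := fun g => eta 𝒯 tri D d g s with hη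
  set Y : ℝ := D * (1 + 1 / L ^ 400) with hY
  set u : ℝ := ∑ e ∈ A₀, η e ^ 2 with hu
  have hu0 : 0 ≤ u := Finset.sum_nonneg fun e _ => sq_nonneg _
  have hpsd := SA_psd 𝒯 tri A₀ h.hA Y (fun e he => h.dg_le he) η
  have habs := SA_abs 𝒯 tri A₀ h.hA h.h3 Y (fun e he => h.dg_le he) η
  have hk0 : 0 ≤ kap L := by unfold kap; positivity
  -- pointwise
  have hpt : ∀ e ∈ A₀, 2 * η e * (deps 𝒯 tri D d e s - re 𝒯 tri D e) ≤
      -(2 / D) * (η e * SA 𝒯 tri η e) + (η e ^ 2 / L + L ^ 13 / D ^ 2) +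
        8 * kap L / D * (|η e| * SA 𝒯 tri (fun g => |η g|) e) := by
    intro e he
    have hd := drift h hE he h0 h1
    set a := deps 𝒯 tri D d e s - re 𝒯 tri D e with ha
    set b := SA 𝒯 tri η e with hb
    set c := SA 𝒯 tri (fun g => |η g|) e with hc
    have h2 : |η e| * |a + 1 / D * b| ≤ |η e| * (L ^ 6 / D + 4 * kap L * (1 / D * c)) :=
      mul_le_mul_of_nonneg_left hd (abs_nonneg _)
    have h3 : η e * (a + 1 / D * b) ≤ |η e| * |a + 1 / D * b| := by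
      rw [← abs_mul]; exact le_abs_self _
    have h4 : 2 * |η e| * (L ^ 6 / D) ≤ η e ^ 2 / L + L ^ 13 / D ^ 2 := by
      have h5 : 0 ≤ (|η e| - L * (L ^ 6 / D)) ^ 2 / L := by positivity
      have h6 : (|η e| - L * (L ^ 6 / D)) ^ 2 / L
          = η e ^ 2 / L + L ^ 13 / D ^ 2 - 2 * |η e| * (L ^ 6 / D) := by
        rw [← sq_abs (η e)]
        field_simp
        ring
      linarith
    have h7 : 2 * η e * a = 2 * (η e * (a + 1 / D * b)) + -(2 / D) * (η e * b) := by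
      field_simp
      ring
    have h8 : 2 * (|η e| * (L ^ 6 / D + 4 * kap L * (1 / D * c)))
        = 2 * |η e| * (L ^ 6 / D) + 8 * kap L / D * (|η e| * c) := by
      field_simp
      ring
    rw [h7]
    linarith
  have hsum := Finset.sum_le_sum hpt
  rw [Finset.sum_add_distrib, Finset.sum_add_distrib, Finset.sum_add_distrib, ← Finset.mul_sum,
    ← Finset.mul_sum, ← Finset.sum_div, Finset.sum_const, nsmul_eq_mul] at hsum
  have e1 : -(2 / D) * ∑ e ∈ A₀, η e * SA 𝒯 tri η e ≤ 2 * (1 + 1 / L ^ 400) * u := by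
    have h2 : (2 / D) * (-(Y * u)) ≤ (2 / D) * ∑ e ∈ A₀, η e * SA 𝒯 tri η e :=
      mul_le_mul_of_nonneg_left hpsd (by positivity)
    have h3 : (2 / D) * (Y * u) = 2 * (1 + 1 / L ^ 400) * u := by
      rw [hY]; field_simp
    linarith
  have e2 : 8 * kap L / D * ∑ e ∈ A₀, |η e| * SA 𝒯 tri (fun g => |η g|) e ≤
      16 * kap L * (1 + 1 / L ^ 400) * u := by
    have h2 : 8 * kap L / D * ∑ e ∈ A₀, |η e| * SA 𝒯 tri (fun g => |η g|) e ≤
        8 * kap L / D * (2 * Y * u) := mul_le_mul_of_nonneg_left habs (by positivity)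
    have h3 : 8 * kap L / D * (2 * Y * u) = 16 * kap L * (1 + 1 / L ^ 400) * u := by
      rw [hY]; field_simp; ring
    linarith
  have e3 : 2 * (1 + 1 / L ^ 400) + 1 / L + 16 * kap L * (1 + 1 / L ^ 400) ≤ 2 + 2 / L := by
    have h2 : 1 / L ^ 400 ≤ 1 / L ^ 2 :=
      one_div_le_one_div_of_le (by positivity) (pow_le_pow_right₀ hL1 (by norm_num))
    have h3 : kap L ≤ 7 * (1 / L ^ 2) := by
      unfold kap
      have : 1 / L ^ 12 ≤ 1 / L ^ 2 :=
        one_div_le_one_div_of_le (by positivity) (pow_le_pow_right₀ hL1 (by norm_num))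
      calc 7 / L ^ 12 = 7 * (1 / L ^ 12) := by ring
        _ ≤ _ := by linarith
    have h4 : 1 / L ^ 2 ≤ 1 / 1000 * (1 / L) := by
      have h5 : (1000:ℝ) ≤ L := le_trans (by norm_num) hL6
      rw [div_mul_div_comm, one_mul]
      apply one_div_le_one_div_of_le (by positivity)
      rw [pow_two]
      exact mul_le_mul_of_nonneg_right h5 hL.le
    have h5 : 1 / L ^ 400 ≤ 1 := by
      rw [div_le_one (by positivity)]
      exact one_le_pow₀ hL1
    have h6 : 0 ≤ 1 / L ^ 400 := by positivity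
    have h7 : 16 * kap L * (1 + 1 / L ^ 400) ≤ 16 * (7 * (1 / L ^ 2)) * 2 := by
      apply mul_le_mul _ (by linarith) (by positivity) (by positivity)
      linarith
    have h8 : 0 ≤ 1 / L := by positivity
    have h9 : 2 / L = 2 * (1 / L) := by ring
    rw [h9]
    linarith
  have e4 : (2 * (1 + 1 / L ^ 400) + 1 / L + 16 * kap L * (1 + 1 / L ^ 400)) * u ≤
      (2 + 2 / L) * u := mul_le_mul_of_nonneg_right e3 hu0
  have e5 : (A₀.card : ℝ) * (L ^ 13 / D ^ 2) = A₀.card * L ^ 13 / D ^ 2 := by ring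
  have e6 : u / L = 1 / L * u := by ring
  rw [e5] at hsum
  have e7 : (∑ e ∈ A₀, η e ^ 2) / L = 1 / L * u := e6
  rw [e7] at hsum
  linarith

theorem energy_le (h : BH 𝒯 tri A₀ D L) (hE : E12 𝒯 tri A₀ D L d) :
    ∑ e ∈ A₀, eta 𝒯 tri D d e (s3 D L) ^ 2 ≤ 2 * A₀.card / (L ^ 6 * D) := by
  have hD := h.D_pos
  have hL := h.L_pos
  have hS := h.s3_pos
  have hder : ∀ s, 0 ≤ s → s ≤ s3 D L → HasDerivAt (fun s => ∑ e ∈ A₀, eta 𝒯 tri D d e s ^ 2)
      (∑ e ∈ A₀, 2 * eta 𝒯 tri D d e s * (deps 𝒯 tri D d e s - re 𝒯 tri D e)) s := by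
    intro s h0 h1
    apply HasDerivAt.fun_sum
    intro e he
    have h2 := hasDerivAt_eps h hE he h0 h1
    have h3 : HasDerivAt (fun s => eta 𝒯 tri D d e s) (deps 𝒯 tri D d e s - re 𝒯 tri D e) s := by
      have h4 := h2.fun_sub ((hasDerivAt_id s).mul_const (re 𝒯 tri D e))
      simp only [one_mul] at h4
      exact h4
    have h5 := h3.fun_pow 2
    refine h5.congr_deriv ?_
    simp
  have hz : (fun s => ∑ e ∈ A₀, eta 𝒯 tri D d e s ^ 2) 0 = 0 := by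
    apply Finset.sum_eq_zero
    intro e _
    unfold eta
    rw [eps_zero h]
    simp
  have hg := gronwall_simple (K := 2 + 2 / L) (C := A₀.card * L ^ 13 / D ^ 2) hS.le (by positivity)
    (by positivity) hder (fun s h0 h1 => energy_deriv h hE h0 h1) hz
  refine le_trans hg ?_
  have h1 : s3 D L ≤ L / 2 := by
    have := h.s3_le
    have := h.logD
    linarith
  have h2 : Real.exp ((2 + 2 / L) * s3 D L) ≤ D / L ^ 20 * 3 := by
    have h3 : (2 + 2 / L) * s3 D L = 2 * s3 D L + 2 * s3 D L / L := by ring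
    have h4 : 2 * s3 D L / L ≤ 1 := by
      rw [div_le_one hL]; linarith
    rw [h3, Real.exp_add, h.exp_s3]
    apply mul_le_mul_of_nonneg_left _ (by positivity)
    have h5 := Real.exp_le_exp.2 h4
    have h6 := Real.exp_one_lt_d9
    linarith
  calc (A₀.card : ℝ) * L ^ 13 / D ^ 2 * s3 D L * Real.exp ((2 + 2 / L) * s3 D L)
      ≤ (A₀.card : ℝ) * L ^ 13 / D ^ 2 * (L / 2) * (D / L ^ 20 * 3) := by
        apply mul_le_mul _ h2 (Real.exp_pos _).le (by positivity)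
        apply mul_le_mul_of_nonneg_left h1 (by positivity)
    _ = 3 / 2 * A₀.card / (L ^ 6 * D) := by
        field_simp
    _ ≤ 2 * A₀.card / (L ^ 6 * D) := by
        apply div_le_div_of_nonneg_right _ (by positivity)
        apply mul_le_mul_of_nonneg_right _ (by positivity)
        norm_num

theorem step3_of (h : BH 𝒯 tri A₀ D L) (hE : E12 𝒯 tri A₀ D L d) :
    ∑ f ∈ A₀, (Real.log (ms 𝒯 tri D (d + 1) true f none (s3 D L))) ^ 2 ≤
      A₀.card * (L ^ 6 / D) := by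
  have hD := h.D_pos
  have hL := h.L_pos
  have hL1 : (1:ℝ) ≤ L := le_trans (by norm_num) h.L6
  have hS := h.s3_pos
  have h1 : s3 D L ≤ L / 2 := by
    have := h.s3_le
    have := h.logD
    linarith
  have hu := energy_le h hE
  have hpt : ∀ f ∈ A₀, (Real.log (ms 𝒯 tri D (d + 1) true f none (s3 D L))) ^ 2 ≤
      2 * eta 𝒯 tri D d f (s3 D L) ^ 2 + 9 / 2 * L ^ 4 / D := by
    intro f hf
    have h2 : (Real.log (ms 𝒯 tri D (d + 1) true f none (s3 D L))) ^ 2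
        = eps 𝒯 tri D d f (s3 D L) ^ 2 := by
      unfold eps Bm
      rw [neg_sq]
    have h3 : eps 𝒯 tri D d f (s3 D L) = eta 𝒯 tri D d f (s3 D L) + s3 D L * re 𝒯 tri D f := by
      unfold eta; ring
    have h4 : re 𝒯 tri D f ^ 2 ≤ 9 * L ^ 2 / D := by
      have h5 := h.deg f hf
      have h6 : re 𝒯 tri D f ^ 2 ≤ (3 * L / Real.sqrt D) ^ 2 := by
        rw [← sq_abs]
        exact pow_le_pow_left₀ (abs_nonneg _) h5 2
      refine le_trans h6 (le_of_eq ?_)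
      rw [div_pow, Real.sq_sqrt hD.le]
      ring
    have h5 : s3 D L ^ 2 ≤ L ^ 2 / 4 := by
      have := pow_le_pow_left₀ hS.le h1 2
      calc s3 D L ^ 2 ≤ (L / 2) ^ 2 := this
        _ = L ^ 2 / 4 := by ring
    have h6 : (s3 D L * re 𝒯 tri D f) ^ 2 ≤ 9 / 4 * L ^ 4 / D := by
      rw [mul_pow]
      calc s3 D L ^ 2 * re 𝒯 tri D f ^ 2 ≤ (L ^ 2 / 4) * (9 * L ^ 2 / D) := by
            apply mul_le_mul h5 h4 (sq_nonneg _) (by positivity)
        _ = 9 / 4 * L ^ 4 / D := by ring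
    rw [h2, h3]
    have h7 : (eta 𝒯 tri D d f (s3 D L) + s3 D L * re 𝒯 tri D f) ^ 2 ≤
        2 * eta 𝒯 tri D d f (s3 D L) ^ 2 + 2 * (s3 D L * re 𝒯 tri D f) ^ 2 := by
      have := sq_nonneg (eta 𝒯 tri D d f (s3 D L) - s3 D L * re 𝒯 tri D f)
      nlinarith
    have h8 : 2 * (9 / 4 * L ^ 4 / D) = 9 / 2 * L ^ 4 / D := by ring
    linarith
  have hsum := Finset.sum_le_sum hpt
  rw [Finset.sum_add_distrib, ← Finset.mul_sum, Finset.sum_const, nsmul_eq_mul] at hsum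
  refine le_trans hsum ?_
  have h2 : 2 * ∑ f ∈ A₀, eta 𝒯 tri D d f (s3 D L) ^ 2 ≤ 2 * (2 * A₀.card / (L ^ 6 * D)) := by
    linarith
  refine le_trans (add_le_add h2 le_rfl) ?_
  have h3 : 2 * (2 * (A₀.card : ℝ) / (L ^ 6 * D)) ≤ A₀.card * (4 / D) := by
    have h4 : (2:ℝ) * (2 * (A₀.card : ℝ) / (L ^ 6 * D)) = A₀.card * (4 / D) * (1 / L ^ 6) := by
      field_simp
      ring
    rw [h4]
    apply mul_le_of_le_one_right (by positivity)
    rw [div_le_one (by positivity)]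
    exact one_le_pow₀ hL1
  refine le_trans (add_le_add h3 le_rfl) ?_
  rw [← mul_add]
  apply mul_le_mul_of_nonneg_left _ (by positivity)
  rw [← add_div]
  apply div_le_div_of_nonneg_right _ hD.le
  have h4 : (10:ℝ) ≤ L := le_trans (by norm_num) h.L6
  have h5 : L ^ 6 = L ^ 4 * L ^ 2 := by ring
  have h6 : (100:ℝ) ≤ L ^ 2 := by nlinarith
  have h7 : (1:ℝ) ≤ L ^ 4 := one_le_pow₀ hL1
  nlinarith

end Crest.Agent.TRem
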