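import Crest.Agent.TRem.B3eDefs

/-!
# Row 30, B3e5: STEP 1 + STEP 2 give `E12`

Chunk R30-B3e5.  `20 s₃ + 20 log D ≤ d` gives `Wf d s = e^{-(d-20s)} ≤ e^{-20 log D} = D^{-20}` for `s ≤ s₃`.
`|s r_f| ≤ (L/2)/L^400` (`BH.re_le`, `BH.s3_le`, `BH.logD`), `ω(s) ≤ 6/L^12` (`BH.om_le`), `0.1 W ≤ 0.1/D^20`,
sum `≤ 7/L^12 = kap L`.
-/

namespace Crest.Agent.TRem

open Finset MeasureTheory

variable {ι τ : Type} [DecidableEq ι] [DecidableEq τ] {𝒯 : Finset τ} {tri : τ → Finset ι}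
  {A₀ : Finset ι} {D L : ℝ} {d : ℕ}

private theorem expo_le (h : BH 𝒯 tri A₀ D L) (hd : 20 * s3 D L + 20 * Real.log D ≤ d)
    {f : ι} (hf : f ∈ A₀) {s : ℝ} (h0 : 0 ≤ s) (h1 : s ≤ s3 D L) :
    |s * re 𝒯 tri D f| + om D L s + 1 / 10 * Wf d s ≤ kap L := by
  have hL := h.L_pos
  have hD := h.D_pos
  have hL1 : 1 ≤ L := le_trans (by norm_num) h.L6
  have a1 : |s * re 𝒯 tri D f| ≤ 1 / (2 * L ^ 12) := by
    rw [abs_mul, abs_of_nonneg h0]
    have b1 : s ≤ L / 2 := by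
      have := h.s3_le; have := h.logD; linarith
    have b2 := h.re_le hf
    calc s * |re 𝒯 tri D f| ≤ (L / 2) * (1 / L ^ 400) := by
          apply mul_le_mul b1 b2 (abs_nonneg _) (by positivity)
      _ ≤ 1 / (2 * L ^ 12) := by
          rw [div_mul_div_comm, mul_one, div_le_div_iff₀ (by positivity) (by positivity)]
          have b3 : L * L ^ 12 ≤ L ^ 400 := by
            have : L * L ^ 12 = L ^ 13 := by ring
            rw [this]
            exact pow_le_pow_right₀ hL1 (by norm_num)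
          nlinarith
  have a2 := h.om_le h1
  have a3 : Wf d s ≤ 1 / L ^ 12 := by
    unfold Wf
    have b1 : -((d:ℝ) - 20 * s) ≤ -(20 * Real.log D) := by linarith
    have b2 : Real.exp (-(20 * Real.log D)) = 1 / D ^ 20 := by
      rw [Real.exp_neg, one_div]
      congr 1
      have : (20:ℝ) * Real.log D = ((20:ℕ):ℝ) * Real.log D := by norm_num
      rw [this, Real.exp_nat_mul, Real.exp_log hD]
    have b3 : L ^ 12 ≤ D ^ 20 := by
      have c1 : L ≤ D := by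
        refine le_trans ?_ h.hD
        calc L = L ^ 1 := (pow_one L).symm
          _ ≤ L ^ 1000 := pow_le_pow_right₀ hL1 (by norm_num)
      calc L ^ 12 ≤ L ^ 20 := pow_le_pow_right₀ hL1 (by norm_num)
        _ ≤ D ^ 20 := pow_le_pow_left₀ hL.le c1 20
    calc Real.exp (-((d:ℝ) - 20 * s)) ≤ Real.exp (-(20 * Real.log D)) := Real.exp_le_exp.2 b1
      _ = 1 / D ^ 20 := b2
      _ ≤ 1 / L ^ 12 := one_div_le_one_div_of_le (by positivity) b3
  have a4 : kap L = 1 / (2 * L ^ 12) + 6 / L ^ 12 + 1 / 2 * (1 / L ^ 12) := by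
    unfold kap
    field_simp
    norm_num
  rw [a4]
  have a5 : 0 < 1 / L ^ 12 := by positivity
  linarith

theorem E12_of (h : BH 𝒯 tri A₀ D L) (hd : 20 * s3 D L + 20 * Real.log D ≤ d)
    (hup : ∀ f ∈ A₀, ∀ (x : Option τ) (s : ℝ), 0 ≤ s → s ≤ s3 D L →
      ms 𝒯 tri D d true f x s ≤ Real.exp (-s * re 𝒯 tri D f + om D L s + 1 / 10 * Wf d s))
    (hlo : ∀ f ∈ A₀, ∀ (x : Option τ) (s : ℝ), 0 ≤ s → s ≤ s3 D L →
      Real.exp (-s * re 𝒯 tri D f - om D L s - 1 / 10 * Wf d s) ≤ ms 𝒯 tri D d false f x s)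
    (hgap : ∀ f ∈ A₀, ∀ (x : Option τ) (s : ℝ), 0 ≤ s → s ≤ s3 D L →
      ms 𝒯 tri D d true f x s - ms 𝒯 tri D d false f x s ≤ 2 / D ^ 20) :
    E12 𝒯 tri A₀ D L d := by
  refine ⟨fun f hf x s h0 h1 => ?_, fun f hf x s h0 h1 => ?_, hgap⟩
  · refine le_trans (Real.exp_le_exp.2 ?_) (hlo f hf x s h0 h1)
    have a := expo_le h hd hf h0 h1
    have b := le_abs_self (s * re 𝒯 tri D f)
    linarith
  · refine le_trans (hup f hf x s h0 h1) (Real.exp_le_exp.2 ?_)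
    have a := expo_le h hd hf h0 h1
    have b := neg_abs_le (s * re 𝒯 tri D f)
    linarith

end Crest.Agent.TRem
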