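import Crest.Agent.TRem.B3a
import Crest.Agent.TRem.B3b

/-!
# Row 30, part B3, STEP 3 (energy estimate): definitions

`κ = 7/L^12`.  `E12 … d`: the output of STEP 1 and STEP 2 at depth `d`.
`Bm d f s = ms (d+1) true f none s` (root message), `eps = - log Bm`, `eta = eps - s r_f`,
`SA u e = Σ_{t ∋ e} Σ_{g ∈ t \ e} u g` (the operator `A`).
-/

namespace Crest.Agent.TRem

open Finset MeasureTheory

variable {ι τ : Type} [DecidableEq ι] [DecidableEq τ]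

/-- `κ = 7/L^12`. -/
noncomputable def kap (L : ℝ) : ℝ := 7 / L ^ 12

/-- the output of STEP 1 and STEP 2 at depth `d`. -/
structure E12 (𝒯 : Finset τ) (tri : τ → Finset ι) (A₀ : Finset ι) (D L : ℝ) (d : ℕ) : Prop where
  lo : ∀ f ∈ A₀, ∀ (x : Option τ) (s : ℝ), 0 ≤ s → s ≤ s3 D L →
    Real.exp (- kap L) ≤ ms 𝒯 tri D d false f x s
  up : ∀ f ∈ A₀, ∀ (x : Option τ) (s : ℝ), 0 ≤ s → s ≤ s3 D L →
    ms 𝒯 tri D d true f x s ≤ Real.exp (kap L)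
  gap : ∀ f ∈ A₀, ∀ (x : Option τ) (s : ℝ), 0 ≤ s → s ≤ s3 D L →
    ms 𝒯 tri D d true f x s - ms 𝒯 tri D d false f x s ≤ 2 / D ^ 20

/-- `X_{e,t}(s) = (1/D) ∫_0^s Π_{g ∈ t \ e} α_d(g,t)`. -/
noncomputable def Xm (𝒯 : Finset τ) (tri : τ → Finset ι) (D : ℝ) (d : ℕ) (e : ι) (t : τ)
    (s : ℝ) : ℝ :=
  (1 / D) * ∫ z in (0:ℝ)..s, ∏ g ∈ (tri t).erase e, ms 𝒯 tri D d false g (some t) z

/-- root message. -/
noncomputable def Bm (𝒯 : Finset τ) (tri : τ → Finset ι) (D : ℝ) (d : ℕ) (f : ι) (s : ℝ) : ℝ :=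
  ms 𝒯 tri D (d + 1) true f none s

/-- `ε_f(s) = - log B_f(s)`. -/
noncomputable def eps (𝒯 : Finset τ) (tri : τ → Finset ι) (D : ℝ) (d : ℕ) (f : ι) (s : ℝ) : ℝ :=
  - Real.log (Bm 𝒯 tri D d f s)

/-- `η_f(s) = ε_f(s) - s r_f`. -/
noncomputable def eta (𝒯 : Finset τ) (tri : τ → Finset ι) (D : ℝ) (d : ℕ) (f : ι) (s : ℝ) : ℝ :=
  eps 𝒯 tri D d f s - s * re 𝒯 tri D f

/-- the operator `A`. -/
def SA (𝒯 : Finset τ) (tri : τ → Finset ι) (u : ι → ℝ) (e : ι) : ℝ :=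
  ∑ t ∈ 𝒯.filter (fun t => e ∈ tri t), ∑ g ∈ (tri t).erase e, u g

/-- the derivative of `ε_e`. -/
noncomputable def deps (𝒯 : Finset τ) (tri : τ → Finset ι) (D : ℝ) (d : ℕ) (e : ι) (s : ℝ) : ℝ :=
  -1 + ∑ t ∈ 𝒯.filter (fun t => e ∈ tri t),
    (1 / D) * (∏ g ∈ (tri t).erase e, ms 𝒯 tri D d false g (some t) s) / (1 - Xm 𝒯 tri D d e t s)

end Crest.Agent.TRem
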