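import Crest.Agent.TRem.HDefs

/-!
# Row 30, B3k: the message operator has `ℓ²` norm at most `2 Y / D` (all degrees at most `Y`)
-/

namespace Crest.Agent.TRem

open Finset

variable {ι τ : Type} [DecidableEq ι] [DecidableEq τ]

/-- squared `ℓ²` norm over the messages `(f, T)`, `f ∈ tri T`, `T ∈ 𝒯`. -/
noncomputable def QQm (𝒯 : Finset τ) (tri : τ → Finset ι) (u : ι → τ → ℝ) : ℝ :=
  ∑ T ∈ 𝒯, ∑ f ∈ tri T, u f T ^ 2

/-- the message operator (without the factor `1/D`). -/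
noncomputable def KK (𝒯 : Finset τ) (tri : τ → Finset ι) (u : ι → τ → ℝ) (f : ι) (T0 : τ) : ℝ :=
  ∑ T' ∈ ch 𝒯 tri f (some T0), ∑ g ∈ (tri T').erase f, u g T'

theorem QQm_nonneg (𝒯 : Finset τ) (tri : τ → Finset ι) (u : ι → τ → ℝ) : 0 ≤ QQm 𝒯 tri u :=
  Finset.sum_nonneg (fun _ _ => Finset.sum_nonneg (fun _ _ => sq_nonneg _))

/-- Schur test for the message operator. -/
theorem QQm_KK (𝒯 : Finset τ) (tri : τ → Finset ι) (h3 : ∀ t ∈ 𝒯, (tri t).card = 3) (Y : ℝ)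
    (hY : ∀ t ∈ 𝒯, ∀ f ∈ tri t, dg 𝒯 tri f ≤ Y) (u : ι → τ → ℝ) :
    QQm 𝒯 tri (KK 𝒯 tri u) ≤ (2 * Y) ^ 2 * QQm 𝒯 tri u := by
  classical
  -- pointwise Cauchy-Schwarz
  have h1 : ∀ T0 ∈ 𝒯, ∀ f ∈ tri T0, KK 𝒯 tri u f T0 ^ 2 ≤
      (2 * Y) * ∑ T' ∈ 𝒯.filter (fun t => f ∈ tri t), ∑ g ∈ (tri T').erase f, u g T' ^ 2 := by
    intro T0 hT0 f hf
    have hsub : ch 𝒯 tri f (some T0) ⊆ 𝒯.filter (fun t => f ∈ tri t) := by
      intro t ht
      rw [ch, Finset.mem_filter] at ht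
      exact Finset.mem_filter.2 ⟨ht.1, ht.2.1⟩
    have hcard : ∀ T' ∈ ch 𝒯 tri f (some T0), ((tri T').erase f).card = 2 := by
      intro T' hT'
      have := hsub hT'
      rw [Finset.mem_filter] at this
      rw [Finset.card_erase_of_mem this.2, h3 T' this.1]
    have hch : ((ch 𝒯 tri f (some T0)).card : ℝ) ≤ Y := by
      refine le_trans ?_ (hY T0 hT0 f hf)
      unfold dg
      exact_mod_cast Finset.card_le_card hsub
    have hin : ∀ T' ∈ ch 𝒯 tri f (some T0), (∑ g ∈ (tri T').erase f, u g T') ^ 2 ≤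
        2 * ∑ g ∈ (tri T').erase f, u g T' ^ 2 := by
      intro T' hT'
      have := sq_sum_le_card_mul_sum_sq (s := (tri T').erase f) (f := fun g => u g T')
      rw [hcard T' hT'] at this
      exact_mod_cast this
    have h0 : 0 ≤ ∑ T' ∈ ch 𝒯 tri f (some T0), ∑ g ∈ (tri T').erase f, u g T' ^ 2 :=
      Finset.sum_nonneg (fun _ _ => Finset.sum_nonneg (fun _ _ => sq_nonneg _))
    have hY0 : 0 ≤ Y := le_trans (by positivity) hch
    calc KK 𝒯 tri u f T0 ^ 2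
        ≤ ((ch 𝒯 tri f (some T0)).card : ℝ) *
          ∑ T' ∈ ch 𝒯 tri f (some T0), (∑ g ∈ (tri T').erase f, u g T') ^ 2 := by
          unfold KK
          exact sq_sum_le_card_mul_sum_sq
      _ ≤ Y * ∑ T' ∈ ch 𝒯 tri f (some T0), 2 * ∑ g ∈ (tri T').erase f, u g T' ^ 2 := by
          refine mul_le_mul hch (Finset.sum_le_sum hin) ?_ hY0
          exact Finset.sum_nonneg (fun _ _ => sq_nonneg _)
      _ = (2 * Y) * ∑ T' ∈ ch 𝒯 tri f (some T0), ∑ g ∈ (tri T').erase f, u g T' ^ 2 := by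
          rw [← Finset.mul_sum]; ring
      _ ≤ _ := by
          refine mul_le_mul_of_nonneg_left ?_ (by linarith)
          exact Finset.sum_le_sum_of_subset_of_nonneg hsub
            (fun _ _ _ => Finset.sum_nonneg (fun _ _ => sq_nonneg _))
  by_cases hne : 𝒯 = ∅
  · simp [QQm, hne]
  obtain ⟨T1, hT1⟩ := Finset.nonempty_iff_ne_empty.2 hne
  have hY0 : 0 ≤ Y := by
    have hc : 0 < (tri T1).card := by rw [h3 T1 hT1]; norm_num
    obtain ⟨f, hf⟩ := Finset.card_pos.1 hc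
    exact le_trans (by unfold dg; positivity) (hY T1 hT1 f hf)
  -- the weight of a hypervertex
  set w : ι → ℝ := fun f => ∑ T' ∈ 𝒯.filter (fun t => f ∈ tri t),
    ∑ g ∈ (tri T').erase f, u g T' ^ 2 with hw
  set I : Finset ι := 𝒯.biUnion tri with hI
  have hswap : ∀ (φ : ι → τ → ℝ), ∑ T ∈ 𝒯, ∑ f ∈ tri T, φ f T =
      ∑ f ∈ I, ∑ T ∈ 𝒯.filter (fun t => f ∈ tri t), φ f T := by
    intro φ
    rw [Finset.sum_comm' (s := I) (t := fun f => 𝒯.filter (fun t => f ∈ tri t)) (s' := fun T => tri T)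
      (t' := 𝒯)]
    intro f T
    simp only [hI, Finset.mem_biUnion, Finset.mem_filter]
    constructor
    · rintro ⟨_, h1, h2⟩; exact ⟨h2, h1⟩
    · rintro ⟨h2, h1⟩; exact ⟨⟨T, h1, h2⟩, h1, h2⟩
  have h2 : QQm 𝒯 tri (KK 𝒯 tri u) ≤ ∑ T ∈ 𝒯, ∑ f ∈ tri T, (2 * Y) * w f := by
    refine Finset.sum_le_sum (fun T hT => Finset.sum_le_sum (fun f hf => h1 T hT f hf))
  have h3' : ∑ T ∈ 𝒯, ∑ f ∈ tri T, (2 * Y) * w f ≤ ∑ f ∈ I, Y * ((2 * Y) * w f) := by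
    rw [hswap]
    refine Finset.sum_le_sum (fun f hf => ?_)
    rw [Finset.sum_const, nsmul_eq_mul]
    have hw0 : 0 ≤ w f := Finset.sum_nonneg (fun _ _ => Finset.sum_nonneg (fun _ _ => sq_nonneg _))
    refine mul_le_mul_of_nonneg_right ?_ (mul_nonneg (by linarith) hw0)
    rw [hI, Finset.mem_biUnion] at hf
    obtain ⟨T, hT, hfT⟩ := hf
    exact hY T hT f hfT
  have h4 : ∑ f ∈ I, w f = 2 * QQm 𝒯 tri u := by
    rw [hw, ← hswap (fun f T' => ∑ g ∈ (tri T').erase f, u g T' ^ 2)]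
    rw [QQm, Finset.mul_sum]
    refine Finset.sum_congr rfl (fun T hT => ?_)
    have h5 : ∀ f ∈ tri T, ∑ g ∈ (tri T).erase f, u g T ^ 2 =
        (∑ g ∈ tri T, u g T ^ 2) - u f T ^ 2 := by
      intro f hf
      rw [← Finset.sum_erase_add _ _ hf]; ring
    rw [Finset.sum_congr rfl h5, Finset.sum_sub_distrib, Finset.sum_const, h3 T hT, nsmul_eq_mul]
    push_cast
    ring
  calc _ ≤ _ := h2
    _ ≤ _ := h3'
    _ = 2 * Y * Y * ∑ f ∈ I, w f := by rw [Finset.mul_sum]; exact Finset.sum_congr rfl (fun _ _ => by ring)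
    _ = _ := by rw [h4]; ring

end Crest.Agent.TRem
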