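import Crest.Agent.TRem.B3a
import Crest.Agent.TRem.B3b

/-!
# Row 30, B3s1a: upper bound, old region
-/

namespace Crest.Agent.TRem

open Finset MeasureTheory

variable {ι τ : Type} [DecidableEq ι] [DecidableEq τ] {𝒯 : Finset τ} {tri : τ → Finset ι}
  {A₀ : Finset ι} {D L : ℝ}

/-- the lower bound claim at level `d` (for all messages of alive hypervertices). -/
def Low (𝒯 : Finset τ) (tri : τ → Finset ι) (A₀ : Finset ι) (D L : ℝ) (d : ℕ) : Prop :=
  ∀ f ∈ A₀, ∀ (x : Option τ) (s : ℝ), 0 ≤ s → s ≤ s3 D L → 20 * s < d →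
    Real.exp (-s * re 𝒯 tri D f - om D L s - 1 / 10 * Wf d s) ≤ ms 𝒯 tri D d false f x s

/-- the upper bound claim at level `d`. -/
def Upp (𝒯 : Finset τ) (tri : τ → Finset ι) (A₀ : Finset ι) (D L : ℝ) (d : ℕ) : Prop :=
  ∀ f ∈ A₀, ∀ (x : Option τ) (s : ℝ), 0 ≤ s → s ≤ s3 D L → 20 * s ≤ d →
    ms 𝒯 tri D d true f x s ≤ Real.exp (-s * re 𝒯 tri D f + om D L s + 1 / 10 * Wf d s)

/-- sum over the children of the sum of the two relative deviations: by `BH.cor` the sum over all
`t ∋ f` is at most `L^5` in absolute value, at most one `t` is excluded (`x`), contributing at most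
`2 / L^400`. -/
theorem sum_ch_re (h : BH 𝒯 tri A₀ D L) {f : ι} (hf : f ∈ A₀) (x : Option τ) :
    |∑ t ∈ ch 𝒯 tri f x, ∑ g ∈ (tri t).erase f, re 𝒯 tri D g| ≤ L ^ 5 + 1 := by
  have hL : (1:ℝ) ≤ L := le_trans (by norm_num) h.L6
  have hcor := h.cor f hf
  set F := 𝒯.filter (fun t => f ∈ tri t) with hF
  have hterm : ∀ t ∈ F, |∑ g ∈ (tri t).erase f, re 𝒯 tri D g| ≤ 1 := by
    intro t ht
    rw [hF, Finset.mem_filter] at ht
    have hc : ((tri t).erase f).card = 2 := by
      rw [Finset.card_erase_of_mem ht.2, h.h3 t ht.1]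
    calc |∑ g ∈ (tri t).erase f, re 𝒯 tri D g|
        ≤ ∑ g ∈ (tri t).erase f, |re 𝒯 tri D g| := Finset.abs_sum_le_sum_abs _ _
      _ ≤ ∑ g ∈ (tri t).erase f, (1 / L ^ 400) :=
          Finset.sum_le_sum (fun g hg => h.re_le (h.hA t ht.1 (Finset.mem_of_mem_erase hg)))
      _ = 2 * (1 / L ^ 400) := by rw [Finset.sum_const, hc]; simp
      _ ≤ 1 := by
          have h10 : (2:ℝ) ≤ L ^ 400 := by
            calc (2:ℝ) ≤ L ^ 1 := by rw [pow_one]; exact le_trans (by norm_num) h.L6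
              _ ≤ L ^ 400 := pow_le_pow_right₀ hL (by norm_num)
          rw [mul_one_div, div_le_one (by positivity)]
          exact h10
  rcases x with _ | t0
  · have : ch 𝒯 tri f none = F := by
      rw [hF]; unfold ch; ext t; simp
    rw [this]; linarith
  · have : ch 𝒯 tri f (some t0) = F.erase t0 := by
      rw [hF]; unfold ch; ext t; simp [Finset.mem_erase, and_comm, and_assoc]
    rw [this]
    by_cases ht0 : t0 ∈ F
    · have h1 := Finset.add_sum_erase F (fun t => ∑ g ∈ (tri t).erase f, re 𝒯 tri D g) ht0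
      have h2 := hterm t0 ht0
      rw [← h1] at hcor
      have h3 := abs_le.mp hcor
      have h4 := abs_le.mp h2
      rw [abs_le]
      constructor <;> linarith [h3.1, h3.2, h4.1, h4.2]
    · rw [Finset.erase_eq_of_notMem ht0]; linarith

/-- number of children: `dg f - 1 ≤ #ch ≤ dg f`. -/
theorem card_ch (f : ι) (x : Option τ) :
    dg 𝒯 tri f - 1 ≤ ((ch 𝒯 tri f x).card : ℝ) ∧ ((ch 𝒯 tri f x).card : ℝ) ≤ dg 𝒯 tri f := by
  unfold dg
  set F := 𝒯.filter (fun t => f ∈ tri t) with hF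
  rcases x with _ | t0
  · have : ch 𝒯 tri f none = F := by
      rw [hF]; unfold ch; ext t; simp
    rw [this]
    constructor <;> linarith
  · have : ch 𝒯 tri f (some t0) = F.erase t0 := by
      rw [hF]; unfold ch; ext t; simp [Finset.mem_erase, and_comm, and_assoc]
    rw [this]
    have h1 : (F.erase t0).card ≤ F.card := Finset.card_erase_le
    have h2 : F.card - 1 ≤ (F.erase t0).card := Finset.pred_card_le_card_erase
    have h3 : F.card ≤ (F.erase t0).card + 1 := by omega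
    have h1' : ((F.erase t0).card : ℝ) ≤ (F.card : ℝ) := by exact_mod_cast h1
    have h3' : (F.card : ℝ) ≤ ((F.erase t0).card : ℝ) + 1 := by exact_mod_cast h3
    constructor <;> linarith

/-- a child hyperedge and its two other hypervertices. -/
private theorem b3s1a_pair (h : BH 𝒯 tri A₀ D L) {f : ι} {x : Option τ} {t : τ}
    (ht : t ∈ ch 𝒯 tri f x) : ∃ g k : ι, g ≠ k ∧ g ∈ A₀ ∧ k ∈ A₀ ∧ (tri t).erase f = {g, k} := by
  unfold ch at ht
  rw [Finset.mem_filter] at ht
  have hc : ((tri t).erase f).card = 2 := by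
    rw [Finset.card_erase_of_mem ht.2.1, h.h3 t ht.1]
  obtain ⟨g, k, hgk, he⟩ := Finset.card_eq_two.mp hc
  refine ⟨g, k, hgk, ?_, ?_, he⟩
  · have : g ∈ (tri t).erase f := by rw [he]; simp
    exact h.hA t ht.1 (Finset.mem_of_mem_erase this)
  · have : k ∈ (tri t).erase f := by rw [he]; simp
    exact h.hA t ht.1 (Finset.mem_of_mem_erase this)

private theorem b3s1a_Wf_cont (d : ℕ) : Continuous (Wf d) := by
  unfold Wf; fun_prop

private theorem b3s1a_om_cont (D L : ℝ) : Continuous (om D L) := by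
  unfold om; fun_prop

private theorem b3s1a_prod_cont (hD : 0 < D) (d : ℕ) (c : Bool) (f : ι) (t : τ) :
    Continuous (fun z => ∏ g ∈ (tri t).erase f, ms 𝒯 tri D d c g (some t) z) :=
  continuous_finsetProd _ (fun g _ => ms_continuous 𝒯 tri hD d c g (some t))

/-- the crude bound `0 ≤ I_t ≤ 1`. -/
private theorem b3s1a_I_le (h : BH 𝒯 tri A₀ D L) (d : ℕ) (c : Bool) {f : ι} {x : Option τ} {t : τ}
    (ht : t ∈ ch 𝒯 tri f x) {s : ℝ} (h0 : 0 ≤ s) (h1 : s ≤ s3 D L) :
    (1 / D) * ∫ z in (0:ℝ)..s, ∏ g ∈ (tri t).erase f, ms 𝒯 tri D d c g (some t) z ≤ 1 := by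
  have hL : (1:ℝ) ≤ L := le_trans (by norm_num) h.L6
  have hL0 : 0 < L := by linarith
  have hD := h.D_pos
  obtain ⟨g, k, hgk, hg, hk, he⟩ := b3s1a_pair h ht
  have hint : ∫ z in (0:ℝ)..s, ∏ g ∈ (tri t).erase f, ms 𝒯 tri D d c g (some t) z ≤
      ∫ z in (0:ℝ)..s, Real.exp (2 * s) := by
    apply intervalIntegral.integral_mono_on h0
    · exact (b3s1a_prod_cont hD d c f t).intervalIntegrable _ _
    · exact continuous_const.intervalIntegrable _ _
    · intro z hz
      have hzS : z ≤ SS D := le_trans hz.2 (le_trans h1 h.s3_le_SS)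
      rw [he, Finset.prod_pair hgk]
      have e1 := ms_le_exp 𝒯 tri hD d c g (some t) hz.1 hzS
      have e2 := ms_le_exp 𝒯 tri hD d c k (some t) hz.1 hzS
      have p1 := ms_nonneg 𝒯 tri hD d c g (some t) hz.1 hzS
      have p2 := ms_nonneg 𝒯 tri hD d c k (some t) hz.1 hzS
      calc ms 𝒯 tri D d c g (some t) z * ms 𝒯 tri D d c k (some t) z
          ≤ Real.exp z * Real.exp z := mul_le_mul e1 e2 p2 (Real.exp_pos z).le
        _ = Real.exp (2 * z) := by rw [← Real.exp_add]; ring_nf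
        _ ≤ Real.exp (2 * s) := Real.exp_le_exp.mpr (by linarith [hz.2])
  rw [intervalIntegral.integral_const] at hint
  simp only [sub_zero, smul_eq_mul] at hint
  have hs3 : s ≤ L / 2 := by
    have := h.s3_le
    have := h.logD
    linarith
  have hexp : Real.exp (2 * s) ≤ D / L ^ 20 := by
    rw [← h.exp_s3]; exact Real.exp_le_exp.mpr (by linarith)
  have hb : s * Real.exp (2 * s) ≤ D := by
    calc s * Real.exp (2 * s) ≤ (L / 2) * (D / L ^ 20) :=
          mul_le_mul hs3 hexp (Real.exp_pos _).le (by linarith)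
      _ = D * (L / (2 * L ^ 20)) := by ring
      _ ≤ D * 1 := by
          apply mul_le_mul_of_nonneg_left _ hD.le
          rw [div_le_one (by positivity)]
          have : L ^ 1 ≤ L ^ 20 := pow_le_pow_right₀ hL (by norm_num)
          rw [pow_one] at this
          have : 0 < L ^ 20 := by positivity
          linarith
      _ = D := mul_one D
  rw [one_div, inv_mul_le_iff₀ hD, mul_one]
  linarith

/-- OLD REGION, UPPER. With `I_t = (1/D)∫_0^s Π_g ms d false` (`ms_succ`),
`ms (d+1) true = e^s Π(1-I_t) ≤ exp(s - Σ I_t)`. For `z < s` we have `20 z < d`, so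
`Π_g ms d false ≥ exp(-z(r_g+r_h) - 2 om z - 0.2 W_d z) ≥ 1 - z(r_g+r_h) - 2 om z - 0.2 W_d z`
(`Real.add_one_le_exp`; `(tri t).erase f = {g, h}`, `g,h ∈ A₀`). Integrate and sum over the
children (`card_ch`, `sum_ch_re`, `dg f = D(1+r_f)`):
`s - Σ I ≤ -s r_f + s/D + (s²/(2D))(L^5+1) + (1+δ)(2∫om + 0.2∫W_d)`, `δ = L^{-400}`.
`(1+δ)·2∫om = (1+δ)/(1+1/log D) (om s - om 0) ≤ om s - om 0` (`BH.int_om`, `log D ≤ L`),
`om 0 = 2L^8/D ≥ s/D + (s²/2D)(L^5+1)` since `s ≤ L/2`;
`(1+δ)·0.2∫W_d ≤ 0.0101 W_d(s) = 0.0101 e W_{d+1}(s) ≤ 0.03 W_{d+1}(s)`. -/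
theorem up_old (h : BH 𝒯 tri A₀ D L) (d : ℕ) (hlow : Low 𝒯 tri A₀ D L d) {f : ι} (hf : f ∈ A₀)
    (x : Option τ) {s : ℝ} (h0 : 0 ≤ s) (h1 : s ≤ s3 D L) (h2 : 20 * s ≤ d) :
    ms 𝒯 tri D (d + 1) true f x s ≤
      Real.exp (-s * re 𝒯 tri D f + om D L s + 3 / 100 * Wf (d + 1) s) := by
  have hL : (1:ℝ) ≤ L := le_trans (by norm_num) h.L6
  have hL0 : 0 < L := by linarith
  have hD := h.D_pos
  have hsSS : s ≤ SS D := le_trans h1 h.s3_le_SS
  have hs3 : s ≤ L / 2 := by
    have := h.s3_le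
    have := h.logD
    linarith
  rw [ms_succ 𝒯 tri hD h.h3 d true f x s]
  set I : τ → ℝ := fun t => (1 / D) * ∫ z in (0:ℝ)..s, ∏ g ∈ (tri t).erase f,
    ms 𝒯 tri D d (!true) g (some t) z with hI
  -- the product is at most the exponential of minus the sum
  have hprod : ∏ t ∈ ch 𝒯 tri f x, (1 - I t) ≤ Real.exp (-∑ t ∈ ch 𝒯 tri f x, I t) := by
    rw [← Finset.sum_neg_distrib, Real.exp_sum]
    apply Finset.prod_le_prod
    · intro t ht
      have := b3s1a_I_le h d (!true) ht h0 h1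
      simp only [hI]; linarith
    · intro t ht
      have := Real.add_one_le_exp (-(I t))
      linarith
  have hmul : Real.exp s * ∏ t ∈ ch 𝒯 tri f x, (1 - I t) ≤
      Real.exp (s - ∑ t ∈ ch 𝒯 tri f x, I t) := by
    rw [sub_eq_add_neg, Real.exp_add]
    exact mul_le_mul_of_nonneg_left hprod (Real.exp_pos s).le
  refine le_trans hmul (Real.exp_le_exp.mpr ?_)
  -- lower bound for each integral
  set A := ∫ z in (0:ℝ)..s, om D L z with hA
  set B := ∫ z in (0:ℝ)..s, Wf d z with hB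
  have hA0 : 0 ≤ A := intervalIntegral.integral_nonneg h0 (fun z _ => om_nonneg hD hL0)
  have hB0 : 0 ≤ B := intervalIntegral.integral_nonneg h0 (fun z _ => (Real.exp_pos _).le)
  have hIt : ∀ t ∈ ch 𝒯 tri f x, (1 / D) * (s - (2 * A + 1 / 5 * B)
      - s ^ 2 / 2 * ∑ g ∈ (tri t).erase f, re 𝒯 tri D g) ≤ I t := by
    intro t ht
    simp only [hI]
    apply mul_le_mul_of_nonneg_left _ (by positivity)
    obtain ⟨g, k, hgk, hg, hk, he⟩ := b3s1a_pair h ht
    have hcalc : s - (2 * A + 1 / 5 * B) - s ^ 2 / 2 * ∑ g ∈ (tri t).erase f, re 𝒯 tri D g =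
        ∫ z in (0:ℝ)..s, (1 - z * (∑ g ∈ (tri t).erase f, re 𝒯 tri D g) -
          (2 * om D L z + 1 / 5 * Wf d z)) := by
      rw [intervalIntegral.integral_sub, intervalIntegral.integral_sub,
        intervalIntegral.integral_add, intervalIntegral.integral_const,
        intervalIntegral.integral_mul_const, intervalIntegral.integral_const_mul,
        intervalIntegral.integral_const_mul, integral_id]
      · simp only [sub_zero, smul_eq_mul, mul_one, ← hA, ← hB]; ring
      all_goals apply Continuous.intervalIntegrable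
      · exact continuous_const.mul (b3s1a_om_cont D L)
      · exact continuous_const.mul (b3s1a_Wf_cont d)
      · fun_prop
      · fun_prop
      · fun_prop
      · exact (continuous_const.mul (b3s1a_om_cont D L)).add
          (continuous_const.mul (b3s1a_Wf_cont d))
    rw [hcalc]
    apply intervalIntegral.integral_mono_on_of_le_Ioo h0
    · apply Continuous.intervalIntegrable
      exact ((continuous_const.sub (continuous_id.mul continuous_const))).sub
        ((continuous_const.mul (b3s1a_om_cont D L)).add (continuous_const.mul (b3s1a_Wf_cont d)))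
    · exact (b3s1a_prod_cont hD d (!true) f t).intervalIntegrable _ _
    · intro z hz
      have hz3 : z ≤ s3 D L := by linarith [hz.2]
      have hzd : 20 * z < d := by linarith [hz.2]
      have l1 := hlow g hg (some t) z hz.1.le hz3 hzd
      have l2 := hlow k hk (some t) z hz.1.le hz3 hzd
      rw [he, Finset.prod_pair hgk, Finset.sum_pair hgk]
      calc 1 - z * (re 𝒯 tri D g + re 𝒯 tri D k) - (2 * om D L z + 1 / 5 * Wf d z)
          ≤ Real.exp ((-z * re 𝒯 tri D g - om D L z - 1 / 10 * Wf d z) +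
              (-z * re 𝒯 tri D k - om D L z - 1 / 10 * Wf d z)) := by
            have := Real.add_one_le_exp ((-z * re 𝒯 tri D g - om D L z - 1 / 10 * Wf d z) +
              (-z * re 𝒯 tri D k - om D L z - 1 / 10 * Wf d z))
            linarith
        _ = Real.exp (-z * re 𝒯 tri D g - om D L z - 1 / 10 * Wf d z) *
              Real.exp (-z * re 𝒯 tri D k - om D L z - 1 / 10 * Wf d z) := Real.exp_add _ _
        _ ≤ ms 𝒯 tri D d (!true) g (some t) z * ms 𝒯 tri D d (!true) k (some t) z :=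
            mul_le_mul l1 l2 (Real.exp_pos _).le (le_trans (Real.exp_pos _).le l1)
  have hsum : ∑ t ∈ ch 𝒯 tri f x, (1 / D) * (s - (2 * A + 1 / 5 * B)
      - s ^ 2 / 2 * ∑ g ∈ (tri t).erase f, re 𝒯 tri D g) ≤ ∑ t ∈ ch 𝒯 tri f x, I t :=
    Finset.sum_le_sum hIt
  rw [← Finset.mul_sum, Finset.sum_sub_distrib, Finset.sum_const, nsmul_eq_mul,
    ← Finset.mul_sum] at hsum
  set m : ℝ := ((ch 𝒯 tri f x).card : ℝ) with hm
  set R := ∑ t ∈ ch 𝒯 tri f x, ∑ g ∈ (tri t).erase f, re 𝒯 tri D g with hR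
  have hRle : R ≤ L ^ 5 + 1 := (abs_le.mp (sum_ch_re h hf x)).2
  obtain ⟨hm1, hm2⟩ := card_ch (𝒯 := 𝒯) (tri := tri) f x
  rw [← hm] at hm1 hm2
  have hdg := h.dg_eq f
  set r := re 𝒯 tri D f with hr
  have hrle := h.re_le hf
  rw [← hr] at hrle
  have hr1 : r ≤ 1 / L ^ 400 := (abs_le.mp hrle).2
  have hr2 : -(1 / L ^ 400) ≤ r := (abs_le.mp hrle).1
  rw [hdg] at hm1 hm2
  set K := 2 * A + 1 / 5 * B with hK
  have hK0 : 0 ≤ K := by positivity
  -- lower bound of the sum
  have hlow1 : D * (1 + r) * (s - K) - s - s ^ 2 / 2 * (L ^ 5 + 1) ≤ m * (s - K) - s ^ 2 / 2 * R := by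
    have e1 : (D * (1 + r) - 1) * s ≤ m * s := mul_le_mul_of_nonneg_right hm1 h0
    have e2 : m * K ≤ D * (1 + r) * K := mul_le_mul_of_nonneg_right hm2 hK0
    have e3 : s ^ 2 / 2 * R ≤ s ^ 2 / 2 * (L ^ 5 + 1) :=
      mul_le_mul_of_nonneg_left hRle (by positivity)
    nlinarith
  have hlow2 : (1 + r) * (s - K) - (s + s ^ 2 / 2 * (L ^ 5 + 1)) / D ≤
      ∑ t ∈ ch 𝒯 tri f x, I t := by
    refine le_trans ?_ hsum
    have e4 : (1 + r) * (s - K) - (s + s ^ 2 / 2 * (L ^ 5 + 1)) / D =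
        (1 / D) * (D * (1 + r) * (s - K) - s - s ^ 2 / 2 * (L ^ 5 + 1)) := by
      field_simp; ring
    rw [e4]
    exact mul_le_mul_of_nonneg_left hlow1 (by positivity)
  -- `om 0` absorbs the linear terms
  have hom0 : (s + s ^ 2 / 2 * (L ^ 5 + 1)) / D ≤ om D L 0 := by
    have e5 : om D L 0 = 2 * L ^ 8 / D := by
      unfold om; rw [mul_zero, Real.exp_zero]; ring
    rw [e5]
    apply div_le_div_of_nonneg_right _ hD.le
    have hs2 : s ^ 2 ≤ (L / 2) ^ 2 := pow_le_pow_left₀ h0 hs3 2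
    have e6 : s ^ 2 / 2 * (L ^ 5 + 1) ≤ (L / 2) ^ 2 / 2 * (L ^ 5 + 1) :=
      mul_le_mul_of_nonneg_right (by linarith) (by positivity)
    have p1 : L ≤ L ^ 8 := by
      calc L = L ^ 1 := (pow_one L).symm
        _ ≤ L ^ 8 := pow_le_pow_right₀ hL (by norm_num)
    have p2 : L ^ 7 ≤ L ^ 8 := pow_le_pow_right₀ hL (by norm_num)
    have p3 : L ^ 2 ≤ L ^ 8 := pow_le_pow_right₀ hL (by norm_num)
    nlinarith
  -- the integral of `om`
  have hintom := h.int_om s
  rw [← hA] at hintom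
  have hlog1 := h.one_le_logD
  have hlogL := h.logD
  set η := 1 / Real.log D with hη
  have hη0 : 0 < η := by positivity
  have hηL : 1 / L ≤ η := one_div_le_one_div_of_le (by linarith) hlogL
  have hδη : 1 / L ^ 400 ≤ η := by
    refine le_trans ?_ hηL
    apply one_div_le_one_div_of_le hL0
    calc L = L ^ 1 := (pow_one L).symm
      _ ≤ L ^ 400 := pow_le_pow_right₀ hL (by norm_num)
  have hom : (1 + r) * (2 * A) ≤ om D L s - om D L 0 := by
    have e7 : om D L s - om D L 0 = 2 * (1 + η) * A := by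
      rw [hintom]; field_simp
    rw [e7]
    have e7' : (1 + r) * (2 * A) ≤ (1 + η) * (2 * A) :=
      mul_le_mul_of_nonneg_right (by linarith) (by positivity)
    linarith
  -- the integral of `Wf`
  have hW := int_Wf d s
  rw [← hB, Wf_succ d s] at hW
  have hWpos : 0 < Wf (d + 1) s := Real.exp_pos _
  have hWf : (1 + r) * (1 / 5 * B) ≤ 3 / 100 * Wf (d + 1) s := by
    have hexp1 : Real.exp 1 < 2.7182818286 := Real.exp_one_lt_d9
    have hr3 : r ≤ 1 / 1000 := by
      refine le_trans hr1 ?_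
      apply one_div_le_one_div_of_le (by norm_num)
      calc (1000:ℝ) ≤ L := le_trans (by norm_num) h.L6
        _ = L ^ 1 := (pow_one L).symm
        _ ≤ L ^ 400 := pow_le_pow_right₀ hL (by norm_num)
    have e8 : (1 + r) * (1 / 5 * B) ≤ (1 + 1 / 1000) * (1 / 5 * B) :=
      mul_le_mul_of_nonneg_right (by linarith) (by positivity)
    have e9 : Real.exp 1 * Wf (d + 1) s ≤ 2.7182818286 * Wf (d + 1) s :=
      mul_le_mul_of_nonneg_right hexp1.le hWpos.le
    norm_num at e8 e9 ⊢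
    linarith
  have e10 : (1 + r) * K = (1 + r) * (2 * A) + (1 + r) * (1 / 5 * B) := by rw [hK]; ring
  have e11 : (1 + r) * (s - K) = s + s * r - (1 + r) * K := by ring
  rw [e11, e10] at hlow2
  have e12 : -s * r = -(s * r) := by ring
  rw [e12]
  linarith

end Crest.Agent.TRem
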