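import Crest.Agent.TRem.B3s1a

/-!
# Row 30, B3s1b: upper and lower bounds, new region `d ≤ 20 s ≤ d+1`
-/

namespace Crest.Agent.TRem

open Finset MeasureTheory

variable {ι τ : Type} [DecidableEq ι] [DecidableEq τ] {𝒯 : Finset τ} {tri : τ → Finset ι}
  {A₀ : Finset ι} {D L : ℝ}

private theorem om_mono (h : BH 𝒯 tri A₀ D L) {s s' : ℝ} (hs : s ≤ s') :
    om D L s ≤ om D L s' := by
  have hD := h.D_pos
  have hL := h.L_pos
  have hlog : 0 < Real.log D := lt_of_lt_of_le one_pos h.one_le_logD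
  unfold om
  apply mul_le_mul_of_nonneg_left _ (by positivity)
  apply Real.exp_le_exp.2
  apply mul_le_mul_of_nonneg_left hs (by positivity)

private theorem L400 (h : BH 𝒯 tri A₀ D L) : 1 / L ^ 400 ≤ 1 / 10 ^ 6 ∧
    L / L ^ 400 ≤ 1 / 10 ^ 6 ∧ L / D ≤ 1 / 10 ^ 6 ∧ 6 / L ^ 12 ≤ 1 / 10 ^ 6 := by
  have hL := h.L_pos
  have hL6 := h.L6
  have hL1 : 1 ≤ L := le_trans (by norm_num) hL6
  have hpow : ∀ {a b : ℕ}, a ≤ b → L ^ a ≤ L ^ b := fun hab => pow_le_pow_right₀ hL1 hab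
  refine ⟨?_, ?_, ?_, ?_⟩
  · apply one_div_le_one_div_of_le (by norm_num)
    have := hpow (show 1 ≤ 400 by norm_num)
    rw [pow_one] at this
    linarith
  · rw [div_le_div_iff₀ (pow_pos hL 400) (by norm_num)]
    have e1 : L * 10 ^ 6 ≤ L * L := by gcongr
    have e2 : L * L = L ^ 2 := by ring
    have e3 := hpow (show 2 ≤ 400 by norm_num)
    linarith
  · rw [div_le_div_iff₀ h.D_pos (by norm_num)]
    have e1 : L * 10 ^ 6 ≤ L * L := by gcongr
    have e2 : L * L = L ^ 2 := by ring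
    have e3 := hpow (show 2 ≤ 1000 by norm_num)
    have := h.hD
    linarith
  · rw [div_le_div_iff₀ (by positivity) (by norm_num)]
    have e1 : 6 * 10 ^ 6 ≤ L * L := by nlinarith
    have e2 : L * L = L ^ 2 := by ring
    have e3 := hpow (show 2 ≤ 12 by norm_num)
    linarith

/-- NEW REGION, UPPER. `s_d = d/20 ≤ s ≤ s3`, `x = s - s_d ∈ [0,1/20]`. `ms_growth`:
`ms (d+1) true (s) ≤ e^x ms (d+1) true (s_d)`, `W_{d+1}(s_d) = e^{-1}`, `W_{d+1}(s) = e^{-1+20x}`,
and `x(1+r_f) + 0.03 e^{-1} ≤ 0.1 e^{-1+20x}` (`num_new_up`), `om` is increasing. -/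
theorem up_new (h : BH 𝒯 tri A₀ D L) (d : ℕ) {f : ι} (hf : f ∈ A₀) (x : Option τ) {s : ℝ}
    (h1 : s ≤ s3 D L) (h2 : (d : ℝ) ≤ 20 * s) (h3 : 20 * s ≤ d + 1)
    (hold : ms 𝒯 tri D (d + 1) true f x (d / 20) ≤
      Real.exp (-(d / 20) * re 𝒯 tri D f + om D L (d / 20) + 3 / 100 * Wf (d + 1) (d / 20))) :
    ms 𝒯 tri D (d + 1) true f x s ≤
      Real.exp (-s * re 𝒯 tri D f + om D L s + 1 / 10 * Wf (d + 1) s) := by
  have hd0 : (0:ℝ) ≤ d / 20 := by positivity
  have hds : (d:ℝ) / 20 ≤ s := by linarith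
  have hg := ms_growth 𝒯 tri h.D_pos (d + 1) true f x hd0 hds (le_trans h1 h.s3_le_SS)
  refine le_trans hg ?_
  refine le_trans (mul_le_mul_of_nonneg_left hold (Real.exp_pos _).le) ?_
  rw [← Real.exp_add]
  apply Real.exp_le_exp.2
  have hW1 : Wf (d + 1) (d / 20) = Real.exp (-1) := by
    unfold Wf; congr 1; push_cast; ring
  have hW2 : Wf (d + 1) s = Real.exp (-1 + 20 * (s - d / 20)) := by
    unfold Wf; congr 1; push_cast; ring
  rw [hW1, hW2]
  have hn := num_new_up (x := s - d / 20) (by linarith) (by linarith)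
  have ho := om_mono h hds
  have hr := (abs_le.1 (h.re_le hf))
  have h4 := (L400 h).1
  norm_num at h4
  have hx0 : 0 ≤ s - d / 20 := by linarith
  have hr2 : (s - d / 20) * re 𝒯 tri D f ≤ (s - d / 20) * (1 / 10) := by
    apply mul_le_mul_of_nonneg_left _ hx0
    have := hr.2
    norm_num at this ⊢
    linarith
  nlinarith

private theorem pair_prod_le (h3 : ∀ t ∈ 𝒯, (tri t).card = 3) {t : τ} {f : ι} {x : Option τ}
    (ht : t ∈ ch 𝒯 tri f x) {F : ι → ℝ} {B : ℝ} (h0 : ∀ g ∈ (tri t).erase f, 0 ≤ F g)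
    (hB : ∀ g ∈ (tri t).erase f, F g ≤ B) : ∏ g ∈ (tri t).erase f, F g ≤ B ^ 2 := by
  unfold ch at ht
  rw [Finset.mem_filter] at ht
  have hc : ((tri t).erase f).card = 2 := by
    rw [Finset.card_erase_of_mem ht.2.1, h3 t ht.1]
  calc ∏ g ∈ (tri t).erase f, F g ≤ ∏ _g ∈ (tri t).erase f, B := Finset.prod_le_prod h0 hB
    _ = B ^ 2 := by rw [Finset.prod_const, hc]

private theorem one_sub_exp {I J : ℝ} (_hI : 0 ≤ I) (hJ : 0 ≤ J) (hIJ : I + J ≤ 1 / 1000) :
    (1 - I) * Real.exp (-(101 / 100 * J)) ≤ 1 - (I + J) := by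
  have h1 : Real.exp (-(101 / 100 * J)) ≤ 1 / (1 + 101 / 100 * J) := by
    rw [Real.exp_neg, ← one_div]
    apply one_div_le_one_div_of_le (by positivity)
    linarith [Real.add_one_le_exp (101 / 100 * J)]
  have h2 : (1 - I) * Real.exp (-(101 / 100 * J)) ≤ (1 - I) * (1 / (1 + 101 / 100 * J)) :=
    mul_le_mul_of_nonneg_left h1 (by linarith)
  refine le_trans h2 ?_
  rw [mul_one_div, div_le_iff₀ (by positivity)]
  nlinarith

private theorem exp_small {ε : ℝ} (hε : ε ≤ 1 / 10000) :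
    Real.exp (1 / 10 + ε) ^ 2 ≤ 1235 / 1000 := by
  have h1 : Real.exp (1 / 10 + ε) ≤ Real.exp (1001 / 10000) := Real.exp_le_exp.2 (by linarith)
  have h2 : Real.exp (1001 / 10000) ≤ 1 / (1 - 1001 / 10000) := by
    have h3 := Real.add_one_le_exp (-(1001 / 10000 : ℝ))
    rw [Real.exp_neg] at h3
    have h4 := Real.exp_pos (1001 / 10000 : ℝ)
    rw [le_div_iff₀ (by norm_num)]
    have h5 : Real.exp (1001 / 10000) * (-(1001 / 10000) + 1) ≤
        Real.exp (1001 / 10000) * (Real.exp (1001 / 10000))⁻¹ :=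
      mul_le_mul_of_nonneg_left h3 h4.le
    rw [mul_inv_cancel₀ h4.ne'] at h5
    linarith
  have h3 : Real.exp (1 / 10 + ε) ≤ 11113 / 10000 := by
    refine le_trans h1 (le_trans h2 ?_)
    norm_num
  have h4 := Real.exp_pos (1 / 10 + ε)
  calc Real.exp (1 / 10 + ε) ^ 2 ≤ (11113 / 10000) ^ 2 := by gcongr
    _ ≤ 1235 / 1000 := by norm_num

/-- NEW REGION, LOWER. `I_t(s) = I_t(s_d) + J_t`, `J_t = (1/D)∫_{s_d}^s Π_g ms d true`; for
`z ∈ [s_d, s]`: `ms d true g z ≤ e^{z-s_d} ms d true g s_d ≤ exp(z - s_d - s_d r_g + om s_d + 0.1)`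
(`ms_growth`, `Upp` at `s_d`, `W_d(s_d) = 1`), so the product is `≤ 1.24 e^{2(z-s_d)}`
(`e^{0.2} ≤ 1.2215`, `s_d |r| ≤ L^{-399}`, `om ≤ 6/L^12`), and
`J_t ≤ (1.24/D)(e^{2x}-1)/2`. Since `I_t(s) ≤ 2 s/D ≤ 1/1000` (crude),
`log(1-I_t(s)) ≥ log(1-I_t(s_d)) - 1.001 J_t`. Sum over at most `D(1+δ)` children:
`log ms (d+1) false (s) ≥ log ms (d+1) false (s_d) + x - 1.25 (e^{2x}-1)/2`, and conclude with
`num_new_lo` (slack `1/1000` absorbs `x |r_f|`). One may avoid logarithms: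
`1-I-J ≥ (1-I) exp(-1.001 J)` for `0 ≤ I, J`, `I + J ≤ 1/1000`. -/
theorem lo_new (h : BH 𝒯 tri A₀ D L) (d : ℕ) (hup : Upp 𝒯 tri A₀ D L d) {f : ι} (hf : f ∈ A₀)
    (x : Option τ) {s : ℝ} (h1 : s ≤ s3 D L) (h2 : (d : ℝ) ≤ 20 * s) (h3 : 20 * s ≤ d + 1)
    (hold : Real.exp (-(d / 20) * re 𝒯 tri D f - om D L (d / 20) - 1 / 25 * Wf (d + 1) (d / 20)) ≤
      ms 𝒯 tri D (d + 1) false f x (d / 20)) :
    Real.exp (-s * re 𝒯 tri D f - om D L s - 1 / 10 * Wf (d + 1) s) ≤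
      ms 𝒯 tri D (d + 1) false f x s := by
  have hD := h.D_pos
  have hL := h.L_pos
  obtain ⟨q1, q2, q3, q4⟩ := L400 h
  set sd : ℝ := (d:ℝ) / 20 with hsd
  have hd0 : 0 ≤ sd := by positivity
  have hds : sd ≤ s := by rw [hsd]; linarith
  have hs0 : 0 ≤ s := le_trans hd0 hds
  have hsS : s ≤ SS D := le_trans h1 h.s3_le_SS
  have hsd3 : sd ≤ s3 D L := le_trans hds h1
  have hx1 : s - sd ≤ 1 / 20 := by rw [hsd]; linarith
  have hsL : s3 D L ≤ L / 2 := le_trans h.s3_le (by linarith [h.logD])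
  -- pointwise bounds on the messages
  have hexp : ∀ g ∈ A₀, ∀ z, 0 ≤ z → z ≤ s3 D L → Wf d z ≤ 1 →
      -z * re 𝒯 tri D g + om D L z + 1 / 10 * Wf d z ≤ 1 / 10 + 1 / 10000 := by
    intro g hg z hz0 hz hW
    have e1 := h.re_le hg
    have e2 : -z * re 𝒯 tri D g ≤ L / L ^ 400 := by
      have e3 : |-z * re 𝒯 tri D g| ≤ L * (1 / L ^ 400) := by
        rw [abs_mul, abs_neg, abs_of_nonneg hz0]
        apply mul_le_mul _ e1 (abs_nonneg _) hL.le
        linarith
      have e4 := le_abs_self (-z * re 𝒯 tri D g)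
      have e5 : L * (1 / L ^ 400) = L / L ^ 400 := by ring
      rw [e5] at e3
      linarith
    have e3 := h.om_le hz
    norm_num at q2 q4
    linarith
  have hB1 : ∀ g ∈ A₀, ∀ y : Option τ, ∀ z, 0 ≤ z → z ≤ sd →
      ms 𝒯 tri D d true g y z ≤ Real.exp (1 / 10 + 1 / 10000) := by
    intro g hg y z hz0 hz
    refine le_trans (hup g hg y z hz0 (le_trans hz hsd3) ?_) ?_
    · have : z ≤ d / 20 := hz
      linarith
    · apply Real.exp_le_exp.2
      apply hexp g hg z hz0 (le_trans hz hsd3)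
      unfold Wf
      rw [Real.exp_le_one_iff]
      have : z ≤ d / 20 := hz
      linarith
  have hB2 : ∀ g ∈ A₀, ∀ y : Option τ, ∀ z, sd ≤ z → z ≤ s →
      ms 𝒯 tri D d true g y z ≤ Real.exp (z - sd) * Real.exp (1 / 10 + 1 / 10000) := by
    intro g hg y z hz hz'
    refine le_trans (ms_growth 𝒯 tri hD d true g y hd0 hz (le_trans hz' hsS)) ?_
    exact mul_le_mul_of_nonneg_left (hB1 g hg y sd hd0 le_rfl) (Real.exp_pos _).le
  -- the integrand
  set F : τ → ℝ → ℝ := fun t z => ∏ g ∈ (tri t).erase f, ms 𝒯 tri D d true g (some t) z with hF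
  have hFc : ∀ t, Continuous (F t) := by
    intro t
    apply continuous_finsetProd
    intro g _
    exact ms_continuous 𝒯 tri hD d true g (some t)
  have hFi : ∀ t (a b : ℝ), IntervalIntegrable (F t) volume a b :=
    fun t a b => (hFc t).intervalIntegrable a b
  have hA : ∀ t ∈ ch 𝒯 tri f x, ∀ g ∈ (tri t).erase f, g ∈ A₀ := by
    intro t ht g hg
    unfold ch at ht
    rw [Finset.mem_filter] at ht
    exact h.hA t ht.1 (Finset.mem_of_mem_erase hg)
  have hF0 : ∀ t z, 0 ≤ z → z ≤ s → 0 ≤ F t z := by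
    intro t z hz0 hz
    exact Finset.prod_nonneg fun g _ => ms_nonneg 𝒯 tri hD d true g (some t) hz0 (le_trans hz hsS)
  have hes := exp_small (ε := 1 / 10000) le_rfl
  have hF1 : ∀ t ∈ ch 𝒯 tri f x, ∀ z, 0 ≤ z → z ≤ sd → F t z ≤ 1235 / 1000 := by
    intro t ht z hz0 hz
    refine le_trans (pair_prod_le h.h3 ht (fun g _ =>
      ms_nonneg 𝒯 tri hD d true g (some t) hz0 (le_trans hz (le_trans hds hsS)))
      (fun g hg => hB1 g (hA t ht g hg) (some t) z hz0 hz)) hes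
  have hF2 : ∀ t ∈ ch 𝒯 tri f x, ∀ z, sd ≤ z → z ≤ s →
      F t z ≤ 1235 / 1000 * Real.exp (2 * (z - sd)) := by
    intro t ht z hz hz'
    refine le_trans (pair_prod_le h.h3 ht (fun g _ =>
      ms_nonneg 𝒯 tri hD d true g (some t) (le_trans hd0 hz) (le_trans hz' hsS))
      (fun g hg => hB2 g (hA t ht g hg) (some t) z hz hz')) ?_
    have e1 : (Real.exp (z - sd) * Real.exp (1 / 10 + 1 / 10000)) ^ 2 =
        Real.exp (1 / 10 + 1 / 10000) ^ 2 * Real.exp (2 * (z - sd)) := by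
      rw [mul_pow, ← Real.exp_nat_mul (z - sd)]; push_cast; ring
    rw [e1]
    exact mul_le_mul_of_nonneg_right hes (Real.exp_pos _).le
  -- the integrals
  set I : τ → ℝ := fun t => (1 / D) * ∫ z in (0:ℝ)..sd, F t z with hI
  set J : τ → ℝ := fun t => (1 / D) * ∫ z in sd..s, F t z with hJ
  have hIJ : ∀ t, (1 / D) * ∫ z in (0:ℝ)..s, F t z = I t + J t := by
    intro t
    rw [hI, hJ]
    simp only
    rw [← mul_add, intervalIntegral.integral_add_adjacent_intervals (hFi t _ _) (hFi t _ _)]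
  have hI0 : ∀ t, 0 ≤ I t := by
    intro t
    apply mul_nonneg (by positivity)
    apply intervalIntegral.integral_nonneg hd0
    intro z hz
    exact hF0 t z hz.1 (le_trans hz.2 hds)
  have hJ0 : ∀ t, 0 ≤ J t := by
    intro t
    apply mul_nonneg (by positivity)
    apply intervalIntegral.integral_nonneg hds
    intro z hz
    exact hF0 t z (le_trans hd0 hz.1) hz.2
  have hx0 : 0 ≤ s - sd := by linarith
  have hIle : ∀ t ∈ ch 𝒯 tri f x, I t ≤ 1235 / 1000 * (L / D) := by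
    intro t ht
    have e1 : ∫ z in (0:ℝ)..sd, F t z ≤ ∫ _z in (0:ℝ)..sd, (1235 / 1000 : ℝ) := by
      apply intervalIntegral.integral_mono_on hd0 (hFi t _ _) (by simp)
      intro z hz
      exact hF1 t ht z hz.1 hz.2
    rw [intervalIntegral.integral_const, smul_eq_mul, sub_zero] at e1
    calc I t = (1 / D) * ∫ z in (0:ℝ)..sd, F t z := rfl
      _ ≤ (1 / D) * (sd * (1235 / 1000)) := by gcongr
      _ ≤ (1 / D) * (L * (1235 / 1000)) := by
          gcongr
          linarith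
      _ = _ := by ring
  have hexp2 : ∫ z in sd..s, (1235 / 1000 : ℝ) * Real.exp (2 * (z - sd)) =
      1235 / 1000 * ((Real.exp (2 * (s - sd)) - 1) / 2) := by
    have e1 : ∀ z ∈ Set.uIcc sd s, HasDerivAt
        (fun z => (1235 / 1000 : ℝ) * (Real.exp (2 * (z - sd)) / 2))
        ((1235 / 1000 : ℝ) * Real.exp (2 * (z - sd))) z := by
      intro z _
      have e2 : HasDerivAt (fun z : ℝ => 2 * (z - sd)) (2 * 1) z :=
        ((hasDerivAt_id z).sub_const sd).const_mul 2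
      refine (((e2.exp).div_const 2).const_mul _).congr_deriv ?_
      ring
    rw [intervalIntegral.integral_eq_sub_of_hasDerivAt e1]
    · rw [sub_self, mul_zero, Real.exp_zero]; ring
    · apply Continuous.intervalIntegrable
      fun_prop
  have hJle : ∀ t ∈ ch 𝒯 tri f x,
      J t ≤ (1 / D) * (1235 / 1000 * ((Real.exp (2 * (s - sd)) - 1) / 2)) := by
    intro t ht
    have e1 : ∫ z in sd..s, F t z ≤
        ∫ z in sd..s, (1235 / 1000 : ℝ) * Real.exp (2 * (z - sd)) := by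
      apply intervalIntegral.integral_mono_on hds (hFi t _ _)
      · apply Continuous.intervalIntegrable; fun_prop
      · intro z hz
        exact hF2 t ht z hz.1 hz.2
    rw [hexp2] at e1
    exact mul_le_mul_of_nonneg_left e1 (by positivity)
  have hex : Real.exp (2 * (s - sd)) - 1 ≤ 1 / 4 := by
    have h6 : |Real.exp (2 * (s - sd)) - 1 - 2 * (s - sd)| ≤ (2 * (s - sd)) ^ 2 := by
      apply Real.abs_exp_sub_one_sub_id_le
      rw [abs_of_nonneg (by linarith)]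
      linarith
    have h7 := (abs_le.1 h6).2
    nlinarith
  have hex0 : 0 ≤ Real.exp (2 * (s - sd)) - 1 := by
    have := Real.add_one_le_exp (2 * (s - sd))
    linarith
  have hIJ1 : ∀ t ∈ ch 𝒯 tri f x, I t + J t ≤ 1 / 1000 := by
    intro t ht
    have e1 := hIle t ht
    have e2 := hJle t ht
    have e3 : (1 / D) * (1235 / 1000 * ((Real.exp (2 * (s - sd)) - 1) / 2)) ≤ 1 / D := by
      have e4 : 1235 / 1000 * ((Real.exp (2 * (s - sd)) - 1) / 2) ≤ 1 := by linarith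
      have e5 : 0 < 1 / D := by positivity
      nlinarith
    have e4 : 1 / D ≤ L / D := by
      apply div_le_div_of_nonneg_right _ hD.le
      exact le_trans (by norm_num) h.L6
    norm_num at q3
    linarith
  -- the product
  have hprod : (∏ t ∈ ch 𝒯 tri f x, (1 - I t)) *
      Real.exp (-(101 / 100 * ∑ t ∈ ch 𝒯 tri f x, J t)) ≤
      ∏ t ∈ ch 𝒯 tri f x, (1 - (I t + J t)) := by
    have e1 : Real.exp (-(101 / 100 * ∑ t ∈ ch 𝒯 tri f x, J t)) =
        ∏ t ∈ ch 𝒯 tri f x, Real.exp (-(101 / 100 * J t)) := by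
      rw [← Real.exp_sum]
      congr 1
      rw [Finset.mul_sum, Finset.sum_neg_distrib]
    rw [e1, ← Finset.prod_mul_distrib]
    apply Finset.prod_le_prod
    · intro t ht
      have e2 := hIJ1 t ht
      have e3 := hJ0 t
      exact mul_nonneg (by linarith) (Real.exp_pos _).le
    · intro t ht
      exact one_sub_exp (hI0 t) (hJ0 t) (hIJ1 t ht)
  have hms1 : ms 𝒯 tri D (d + 1) false f x s =
      Real.exp s * ∏ t ∈ ch 𝒯 tri f x, (1 - (I t + J t)) := by
    rw [ms_succ 𝒯 tri hD h.h3 d false f x s]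
    congr 1
    refine Finset.prod_congr rfl fun t _ => ?_
    rw [← hIJ t]
    rfl
  have hms2 : ms 𝒯 tri D (d + 1) false f x sd =
      Real.exp sd * ∏ t ∈ ch 𝒯 tri f x, (1 - I t) := by
    rw [ms_succ 𝒯 tri hD h.h3 d false f x sd]
    rfl
  have hsumJ : 101 / 100 * ∑ t ∈ ch 𝒯 tri f x, J t ≤
      5 / 4 * ((Real.exp (2 * (s - sd)) - 1) / 2) := by
    have e1 : ∑ t ∈ ch 𝒯 tri f x, J t ≤ ((ch 𝒯 tri f x).card : ℝ) *
        ((1 / D) * (1235 / 1000 * ((Real.exp (2 * (s - sd)) - 1) / 2))) := by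
      rw [← nsmul_eq_mul]
      exact Finset.sum_le_card_nsmul _ _ _ hJle
    have e2 : ((ch 𝒯 tri f x).card : ℝ) ≤ D * (1 + 1 / L ^ 400) :=
      le_trans (card_ch f x).2 (h.dg_le hf)
    have e3 : ((ch 𝒯 tri f x).card : ℝ) *
        ((1 / D) * (1235 / 1000 * ((Real.exp (2 * (s - sd)) - 1) / 2))) ≤
        D * (1 + 1 / L ^ 400) *
        ((1 / D) * (1235 / 1000 * ((Real.exp (2 * (s - sd)) - 1) / 2))) := by
      apply mul_le_mul_of_nonneg_right e2
      positivity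
    have e4 : D * (1 + 1 / L ^ 400) *
        ((1 / D) * (1235 / 1000 * ((Real.exp (2 * (s - sd)) - 1) / 2))) =
        (1 + 1 / L ^ 400) * (1235 / 1000) * ((Real.exp (2 * (s - sd)) - 1) / 2) := by
      field_simp
    rw [e4] at e3
    have e5 : (1 + 1 / L ^ 400) * (1235 / 1000) ≤ 1236 / 1000 := by
      norm_num at q1 ⊢
      linarith
    have e6 : 0 ≤ (Real.exp (2 * (s - sd)) - 1) / 2 := by linarith
    have e7 := mul_le_mul_of_nonneg_right e5 e6
    nlinarith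
  have hlow : Real.exp (s - sd) * Real.exp (-(5 / 4 * ((Real.exp (2 * (s - sd)) - 1) / 2))) *
      ms 𝒯 tri D (d + 1) false f x sd ≤ ms 𝒯 tri D (d + 1) false f x s := by
    rw [hms1, hms2]
    have e0 : 0 ≤ ∏ t ∈ ch 𝒯 tri f x, (1 - I t) := by
      apply Finset.prod_nonneg
      intro t ht
      have e2 := hIJ1 t ht
      have e3 := hJ0 t
      linarith
    have e1 : Real.exp (-(5 / 4 * ((Real.exp (2 * (s - sd)) - 1) / 2))) ≤
        Real.exp (-(101 / 100 * ∑ t ∈ ch 𝒯 tri f x, J t)) := by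
      apply Real.exp_le_exp.2
      linarith
    have e2 : Real.exp (s - sd) * Real.exp sd = Real.exp s := by
      rw [← Real.exp_add]; congr 1; ring
    calc Real.exp (s - sd) * Real.exp (-(5 / 4 * ((Real.exp (2 * (s - sd)) - 1) / 2))) *
        (Real.exp sd * ∏ t ∈ ch 𝒯 tri f x, (1 - I t))
        = (Real.exp (s - sd) * Real.exp sd) * ((∏ t ∈ ch 𝒯 tri f x, (1 - I t)) *
          Real.exp (-(5 / 4 * ((Real.exp (2 * (s - sd)) - 1) / 2)))) := by ring
      _ = Real.exp s * ((∏ t ∈ ch 𝒯 tri f x, (1 - I t)) *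
          Real.exp (-(5 / 4 * ((Real.exp (2 * (s - sd)) - 1) / 2)))) := by rw [e2]
      _ ≤ Real.exp s * ((∏ t ∈ ch 𝒯 tri f x, (1 - I t)) *
          Real.exp (-(101 / 100 * ∑ t ∈ ch 𝒯 tri f x, J t))) := by gcongr
      _ ≤ _ := by gcongr
  refine le_trans ?_ hlow
  refine le_trans ?_ (mul_le_mul_of_nonneg_left hold (by positivity))
  rw [← Real.exp_add, ← Real.exp_add]
  apply Real.exp_le_exp.2
  have hW1 : Wf (d + 1) sd = Real.exp (-1) := by
    unfold Wf; congr 1; rw [hsd]; push_cast; ring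
  have hW2 : Wf (d + 1) s = Real.exp (-1 + 20 * (s - sd)) := by
    unfold Wf; congr 1; rw [hsd]; push_cast; ring
  rw [hW1, hW2]
  have hn := num_new_lo (x := s - sd) hx0 hx1
  have ho := om_mono h hds
  have hr := (abs_le.1 (h.re_le hf))
  have hr2 : -((s - sd) * re 𝒯 tri D f) ≤ 1 / 1000 := by
    have e1 : |(s - sd) * re 𝒯 tri D f| ≤ 1 / 20 * (1 / L ^ 400) := by
      rw [abs_mul, abs_of_nonneg hx0]
      exact mul_le_mul hx1 (h.re_le hf) (abs_nonneg _) (by norm_num)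
    have e2 := neg_abs_le ((s - sd) * re 𝒯 tri D f)
    have e3 : 1 / 20 * (1 / L ^ 400) ≤ 1 / 1000 := by
      have : (1:ℝ) / 10 ^ 6 ≤ 1 / 1000 := by norm_num
      have e4 : 1 / L ^ 400 ≤ 1 / 1000 := le_trans q1 this
      have e5 : 0 ≤ 1 / L ^ 400 := by positivity
      linarith
    linarith
  have hfin : -s * re 𝒯 tri D f = -sd * re 𝒯 tri D f - (s - sd) * re 𝒯 tri D f := by ring
  rw [hfin]
  linarith

end Crest.Agent.TRem
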