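import Crest.Agent.TRem.B3s1a

/-!
# Row 30, B3s1c: lower bound, old region
-/

namespace Crest.Agent.TRem

open Finset MeasureTheory

variable {ι τ : Type} [DecidableEq ι] [DecidableEq τ] {𝒯 : Finset τ} {tri : τ → Finset ι}
  {A₀ : Finset ι} {D L : ℝ}

private theorem B3s1c_aux (h : BH 𝒯 tri A₀ D L) : 1 / L ^ 400 ≤ 1 / (10 ^ 6 * L) ∧ 1 / L ^ 12 ≤ 1 / 10 ^ 12 := by
  have h1 := h.L6
  have hL := h.L_pos
  have h2 : (1 : ℝ) ≤ L := le_trans (by norm_num) h1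
  constructor
  · apply one_div_le_one_div_of_le (by positivity)
    calc (10 : ℝ) ^ 6 * L ≤ L * L := mul_le_mul_of_nonneg_right h1 hL.le
      _ = 1 * (L * L) := (one_mul _).symm
      _ ≤ L ^ 398 * (L * L) := mul_le_mul_of_nonneg_right (one_le_pow₀ h2) (by positivity)
      _ = L ^ 400 := by ring
  · apply one_div_le_one_div_of_le (by positivity)
    calc (10 : ℝ) ^ 12 = (10 ^ 6) ^ 2 * 1 := by norm_num
      _ ≤ L ^ 2 * L ^ 10 := mul_le_mul (pow_le_pow_left₀ (by norm_num) h1 2) (one_le_pow₀ h2)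
          (by norm_num) (by positivity)
      _ = L ^ 12 := by ring

set_option maxHeartbeats 1000000 in
/-- pointwise bounds of the integrand -/
private theorem B3s1c_pt (h : BH 𝒯 tri A₀ D L) (d : ℕ) (hup : Upp 𝒯 tri A₀ D L d) {f : ι} {t : τ}
    (ht : t ∈ 𝒯) (hft : f ∈ tri t) {z : ℝ} (h0 : 0 ≤ z) (h1 : z ≤ s3 D L) (h2 : 20 * z ≤ d) :
    0 ≤ ∏ g ∈ (tri t).erase f, ms 𝒯 tri D d true g (some t) z ∧
    ∏ g ∈ (tri t).erase f, ms 𝒯 tri D d true g (some t) z ≤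
      1 - z * (∑ g ∈ (tri t).erase f, re 𝒯 tri D g) + (2 + 72 / L ^ 12) * om D L z
        + 1 / 5 * Wf d z + 12 * (3 * L / Real.sqrt D) ^ 2 * z ^ 2 + 3 / 25 * Wf d z ^ 2 ∧
    ∏ g ∈ (tri t).erase f, ms 𝒯 tri D d true g (some t) z ≤ 13 / 10 := by
  have hL := h.L_pos
  have hL6 := h.L6
  have hD := h.D_pos
  have hc : ((tri t).erase f).card = 2 := by
    rw [Finset.card_erase_of_mem hft, h.h3 t ht]
  obtain ⟨g1, g2, hg12, heq⟩ := Finset.card_eq_two.mp hc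
  have hm1 : g1 ∈ A₀ := by
    apply h.hA t ht
    apply Finset.mem_of_mem_erase (a := f)
    rw [heq]
    simp
  have hm2 : g2 ∈ A₀ := by
    apply h.hA t ht
    apply Finset.mem_of_mem_erase (a := f)
    rw [heq]
    simp
  rw [heq, Finset.prod_pair hg12, Finset.sum_pair hg12]
  have hSS : z ≤ SS D := h1.trans h.s3_le_SS
  have p1 := ms_nonneg 𝒯 tri hD d true g1 (some t) h0 hSS
  have p2 := ms_nonneg 𝒯 tri hD d true g2 (some t) h0 hSS
  have q1 := hup g1 hm1 (some t) z h0 h1 h2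
  have q2 := hup g2 hm2 (some t) z h0 h1 h2
  have d1 := h.deg g1 hm1
  have d2 := h.deg g2 hm2
  have e1 := h.re_le hm1
  have e2 := h.re_le hm2
  have hom0 := om_nonneg (s := z) hD hL
  have hom1 := h.om_le h1
  obtain ⟨a1, a2⟩ := B3s1c_aux h
  have hzL : z ≤ L / 2 := by
    have := h.s3_le
    have := h.logD
    linarith
  have hW0 : 0 ≤ Wf d z := by
    unfold Wf
    exact (Real.exp_pos _).le
  have hW1 : Wf d z ≤ 1 := by
    unfold Wf
    rw [Real.exp_le_one_iff]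
    linarith
  set r1 := re 𝒯 tri D g1
  set r2 := re 𝒯 tri D g2
  set W := Wf d z
  set o := om D L z
  set δ := 3 * L / Real.sqrt D
  have hprod : ms 𝒯 tri D d true g1 (some t) z * ms 𝒯 tri D d true g2 (some t) z ≤
      Real.exp (-(z * (r1 + r2)) + 2 * o + 1 / 5 * W) := by
    calc ms 𝒯 tri D d true g1 (some t) z * ms 𝒯 tri D d true g2 (some t) z
        ≤ Real.exp (-z * r1 + o + 1 / 10 * W) * Real.exp (-z * r2 + o + 1 / 10 * W) :=
          mul_le_mul q1 q2 p2 (Real.exp_pos _).le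
      _ = Real.exp (-(z * (r1 + r2)) + 2 * o + 1 / 5 * W) := by
          rw [← Real.exp_add]
          congr 1
          ring
  have hzr : |z * (r1 + r2)| ≤ 1 / 10 ^ 6 := by
    rw [abs_mul, abs_of_nonneg h0]
    have hr : |r1 + r2| ≤ 2 * (1 / (10 ^ 6 * L)) := by
      calc |r1 + r2| ≤ |r1| + |r2| := abs_add_le _ _
        _ ≤ 1 / L ^ 400 + 1 / L ^ 400 := add_le_add e1 e2
        _ ≤ 2 * (1 / (10 ^ 6 * L)) := by linarith
    calc z * |r1 + r2| ≤ (L / 2) * (2 * (1 / (10 ^ 6 * L))) :=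
          mul_le_mul hzL hr (abs_nonneg _) (by positivity)
      _ = 1 / 10 ^ 6 := by field_simp
  have ho6 : o ≤ 6 / 10 ^ 12 := by
    have : 6 / L ^ 12 = 6 * (1 / L ^ 12) := by ring
    rw [this] at hom1
    linarith
  set u := -(z * (r1 + r2)) + 2 * o + 1 / 5 * W with hu
  have hzr' := abs_le.mp hzr
  have hu1 : u ≤ 21 / 100 := by
    rw [hu]
    have : (6 : ℝ) / 10 ^ 12 ≤ 1 / 1000 := by norm_num
    have h6 : (1 : ℝ) / 10 ^ 6 ≤ 1 / 1000 := by norm_num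
    linarith [hzr'.1, hzr'.2]
  have hu0 : -(1 / 1000) ≤ u := by
    rw [hu]
    have h6 : (1 : ℝ) / 10 ^ 6 ≤ 1 / 1000 := by norm_num
    linarith [hzr'.1, hzr'.2]
  have hexp : Real.exp u ≤ 1 + u + u ^ 2 := by
    have h9 := abs_le.mp (Real.abs_exp_sub_one_sub_id_le (x := u) (by
      rw [abs_le]
      constructor <;> linarith))
    linarith [h9.2]
  have hsq : u ^ 2 ≤ 12 * δ ^ 2 * z ^ 2 + 72 / L ^ 12 * o + 3 / 25 * W ^ 2 := by
    have s1 : u ^ 2 ≤ 3 * ((z * (r1 + r2)) ^ 2 + (2 * o) ^ 2 + (1 / 5 * W) ^ 2) := by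
      rw [hu]
      nlinarith [sq_nonneg (-(z * (r1 + r2)) - 2 * o), sq_nonneg (-(z * (r1 + r2)) - 1 / 5 * W),
        sq_nonneg (2 * o - 1 / 5 * W)]
    have s2 : (z * (r1 + r2)) ^ 2 ≤ 4 * δ ^ 2 * z ^ 2 := by
      have h5 : (r1 + r2) ^ 2 ≤ (2 * δ) ^ 2 := by
        apply sq_le_sq'
        · linarith [(abs_le.mp d1).1, (abs_le.mp d2).1]
        · linarith [(abs_le.mp d1).2, (abs_le.mp d2).2]
      calc (z * (r1 + r2)) ^ 2 = z ^ 2 * (r1 + r2) ^ 2 := by ring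
        _ ≤ z ^ 2 * (2 * δ) ^ 2 := mul_le_mul_of_nonneg_left h5 (sq_nonneg z)
        _ = 4 * δ ^ 2 * z ^ 2 := by ring
    have s3 : o ^ 2 ≤ 6 / L ^ 12 * o := by
      rw [sq]
      exact mul_le_mul_of_nonneg_right hom1 hom0
    have s4 : (72 : ℝ) / L ^ 12 * o = 12 * (6 / L ^ 12 * o) := by ring
    have s5 : (2 * o) ^ 2 = 4 * o ^ 2 := by ring
    have s6 : (1 / 5 * W) ^ 2 = 1 / 25 * W ^ 2 := by ring
    rw [s4]
    rw [s5, s6] at s1
    linarith only [s1, s2, s3]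
  refine ⟨mul_nonneg p1 p2, ?_, ?_⟩
  · refine hprod.trans (hexp.trans ?_)
    have s5 : (2 + 72 / L ^ 12) * o = 2 * o + 72 / L ^ 12 * o := by ring
    rw [s5]
    rw [hu] at hsq ⊢
    linarith
  · refine hprod.trans (hexp.trans ?_)
    have hu2 : u ^ 2 ≤ (21 / 100) ^ 2 := sq_le_sq' (by linarith) hu1
    have hu3 : ((21 : ℝ) / 100) ^ 2 ≤ 9 / 100 := by norm_num
    linarith

private theorem Wf_continuous (d : ℕ) : Continuous (fun z => Wf d z) := by
  unfold Wf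
  fun_prop

private theorem om_continuous (D L : ℝ) : Continuous (fun z => om D L z) := by
  unfold om
  fun_prop

private theorem B3s1c_cont (hD : 0 < D) (d : ℕ) (f : ι) (t : τ) :
    Continuous (fun z => ∏ g ∈ (tri t).erase f, ms 𝒯 tri D d true g (some t) z) :=
  continuous_finsetProd _ (fun g _ => ms_continuous 𝒯 tri hD d true g (some t))

/-- bound of one integral. Let `u(z) = -z(r_g+r_h) + 2 om z + 0.2 W_d z`, `|u| ≤ 0.21` on
`0 ≤ z ≤ s`, `e^u ≤ 1+u+u²`, `u² ≤ 3(z²(r_g+r_h)² + 4 om² + 0.04 W²) ≤ 12 z² δ² + 12 om² + 0.12 W²`,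
`om² ≤ (6/L^12) om`, `∫W ≤ W/20`, `∫W² ≤ W²/40 ≤ W/40` (`W ≤ 1`):
`∫_0^s Π_g ms d true ≤ s - (s²/2)(r_g+r_h) + (2+72/L^12)∫om + 0.013 W_d(s) + 4 s³ δ²`. -/
theorem int_up_le (h : BH 𝒯 tri A₀ D L) (d : ℕ) (hup : Upp 𝒯 tri A₀ D L d) {f : ι} {t : τ}
    (ht : t ∈ 𝒯) (hft : f ∈ tri t) {s : ℝ} (h0 : 0 ≤ s) (h1 : s ≤ s3 D L) (h2 : 20 * s ≤ d) :
    ∫ z in (0:ℝ)..s, ∏ g ∈ (tri t).erase f, ms 𝒯 tri D d true g (some t) z ≤
      s - s ^ 2 / 2 * (∑ g ∈ (tri t).erase f, re 𝒯 tri D g)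
        + (2 + 72 / L ^ 12) * (∫ z in (0:ℝ)..s, om D L z) + 13 / 1000 * Wf d s
        + 4 * s ^ 3 * (3 * L / Real.sqrt D) ^ 2 := by
  have hD := h.D_pos
  set R := ∑ g ∈ (tri t).erase f, re 𝒯 tri D g with hR
  set δ := 3 * L / Real.sqrt D with hδ
  have hWc := Wf_continuous d
  have hoc := om_continuous D L
  have i1 : IntervalIntegrable (fun z : ℝ => (1 : ℝ)) volume 0 s := continuous_const.intervalIntegrable _ _
  have i2 : IntervalIntegrable (fun z : ℝ => z * R) volume 0 s := (by fun_prop : Continuous (fun z : ℝ => z * R)).intervalIntegrable _ _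
  have i3 : IntervalIntegrable (fun z : ℝ => (2 + 72 / L ^ 12) * om D L z) volume 0 s :=
    (hoc.const_mul _).intervalIntegrable _ _
  have i4 : IntervalIntegrable (fun z : ℝ => 1 / 5 * Wf d z) volume 0 s :=
    (hWc.const_mul _).intervalIntegrable _ _
  have i5 : IntervalIntegrable (fun z : ℝ => 12 * δ ^ 2 * z ^ 2) volume 0 s :=
    (by fun_prop : Continuous (fun z : ℝ => 12 * δ ^ 2 * z ^ 2)).intervalIntegrable _ _
  have i6 : IntervalIntegrable (fun z : ℝ => 3 / 25 * Wf d z ^ 2) volume 0 s :=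
    ((hWc.pow 2).const_mul _).intervalIntegrable _ _
  have hmono : ∫ z in (0:ℝ)..s, ∏ g ∈ (tri t).erase f, ms 𝒯 tri D d true g (some t) z ≤
      ∫ z in (0:ℝ)..s, (1 - z * R + (2 + 72 / L ^ 12) * om D L z
        + 1 / 5 * Wf d z + 12 * δ ^ 2 * z ^ 2 + 3 / 25 * Wf d z ^ 2) := by
    apply intervalIntegral.integral_mono_on h0
    · exact (B3s1c_cont hD d f t).intervalIntegrable _ _
    · exact ((((i1.sub i2).add i3).add i4).add i5).add i6
    · intro z hz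
      exact (B3s1c_pt h d hup ht hft hz.1 (hz.2.trans h1) (by linarith [hz.2])).2.1
  refine hmono.trans ?_
  rw [intervalIntegral.integral_add ((((i1.sub i2).add i3).add i4).add i5) i6,
    intervalIntegral.integral_add (((i1.sub i2).add i3).add i4) i5,
    intervalIntegral.integral_add ((i1.sub i2).add i3) i4,
    intervalIntegral.integral_add (i1.sub i2) i3,
    intervalIntegral.integral_sub i1 i2, intervalIntegral.integral_mul_const,
    intervalIntegral.integral_const_mul, intervalIntegral.integral_const_mul,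
    intervalIntegral.integral_const_mul, intervalIntegral.integral_const_mul,
    integral_id, integral_pow, integral_one]
  have hW1 : Wf d s ≤ 1 := by
    unfold Wf
    rw [Real.exp_le_one_iff]
    linarith
  have hW0 : 0 ≤ Wf d s := by
    unfold Wf
    exact (Real.exp_pos _).le
  have w1 := int_Wf d s
  have w2 := int_Wf_sq d s
  have w3 : Wf d s ^ 2 ≤ Wf d s := by nlinarith
  have w4 : 12 * δ ^ 2 * ((s ^ (2 + 1) - 0 ^ (2 + 1)) / (((2 : ℕ) : ℝ) + 1)) = 4 * s ^ 3 * δ ^ 2 := by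
    push_cast
    ring
  have w5 : (s ^ 2 - 0 ^ 2) / 2 * R = s ^ 2 / 2 * R := by ring
  rw [w4, w5]
  linarith

set_option maxHeartbeats 2000000 in
/-- OLD REGION, LOWER. `I_t = (1/D)∫_0^s Π_g ms d true ∈ [0, 1.24 s/D]` (`e^{0.21} ≤ 1.24`),
`1 - I ≥ exp(-I - I²)` for `0 ≤ I ≤ 1/2`. Sum over the children (`card_ch`, `sum_ch_re`,
`int_up_le`):
`Σ(I+I²) ≤ s(1+r_f) + (s²/2D)(L^5+1) + (1+δ)((2+72/L^12)∫om + 0.013 W_d + 4s³(3L/√D)²) + 1.6 s²/D`.
`(1+δ)(2+72/L^12)∫om ≤ (1+δ)(1+36/L^12)/(1+1/log D) (om s - om 0) ≤ om s - om 0`, and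
`om 0 = 2L^8/D` dominates `(s²/2)(L^5+1)/D + 1.6 s²/D + 40 s³ L²/D` (`s ≤ L/2`);
`(1+δ) 0.013 W_d = 0.013 e (1+δ) W_{d+1} ≤ 0.04 W_{d+1}`. (When `#ch` multiplies a positive quantity
use `#ch ≤ D(1+r_f)`; the term `s·#ch/D ≤ s(1+r_f)`.) -/
theorem lo_old (h : BH 𝒯 tri A₀ D L) (d : ℕ) (hup : Upp 𝒯 tri A₀ D L d) {f : ι} (hf : f ∈ A₀)
    (x : Option τ) {s : ℝ} (h0 : 0 ≤ s) (h1 : s ≤ s3 D L) (h2 : 20 * s ≤ d) :
    Real.exp (-s * re 𝒯 tri D f - om D L s - 1 / 25 * Wf (d + 1) s) ≤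
      ms 𝒯 tri D (d + 1) false f x s := by
  have hL := h.L_pos
  have hL6 := h.L6
  have hD := h.D_pos
  have hL1 : (1 : ℝ) ≤ L := le_trans (by norm_num) hL6
  obtain ⟨a1, a2⟩ := B3s1c_aux h
  have hsL : s ≤ L / 2 := by
    have := h.s3_le
    have := h.logD
    linarith
  have hlog1 := h.one_le_logD
  have hlogL := h.logD
  -- the integrals
  set I : τ → ℝ := fun t => (1 / D) * ∫ z in (0:ℝ)..s, ∏ g ∈ (tri t).erase f,
    ms 𝒯 tri D d true g (some t) z with hI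
  have hch : ∀ t ∈ ch 𝒯 tri f x, t ∈ 𝒯 ∧ f ∈ tri t := by
    intro t ht
    unfold ch at ht
    rw [Finset.mem_filter] at ht
    exact ⟨ht.1, ht.2.1⟩
  have hI0 : ∀ t ∈ ch 𝒯 tri f x, 0 ≤ I t := by
    intro t ht
    obtain ⟨ht1, ht2⟩ := hch t ht
    apply mul_nonneg (by positivity)
    apply intervalIntegral.integral_nonneg h0
    intro z hz
    exact (B3s1c_pt h d hup ht1 ht2 hz.1 (hz.2.trans h1) (by linarith [hz.2])).1
  have hI1 : ∀ t ∈ ch 𝒯 tri f x, I t ≤ 13 / 10 * s / D := by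
    intro t ht
    obtain ⟨ht1, ht2⟩ := hch t ht
    have h5 : ∫ z in (0:ℝ)..s, ∏ g ∈ (tri t).erase f, ms 𝒯 tri D d true g (some t) z ≤
        ∫ z in (0:ℝ)..s, (13 / 10 : ℝ) := by
      apply intervalIntegral.integral_mono_on h0
      · exact (B3s1c_cont hD d f t).intervalIntegrable _ _
      · exact continuous_const.intervalIntegrable _ _
      · intro z hz
        exact (B3s1c_pt h d hup ht1 ht2 hz.1 (hz.2.trans h1) (by linarith [hz.2])).2.2
    rw [intervalIntegral.integral_const, smul_eq_mul, sub_zero] at h5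
    calc I t ≤ (1 / D) * (s * (13 / 10)) := mul_le_mul_of_nonneg_left h5 (by positivity)
      _ = 13 / 10 * s / D := by ring
  have hDbig : L ^ 9 ≤ D := by
    have h7 := h.hD
    have h8 : L ^ 9 ≤ L ^ 1000 := pow_le_pow_right₀ hL1 (by norm_num)
    exact h8.trans h7
  have hDL : 10 ^ 6 * L ≤ D := by
    calc (10 : ℝ) ^ 6 * L ≤ L * L := mul_le_mul_of_nonneg_right hL6 hL.le
      _ = L ^ 2 := by ring
      _ ≤ L ^ 9 := pow_le_pow_right₀ hL1 (by norm_num)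
      _ ≤ D := hDbig
  have hIhalf : ∀ t ∈ ch 𝒯 tri f x, I t ≤ 1 / 2 := by
    intro t ht
    refine (hI1 t ht).trans ?_
    rw [div_le_iff₀ hD]
    nlinarith
  have hone : ∀ y : ℝ, 0 ≤ y → y ≤ 1 / 2 → Real.exp (-(y + y ^ 2)) ≤ 1 - y := by
    intro y hy0 hy1
    rw [Real.exp_neg, inv_le_comm₀ (Real.exp_pos _) (by linarith)]
    have hq := Real.quadratic_le_exp_of_nonneg (x := y + y ^ 2) (by positivity)
    refine le_trans ?_ hq
    rw [inv_le_iff_one_le_mul₀ (by linarith)]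
    nlinarith [mul_nonneg hy0 hy0, mul_nonneg (mul_nonneg hy0 hy0) hy0,
      mul_nonneg (mul_nonneg hy0 hy0) (sub_nonneg.mpr hy1),
      mul_nonneg (mul_nonneg (mul_nonneg hy0 hy0) hy0) (sub_nonneg.mpr hy1),
      mul_nonneg (mul_nonneg (mul_nonneg hy0 hy0) (mul_nonneg hy0 hy0)) (sub_nonneg.mpr hy1)]
  -- the recursion
  have hrec : Real.exp (s - ∑ t ∈ ch 𝒯 tri f x, (I t + I t ^ 2)) ≤ ms 𝒯 tri D (d + 1) false f x s := by
    have hr := ms_succ 𝒯 tri hD h.h3 d false f x s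
    simp only [Bool.not_false] at hr
    rw [hr, sub_eq_add_neg, Real.exp_add, ← Finset.sum_neg_distrib, Real.exp_sum]
    apply mul_le_mul_of_nonneg_left _ (Real.exp_pos _).le
    apply Finset.prod_le_prod (fun t _ => (Real.exp_pos _).le)
    intro t ht
    exact hone (I t) (hI0 t ht) (hIhalf t ht)
  refine le_trans ?_ hrec
  apply Real.exp_le_exp.mpr
  -- notation
  set r := re 𝒯 tri D f with hr
  set δ := 3 * L / Real.sqrt D with hδ
  set N : ℝ := ((ch 𝒯 tri f x).card : ℝ) with hN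
  have hN0 : 0 ≤ N := Nat.cast_nonneg _
  have hdg := h.dg_eq f
  have hN1 : N ≤ D * (1 + r) := by
    have := (card_ch (𝒯 := 𝒯) (tri := tri) f x).2
    rw [hdg] at this
    exact this
  have hre := abs_le.mp (h.re_le hf)
  have hr1 : 1 + r ≤ 1 + 1 / L ^ 400 := by linarith [hre.2]
  have e0 : 1 / (10 ^ 6 * L) ≤ 1 / 10 ^ 6 := by
    apply one_div_le_one_div_of_le (by norm_num)
    linarith [mul_le_mul_of_nonneg_left hL1 (by norm_num : (0:ℝ) ≤ 10 ^ 6)]
  have e0' : (0 : ℝ) < 1 / (10 ^ 6 * L) := by positivity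
  have hr0 : 0 ≤ 1 + r := by
    have : (1 : ℝ) / 10 ^ 6 ≤ 1 := by norm_num
    linarith [hre.1]
  have hW0 : 0 ≤ Wf (d + 1) s := by
    unfold Wf
    exact (Real.exp_pos _).le
  have hWd0 : 0 ≤ Wf d s := by
    unfold Wf
    exact (Real.exp_pos _).le
  have hom0 : ∀ z, 0 ≤ om D L z := fun z => om_nonneg hD hL
  have homint : 0 ≤ ∫ z in (0:ℝ)..s, om D L z :=
    intervalIntegral.integral_nonneg h0 (fun z _ => hom0 z)
  set J := ∫ z in (0:ℝ)..s, om D L z with hJ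
  set B := (2 + 72 / L ^ 12) * J + 13 / 1000 * Wf d s + 4 * s ^ 3 * δ ^ 2 with hB
  have hB0 : 0 ≤ B := by positivity
  have hSI : ∑ t ∈ ch 𝒯 tri f x, I t ≤ (1 + r) * (s + B) + s ^ 2 / 2 * (L ^ 5 + 1) / D := by
    have hk : ∀ t ∈ ch 𝒯 tri f x, I t ≤ (1 / D) * ((s + B) - s ^ 2 / 2 * (∑ g ∈ (tri t).erase f, re 𝒯 tri D g)) := by
      intro t ht
      obtain ⟨ht1, ht2⟩ := hch t ht
      apply mul_le_mul_of_nonneg_left _ (by positivity)
      have := int_up_le h d hup ht1 ht2 h0 h1 h2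
      rw [hB]
      linarith
    have hcor := abs_le.mp (sum_ch_re h hf x)
    calc ∑ t ∈ ch 𝒯 tri f x, I t ≤ ∑ t ∈ ch 𝒯 tri f x, (1 / D) * ((s + B) - s ^ 2 / 2 * (∑ g ∈ (tri t).erase f, re 𝒯 tri D g)) :=
          Finset.sum_le_sum hk
      _ = (1 / D) * (N * (s + B) - s ^ 2 / 2 * ∑ t ∈ ch 𝒯 tri f x, ∑ g ∈ (tri t).erase f, re 𝒯 tri D g) := by
          rw [← Finset.mul_sum, Finset.sum_sub_distrib, Finset.sum_const, nsmul_eq_mul, ← Finset.mul_sum]
      _ ≤ (1 / D) * (D * (1 + r) * (s + B) + s ^ 2 / 2 * (L ^ 5 + 1)) := by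
          apply mul_le_mul_of_nonneg_left _ (by positivity)
          have k1 : N * (s + B) ≤ D * (1 + r) * (s + B) := mul_le_mul_of_nonneg_right hN1 (by positivity)
          have k2 : -(s ^ 2 / 2 * ∑ t ∈ ch 𝒯 tri f x, ∑ g ∈ (tri t).erase f, re 𝒯 tri D g)
              ≤ s ^ 2 / 2 * (L ^ 5 + 1) := by
            rw [← mul_neg]
            exact mul_le_mul_of_nonneg_left (by linarith [hcor.1]) (by positivity)
          linarith
      _ = (1 + r) * (s + B) + s ^ 2 / 2 * (L ^ 5 + 1) / D := by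
          field_simp
  have hSI2 : ∑ t ∈ ch 𝒯 tri f x, I t ^ 2 ≤ 2 * s ^ 2 / D := by
    calc ∑ t ∈ ch 𝒯 tri f x, I t ^ 2 ≤ ∑ t ∈ ch 𝒯 tri f x, (13 / 10 * s / D) ^ 2 :=
          Finset.sum_le_sum (fun t ht => pow_le_pow_left₀ (hI0 t ht) (hI1 t ht) 2)
      _ = N * (13 / 10 * s / D) ^ 2 := by rw [Finset.sum_const, nsmul_eq_mul]
      _ ≤ D * (1 + r) * (13 / 10 * s / D) ^ 2 := mul_le_mul_of_nonneg_right hN1 (by positivity)
      _ = (1 + r) * (169 / 100) * (s ^ 2 / D) := by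
          field_simp
          ring
      _ ≤ 2 * (s ^ 2 / D) := by
          apply mul_le_mul_of_nonneg_right _ (by positivity)
          have : (1 : ℝ) / 10 ^ 6 ≤ 1 / 10 := by norm_num
          linarith
      _ = 2 * s ^ 2 / D := by ring
  have hsum : ∑ t ∈ ch 𝒯 tri f x, (I t + I t ^ 2) ≤
      (1 + r) * (s + B) + s ^ 2 / 2 * (L ^ 5 + 1) / D + 2 * s ^ 2 / D := by
    rw [Finset.sum_add_distrib]
    linarith
  -- part (i)
  have hE0 : 0 ≤ om D L s - om D L 0 := by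
    unfold om
    rw [← mul_sub]
    apply mul_nonneg (by positivity)
    rw [sub_nonneg]
    apply Real.exp_le_exp.mpr
    have : 0 ≤ 2 * (1 + 1 / Real.log D) * s := by positivity
    linarith
  have part1 : (1 + r) * ((2 + 72 / L ^ 12) * J) ≤ om D L s - om D L 0 := by
    have hJ2 := h.int_om s
    rw [← hJ] at hJ2
    have hlog0 : 0 < Real.log D := lt_of_lt_of_le one_pos hlog1
    have hη : 1 / L ≤ 1 / Real.log D := one_div_le_one_div_of_le hlog0 hlogL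
    have hL12 : 1 / L ^ 12 ≤ 1 / (10 ^ 6 * L) := by
      apply one_div_le_one_div_of_le (by positivity)
      calc (10 : ℝ) ^ 6 * L ≤ L * L := mul_le_mul_of_nonneg_right hL6 hL.le
        _ = L ^ 2 := by ring
        _ ≤ L ^ 12 := pow_le_pow_right₀ hL1 (by norm_num)
    have hfac : (1 + r) * (2 + 72 / L ^ 12) ≤ 2 * (1 + 1 / Real.log D) := by
      have k0 : (72 : ℝ) / L ^ 12 = 72 * (1 / L ^ 12) := by ring
      have k1 : (1 + r) * (2 + 72 / L ^ 12) ≤ (1 + 1 / (10 ^ 6 * L)) * (2 + 72 * (1 / (10 ^ 6 * L))) := by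
        rw [k0]
        apply mul_le_mul (by linarith) (by linarith) (by positivity) (by positivity)
      have k2 : 1 / L = 10 ^ 6 * (1 / (10 ^ 6 * L)) := by field_simp
      set e := 1 / (10 ^ 6 * L) with he
      have k3 : e * e ≤ 1 / 10 ^ 6 * e := mul_le_mul_of_nonneg_right e0 e0'.le
      have k4 : (1 + e) * (2 + 72 * e) ≤ 2 * (1 + 10 ^ 6 * e) := by nlinarith
      refine k1.trans (k4.trans ?_)
      rw [← k2]
      linarith
    rw [hJ2]
    have hpos : 0 < 2 * (1 + 1 / Real.log D) := by positivity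
    calc (1 + r) * ((2 + 72 / L ^ 12) * ((om D L s - om D L 0) / (2 * (1 + 1 / Real.log D))))
        = ((1 + r) * (2 + 72 / L ^ 12)) * ((om D L s - om D L 0) / (2 * (1 + 1 / Real.log D))) := by ring
      _ ≤ (2 * (1 + 1 / Real.log D)) * ((om D L s - om D L 0) / (2 * (1 + 1 / Real.log D))) :=
          mul_le_mul_of_nonneg_right hfac (by positivity)
      _ = om D L s - om D L 0 := by
          field_simp
  -- part (ii)
  have part2 : (1 + r) * (13 / 1000 * Wf d s) ≤ 1 / 25 * Wf (d + 1) s := by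
    rw [Wf_succ d s]
    have he := Real.exp_one_lt_d9
    have hr2 : 1 + r ≤ 11 / 10 := by
      have : (1 : ℝ) / 10 ^ 6 ≤ 1 / 10 := by norm_num
      linarith
    calc (1 + r) * (13 / 1000 * (Real.exp 1 * Wf (d + 1) s))
        = ((1 + r) * (13 / 1000) * Real.exp 1) * Wf (d + 1) s := by ring
      _ ≤ (1 / 25) * Wf (d + 1) s := by
          apply mul_le_mul_of_nonneg_right _ hW0
          have h3 : (1 + r) * (13 / 1000) * Real.exp 1 ≤ (11 / 10) * (13 / 1000) * (2.7182818286) := by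
            apply mul_le_mul _ he.le (Real.exp_pos _).le (by norm_num)
            exact mul_le_mul_of_nonneg_right hr2 (by norm_num)
          exact h3.trans (by norm_num)
  -- part (iii)
  have hδ2 : δ ^ 2 = 9 * L ^ 2 / D := by
    rw [hδ, div_pow, Real.sq_sqrt hD.le]
    ring
  have part3 : (1 + r) * (4 * s ^ 3 * δ ^ 2) ≤ 40 * s ^ 3 * L ^ 2 / D := by
    rw [hδ2]
    have hr2 : 1 + r ≤ 11 / 10 := by
      have : (1 : ℝ) / 10 ^ 6 ≤ 1 / 10 := by norm_num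
      linarith
    calc (1 + r) * (4 * s ^ 3 * (9 * L ^ 2 / D)) ≤ (11 / 10) * (4 * s ^ 3 * (9 * L ^ 2 / D)) :=
          mul_le_mul_of_nonneg_right hr2 (by positivity)
      _ = (396 / 10) * (s ^ 3 * L ^ 2 / D) := by ring
      _ ≤ 40 * (s ^ 3 * L ^ 2 / D) := mul_le_mul_of_nonneg_right (by norm_num) (by positivity)
      _ = 40 * s ^ 3 * L ^ 2 / D := by ring
  -- om 0 dominates
  have part4 : s ^ 2 / 2 * (L ^ 5 + 1) / D + 2 * s ^ 2 / D + 40 * s ^ 3 * L ^ 2 / D ≤ om D L 0 := by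
    have hom00 : om D L 0 = 2 * L ^ 8 / D := by
      unfold om
      rw [mul_zero, Real.exp_zero]
      ring
    rw [hom00, ← add_div, ← add_div]
    apply div_le_div_of_nonneg_right _ hD.le
    have hs2 : s ^ 2 ≤ L ^ 2 / 4 := by
      calc s ^ 2 ≤ (L / 2) ^ 2 := pow_le_pow_left₀ h0 hsL 2
        _ = L ^ 2 / 4 := by ring
    have hs3 : s ^ 3 ≤ L ^ 3 / 8 := by
      calc s ^ 3 ≤ (L / 2) ^ 3 := pow_le_pow_left₀ h0 hsL 3
        _ = L ^ 3 / 8 := by ring
    have m1 : s ^ 2 / 2 * (L ^ 5 + 1) ≤ L ^ 2 / 4 / 2 * (L ^ 5 + 1) :=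
      mul_le_mul_of_nonneg_right (by linarith) (by positivity)
    have m2 : 40 * s ^ 3 * L ^ 2 ≤ 5 * L ^ 5 := by
      calc 40 * s ^ 3 * L ^ 2 ≤ 40 * (L ^ 3 / 8) * L ^ 2 :=
            mul_le_mul_of_nonneg_right (by linarith) (by positivity)
        _ = 5 * L ^ 5 := by ring
    have m3 : L ^ 7 ≤ L ^ 8 := pow_le_pow_right₀ hL1 (by norm_num)
    have m4 : L ^ 2 ≤ L ^ 8 := pow_le_pow_right₀ hL1 (by norm_num)
    have m5 : 10 * L ^ 5 ≤ L ^ 8 := by
      calc 10 * L ^ 5 ≤ L ^ 3 * L ^ 5 := by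
            apply mul_le_mul_of_nonneg_right _ (by positivity)
            calc (10 : ℝ) ≤ 10 ^ 6 := by norm_num
              _ ≤ L := hL6
              _ ≤ L ^ 3 := le_self_pow₀ hL1 (by norm_num)
        _ = L ^ 8 := by ring
    have m6 : L ^ 2 / 4 / 2 * (L ^ 5 + 1) = L ^ 7 / 8 + L ^ 2 / 8 := by ring
    rw [m6] at m1
    have m7 : 0 ≤ L ^ 8 := by positivity
    linarith only [m1, m2, m3, m4, m5, m7, hs2]
  have hBexp : (1 + r) * (s + B) = (1 + r) * s + (1 + r) * ((2 + 72 / L ^ 12) * J)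
      + (1 + r) * (13 / 1000 * Wf d s) + (1 + r) * (4 * s ^ 3 * δ ^ 2) := by
    rw [hB]
    ring
  rw [hBexp] at hsum
  have hfin : (1 + r) * s = s + s * r := by ring
  rw [hfin] at hsum
  have hneg : -s * r = -(s * r) := by ring
  rw [hneg]
  linarith only [hsum, part1, part2, part3, part4]

end Crest.Agent.TRem
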