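import Crest.Agent.TRem.B3s1b
import Crest.Agent.TRem.B3s1c

/-!
# Row 30, B3s1d: Step 1
-/

namespace Crest.Agent.TRem

open Finset MeasureTheory

variable {ι τ : Type} [DecidableEq ι] [DecidableEq τ] {𝒯 : Finset τ} {tri : τ → Finset ι}
  {A₀ : Finset ι} {D L : ℝ}

theorem step1 (h : BH 𝒯 tri A₀ D L) (d : ℕ) : Low 𝒯 tri A₀ D L d ∧ Upp 𝒯 tri A₀ D L d := by
  induction d with
  | zero =>
    constructor
    · intro f hf x s h0 h1 h2
      simp only [Nat.cast_zero] at h2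
      linarith
    · intro f hf x s h0 h1 h2
      simp only [Nat.cast_zero] at h2
      have hs : s = 0 := by linarith
      subst hs
      have : ms 𝒯 tri D 0 true f x 0 = 1 := by simp [ms, hh]
      rw [this]
      refine Real.one_le_exp ?_
      have := om_nonneg (s := 0) h.D_pos h.L_pos
      have h3 : 0 ≤ Wf 0 0 := (Real.exp_pos _).le
      simp only [neg_zero, zero_mul, zero_add]
      positivity
  | succ d ih =>
    obtain ⟨hlow, hup⟩ := ih
    constructor
    · intro f hf x s h0 h1 h2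
      push_cast at h2
      rcases le_total (20 * s) d with h3 | h3
      · refine le_trans ?_ (lo_old h d hup hf x h0 h1 h3)
        refine Real.exp_le_exp.mpr ?_
        have : 0 ≤ Wf (d + 1) s := (Real.exp_pos _).le
        linarith
      · refine lo_new h d hup hf x h1 h3 h2.le ?_
        refine lo_old h d hup hf x (by positivity) (by linarith) (by linarith)
    · intro f hf x s h0 h1 h2
      push_cast at h2
      rcases le_total (20 * s) d with h3 | h3
      · refine (up_old h d hlow hf x h0 h1 h3).trans ?_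
        refine Real.exp_le_exp.mpr ?_
        have : 0 ≤ Wf (d + 1) s := (Real.exp_pos _).le
        linarith
      · refine up_new h d hf x h1 h3 h2 ?_
        exact up_old h d hlow hf x (by positivity) (by linarith) (by linarith)

private theorem s1d_tiny (h : BH 𝒯 tri A₀ D L) {f : ι} (hf : f ∈ A₀) {s : ℝ}
    (h0 : 0 ≤ s) (h1 : s ≤ s3 D L) : |s * re 𝒯 tri D f| ≤ 1 / 1000 ∧ om D L s ≤ 1 / 1000 := by
  have hL := h.L_pos
  have hL6 := h.L6
  have hL1 : 1 ≤ L := le_trans (by norm_num) hL6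
  constructor
  · have h2 := h.re_le hf
    have h3 : s ≤ L / 2 := by
      have := h.s3_le
      have := h.logD
      linarith
    rw [abs_mul, abs_of_nonneg h0]
    have h4 : s * |re 𝒯 tri D f| ≤ L * (1 / L ^ 400) :=
      mul_le_mul (by linarith) h2 (abs_nonneg _) hL.le
    have h5 : L * (1 / L ^ 400) ≤ 1 / 1000 := by
      rw [mul_one_div, div_le_div_iff₀ (pow_pos hL 400) (by norm_num)]
      have h6 : L * 1000 ≤ L * L := mul_le_mul_of_nonneg_left (le_trans (by norm_num) hL6) hL.le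
      have h7 : L * L = L ^ 2 := by ring
      have h8 : L ^ 2 ≤ L ^ 400 := pow_le_pow_right₀ hL1 (by norm_num)
      linarith
    exact h4.trans h5
  · refine (h.om_le h1).trans ?_
    rw [div_le_div_iff₀ (pow_pos hL 12) (by norm_num)]
    have h6 : (10:ℝ) ^ 6 ≤ L ^ 12 :=
      hL6.trans (by
        calc L = L ^ 1 := (pow_one L).symm
          _ ≤ L ^ 12 := pow_le_pow_right₀ hL1 (by norm_num))
    norm_num at h6 ⊢
    linarith

private theorem s1d_Wf {d : ℕ} {s : ℝ} (h2 : 20 * s ≤ d) : Wf d s ≤ 1 ∧ 0 ≤ Wf d s := by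
  unfold Wf
  refine ⟨?_, (Real.exp_pos _).le⟩
  rw [← Real.exp_zero]
  exact Real.exp_le_exp.2 (by linarith)

/-- crude consequence: `ms d true ≤ 1.12` for `20 s ≤ d`, `s ≤ s₃`
(`s|r| ≤ L^{-399}`, `om ≤ 6/L^12`, `W ≤ 1`, `e^{0.1+tiny} ≤ 1.12`). -/
theorem ms_up_le (h : BH 𝒯 tri A₀ D L) (d : ℕ) {f : ι} (hf : f ∈ A₀) (x : Option τ) {s : ℝ}
    (h0 : 0 ≤ s) (h1 : s ≤ s3 D L) (h2 : 20 * s ≤ d) : ms 𝒯 tri D d true f x s ≤ 112 / 100 := by
  refine ((step1 h d).2 f hf x s h0 h1 h2).trans ?_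
  obtain ⟨h3, h4⟩ := s1d_tiny h hf h0 h1
  obtain ⟨h5, _⟩ := s1d_Wf h2
  have h6 : -s * re 𝒯 tri D f + om D L s + 1 / 10 * Wf d s ≤ 102 / 1000 := by
    have := (abs_le.1 h3).1
    linarith
  refine (Real.exp_le_exp.2 h6).trans ?_
  have h7 : |Real.exp (102 / 1000) - 1 - 102 / 1000| ≤ (102 / 1000 : ℝ) ^ 2 :=
    Real.abs_exp_sub_one_sub_id_le (by norm_num [abs_le])
  have h8 := (abs_le.1 h7).2
  norm_num at h8
  linarith

/-- crude consequence: `ms d false ≥ 0.89` for `20 s < d`, `s ≤ s₃`. -/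
theorem ms_lo_ge (h : BH 𝒯 tri A₀ D L) (d : ℕ) {f : ι} (hf : f ∈ A₀) (x : Option τ) {s : ℝ}
    (h0 : 0 ≤ s) (h1 : s ≤ s3 D L) (h2 : 20 * s < d) : 89 / 100 ≤ ms 𝒯 tri D d false f x s := by
  refine le_trans ?_ ((step1 h d).1 f hf x s h0 h1 h2)
  obtain ⟨h3, h4⟩ := s1d_tiny h hf h0 h1
  obtain ⟨h5, _⟩ := s1d_Wf h2.le
  have h6 : -(102 / 1000) ≤ -s * re 𝒯 tri D f - om D L s - 1 / 10 * Wf d s := by
    have := (abs_le.1 h3).2
    linarith
  refine le_trans ?_ (Real.exp_le_exp.2 h6)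
  have h7 := Real.add_one_le_exp (-(102 / 1000 : ℝ))
  linarith

end Crest.Agent.TRem
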