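import Crest.Agent.TRem.B3s1d

/-!
# Row 30, B3s2: Step 2, the gap between upper and lower messages
-/

namespace Crest.Agent.TRem

open Finset MeasureTheory

variable {ι τ : Type} [DecidableEq ι] [DecidableEq τ] {𝒯 : Finset τ} {tri : τ → Finset ι}
  {A₀ : Finset ι} {D L : ℝ}

/-- `Π(1-a_i) - Π(1-b_i) ≤ Π(1-a_i) · (1/(1-c)) Σ (b_i - a_i)` for `0 ≤ a_i ≤ b_i ≤ c < 1`:
`Π (1-b_i)/(1-a_i) = Π (1 - (b_i-a_i)/(1-a_i)) ≥ 1 - Σ (b_i-a_i)/(1-a_i)`. -/
theorem prod_gap {κ : Type} (s : Finset κ) (a b : κ → ℝ) (c : ℝ) (hc : c < 1)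
    (ha : ∀ i ∈ s, 0 ≤ a i) (hab : ∀ i ∈ s, a i ≤ b i) (hb : ∀ i ∈ s, b i ≤ c) :
    (∏ i ∈ s, (1 - a i)) - ∏ i ∈ s, (1 - b i) ≤
      (∏ i ∈ s, (1 - a i)) * ((1 / (1 - c)) * ∑ i ∈ s, (b i - a i)) := by
  classical
  induction s using Finset.induction_on with
  | empty => simp
  | insert j s hj ih =>
    have ha' : ∀ i ∈ s, 0 ≤ a i := fun i hi => ha i (Finset.mem_insert_of_mem hi)
    have hab' : ∀ i ∈ s, a i ≤ b i := fun i hi => hab i (Finset.mem_insert_of_mem hi)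
    have hb' : ∀ i ∈ s, b i ≤ c := fun i hi => hb i (Finset.mem_insert_of_mem hi)
    have ih' := ih ha' hab' hb'
    rw [Finset.prod_insert hj, Finset.prod_insert hj, Finset.sum_insert hj]
    set P := ∏ i ∈ s, (1 - a i) with hP
    set Q := ∏ i ∈ s, (1 - b i) with hQ
    set Sg := ∑ i ∈ s, (b i - a i) with hS
    have hc' : 0 < 1 - c := by linarith
    have hQP : Q ≤ P := by
      refine Finset.prod_le_prod ?_ ?_
      · intro i hi
        linarith [hb' i hi]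
      · intro i hi
        linarith [hab' i hi]
    have hP0 : 0 ≤ P := by
      refine Finset.prod_nonneg ?_
      intro i hi
      linarith [hb' i hi, hab' i hi]
    have haj := ha j (Finset.mem_insert_self j s)
    have habj := hab j (Finset.mem_insert_self j s)
    have hbj := hb j (Finset.mem_insert_self j s)
    have hk : 1 ≤ (1 - a j) * (1 / (1 - c)) := by
      rw [mul_one_div, le_div_iff₀ hc']
      linarith
    have h1 : (1 - a j) * (P - Q) ≤ (1 - a j) * (P * ((1 / (1 - c)) * Sg)) :=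
      mul_le_mul_of_nonneg_left ih' (by linarith)
    have h2 : (b j - a j) * Q ≤ (b j - a j) * (P * ((1 - a j) * (1 / (1 - c)))) := by
      refine mul_le_mul_of_nonneg_left ?_ (by linarith)
      refine hQP.trans ?_
      nlinarith
    calc (1 - a j) * P - (1 - b j) * Q = (1 - a j) * (P - Q) + (b j - a j) * Q := by ring
      _ ≤ (1 - a j) * (P * ((1 / (1 - c)) * Sg)) + (b j - a j) * (P * ((1 - a j) * (1 / (1 - c)))) :=
        add_le_add h1 h2
      _ = (1 - a j) * P * (1 / (1 - c) * (b j - a j + Sg)) := by ring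

private theorem s2_prod_continuous (h : BH 𝒯 tri A₀ D L) (d : ℕ) (c : Bool) (f : ι) (t : τ) :
    Continuous (fun z => ∏ g ∈ (tri t).erase f, ms 𝒯 tri D d c g (some t) z) := by
  refine continuous_finsetProd _ ?_
  intro g _
  exact ms_continuous 𝒯 tri h.D_pos d c g (some t)

/-- the two other hypervertices -/
private theorem s2_pair (h : BH 𝒯 tri A₀ D L) {f : ι} {t : τ} (ht : t ∈ 𝒯) (hft : f ∈ tri t) :
    ∃ g k : ι, g ∈ A₀ ∧ k ∈ A₀ ∧ g ≠ k ∧ (tri t).erase f = {g, k} := by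
  have hc : ((tri t).erase f).card = 2 := by
    rw [Finset.card_erase_of_mem hft, h.h3 t ht]
  obtain ⟨g, k, hgk, he⟩ := Finset.card_eq_two.1 hc
  have hsub : (tri t).erase f ⊆ A₀ := (Finset.erase_subset _ _).trans (h.hA t ht)
  refine ⟨g, k, hsub ?_, hsub ?_, hgk, he⟩
  · rw [he]; simp
  · rw [he]; simp

private theorem s2_L400 (h : BH 𝒯 tri A₀ D L) : 1 / L ^ 400 ≤ 1 / 10 ^ 6 := by
  have h1 : (10:ℝ) ^ 6 ≤ L ^ 400 := by
    have h2 : L ^ 1 ≤ L ^ 400 := by
      refine pow_le_pow_right₀ ?_ (by norm_num)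
      have := h.L6
      linarith [show (1:ℝ) ≤ 10 ^ 6 by norm_num]
    rw [pow_one] at h2
    exact h.L6.trans h2
  exact one_div_le_one_div_of_le (by norm_num) h1

private theorem s2_LD (h : BH 𝒯 tri A₀ D L) : L / D ≤ 1 / 10 ^ 6 := by
  have hL := h.L_pos
  have hD := h.D_pos
  have hL6 := h.L6
  have hL1 : (1:ℝ) ≤ L := by linarith [show (1:ℝ) ≤ 10 ^ 6 by norm_num]
  have h1 : L * 10 ^ 6 ≤ D := by
    refine le_trans ?_ h.hD
    have h2 : L ^ 2 ≤ L ^ 1000 := pow_le_pow_right₀ hL1 (by norm_num)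
    nlinarith
  rw [div_le_div_iff₀ hD (by norm_num)]
  linarith

/-- OLD REGION. `β = ms (d+1) true = e^s Π(1-I^α_t)`, `α = ms (d+1) false = e^s Π(1-I^β_t)`,
`0 ≤ I^α ≤ I^β ≤ 2s/D ≤ 1/1000` (`ms_low_le_up`, `ms_up_le`). By `prod_gap`
`β - α ≤ β · (1/(1-1/1000)) Σ_t (1/D)∫(Π_g ms d true - Π_g ms d false)`, and the integrand is
`≤ (β_g+β_h)·gap ≤ 2·1.12·1.3 W_d`. At most `D(1+δ)` children, `β ≤ 1.12·e^{…}`: use
`ms_up_le` at level `d+1`. So `β - α ≤ 1.12·1.002·2.24·1.3·W_d(s)/20 ≤ 0.17 W_d(s)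
= 0.17 e W_{d+1}(s) ≤ 1.3 W_{d+1}(s)`. -/
theorem gap_old (h : BH 𝒯 tri A₀ D L) (d : ℕ)
    (hgap : ∀ f ∈ A₀, ∀ (x : Option τ) (s : ℝ), 0 ≤ s → s ≤ s3 D L → 20 * s < d →
      ms 𝒯 tri D d true f x s - ms 𝒯 tri D d false f x s ≤ 13 / 10 * Wf d s)
    {f : ι} (hf : f ∈ A₀) (x : Option τ) {s : ℝ} (h0 : 0 ≤ s) (h1 : s ≤ s3 D L)
    (h2 : 20 * s ≤ d) :
    ms 𝒯 tri D (d + 1) true f x s - ms 𝒯 tri D (d + 1) false f x s ≤ 13 / 10 * Wf (d + 1) s := by
  have hD := h.D_pos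
  have hL := h.L_pos
  have hsS : s ≤ SS D := h1.trans h.s3_le_SS
  have hsL : s ≤ L / 2 := by
    have h3 := h.s3_le
    have h4 := h.logD
    linarith
  have hup1 : ms 𝒯 tri D (d + 1) true f x s ≤ 112 / 100 :=
    ms_up_le h (d + 1) hf x h0 h1 (by push_cast; linarith)
  -- pointwise facts
  have hpt : ∀ t ∈ ch 𝒯 tri f x, ∀ z ∈ Set.Ioo (0:ℝ) s,
      (∏ g ∈ (tri t).erase f, ms 𝒯 tri D d true g (some t) z ≤ 2) ∧
      (∏ g ∈ (tri t).erase f, ms 𝒯 tri D d true g (some t) z) -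
        ∏ g ∈ (tri t).erase f, ms 𝒯 tri D d false g (some t) z ≤ 2912 / 1000 * Wf d z := by
    intro t ht z hz
    have ht' : t ∈ 𝒯 ∧ f ∈ tri t := by
      unfold ch at ht
      rw [Finset.mem_filter] at ht
      exact ⟨ht.1, ht.2.1⟩
    obtain ⟨g, k, hg, hk, hgk, he⟩ := s2_pair h ht'.1 ht'.2
    rw [he, Finset.prod_pair hgk, Finset.prod_pair hgk]
    have hz0 : 0 ≤ z := hz.1.le
    have hz1 : z ≤ s3 D L := hz.2.le.trans h1
    have hz2 : 20 * z < d := by linarith [hz.2]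
    have hzS : z ≤ SS D := hz1.trans h.s3_le_SS
    have g1 := ms_up_le h d hg (some t) hz0 hz1 hz2.le
    have k1 := ms_up_le h d hk (some t) hz0 hz1 hz2.le
    have g0 := ms_nonneg 𝒯 tri hD d true g (some t) hz0 hzS
    have k0 := ms_nonneg 𝒯 tri hD d true k (some t) hz0 hzS
    have g3 := ms_low_le_up 𝒯 tri hD d g (some t) hz0 hzS
    have k3 := ms_low_le_up 𝒯 tri hD d k (some t) hz0 hzS
    have g4 := ms_nonneg 𝒯 tri hD d false g (some t) hz0 hzS
    have k4 := ms_nonneg 𝒯 tri hD d false k (some t) hz0 hzS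
    have g5 := hgap g hg (some t) z hz0 hz1 hz2
    have k5 := hgap k hk (some t) z hz0 hz1 hz2
    have hW : 0 ≤ Wf d z := (Real.exp_pos _).le
    set G := ms 𝒯 tri D d true g (some t) z
    set K := ms 𝒯 tri D d true k (some t) z
    set G' := ms 𝒯 tri D d false g (some t) z
    set K' := ms 𝒯 tri D d false k (some t) z
    constructor
    · have := mul_le_mul g1 k1 k0 (by norm_num)
      linarith [show (112:ℝ) / 100 * (112 / 100) ≤ 2 by norm_num]
    · have e1 : G * K - G' * K' = (G - G') * K + G' * (K - K') := by ring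
      have e2 : (G - G') * K ≤ (13 / 10 * Wf d z) * (112 / 100) :=
        mul_le_mul g5 k1 k0 (by positivity)
      have e3 : G' * (K - K') ≤ (112 / 100) * (13 / 10 * Wf d z) :=
        mul_le_mul (g3.trans g1) k5 (by linarith) (by norm_num)
      rw [e1]
      linarith
  have hWc : Continuous (fun z => Wf d z) := by
    unfold Wf
    fun_prop
  set a : τ → ℝ := fun t => (1 / D) * ∫ z in (0:ℝ)..s, ∏ g ∈ (tri t).erase f,
    ms 𝒯 tri D d false g (some t) z with ha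
  set b : τ → ℝ := fun t => (1 / D) * ∫ z in (0:ℝ)..s, ∏ g ∈ (tri t).erase f,
    ms 𝒯 tri D d true g (some t) z with hb
  have e1 : ms 𝒯 tri D (d + 1) true f x s = Real.exp s * ∏ t ∈ ch 𝒯 tri f x, (1 - a t) := by
    rw [ms_succ 𝒯 tri hD h.h3]
    rfl
  have e2 : ms 𝒯 tri D (d + 1) false f x s = Real.exp s * ∏ t ∈ ch 𝒯 tri f x, (1 - b t) := by
    rw [ms_succ 𝒯 tri hD h.h3]
    rfl
  have hic : ∀ (c : Bool) (t : τ), IntervalIntegrable
      (fun z => ∏ g ∈ (tri t).erase f, ms 𝒯 tri D d c g (some t) z) volume 0 s := by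
    intro c t
    exact (s2_prod_continuous h d c f t).intervalIntegrable _ _
  have ha0 : ∀ t ∈ ch 𝒯 tri f x, 0 ≤ a t := by
    intro t _
    refine mul_nonneg (by positivity) ?_
    refine intervalIntegral.integral_nonneg h0 ?_
    intro z hz
    refine Finset.prod_nonneg ?_
    intro g _
    exact ms_nonneg 𝒯 tri hD d false g (some t) hz.1 (hz.2.trans hsS)
  have hab : ∀ t ∈ ch 𝒯 tri f x, a t ≤ b t := by
    intro t _
    refine mul_le_mul_of_nonneg_left ?_ (by positivity)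
    refine intervalIntegral.integral_mono_on h0 (hic _ _) (hic _ _) ?_
    intro z hz
    refine Finset.prod_le_prod ?_ ?_
    · intro g _
      exact ms_nonneg 𝒯 tri hD d false g (some t) hz.1 (hz.2.trans hsS)
    · intro g _
      exact ms_low_le_up 𝒯 tri hD d g (some t) hz.1 (hz.2.trans hsS)
  have hbc : ∀ t ∈ ch 𝒯 tri f x, b t ≤ 1 / 1000 := by
    intro t ht
    have h3 : ∫ z in (0:ℝ)..s, ∏ g ∈ (tri t).erase f, ms 𝒯 tri D d true g (some t) z ≤
        ∫ _z in (0:ℝ)..s, (2:ℝ) := by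
      refine intervalIntegral.integral_mono_on_of_le_Ioo h0 (hic _ _) (by simp) ?_
      intro z hz
      exact (hpt t ht z hz).1
    rw [intervalIntegral.integral_const, smul_eq_mul, sub_zero] at h3
    have h4 : b t ≤ (1 / D) * (s * 2) := mul_le_mul_of_nonneg_left h3 (by positivity)
    have h5 : (1 / D) * (s * 2) ≤ L / D := by
      rw [div_mul_eq_mul_div, one_mul]
      exact div_le_div_of_nonneg_right (by linarith) hD.le
    have h6 := s2_LD h
    have h7 : (1:ℝ) / 10 ^ 6 ≤ 1 / 1000 := by norm_num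
    linarith
  have hba : ∀ t ∈ ch 𝒯 tri f x, b t - a t ≤ (1 / D) * (2912 / 1000 * (Wf d s / 20)) := by
    intro t ht
    simp only [hb, ha]
    rw [← mul_sub, ← intervalIntegral.integral_sub (hic _ _) (hic _ _)]
    refine mul_le_mul_of_nonneg_left ?_ (by positivity)
    have h3 : ∫ z in (0:ℝ)..s, ((∏ g ∈ (tri t).erase f, ms 𝒯 tri D d true g (some t) z) -
        ∏ g ∈ (tri t).erase f, ms 𝒯 tri D d false g (some t) z) ≤
        ∫ z in (0:ℝ)..s, 2912 / 1000 * Wf d z := by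
      refine intervalIntegral.integral_mono_on_of_le_Ioo h0 ((hic _ _).sub (hic _ _))
        ((hWc.intervalIntegrable _ _).const_mul _) ?_
      intro z hz
      exact (hpt t ht z hz).2
    refine h3.trans ?_
    rw [intervalIntegral.integral_const_mul]
    have h4 := int_Wf d s
    linarith
  have hsum : ∑ t ∈ ch 𝒯 tri f x, (b t - a t) ≤ (1 + 1 / L ^ 400) * (2912 / 1000 * (Wf d s / 20)) := by
    refine (Finset.sum_le_card_nsmul _ _ _ hba).trans ?_
    rw [nsmul_eq_mul]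
    have h3 : ((ch 𝒯 tri f x).card : ℝ) ≤ D * (1 + 1 / L ^ 400) :=
      (card_ch (𝒯 := 𝒯) (tri := tri) f x).2.trans (h.dg_le hf)
    have hW : 0 ≤ Wf d s := (Real.exp_pos _).le
    calc ((ch 𝒯 tri f x).card : ℝ) * ((1 / D) * (2912 / 1000 * (Wf d s / 20)))
        ≤ (D * (1 + 1 / L ^ 400)) * ((1 / D) * (2912 / 1000 * (Wf d s / 20))) :=
          mul_le_mul_of_nonneg_right h3 (by positivity)
      _ = (1 + 1 / L ^ 400) * (2912 / 1000 * (Wf d s / 20)) := by
          field_simp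
  have hPG := prod_gap (ch 𝒯 tri f x) a b (1 / 1000) (by norm_num) ha0 hab hbc
  have hW : 0 ≤ Wf d s := (Real.exp_pos _).le
  have hW1 : 0 ≤ Wf (d + 1) s := (Real.exp_pos _).le
  have hWs := Wf_succ d s
  have he : Real.exp 1 ≤ 3 := by linarith [Real.exp_one_lt_d9]
  have hL400 := s2_L400 h
  have hβ0 : 0 ≤ ms 𝒯 tri D (d + 1) true f x s := ms_nonneg 𝒯 tri hD (d + 1) true f x h0 hsS
  have hs0 : 0 ≤ ∑ t ∈ ch 𝒯 tri f x, (b t - a t) :=
    Finset.sum_nonneg (fun t ht => by linarith [hab t ht])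
  have k1 : ms 𝒯 tri D (d + 1) true f x s - ms 𝒯 tri D (d + 1) false f x s ≤
      ms 𝒯 tri D (d + 1) true f x s * ((1 / (1 - 1 / 1000)) * ∑ t ∈ ch 𝒯 tri f x, (b t - a t)) := by
    rw [e2]
    rw [e1]
    rw [← mul_sub, mul_assoc]
    exact mul_le_mul_of_nonneg_left hPG (Real.exp_pos s).le
  refine k1.trans ?_
  have k2 : (1 + 1 / L ^ 400) * (2912 / 1000 * (Wf d s / 20)) ≤ 146 / 1000 * Wf d s := by
    have : (1 + 1 / L ^ 400) ≤ 1001 / 1000 := by linarith [show (1:ℝ) / 10 ^ 6 ≤ 1 / 1000 by norm_num]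
    nlinarith
  have k3 : (1 / (1 - 1 / 1000)) * ∑ t ∈ ch 𝒯 tri f x, (b t - a t) ≤ 15 / 100 * Wf d s := by
    have : (1:ℝ) / (1 - 1 / 1000) = 1000 / 999 := by norm_num
    rw [this]
    have k4 := hsum.trans k2
    nlinarith
  have k5 : ms 𝒯 tri D (d + 1) true f x s * ((1 / (1 - 1 / 1000)) * ∑ t ∈ ch 𝒯 tri f x, (b t - a t)) ≤
      112 / 100 * (15 / 100 * Wf d s) := by
    refine mul_le_mul hup1 k3 ?_ (by norm_num)
    exact mul_nonneg (by norm_num) hs0
  refine k5.trans ?_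
  rw [hWs]
  nlinarith

/-- all regions: induction; for `d ≤ 20 s < d+1` use `ms_up_le`/`ms_lo_ge` at level `d+1`:
`1.12 - 0.89 = 0.23 ≤ 1.3 e^{-1}`, and `W_{d+1}(s) ≥ e^{-1}`. -/
theorem gap_all (h : BH 𝒯 tri A₀ D L) (d : ℕ) {f : ι} (hf : f ∈ A₀) (x : Option τ) {s : ℝ}
    (h0 : 0 ≤ s) (h1 : s ≤ s3 D L) (h2 : 20 * s < d) :
    ms 𝒯 tri D d true f x s - ms 𝒯 tri D d false f x s ≤ 13 / 10 * Wf d s := by
  induction d generalizing f x s with
  | zero =>
    simp only [Nat.cast_zero] at h2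
    linarith
  | succ d ih =>
    rcases le_or_gt (20 * s) d with h3 | h3
    · exact gap_old h d (fun f hf x s h0 h1 h2 => ih hf x h0 h1 h2) hf x h0 h1 h3
    · have h4 := ms_up_le h (d + 1) hf x h0 h1 h2.le
      have h5 := ms_lo_ge h (d + 1) hf x h0 h1 h2
      have h6 : Real.exp (-1) ≤ Wf (d + 1) s := by
        unfold Wf
        refine Real.exp_le_exp.mpr ?_
        push_cast
        linarith
      have h7 : (1:ℝ) / 3 ≤ Real.exp (-1) := by
        rw [Real.exp_neg, one_div]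
        have := Real.exp_one_lt_d9
        exact inv_anti₀ (Real.exp_pos 1) (by linarith)
      linarith

/-- STEP 2. `W_d(s) ≤ e^{-20 log D} = D^{-20}`. -/
theorem step2 (h : BH 𝒯 tri A₀ D L) (d : ℕ) (hd : 20 * s3 D L + 20 * Real.log D ≤ d) {f : ι}
    (hf : f ∈ A₀) (x : Option τ) {s : ℝ} (h0 : 0 ≤ s) (h1 : s ≤ s3 D L) :
    ms 𝒯 tri D d true f x s - ms 𝒯 tri D d false f x s ≤ 2 / D ^ 20 := by
  have hD := h.D_pos
  have hlog := h.one_le_logD
  have hg := gap_all h d hf x h0 h1 (by linarith)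
  have hW : Wf d s ≤ 1 / D ^ 20 := by
    unfold Wf
    have h3 : Real.exp (-((d:ℝ) - 20 * s)) ≤ Real.exp (-(20 * Real.log D)) :=
      Real.exp_le_exp.mpr (by linarith)
    refine h3.trans ?_
    rw [Real.exp_neg, one_div]
    have h4 : Real.exp (20 * Real.log D) = D ^ 20 := by
      rw [show (20:ℝ) * Real.log D = ((20:ℕ):ℝ) * Real.log D by norm_num, Real.exp_nat_mul,
        Real.exp_log hD]
    rw [h4]
  have hpos : 0 < 1 / D ^ 20 := by positivity
  have h2 : 2 / D ^ 20 = 2 * (1 / D ^ 20) := by ring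
  rw [h2]
  linarith

end Crest.Agent.TRem
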