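import Crest.Agent.TRem.B3k

/-!
# Row 30, B3 Step 4, part a: elementary real analysis (weights, two-factor products, `ℓ²` norm of
time integrals)
-/

namespace Crest.Agent.TRem

open Finset MeasureTheory

variable {ι τ : Type} [DecidableEq ι] [DecidableEq τ]

/-- the wavefront weight `W_j(s) = exp(-(j - 20 (s - s₃)))`. -/
noncomputable def Wg (s3 j s : ℝ) : ℝ := Real.exp (-(j - 20 * (s - s3)))

theorem Wg_pos (s3 j s : ℝ) : 0 < Wg s3 j s := Real.exp_pos _

theorem Wg_cont (s3 j : ℝ) : Continuous (Wg s3 j) := by unfold Wg; fun_prop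

theorem Wg_succ (s3 j s : ℝ) : Wg s3 j s = Real.exp 1 * Wg s3 (j + 1) s := by
  unfold Wg; rw [← Real.exp_add]; congr 1; ring

theorem Wg_le_one {s3 j s : ℝ} (h : s ≤ s3 + j / 20) : Wg s3 j s ≤ 1 := by
  unfold Wg; rw [← Real.exp_zero]; apply Real.exp_le_exp.2; linarith

theorem Wg_int (s3 j s : ℝ) : ∫ z in s3..s, Wg s3 j z = (Wg s3 j s - Wg s3 j s3) / 20 := by
  have h : ∀ x ∈ Set.uIcc s3 s, HasDerivAt (fun z => Wg s3 j z / 20) (Wg s3 j x) x := by
    intro x _
    have h1 : HasDerivAt (fun z : ℝ => -(j - 20 * (z - s3))) 20 x := by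
      have h0 := (((hasDerivAt_id x).sub_const s3).const_mul (20:ℝ)).sub_const j
      have e : (fun z : ℝ => -(j - 20 * (z - s3))) = (fun z : ℝ => 20 * (id z - s3) - j) := by
        funext z; simp only [id]; ring
      rw [e]
      simpa using h0
    have h2 := (h1.exp).div_const 20
    have e2 : Real.exp (-(j - 20 * (x - s3))) * 20 / 20 = Wg s3 j x := by unfold Wg; ring
    rw [e2] at h2
    exact h2
  rw [intervalIntegral.integral_eq_sub_of_hasDerivAt h ((Wg_cont s3 j).intervalIntegrable _ _)]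
  ring

theorem Wg_int_le (s3 j s : ℝ) : ∫ z in s3..s, Wg s3 j z ≤ Wg s3 j s / 20 := by
  rw [Wg_int]; have := Wg_pos s3 j s3; linarith

theorem prod2_lower {G : Finset ι} (hG : G.card = 2) (a : ι → ℝ) (ha : ∀ g ∈ G, 0 ≤ a g) {w : ℝ}
    (hw0 : 0 ≤ w) (hw1 : w ≤ 1) : w ^ 2 - ∑ g ∈ G, max (w - a g) 0 ≤ ∏ g ∈ G, a g := by
  obtain ⟨x, y, hxy, rfl⟩ := Finset.card_eq_two.1 hG
  rw [Finset.sum_pair hxy, Finset.prod_pair hxy]
  have hx := ha x (by simp)
  have hy := ha y (by simp)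
  have h1 : w - a x ≤ max (w - a x) 0 := le_max_left _ _
  have h1' : 0 ≤ max (w - a x) 0 := le_max_right _ _
  have h2 : w - a y ≤ max (w - a y) 0 := le_max_left _ _
  have h2' : 0 ≤ max (w - a y) 0 := le_max_right _ _
  by_cases hx' : w ≤ a x
  · by_cases hy' : w ≤ a y
    · nlinarith
    · nlinarith
  · by_cases hy' : w ≤ a y
    · nlinarith
    · nlinarith [mul_nonneg (sub_nonneg.2 (le_of_not_ge hx')) (sub_nonneg.2 (le_of_not_ge hy'))]

theorem prod2_upper {G : Finset ι} (hG : G.card = 2) (b : ι → ℝ) (hb : ∀ g ∈ G, 0 ≤ b g) {Γ : ℝ}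
    (hbΓ : ∀ g ∈ G, b g ≤ Γ) {w : ℝ} (hw0 : 0 ≤ w) (hw1 : w ≤ Γ) :
    ∏ g ∈ G, b g ≤ w ^ 2 + 2 * Γ * ∑ g ∈ G, max (b g - w) 0 := by
  obtain ⟨x, y, hxy, rfl⟩ := Finset.card_eq_two.1 hG
  rw [Finset.sum_pair hxy, Finset.prod_pair hxy]
  have hx := hb x (by simp)
  have hy := hb y (by simp)
  have hx2 := hbΓ x (by simp)
  have hy2 := hbΓ y (by simp)
  set p := max (b x - w) 0 with hp
  set q := max (b y - w) 0 with hq
  have h1 : b x - w ≤ p := le_max_left _ _
  have h1' : 0 ≤ p := le_max_right _ _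
  have h2 : b y - w ≤ q := le_max_left _ _
  have h2' : 0 ≤ q := le_max_right _ _
  have hpΓ : p ≤ Γ := max_le (by linarith) (by linarith)
  have hqΓ : q ≤ Γ := max_le (by linarith) (by linarith)
  have hΓ : 0 ≤ Γ := by linarith
  calc b x * b y ≤ (w + p) * (w + q) :=
        mul_le_mul (by linarith) (by linarith) hy (by linarith)
    _ = w ^ 2 + w * (p + q) + p * q := by ring
    _ ≤ w ^ 2 + Γ * (p + q) + Γ * q := by
        have e1 : w * (p + q) ≤ Γ * (p + q) := mul_le_mul_of_nonneg_right hw1 (by linarith)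
        have e2 : p * q ≤ Γ * q := mul_le_mul_of_nonneg_right hpΓ h2'
        linarith
    _ ≤ _ := by nlinarith [mul_nonneg hΓ h1']

theorem sq_integral_le {φ : ℝ → ℝ} (hφ : Continuous φ) {a b : ℝ} (hab : a ≤ b) :
    (∫ z in a..b, φ z) ^ 2 ≤ (b - a) * ∫ z in a..b, φ z ^ 2 := by
  rcases eq_or_lt_of_le hab with rfl | h
  · simp
  set c := (∫ z in a..b, φ z) / (b - a) with hc
  have hba : 0 < b - a := by linarith
  have h0 : 0 ≤ ∫ z in a..b, (φ z - c) ^ 2 :=
    intervalIntegral.integral_nonneg hab (fun z _ => sq_nonneg _)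
  have h1 : ∫ z in a..b, (φ z - c) ^ 2 =
      (∫ z in a..b, φ z ^ 2) - 2 * c * (∫ z in a..b, φ z) + c ^ 2 * (b - a) := by
    have e : ∀ z, (φ z - c) ^ 2 = φ z ^ 2 - 2 * c * φ z + c ^ 2 := fun z => by ring
    simp_rw [e]
    rw [intervalIntegral.integral_add, intervalIntegral.integral_sub,
      intervalIntegral.integral_const_mul, intervalIntegral.integral_const, smul_eq_mul]
    · ring
    · exact (hφ.pow 2).intervalIntegrable _ _
    · exact (continuous_const.mul hφ).intervalIntegrable _ _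
    · exact ((hφ.pow 2).sub (continuous_const.mul hφ)).intervalIntegrable _ _
    · exact continuous_const.intervalIntegrable _ _
  rw [h1] at h0
  have hc2 : (∫ z in a..b, φ z) = c * (b - a) := by rw [hc]; field_simp
  rw [hc2] at h0 ⊢
  nlinarith

/-- `ℓ²` norm of a time integral. -/
theorem QQm_integral (𝒯 : Finset τ) (tri : τ → Finset ι) (φ : ι → τ → ℝ → ℝ)
    (hφ : ∀ f T, Continuous (φ f T)) {a b : ℝ} (hab : a ≤ b) {q : ℝ}
    (hq : ∀ z ∈ Set.Icc a b, QQm 𝒯 tri (fun f T => φ f T z) ≤ q) :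
    QQm 𝒯 tri (fun f T => ∫ z in a..b, φ f T z) ≤ (b - a) ^ 2 * q := by
  have h1 : QQm 𝒯 tri (fun f T => ∫ z in a..b, φ f T z) ≤
      (b - a) * ∫ z in a..b, QQm 𝒯 tri (fun f T => φ f T z) := by
    unfold QQm
    rw [intervalIntegral.integral_finset_sum]
    · rw [Finset.mul_sum]
      refine Finset.sum_le_sum (fun T _ => ?_)
      rw [intervalIntegral.integral_finset_sum]
      · rw [Finset.mul_sum]
        exact Finset.sum_le_sum (fun f _ => sq_integral_le (hφ f T) hab)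
      · exact fun f _ => ((hφ f T).pow 2).intervalIntegrable _ _
    · intro T _
      exact (continuous_finset_sum _ (fun f _ => (hφ f T).pow 2)).intervalIntegrable _ _
  refine h1.trans ?_
  have h2 : ∫ z in a..b, QQm 𝒯 tri (fun f T => φ f T z) ≤ ∫ z in a..b, q := by
    refine intervalIntegral.integral_mono_on hab ?_ (continuous_const.intervalIntegrable _ _) hq
    refine Continuous.intervalIntegrable ?_ _ _
    unfold QQm
    exact continuous_finset_sum _ (fun T _ => continuous_finset_sum _ (fun f _ => (hφ f T).pow 2))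
  rw [intervalIntegral.integral_const, smul_eq_mul] at h2
  calc _ ≤ (b - a) * ((b - a) * q) := mul_le_mul_of_nonneg_left h2 (by linarith)
    _ = _ := by ring

theorem QQm_mono (𝒯 : Finset τ) (tri : τ → Finset ι) {u v : ι → τ → ℝ}
    (h : ∀ T ∈ 𝒯, ∀ f ∈ tri T, 0 ≤ u f T ∧ u f T ≤ v f T) : QQm 𝒯 tri u ≤ QQm 𝒯 tri v := by
  refine Finset.sum_le_sum (fun T hT => Finset.sum_le_sum (fun f hf => ?_))
  have := h T hT f hf
  exact pow_le_pow_left₀ this.1 this.2 2

theorem QQm_smul (𝒯 : Finset τ) (tri : τ → Finset ι) (c : ℝ) (u : ι → τ → ℝ) :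
    QQm 𝒯 tri (fun f T => c * u f T) = c ^ 2 * QQm 𝒯 tri u := by
  unfold QQm
  rw [Finset.mul_sum]
  refine Finset.sum_congr rfl (fun T _ => ?_)
  rw [Finset.mul_sum]
  exact Finset.sum_congr rfl (fun f _ => by ring)

theorem QQm_const (𝒯 : Finset τ) (tri : τ → Finset ι) (h3 : ∀ t ∈ 𝒯, (tri t).card = 3) (c : ℝ) :
    QQm 𝒯 tri (fun _ _ => c) = 3 * 𝒯.card * c ^ 2 := by
  unfold QQm
  rw [Finset.sum_congr rfl (g := fun _ => 3 * c ^ 2) (fun T hT => by
    rw [Finset.sum_const, h3 T hT, nsmul_eq_mul]; norm_num)]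
  rw [Finset.sum_const, nsmul_eq_mul]; ring

theorem QQm_add3 (𝒯 : Finset τ) (tri : τ → Finset ι) (u v w : ι → τ → ℝ) :
    QQm 𝒯 tri (fun f T => u f T + v f T + w f T) ≤
      3 * (QQm 𝒯 tri u + QQm 𝒯 tri v + QQm 𝒯 tri w) := by
  unfold QQm
  rw [← Finset.sum_add_distrib, ← Finset.sum_add_distrib, Finset.mul_sum]
  refine Finset.sum_le_sum (fun T _ => ?_)
  rw [← Finset.sum_add_distrib, ← Finset.sum_add_distrib, Finset.mul_sum]
  refine Finset.sum_le_sum (fun f _ => ?_)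
  nlinarith [sq_nonneg (u f T - v f T), sq_nonneg (u f T - w f T), sq_nonneg (v f T - w f T)]

theorem QQm_add4 (𝒯 : Finset τ) (tri : τ → Finset ι) (u v w x : ι → τ → ℝ) :
    QQm 𝒯 tri (fun f T => u f T + v f T + w f T + x f T) ≤
      4 * (QQm 𝒯 tri u + QQm 𝒯 tri v + QQm 𝒯 tri w + QQm 𝒯 tri x) := by
  unfold QQm
  rw [← Finset.sum_add_distrib, ← Finset.sum_add_distrib, ← Finset.sum_add_distrib, Finset.mul_sum]
  refine Finset.sum_le_sum (fun T _ => ?_)
  rw [← Finset.sum_add_distrib, ← Finset.sum_add_distrib, ← Finset.sum_add_distrib, Finset.mul_sum]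
  refine Finset.sum_le_sum (fun f _ => ?_)
  nlinarith [sq_nonneg (u f T - v f T), sq_nonneg (u f T - w f T), sq_nonneg (v f T - w f T),
    sq_nonneg (u f T - x f T), sq_nonneg (v f T - x f T), sq_nonneg (w f T - x f T)]

end Crest.Agent.TRem
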