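import Crest.Agent.TRem.B3s4a

/-!
# Row 30, B3 Step 4, part b: one level of the last stretch, upper bound (abstract form)
-/

namespace Crest.Agent.TRem

open Finset MeasureTheory

variable {ι τ : Type} [DecidableEq ι] [DecidableEq τ]

/-- integral of a two-factor product from below. -/
theorem int_prod_lower {G : Finset ι} (hG : G.card = 2) (a : ι → ℝ → ℝ)
    (hc : ∀ g, Continuous (a g)) {s3 s j : ℝ} (hs : s3 ≤ s) (hsj : s ≤ s3 + j / 20)
    (ha : ∀ g ∈ G, ∀ z ∈ Set.Icc s3 s, 0 ≤ a g z) :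
    (s - s3) - 1 / 100 * Wg s3 j s
      - ∑ g ∈ G, ∫ z in s3..s, max (Real.exp (-(1 / 10) * Wg s3 j z) - a g z) 0 ≤
      ∫ z in s3..s, ∏ g ∈ G, a g z := by
  have hcu : ∀ g, Continuous (fun z => max (Real.exp (-(1 / 10) * Wg s3 j z) - a g z) 0) := by
    intro g
    exact ((Real.continuous_exp.comp (continuous_const.mul (Wg_cont s3 j))).sub (hc g)).max
      continuous_const
  have hpt : ∀ z ∈ Set.Icc s3 s, (1 - 1 / 5 * Wg s3 j z)
      - ∑ g ∈ G, max (Real.exp (-(1 / 10) * Wg s3 j z) - a g z) 0 ≤ ∏ g ∈ G, a g z := by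
    intro z hz
    have hW := Wg_pos s3 j z
    have h1 := prod2_lower hG (fun g => a g z) (fun g hg => ha g hg z hz)
      (w := Real.exp (-(1 / 10) * Wg s3 j z)) (Real.exp_pos _).le
      (by rw [Real.exp_le_one_iff]; linarith)
    have h2 : 1 - 1 / 5 * Wg s3 j z ≤ Real.exp (-(1 / 10) * Wg s3 j z) ^ 2 := by
      rw [← Real.exp_nat_mul]
      have := Real.add_one_le_exp (((2:ℕ):ℝ) * (-(1 / 10) * Wg s3 j z))
      push_cast at this ⊢
      linarith
    linarith
  have hc1 : Continuous (fun z => (1 - 1 / 5 * Wg s3 j z)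
      - ∑ g ∈ G, max (Real.exp (-(1 / 10) * Wg s3 j z) - a g z) 0) :=
    (continuous_const.sub (continuous_const.mul (Wg_cont s3 j))).sub
      (continuous_finset_sum _ (fun g _ => hcu g))
  have hc2 : Continuous (fun z => ∏ g ∈ G, a g z) := continuous_finset_prod _ (fun g _ => hc g)
  have hint := intervalIntegral.integral_mono_on (μ := volume) hs
    (hc1.intervalIntegrable _ _) (hc2.intervalIntegrable _ _) hpt
  refine le_trans ?_ hint
  rw [intervalIntegral.integral_sub, intervalIntegral.integral_sub,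
    intervalIntegral.integral_const_mul, intervalIntegral.integral_finset_sum,
    intervalIntegral.integral_const, smul_eq_mul]
  · have := Wg_int_le s3 j s
    linarith
  · exact fun g _ => (hcu g).intervalIntegrable _ _
  · exact (continuous_const (y := (1:ℝ))).intervalIntegrable _ _
  · exact (continuous_const.mul (Wg_cont s3 j)).intervalIntegrable _ _
  · exact (continuous_const.sub (continuous_const.mul (Wg_cont s3 j))).intervalIntegrable _ _
  · exact (continuous_finset_sum _ (fun g _ => hcu g)).intervalIntegrable _ _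

/-- numerical inequality, upper bound, new region. -/
theorem num_up4 {x : ℝ} (h0 : 0 ≤ x) (h1 : x ≤ 1 / 20) :
    102 / 10000 + x ≤ 1 / 10 * Real.exp (-1 + 20 * x) := by
  have e1 : (0.3678794411 : ℝ) < Real.exp (-1) := by
    rw [Real.exp_neg]
    rw [lt_inv_comm₀ (by norm_num) (Real.exp_pos 1)]
    exact lt_trans Real.exp_one_lt_d9 (by norm_num)
  rw [Real.exp_add]
  have e2 : 1 + 20 * x ≤ Real.exp (20 * x) := by have := Real.add_one_le_exp (20 * x); linarith
  have e3 : 0.36 * (1 + 20 * x) ≤ Real.exp (-1) * Real.exp (20 * x) :=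
    mul_le_mul (by linarith) e2 (by linarith) (Real.exp_pos _).le
  linarith

/-- upper bound of one message at the next level. -/
theorem lvl_up_pt {𝒯 : Finset τ} {tri : τ → Finset ι} (h3 : ∀ t ∈ 𝒯, (tri t).card = 3)
    {D s3 S Γ δ S3 j : ℝ} (hD : 0 < D) (hΓ : 2 ≤ Γ) (hδ0 : 0 ≤ δ) (hδ : δ ≤ 1 / 100)
    (hSS : S - s3 ≤ S3) (hj : 0 ≤ j)
    (α : ι → τ → ℝ → ℝ) (hαc : ∀ f T, Continuous (α f T))
    (hα0 : ∀ T ∈ 𝒯, ∀ f ∈ tri T, ∀ s ∈ Set.Icc s3 S, 0 ≤ α f T s)
    (f : ι) (T0 : τ) (β' : ℝ → ℝ)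
    (hβ' : ∀ s ∈ Set.Icc s3 S, 0 < β' s ∧ β' s ≤ Γ)
    (hlog : ∀ s ∈ Set.Icc s3 S, Real.log (β' s) ≤ Real.log (β' s3) + (s - s3)
      - (1 / D) * ∑ T ∈ ch 𝒯 tri f (some T0), ∫ z in s3..s, ∏ g ∈ (tri T).erase f, α g T z)
    (hgrow : ∀ s s', s3 ≤ s → s ≤ s' → s' ≤ S → β' s' ≤ Real.exp (s' - s) * β' s)
    (hch1 : (1 - δ) * D ≤ (ch 𝒯 tri f (some T0)).card)
    (hch2 : ((ch 𝒯 tri f (some T0)).card : ℝ) ≤ (1 + δ) * D)
    {s : ℝ} (hs3 : s3 ≤ s) (hsS : s ≤ S) (hsj : s ≤ s3 + (j + 1) / 20) :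
    max (β' s - Real.exp (1 / 10 * Wg s3 (j + 1) s)) 0 ≤ 2 * Γ *
      (|Real.log (β' s3)| + δ * S3 + (1 / D) * KK 𝒯 tri (fun g T =>
        ∫ z in s3..(min s (s3 + j / 20)), max (Real.exp (-(1 / 10) * Wg s3 j z) - α g T z) 0) f T0) := by
  set s1 := min s (s3 + j / 20) with hs1
  have hs31 : s3 ≤ s1 := le_min hs3 (by linarith [div_nonneg hj (by norm_num : (0:ℝ) ≤ 20)])
  have hs1s : s1 ≤ s := min_le_left _ _
  have hs1j : s1 ≤ s3 + j / 20 := min_le_right _ _
  have hs1S : s1 ≤ S := hs1s.trans hsS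
  set U : ι → τ → ℝ := fun g T => ∫ z in s3..s1, max (Real.exp (-(1 / 10) * Wg s3 j z) - α g T z) 0
    with hU
  have hchmem : ∀ T ∈ ch 𝒯 tri f (some T0), T ∈ 𝒯 ∧ f ∈ tri T := by
    intro T hT
    rw [ch, Finset.mem_filter] at hT
    exact ⟨hT.1, hT.2.1⟩
  have hU0 : ∀ g T, 0 ≤ U g T := fun g T =>
    intervalIntegral.integral_nonneg hs31 (fun z _ => le_max_right _ _)
  have hKU0 : 0 ≤ KK 𝒯 tri U f T0 :=
    Finset.sum_nonneg (fun T _ => Finset.sum_nonneg (fun g _ => hU0 g T))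
  have hcardG : ∀ T ∈ ch 𝒯 tri f (some T0), ((tri T).erase f).card = 2 := by
    intro T hT
    obtain ⟨h1, h2⟩ := hchmem T hT
    rw [Finset.card_erase_of_mem h2, h3 T h1]
  set N : ℝ := ((ch 𝒯 tri f (some T0)).card : ℝ) with hN
  have hW1 := Wg_pos s3 j s1
  -- sum of the integrals
  have hsum : N * ((s1 - s3) - 1 / 100 * Wg s3 j s1) - KK 𝒯 tri U f T0 ≤
      ∑ T ∈ ch 𝒯 tri f (some T0), ∫ z in s3..s1, ∏ g ∈ (tri T).erase f, α g T z := by
    have : N * ((s1 - s3) - 1 / 100 * Wg s3 j s1) - KK 𝒯 tri U f T0 =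
        ∑ T ∈ ch 𝒯 tri f (some T0), (((s1 - s3) - 1 / 100 * Wg s3 j s1)
          - ∑ g ∈ (tri T).erase f, U g T) := by
      rw [Finset.sum_sub_distrib, Finset.sum_const, nsmul_eq_mul, KK]
    rw [this]
    refine Finset.sum_le_sum (fun T hT => ?_)
    obtain ⟨h1, h2⟩ := hchmem T hT
    refine int_prod_lower (hcardG T hT) (fun g => α g T) (fun g => hαc g T) hs31 hs1j ?_
    intro g hg z hz
    exact hα0 T h1 g (Finset.mem_of_mem_erase hg) z ⟨hz.1, hz.2.trans hs1S⟩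
  -- P1
  have hP1 : Real.log (β' s1) ≤ |Real.log (β' s3)| + δ * (s1 - s3) + 102 / 10000 * Wg s3 j s1 +
      (1 / D) * KK 𝒯 tri U f T0 := by
    have h1 := hlog s1 ⟨hs31, hs1S⟩
    have h2 : Real.log (β' s3) ≤ |Real.log (β' s3)| := le_abs_self _
    set X := (s1 - s3) - 1 / 100 * Wg s3 j s1 with hX
    have hND : (1 / D) * (N * X) ≥ X - δ * ((s1 - s3) + 1 / 100 * Wg s3 j s1) := by
      have hN1 : 1 - δ ≤ N / D := by rw [le_div_iff₀ hD]; exact hch1
      have hN2 : N / D ≤ 1 + δ := by rw [div_le_iff₀ hD]; exact hch2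
      have e : (1 / D) * (N * X) = X + (N / D - 1) * X := by field_simp; ring
      rw [e]
      have ha : |(N / D - 1) * X| ≤ δ * ((s1 - s3) + 1 / 100 * Wg s3 j s1) := by
        rw [abs_mul]
        refine mul_le_mul (abs_le.2 ⟨by linarith, by linarith⟩) ?_ (abs_nonneg _) hδ0
        rw [hX]
        exact abs_le.2 ⟨by linarith, by linarith⟩
      have := neg_abs_le ((N / D - 1) * X)
      linarith
    have hmul := mul_le_mul_of_nonneg_left hsum (by positivity : (0:ℝ) ≤ 1 / D)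
    have hδW : δ * (1 / 100 * Wg s3 j s1) ≤ 1 / 100 * (1 / 100 * Wg s3 j s1) :=
      mul_le_mul_of_nonneg_right hδ (by linarith)
    have e2 : (1 / D) * (N * X - KK 𝒯 tri U f T0) =
        (1 / D) * (N * X) - (1 / D) * KK 𝒯 tri U f T0 := by ring
    rw [e2] at hmul
    nlinarith
  set Z : ℝ := |Real.log (β' s3)| + δ * S3 + (1 / D) * KK 𝒯 tri U f T0 with hZ
  have hS30 : 0 ≤ S3 := by linarith
  have hZ0 : 0 ≤ Z := by
    have : 0 ≤ (1 / D) * KK 𝒯 tri U f T0 := mul_nonneg (by positivity) hKU0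
    have h2 : 0 ≤ δ * S3 := mul_nonneg hδ0 hS30
    have h3 := abs_nonneg (Real.log (β' s3))
    linarith
  have hδs : δ * (s1 - s3) ≤ δ * S3 := mul_le_mul_of_nonneg_left (by linarith) hδ0
  -- P2
  have hP2 : Real.log (β' s) ≤ 1 / 10 * Wg s3 (j + 1) s + Z := by
    by_cases hcase : s ≤ s3 + j / 20
    · have e1 : s1 = s := min_eq_left hcase
      rw [e1] at hP1 hδs
      rw [Wg_succ] at hP1
      have hW := Wg_pos s3 (j + 1) s
      have he : Real.exp 1 < 2.7182818286 := Real.exp_one_lt_d9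
      have : 102 / 10000 * (Real.exp 1 * Wg s3 (j + 1) s) ≤ 1 / 10 * Wg s3 (j + 1) s := by nlinarith
      linarith
    · have hcase' : s3 + j / 20 ≤ s := le_of_lt (not_le.1 hcase)
      have e1 : s1 = s3 + j / 20 := min_eq_right hcase'
      have hx0 : 0 ≤ s - s1 := by linarith
      have hx1 : s - s1 ≤ 1 / 20 := by rw [e1]; linarith
      have hWs1 : Wg s3 j s1 = 1 := by
        rw [e1]; unfold Wg
        rw [← Real.exp_zero]; congr 1; ring
      have hWs : Wg s3 (j + 1) s = Real.exp (-1 + 20 * (s - s1)) := by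
        rw [e1]; unfold Wg; congr 1; ring
      have hg := hgrow s1 s hs31 hs1s hsS
      have hb1 := (hβ' s1 ⟨hs31, hs1S⟩).1
      have hb := (hβ' s ⟨hs3, hsS⟩).1
      have hlg : Real.log (β' s) ≤ (s - s1) + Real.log (β' s1) := by
        have := Real.log_le_log hb hg
        rwa [Real.log_mul (Real.exp_pos _).ne' hb1.ne', Real.log_exp] at this
      have hnum := num_up4 hx0 hx1
      rw [hWs1] at hP1
      rw [hWs]
      linarith
  -- P3
  have hb := hβ' s ⟨hs3, hsS⟩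
  have hW0 := Wg_pos s3 (j + 1) s
  have hW1' : Wg s3 (j + 1) s ≤ 1 := Wg_le_one hsj
  refine max_le ?_ (by positivity)
  by_cases hZ2 : Z ≤ 1 / 2
  · have h1 : β' s ≤ Real.exp (1 / 10 * Wg s3 (j + 1) s) * Real.exp Z := by
      rw [← Real.exp_add, ← Real.log_le_iff_le_exp hb.1]
      exact hP2
    have h2 : Real.exp Z ≤ 1 + Z + Z ^ 2 := by
      have := Real.abs_exp_sub_one_sub_id_le (x := Z) (by rw [abs_of_nonneg hZ0]; linarith)
      have := (abs_le.1 this).2
      linarith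
    have h3 : Real.exp (1 / 10 * Wg s3 (j + 1) s) ≤ 2 := by
      have h4 : Real.exp (1 / 10 * Wg s3 (j + 1) s) ≤ Real.exp (1 / 2) :=
        Real.exp_le_exp.2 (by linarith)
      have h5 : Real.exp (1 / 2) ≤ 2 := by
        have := Real.abs_exp_sub_one_sub_id_le (x := 1 / 2) (by norm_num)
        have := (abs_le.1 this).2
        norm_num at this ⊢
        linarith
      linarith
    set P := Real.exp (1 / 10 * Wg s3 (j + 1) s) with hP
    have hP0 : 0 < P := Real.exp_pos _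
    have h6 : P * Real.exp Z ≤ P * (1 + Z + Z ^ 2) := mul_le_mul_of_nonneg_left h2 hP0.le
    have h7 : P * (Z + Z ^ 2) ≤ 2 * (3 / 2 * Z) := by
      refine mul_le_mul h3 ?_ (by positivity) (by norm_num)
      nlinarith
    have h8 : 4 * Z ≤ 2 * Γ * Z := mul_le_mul_of_nonneg_right (by linarith) hZ0
    nlinarith
  · have : Γ ≤ 2 * Γ * Z := by nlinarith
    have h3 := Real.exp_pos (1 / 10 * Wg s3 (j + 1) s)
    linarith [hb.2]

end Crest.Agent.TRem
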