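import Crest.Agent.TRem.B3s4a

/-!
# Row 30, B3 Step 4, part c: one level of the last stretch, lower bound (abstract form)
-/

namespace Crest.Agent.TRem

open Finset MeasureTheory

variable {ι τ : Type} [DecidableEq ι] [DecidableEq τ]

/-- `e^x ≤ 1 + x + x²` for `|x| ≤ 1`. -/
theorem exp_le_quad4 {x : ℝ} (h : |x| ≤ 1) : Real.exp x ≤ 1 + x + x ^ 2 := by
  have := (abs_le.1 (Real.abs_exp_sub_one_sub_id_le h)).2
  linarith

/-- integral of a two-factor product from above (old region). -/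
theorem int_prod_upper {G : Finset ι} (hG : G.card = 2) (b : ι → ℝ → ℝ)
    (hc : ∀ g, Continuous (b g)) {s3 s j Γ : ℝ} (hΓ : 2 ≤ Γ) (hs : s3 ≤ s) (hsj : s ≤ s3 + j / 20)
    (hb : ∀ g ∈ G, ∀ z ∈ Set.Icc s3 s, 0 ≤ b g z ∧ b g z ≤ Γ) :
    ∫ z in s3..s, ∏ g ∈ G, b g z ≤ (s - s3) + 125 / 10000 * Wg s3 j s
      + 2 * Γ * ∑ g ∈ G, ∫ z in s3..s, max (b g z - Real.exp (1 / 10 * Wg s3 j z)) 0 := by
  have hcu : ∀ g, Continuous (fun z => max (b g z - Real.exp (1 / 10 * Wg s3 j z)) 0) := by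
    intro g
    exact ((hc g).sub (Real.continuous_exp.comp (continuous_const.mul (Wg_cont s3 j)))).max
      continuous_const
  have hpt : ∀ z ∈ Set.Icc s3 s, ∏ g ∈ G, b g z ≤ (1 + 1 / 4 * Wg s3 j z)
      + 2 * Γ * ∑ g ∈ G, max (b g z - Real.exp (1 / 10 * Wg s3 j z)) 0 := by
    intro z hz
    have hW := Wg_pos s3 j z
    have hW1 : Wg s3 j z ≤ 1 := Wg_le_one (hz.2.trans hsj)
    have hw2 : Real.exp (1 / 10 * Wg s3 j z) ≤ Γ := by
      have h1 := exp_le_quad4 (x := 1 / 10 * Wg s3 j z) (by rw [abs_of_pos (by linarith)]; linarith)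
      nlinarith
    have h1 := prod2_upper hG (fun g => b g z) (fun g hg => (hb g hg z hz).1)
      (fun g hg => (hb g hg z hz).2) (w := Real.exp (1 / 10 * Wg s3 j z)) (Real.exp_pos _).le hw2
    have h2 : Real.exp (1 / 10 * Wg s3 j z) ^ 2 ≤ 1 + 1 / 4 * Wg s3 j z := by
      rw [← Real.exp_nat_mul]
      have h3 := exp_le_quad4 (x := ((2:ℕ):ℝ) * (1 / 10 * Wg s3 j z)) (by
        push_cast; rw [abs_of_pos (by linarith)]; linarith)
      push_cast at h3 ⊢
      nlinarith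
    linarith
  have hc1 : Continuous (fun z => (1 + 1 / 4 * Wg s3 j z)
      + 2 * Γ * ∑ g ∈ G, max (b g z - Real.exp (1 / 10 * Wg s3 j z)) 0) :=
    (continuous_const.add (continuous_const.mul (Wg_cont s3 j))).add
      (continuous_const.mul (continuous_finset_sum _ (fun g _ => hcu g)))
  have hc2 : Continuous (fun z => ∏ g ∈ G, b g z) := continuous_finset_prod _ (fun g _ => hc g)
  have hint := intervalIntegral.integral_mono_on (μ := volume) hs
    (hc2.intervalIntegrable _ _) (hc1.intervalIntegrable _ _) hpt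
  refine le_trans hint ?_
  rw [intervalIntegral.integral_add, intervalIntegral.integral_add,
    intervalIntegral.integral_const_mul, intervalIntegral.integral_const_mul,
    intervalIntegral.integral_finset_sum, intervalIntegral.integral_const, smul_eq_mul]
  · have := Wg_int_le s3 j s
    linarith
  · exact fun g _ => (hcu g).intervalIntegrable _ _
  · exact (continuous_const (y := (1:ℝ))).intervalIntegrable _ _
  · exact (continuous_const.mul (Wg_cont s3 j)).intervalIntegrable _ _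
  · exact (continuous_const.add (continuous_const.mul (Wg_cont s3 j))).intervalIntegrable _ _
  · exact (continuous_const.mul (continuous_finset_sum _ (fun g _ => hcu g))).intervalIntegrable _ _

/-- integral of a two-factor product from above (new region of length `x = s - s1 ≤ 1/20`). -/
theorem int_prod_upper_new {G : Finset ι} (hG : G.card = 2) (b : ι → ℝ → ℝ)
    (hc : ∀ g, Continuous (b g)) {s1 s Γ w : ℝ} (hs : s1 ≤ s) (hx : s - s1 ≤ 1 / 20)
    (hw0 : 0 ≤ w) (hwΓ : w ≤ Γ)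
    (hb : ∀ g ∈ G, 0 ≤ b g s1 ∧ b g s1 ≤ Γ) (hb0 : ∀ g ∈ G, ∀ z ∈ Set.Icc s1 s, 0 ≤ b g z)
    (hgrow : ∀ g ∈ G, ∀ z ∈ Set.Icc s1 s, b g z ≤ Real.exp (z - s1) * b g s1) :
    ∫ z in s1..s, ∏ g ∈ G, b g z ≤ ((s - s1) + 2 * (s - s1) ^ 2) *
      (w ^ 2 + 2 * Γ * ∑ g ∈ G, max (b g s1 - w) 0) := by
  set P : ℝ := w ^ 2 + 2 * Γ * ∑ g ∈ G, max (b g s1 - w) 0 with hP
  have h1 : ∏ g ∈ G, b g s1 ≤ P :=
    prod2_upper hG (fun g => b g s1) (fun g hg => (hb g hg).1) (fun g hg => (hb g hg).2) hw0 hwΓ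
  have h0 : 0 ≤ ∏ g ∈ G, b g s1 := Finset.prod_nonneg (fun g hg => (hb g hg).1)
  have hP0 : 0 ≤ P := h0.trans h1
  have hpt : ∀ z ∈ Set.Icc s1 s, ∏ g ∈ G, b g z ≤ Real.exp (2 * (z - s1)) * P := by
    intro z hz
    have h2 : ∏ g ∈ G, b g z ≤ ∏ g ∈ G, Real.exp (z - s1) * b g s1 :=
      Finset.prod_le_prod (fun g hg => hb0 g hg z hz) (fun g hg => hgrow g hg z hz)
    rw [Finset.prod_mul_distrib, Finset.prod_const, hG, ← Real.exp_nat_mul] at h2
    refine h2.trans ?_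
    push_cast
    exact mul_le_mul_of_nonneg_left h1 (Real.exp_pos _).le
  have hc1 : Continuous (fun z => Real.exp (2 * (z - s1)) * P) := by fun_prop
  have hc2 : Continuous (fun z => ∏ g ∈ G, b g z) := continuous_finset_prod _ (fun g _ => hc g)
  have hint := intervalIntegral.integral_mono_on (μ := volume) hs
    (hc2.intervalIntegrable _ _) (hc1.intervalIntegrable _ _) hpt
  refine le_trans hint ?_
  rw [intervalIntegral.integral_mul_const]
  refine mul_le_mul_of_nonneg_right ?_ hP0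
  have hd : ∀ z ∈ Set.uIcc s1 s, HasDerivAt (fun z => Real.exp (2 * (z - s1)) / 2)
      (Real.exp (2 * (z - s1))) z := by
    intro z _
    have e1 : HasDerivAt (fun z : ℝ => 2 * (z - s1)) 2 z := by
      simpa using ((hasDerivAt_id z).sub_const s1).const_mul (2:ℝ)
    have e2 := (e1.exp).div_const 2
    have e3 : Real.exp (2 * (z - s1)) * 2 / 2 = Real.exp (2 * (z - s1)) := by ring
    rw [e3] at e2
    exact e2
  have hc3 : Continuous (fun z => Real.exp (2 * (z - s1))) := by fun_prop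
  rw [intervalIntegral.integral_eq_sub_of_hasDerivAt hd (hc3.intervalIntegrable _ _)]
  have h5 := exp_le_quad4 (x := 2 * (s - s1)) (by rw [abs_of_nonneg (by linarith)]; linarith)
  simp only [sub_self, mul_zero, Real.exp_zero]
  nlinarith

/-- numerical inequality, lower bound, new region. -/
theorem num_lo4 {x : ℝ} (h0 : 0 ≤ x) (h1 : x ≤ 1 / 20) :
    127 / 10000 + (1234 / 1000 * (x + 2 * x ^ 2) - x) ≤ 1 / 10 * Real.exp (-1 + 20 * x) := by
  have e1 : (0.3678794411 : ℝ) < Real.exp (-1) := by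
    rw [Real.exp_neg]
    rw [lt_inv_comm₀ (by norm_num) (Real.exp_pos 1)]
    exact lt_trans Real.exp_one_lt_d9 (by norm_num)
  have e2 : Real.exp (-1) ≤ Real.exp (-1 + 20 * x) := Real.exp_le_exp.2 (by linarith)
  nlinarith

/-- lower bound of one message at the next level. -/
theorem lvl_lo_pt {𝒯 : Finset τ} {tri : τ → Finset ι} (h3 : ∀ t ∈ 𝒯, (tri t).card = 3)
    {D s3 S Γ δ κ S3 j : ℝ} (hD : 0 < D) (hΓ : 2 ≤ Γ) (hδ0 : 0 ≤ δ) (hδ : δ ≤ 1 / 100)
    (hκ0 : 0 ≤ κ) (hκ : κ ≤ 1)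
    (hSS : S - s3 ≤ S3) (hj : 0 ≤ j)
    (β : ι → τ → ℝ → ℝ) (hβc : ∀ f T, Continuous (β f T))
    (hβ : ∀ T ∈ 𝒯, ∀ f ∈ tri T, ∀ s ∈ Set.Icc s3 S, 0 ≤ β f T s ∧ β f T s ≤ Γ)
    (hgrow : ∀ T ∈ 𝒯, ∀ f ∈ tri T, ∀ s s', s3 ≤ s → s ≤ s' → s' ≤ S →
      β f T s' ≤ Real.exp (s' - s) * β f T s)
    (f : ι) (T0 : τ) (α' : ℝ → ℝ) (hα' : ∀ s ∈ Set.Icc s3 S, 0 < α' s)
    (hlog : ∀ s ∈ Set.Icc s3 S, Real.log (α' s3) + (s - s3) - (1 + κ) * ((1 / D) *
      ∑ T ∈ ch 𝒯 tri f (some T0), ∫ z in s3..s, ∏ g ∈ (tri T).erase f, β g T z) ≤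
      Real.log (α' s))
    (hch2 : (1 + κ) * ((ch 𝒯 tri f (some T0)).card : ℝ) ≤ (1 + δ) * D)
    {s : ℝ} (hs3 : s3 ≤ s) (hsS : s ≤ S) (hsj : s ≤ s3 + (j + 1) / 20) :
    max (Real.exp (-(1 / 10) * Wg s3 (j + 1) s) - α' s) 0 ≤
      |Real.log (α' s3)| + δ * S3 + (4 * Γ / D) * KK 𝒯 tri (fun g T =>
        ∫ z in s3..(min s (s3 + j / 20)), max (β g T z - Real.exp (1 / 10 * Wg s3 j z)) 0) f T0
      + (Γ / D) * KK 𝒯 tri (fun g T => max (β g T (min s (s3 + j / 20)) -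
          Real.exp (1 / 10 * Wg s3 j (min s (s3 + j / 20)))) 0) f T0 := by
  set s1 := min s (s3 + j / 20) with hs1
  have hs31 : s3 ≤ s1 := le_min hs3 (by linarith [div_nonneg hj (by norm_num : (0:ℝ) ≤ 20)])
  have hs1s : s1 ≤ s := min_le_left _ _
  have hs1j : s1 ≤ s3 + j / 20 := min_le_right _ _
  have hs1S : s1 ≤ S := hs1s.trans hsS
  set V : ι → τ → ℝ := fun g T => ∫ z in s3..s1, max (β g T z - Real.exp (1 / 10 * Wg s3 j z)) 0
    with hV
  set v1 : ι → τ → ℝ := fun g T => max (β g T s1 - Real.exp (1 / 10 * Wg s3 j s1)) 0 with hv1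
  have hchmem : ∀ T ∈ ch 𝒯 tri f (some T0), T ∈ 𝒯 ∧ f ∈ tri T := by
    intro T hT
    rw [ch, Finset.mem_filter] at hT
    exact ⟨hT.1, hT.2.1⟩
  have hV0 : ∀ g T, 0 ≤ V g T := fun g T =>
    intervalIntegral.integral_nonneg hs31 (fun z _ => le_max_right _ _)
  have hv0 : ∀ g T, 0 ≤ v1 g T := fun g T => le_max_right _ _
  have hKV0 : 0 ≤ KK 𝒯 tri V f T0 :=
    Finset.sum_nonneg (fun T _ => Finset.sum_nonneg (fun g _ => hV0 g T))
  have hKv0 : 0 ≤ KK 𝒯 tri v1 f T0 :=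
    Finset.sum_nonneg (fun T _ => Finset.sum_nonneg (fun g _ => hv0 g T))
  have hcardG : ∀ T ∈ ch 𝒯 tri f (some T0), ((tri T).erase f).card = 2 := by
    intro T hT
    obtain ⟨h1, h2⟩ := hchmem T hT
    rw [Finset.card_erase_of_mem h2, h3 T h1]
  set N : ℝ := ((ch 𝒯 tri f (some T0)).card : ℝ) with hN
  have hN0 : 0 ≤ N := Nat.cast_nonneg _
  have hW1 := Wg_pos s3 j s1
  have hW1' : Wg s3 j s1 ≤ 1 := Wg_le_one hs1j
  -- the new region length
  set x : ℝ := s - s1 with hx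
  have hx0 : 0 ≤ x := by linarith
  have hx1 : x ≤ 1 / 20 := by
    rw [hx, hs1]
    rcases le_total s (s3 + j / 20) with h | h
    · rw [min_eq_left h]; norm_num
    · rw [min_eq_right h]; linarith
  set w : ℝ := Real.exp (1 / 10 * Wg s3 j s1) with hw
  have hw0 : 0 ≤ w := (Real.exp_pos _).le
  have hwΓ : w ≤ Γ := by
    have h1 := exp_le_quad4 (x := 1 / 10 * Wg s3 j s1) (by rw [abs_of_pos (by linarith)]; linarith)
    nlinarith
  have hw2 : w ^ 2 ≤ 1222 / 1000 := by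
    rw [hw, ← Real.exp_nat_mul]
    have h4 : Real.exp (((2:ℕ):ℝ) * (1 / 10 * Wg s3 j s1)) ≤ Real.exp (1 / 5) :=
      Real.exp_le_exp.2 (by push_cast; linarith)
    refine h4.trans ?_
    have h5 : Real.exp (1 / 5) = Real.exp (1 / 10) ^ 2 := by
      rw [← Real.exp_nat_mul]; norm_num
    have h6 : Real.exp (1 / 10) ≤ 1 + 1 / 10 + 0.0053 := by
      have := Real.exp_bound' (x := 1 / 10) (by norm_num) (by norm_num) (n := 3) (by norm_num)
      norm_num [Finset.sum_range_succ, Nat.factorial] at this ⊢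
      linarith
    rw [h5]
    have h7 : 0 < Real.exp (1 / 10) := Real.exp_pos _
    nlinarith
  -- bound for each child
  have hchild : ∀ T ∈ ch 𝒯 tri f (some T0),
      ∫ z in s3..s, ∏ g ∈ (tri T).erase f, β g T z ≤
        ((s1 - s3) + 125 / 10000 * Wg s3 j s1 + 1222 / 1000 * (x + 2 * x ^ 2))
        + (2 * Γ * ∑ g ∈ (tri T).erase f, V g T) + (Γ / 2 * ∑ g ∈ (tri T).erase f, v1 g T) := by
    intro T hT
    obtain ⟨hT1, hT2⟩ := hchmem T hT
    have hc2 : Continuous (fun z => ∏ g ∈ (tri T).erase f, β g T z) :=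
      continuous_finset_prod _ (fun g _ => hβc g T)
    rw [← intervalIntegral.integral_add_adjacent_intervals (hc2.intervalIntegrable s3 s1)
      (hc2.intervalIntegrable s1 s)]
    have hmem : ∀ g ∈ (tri T).erase f, g ∈ tri T := fun g hg => Finset.mem_of_mem_erase hg
    have i1 := int_prod_upper (hcardG T hT) (fun g => β g T) (fun g => hβc g T) (Γ := Γ) hΓ hs31
      hs1j (fun g hg z hz => hβ T hT1 g (hmem g hg) z ⟨hz.1, hz.2.trans hs1S⟩)
    have i2 := int_prod_upper_new (hcardG T hT) (fun g => β g T) (fun g => hβc g T) (Γ := Γ)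
      (w := w) hs1s hx1 hw0 hwΓ (fun g hg => hβ T hT1 g (hmem g hg) s1 ⟨hs31, hs1S⟩)
      (fun g hg z hz => (hβ T hT1 g (hmem g hg) z ⟨hs31.trans hz.1, hz.2.trans hsS⟩).1)
      (fun g hg z hz => hgrow T hT1 g (hmem g hg) s1 z hs31 hz.1 (hz.2.trans hsS))
    have hsv : 0 ≤ ∑ g ∈ (tri T).erase f, v1 g T := Finset.sum_nonneg (fun g _ => hv0 g T)
    have i3 : (x + 2 * x ^ 2) * (w ^ 2 + 2 * Γ * ∑ g ∈ (tri T).erase f, v1 g T) ≤
        1222 / 1000 * (x + 2 * x ^ 2) + Γ / 2 * ∑ g ∈ (tri T).erase f, v1 g T := by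
      have hxx : 0 ≤ x + 2 * x ^ 2 := by positivity
      have hxx1 : x + 2 * x ^ 2 ≤ 1 / 4 := by nlinarith
      have j1 : (x + 2 * x ^ 2) * w ^ 2 ≤ (x + 2 * x ^ 2) * (1222 / 1000) :=
        mul_le_mul_of_nonneg_left hw2 hxx
      have j2 : (x + 2 * x ^ 2) * (2 * Γ * ∑ g ∈ (tri T).erase f, v1 g T) ≤
          1 / 4 * (2 * Γ * ∑ g ∈ (tri T).erase f, v1 g T) :=
        mul_le_mul_of_nonneg_right hxx1 (by positivity)
      nlinarith
    simp only [← hx] at i2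
    linarith
  -- sum
  have hsum : ∑ T ∈ ch 𝒯 tri f (some T0), ∫ z in s3..s, ∏ g ∈ (tri T).erase f, β g T z ≤
      N * ((s1 - s3) + 125 / 10000 * Wg s3 j s1 + 1222 / 1000 * (x + 2 * x ^ 2))
      + 2 * Γ * KK 𝒯 tri V f T0 + Γ / 2 * KK 𝒯 tri v1 f T0 := by
    refine (Finset.sum_le_sum hchild).trans (le_of_eq ?_)
    rw [Finset.sum_add_distrib, Finset.sum_add_distrib, Finset.sum_const, nsmul_eq_mul, KK, KK,
      ← Finset.mul_sum, ← Finset.mul_sum]
  have hlogs := hlog s ⟨hs3, hsS⟩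
  set X : ℝ := (s1 - s3) + 125 / 10000 * Wg s3 j s1 + 1222 / 1000 * (x + 2 * x ^ 2) with hX
  have hX0 : 0 ≤ X := by
    have : 0 ≤ x + 2 * x ^ 2 := by positivity
    linarith
  have hmul : (1 + κ) * ((1 / D) * ∑ T ∈ ch 𝒯 tri f (some T0),
      ∫ z in s3..s, ∏ g ∈ (tri T).erase f, β g T z) ≤ (1 + δ) * X + (4 * Γ / D) * KK 𝒯 tri V f T0
      + (Γ / D) * KK 𝒯 tri v1 f T0 := by
    have h1 := mul_le_mul_of_nonneg_left hsum (by positivity : (0:ℝ) ≤ (1 + κ) * (1 / D))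
    have h2 : (1 + κ) * (1 / D) * (N * X) ≤ (1 + δ) * X := by
      have : (1 + κ) * (1 / D) * (N * X) = ((1 + κ) * N / D) * X := by field_simp
      rw [this]
      refine mul_le_mul_of_nonneg_right ?_ hX0
      rw [div_le_iff₀ hD]
      exact hch2
    have h3 : (1 + κ) * (1 / D) * (2 * Γ * KK 𝒯 tri V f T0) ≤ (4 * Γ / D) * KK 𝒯 tri V f T0 := by
      have : (4 * Γ / D) * KK 𝒯 tri V f T0 = 2 * (1 / D) * (2 * Γ * KK 𝒯 tri V f T0) := by
        field_simp; ring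
      rw [this]
      refine mul_le_mul_of_nonneg_right ?_ (by positivity)
      refine mul_le_mul_of_nonneg_right (by linarith) (by positivity)
    have h4 : (1 + κ) * (1 / D) * (Γ / 2 * KK 𝒯 tri v1 f T0) ≤ (Γ / D) * KK 𝒯 tri v1 f T0 := by
      have : (Γ / D) * KK 𝒯 tri v1 f T0 = 2 * (1 / D) * (Γ / 2 * KK 𝒯 tri v1 f T0) := by
        field_simp
      rw [this]
      refine mul_le_mul_of_nonneg_right ?_ (by positivity)
      refine mul_le_mul_of_nonneg_right (by linarith) (by positivity)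
    calc _ = (1 + κ) * (1 / D) * ∑ T ∈ ch 𝒯 tri f (some T0),
          ∫ z in s3..s, ∏ g ∈ (tri T).erase f, β g T z := by ring
      _ ≤ _ := h1
      _ = (1 + κ) * (1 / D) * (N * X) + (1 + κ) * (1 / D) * (2 * Γ * KK 𝒯 tri V f T0)
          + (1 + κ) * (1 / D) * (Γ / 2 * KK 𝒯 tri v1 f T0) := by ring
      _ ≤ _ := by linarith
  set Z : ℝ := |Real.log (α' s3)| + δ * S3 + (4 * Γ / D) * KK 𝒯 tri V f T0
      + (Γ / D) * KK 𝒯 tri v1 f T0 with hZ
  have hS30 : 0 ≤ S3 := by linarith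
  have hZ0 : 0 ≤ Z := by positivity
  have hδs : δ * (s1 - s3) ≤ δ * S3 := mul_le_mul_of_nonneg_left (by linarith) hδ0
  -- numerics
  have hnum : (125 / 10000 * (1 + δ)) * Wg s3 j s1 + ((1 + δ) * (1222 / 1000 * (x + 2 * x ^ 2)) - x)
      ≤ 1 / 10 * Wg s3 (j + 1) s := by
    have hq1 : (125 / 10000 * (1 + δ)) * Wg s3 j s1 ≤ 127 / 10000 * Wg s3 j s1 :=
      mul_le_mul_of_nonneg_right (by linarith) hW1.le
    have hq2 : (1 + δ) * (1222 / 1000 * (x + 2 * x ^ 2)) ≤ 1235 / 1000 * (x + 2 * x ^ 2) := by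
      have hxx : 0 ≤ x + 2 * x ^ 2 := by positivity
      nlinarith
    by_cases hcase : s ≤ s3 + j / 20
    · have e1 : s1 = s := min_eq_left hcase
      have e2 : x = 0 := by rw [hx, e1]; ring
      have he : Real.exp 1 < 2.7182818286 := Real.exp_one_lt_d9
      have hW := Wg_pos s3 (j + 1) s
      rw [e2] at hq2 ⊢
      rw [e1, Wg_succ] at hq1
      rw [e1, Wg_succ]
      have : 127 / 10000 * (Real.exp 1 * Wg s3 (j + 1) s) ≤ 1 / 10 * Wg s3 (j + 1) s := by nlinarith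
      nlinarith
    · have hcase' : s3 + j / 20 ≤ s := le_of_lt (not_le.1 hcase)
      have e1 : s1 = s3 + j / 20 := min_eq_right hcase'
      have hWs1 : Wg s3 j s1 = 1 := by
        rw [e1]; unfold Wg
        rw [← Real.exp_zero]; congr 1; ring
      have hWs : Wg s3 (j + 1) s = Real.exp (-1 + 20 * x) := by
        rw [hx, e1]; unfold Wg; congr 1; ring
      have e3 : (0.3678794411 : ℝ) < Real.exp (-1) := by
        rw [Real.exp_neg]
        rw [lt_inv_comm₀ (by norm_num) (Real.exp_pos 1)]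
        exact lt_trans Real.exp_one_lt_d9 (by norm_num)
      have e4 : Real.exp (-1) ≤ Real.exp (-1 + 20 * x) := Real.exp_le_exp.2 (by linarith)
      rw [hWs1] at hq1 ⊢
      rw [hWs]
      nlinarith
  -- conclusion
  have hab : -|Real.log (α' s3)| ≤ Real.log (α' s3) := neg_abs_le _
  have hfin : -(1 / 10) * Wg s3 (j + 1) s - Z ≤ Real.log (α' s) := by
    have hsx : s - s3 = (s1 - s3) + x := by rw [hx]; ring
    rw [hsx] at hlogs
    have : (1 + δ) * X = (s1 - s3) + δ * (s1 - s3) + (125 / 10000 * (1 + δ)) * Wg s3 j s1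
        + (1 + δ) * (1222 / 1000 * (x + 2 * x ^ 2)) := by rw [hX]; ring
    rw [this] at hmul
    linarith
  refine max_le ?_ hZ0
  have hpos := hα' s ⟨hs3, hsS⟩
  have h1 : Real.exp (-(1 / 10) * Wg s3 (j + 1) s) * Real.exp (-Z) ≤ α' s := by
    rw [← Real.exp_add, ← Real.le_log_iff_exp_le hpos]
    linarith
  have h2 : 1 - Z ≤ Real.exp (-Z) := by have := Real.add_one_le_exp (-Z); linarith
  have h3' : Real.exp (-(1 / 10) * Wg s3 (j + 1) s) ≤ 1 := by
    rw [Real.exp_le_one_iff]; have := Wg_pos s3 (j + 1) s; linarith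
  have h4 := Real.exp_pos (-(1 / 10) * Wg s3 (j + 1) s)
  nlinarith

end Crest.Agent.TRem
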