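import Crest.Agent.TRem.B3s4b
import Crest.Agent.TRem.B3s4c

/-!
# Row 30, B3 Step 4, part d: the abstract iteration of the last stretch
-/

namespace Crest.Agent.TRem

open Finset MeasureTheory

variable {ι τ : Type} [DecidableEq ι] [DecidableEq τ]

/-- the abstract system of the last stretch `[s3, S]`; level `j` is depth `R₁ + j`. -/
structure LSys (𝒯 : Finset τ) (tri : τ → Finset ι) (D s3 S Γ δ κ S3 E0 : ℝ)
    (α β : ℕ → ι → τ → ℝ → ℝ) : Prop where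
  h3 : ∀ t ∈ 𝒯, (tri t).card = 3
  hD : 0 < D
  hΓ : 2 ≤ Γ
  hδ0 : 0 ≤ δ
  hδ : δ ≤ 1 / 100
  hκ0 : 0 ≤ κ
  hκ : κ ≤ 1
  hs3S : s3 ≤ S
  hSS : S - s3 ≤ S3
  hS3 : 1 ≤ S3
  dgY : ∀ t ∈ 𝒯, ∀ f ∈ tri t, dg 𝒯 tri f ≤ 2 * D
  ch1 : ∀ T0 ∈ 𝒯, ∀ f ∈ tri T0, (1 - δ) * D ≤ (ch 𝒯 tri f (some T0)).card
  ch2 : ∀ T0 ∈ 𝒯, ∀ f ∈ tri T0, (1 + κ) * ((ch 𝒯 tri f (some T0)).card : ℝ) ≤ (1 + δ) * D
  αc : ∀ j f T, Continuous (α j f T)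
  βc : ∀ j f T, Continuous (β j f T)
  α0 : ∀ j, ∀ T ∈ 𝒯, ∀ f ∈ tri T, ∀ s ∈ Set.Icc s3 S, 0 < α j f T s
  β0 : ∀ j, ∀ T ∈ 𝒯, ∀ f ∈ tri T, ∀ s ∈ Set.Icc s3 S, 0 < β j f T s ∧ β j f T s ≤ Γ
  grow : ∀ j, ∀ T ∈ 𝒯, ∀ f ∈ tri T, ∀ s s', s3 ≤ s → s ≤ s' → s' ≤ S →
    β j f T s' ≤ Real.exp (s' - s) * β j f T s
  logU : ∀ j, ∀ T0 ∈ 𝒯, ∀ f ∈ tri T0, ∀ s ∈ Set.Icc s3 S,
    Real.log (β (j + 1) f T0 s) ≤ Real.log (β (j + 1) f T0 s3) + (s - s3)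
      - (1 / D) * ∑ T ∈ ch 𝒯 tri f (some T0), ∫ z in s3..s, ∏ g ∈ (tri T).erase f, α j g T z
  logL : ∀ j, ∀ T0 ∈ 𝒯, ∀ f ∈ tri T0, ∀ s ∈ Set.Icc s3 S,
    Real.log (α (j + 1) f T0 s3) + (s - s3) - (1 + κ) * ((1 / D) *
      ∑ T ∈ ch 𝒯 tri f (some T0), ∫ z in s3..s, ∏ g ∈ (tri T).erase f, β j g T z) ≤
      Real.log (α (j + 1) f T0 s)
  EU : ∀ j, QQm 𝒯 tri (fun f T => |Real.log (β (j + 1) f T s3)|) ≤ E0
  EL : ∀ j, QQm 𝒯 tri (fun f T => |Real.log (α (j + 1) f T s3)|) ≤ E0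
  bU : ∀ T ∈ 𝒯, ∀ f ∈ tri T, β 0 f T s3 ≤ Real.exp (1 / 10)
  bL : ∀ T ∈ 𝒯, ∀ f ∈ tri T, Real.exp (-(1 / 10)) ≤ α 0 f T s3

/-- the upper deviation. -/
noncomputable def vdev (s3 : ℝ) (β : ℕ → ι → τ → ℝ → ℝ) (j : ℕ) (s : ℝ) (f : ι) (T : τ) : ℝ :=
  max (β j f T s - Real.exp (1 / 10 * Wg s3 j s)) 0

/-- the lower deviation. -/
noncomputable def udev (s3 : ℝ) (α : ℕ → ι → τ → ℝ → ℝ) (j : ℕ) (s : ℝ) (f : ι) (T : τ) : ℝ :=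
  max (Real.exp (-(1 / 10) * Wg s3 j s) - α j f T s) 0

theorem LSys.step {𝒯 : Finset τ} {tri : τ → Finset ι} {D s3 S Γ δ κ S3 E0 : ℝ}
    {α β : ℕ → ι → τ → ℝ → ℝ} (h : LSys 𝒯 tri D s3 S Γ δ κ S3 E0 α β) (j : ℕ) {q : ℝ}
    (hq0 : 0 ≤ q)
    (hq : ∀ s, s3 ≤ s → s ≤ S → s ≤ s3 + (j : ℝ) / 20 →
      QQm 𝒯 tri (vdev s3 β j s) ≤ q ∧ QQm 𝒯 tri (udev s3 α j s) ≤ q) :
    ∀ s, s3 ≤ s → s ≤ S → s ≤ s3 + ((j + 1 : ℕ) : ℝ) / 20 →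
      QQm 𝒯 tri (vdev s3 β (j + 1) s) ≤ 1100 * Γ ^ 2 * S3 ^ 2 * (E0 + 3 * 𝒯.card * δ ^ 2 + q) ∧
      QQm 𝒯 tri (udev s3 α (j + 1) s) ≤ 1100 * Γ ^ 2 * S3 ^ 2 * (E0 + 3 * 𝒯.card * δ ^ 2 + q) := by
  intro s hs3 hsS hsj
  push_cast at hsj
  have hj0 : (0:ℝ) ≤ j := Nat.cast_nonneg j
  set s1 := min s (s3 + (j:ℝ) / 20) with hs1
  have hs31 : s3 ≤ s1 := le_min hs3 (by linarith [div_nonneg hj0 (by norm_num : (0:ℝ) ≤ 20)])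
  have hs1s : s1 ≤ s := min_le_left _ _
  have hs1j : s1 ≤ s3 + (j:ℝ) / 20 := min_le_right _ _
  have hs1S : s1 ≤ S := hs1s.trans hsS
  have hD := h.hD
  have hΓ := h.hΓ
  have hS3 := h.hS3
  have hδ0 := h.hδ0
  have hs1S3 : s1 - s3 ≤ S3 := by have := h.hSS; linarith
  have hE0 : 0 ≤ E0 := (QQm_nonneg _ _ _).trans (h.EU 0)
  have hΓ2 : 4 ≤ Γ ^ 2 := by nlinarith
  have hS32 : 1 ≤ S3 ^ 2 := by nlinarith
  have hT0 : (0:ℝ) ≤ 3 * 𝒯.card * δ ^ 2 := by positivity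
  have hsq : (s1 - s3) ^ 2 * q ≤ S3 ^ 2 * q := by
    refine mul_le_mul_of_nonneg_right ?_ hq0
    exact pow_le_pow_left₀ (by linarith) hs1S3 2
  have hschur : ∀ (c : ℝ) (u : ι → τ → ℝ), QQm 𝒯 tri (fun f T => c / D * KK 𝒯 tri u f T) ≤
      16 * c ^ 2 * QQm 𝒯 tri u := by
    intro c u
    rw [QQm_smul]
    have h1 := QQm_KK 𝒯 tri h.h3 (2 * D) h.dgY u
    have h2 := mul_le_mul_of_nonneg_left h1 (sq_nonneg (c / D))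
    refine h2.trans (le_of_eq ?_)
    field_simp
    ring
  have hconst : QQm 𝒯 tri (fun _ _ => δ * S3) = 3 * 𝒯.card * δ ^ 2 * S3 ^ 2 := by
    rw [QQm_const 𝒯 tri h.h3]; ring
  constructor
  · -- upper
    set U : ι → τ → ℝ := fun g T => ∫ z in s3..s1,
      max (Real.exp (-(1 / 10) * Wg s3 j z) - α j g T z) 0 with hU
    have hpt : ∀ T ∈ 𝒯, ∀ f ∈ tri T, 0 ≤ vdev s3 β (j + 1) s f T ∧ vdev s3 β (j + 1) s f T ≤
        2 * Γ * (|Real.log (β (j + 1) f T s3)| + δ * S3 + (1 / D) * KK 𝒯 tri U f T) := by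
      intro T0 hT0' f hf
      refine ⟨le_max_right _ _, ?_⟩
      have hh := lvl_up_pt h.h3 hD hΓ hδ0 h.hδ h.hSS hj0 (α j) (h.αc j)
        (fun T hT f hf s hs => (h.α0 j T hT f hf s hs).le) f T0 (β (j + 1) f T0)
        (fun s hs => h.β0 (j + 1) T0 hT0' f hf s hs) (fun s hs => h.logU j T0 hT0' f hf s hs)
        (fun s s' => h.grow (j + 1) T0 hT0' f hf s s') (h.ch1 T0 hT0' f hf)
        (by
          have h1 := h.ch2 T0 hT0' f hf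
          have h2 := h.hκ0
          have h3 : (0:ℝ) ≤ ((ch 𝒯 tri f (some T0)).card : ℝ) := Nat.cast_nonneg _
          nlinarith [mul_nonneg h2 h3]) hs3 hsS hsj
      unfold vdev
      push_cast
      exact hh
    refine (QQm_mono 𝒯 tri hpt).trans ?_
    rw [QQm_smul]
    have h1 := QQm_add3 𝒯 tri (fun f T => |Real.log (β (j + 1) f T s3)|) (fun _ _ => δ * S3)
      (fun f T => (1 / D) * KK 𝒯 tri U f T)
    have h2 : QQm 𝒯 tri U ≤ S3 ^ 2 * q := by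
      refine le_trans ?_ hsq
      refine QQm_integral 𝒯 tri (fun g T z => max (Real.exp (-(1 / 10) * Wg s3 j z) - α j g T z) 0)
        (fun g T => ?_) hs31 (fun z hz => ?_)
      · exact ((Real.continuous_exp.comp (continuous_const.mul (Wg_cont s3 j))).sub
          (h.αc j g T)).max continuous_const
      · exact (hq z hz.1 (hz.2.trans hs1S) (hz.2.trans hs1j)).2
    have h3 := hschur 1 U
    have h4 := h.EU j
    rw [hconst] at h1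
    have h5 : (2 * Γ) ^ 2 * QQm 𝒯 tri (fun f T => |Real.log (β (j + 1) f T s3)| + δ * S3
        + (1 / D) * KK 𝒯 tri U f T) ≤
        (2 * Γ) ^ 2 * (3 * (E0 + 3 * 𝒯.card * δ ^ 2 * S3 ^ 2 + 16 * (S3 ^ 2 * q))) := by
      refine mul_le_mul_of_nonneg_left (h1.trans ?_) (sq_nonneg _)
      linarith
    refine h5.trans ?_
    have e1 : E0 ≤ S3 ^ 2 * E0 := by nlinarith
    have e2 : 0 ≤ S3 ^ 2 * (3 * 𝒯.card * δ ^ 2) := by positivity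
    have e3 : 0 ≤ S3 ^ 2 * q := by positivity
    have e4 : (2 * Γ) ^ 2 * (3 * (E0 + 3 * 𝒯.card * δ ^ 2 * S3 ^ 2 + 16 * (S3 ^ 2 * q))) ≤
        Γ ^ 2 * (192 * (S3 ^ 2 * (E0 + 3 * 𝒯.card * δ ^ 2 + q))) := by
      have : (2 * Γ) ^ 2 * (3 * (E0 + 3 * 𝒯.card * δ ^ 2 * S3 ^ 2 + 16 * (S3 ^ 2 * q))) =
        Γ ^ 2 * (12 * (E0 + 3 * 𝒯.card * δ ^ 2 * S3 ^ 2 + 16 * (S3 ^ 2 * q))) := by ring
      rw [this]
      refine mul_le_mul_of_nonneg_left ?_ (sq_nonneg _)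
      nlinarith
    refine e4.trans ?_
    have e5 : 0 ≤ Γ ^ 2 * (S3 ^ 2 * (E0 + 3 * 𝒯.card * δ ^ 2 + q)) := by positivity
    nlinarith
  · -- lower
    set V : ι → τ → ℝ := fun g T => ∫ z in s3..s1,
      max (β j g T z - Real.exp (1 / 10 * Wg s3 j z)) 0 with hV
    set v1 : ι → τ → ℝ := fun g T => max (β j g T s1 - Real.exp (1 / 10 * Wg s3 j s1)) 0 with hv1
    have hpt : ∀ T ∈ 𝒯, ∀ f ∈ tri T, 0 ≤ udev s3 α (j + 1) s f T ∧ udev s3 α (j + 1) s f T ≤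
        |Real.log (α (j + 1) f T s3)| + δ * S3 + (4 * Γ / D) * KK 𝒯 tri V f T
          + (Γ / D) * KK 𝒯 tri v1 f T := by
      intro T0 hT0' f hf
      refine ⟨le_max_right _ _, ?_⟩
      have hh := lvl_lo_pt h.h3 hD hΓ hδ0 h.hδ h.hκ0 h.hκ h.hSS hj0 (β j) (h.βc j)
        (fun T hT f hf s hs => ⟨(h.β0 j T hT f hf s hs).1.le, (h.β0 j T hT f hf s hs).2⟩)
        (h.grow j) f T0 (α (j + 1) f T0)
        (fun s hs => h.α0 (j + 1) T0 hT0' f hf s hs) (fun s hs => h.logL j T0 hT0' f hf s hs)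
        (h.ch2 T0 hT0' f hf) hs3 hsS hsj
      unfold udev
      push_cast
      exact hh
    refine (QQm_mono 𝒯 tri hpt).trans ?_
    have h1 := QQm_add4 𝒯 tri (fun f T => |Real.log (α (j + 1) f T s3)|) (fun _ _ => δ * S3)
      (fun f T => (4 * Γ / D) * KK 𝒯 tri V f T) (fun f T => (Γ / D) * KK 𝒯 tri v1 f T)
    have h2 : QQm 𝒯 tri V ≤ S3 ^ 2 * q := by
      refine le_trans ?_ hsq
      refine QQm_integral 𝒯 tri (fun g T z => max (β j g T z - Real.exp (1 / 10 * Wg s3 j z)) 0)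
        (fun g T => ?_) hs31 (fun z hz => ?_)
      · exact ((h.βc j g T).sub (Real.continuous_exp.comp
          (continuous_const.mul (Wg_cont s3 j)))).max continuous_const
      · exact (hq z hz.1 (hz.2.trans hs1S) (hz.2.trans hs1j)).1
    have h2' : QQm 𝒯 tri v1 ≤ q := (hq s1 hs31 hs1S hs1j).1
    have h3 := hschur (4 * Γ) V
    have h3' := hschur Γ v1
    have h4 := h.EL j
    rw [hconst] at h1
    refine h1.trans ?_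
    have e1 : E0 ≤ Γ ^ 2 * (S3 ^ 2 * E0) := by
      have : E0 ≤ S3 ^ 2 * E0 := by nlinarith
      nlinarith
    have e2 : 3 * 𝒯.card * δ ^ 2 * S3 ^ 2 ≤ Γ ^ 2 * (S3 ^ 2 * (3 * 𝒯.card * δ ^ 2)) := by
      have : 0 ≤ S3 ^ 2 * (3 * 𝒯.card * δ ^ 2) := by positivity
      nlinarith
    have e3 : 16 * (4 * Γ) ^ 2 * QQm 𝒯 tri V ≤ 256 * (Γ ^ 2 * (S3 ^ 2 * q)) := by
      have := mul_le_mul_of_nonneg_left h2 (by positivity : (0:ℝ) ≤ 16 * (4 * Γ) ^ 2)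
      refine this.trans (le_of_eq (by ring))
    have e4 : 16 * Γ ^ 2 * QQm 𝒯 tri v1 ≤ 16 * (Γ ^ 2 * (S3 ^ 2 * q)) := by
      have h5 := mul_le_mul_of_nonneg_left h2' (by positivity : (0:ℝ) ≤ 16 * Γ ^ 2)
      have h6 : q ≤ S3 ^ 2 * q := by nlinarith
      have h7 := mul_le_mul_of_nonneg_left h6 (by positivity : (0:ℝ) ≤ 16 * Γ ^ 2)
      linarith
    have e5 : 0 ≤ Γ ^ 2 * (S3 ^ 2 * E0) := by positivity
    have e6 : 0 ≤ Γ ^ 2 * (S3 ^ 2 * (3 * 𝒯.card * δ ^ 2)) := by positivity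
    have e7 : 0 ≤ Γ ^ 2 * (S3 ^ 2 * q) := by positivity
    have e8 : 1100 * Γ ^ 2 * S3 ^ 2 * (E0 + 3 * 𝒯.card * δ ^ 2 + q) =
      1100 * (Γ ^ 2 * (S3 ^ 2 * E0)) + 1100 * (Γ ^ 2 * (S3 ^ 2 * (3 * 𝒯.card * δ ^ 2)))
      + 1100 * (Γ ^ 2 * (S3 ^ 2 * q)) := by ring
    rw [e8]
    linarith

/-- the iteration. -/
theorem LSys.iter {𝒯 : Finset τ} {tri : τ → Finset ι} {D s3 S Γ δ κ S3 E0 : ℝ}
    {α β : ℕ → ι → τ → ℝ → ℝ} (h : LSys 𝒯 tri D s3 S Γ δ κ S3 E0 α β) (j : ℕ) :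
    ∀ s, s3 ≤ s → s ≤ S → s ≤ s3 + (j : ℝ) / 20 →
      QQm 𝒯 tri (vdev s3 β j s) ≤ (2200 * Γ ^ 2 * S3 ^ 2) ^ j * (E0 + 3 * 𝒯.card * δ ^ 2) ∧
      QQm 𝒯 tri (udev s3 α j s) ≤ (2200 * Γ ^ 2 * S3 ^ 2) ^ j * (E0 + 3 * 𝒯.card * δ ^ 2) := by
  have hE0 : 0 ≤ E0 := (QQm_nonneg _ _ _).trans (h.EU 0)
  have hE : 0 ≤ E0 + 3 * 𝒯.card * δ ^ 2 := by positivity
  have hΓ := h.hΓ
  have hS3 := h.hS3
  have hΛ : 1 ≤ 2200 * Γ ^ 2 * S3 ^ 2 := by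
    have h1 : 1 ≤ Γ ^ 2 := by nlinarith
    have h2 : 1 ≤ S3 ^ 2 := by nlinarith
    nlinarith [mul_le_mul h1 h2 (by norm_num) (by positivity)]
  induction j with
  | zero =>
    intro s h1 h2 h3
    have hs : s = s3 := by
      simp only [Nat.cast_zero, zero_div, add_zero] at h3
      linarith
    subst hs
    have hW : Wg s ((0:ℕ):ℝ) s = 1 := by unfold Wg; simp
    have z1 : QQm 𝒯 tri (vdev s β 0 s) ≤ QQm 𝒯 tri (fun _ _ => (0:ℝ)) := by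
      refine QQm_mono 𝒯 tri (fun T hT f hf => ⟨le_max_right _ _, ?_⟩)
      unfold vdev
      rw [hW]
      refine max_le ?_ le_rfl
      have := h.bU T hT f hf
      rw [mul_one]; linarith
    have z2 : QQm 𝒯 tri (udev s α 0 s) ≤ QQm 𝒯 tri (fun _ _ => (0:ℝ)) := by
      refine QQm_mono 𝒯 tri (fun T hT f hf => ⟨le_max_right _ _, ?_⟩)
      unfold udev
      rw [hW]
      refine max_le ?_ le_rfl
      have := h.bL T hT f hf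
      rw [mul_one]; linarith
    have z0 : QQm 𝒯 tri (fun _ _ => (0:ℝ)) = 0 := by simp [QQm]
    rw [z0] at z1 z2
    simp only [pow_zero, one_mul]
    exact ⟨z1.trans hE, z2.trans hE⟩
  | succ j ih =>
    intro s h1 h2 h3
    set q := (2200 * Γ ^ 2 * S3 ^ 2) ^ j * (E0 + 3 * 𝒯.card * δ ^ 2) with hq
    have hpow : 1 ≤ (2200 * Γ ^ 2 * S3 ^ 2) ^ j := one_le_pow₀ hΛ
    have hq0 : 0 ≤ q := mul_nonneg (by linarith) hE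
    have hst := h.step j hq0 ih s h1 h2 h3
    have hle : 1100 * Γ ^ 2 * S3 ^ 2 * (E0 + 3 * 𝒯.card * δ ^ 2 + q) ≤
        (2200 * Γ ^ 2 * S3 ^ 2) ^ (j + 1) * (E0 + 3 * 𝒯.card * δ ^ 2) := by
      have e1 : E0 + 3 * 𝒯.card * δ ^ 2 ≤ q := by
        rw [hq]; nlinarith
      have e2 : (2200 * Γ ^ 2 * S3 ^ 2) ^ (j + 1) * (E0 + 3 * 𝒯.card * δ ^ 2) =
          1100 * Γ ^ 2 * S3 ^ 2 * (2 * q) := by rw [hq, pow_succ]; ring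
      rw [e2]
      refine mul_le_mul_of_nonneg_left (by linarith) (by positivity)
    exact ⟨hst.1.trans hle, hst.2.trans hle⟩

end Crest.Agent.TRem
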