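import Crest.Agent.TRem.B3s4g
import Crest.Agent.TRem.B3s4d

/-!
# Row 30, B3 Step 4, part e: the messages form an abstract system of the last stretch
-/

namespace Crest.Agent.TRem

open Finset MeasureTheory

variable {ι τ : Type} [DecidableEq ι] [DecidableEq τ] {𝒯 : Finset τ} {tri : τ → Finset ι}
  {A₀ : Finset ι} {D L : ℝ}

theorem log_one_sub_up {X Y : ℝ} (h0 : 0 ≤ Y) (h : Y ≤ X) (h1 : X < 1) :
    Real.log (1 - X) ≤ Real.log (1 - Y) - (X - Y) := by
  have hX : 0 < 1 - X := by linarith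
  have hY : 0 < 1 - Y := by linarith
  have h2 := Real.log_le_sub_one_of_pos (div_pos hX hY)
  rw [Real.log_div hX.ne' hY.ne'] at h2
  have h3 : (1 - X) / (1 - Y) - 1 ≤ -(X - Y) := by
    have : (1 - X) / (1 - Y) - 1 = -((X - Y) / (1 - Y)) := by field_simp; ring
    rw [this]
    apply neg_le_neg
    rw [le_div_iff₀ hY]
    nlinarith
  linarith

theorem log_one_sub_lo {X Y κ : ℝ} (h0 : 0 ≤ Y) (h : Y ≤ X) (h1 : X ≤ 1 / 2) (hκ : 2 * X ≤ κ) :
    Real.log (1 - Y) - (1 + κ) * (X - Y) ≤ Real.log (1 - X) := by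
  have hX : 0 < 1 - X := by linarith
  have hY : 0 < 1 - Y := by linarith
  have h2 := Real.log_le_sub_one_of_pos (div_pos hY hX)
  rw [Real.log_div hY.ne' hX.ne'] at h2
  have h3 : (1 - Y) / (1 - X) - 1 ≤ (1 + κ) * (X - Y) := by
    have : (1 - Y) / (1 - X) - 1 = (X - Y) / (1 - X) := by field_simp; ring
    rw [this, div_le_iff₀ hX]
    have h4 : 1 ≤ (1 + κ) * (1 - X) := by nlinarith
    nlinarith [mul_le_mul_of_nonneg_left h4 (sub_nonneg.2 h)]
  linarith

theorem XX4_sub (h : BH 𝒯 tri A₀ D L) (d : ℕ) (c : Bool) (f : ι) (t : τ) (s s' : ℝ) :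
    XX4 𝒯 tri D d c f t s' - XX4 𝒯 tri D d c f t s =
      (1 / D) * ∫ z in s..s', ∏ g ∈ (tri t).erase f, ms 𝒯 tri D d c g (some t) z := by
  have hc : Continuous (fun z => ∏ g ∈ (tri t).erase f, ms 𝒯 tri D d c g (some t) z) :=
    continuous_finset_prod _ (fun g _ => ms_continuous 𝒯 tri h.D_pos d c g (some t))
  unfold XX4
  rw [← mul_sub, intervalIntegral.integral_interval_sub_left (hc.intervalIntegrable _ _)
    (hc.intervalIntegrable _ _)]

theorem X4_lt (h : BH 𝒯 tri A₀ D L) : 1 / L ^ 900 ≤ 1 / 2 := by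
  have hL : (2:ℝ) ≤ L := le_trans (by norm_num) h.L6
  rw [div_le_div_iff₀ (by positivity) (by norm_num)]
  have : (2:ℝ) ^ 1 ≤ L ^ 900 :=
    le_trans (pow_le_pow_left₀ (by norm_num) hL 1) (pow_le_pow_right₀ (by linarith) (by norm_num))
  linarith

/-- logarithm of a message. -/
theorem log_ms (h : BH 𝒯 tri A₀ D L) {d : ℕ} (hd : 20 * s3 D L + 20 * Real.log D ≤ d) (c : Bool)
    {f : ι} (x : Option τ) {s : ℝ} (h0 : 0 ≤ s) (h1 : s ≤ SS D) :
    Real.log (ms 𝒯 tri D (d + 1) c f x s) =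
      s + ∑ t ∈ ch 𝒯 tri f x, Real.log (1 - XX4 𝒯 tri D d (!c) f t s) := by
  have hpos : ∀ t ∈ ch 𝒯 tri f x, 0 < 1 - XX4 𝒯 tri D d (!c) f t s := by
    intro t ht
    rw [ch, Finset.mem_filter] at ht
    have h2 := (XX4_bd h hd (!c) ht.1 ht.2.1 h0 h1).2
    have h3 := h.X_small
    have h4 := X4_lt h
    linarith
  have e : ms 𝒯 tri D (d + 1) c f x s =
      Real.exp s * ∏ t ∈ ch 𝒯 tri f x, (1 - XX4 𝒯 tri D d (!c) f t s) :=
    ms_succ 𝒯 tri h.D_pos h.h3 d c f x s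
  rw [e, Real.log_mul (Real.exp_pos _).ne' (Finset.prod_pos hpos).ne', Real.log_exp,
    Real.log_prod (fun t ht => (hpos t ht).ne')]

theorem ms_pos4 (h : BH 𝒯 tri A₀ D L) {d : ℕ} (hd : 20 * s3 D L + 20 * Real.log D ≤ d) (c : Bool)
    {f : ι} (x : Option τ) {s : ℝ} (h0 : 0 ≤ s) (h1 : s ≤ SS D) :
    0 < ms 𝒯 tri D (d + 1) c f x s := by
  have hpos : ∀ t ∈ ch 𝒯 tri f x, 0 < 1 - XX4 𝒯 tri D d (!c) f t s := by
    intro t ht
    rw [ch, Finset.mem_filter] at ht
    have h2 := (XX4_bd h hd (!c) ht.1 ht.2.1 h0 h1).2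
    have h3 := h.X_small
    have h4 := X4_lt h
    linarith
  have e : ms 𝒯 tri D (d + 1) c f x s =
      Real.exp s * ∏ t ∈ ch 𝒯 tri f x, (1 - XX4 𝒯 tri D d (!c) f t s) :=
    ms_succ 𝒯 tri h.D_pos h.h3 d c f x s
  rw [e]
  exact mul_pos (Real.exp_pos _) (Finset.prod_pos hpos)

theorem card_ch_some4 (h : BH 𝒯 tri A₀ D L) {T0 : τ} (hT : T0 ∈ 𝒯) {f : ι} (hf : f ∈ tri T0) :
    ((ch 𝒯 tri f (some T0)).card : ℝ) = dg 𝒯 tri f - 1 := by
  have e : ch 𝒯 tri f (some T0) = (𝒯.filter (fun t => f ∈ tri t)).erase T0 := by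
    ext t
    simp only [ch, Finset.mem_filter, Finset.mem_erase, ne_eq, Option.some.injEq]
    constructor
    · rintro ⟨h1, h2, h3⟩; exact ⟨h3, h1, h2⟩
    · rintro ⟨h3, h1, h2⟩; exact ⟨h1, h2, h3⟩
  have hm : T0 ∈ 𝒯.filter (fun t => f ∈ tri t) := Finset.mem_filter.2 ⟨hT, hf⟩
  rw [e, Finset.card_erase_of_mem hm, Nat.cast_sub (Finset.card_pos.2 ⟨T0, hm⟩)]
  unfold dg
  norm_num

theorem sqrtD_ge (h : BH 𝒯 tri A₀ D L) : L ^ 500 ≤ Real.sqrt D := by
  apply Real.le_sqrt_of_sq_le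
  rw [← pow_mul]
  exact h.hD

theorem lsys (h : BH 𝒯 tri A₀ D L) {R : ℕ} (hR : 20 * s3 D L + 20 * Real.log D ≤ R) :
    LSys 𝒯 tri D (s3 D L) (SS D) (3 * L ^ 10) (4 * L / Real.sqrt D) (L ^ 30 / D) L
      (3 * 𝒯.card * (L ^ 7 / D))
      (fun j f T s => ms 𝒯 tri D (R + 1 + j) false f (some T) s)
      (fun j f T s => ms 𝒯 tri D (R + 1 + j) true f (some T) s) := by
  have hL6 := h.L6
  have hL1 : (1:ℝ) ≤ L := le_trans (by norm_num) hL6
  have hL0 : 0 < L := by linarith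
  have hD := h.D_pos
  have hs3 := h.s3_pos
  have hsq := sqrtD_ge h
  have hsq0 : 0 < Real.sqrt D := Real.sqrt_pos.2 hD
  have hDD : Real.sqrt D * Real.sqrt D = D := Real.mul_self_sqrt hD.le
  have hL500 : ∀ k : ℕ, k ≤ 499 → 10 ^ 6 * L ^ k ≤ Real.sqrt D := by
    intro k hk
    refine le_trans ?_ hsq
    calc (10:ℝ) ^ 6 * L ^ k ≤ L * L ^ k := mul_le_mul_of_nonneg_right hL6 (by positivity)
      _ = L ^ (k + 1) := by ring
      _ ≤ L ^ 500 := pow_le_pow_right₀ hL1 (by omega)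
  have hRd : ∀ j : ℕ, 20 * s3 D L + 20 * Real.log D ≤ ((R + j : ℕ) : ℝ) := by
    intro j
    push_cast
    have : (0:ℝ) ≤ j := Nat.cast_nonneg j
    linarith
  have hRd1 : ∀ j : ℕ, 20 * s3 D L + 20 * Real.log D ≤ ((R + 1 + j : ℕ) : ℝ) := by
    intro j
    have := hRd (1 + j)
    rwa [← add_assoc] at this
  have hX12 : 1 / L ^ 900 ≤ 1 / 2 := X4_lt h
  have hdg : ∀ T ∈ 𝒯, ∀ f ∈ tri T, |dg 𝒯 tri f / D - 1| ≤ 3 * L / Real.sqrt D := by
    intro T hT f hf
    exact h.deg f (h.hA T hT hf)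
  have hdgu : ∀ T ∈ 𝒯, ∀ f ∈ tri T, dg 𝒯 tri f ≤ D + 3 * L * Real.sqrt D := by
    intro T hT f hf
    have h1 := (abs_le.1 (hdg T hT f hf)).2
    have h2 : dg 𝒯 tri f / D ≤ 1 + 3 * L / Real.sqrt D := by linarith
    rw [div_le_iff₀ hD] at h2
    have : (1 + 3 * L / Real.sqrt D) * D = D + 3 * L * Real.sqrt D := by
      have : (1 + 3 * L / Real.sqrt D) * D = D + 3 * L / Real.sqrt D * (Real.sqrt D * Real.sqrt D) := by
        rw [hDD]; ring
      rw [this]; field_simp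
    linarith
  have hdgl : ∀ T ∈ 𝒯, ∀ f ∈ tri T, D - 3 * L * Real.sqrt D ≤ dg 𝒯 tri f := by
    intro T hT f hf
    have h1 := (abs_le.1 (hdg T hT f hf)).1
    have h2 : 1 - 3 * L / Real.sqrt D ≤ dg 𝒯 tri f / D := by linarith
    rw [le_div_iff₀ hD] at h2
    have : (1 - 3 * L / Real.sqrt D) * D = D - 3 * L * Real.sqrt D := by
      have : (1 - 3 * L / Real.sqrt D) * D = D - 3 * L / Real.sqrt D * (Real.sqrt D * Real.sqrt D) := by
        rw [hDD]; ring
      rw [this]; field_simp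
    linarith
  have hδD : 4 * L / Real.sqrt D * D = 4 * L * Real.sqrt D := by
    have : 4 * L / Real.sqrt D * D = 4 * L / Real.sqrt D * (Real.sqrt D * Real.sqrt D) := by rw [hDD]
    rw [this]; field_simp
  have hexpkap : Real.exp (kap L) ≤ Real.exp (1 / 10) :=
    Real.exp_le_exp.2 (by have := h.kap_le; linarith [show (1:ℝ) / 10 ^ 6 ≤ 1 / 10 by norm_num])
  have hexpkap' : Real.exp (-(1 / 10)) ≤ Real.exp (-kap L) :=
    Real.exp_le_exp.2 (by have := h.kap_le; linarith [show (1:ℝ) / 10 ^ 6 ≤ 1 / 10 by norm_num])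
  refine ⟨h.h3, hD, ?_, by positivity, ?_, by positivity, ?_, h.s3_le_SS, ?_, hL1, ?_, ?_, ?_, ?_, ?_,
    ?_, ?_, ?_, ?_, ?_, ?_, ?_, ?_, ?_⟩
  · -- hΓ
    have : (1:ℝ) ≤ L ^ 10 := one_le_pow₀ hL1
    linarith
  · -- hδ
    rw [div_le_div_iff₀ hsq0 (by norm_num)]
    have := hL500 1 (by norm_num)
    rw [pow_one] at this
    linarith
  · -- hκ
    rw [div_le_one hD]
    refine le_trans ?_ h.hD
    exact pow_le_pow_right₀ hL1 (by norm_num)
  · -- hSS
    have := h.SS_le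
    linarith
  · -- dgY
    intro T hT f hf
    have h1 := hdgu T hT f hf
    have h2 := hL500 1 (by norm_num)
    rw [pow_one] at h2
    have h3 : 3 * L * Real.sqrt D ≤ Real.sqrt D * Real.sqrt D :=
      mul_le_mul_of_nonneg_right (by linarith) hsq0.le
    linarith
  · -- ch1
    intro T0 hT f hf
    rw [card_ch_some4 h hT hf]
    have h1 := hdgl T0 hT f hf
    have h2 : 1 ≤ L * Real.sqrt D := by
      have : 1 ≤ Real.sqrt D := le_trans (one_le_pow₀ hL1) hsq
      nlinarith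
    have : (1 - 4 * L / Real.sqrt D) * D = D - 4 * L * Real.sqrt D := by
      rw [sub_mul, hδD]; ring
    rw [this]
    linarith
  · -- ch2
    intro T0 hT f hf
    rw [card_ch_some4 h hT hf]
    have h1 := hdgu T0 hT f hf
    have hκ0 : 0 ≤ L ^ 30 / D := by positivity
    have : (1 + 4 * L / Real.sqrt D) * D = D + 4 * L * Real.sqrt D := by
      rw [add_mul, hδD]; ring
    rw [this]
    have h2 : L ^ 30 / D * (D + 3 * L * Real.sqrt D) ≤ L * Real.sqrt D := by
      have e1 : 3 * L * Real.sqrt D ≤ D := by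
        have h2 := hL500 1 (by norm_num)
        rw [pow_one] at h2
        have h3 : 3 * L * Real.sqrt D ≤ Real.sqrt D * Real.sqrt D :=
          mul_le_mul_of_nonneg_right (by linarith) hsq0.le
        linarith
      have e2 : L ^ 30 / D * (D + 3 * L * Real.sqrt D) ≤ L ^ 30 / D * (2 * D) :=
        mul_le_mul_of_nonneg_left (by linarith) hκ0
      have e3 : L ^ 30 / D * (2 * D) = 2 * L ^ 30 := by field_simp
      have e4 : 2 * L ^ 30 ≤ Real.sqrt D := by
        have := hL500 30 (by norm_num)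
        have h5 : (0:ℝ) ≤ L ^ 30 := by positivity
        linarith
      have e5 : Real.sqrt D ≤ L * Real.sqrt D := by nlinarith
      linarith
    have h3 : (1 + L ^ 30 / D) * (dg 𝒯 tri f - 1) ≤ (1 + L ^ 30 / D) * (D + 3 * L * Real.sqrt D) :=
      mul_le_mul_of_nonneg_left (by linarith) (by linarith)
    have h4 : (1 + L ^ 30 / D) * (D + 3 * L * Real.sqrt D) =
      D + 3 * L * Real.sqrt D + L ^ 30 / D * (D + 3 * L * Real.sqrt D) := by ring
    linarith
  · -- αc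
    intro j f T
    exact ms_continuous 𝒯 tri hD _ _ _ _
  · -- βc
    intro j f T
    exact ms_continuous 𝒯 tri hD _ _ _ _
  · -- α0
    intro j T hT f hf s hs
    have e : R + 1 + j = (R + j) + 1 := by omega
    simp only [e]
    exact ms_pos4 h (hRd j) false (some T) (hs3.le.trans hs.1) hs.2
  · -- β0
    intro j T hT f hf s hs
    refine ⟨?_, (ms_le_Gam h (hRd1 j) true (h.hA T hT hf) (some T) (hs3.le.trans hs.1) hs.2).2⟩
    have e : R + 1 + j = (R + j) + 1 := by omega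
    simp only [e]
    exact ms_pos4 h (hRd j) true (some T) (hs3.le.trans hs.1) hs.2
  · -- grow
    intro j T hT f hf s s' h1 h2 h3
    exact ms_growth 𝒯 tri hD _ _ _ _ (hs3.le.trans h1) h2 h3
  · -- logU
    intro j T0 hT f hf s hs
    have e : R + 1 + (j + 1) = (R + 1 + j) + 1 := by omega
    simp only [e]
    rw [log_ms h (hRd1 j) true (some T0) (hs3.le.trans hs.1) hs.2,
      log_ms h (hRd1 j) true (some T0) hs3.le h.s3_le_SS]
    have hT' : ∀ t ∈ ch 𝒯 tri f (some T0), Real.log (1 - XX4 𝒯 tri D (R + 1 + j) (!true) f t s) ≤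
        Real.log (1 - XX4 𝒯 tri D (R + 1 + j) (!true) f t (s3 D L)) -
        (1 / D) * ∫ z in (s3 D L)..s, ∏ g ∈ (tri t).erase f,
          ms 𝒯 tri D (R + 1 + j) false g (some t) z := by
      intro t ht
      rw [ch, Finset.mem_filter] at ht
      rw [show (false : Bool) = !true from rfl, ← XX4_sub h]
      refine log_one_sub_up (XX4_bd h (hRd1 j) _ ht.1 ht.2.1 hs3.le h.s3_le_SS).1
        (XX4_mono h (hRd1 j) _ ht.1 ht.2.1 hs3.le hs.1 hs.2) ?_
      have h2 := (XX4_bd h (hRd1 j) (!true) ht.1 ht.2.1 (hs3.le.trans hs.1) hs.2).2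
      have h3 := h.X_small
      linarith
    have hsum := Finset.sum_le_sum hT'
    rw [Finset.sum_sub_distrib, ← Finset.mul_sum] at hsum
    linarith
  · -- logL
    intro j T0 hT f hf s hs
    have e : R + 1 + (j + 1) = (R + 1 + j) + 1 := by omega
    simp only [e]
    rw [log_ms h (hRd1 j) false (some T0) (hs3.le.trans hs.1) hs.2,
      log_ms h (hRd1 j) false (some T0) hs3.le h.s3_le_SS]
    have hT' : ∀ t ∈ ch 𝒯 tri f (some T0),
        Real.log (1 - XX4 𝒯 tri D (R + 1 + j) (!false) f t (s3 D L)) -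
        (1 + L ^ 30 / D) * ((1 / D) * ∫ z in (s3 D L)..s, ∏ g ∈ (tri t).erase f,
          ms 𝒯 tri D (R + 1 + j) true g (some t) z) ≤
        Real.log (1 - XX4 𝒯 tri D (R + 1 + j) (!false) f t s) := by
      intro t ht
      rw [ch, Finset.mem_filter] at ht
      rw [show (true : Bool) = !false from rfl, ← XX4_sub h]
      have h2 := (XX4_bd h (hRd1 j) (!false) ht.1 ht.2.1 (hs3.le.trans hs.1) hs.2).2
      have h3 := h.X_small
      refine log_one_sub_lo (XX4_bd h (hRd1 j) _ ht.1 ht.2.1 hs3.le h.s3_le_SS).1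
        (XX4_mono h (hRd1 j) _ ht.1 ht.2.1 hs3.le hs.1 hs.2) (by linarith) ?_
      have h4 : 2 * (9 * L ^ 21 / D) ≤ L ^ 30 / D := by
        rw [← mul_div_assoc]
        refine div_le_div_of_nonneg_right ?_ hD.le
        have h5 : L ^ 30 = L ^ 9 * L ^ 21 := by ring
        have h6 : (18:ℝ) ≤ L ^ 9 := by
          have : (10:ℝ) ^ 6 ≤ L ^ 9 := le_trans hL6 (le_self_pow₀ hL1 (by norm_num))
          linarith
        have h7 : 0 ≤ L ^ 21 := by positivity
        rw [h5]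
        nlinarith
      linarith
    have hsum := Finset.sum_le_sum hT'
    rw [Finset.sum_sub_distrib, ← Finset.mul_sum, ← Finset.mul_sum] at hsum
    linarith
  · -- EU
    intro j
    have e : R + 1 + (j + 1) = (R + 1 + j) + 1 := by omega
    simp only [e]
    exact EU_bd h (hRd1 j)
  · -- EL
    intro j
    have e : R + 1 + (j + 1) = (R + 1 + j) + 1 := by omega
    simp only [e]
    exact EL_bd h (hRd1 j)
  · -- bU
    intro T hT f hf
    exact ((E12_all h (hRd1 0)).up f (h.hA T hT hf) (some T) _ hs3.le le_rfl).trans hexpkap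
  · -- bL
    intro T hT f hf
    exact hexpkap'.trans ((E12_all h (hRd1 0)).lo f (h.hA T hT hf) (some T) _ hs3.le le_rfl)

end Crest.Agent.TRem
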