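import Crest.Agent.TRem.B3s4x2
import Crest.Agent.TRem.B3s4a

/-!
# Row 30, B3 Step 4, part g: the messages at `s3` are close to `1` in `ℓ²`

Proof. (EU) `ms_none_some`: `log ms(none) = log ms(some T) + log(1 - X)`, `0 ≤ X ≤ 9 L^21/D =: x`
(`XX4_bd`), so `|log ms(some T)| ≤ |log ms(none)| + 2x` and `(..)² ≤ 2 (log ms none)² + 8 x²`. Hence
`QQm ≤ 2 ∑_T ∑_{f∈tri T} (log ms(f,none))² + 3|𝒯| 8x² = 2 ∑_{f∈A₀} dg f (log ms(f,none))² + ...
≤ 2 · 2D · A₀.card L^6/D + 3|𝒯| 8 x²` (`step3_of`, `BH.dg_le`) and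
`A₀.card (D/2) ≤ ∑_{f∈A₀} dg f = 3|𝒯|`. Total `≤ 3|𝒯| (8 L^6/D + 648 L^42/D²) ≤ 3|𝒯| 9 L^6/D`.
(EL) `E12_all` at depth `d+1`: `ms true - ms false ≤ 2/D^20`, `ms false ≥ 99/100`, so
`0 ≤ log ms true - log ms false ≤ 3/D^20 ≤ 1/D`; `(log ms false)² ≤ 2 (log ms true)² + 2/D²`.
-/

namespace Crest.Agent.TRem

open Finset MeasureTheory

variable {ι τ : Type} [DecidableEq ι] [DecidableEq τ] {𝒯 : Finset τ} {tri : τ → Finset ι}
  {A₀ : Finset ι} {D L : ℝ}

/-- double counting. -/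
theorem sum_msg_eq (h : BH 𝒯 tri A₀ D L) (φ : ι → ℝ) :
    ∑ T ∈ 𝒯, ∑ f ∈ tri T, φ f = ∑ f ∈ A₀, dg 𝒯 tri f * φ f := by
  have h1 : ∀ T ∈ 𝒯, ∑ f ∈ tri T, φ f = ∑ f ∈ A₀, if f ∈ tri T then φ f else 0 := by
    intro T hT
    rw [Finset.sum_ite_mem, Finset.inter_eq_right.2 (h.hA T hT)]
  rw [Finset.sum_congr rfl h1, Finset.sum_comm]
  refine Finset.sum_congr rfl fun f _ => ?_
  rw [← Finset.sum_filter, Finset.sum_const, nsmul_eq_mul]
  rfl

private theorem g_L1 (h : BH 𝒯 tri A₀ D L) : 1 ≤ L := le_trans (by norm_num) h.L6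

private theorem g_const (h : BH 𝒯 tri A₀ D L) (c : ℝ) :
    ∑ T ∈ 𝒯, ∑ f ∈ tri T, c = 3 * 𝒯.card * c := by
  rw [Finset.sum_congr rfl (g := fun _ => 3 * c) (fun T hT => by
    rw [Finset.sum_const, h.h3 T hT, nsmul_eq_mul]; norm_num)]
  rw [Finset.sum_const, nsmul_eq_mul]; ring

private theorem g_card (h : BH 𝒯 tri A₀ D L) : (A₀.card : ℝ) * (D / 2) ≤ 3 * 𝒯.card := by
  have hD := h.D_pos
  have h1 := sum_msg_eq h (fun _ => (1:ℝ))
  have h2 : ∑ T ∈ 𝒯, ∑ f ∈ tri T, (1:ℝ) = 3 * 𝒯.card := by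
    rw [Finset.sum_congr rfl (g := fun _ => (3:ℝ)) (fun T hT => by
      rw [Finset.sum_const, h.h3 T hT, nsmul_eq_mul]; norm_num)]
    rw [Finset.sum_const, nsmul_eq_mul]; ring
  rw [← h2, h1]
  have h3 : (A₀.card : ℝ) * (D / 2) = ∑ f ∈ A₀, D / 2 := by
    rw [Finset.sum_const, nsmul_eq_mul]
  rw [h3]
  refine Finset.sum_le_sum fun f hf => ?_
  rw [mul_one, h.dg_eq]
  have h4 := (abs_le.1 (h.re_le hf)).1
  have h5 : 1 / L ^ 400 ≤ 1 / 2 := by
    apply one_div_le_one_div_of_le (by norm_num)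
    calc (2:ℝ) ≤ L := le_trans (by norm_num) h.L6
      _ = L ^ 1 := (pow_one _).symm
      _ ≤ L ^ 400 := pow_le_pow_right₀ (g_L1 h) (by norm_num)
  nlinarith

/-- `648 L^42/D ≤ 1`. -/
private theorem g_num (h : BH 𝒯 tri A₀ D L) : 648 * L ^ 42 / D ≤ 1 := by
  have hD := h.D_pos
  have hL := h.L_pos
  rw [div_le_iff₀ hD, one_mul]
  refine le_trans ?_ h.hD
  calc 648 * L ^ 42 ≤ L * L ^ 42 := by
        apply mul_le_mul_of_nonneg_right _ (by positivity)
        exact le_trans (by norm_num) h.L6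
    _ = L ^ 43 := by ring
    _ ≤ L ^ 1000 := pow_le_pow_right₀ (g_L1 h) (by norm_num)

private theorem g_D1 (h : BH 𝒯 tri A₀ D L) : 1 ≤ D := by
  refine le_trans ?_ h.hD
  exact one_le_pow₀ (g_L1 h)

private theorem EU_strong (h : BH 𝒯 tri A₀ D L) {d : ℕ} (hd : 20 * s3 D L + 20 * Real.log D ≤ d) :
    QQm 𝒯 tri (fun f T => |Real.log (ms 𝒯 tri D (d + 1) true f (some T) (s3 D L))|) ≤
      3 * 𝒯.card * (5 * L ^ 6 / D) := by
  have hD := h.D_pos
  have hL := h.L_pos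
  have hL1 := g_L1 h
  have hs0 := h.s3_pos.le
  have hsS := h.s3_le_SS
  have hd' : 20 * s3 D L + 20 * Real.log D ≤ ((d + 1 : ℕ) : ℝ) := by push_cast; linarith
  have hE := E12_all h hd
  have hE' := E12_all h hd'
  have hpt : ∀ T ∈ 𝒯, ∀ f ∈ tri T,
      |Real.log (ms 𝒯 tri D (d + 1) true f (some T) (s3 D L))| ^ 2 ≤
        2 * (Real.log (ms 𝒯 tri D (d + 1) true f none (s3 D L))) ^ 2
          + 8 * (9 * L ^ 21 / D) ^ 2 := by
    intro T hT f hf
    have hfA := h.hA T hT hf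
    have hX := XX4_bd h hd (!true) hT hf hs0 hsS
    have hms := ms_none_some h d true hT hf (s3 D L)
    have hlow := al_bd h hE' hfA (some T) hs0 le_rfl
    have hup := ms_low_le_up 𝒯 tri hD (d + 1) f (some T) hs0 hsS
    have hpos : 0 < ms 𝒯 tri D (d + 1) true f (some T) (s3 D L) := by linarith [hlow.1]
    have hxs := h.X_small
    have hx2 : 9 * L ^ 21 / D ≤ 1 / 2 := by
      refine hxs.trans ?_
      apply one_div_le_one_div_of_le (by norm_num)
      calc (2:ℝ) ≤ L := le_trans (by norm_num) h.L6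
        _ = L ^ 1 := (pow_one _).symm
        _ ≤ L ^ 900 := pow_le_pow_right₀ hL1 (by norm_num)
    set X := XX4 𝒯 tri D d (!true) f T (s3 D L) with hXdef
    have hX1 : 0 < 1 - X := by linarith [hX.2]
    rw [hms, Real.log_mul hpos.ne' hX1.ne']
    have l1 : Real.log (1 - X) ≤ 0 := Real.log_nonpos hX1.le (by linarith [hX.1])
    have l2 : -(2 * (9 * L ^ 21 / D)) ≤ Real.log (1 - X) := by
      have h1 := Real.one_sub_inv_le_log_of_pos hX1
      have h2 : (1 - X)⁻¹ ≤ 1 + 2 * X := by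
        rw [inv_le_comm₀ hX1 (by linarith [hX.1])]
        rw [inv_le_iff_one_le_mul₀ (by linarith [hX.1])]
        nlinarith [hX.1, hX.2]
      linarith [hX.2]
    set a := Real.log (ms 𝒯 tri D (d + 1) true f (some T) (s3 D L)) with ha
    set b := Real.log (1 - X) with hb
    set x := 9 * L ^ 21 / D with hx
    rw [sq_abs]
    have hb2 : b ^ 2 ≤ (2 * x) ^ 2 := by
      apply sq_le_sq'
      · linarith
      · linarith [hX.1, hX.2]
    nlinarith [sq_nonneg (a + 2 * b)]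
  have h1 : QQm 𝒯 tri (fun f T => |Real.log (ms 𝒯 tri D (d + 1) true f (some T) (s3 D L))|) ≤
      ∑ T ∈ 𝒯, ∑ f ∈ tri T, (2 * (Real.log (ms 𝒯 tri D (d + 1) true f none (s3 D L))) ^ 2
          + 8 * (9 * L ^ 21 / D) ^ 2) := by
    unfold QQm
    exact Finset.sum_le_sum fun T hT => Finset.sum_le_sum fun f hf => hpt T hT f hf
  refine h1.trans ?_
  have h2 : ∑ T ∈ 𝒯, ∑ f ∈ tri T, (2 * (Real.log (ms 𝒯 tri D (d + 1) true f none (s3 D L))) ^ 2
          + 8 * (9 * L ^ 21 / D) ^ 2) =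
      2 * (∑ f ∈ A₀, dg 𝒯 tri f * (Real.log (ms 𝒯 tri D (d + 1) true f none (s3 D L))) ^ 2)
        + 3 * 𝒯.card * (8 * (9 * L ^ 21 / D) ^ 2) := by
    rw [← sum_msg_eq h, ← g_const h, Finset.mul_sum, ← Finset.sum_add_distrib]
    refine Finset.sum_congr rfl fun T _ => ?_
    rw [Finset.mul_sum, ← Finset.sum_add_distrib]
  rw [h2]
  have h3 : ∑ f ∈ A₀, dg 𝒯 tri f * (Real.log (ms 𝒯 tri D (d + 1) true f none (s3 D L))) ^ 2 ≤
      D * (101 / 100) * (A₀.card * (L ^ 6 / D)) := by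
    refine le_trans ?_ (mul_le_mul_of_nonneg_left (step3_of h hE) (by positivity))
    rw [Finset.mul_sum]
    refine Finset.sum_le_sum fun f hf => ?_
    apply mul_le_mul_of_nonneg_right _ (sq_nonneg _)
    refine (h.dg_le hf).trans ?_
    apply mul_le_mul_of_nonneg_left _ hD.le
    have h5 : 1 / L ^ 400 ≤ 1 / 100 := by
      apply one_div_le_one_div_of_le (by norm_num)
      calc (100:ℝ) ≤ L := le_trans (by norm_num) h.L6
        _ = L ^ 1 := (pow_one _).symm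
        _ ≤ L ^ 400 := pow_le_pow_right₀ hL1 (by norm_num)
    linarith
  have h4 := g_card h
  have h5 : D * (101 / 100) * (A₀.card * (L ^ 6 / D)) ≤ (101 / 100) * 2 * (3 * 𝒯.card) * (L ^ 6 / D) := by
    have h6 : 0 ≤ L ^ 6 / D := by positivity
    calc D * (101 / 100) * (A₀.card * (L ^ 6 / D))
        = (101 / 100) * 2 * ((A₀.card : ℝ) * (D / 2)) * (L ^ 6 / D) := by ring
      _ ≤ (101 / 100) * 2 * (3 * 𝒯.card) * (L ^ 6 / D) := by gcongr
  have h6 : 8 * (9 * L ^ 21 / D) ^ 2 ≤ 1 / D := by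
    have h7 := g_num h
    have : 8 * (9 * L ^ 21 / D) ^ 2 = (648 * L ^ 42 / D) * (1 / D) := by ring
    rw [this]
    calc (648 * L ^ 42 / D) * (1 / D) ≤ 1 * (1 / D) :=
          mul_le_mul_of_nonneg_right h7 (by positivity)
      _ = 1 / D := one_mul _
  have h7 : 1 / D ≤ (1 / 2) * (L ^ 6 / D) := by
    rw [mul_div_assoc', div_le_div_iff_of_pos_right hD]
    have : (2:ℝ) ≤ L ^ 6 := by
      calc (2:ℝ) ≤ L := le_trans (by norm_num) h.L6
        _ = L ^ 1 := (pow_one _).symm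
        _ ≤ L ^ 6 := pow_le_pow_right₀ hL1 (by norm_num)
    linarith
  have h8 : (0:ℝ) ≤ 3 * 𝒯.card := by positivity
  have h9 : 3 * (𝒯.card : ℝ) * (8 * (9 * L ^ 21 / D) ^ 2) ≤ 3 * 𝒯.card * ((1 / 2) * (L ^ 6 / D)) :=
    mul_le_mul_of_nonneg_left (h6.trans h7) h8
  have h10 : 0 ≤ 3 * (𝒯.card : ℝ) * (L ^ 6 / D) := by positivity
  calc 2 * (∑ f ∈ A₀, dg 𝒯 tri f * (Real.log (ms 𝒯 tri D (d + 1) true f none (s3 D L))) ^ 2)
        + 3 * 𝒯.card * (8 * (9 * L ^ 21 / D) ^ 2)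
      ≤ 2 * ((101 / 100) * 2 * (3 * 𝒯.card) * (L ^ 6 / D))
        + 3 * 𝒯.card * ((1 / 2) * (L ^ 6 / D)) := by linarith
    _ = (404 / 100 + 1 / 2) * (3 * (𝒯.card : ℝ) * (L ^ 6 / D)) := by ring
    _ ≤ 5 * (3 * (𝒯.card : ℝ) * (L ^ 6 / D)) := by nlinarith
    _ = 3 * 𝒯.card * (5 * L ^ 6 / D) := by ring

theorem EU_bd (h : BH 𝒯 tri A₀ D L) {d : ℕ} (hd : 20 * s3 D L + 20 * Real.log D ≤ d) :
    QQm 𝒯 tri (fun f T => |Real.log (ms 𝒯 tri D (d + 1) true f (some T) (s3 D L))|) ≤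
      3 * 𝒯.card * (L ^ 7 / D) := by
  have hD := h.D_pos
  have hL := h.L_pos
  refine (EU_strong h hd).trans ?_
  apply mul_le_mul_of_nonneg_left _ (by positivity)
  rw [div_le_div_iff_of_pos_right hD]
  calc 5 * L ^ 6 ≤ L * L ^ 6 := by
        apply mul_le_mul_of_nonneg_right _ (by positivity)
        exact le_trans (by norm_num) h.L6
    _ = L ^ 7 := by ring

theorem EL_bd (h : BH 𝒯 tri A₀ D L) {d : ℕ} (hd : 20 * s3 D L + 20 * Real.log D ≤ d) :
    QQm 𝒯 tri (fun f T => |Real.log (ms 𝒯 tri D (d + 1) false f (some T) (s3 D L))|) ≤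
      3 * 𝒯.card * (L ^ 7 / D) := by
  have hD := h.D_pos
  have hL := h.L_pos
  have hL1 := g_L1 h
  have hD1 := g_D1 h
  have hs0 := h.s3_pos.le
  have hsS := h.s3_le_SS
  have hd' : 20 * s3 D L + 20 * Real.log D ≤ ((d + 1 : ℕ) : ℝ) := by push_cast; linarith
  have hE' := E12_all h hd'
  have hpt : ∀ T ∈ 𝒯, ∀ f ∈ tri T,
      |Real.log (ms 𝒯 tri D (d + 1) false f (some T) (s3 D L))| ^ 2 ≤
        2 * |Real.log (ms 𝒯 tri D (d + 1) true f (some T) (s3 D L))| ^ 2 + 2 * (3 / D) ^ 2 := by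
    intro T hT f hf
    have hfA := h.hA T hT hf
    have hlow := al_bd h hE' hfA (some T) hs0 le_rfl
    have hup := ms_low_le_up 𝒯 tri hD (d + 1) f (some T) hs0 hsS
    have hgap := hE'.gap f hfA (some T) (s3 D L) hs0 le_rfl
    set U := ms 𝒯 tri D (d + 1) true f (some T) (s3 D L) with hU
    set V := ms 𝒯 tri D (d + 1) false f (some T) (s3 D L) with hV
    have hVp : 0 < V := by linarith [hlow.1]
    have hUp : 0 < U := by linarith
    have l1 : Real.log V ≤ Real.log U := Real.log_le_log hVp hup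
    have hDpow : 2 / D ^ 20 ≤ 2 / D := by
      apply div_le_div_of_nonneg_left (by norm_num) hD
      calc D = D ^ 1 := (pow_one _).symm
        _ ≤ D ^ 20 := pow_le_pow_right₀ hD1 (by norm_num)
    have l2 : Real.log U - Real.log V ≤ 3 / D := by
      rw [← Real.log_div hUp.ne' hVp.ne']
      have h1 := Real.log_le_sub_one_of_pos (div_pos hUp hVp)
      refine h1.trans ?_
      have h2 : U / V - 1 = (U - V) / V := by field_simp
      rw [h2, div_le_iff₀ hVp]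
      have h3 : U - V ≤ 2 / D := hgap.trans hDpow
      have h4 : 3 / D * (99 / 100) ≤ 3 / D * V := mul_le_mul_of_nonneg_left hlow.1 (by positivity)
      have h5 : 2 / D ≤ 3 / D * (99 / 100) := by
        rw [div_mul_eq_mul_div, div_le_div_iff_of_pos_right hD]; norm_num
      linarith
    rw [sq_abs, sq_abs]
    set a := Real.log V with ha
    set b := Real.log U with hb
    have h3 : (b - a) ^ 2 ≤ (3 / D) ^ 2 := by
      apply sq_le_sq'
      · have : 0 ≤ 3 / D := by positivity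
        linarith
      · exact l2
    nlinarith [sq_nonneg (a - 2 * b)]
  have h1 : QQm 𝒯 tri (fun f T => |Real.log (ms 𝒯 tri D (d + 1) false f (some T) (s3 D L))|) ≤
      2 * QQm 𝒯 tri (fun f T => |Real.log (ms 𝒯 tri D (d + 1) true f (some T) (s3 D L))|)
        + 3 * 𝒯.card * (2 * (3 / D) ^ 2) := by
    have h2 : 3 * (𝒯.card : ℝ) * (2 * (3 / D) ^ 2) = ∑ T ∈ 𝒯, ∑ f ∈ tri T, 2 * (3 / D) ^ 2 := by
      rw [Finset.sum_congr rfl (g := fun _ => 3 * (2 * (3 / D) ^ 2)) (fun T hT => by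
        rw [Finset.sum_const, h.h3 T hT, nsmul_eq_mul]; norm_num)]
      rw [Finset.sum_const, nsmul_eq_mul]; ring
    rw [h2]
    unfold QQm
    rw [Finset.mul_sum, ← Finset.sum_add_distrib]
    refine Finset.sum_le_sum fun T hT => ?_
    rw [Finset.mul_sum, ← Finset.sum_add_distrib]
    exact Finset.sum_le_sum fun f hf => hpt T hT f hf
  refine h1.trans ?_
  have h2 := EU_strong h hd
  have h3 : 2 * (3 / D) ^ 2 ≤ L ^ 6 / D := by
    have : 2 * (3 / D) ^ 2 = (18 / D) / D := by ring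
    rw [this, div_le_div_iff_of_pos_right hD]
    calc 18 / D ≤ 18 := div_le_self (by norm_num) hD1
      _ ≤ L := le_trans (by norm_num) h.L6
      _ = L ^ 1 := (pow_one _).symm
      _ ≤ L ^ 6 := pow_le_pow_right₀ hL1 (by norm_num)
  have h8 : (0:ℝ) ≤ 3 * 𝒯.card := by positivity
  have h4 : 3 * (𝒯.card : ℝ) * (2 * (3 / D) ^ 2) ≤ 3 * 𝒯.card * (L ^ 6 / D) :=
    mul_le_mul_of_nonneg_left h3 h8
  calc 2 * QQm 𝒯 tri (fun f T => |Real.log (ms 𝒯 tri D (d + 1) true f (some T) (s3 D L))|)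
        + 3 * 𝒯.card * (2 * (3 / D) ^ 2)
      ≤ 2 * (3 * 𝒯.card * (5 * L ^ 6 / D)) + 3 * 𝒯.card * (L ^ 6 / D) := by linarith
    _ = 3 * 𝒯.card * (11 * L ^ 6 / D) := by ring
    _ ≤ 3 * 𝒯.card * (L ^ 7 / D) := by
        apply mul_le_mul_of_nonneg_left _ h8
        rw [div_le_div_iff_of_pos_right hD]
        calc 11 * L ^ 6 ≤ L * L ^ 6 := by
              apply mul_le_mul_of_nonneg_right _ (by positivity)
              exact le_trans (by norm_num) h.L6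
          _ = L ^ 7 := by ring

end Crest.Agent.TRem
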