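import Crest.Agent.TRem.B3k
import Crest.Agent.TRem.B3s2
import Crest.Agent.TRem.B3e4
import Crest.Agent.TRem.B3e5

/-!
# Row 30, B3 Step 4, part m: the messages at `s₃` (input of the last stretch)
-/

namespace Crest.Agent.TRem

open Finset MeasureTheory

variable {ι τ : Type} [DecidableEq ι] [DecidableEq τ] {𝒯 : Finset τ} {tri : τ → Finset ι}
  {A₀ : Finset ι} {D L : ℝ}

theorem E12_all (h : BH 𝒯 tri A₀ D L) {d : ℕ} (hd : 20 * s3 D L + 20 * Real.log D ≤ d) :
    E12 𝒯 tri A₀ D L d := by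
  have hlog := h.one_le_logD
  refine E12_of h hd ?_ ?_ ?_
  · intro f hf x s h0 h1
    exact (step1 h d).2 f hf x s h0 h1 (by linarith)
  · intro f hf x s h0 h1
    exact (step1 h d).1 f hf x s h0 h1 (by linarith)
  · intro f hf x s h0 h1
    exact step2 h d hd hf x h0 h1

theorem msg_near (h : BH 𝒯 tri A₀ D L) {d : ℕ} (hd : 20 * s3 D L + 20 * Real.log D ≤ d)
    (c : Bool) {t : τ} (ht : t ∈ 𝒯) {f : ι} (hf : f ∈ tri t) :
    |Real.log (ms 𝒯 tri D (d + 1) c f (some t) (s3 D L))| ≤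
      |Real.log (ms 𝒯 tri D (d + 1) true f none (s3 D L))| + 4 * L / D := by
  have hE := E12_all h hd
  have hD := h.D_pos
  have hL := h.L_pos
  have h0 := h.s3_pos.le
  have hs := h.s3_le_SS
  have hfA : f ∈ A₀ := h.hA t ht hf
  have hnear := al_near h hE ht hf h0 le_rfl
  have hB := Bm_bd h hE hfA h0 le_rfl
  have hgap := hE.gap f hfA (some t) _ h0 le_rfl
  have hm := ms_mono_depth 𝒯 tri hD d f (some t) h0 hs
  have hlu := ms_low_le_up 𝒯 tri hD (d + 1) f (some t) h0 hs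
  have hal := al_bd h hE hfA (some t) h0 le_rfl
  have hD20 : 2 / D ^ 20 ≤ 1 / 100 * (L / D) := by
    have h3 : (1:ℝ) ≤ D := by
      have := h.D_ge
      exact le_trans (one_le_pow₀ (by norm_num)) this
    have h4 : D ≤ D ^ 20 := le_self_pow₀ h3 (by norm_num)
    have h6 := h.L6
    have h5 : 2 / D ^ 20 ≤ 2 / D := by gcongr
    have h7 : 2 / D ≤ 1 / 100 * (L / D) := by
      rw [← mul_div_assoc]
      gcongr
      linarith
    linarith
  have hLD : L / D ≤ 1 / 100 := L_div_D h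
  have e2 : 2 * L / D = 2 * (L / D) := by ring
  rw [e2] at hnear
  have e4 : 4 * L / D = 4 * (L / D) := by ring
  rw [e4]
  change |Real.log (ms 𝒯 tri D (d + 1) c f (some t) (s3 D L))| ≤
      |Real.log (Bm 𝒯 tri D d f (s3 D L))| + 4 * (L / D)
  have hclose : |ms 𝒯 tri D (d + 1) c f (some t) (s3 D L) - Bm 𝒯 tri D d f (s3 D L)| ≤
      3 * (L / D) := by
    have hLD0 : 0 ≤ L / D := by positivity
    have hbd : ms 𝒯 tri D d false f (some t) (s3 D L) ≤
        ms 𝒯 tri D (d + 1) c f (some t) (s3 D L) ∧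
        ms 𝒯 tri D (d + 1) c f (some t) (s3 D L) ≤ ms 𝒯 tri D d true f (some t) (s3 D L) := by
      cases c
      · exact ⟨hm.1, hlu.trans hm.2⟩
      · exact ⟨hm.1.trans hlu, hm.2⟩
    rw [abs_le] at hnear ⊢
    constructor <;> linarith [hbd.1, hbd.2, hnear.1, hnear.2]
  set a := ms 𝒯 tri D (d + 1) c f (some t) (s3 D L) with ha
  set b := Bm 𝒯 tri D d f (s3 D L) with hb
  have hLD0 : 0 ≤ L / D := by positivity
  have hb0 : 9 / 10 ≤ b := le_trans (by norm_num) hB.1
  have hbd := abs_le.mp hclose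
  have ha0 : 86 / 100 ≤ a := by linarith
  -- |log a - log b| ≤ 4 L / D
  have hlog : |Real.log a - Real.log b| ≤ 4 * (L / D) := by
    have h1 : Real.log a - Real.log b ≤ a / b - 1 := by
      rw [← Real.log_div (by linarith) (by linarith)]
      exact Real.log_le_sub_one_of_pos (div_pos (by linarith) (by linarith))
    have h2 : Real.log b - Real.log a ≤ b / a - 1 := by
      rw [← Real.log_div (by linarith) (by linarith)]
      exact Real.log_le_sub_one_of_pos (div_pos (by linarith) (by linarith))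
    have h3 : a / b - 1 ≤ 4 * (L / D) := by
      rw [div_sub_one (by linarith), div_le_iff₀ (by linarith)]
      nlinarith [hbd.2]
    have h4 : b / a - 1 ≤ 4 * (L / D) := by
      rw [div_sub_one (by linarith), div_le_iff₀ (by linarith)]
      nlinarith [hbd.1]
    rw [abs_le]
    constructor <;> linarith
  have htri : |Real.log a| ≤ |Real.log b| + |Real.log a - Real.log b| := by
    have := abs_add_le (Real.log b) (Real.log a - Real.log b)
    simpa using this
  linarith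

/-- exchange of the sums over messages. -/
theorem sum_msg (h : BH 𝒯 tri A₀ D L) (F : ι → ℝ) :
    ∑ T ∈ 𝒯, ∑ f ∈ tri T, F f = ∑ f ∈ A₀, dg 𝒯 tri f * F f := by
  have h1 : ∀ T ∈ 𝒯, ∑ f ∈ tri T, F f = ∑ f ∈ A₀, if f ∈ tri T then F f else 0 := by
    intro T hT
    rw [← Finset.sum_filter]
    congr 1
    ext f
    rw [Finset.mem_filter]
    exact ⟨fun hf => ⟨h.hA T hT hf, hf⟩, fun hf => hf.2⟩
  rw [Finset.sum_congr rfl h1, Finset.sum_comm]
  refine Finset.sum_congr rfl fun f _ => ?_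
  rw [← Finset.sum_filter, Finset.sum_const, nsmul_eq_mul]
  rfl

theorem energy_msgs (h : BH 𝒯 tri A₀ D L) {d : ℕ} (hd : 20 * s3 D L + 20 * Real.log D ≤ d)
    (c : Bool) :
    QQm 𝒯 tri (fun f T => |Real.log (ms 𝒯 tri D (d + 1) c f (some T) (s3 D L))|) ≤
      3 * L ^ 6 * A₀.card := by
  have hE := E12_all h hd
  have hD := h.D_pos
  have hL := h.L_pos
  have h3 := step3_of h hE
  set G : ι → ℝ := fun f => |Real.log (ms 𝒯 tri D (d + 1) true f none (s3 D L))| with hG
  have hstep : QQm 𝒯 tri (fun f T => |Real.log (ms 𝒯 tri D (d + 1) c f (some T) (s3 D L))|) ≤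
      ∑ T ∈ 𝒯, ∑ f ∈ tri T, (2 * G f ^ 2 + 2 * (4 * L / D) ^ 2) := by
    unfold QQm
    refine Finset.sum_le_sum fun T hT => Finset.sum_le_sum fun f hf => ?_
    have h1 := msg_near h hd c hT hf
    have h0 : 0 ≤ 4 * L / D := by positivity
    have hG0 : 0 ≤ G f := abs_nonneg _
    have h2 : |Real.log (ms 𝒯 tri D (d + 1) c f (some T) (s3 D L))| ^ 2 ≤ (G f + 4 * L / D) ^ 2 :=
      pow_le_pow_left₀ (abs_nonneg _) h1 2
    refine h2.trans ?_
    nlinarith [sq_nonneg (G f - 4 * L / D)]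
  refine hstep.trans ?_
  rw [sum_msg h]
  have hdg : ∀ f ∈ A₀, dg 𝒯 tri f ≤ 101 / 100 * D := by
    intro f hf
    have h1 := h.dg_le hf
    have h2 : (1:ℝ) / L ^ 400 ≤ 1 / 100 := by
      apply one_div_le_one_div_of_le (by norm_num)
      have h5 : (1:ℝ) ≤ L := le_trans (by norm_num) h.L6
      have h4 : L ≤ L ^ 400 := le_self_pow₀ h5 (by norm_num)
      have := h.L6
      linarith
    nlinarith
  have h5 : ∑ f ∈ A₀, dg 𝒯 tri f * (2 * G f ^ 2 + 2 * (4 * L / D) ^ 2) ≤
      ∑ f ∈ A₀, 101 / 100 * D * (2 * G f ^ 2 + 2 * (4 * L / D) ^ 2) :=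
    Finset.sum_le_sum fun f hf => mul_le_mul_of_nonneg_right (hdg f hf) (by positivity)
  refine h5.trans ?_
  rw [← Finset.mul_sum, Finset.sum_add_distrib, ← Finset.mul_sum, Finset.sum_const, nsmul_eq_mul]
  have h6 : ∑ f ∈ A₀, G f ^ 2 ≤ A₀.card * (L ^ 6 / D) := by
    refine le_trans (le_of_eq ?_) h3
    refine Finset.sum_congr rfl fun f _ => ?_
    simp only [hG, sq_abs]
  have hc : (0:ℝ) ≤ A₀.card := by positivity
  have h7 : 101 / 100 * D * (2 * (A₀.card * (L ^ 6 / D)) + A₀.card * (2 * (4 * L / D) ^ 2)) ≤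
      3 * L ^ 6 * A₀.card := by
    have e1 : 101 / 100 * D * (2 * (A₀.card * (L ^ 6 / D)) + A₀.card * (2 * (4 * L / D) ^ 2)) =
        A₀.card * (202 / 100 * L ^ 6 + 3232 / 100 * L * (L / D)) := by
      field_simp
      ring
    rw [e1]
    have hLD : L / D ≤ 1 / 100 := L_div_D h
    have h8 : L ≤ L ^ 6 := le_self_pow₀ (le_trans (by norm_num) h.L6) (by norm_num)
    have h9 : L * (L / D) ≤ L * (1 / 100) := mul_le_mul_of_nonneg_left hLD hL.le
    have h10 : 202 / 100 * L ^ 6 + 3232 / 100 * L * (L / D) ≤ 3 * L ^ 6 := by nlinarith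
    nlinarith
  refine le_trans ?_ h7
  gcongr

end Crest.Agent.TRem
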