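import Crest.Agent.TRem.B3s4m

/-!
# Row 30, B3 Step 4, part x: messages on the whole interval `[0, SS D]`
-/

namespace Crest.Agent.TRem

open Finset MeasureTheory

variable {ι τ : Type} [DecidableEq ι] [DecidableEq τ] {𝒯 : Finset τ} {tri : τ → Finset ι}
  {A₀ : Finset ι} {D L : ℝ}

/-- general version of `Xm` (for both kinds of inner messages). -/
noncomputable def XX4 (𝒯 : Finset τ) (tri : τ → Finset ι) (D : ℝ) (d : ℕ) (c : Bool) (f : ι) (t : τ)
    (s : ℝ) : ℝ :=
  (1 / D) * ∫ z in (0:ℝ)..s, ∏ g ∈ (tri t).erase f, ms 𝒯 tri D d c g (some t) z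

end Crest.Agent.TRem
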