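import Crest.Agent.TRem.B3s4x

/-!
# Row 30, B3 Step 4, part x2: bounds of the messages on the whole interval `[0, SS D]`

Proof. `E12_all`: on `[0, s3]` messages at depth `d` are in `[exp(-kap), exp(kap)]`, `kap ≤ 10^{-6}`
(`BH.kap_le`, `al_bd` in B3e1). For `s ≥ s3`: `ms_growth` gives
`ms(s) ≤ exp(s - s3) ms(s3) ≤ exp(SS D - s3) * 1.01`, and
`exp(2 (SS D - s3 D L)) = (1+2D) / (D/L^20) ≤ 3 L^20` so `ms ≤ 2 L^10`. (`c = false`: `ms_low_le_up`.)
`XX4 ≤ (1/D) * (3 L^10)^2 * SS D ≤ 9 L^21 / D` since `SS D = log(1+2D)/2 ≤ log D ≤ L`.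
-/

namespace Crest.Agent.TRem

open Finset MeasureTheory

variable {ι τ : Type} [DecidableEq ι] [DecidableEq τ] {𝒯 : Finset τ} {tri : τ → Finset ι}
  {A₀ : Finset ι} {D L : ℝ}

/-- `SS D ≤ L`. -/
theorem BH.SS_le (h : BH 𝒯 tri A₀ D L) : SS D ≤ L := by
  have hD := h.D_pos
  have hD3 : (3:ℝ) ≤ D := by
    have := h.D_ge
    exact le_trans (le_trans (by norm_num) (le_self_pow₀ (show (1:ℝ) ≤ 10 by norm_num) (show 6000 ≠ 0 by norm_num))) this
  unfold SS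
  have h1 : Real.log (1 + 2 * D) ≤ Real.log (D ^ 2) := by
    apply Real.log_le_log (by linarith)
    nlinarith
  rw [Real.log_pow] at h1
  have h2 := h.logD
  push_cast at h1
  linarith

/-- `e^{SS - s3} ≤ 2 L^10`. -/
theorem BH.exp_SS_s3 (h : BH 𝒯 tri A₀ D L) : Real.exp (SS D - s3 D L) ≤ 2 * L ^ 10 := by
  have hD := h.D_pos
  have hL := h.L_pos
  have hD1 : (1:ℝ) ≤ D := by
    have := h.D_ge
    exact le_trans (one_le_pow₀ (by norm_num)) this
  have h1 : Real.exp (SS D - s3 D L) ^ 2 ≤ (2 * L ^ 10) ^ 2 := by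
    rw [← Real.exp_nat_mul]
    have e1 : ((2:ℕ):ℝ) * (SS D - s3 D L) = Real.log (1 + 2 * D) - 2 * s3 D L := by
      unfold SS
      push_cast
      ring
    rw [e1, Real.exp_sub, Real.exp_log (by linarith), h.exp_s3, div_div_eq_mul_div,
      div_le_iff₀ hD]
    have : 0 < L ^ 20 := by positivity
    have e2 : (2 * L ^ 10) ^ 2 = 4 * L ^ 20 := by ring
    rw [e2]
    nlinarith
  exact le_of_sq_le_sq h1 (by positivity)

theorem ms_le_Gam (h : BH 𝒯 tri A₀ D L) {d : ℕ} (hd : 20 * s3 D L + 20 * Real.log D ≤ d) (c : Bool)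
    {f : ι} (hf : f ∈ A₀) (x : Option τ) {s : ℝ} (h0 : 0 ≤ s) (h1 : s ≤ SS D) :
    0 ≤ ms 𝒯 tri D d c f x s ∧ ms 𝒯 tri D d c f x s ≤ 3 * L ^ 10 := by
  have hE := E12_all h hd
  have hD := h.D_pos
  have hL := h.L_pos
  have hL1 : (1:ℝ) ≤ L := le_trans (by norm_num) h.L6
  have hL10 : (1:ℝ) ≤ L ^ 10 := one_le_pow₀ hL1
  refine ⟨ms_nonneg 𝒯 tri hD d c f x h0 h1, ?_⟩
  have hup : ms 𝒯 tri D d c f x s ≤ ms 𝒯 tri D d true f x s := by
    cases c
    · exact ms_low_le_up 𝒯 tri hD d f x h0 h1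
    · exact le_rfl
  refine hup.trans ?_
  have hk : Real.exp (kap L) ≤ 101 / 100 := by
    have := h.kap_le
    have h2 : Real.exp (kap L) ≤ Real.exp (1 / 10 ^ 6) := Real.exp_le_exp.mpr this
    have h3 : Real.exp (1 / 10 ^ 6) ≤ 101 / 100 := by
      have := Real.exp_bound' (x := 1 / 10 ^ 6) (by norm_num) (by norm_num) (n := 1) (by norm_num)
      norm_num [Finset.sum_range_succ] at this ⊢
      linarith
    exact h2.trans h3
  rcases le_total s (s3 D L) with hs | hs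
  · have := hE.up f hf x s h0 hs
    linarith
  · have hg := ms_growth 𝒯 tri hD d true f x h.s3_pos.le hs h1
    have h2 := hE.up f hf x _ h.s3_pos.le le_rfl
    have h3 : Real.exp (s - s3 D L) ≤ 2 * L ^ 10 :=
      (Real.exp_le_exp.mpr (by linarith)).trans h.exp_SS_s3
    have h4 : 0 ≤ ms 𝒯 tri D d true f x (s3 D L) :=
      ms_nonneg 𝒯 tri hD d true f x h.s3_pos.le h.s3_le_SS
    calc ms 𝒯 tri D d true f x s ≤ Real.exp (s - s3 D L) * ms 𝒯 tri D d true f x (s3 D L) := hg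
      _ ≤ (2 * L ^ 10) * (101 / 100) := by
          apply mul_le_mul h3 (h2.trans hk) h4 (by positivity)
      _ ≤ 3 * L ^ 10 := by nlinarith

/-- bounds of `XX4`. -/
theorem XX4_bd (h : BH 𝒯 tri A₀ D L) {d : ℕ} (hd : 20 * s3 D L + 20 * Real.log D ≤ d) (c : Bool)
    {f : ι} {t : τ} (ht : t ∈ 𝒯) (hf : f ∈ tri t) {s : ℝ} (h0 : 0 ≤ s) (h1 : s ≤ SS D) :
    0 ≤ XX4 𝒯 tri D d c f t s ∧ XX4 𝒯 tri D d c f t s ≤ 9 * L ^ 21 / D := by
  have hD := h.D_pos
  have hL := h.L_pos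
  have hmem : ∀ g ∈ (tri t).erase f, g ∈ A₀ := fun g hg => h.hA t ht (Finset.mem_of_mem_erase hg)
  have hcard : ((tri t).erase f).card = 2 := by
    rw [Finset.card_erase_of_mem hf, h.h3 t ht]
  have hp : ∀ z, 0 ≤ z → z ≤ SS D →
      0 ≤ ∏ g ∈ (tri t).erase f, ms 𝒯 tri D d c g (some t) z ∧
      ∏ g ∈ (tri t).erase f, ms 𝒯 tri D d c g (some t) z ≤ 9 * L ^ 20 := by
    intro z hz0 hz1
    have hb := fun g hg => ms_le_Gam h hd c (hmem g hg) (some t) hz0 hz1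
    refine ⟨Finset.prod_nonneg fun g hg => (hb g hg).1, ?_⟩
    calc ∏ g ∈ (tri t).erase f, ms 𝒯 tri D d c g (some t) z
        ≤ ∏ g ∈ (tri t).erase f, (3 * L ^ 10) :=
          Finset.prod_le_prod (fun g hg => (hb g hg).1) (fun g hg => (hb g hg).2)
      _ = 9 * L ^ 20 := by rw [Finset.prod_const, hcard]; ring
  have hI : 0 ≤ ∫ z in (0:ℝ)..s, ∏ g ∈ (tri t).erase f, ms 𝒯 tri D d c g (some t) z :=
    intervalIntegral.integral_nonneg h0 fun z hz => (hp z hz.1 (hz.2.trans h1)).1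
  have hI2 : ∫ z in (0:ℝ)..s, ∏ g ∈ (tri t).erase f, ms 𝒯 tri D d c g (some t) z ≤
      9 * L ^ 21 := by
    have h2 : ‖∫ z in (0:ℝ)..s, ∏ g ∈ (tri t).erase f, ms 𝒯 tri D d c g (some t) z‖ ≤
        9 * L ^ 20 * |s - 0| := by
      apply intervalIntegral.norm_integral_le_of_norm_le_const
      intro z hz
      rw [Set.uIoc_of_le h0] at hz
      have h3 := hp z hz.1.le (hz.2.trans h1)
      rw [Real.norm_eq_abs, abs_of_nonneg h3.1]
      exact h3.2
    rw [Real.norm_eq_abs, abs_of_nonneg hI, sub_zero, abs_of_nonneg h0] at h2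
    have h5 : 9 * L ^ 20 * s ≤ 9 * L ^ 20 * L :=
      mul_le_mul_of_nonneg_left (h1.trans h.SS_le) (by positivity)
    calc _ ≤ 9 * L ^ 20 * s := h2
      _ ≤ 9 * L ^ 20 * L := h5
      _ = 9 * L ^ 21 := by ring
  unfold XX4
  constructor
  · positivity
  · rw [div_mul_eq_mul_div, one_mul]
    exact div_le_div_of_nonneg_right hI2 hD.le

/-- `9 L^21 / D ≤ 1/L^900`. -/
theorem BH.X_small (h : BH 𝒯 tri A₀ D L) : 9 * L ^ 21 / D ≤ 1 / L ^ 900 := by
  have hL := h.L_pos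
  have hL1 : (1:ℝ) ≤ L := le_trans (by norm_num) h.L6
  rw [div_le_div_iff₀ h.D_pos (by positivity)]
  have h1 : 9 * L ^ 21 * L ^ 900 ≤ L * L ^ 921 := by
    have e : 9 * L ^ 21 * L ^ 900 = 9 * L ^ 921 := by ring
    rw [e]
    have : (9:ℝ) ≤ L := le_trans (by norm_num) h.L6
    gcongr
  have h2 : L * L ^ 921 ≤ L ^ 1000 := by
    have e : L * L ^ 921 = L ^ 922 := by ring
    rw [e]
    exact pow_le_pow_right₀ hL1 (by norm_num)
  linarith [h.hD]

theorem XX4_mono (h : BH 𝒯 tri A₀ D L) {d : ℕ} (hd : 20 * s3 D L + 20 * Real.log D ≤ d) (c : Bool)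
    {f : ι} {t : τ} (ht : t ∈ 𝒯) (hf : f ∈ tri t) {s s' : ℝ} (h0 : 0 ≤ s) (hs : s ≤ s')
    (h1 : s' ≤ SS D) : XX4 𝒯 tri D d c f t s ≤ XX4 𝒯 tri D d c f t s' := by
  have hD := h.D_pos
  have hmem : ∀ g ∈ (tri t).erase f, g ∈ A₀ := fun g hg => h.hA t ht (Finset.mem_of_mem_erase hg)
  have hcont : Continuous (fun z => ∏ g ∈ (tri t).erase f, ms 𝒯 tri D d c g (some t) z) :=
    continuous_finset_prod _ fun g _ => ms_continuous 𝒯 tri hD d c g (some t)
  unfold XX4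
  have hadd := intervalIntegral.integral_add_adjacent_intervals (μ := volume)
    (hcont.intervalIntegrable 0 s) (hcont.intervalIntegrable s s')
  have h2 : 0 ≤ ∫ z in s..s', ∏ g ∈ (tri t).erase f, ms 𝒯 tri D d c g (some t) z := by
    refine intervalIntegral.integral_nonneg hs fun z hz => ?_
    exact Finset.prod_nonneg fun g hg =>
      (ms_le_Gam h hd c (hmem g hg) (some t) (h0.trans hz.1) (hz.2.trans h1)).1
  rw [← hadd]
  have : 0 < 1 / D := by positivity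
  nlinarith

/-- one child removed. -/
theorem ms_none_some (h : BH 𝒯 tri A₀ D L) (d : ℕ) (c : Bool) {f : ι} {t : τ} (ht : t ∈ 𝒯)
    (hf : f ∈ tri t) (s : ℝ) :
    ms 𝒯 tri D (d + 1) c f none s =
      ms 𝒯 tri D (d + 1) c f (some t) s * (1 - XX4 𝒯 tri D d (!c) f t s) := by
  have hD := h.D_pos
  have hch : ch 𝒯 tri f none = insert t (ch 𝒯 tri f (some t)) := by
    ext t'
    simp only [ch, Finset.mem_filter, Finset.mem_insert]
    constructor
    · rintro ⟨a, b, c⟩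
      by_cases h' : t' = t
      · exact Or.inl h'
      · exact Or.inr ⟨a, b, fun h'' => h' (Option.some.inj h'')⟩
    · rintro (rfl | ⟨a, b, c⟩)
      · exact ⟨ht, hf, by simp⟩
      · exact ⟨a, b, by simp⟩
  have hnot : t ∉ ch 𝒯 tri f (some t) := by
    simp [ch]
  rw [ms_succ 𝒯 tri hD h.h3, ms_succ 𝒯 tri hD h.h3, hch, Finset.prod_insert hnot]
  unfold XX4
  ring

end Crest.Agent.TRem
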