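import Crest.Agent.TRem.BFinal0
import Crest.Agent.TRem.B1
import Crest.Agent.TRem.B2

/-!
# Row 30: assembly of PART B12
-/

namespace Crest.Agent.TRem

open MeasureTheory Finset ProbabilityTheory

variable {ι τ : Type} [DecidableEq ι] [DecidableEq τ]

theorem partB12 [Fintype τ] (𝒯 : Finset τ) (tri : τ → Finset ι) (A₀ : Finset ι)
    (h3 : ∀ t ∈ 𝒯, (tri t).card = 3) (hA : ∀ t ∈ 𝒯, tri t ⊆ A₀)
    (d : ℕ) (m₀ : ℝ) (hm₀ : 0 ≤ m₀) (fuel : ℕ) (hfuel : A₀.card ≤ fuel) (F : Finset ι)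
    (hFA : F ⊆ A₀) (hF : ∀ e ∈ F, Ind 𝒯 tri d e none) (K : ℝ)
    (hK0 : 0 ≤ K)
    (hK : ∀ e ∈ F, ((F.filter (fun e' => ¬ Disjoint (supp 𝒯 tri d e none)
        (supp 𝒯 tri d e' none))).card : ℝ) ≤ K) :
    xF 𝒯 tri (fun m => ((m : ℝ) - m₀) ^ 2) fuel A₀ ≤
      (∑ e ∈ A₀, hh 𝒯 tri d true e none 1) ^ 2
      - 2 * m₀ * (∑ e ∈ A₀, hh 𝒯 tri d false e none 1) + m₀ ^ 2
      + A₀.card * K + 2 * (A₀.card + m₀) * (A₀ \ F).card := by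
  have hne : ∀ t ∈ 𝒯, (tri t).Nonempty := fun t ht => by
    rw [← Finset.card_pos, h3 t ht]; norm_num
  rw [xF_eq_integral 𝒯 tri hne (fun m => ((m : ℝ) - m₀) ^ 2) A₀ fuel hfuel]
  refine second_moment 𝒯 tri A₀ d m₀ hm₀ F hFA hF K hK0 hK (fun ω => fin 𝒯 tri ω A₀)
    (fun ω => ?_) ?_
  · unfold fin
    exact go_subset tri _ A₀
  · filter_upwards [clk_ae_inj (τ := τ)] with ω hω e he
    exact sandwich 𝒯 tri A₀ hA ω (fun a _ b _ h => hω.1 h) (fun t _ => (hω.2 t).2) d e he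

end Crest.Agent.TRem
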