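import Crest.Agent.TRem.BM6

/-!
# Row 30, B2m-final: the second moment computation, given the sandwich
-/

namespace Crest.Agent.TRem

open MeasureTheory Finset ProbabilityTheory

variable {ι τ : Type} [DecidableEq ι] [DecidableEq τ]

/-- the second moment bound, given the sandwich `ev false ≤ 1[e ∈ fin] ≤ ev true`. -/
theorem second_moment [Fintype τ] (𝒯 : Finset τ) (tri : τ → Finset ι) (A₀ : Finset ι)
    (d : ℕ) (m₀ : ℝ) (hm₀ : 0 ≤ m₀) (F : Finset ι)
    (hFA : F ⊆ A₀) (hF : ∀ e ∈ F, Ind 𝒯 tri d e none) (K : ℝ) (hK0 : 0 ≤ K)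
    (hK : ∀ e ∈ F, ((F.filter (fun e' => ¬ Disjoint (supp 𝒯 tri d e none)
        (supp 𝒯 tri d e' none))).card : ℝ) ≤ K)
    (R : (τ → ℝ) → Finset ι) (hR : ∀ ω, R ω ⊆ A₀)
    (hsw : ∀ᵐ ω ∂clk τ, ∀ e ∈ A₀, (ev 𝒯 tri d false e none 1 ω → e ∈ R ω) ∧
      (e ∈ R ω → ev 𝒯 tri d true e none 1 ω)) :
    (∫ ω, (((R ω).card : ℝ) - m₀) ^ 2 ∂clk τ) ≤
      (∑ e ∈ A₀, hh 𝒯 tri d true e none 1) ^ 2
      - 2 * m₀ * (∑ e ∈ A₀, hh 𝒯 tri d false e none 1) + m₀ ^ 2
      + A₀.card * K + 2 * (A₀.card + m₀) * (A₀ \ F).card := by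
  classical
  -- the indicator functions
  set U : ι → ι → (τ → ℝ) → ℝ := fun e e' => Set.indicator
    {ω : τ → ℝ | ev 𝒯 tri d true e none 1 ω ∧ ev 𝒯 tri d true e' none 1 ω} 1 with hU
  set V : ι → (τ → ℝ) → ℝ := fun e => Set.indicator
    {ω : τ → ℝ | ev 𝒯 tri d false e none 1 ω} 1 with hV
  set P : Finset (ι × ι) := (F ×ˢ F).filter (fun p => Disjoint (supp 𝒯 tri d p.1 none)
    (supp 𝒯 tri d p.2 none)) with hP
  set P' : Finset (ι × ι) := (F ×ˢ F).filter (fun p => ¬ Disjoint (supp 𝒯 tri d p.1 none)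
    (supp 𝒯 tri d p.2 none)) with hP'
  set Y : (τ → ℝ) → ℝ := fun ω => (∑ p ∈ P, U p.1 p.2 ω) - 2 * m₀ * (∑ e ∈ F, V e ω) +
    (m₀ ^ 2 + A₀.card * K + 2 * A₀.card * (A₀ \ F).card) with hY
  have hUm : ∀ e e', MeasurableSet {ω : τ → ℝ | ev 𝒯 tri d true e none 1 ω ∧
      ev 𝒯 tri d true e' none 1 ω} := fun e e' =>
    (meas_ev_fix 𝒯 tri d true e none 1).inter (meas_ev_fix 𝒯 tri d true e' none 1)
  have hVm : ∀ e, MeasurableSet {ω : τ → ℝ | ev 𝒯 tri d false e none 1 ω} := fun e =>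
    meas_ev_fix 𝒯 tri d false e none 1
  have hUi : ∀ e e', Integrable (U e e') (clk τ) := fun e e' =>
    (integrable_indicator_iff (hUm e e')).2 (integrable_const (1:ℝ)).integrableOn
  have hVi : ∀ e, Integrable (V e) (clk τ) := fun e =>
    (integrable_indicator_iff (hVm e)).2 (integrable_const (1:ℝ)).integrableOn
  have hYi1 : Integrable (fun ω => ∑ p ∈ P, U p.1 p.2 ω) (clk τ) :=
    integrable_finset_sum _ (fun p _ => hUi p.1 p.2)
  have hYi2 : Integrable (fun ω => 2 * m₀ * ∑ e ∈ F, V e ω) (clk τ) :=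
    (integrable_finset_sum _ (fun e _ => hVi e)).const_mul _
  have hYi12 : Integrable (fun ω => (∑ p ∈ P, U p.1 p.2 ω) - 2 * m₀ * (∑ e ∈ F, V e ω)) (clk τ) :=
    hYi1.sub hYi2
  have hYi : Integrable Y (clk τ) := hYi12.add (integrable_const _)
  -- cardinalities
  have hcF : ((A₀ \ F).card : ℝ) = A₀.card - F.card := by
    rw [Finset.card_sdiff_of_subset hFA, Nat.cast_sub (Finset.card_le_card hFA)]
  have hFle : (F.card : ℝ) ≤ A₀.card := by exact_mod_cast Finset.card_le_card hFA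
  have hP'card : (P'.card : ℝ) ≤ F.card * K := by
    have : (P'.card : ℝ) = ∑ e ∈ F, ((F.filter (fun e' => ¬ Disjoint (supp 𝒯 tri d e none)
        (supp 𝒯 tri d e' none))).card : ℝ) := by
      rw [hP', Finset.card_filter, Nat.cast_sum, Finset.sum_product]
      refine Finset.sum_congr rfl (fun e _ => ?_)
      rw [Finset.card_filter, Nat.cast_sum]
    rw [this]
    calc _ ≤ ∑ e ∈ F, K := Finset.sum_le_sum hK
      _ = F.card * K := by simp
  -- pointwise bound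
  have hpt : ∀ᵐ ω ∂clk τ, (((R ω).card : ℝ) - m₀) ^ 2 ≤ Y ω := by
    filter_upwards [hsw] with ω hω
    set X : ι → ℝ := fun e => if e ∈ R ω then 1 else 0 with hX
    have hX0 : ∀ e, 0 ≤ X e := fun e => by simp only [hX]; split_ifs <;> norm_num
    have hX1 : ∀ e, X e ≤ 1 := fun e => by simp only [hX]; split_ifs <;> norm_num
    have hcard : ((R ω).card : ℝ) = ∑ e ∈ A₀, X e := by
      simp only [hX]
      rw [← Finset.sum_filter, Finset.filter_mem_eq_inter, Finset.inter_eq_right.2 (hR ω)]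
      simp
    have hXV : ∀ e ∈ F, V e ω ≤ X e := by
      intro e he
      simp only [hV, Set.indicator_apply, Set.mem_ofPred_eq, Pi.one_apply]
      by_cases h : ev 𝒯 tri d false e none 1 ω
      · simp [h, hX, (hω e (hFA he)).1 h]
      · simp [h, hX0 e]
    have hXU : ∀ e ∈ F, ∀ e' ∈ F, X e * X e' ≤ U e e' ω := by
      intro e he e' he'
      simp only [hU, Set.indicator_apply, Set.mem_ofPred_eq, Pi.one_apply]
      by_cases h : e ∈ R ω
      · by_cases h' : e' ∈ R ω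
        · simp [hX, h, h', (hω e (hFA he)).2 h, (hω e' (hFA he')).2 h']
        · simp only [hX, h', if_false, mul_zero]
          split_ifs <;> norm_num
      · simp only [hX, h, if_false, zero_mul]
        split_ifs <;> norm_num
    -- sum over A₀
    have s1 : ∑ e ∈ A₀, X e = ∑ e ∈ F, X e + ∑ e ∈ A₀ \ F, X e := by
      rw [add_comm]; exact (Finset.sum_sdiff hFA).symm
    have s2 : ∑ e ∈ A₀ \ F, X e ≤ (A₀ \ F).card := by
      calc _ ≤ ∑ e ∈ A₀ \ F, (1:ℝ) := Finset.sum_le_sum (fun e _ => hX1 e)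
        _ = _ := by simp
    have s2' : 0 ≤ ∑ e ∈ A₀ \ F, X e := Finset.sum_nonneg (fun e _ => hX0 e)
    have s3 : ∑ e ∈ F, X e ≤ F.card := by
      calc _ ≤ ∑ e ∈ F, (1:ℝ) := Finset.sum_le_sum (fun e _ => hX1 e)
        _ = _ := by simp
    have s3' : 0 ≤ ∑ e ∈ F, X e := Finset.sum_nonneg (fun e _ => hX0 e)
    -- pairs
    have s4 : (∑ e ∈ F, X e) ^ 2 ≤ (∑ p ∈ P, U p.1 p.2 ω) + F.card * K := by
      have : (∑ e ∈ F, X e) ^ 2 = ∑ p ∈ F ×ˢ F, X p.1 * X p.2 := by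
        rw [sq, Finset.sum_mul_sum, ← Finset.sum_product']
      rw [this, ← Finset.sum_filter_add_sum_filter_not (F ×ˢ F) (fun p => Disjoint
        (supp 𝒯 tri d p.1 none) (supp 𝒯 tri d p.2 none))]
      refine add_le_add ?_ ?_
      · refine Finset.sum_le_sum (fun p hp => ?_)
        rw [Finset.mem_filter, Finset.mem_product] at hp
        exact hXU p.1 hp.1.1 p.2 hp.1.2
      · refine le_trans ?_ hP'card
        calc _ ≤ ∑ p ∈ P', (1:ℝ) := Finset.sum_le_sum (fun p _ =>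
              mul_le_one₀ (hX1 p.1) (hX0 p.2) (hX1 p.2))
          _ = _ := by simp
    have s5 : ∑ e ∈ F, V e ω ≤ ∑ e ∈ F, X e := Finset.sum_le_sum hXV
    have s6 : (∑ e ∈ A₀, X e) ^ 2 ≤ (∑ e ∈ F, X e) ^ 2 + 2 * A₀.card * (A₀ \ F).card := by
      have hs7 : ∑ e ∈ A₀, X e ≤ A₀.card := by
        calc _ ≤ ∑ e ∈ A₀, (1:ℝ) := Finset.sum_le_sum (fun e _ => hX1 e)
          _ = _ := by simp
      have hA0 : (0:ℝ) ≤ A₀.card := Nat.cast_nonneg _
      nlinarith [s1, s2, s2', s3, s3']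
    have hKF : (F.card : ℝ) * K ≤ A₀.card * K := mul_le_mul_of_nonneg_right hFle hK0
    rw [hcard]
    simp only [hY]
    have e0 : 2 * m₀ * ∑ e ∈ F, V e ω ≤ 2 * m₀ * ∑ e ∈ A₀, X e := by
      refine mul_le_mul_of_nonneg_left ?_ (by linarith)
      linarith
    have e1 : (∑ e ∈ A₀, X e - m₀) ^ 2 = (∑ e ∈ A₀, X e) ^ 2 - 2 * m₀ * ∑ e ∈ A₀, X e + m₀ ^ 2 := by
      ring
    rw [e1]
    linarith
  -- integrate
  have hint : ∫ ω, Y ω ∂clk τ = (∑ p ∈ P, hh 𝒯 tri d true p.1 none 1 * hh 𝒯 tri d true p.2 none 1)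
      - 2 * m₀ * (∑ e ∈ F, hh 𝒯 tri d false e none 1) +
      (m₀ ^ 2 + A₀.card * K + 2 * A₀.card * (A₀ \ F).card) := by
    simp only [hY]
    rw [integral_add hYi12 (integrable_const _), integral_sub hYi1 hYi2,
      integral_finset_sum _ (fun p _ => hUi p.1 p.2), integral_const_mul,
      integral_finset_sum _ (fun e _ => hVi e)]
    congr 1
    · congr 1
      · refine Finset.sum_congr rfl (fun p hp => ?_)
        rw [hP, Finset.mem_filter, Finset.mem_product] at hp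
        rw [hU]
        simp only
        rw [integral_indicator_one (hUm p.1 p.2)]
        exact ev_prob_pair 𝒯 tri d true true p.1 p.2 none none 1 (hF _ hp.1.1) (hF _ hp.1.2) hp.2
          (by norm_num) le_rfl
      · congr 1
        refine Finset.sum_congr rfl (fun e he => ?_)
        rw [hV]
        simp only
        rw [integral_indicator_one (hVm e)]
        exact ev_prob 𝒯 tri d false e none 1 (hF e he) (by norm_num) le_rfl
    · simp
  have hmain : (∫ ω, (((R ω).card : ℝ) - m₀) ^ 2 ∂clk τ) ≤ ∫ ω, Y ω ∂clk τ :=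
    integral_mono_of_nonneg (ae_of_all _ (fun ω => sq_nonneg _)) hYi hpt
  -- final numerical comparison
  have hh0 : ∀ c e, 0 ≤ hh 𝒯 tri d c e none 1 := fun c e =>
    (hh_mem 𝒯 tri d c e none 1 (by norm_num) le_rfl).1
  have hh1 : ∀ c e, hh 𝒯 tri d c e none 1 ≤ 1 := fun c e =>
    (hh_mem 𝒯 tri d c e none 1 (by norm_num) le_rfl).2
  have f1 : (∑ p ∈ P, hh 𝒯 tri d true p.1 none 1 * hh 𝒯 tri d true p.2 none 1) ≤
      (∑ e ∈ A₀, hh 𝒯 tri d true e none 1) ^ 2 := by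
    rw [sq, Finset.sum_mul_sum, ← Finset.sum_product']
    refine Finset.sum_le_sum_of_subset_of_nonneg ?_ (fun p _ _ => mul_nonneg (hh0 _ _) (hh0 _ _))
    exact (Finset.filter_subset _ _).trans (Finset.product_subset_product hFA hFA)
  have f2 : ∑ e ∈ A₀, hh 𝒯 tri d false e none 1 ≤
      ∑ e ∈ F, hh 𝒯 tri d false e none 1 + (A₀ \ F).card := by
    rw [← Finset.sum_sdiff hFA, add_comm]
    refine add_le_add le_rfl ?_
    calc _ ≤ ∑ e ∈ A₀ \ F, (1:ℝ) := Finset.sum_le_sum (fun e _ => hh1 _ e)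
      _ = _ := by simp
  have f3 : 2 * m₀ * ∑ e ∈ A₀, hh 𝒯 tri d false e none 1 ≤
      2 * m₀ * (∑ e ∈ F, hh 𝒯 tri d false e none 1 + (A₀ \ F).card) :=
    mul_le_mul_of_nonneg_left f2 (by linarith)
  rw [hint] at hmain
  refine hmain.trans ?_
  linarith

end Crest.Agent.TRem
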