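import Crest.Agent.TRem.HDefs

/-!
# Row 30, B2m: basics on the clock measure (`clk τ` is a probability measure; `DepOn S B`)
-/

namespace Crest.Agent.TRem

open MeasureTheory Finset ProbabilityTheory

variable {ι τ : Type}

instance instProbUnitBM : IsProbabilityMeasure ((volume : Measure ℝ).restrict (Set.Icc 0 1)) :=
  ⟨by simp⟩

instance instProbClkBM [Fintype τ] : IsProbabilityMeasure (clk τ) := by
  unfold clk; infer_instance

/-- the set `B` of clock configurations depends only on the coordinates in `S`. -/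
def DepOn (S : Finset τ) (B : Set (τ → ℝ)) : Prop :=
  ∀ ω ω' : τ → ℝ, (∀ s ∈ S, ω s = ω' s) → (ω ∈ B ↔ ω' ∈ B)

theorem DepOn.mono {S S' : Finset τ} {B : Set (τ → ℝ)} (h : DepOn S B) (hS : S ⊆ S') :
    DepOn S' B := fun ω ω' hω => h ω ω' (fun s hs => hω s (hS hs))

end Crest.Agent.TRem
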