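import Crest.Agent.TRem.BM0

/-!
# Row 30, B2m-1: measurability of the events
-/

namespace Crest.Agent.TRem

open MeasureTheory Finset ProbabilityTheory

variable {ι τ : Type} [DecidableEq ι] [DecidableEq τ]

/-- joint measurability of the events `ev` in `(t, ω)`. -/
theorem meas_ev [Fintype τ] (𝒯 : Finset τ) (tri : τ → Finset ι) (d : ℕ) :
    ∀ (c : Bool) (f : ι) (x : Option τ),
      MeasurableSet {p : ℝ × (τ → ℝ) | ev 𝒯 tri d c f x p.1 p.2} := by
  induction d with
  | zero => intro c f x; simp only [ev]; exact MeasurableSet.const _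
  | succ d ih =>
    intro c f x
    simp only [ev]
    have h0 : ∀ t' : τ, MeasurableSet {p : ℝ × (τ → ℝ) | p.2 t' < p.1 →
        ¬ ∀ g ∈ (tri t').erase f, ev 𝒯 tri d (!c) g (some t') (p.2 t') p.2} := by
      intro t'
      have h1 : MeasurableSet {p : ℝ × (τ → ℝ) | p.2 t' < p.1} :=
        measurableSet_lt (by fun_prop) (by fun_prop)
      have h2 : ∀ g : ι, MeasurableSet {p : ℝ × (τ → ℝ) |
          ev 𝒯 tri d (!c) g (some t') (p.2 t') p.2} := by
        intro g
        have hm : Measurable (fun p : ℝ × (τ → ℝ) => (p.2 t', p.2)) := by fun_prop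
        exact hm (ih (!c) g (some t'))
      have h3 : MeasurableSet {p : ℝ × (τ → ℝ) |
          ∀ g ∈ (tri t').erase f, ev 𝒯 tri d (!c) g (some t') (p.2 t') p.2} := by
        have : {p : ℝ × (τ → ℝ) |
          ∀ g ∈ (tri t').erase f, ev 𝒯 tri d (!c) g (some t') (p.2 t') p.2} =
          ⋂ g ∈ (tri t').erase f, {p : ℝ × (τ → ℝ) |
          ev 𝒯 tri d (!c) g (some t') (p.2 t') p.2} := by
          ext p; simp
        rw [this]
        exact Finset.measurableSet_biInter _ (fun g _ => h2 g)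
      exact h1.imp h3.compl
    have : {p : ℝ × (τ → ℝ) | ∀ t' ∈ ch 𝒯 tri f x, p.2 t' < p.1 →
        ¬ ∀ g ∈ (tri t').erase f, ev 𝒯 tri d (!c) g (some t') (p.2 t') p.2} =
        ⋂ t' ∈ ch 𝒯 tri f x, {p : ℝ × (τ → ℝ) | p.2 t' < p.1 →
        ¬ ∀ g ∈ (tri t').erase f, ev 𝒯 tri d (!c) g (some t') (p.2 t') p.2} := by
      ext p; simp
    rw [this]
    exact Finset.measurableSet_biInter _ (fun t' _ => h0 t')

/-- measurability of the event `ev` at a fixed time. -/
theorem meas_ev_fix [Fintype τ] (𝒯 : Finset τ) (tri : τ → Finset ι) (d : ℕ) (c : Bool) (f : ι)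
    (x : Option τ) (t : ℝ) : MeasurableSet {ω : τ → ℝ | ev 𝒯 tri d c f x t ω} := by
  have hm : Measurable (fun ω : τ → ℝ => (t, ω)) := by fun_prop
  exact hm (meas_ev 𝒯 tri d c f x)

end Crest.Agent.TRem
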