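import Crest.Agent.TRem.BM0

/-!
# Row 30, B2m-2: the events depend only on `supp`
-/

namespace Crest.Agent.TRem

open MeasureTheory Finset ProbabilityTheory

variable {ι τ : Type} [DecidableEq ι] [DecidableEq τ]

theorem ev_congr (𝒯 : Finset τ) (tri : τ → Finset ι) (d : ℕ) :
    ∀ (c : Bool) (f : ι) (x : Option τ) (t : ℝ) (ω ω' : τ → ℝ),
      (∀ s ∈ supp 𝒯 tri d f x, ω s = ω' s) →
      (ev 𝒯 tri d c f x t ω ↔ ev 𝒯 tri d c f x t ω') := by
  induction d with
  | zero => intro c f x t ω ω' _; simp only [ev]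
  | succ d ih =>
    intro c f x t ω ω' h
    simp only [ev]
    refine forall₂_congr fun t' ht' => ?_
    have h1 : ω t' = ω' t' := h t' (by
      simp only [supp, Finset.mem_biUnion]
      exact ⟨t', ht', Finset.mem_insert_self _ _⟩)
    have h2 : ∀ g ∈ (tri t').erase f, (ev 𝒯 tri d (!c) g (some t') (ω' t') ω ↔
        ev 𝒯 tri d (!c) g (some t') (ω' t') ω') := by
      intro g hg
      refine ih (!c) g (some t') (ω' t') ω ω' (fun s hs => h s ?_)
      simp only [supp, Finset.mem_biUnion]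
      exact ⟨t', ht', Finset.mem_insert_of_mem (Finset.mem_biUnion.2 ⟨g, hg, hs⟩)⟩
    rw [h1]
    refine imp_congr_right fun _ => not_congr (forall₂_congr fun g hg => h2 g hg)

theorem depOn_ev (𝒯 : Finset τ) (tri : τ → Finset ι) (d : ℕ) (c : Bool) (f : ι) (x : Option τ)
    (t : ℝ) : DepOn (supp 𝒯 tri d f x) {ω : τ → ℝ | ev 𝒯 tri d c f x t ω} :=
  fun ω ω' h => ev_congr 𝒯 tri d c f x t ω ω' h

end Crest.Agent.TRem
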