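import Crest.Agent.TRem.BM0

/-!
# Row 30, B2m-3: events depending on disjoint sets of clocks are independent
-/

namespace Crest.Agent.TRem

open MeasureTheory Finset ProbabilityTheory

variable {ι τ : Type} [DecidableEq ι] [DecidableEq τ]

/-- extension by zero of a configuration on `S`. -/
noncomputable def extz (S : Finset τ) (y : S → ℝ) : τ → ℝ :=
  fun s => if h : s ∈ S then y ⟨s, h⟩ else 0

theorem meas_extz (S : Finset τ) : Measurable (extz S) := by
  unfold extz
  refine measurable_pi_lambda _ (fun s => ?_)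
  by_cases h : s ∈ S
  · simp only [h, dite_true]; fun_prop
  · simp only [h, dite_false]; fun_prop

theorem mem_iff_extz {S : Finset τ} {B : Set (τ → ℝ)} (h : DepOn S B) (ω : τ → ℝ) :
    ω ∈ B ↔ extz S (fun i : S => ω i) ∈ B := by
  refine h _ _ (fun s hs => ?_)
  simp [extz, hs]

theorem indep_clk [Fintype τ] (S S' : Finset τ) (hSS : Disjoint S S') :
    IndepFun (fun (ω : τ → ℝ) (i : S) => ω i) (fun (ω : τ → ℝ) (i : S') => ω i) (clk τ) := by
  have h : iIndepFun (fun (i : τ) (ω : τ → ℝ) => ω i) (clk τ) := by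
    unfold clk
    exact iIndepFun_pi (X := fun _ => id) (fun i => aemeasurable_id)
  exact iIndepFun.indepFun_finset S S' hSS h (fun i => measurable_pi_apply i)

theorem clk_inter [Fintype τ] {S S' : Finset τ} (hSS : Disjoint S S') {B B' : Set (τ → ℝ)}
    (hB : MeasurableSet B) (hB' : MeasurableSet B') (h : DepOn S B) (h' : DepOn S' B') :
    (clk τ).real (B ∩ B') = (clk τ).real B * (clk τ).real B' := by
  have e1 : B = (fun (ω : τ → ℝ) (i : S) => ω i) ⁻¹' (extz S ⁻¹' B) := by
    ext ω; exact mem_iff_extz h ω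
  have e2 : B' = (fun (ω : τ → ℝ) (i : S') => ω i) ⁻¹' (extz S' ⁻¹' B') := by
    ext ω; exact mem_iff_extz h' ω
  have := (indep_clk S S' hSS).measure_inter_preimage_eq_mul _ _
    (meas_extz S hB) (meas_extz S' hB')
  rw [← e1, ← e2] at this
  simp only [measureReal_def, this, ENNReal.toReal_mul]

end Crest.Agent.TRem
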