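import Crest.Agent.TRem.BM3

/-!
# Row 30, B2m-4: finite families
-/

namespace Crest.Agent.TRem

open MeasureTheory Finset ProbabilityTheory

variable {ι τ κ : Type} [DecidableEq ι] [DecidableEq τ] [DecidableEq κ]

theorem clk_biInter [Fintype τ] (I : Finset κ) (S : κ → Finset τ) (B : κ → Set (τ → ℝ))
    (hS : ∀ i ∈ I, ∀ j ∈ I, i ≠ j → Disjoint (S i) (S j))
    (hB : ∀ i ∈ I, MeasurableSet (B i)) (h : ∀ i ∈ I, DepOn (S i) (B i)) :
    (clk τ).real {ω | ∀ i ∈ I, ω ∈ B i} = ∏ i ∈ I, (clk τ).real (B i) := by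
  induction I using Finset.induction_on with
  | empty => simp
  | insert a I ha ih =>
    rw [Finset.prod_insert ha]
    have e : {ω : τ → ℝ | ∀ i ∈ insert a I, ω ∈ B i} = B a ∩ {ω | ∀ i ∈ I, ω ∈ B i} := by
      ext ω; simp
    have e2 : {ω : τ → ℝ | ∀ i ∈ I, ω ∈ B i} = ⋂ i ∈ I, B i := by ext ω; simp
    rw [e, ← ih (fun i hi j hj => hS i (Finset.mem_insert_of_mem hi) j (Finset.mem_insert_of_mem hj))
      (fun i hi => hB i (Finset.mem_insert_of_mem hi)) (fun i hi => h i (Finset.mem_insert_of_mem hi))]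
    refine clk_inter (S := S a) (S' := I.biUnion S) ?_ (hB a (Finset.mem_insert_self _ _)) ?_
      (h a (Finset.mem_insert_self _ _)) ?_
    · rw [Finset.disjoint_biUnion_right]
      intro i hi
      exact hS a (Finset.mem_insert_self _ _) i (Finset.mem_insert_of_mem hi)
        (fun hai => ha (hai ▸ hi))
    · rw [e2]
      exact Finset.measurableSet_biInter _ (fun i hi => hB i (Finset.mem_insert_of_mem hi))
    · intro ω ω' hω
      refine forall₂_congr fun i hi => ?_
      exact h i (Finset.mem_insert_of_mem hi) ω ω'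
        (fun s hs => hω s (Finset.mem_biUnion.2 ⟨i, hi, hs⟩))

end Crest.Agent.TRem
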