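import Crest.Agent.TRem.BM3

/-!
# Row 30, B2m-5: integrating out one clock
-/

namespace Crest.Agent.TRem

open MeasureTheory Finset ProbabilityTheory

variable {ι τ : Type} [DecidableEq ι] [DecidableEq τ]

theorem law_clk [Fintype τ] (t0 : τ) :
    (clk τ).map (fun ω => ω t0) = (volume : Measure ℝ).restrict (Set.Icc 0 1) := by
  unfold clk
  exact (measurePreserving_eval (fun _ : τ => (volume : Measure ℝ).restrict (Set.Icc 0 1)) t0).map_eq

theorem clk_fubini [Fintype τ] (t0 : τ) (G : ℝ → (τ → ℝ) → Prop)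
    (hm : MeasurableSet {p : ℝ × (τ → ℝ) | G p.1 p.2})
    (hG : ∀ z ω ω', (∀ s, s ≠ t0 → ω s = ω' s) → (G z ω ↔ G z ω')) {t : ℝ} (h0 : 0 ≤ t)
    (h1 : t ≤ 1) :
    (clk τ).real {ω | ω t0 < t ∧ G (ω t0) ω} = ∫ z in (0:ℝ)..t, (clk τ).real {ω | G z ω} := by
  classical
  set S : Finset τ := Finset.univ.erase t0 with hS
  -- independence of the clock `t0` and the others
  have hind : IndepFun (fun ω : τ → ℝ => ω t0) (fun (ω : τ → ℝ) (i : S) => ω i) (clk τ) := by
    have h := indep_clk ({t0} : Finset τ) S (by simp [hS])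
    have hφ : Measurable (fun y : (({t0} : Finset τ) → ℝ) => y ⟨t0, Finset.mem_singleton_self t0⟩) :=
      measurable_pi_apply (⟨t0, Finset.mem_singleton_self t0⟩ : ({t0} : Finset τ))
    exact h.comp hφ measurable_id
  have hX : Measurable (fun ω : τ → ℝ => ω t0) := measurable_pi_apply _
  have hY : Measurable (fun (ω : τ → ℝ) (i : S) => ω i) := by fun_prop
  have hmap := (indepFun_iff_map_prod_eq_prod_map_map hX.aemeasurable hY.aemeasurable).1 hind
  rw [law_clk] at hmap
  have hGe : ∀ z ω, G z ω ↔ G z (extz S (fun i : S => ω i)) := by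
    intro z ω
    refine hG z _ _ (fun s hs => ?_)
    simp [extz, hS, hs]
  set A : Set (ℝ × (S → ℝ)) := {p | p.1 < t ∧ G p.1 (extz S p.2)} with hA
  have hAm : MeasurableSet A := by
    have e1 : MeasurableSet {p : ℝ × (S → ℝ) | p.1 < t} := measurableSet_lt (by fun_prop) (by fun_prop)
    have hm2 : Measurable (fun p : ℝ × (S → ℝ) => (p.1, extz S p.2)) :=
      measurable_fst.prodMk ((meas_extz S).comp measurable_snd)
    exact e1.inter (hm2 hm)
  have e0 : {ω : τ → ℝ | ω t0 < t ∧ G (ω t0) ω} =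
      (fun ω : τ → ℝ => (ω t0, (fun i : S => ω i))) ⁻¹' A := by
    ext ω
    simp only [Set.mem_ofPred_eq, Set.mem_preimage, hA]
    rw [← hGe]
  have e1 : (clk τ) {ω : τ → ℝ | ω t0 < t ∧ G (ω t0) ω} =
      ∫⁻ z, ((clk τ).map (fun (ω : τ → ℝ) (i : S) => ω i)) (Prod.mk z ⁻¹' A)
        ∂((volume : Measure ℝ).restrict (Set.Icc 0 1)) := by
    rw [e0, ← Measure.map_apply (hX.prodMk hY) hAm, hmap, Measure.prod_apply hAm]
  have e2 : ∀ z, ((clk τ).map (fun (ω : τ → ℝ) (i : S) => ω i)) (Prod.mk z ⁻¹' A) =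
      (Set.Iio t).indicator (fun z => (clk τ) {ω | G z ω}) z := by
    intro z
    rw [Measure.map_apply hY (measurable_prodMk_left hAm)]
    by_cases hz : z < t
    · rw [Set.indicator_of_mem (Set.mem_Iio.2 hz)]
      congr 1
      ext ω
      simp only [Set.mem_preimage, hA, Set.mem_ofPred_eq, hz, true_and]
      rw [← hGe]
    · rw [Set.indicator_of_notMem (by simpa using hz)]
      have : (fun (ω : τ → ℝ) (i : S) => ω i) ⁻¹' (Prod.mk z ⁻¹' A) = ∅ := by
        ext ω; simp [hA, hz]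
      rw [this, measure_empty]
  have hfm : Measurable (fun z => (clk τ) {ω | G z ω}) := measurable_measure_prodMk_left hm
  have e3 : (clk τ) {ω : τ → ℝ | ω t0 < t ∧ G (ω t0) ω} =
      ∫⁻ z in Set.Ioc 0 t, (clk τ) {ω | G z ω} := by
    rw [e1]
    simp_rw [e2]
    rw [lintegral_indicator measurableSet_Iio, Measure.restrict_restrict measurableSet_Iio]
    have : Set.Iio t ∩ Set.Icc 0 1 = Set.Ico 0 t := by
      ext z; simp only [Set.mem_inter_iff, Set.mem_Iio, Set.mem_Icc, Set.mem_Ico]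
      constructor
      · rintro ⟨a, b, c⟩; exact ⟨b, a⟩
      · rintro ⟨a, b⟩; exact ⟨b, a, by linarith⟩
    rw [this]
    exact setLIntegral_congr (Ico_ae_eq_Ioc)
  rw [measureReal_def, e3, intervalIntegral.integral_of_le h0]
  rw [← integral_toReal hfm.aemeasurable (ae_of_all _ (fun z => measure_lt_top _ _))]
  rfl

end Crest.Agent.TRem
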