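import Crest.Agent.TRem.BM1
import Crest.Agent.TRem.BM2
import Crest.Agent.TRem.BM4
import Crest.Agent.TRem.BM5

/-!
# Row 30, B2m-6: on hypertree neighbourhoods the probability of `ev` is given by the recursion `hh`
-/

namespace Crest.Agent.TRem

open MeasureTheory Finset ProbabilityTheory

variable {ι τ : Type} [DecidableEq ι] [DecidableEq τ]

theorem ev_prob [Fintype τ] (𝒯 : Finset τ) (tri : τ → Finset ι) (d : ℕ) :
    ∀ (c : Bool) (f : ι) (x : Option τ) (t : ℝ), Ind 𝒯 tri d f x → 0 ≤ t → t ≤ 1 →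
      (clk τ).real {ω | ev 𝒯 tri d c f x t ω} = hh 𝒯 tri d c f x t := by
  induction d with
  | zero =>
    intro c f x t _ _ _
    simp only [ev, hh]
    by_cases hc : c = true
    · simp [hc]
    · simp [hc]
  | succ d ih =>
    intro c f x t hI h0 h1
    obtain ⟨hI1, hI2, hI3⟩ := hI
    simp only [hh]
    -- the event at the child `t'`
    set B : τ → Set (τ → ℝ) := fun t' => {ω | ω t' < t →
        ¬ ∀ g ∈ (tri t').erase f, ev 𝒯 tri d (!c) g (some t') (ω t') ω} with hB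
    set S : τ → Finset τ := fun t' => insert t' (((tri t').erase f).biUnion
        (fun g => supp 𝒯 tri d g (some t'))) with hS
    have hGm : ∀ t', MeasurableSet {p : ℝ × (τ → ℝ) |
        ∀ g ∈ (tri t').erase f, ev 𝒯 tri d (!c) g (some t') p.1 p.2} := by
      intro t'
      have : {p : ℝ × (τ → ℝ) | ∀ g ∈ (tri t').erase f, ev 𝒯 tri d (!c) g (some t') p.1 p.2} =
        ⋂ g ∈ (tri t').erase f, {p : ℝ × (τ → ℝ) | ev 𝒯 tri d (!c) g (some t') p.1 p.2} := by
        ext p; simp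
      rw [this]
      exact Finset.measurableSet_biInter _ (fun g _ => meas_ev 𝒯 tri d (!c) g (some t'))
    have hEm : ∀ t', MeasurableSet {ω : τ → ℝ | ω t' < t ∧
        ∀ g ∈ (tri t').erase f, ev 𝒯 tri d (!c) g (some t') (ω t') ω} := by
      intro t'
      have e1 : MeasurableSet {ω : τ → ℝ | ω t' < t} := measurableSet_lt (by fun_prop) (by fun_prop)
      have hm : Measurable (fun ω : τ → ℝ => (ω t', ω)) := by fun_prop
      exact e1.inter (hm (hGm t'))
    have hBc : ∀ t', B t' = {ω : τ → ℝ | ω t' < t ∧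
        ∀ g ∈ (tri t').erase f, ev 𝒯 tri d (!c) g (some t') (ω t') ω}ᶜ := by
      intro t'
      ext ω
      simp only [hB, Set.mem_ofPred_eq, Set.mem_compl_iff, not_and]
    have hBm : ∀ t', MeasurableSet (B t') := fun t' => by rw [hBc]; exact (hEm t').compl
    have hBd : ∀ t', DepOn (S t') (B t') := by
      intro t' ω ω' h
      have h1 : ω t' = ω' t' := h t' (Finset.mem_insert_self _ _)
      have h2 : ∀ g ∈ (tri t').erase f, (ev 𝒯 tri d (!c) g (some t') (ω' t') ω ↔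
          ev 𝒯 tri d (!c) g (some t') (ω' t') ω') := by
        intro g hg
        exact ev_congr 𝒯 tri d (!c) g (some t') (ω' t') ω ω'
          (fun s hs => h s (Finset.mem_insert_of_mem (Finset.mem_biUnion.2 ⟨g, hg, hs⟩)))
      show (ω t' < t → _) ↔ (ω' t' < t → _)
      rw [h1]
      exact imp_congr_right fun _ => not_congr (forall₂_congr fun g hg => h2 g hg)
    have hev : {ω : τ → ℝ | ev 𝒯 tri (d + 1) c f x t ω} =
        {ω | ∀ t' ∈ ch 𝒯 tri f x, ω ∈ B t'} := by
      ext ω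
      simp only [ev, hB, Set.mem_ofPred_eq]
    rw [hev, clk_biInter (ch 𝒯 tri f x) S B hI3 (fun t' _ => hBm t') (fun t' _ => hBd t')]
    refine Finset.prod_congr rfl (fun t' ht' => ?_)
    rw [hBc, probReal_compl_eq_one_sub (hEm t')]
    congr 1
    rw [clk_fubini t' (fun z ω => ∀ g ∈ (tri t').erase f, ev 𝒯 tri d (!c) g (some t') z ω)
      (hGm t') ?_ h0 h1]
    · refine intervalIntegral.integral_congr (fun z hz => ?_)
      rw [Set.uIcc_of_le h0] at hz
      have hz0 : 0 ≤ z := hz.1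
      have hz1 : z ≤ 1 := hz.2.trans h1
      have := clk_biInter ((tri t').erase f) (fun g => supp 𝒯 tri d g (some t'))
        (fun g => {ω : τ → ℝ | ev 𝒯 tri d (!c) g (some t') z ω})
        (fun g hg g' hg' hgg => hI2 t' ht' g hg g' hg' hgg)
        (fun g _ => meas_ev_fix 𝒯 tri d (!c) g (some t') z)
        (fun g _ => depOn_ev 𝒯 tri d (!c) g (some t') z)
      simp only [Set.mem_ofPred_eq] at this
      show (clk τ).real {ω | ∀ g ∈ (tri t').erase f, ev 𝒯 tri d (!c) g (some t') z ω} = _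
      rw [this]
      exact Finset.prod_congr rfl (fun g hg => ih (!c) g (some t') z (hI1 t' ht' g hg).1 hz0 hz1)
    · intro z ω ω' h
      refine forall₂_congr fun g hg => ?_
      refine ev_congr 𝒯 tri d (!c) g (some t') z ω ω' (fun s hs => h s ?_)
      rintro rfl
      exact (hI1 s ht' g hg).2 hs

/-- pair version. -/
theorem ev_prob_pair [Fintype τ] (𝒯 : Finset τ) (tri : τ → Finset ι) (d : ℕ) (c c' : Bool)
    (e e' : ι) (x x' : Option τ) (t : ℝ) (h : Ind 𝒯 tri d e x) (h' : Ind 𝒯 tri d e' x')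
    (hd : Disjoint (supp 𝒯 tri d e x) (supp 𝒯 tri d e' x')) (h0 : 0 ≤ t) (h1 : t ≤ 1) :
    (clk τ).real {ω | ev 𝒯 tri d c e x t ω ∧ ev 𝒯 tri d c' e' x' t ω} =
      hh 𝒯 tri d c e x t * hh 𝒯 tri d c' e' x' t := by
  rw [← ev_prob 𝒯 tri d c e x t h h0 h1, ← ev_prob 𝒯 tri d c' e' x' t h' h0 h1]
  exact clk_inter hd (meas_ev_fix 𝒯 tri d c e x t) (meas_ev_fix 𝒯 tri d c' e' x' t)
    (depOn_ev 𝒯 tri d c e x t) (depOn_ev 𝒯 tri d c' e' x' t)

/-- `0 ≤ hh ≤ 1`. -/
theorem hh_mem (𝒯 : Finset τ) (tri : τ → Finset ι) (d : ℕ) :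
    ∀ (c : Bool) (f : ι) (x : Option τ) (t : ℝ), 0 ≤ t → t ≤ 1 →
      0 ≤ hh 𝒯 tri d c f x t ∧ hh 𝒯 tri d c f x t ≤ 1 := by
  induction d with
  | zero =>
    intro c f x t _ _
    simp only [hh]
    by_cases hc : c = true
    · simp [hc]
    · simp [hc]
  | succ d ih =>
    intro c f x t h0 h1
    simp only [hh]
    have key : ∀ t' ∈ ch 𝒯 tri f x,
        0 ≤ (1 - ∫ z in (0:ℝ)..t, ∏ g ∈ (tri t').erase f, hh 𝒯 tri d (!c) g (some t') z) ∧
        (1 - ∫ z in (0:ℝ)..t, ∏ g ∈ (tri t').erase f, hh 𝒯 tri d (!c) g (some t') z) ≤ 1 := by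
      intro t' _
      have hb : ∀ z ∈ Set.Icc (0:ℝ) t, 0 ≤ ∏ g ∈ (tri t').erase f, hh 𝒯 tri d (!c) g (some t') z ∧
          ∏ g ∈ (tri t').erase f, hh 𝒯 tri d (!c) g (some t') z ≤ 1 := by
        intro z hz
        refine ⟨Finset.prod_nonneg (fun g _ => (ih _ _ _ z hz.1 (hz.2.trans h1)).1), ?_⟩
        exact Finset.prod_le_one (fun g _ => (ih _ _ _ z hz.1 (hz.2.trans h1)).1)
          (fun g _ => (ih _ _ _ z hz.1 (hz.2.trans h1)).2)
      have i0 : 0 ≤ ∫ z in (0:ℝ)..t, ∏ g ∈ (tri t').erase f, hh 𝒯 tri d (!c) g (some t') z :=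
        intervalIntegral.integral_nonneg h0 (fun z hz => (hb z hz).1)
      have i1 : ‖∫ z in (0:ℝ)..t, ∏ g ∈ (tri t').erase f, hh 𝒯 tri d (!c) g (some t') z‖ ≤
          1 * |t - 0| := by
        refine intervalIntegral.norm_integral_le_of_norm_le_const (fun z hz => ?_)
        rw [Set.uIoc_of_le h0] at hz
        have := hb z ⟨hz.1.le, hz.2⟩
        rw [Real.norm_eq_abs, abs_of_nonneg this.1]
        exact this.2
      rw [Real.norm_eq_abs, abs_of_nonneg i0, sub_zero, abs_of_nonneg h0, one_mul] at i1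
      constructor <;> linarith
    exact ⟨Finset.prod_nonneg (fun t' ht' => (key t' ht').1),
      Finset.prod_le_one (fun t' ht' => (key t' ht').1) (fun t' ht' => (key t' ht').2)⟩

end Crest.Agent.TRem
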