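import Crest.Agent.TRem.HDefs
import Crest.Prelude.Def_TriangleRemoval

/-!
# Row 30 (S0040): graph-side definitions (differential-equation phase)
-/

namespace Crest.Agent.TRem

open MeasureTheory Finset Crest.CombinatoricsR.TriangleRemoval

variable {n : ℕ}

/-- the three pairs of a triangle. -/
def tr (t : Finset (Fin n)) : Finset (Sym2 (Fin n)) := t.sym2.filter (fun z => ¬ z.IsDiag)

/-- adjacency indicator -/
def adj (E : Finset (Sym2 (Fin n))) (u v : Fin n) : ℝ := if s(u, v) ∈ E then 1 else 0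

/-- degree -/
noncomputable def deg (E : Finset (Sym2 (Fin n))) (u : Fin n) : ℝ := ∑ w, adj E u w

/-- codegree (of any pair, alive or dead) -/
noncomputable def cod (E : Finset (Sym2 (Fin n))) (u v : Fin n) : ℝ := ∑ w, adj E u w * adj E v w

/-- number of common neighbours of three vertices -/
noncomputable def cod3 (E : Finset (Sym2 (Fin n))) (u v x : Fin n) : ℝ :=
  ∑ w, adj E u w * adj E v w * adj E x w

/-- number of triangles -/
noncomputable def QQ (E : Finset (Sym2 (Fin n))) : ℝ := ((triangles E).card : ℝ)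

/-- the probability that the vertex `u` is in the removed triangle -/
noncomputable def piv (E : Finset (Sym2 (Fin n))) (u : Fin n) : ℝ :=
  (((triangles E).filter (fun t => u ∈ t)).card : ℝ) / QQ E

/-- average over a finite set -/
noncomputable def Av {α : Type} (A : Finset α) (f : α → ℝ) : ℝ := ((A.card : ℝ))⁻¹ * ∑ t ∈ A, f t

/-- number of pairs -/
noncomputable def NN (n : ℕ) : ℝ := (n.choose 2 : ℝ)
/-- number of edges after `i` steps -/
noncomputable def MM (n i : ℕ) : ℝ := NN n - 3 * i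
/-- edge density after `i` steps -/
noncomputable def pp (n i : ℕ) : ℝ := MM n i / NN n
/-- `μ_i = 3 / M_i`; `pp n (i+1) = pp n i * (1 - mu n i)` -/
noncomputable def mu (n i : ℕ) : ℝ := 3 / MM n i
/-- the codegree trajectory `n p²` -/
noncomputable def yb (n i : ℕ) : ℝ := n * pp n i ^ 2
/-- the triple-codegree trajectory `n p³` -/
noncomputable def cb (n i : ℕ) : ℝ := n * pp n i ^ 3
/-- the time `s = log (1/p)` -/
noncomputable def ss (n i : ℕ) : ℝ := - Real.log (pp n i)

/-- the state: current edge set and the auxiliary filter `a`. -/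
structure St (n : ℕ) where
  E : Finset (Sym2 (Fin n))
  a : Fin n → ℝ

/-- the next state when the triangle `T` is removed at step `i`. -/
noncomputable def nxt (i : ℕ) (σ : St n) (T : Finset (Fin n)) : St n where
  E := σ.E \ T.sym2
  a := fun u => (1 - mu n i) * σ.a u - 2 / (n * pp n i) * ((if u ∈ T then 1 else 0) - piv σ.E u)

/-- `k` steps of the process from time `i`, then evaluate `H`. -/
noncomputable def run : ℕ → ℕ → (St n → ℝ) → St n → ℝ
  | 0, _, H, σ => H σ
  | k + 1, i, H, σ =>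
      if (triangles σ.E).card = 0 then H σ
      else Av (triangles σ.E) (fun T => run k (i + 1) H (nxt i σ T))

/-- relative codegree deviation -/
noncomputable def rr (i : ℕ) (E : Finset (Sym2 (Fin n))) (u v : Fin n) : ℝ := cod E u v / yb n i - 1
/-- `θ = 3Q/(M ȳ)` -/
noncomputable def th (i : ℕ) (E : Finset (Sym2 (Fin n))) : ℝ := 3 * QQ E / (MM n i * yb n i)
/-- `ρ_{uv} = r_{uv} - a_u - a_v` -/
noncomputable def rho (i : ℕ) (σ : St n) (u v : Fin n) : ℝ := rr i σ.E u v - σ.a u - σ.a v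
/-- `M_{uv} = Σ_{w ∈ N(u,v)} a_w` -/
noncomputable def Mf (σ : St n) (u v : Fin n) : ℝ := ∑ w, adj σ.E u w * adj σ.E v w * σ.a w
/-- `k_{u;v} = Σ_{w ∈ N(u,v)} ρ_{uw}` -/
noncomputable def kf (i : ℕ) (σ : St n) (u v : Fin n) : ℝ :=
  ∑ w, adj σ.E u w * adj σ.E v w * rho i σ u w

/-- the parameter regime: `L` is the slack, `i₁` the stopping time of the DE phase. -/
structure Reg (n : ℕ) (L : ℝ) (i₁ : ℕ) : Prop where
  L6 : (10:ℝ) ^ 6 ≤ L
  logn : 10 ^ 6 * Real.log n ≤ L
  hi : 3 * i₁ < n.choose 2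
  hD : L ^ 20 ≤ yb n i₁

/-- the state is admissible at time `i`: only pairs of distinct vertices, and the number of edges
is the deterministic one. -/
structure Inv (i : ℕ) (σ : St n) : Prop where
  sub : σ.E ⊆ allEdges n
  card : σ.E.card + 3 * i = n.choose 2

/-- all the tolerances hold at time `i`. -/
structure Good (L : ℝ) (i : ℕ) (σ : St n) : Prop where
  d : ∀ u, |deg σ.E u / (n * pp n i) - 1| ≤ 1 / 10
  a : ∀ u, |σ.a u| ≤ L / Real.sqrt (n * pp n i)
  th : |th i σ.E - 1| ≤ L ^ 3 / yb n i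
  rho : ∀ u v, u ≠ v → |rho i σ u v| ≤ L / Real.sqrt (yb n i)
  M : ∀ u v, u ≠ v → |Mf σ u v| ≤ L ^ 3 * Real.sqrt (pp n i)
  k : ∀ u v, u ≠ v → |kf i σ u v| ≤ L ^ 4 * (1 + ss n i)
  c : ∀ u v x, u ≠ v → u ≠ x → v ≠ x →
    |cod3 σ.E u v x - cb n i| ≤ L ^ 2 * Real.sqrt (cb n i) + L ^ 4

/-- the output of the DE phase in hypergraph language. -/
structure GoodOut (n : ℕ) (L : ℝ) (i₁ : ℕ) (E : Finset (Sym2 (Fin n))) : Prop where
  sub : E ⊆ allEdges n
  card : E.card + 3 * i₁ = n.choose 2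
  dg : ∀ e ∈ E, |dg (triangles E) tr e / yb n i₁ - 1| ≤ 3 * L / Real.sqrt (yb n i₁)
  cor : ∀ e ∈ E, |∑ t ∈ (triangles E).filter (fun t => e ∈ tr t),
        ∑ g ∈ (tr t).erase e, (TRem.dg (triangles E) tr g / yb n i₁ - 1)| ≤ L ^ 5

end Crest.Agent.TRem
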