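import Crest.Agent.TRem.HDefs
import Crest.Agent.TRem.GDefs

/-!
# Row 30: bridge between the frozen recursion and the abstract process; elementary facts on `tr`

Chunk R30-BRIDGE.
* `mem_tr`: `z ∈ tr t ↔ ∃ u ∈ t, ∃ v ∈ t, u ≠ v ∧ z = s(u, v)` (`Finset.mem_sym2_iff`, `Sym2.ind`).
* `tr_subset_iff`: `tr t ⊆ A ↔ ∀ u ∈ t, ∀ v ∈ t, u ≠ v → s(u, v) ∈ A`.
* `card_tr`: `t = {a, b, c}` (`Finset.card_eq_three`), `tr t = {s(a,b), s(a,c), s(b,c)}`.
* `filter_triangles`: for `A ⊆ E`, `(triangles E).filter (fun t => tr t ⊆ A) = triangles A`.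
* `sdiff_tr`: for `A ⊆ allEdges n`, `A \ t.sym2 = A \ tr t` (elements of `A` are not diagonal).
* main: induction on `m` for all `A ⊆ E`.
-/

namespace Crest.Agent.TRem

open Finset Crest.CombinatoricsR.TriangleRemoval

variable {n : ℕ}

theorem mem_tr (t : Finset (Fin n)) (z : Sym2 (Fin n)) :
    z ∈ tr t ↔ ∃ u ∈ t, ∃ v ∈ t, u ≠ v ∧ z = s(u, v) := by
  unfold tr
  induction z using Sym2.ind with
  | _ x y =>
    rw [Finset.mem_filter, Finset.mk_mem_sym2_iff, Sym2.mk_isDiag_iff]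
    constructor
    · rintro ⟨⟨hx, hy⟩, hxy⟩
      exact ⟨x, hx, y, hy, hxy, rfl⟩
    · rintro ⟨u, hu, v, hv, huv, h⟩
      rw [Sym2.eq_iff] at h
      rcases h with ⟨rfl, rfl⟩ | ⟨rfl, rfl⟩
      · exact ⟨⟨hu, hv⟩, huv⟩
      · exact ⟨⟨hv, hu⟩, huv.symm⟩

theorem tr_subset_iff (t : Finset (Fin n)) (A : Finset (Sym2 (Fin n))) :
    tr t ⊆ A ↔ ∀ u ∈ t, ∀ v ∈ t, u ≠ v → s(u, v) ∈ A := by
  constructor
  · intro h u hu v hv huv
    exact h ((mem_tr t _).2 ⟨u, hu, v, hv, huv, rfl⟩)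
  · intro h z hz
    obtain ⟨u, hu, v, hv, huv, rfl⟩ := (mem_tr t z).1 hz
    exact h u hu v hv huv

theorem card_tr (t : Finset (Fin n)) (ht : t.card = 3) : (tr t).card = 3 := by
  obtain ⟨a, b, c, hab, hac, hbc, rfl⟩ := Finset.card_eq_three.1 ht
  have : tr {a, b, c} = {s(a, b), s(a, c), s(b, c)} := by
    ext z
    rw [mem_tr]
    simp only [Finset.mem_insert, Finset.mem_singleton]
    constructor
    · rintro ⟨u, hu, v, hv, huv, rfl⟩
      rcases hu with rfl | rfl | rfl <;> rcases hv with rfl | rfl | rfl <;>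
        simp_all [Sym2.eq_swap]
    · rintro (rfl | rfl | rfl)
      · exact ⟨a, by simp, b, by simp, hab, rfl⟩
      · exact ⟨a, by simp, c, by simp, hac, rfl⟩
      · exact ⟨b, by simp, c, by simp, hbc, rfl⟩
  rw [this, Finset.card_eq_three]
  refine ⟨_, _, _, ?_, ?_, ?_, rfl⟩
  · intro h
    rw [Sym2.eq_iff] at h
    rcases h with ⟨_, h⟩ | ⟨h, _⟩
    · exact hbc h
    · exact hac h
  · intro h
    rw [Sym2.eq_iff] at h
    rcases h with ⟨h, _⟩ | ⟨h, _⟩
    · exact hab h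
    · exact hac h
  · intro h
    rw [Sym2.eq_iff] at h
    rcases h with ⟨h, _⟩ | ⟨h, _⟩
    · exact hab h
    · exact hac h

theorem card_tr_of_mem {E : Finset (Sym2 (Fin n))} {t : Finset (Fin n)} (ht : t ∈ triangles E) :
    (tr t).card = 3 := by
  unfold triangles at ht
  rw [Finset.mem_filter, Finset.mem_powersetCard] at ht
  exact card_tr t ht.1.2

theorem tr_subset_of_mem {E : Finset (Sym2 (Fin n))} {t : Finset (Fin n)} (ht : t ∈ triangles E) :
    tr t ⊆ E := by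
  unfold triangles at ht
  rw [Finset.mem_filter] at ht
  exact (tr_subset_iff t E).2 ht.2

theorem filter_triangles (E A : Finset (Sym2 (Fin n))) (hA : A ⊆ E) :
    (triangles E).filter (fun t => tr t ⊆ A) = triangles A := by
  ext t
  unfold triangles
  simp only [Finset.mem_filter]
  rw [tr_subset_iff]
  constructor
  · rintro ⟨⟨h1, _⟩, h3⟩; exact ⟨h1, h3⟩
  · rintro ⟨h1, h3⟩; exact ⟨⟨h1, fun u hu v hv huv => hA (h3 u hu v hv huv)⟩, h3⟩

theorem sdiff_tr (A : Finset (Sym2 (Fin n))) (hA : A ⊆ allEdges n) (t : Finset (Fin n)) :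
    A \ t.sym2 = A \ tr t := by
  ext z
  simp only [Finset.mem_sdiff, tr, Finset.mem_filter]
  constructor
  · rintro ⟨h1, h2⟩; exact ⟨h1, fun h => h2 h.1⟩
  · rintro ⟨h1, h2⟩
    refine ⟨h1, fun h => h2 ⟨h, ?_⟩⟩
    have := hA h1
    unfold allEdges at this
    exact (Finset.mem_filter.1 this).2

theorem expectFinal_eq_xF_aux (φ : ℕ → ℝ) (E : Finset (Sym2 (Fin n))) (hE : E ⊆ allEdges n) (m : ℕ) :
    ∀ A : Finset (Sym2 (Fin n)), A ⊆ E →
      expectFinal φ m A = xF (triangles E) tr φ m A := by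
  induction m with
  | zero => intro A _; simp only [expectFinal, xF]
  | succ m ih =>
    intro A hA
    simp only [expectFinal, xF]
    rw [filter_triangles E A hA]
    by_cases h : (triangles A).card = 0
    · simp [h]
    · simp only [h, if_false]
      congr 1
      refine Finset.sum_congr rfl (fun t _ => ?_)
      rw [sdiff_tr A (hA.trans hE) t]
      exact ih _ (Finset.sdiff_subset.trans hA)

theorem expectFinal_eq_xF (φ : ℕ → ℝ) (m : ℕ) (E : Finset (Sym2 (Fin n))) (hE : E ⊆ allEdges n) :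
    expectFinal φ m E = xF (triangles E) tr φ m E :=
  expectFinal_eq_xF_aux φ E hE m E (Finset.Subset.refl _)

end Crest.Agent.TRem
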