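import Crest.Agent.TRem.C1c

/-!
# Row 30, C1e: in an exact configuration walks are determined by their last triangle

Chunk R30-C1e (this file: (3); (1) and (2) are black boxes in C1c.lean).

`Exact E e k`: no admissible list `V` with `V.length + 1 ≤ k` has an outside vertex `w` with three
distinct `E`-neighbours in `V`.

(1) `three_older`: `Exact E e k`, `Adm E e V`, `V.length ≤ k`: a vertex `w` cannot have three distinct older
neighbours. (`V = l₁ ++ w :: l₂`, `a, b, c ∈ l₂` [use `Nodup` to see that the decomposition is the same for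
the three], `Adm E e l₂` by `Adm.suffix`, `w ∉ l₂` by `Nodup`, `l₂.length + 1 ≤ k`.)

(2) `walk_newest` (induction on `m`): for a reversed walk `m` with all triangles inside `V`, and
`T ∈ ch (cur e m)` inside `V`: `(cur e m).1 = s(a,b)`, `T = {a,b,w}` with `a`, `b` older than `w`.
 `m = []`: `(cur e m).1 = e`; `tri_third` + `Adm.root`.
 `m = p :: m'`: the induction hypothesis for `(m', p.1)` gives `(cur e m').1 = s(a,b)`, `p.1 = {a,b,w}`,
 `a`, `b` older than `w`; by `tri_erase` `p.2 = s(w,a)` or `s(w,b)`; say `s(w,c)`, `c' ` the other one.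
 `T ∋ p.2`, `T ≠ p.1`: `T = {w, c, x}` with `x ≠ w, c`, and `x ≠ c'` (else `T = p.1`). If `x` were older than
 `w`, then `w` would have the three older neighbours `a, b, x` (`s(w,x) ∈ E` as `T ∈ triangles E`):
 contradiction with (1). So `w` is older than `x` (`older_total`), and `c` older than `w` older than `x`.

(3) `walk_unique` (induction on `m` generalizing `m' T`): first by (2) applied to `m` and to `m'`:
`T = {a,b,w} = {a',b',w'}`, with `w`, `w'` both the newest element of `T`, so `w = w'` (`older_asymm`) and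
`s(a,b) = s(a',b')`, i.e. `(cur e m).1 = (cur e m').1`.
 `m = [] = m'`: done.
 `m = []`, `m' = p :: m₁`: then `p.2 = e`. By (2) for `(m₁, p.1)`: `p.1 = {a₂,b₂,w₂}`, `a₂,b₂` older than `w₂`,
 `p.2 = s(w₂, c)` with `c ∈ {a₂,b₂}`; let `c'` be the other one. `Adm.root` (with `e = s(w₂,c)`): `w₂` is older
 than `c'`; but `c'` is older than `w₂`, contradiction `older_asymm`. Symmetric case the same.
 `m = p :: m₁`, `m' = p' :: m₁'`: `p.2 = p'.2`. By (2): `p.1 = {a₁,b₁,w₁}`, `p.2 = s(w₁,c₁)`, `c₁` older than `w₁`;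
 `p'.1 = {a₂,b₂,w₂}`, `p'.2 = s(w₂,c₂)`. Hence `w₁ = w₂` (otherwise `w₁ = c₂`, `w₂ = c₁`, contradicting
 `older_asymm`). By (1) the two older neighbour pairs agree: `{a₁,b₁} = {a₂,b₂}`, so `p.1 = p'.1`, `p = p'`.
 Induction hypothesis with `T := p.1`.
-/

namespace Crest.Agent.TRem

open Finset Crest.CombinatoricsR.TriangleRemoval

variable {n : ℕ}

private theorem older_ne {V : List (Fin n)} (hV : V.Nodup) {x w : Fin n} (h : older V x w) :
    w ≠ x := by
  rintro rfl
  exact older_asymm hV h h

private theorem newest_unique {V : List (Fin n)} (hn : V.Nodup) {a b w a' b' w' : Fin n}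
    (hab : a ≠ b) (h : ({a, b, w} : Finset (Fin n)) = {a', b', w'})
    (h1 : older V a w) (h2 : older V b w) (h3 : older V a' w') (h4 : older V b' w') :
    w = w' ∧ s(a, b) = s(a', b') := by
  have hw : w ∈ ({a', b', w'} : Finset (Fin n)) := by rw [← h]; simp
  have hw' : w' ∈ ({a, b, w} : Finset (Fin n)) := by rw [h]; simp
  simp only [mem_insert, mem_singleton] at hw hw'
  have hww : w = w' := by
    rcases hw with hw | hw | hw
    · subst hw
      rcases hw' with hw' | hw' | hw'
      · subst hw'; exact absurd h3 (older_asymm hn h1)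
      · subst hw'; exact absurd h3 (older_asymm hn h2)
      · exact hw'.symm
    · subst hw
      rcases hw' with hw' | hw' | hw'
      · subst hw'; exact absurd h4 (older_asymm hn h1)
      · subst hw'; exact absurd h4 (older_asymm hn h2)
      · exact hw'.symm
    · exact hw
  subst hww
  refine ⟨rfl, ?_⟩
  have ha : a ∈ ({a', b', w} : Finset (Fin n)) := by rw [← h]; simp
  have hb : b ∈ ({a', b', w} : Finset (Fin n)) := by rw [← h]; simp
  simp only [mem_insert, mem_singleton] at ha hb
  have hwa := older_ne hn h1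
  have hwb := older_ne hn h2
  rw [Sym2.eq_iff]
  rcases ha with ha | ha | ha
  · rcases hb with hb | hb | hb
    · exact absurd (ha.trans hb.symm) hab
    · exact Or.inl ⟨ha, hb⟩
    · exact absurd hb.symm hwb
  · rcases hb with hb | hb | hb
    · exact Or.inr ⟨ha, hb⟩
    · exact absurd (ha.trans hb.symm) hab
    · exact absurd hb.symm hwb
  · exact absurd ha.symm hwa

private theorem walk_step {E : Finset (Sym2 (Fin n))} {e : Sym2 (Fin n)} {k : ℕ} (hX : Exact E e k)
    {V : List (Fin n)} (hV : Adm E e V) (hk : V.length ≤ k)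
    {p : Finset (Fin n) × Sym2 (Fin n)} {m : List (Finset (Fin n) × Sym2 (Fin n))}
    (hR : isR (triangles E) tr e (p :: m)) (hin : ∀ q ∈ p :: m, ∀ v ∈ q.1, v ∈ V) :
    ∃ c d w : Fin n, p.1 = {c, d, w} ∧ c ≠ d ∧ older V c w ∧ older V d w ∧
      s(w, c) ∈ E ∧ s(w, d) ∈ E ∧ p.2 = s(w, c) := by
  obtain ⟨h1, h2, h3⟩ := hR
  obtain ⟨a, b, w, hcur, hab, hT, ha, hb, hEa, hEb⟩ := walk_newest hX hV hk m p.1 h1 h2
    (fun q hq => hin q (List.mem_cons_of_mem _ hq)) (hin p (by simp))
  have hn := hV.nodup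
  rw [hcur, hT] at h3
  rcases tri_erase hab (older_ne hn ha) (older_ne hn hb) h3 with h | h
  · exact ⟨a, b, w, hT, hab, ha, hb, hEa, hEb, h⟩
  · refine ⟨b, a, w, ?_, hab.symm, hb, ha, hEb, hEa, h⟩
    rw [hT]; ext x; simp only [mem_insert, mem_singleton]; tauto

private theorem walk_ne_root {E : Finset (Sym2 (Fin n))} {e : Sym2 (Fin n)} {k : ℕ}
    (hX : Exact E e k) {V : List (Fin n)} (hV : Adm E e V) (hk : V.length ≤ k)
    {p : Finset (Fin n) × Sym2 (Fin n)} {m : List (Finset (Fin n) × Sym2 (Fin n))}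
    (hR : isR (triangles E) tr e (p :: m)) (hin : ∀ q ∈ p :: m, ∀ v ∈ q.1, v ∈ V) :
    p.2 ≠ e := by
  intro hpe
  obtain ⟨c, d, w, hp, hcd, hc, hd, _, _, h⟩ := walk_step hX hV hk hR hin
  have hn := hV.nodup
  obtain ⟨_, _, hroot⟩ := hV.root (hpe.symm.trans h)
  have := hroot d (older_mem hd).1 (older_ne hn hd).symm hcd.symm
  exact older_asymm hn hd this.1

theorem walk_unique {E : Finset (Sym2 (Fin n))} {e : Sym2 (Fin n)} {k : ℕ} (hX : Exact E e k)
    {V : List (Fin n)} (hV : Adm E e V) (hk : V.length ≤ k) :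
    ∀ (m m' : List (Finset (Fin n) × Sym2 (Fin n))) (T : Finset (Fin n)),
      isR (triangles E) tr e m → T ∈ ch (triangles E) tr (cur e m).1 (cur e m).2 →
      isR (triangles E) tr e m' → T ∈ ch (triangles E) tr (cur e m').1 (cur e m').2 →
      (∀ p ∈ m, ∀ v ∈ p.1, v ∈ V) → (∀ p ∈ m', ∀ v ∈ p.1, v ∈ V) → (∀ v ∈ T, v ∈ V) → m = m' := by
  have hn := hV.nodup
  intro m
  induction m with
  | nil =>
    intro m' T hR hT hR' hT' hin hin' hTV
    cases m' with
    | nil => rfl
    | cons p' m' =>
      exfalso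
      obtain ⟨a, b, w, hcur, hab, hTe, ha, hb, _, _⟩ := walk_newest hX hV hk [] T hR hT hin hTV
      obtain ⟨a', b', w', hcur', hab', hTe', ha', hb', _, _⟩ :=
        walk_newest hX hV hk (p' :: m') T hR' hT' hin' hTV
      have := newest_unique hn hab (hTe.symm.trans hTe') ha hb ha' hb'
      have h2 : p'.2 = e := by
        have h3 : e = s(a, b) := hcur
        have h4 : p'.2 = s(a', b') := hcur'
        rw [h3, h4, this.2]
      exact walk_ne_root hX hV hk hR' hin' h2
  | cons p m ih =>
    intro m' T hR hT hR' hT' hin hin' hTV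
    obtain ⟨a, b, w, hcur, hab, hTe, ha, hb, _, _⟩ :=
      walk_newest hX hV hk (p :: m) T hR hT hin hTV
    obtain ⟨a', b', w', hcur', hab', hTe', ha', hb', _, _⟩ :=
      walk_newest hX hV hk m' T hR' hT' hin' hTV
    have hnu := newest_unique hn hab (hTe.symm.trans hTe') ha hb ha' hb'
    have hcc : (cur e (p :: m)).1 = (cur e m').1 := by rw [hcur, hcur', hnu.2]
    cases m' with
    | nil =>
      exfalso
      exact walk_ne_root hX hV hk hR hin hcc
    | cons p' m' =>
      have hpp : p.2 = p'.2 := hcc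
      obtain ⟨c, d, w1, hp1, hcd, hc, hd, hEc, hEd, hp2⟩ := walk_step hX hV hk hR hin
      obtain ⟨c', d', w1', hp1', hcd', hc', hd', hEc', hEd', hp2'⟩ :=
        walk_step hX hV hk hR' hin'
      have hs : s(w1, c) = s(w1', c') := by rw [← hp2, ← hp2', hpp]
      rw [Sym2.eq_iff] at hs
      rcases hs with ⟨h1, h2⟩ | ⟨h1, h2⟩
      · subst h1 h2
        have hdd : d = d' := by
          by_contra hdd
          exact three_older hX hV hk hc hd hd' hcd hcd' hdd hEc hEd hEd'
        subst hdd
        have hpeq : p.1 = p'.1 := by rw [hp1, hp1']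
        have hpe : p = p' := Prod.ext hpeq hpp
        subst hpe
        obtain ⟨hR1, hR2, _⟩ := hR
        obtain ⟨hR1', hR2', _⟩ := hR'
        rw [ih m' p.1 hR1 hR2 hR1' hR2' (fun q hq => hin q (List.mem_cons_of_mem _ hq))
          (fun q hq => hin' q (List.mem_cons_of_mem _ hq)) (hin p (by simp))]
      · exfalso
        subst h1 h2
        exact older_asymm hn hc hc'

end Crest.Agent.TRem
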