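import Crest.Agent.TRem.C1d
import Crest.Agent.TRem.C1e

/-!
# Row 30, C1: non-free edges give small dense configurations (assembly)

Chunk R30-C1.

`Ind_of_Exact`: if `e ∈ E` and `Exact E e (2d+2)` then `Ind (triangles E) tr d e none`: use
`Ind_of_unique_rev`; for two reversed walks `m, m'` of length `< d` with the same last triangle `T` apply
`adm_extend` twice (start: `Adm.base`, length 2; after the first walk length `≤ 2 + (d-1) + 1 = d + 2`;
after the second `≤ 2 d + 2`), then `walk_unique`.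

`partC1`: `𝒮` = all codes `c` with `3 ≤ c.1 ≤ 2d+2`, `Sc c ⊆ allEdges n`, `(Sc c).card = 2 c.1 - 2`
(a finite set: `(Finset.range (2*d+3)).sigma (fun _ => univ)` filtered). For `e ∈ E` non-free,
`Exact E e (2d+2)` fails, so `code_of_list` gives a code `c ∈ 𝒮` with `Sc c ⊆ E`, `rootE c = {e}`
(`3 ≤ c.1`: `V.length ≥ 2` by `Adm.two_le`). The choice `e ↦ c` is injective since `rootE c = {e}`
(`Finset.card_le_card_of_injOn`).
-/

namespace Crest.Agent.TRem

open Finset Crest.CombinatoricsR.TriangleRemoval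

variable {n : ℕ}

theorem Ind_of_Exact (E : Finset (Sym2 (Fin n))) (hE : E ⊆ allEdges n) (e : Sym2 (Fin n))
    (he : e ∈ E) (d : ℕ) (hX : Exact E e (2 * d + 2)) : Ind (triangles E) tr d e none := by
  apply Ind_of_unique_rev
  intro m m' T hm hm' hR hR' hT hT'
  have hd : ¬ e.IsDiag := by
    have := hE he
    simpa [allEdges] using this
  obtain ⟨a, b, rfl⟩ : ∃ a b, e = s(a, b) := by
    induction e using Sym2.ind with
    | _ a b => exact ⟨a, b, rfl⟩
  have hab : a ≠ b := by simpa using hd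
  have hbase : Adm E s(a, b) [b, a] := Adm.base a b hab rfl he
  obtain ⟨V1, hV1, hl1, -, hp1, hT1⟩ := adm_extend E _ _ hbase m hR T hT
  obtain ⟨V2, hV2, hl2, hs2, hp2, hT2⟩ := adm_extend E _ _ hV1 m' hR' T hT'
  have hlen : V2.length ≤ 2 * d + 2 := by
    simp at hl1
    omega
  exact walk_unique hX hV2 hlen m m' T hR hT hR' hT' (fun p hp v hv => hs2 v (hp1 p hp v hv)) hp2 hT2

open scoped Classical in
/-- PART C1 (non-free edges give small dense configurations). -/
theorem partC1 (n d : ℕ) : ∃ (𝒮 : Finset (Code n)) (S : Code n → Finset (Sym2 (Fin n))),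
    (∀ c ∈ 𝒮, 3 ≤ c.1 ∧ c.1 ≤ 2 * d + 2 ∧ S c ⊆ allEdges n ∧ (S c).card = 2 * c.1 - 2) ∧
    (∀ E : Finset (Sym2 (Fin n)), E ⊆ allEdges n →
      (E.filter (fun e => ¬ Ind (triangles E) tr d e none)).card ≤
        (𝒮.filter (fun c => S c ⊆ E)).card) := by
  let U : Finset (Code n) := (Finset.range (2 * d + 3)).sigma (fun v =>
    (Finset.univ : Finset ((Fin v → Fin n) × (Fin v → Fin v) × (Fin v → Fin v) × (Fin v × Fin v))))
  refine ⟨U.filter (fun c => 3 ≤ c.1 ∧ c.1 ≤ 2 * d + 2 ∧ Sc c ⊆ allEdges n ∧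
    (Sc c).card = 2 * c.1 - 2), Sc, ?_, ?_⟩
  · intro c hc
    exact (Finset.mem_filter.1 hc).2
  · intro E hE
    have key : ∀ e ∈ E.filter (fun e => ¬ Ind (triangles E) tr d e none),
        ∃ c : Code n, c ∈ (U.filter (fun c => 3 ≤ c.1 ∧ c.1 ≤ 2 * d + 2 ∧ Sc c ⊆ allEdges n ∧
          (Sc c).card = 2 * c.1 - 2)).filter (fun c => Sc c ⊆ E) ∧ rootE c = {e} := by
      intro e he
      rw [Finset.mem_filter] at he
      obtain ⟨heE, hni⟩ := he
      have hX : ¬ Exact E e (2 * d + 2) := fun h => hni (Ind_of_Exact E hE e heE d h)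
      unfold Exact at hX
      push Not at hX
      obtain ⟨w, V, hV, hw, hlen, α, β, γ, hα, hβ, hγ, h1, h2, h3, h4, h5, h6, -⟩ := hX
      obtain ⟨c, hc1, hc2, hc3, hc4⟩ := code_of_list hV hw hα hβ hγ h1 h2 h3 h4 h5 h6
      have h2' := hV.two_le
      refine ⟨c, ?_, hc4⟩
      rw [Finset.mem_filter, Finset.mem_filter]
      refine ⟨⟨?_, by omega, by omega, hc2.trans hE, hc3⟩, hc2⟩
      rw [Finset.mem_sigma]
      exact ⟨Finset.mem_range.2 (by omega), Finset.mem_univ _⟩
    rcases (E.filter (fun e => ¬ Ind (triangles E) tr d e none)).eq_empty_or_nonempty with h0 | h0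
    · rw [h0]; simp
    haveI : Nonempty (Code n) := by
      obtain ⟨e, he⟩ := h0
      exact ⟨(key e he).choose⟩
    choose! F hF using key
    refine Finset.card_le_card_of_injOn F (fun e he => (hF e he).1) ?_
    intro e he e' he' hee
    have h1 := (hF e he).2
    have h2 := (hF e' he').2
    rw [hee, h2] at h1
    exact (Finset.singleton_injective h1).symm

end Crest.Agent.TRem
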