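import Crest.Agent.TRem.HDefs

/-!
# Row 30, C1a: walks in an abstract hypergraph

Chunk R30-C1a.

A walk from the message `(f, x)` is a list `l` of pairs (hyperedge, next hypervertex) followed by a last
hyperedge `T`. `mem_supp_iff`: by induction on `d` (the first step `t ∈ ch f x` is either the last
hyperedge, `l = []`, or is followed by `g ∈ (tri t).erase f` and a walk from `(g, some t)`).

`Ind_of_unique`: induction on `d` generalizing `f x`. Assume all walks of length `< d + 1` (length of the
list) from `(f,x)` are determined by their last hyperedge.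
 - `Ind d g (some t)`: prepend `(t, g)` to both walks and use `List.cons` injectivity.
 - `t ∉ supp d g (some t)`: otherwise (by `mem_supp_iff`) a walk `l` from `(g, some t)` ends in `t`; then
   `(t,g) :: l` and `[]` are two walks from `(f,x)` ending in `t`.
 - `g ≠ g'`: a common hyperedge gives walks `(t,g) :: l`, `(t,g') :: l'` with the same end.
 - `t ≠ t'`: a common element `t''` of the two sets: four cases (`t'' = t = t'` impossible; `t'' = t` and
   `t'' ∈ supp g' (some t')`: walks `[]` and `(t',g') :: l'`; symmetric; both: `(t,g) :: l`, `(t',g') :: l'`).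

Reversed walks (newest step first) from the root message `(e, none)`: `isR`, `cur`.
`isR_of_isW` by induction on `l` (generalizing `m`): `(p :: l).reverse ++ m = l.reverse ++ (p :: m)`.
-/

namespace Crest.Agent.TRem

open Finset

variable {ι τ : Type} [DecidableEq ι] [DecidableEq τ]

/-- `isW f x l T`: `l` followed by the last hyperedge `T` is a nonbacktracking walk from `(f,x)` -/
def isW (𝒯 : Finset τ) (tri : τ → Finset ι) : ι → Option τ → List (τ × ι) → τ → Prop
  | f, x, [], T => T ∈ ch 𝒯 tri f x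
  | f, x, p :: l, T => p.1 ∈ ch 𝒯 tri f x ∧ p.2 ∈ (tri p.1).erase f ∧ isW 𝒯 tri p.2 (some p.1) l T

theorem mem_supp_iff (𝒯 : Finset τ) (tri : τ → Finset ι) (d : ℕ) :
    ∀ (f : ι) (x : Option τ) (T : τ), T ∈ supp 𝒯 tri d f x ↔
      ∃ l : List (τ × ι), l.length < d ∧ isW 𝒯 tri f x l T := by
  induction d with
  | zero => intro f x T; simp [supp]
  | succ d ih =>
    intro f x T
    simp only [supp, Finset.mem_biUnion, Finset.mem_insert]
    constructor
    · rintro ⟨t, ht, rfl | ⟨g, hg, hT⟩⟩
      · exact ⟨[], by simp, ht⟩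
      · obtain ⟨l, hl, hW⟩ := (ih g (some t) T).1 hT
        exact ⟨(t, g) :: l, by simp; omega, ht, hg, hW⟩
    · rintro ⟨l, hl, hW⟩
      cases l with
      | nil => exact ⟨T, hW, Or.inl rfl⟩
      | cons p l =>
        obtain ⟨h1, h2, h3⟩ := hW
        refine ⟨p.1, h1, Or.inr ⟨p.2, h2, (ih p.2 (some p.1) T).2 ⟨l, ?_, h3⟩⟩⟩
        simp at hl; omega

theorem Ind_of_unique (𝒯 : Finset τ) (tri : τ → Finset ι) (d : ℕ) :
    ∀ (f : ι) (x : Option τ),
      (∀ (l l' : List (τ × ι)) (T : τ), l.length < d → l'.length < d →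
        isW 𝒯 tri f x l T → isW 𝒯 tri f x l' T → l = l') → Ind 𝒯 tri d f x := by
  induction d with
  | zero => intro f x _; simp [Ind]
  | succ d ih =>
    intro f x hU
    refine ⟨?_, ?_, ?_⟩
    · intro t ht g hg
      refine ⟨ih g (some t) ?_, ?_⟩
      · intro l l' T hl hl' hW hW'
        have := hU ((t, g) :: l) ((t, g) :: l') T (by simp; omega) (by simp; omega)
          ⟨ht, hg, hW⟩ ⟨ht, hg, hW'⟩
        exact (List.cons.inj this).2
      · intro hmem
        obtain ⟨l, hl, hW⟩ := (mem_supp_iff 𝒯 tri d g (some t) t).1 hmem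
        have := hU ((t, g) :: l) [] t (by simp; omega) (by simp) ⟨ht, hg, hW⟩ ht
        simp at this
    · intro t ht g hg g' hg' hne
      rw [Finset.disjoint_left]
      intro T hT hT'
      obtain ⟨l, hl, hW⟩ := (mem_supp_iff 𝒯 tri d g (some t) T).1 hT
      obtain ⟨l', hl', hW'⟩ := (mem_supp_iff 𝒯 tri d g' (some t) T).1 hT'
      have := hU ((t, g) :: l) ((t, g') :: l') T (by simp; omega) (by simp; omega)
        ⟨ht, hg, hW⟩ ⟨ht, hg', hW'⟩
      simp at this
      exact hne this.1
    · intro t ht t' ht' hne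
      rw [Finset.disjoint_left]
      intro T hT hT'
      simp only [Finset.mem_biUnion, Finset.mem_insert] at hT hT'
      rcases hT with rfl | ⟨g, hg, hT⟩
      · rcases hT' with h | ⟨g', hg', hT'⟩
        · exact hne h
        · obtain ⟨l', hl', hW'⟩ := (mem_supp_iff 𝒯 tri d g' (some t') T).1 hT'
          have := hU [] ((t', g') :: l') T (by simp) (by simp; omega) ht ⟨ht', hg', hW'⟩
          simp at this
      · obtain ⟨l, hl, hW⟩ := (mem_supp_iff 𝒯 tri d g (some t) T).1 hT
        rcases hT' with rfl | ⟨g', hg', hT'⟩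
        · have := hU ((t, g) :: l) [] T (by simp; omega) (by simp) ⟨ht, hg, hW⟩ ht'
          simp at this
        · obtain ⟨l', hl', hW'⟩ := (mem_supp_iff 𝒯 tri d g' (some t') T).1 hT'
          have := hU ((t, g) :: l) ((t', g') :: l') T (by simp; omega) (by simp; omega)
            ⟨ht, hg, hW⟩ ⟨ht', hg', hW'⟩
          simp at this
          exact hne this.1.1

/-- current message after a reversed walk -/
def cur (e : ι) : List (τ × ι) → ι × Option τ
  | [] => (e, none)
  | p :: _ => (p.2, some p.1)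

/-- reversed walks from `(e, none)` -/
def isR (𝒯 : Finset τ) (tri : τ → Finset ι) (e : ι) : List (τ × ι) → Prop
  | [] => True
  | p :: l => isR 𝒯 tri e l ∧ p.1 ∈ ch 𝒯 tri (cur e l).1 (cur e l).2 ∧
      p.2 ∈ (tri p.1).erase (cur e l).1

theorem isR_of_isW (𝒯 : Finset τ) (tri : τ → Finset ι) (e : ι) (T : τ) :
    ∀ (l m : List (τ × ι)), isR 𝒯 tri e m → isW 𝒯 tri (cur e m).1 (cur e m).2 l T →
      isR 𝒯 tri e (l.reverse ++ m) ∧
        T ∈ ch 𝒯 tri (cur e (l.reverse ++ m)).1 (cur e (l.reverse ++ m)).2 := by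
  intro l
  induction l with
  | nil => intro m hm hW; exact ⟨hm, hW⟩
  | cons p l ih =>
    intro m hm hW
    obtain ⟨h1, h2, h3⟩ := hW
    have e1 : (p :: l).reverse ++ m = l.reverse ++ (p :: m) := by simp
    rw [e1]
    exact ih (p :: m) ⟨hm, h1, h2⟩ h3

theorem Ind_of_unique_rev (𝒯 : Finset τ) (tri : τ → Finset ι) (d : ℕ) (e : ι)
    (hU : ∀ (m m' : List (τ × ι)) (T : τ), m.length < d → m'.length < d →
      isR 𝒯 tri e m → isR 𝒯 tri e m' →
      T ∈ ch 𝒯 tri (cur e m).1 (cur e m).2 → T ∈ ch 𝒯 tri (cur e m').1 (cur e m').2 → m = m') :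
    Ind 𝒯 tri d e none := by
  apply Ind_of_unique
  intro l l' T hl hl' hW hW'
  obtain ⟨h1, h2⟩ := isR_of_isW 𝒯 tri e T l [] trivial hW
  obtain ⟨h1', h2'⟩ := isR_of_isW 𝒯 tri e T l' [] trivial hW'
  have := hU (l.reverse ++ []) (l'.reverse ++ []) T (by simpa using hl) (by simpa using hl')
    h1 h1' h2 h2'
  simpa using this

end Crest.Agent.TRem
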