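import Crest.Agent.TRem.HDefs
import Crest.Agent.TRem.GDefs

/-!
# Row 30, C1b0: admissible vertex lists, the relation `older`

Chunk R30-C1b0.

`Adm E e V`: `V` (newest vertex first) starts (at its end) with the two endpoints of `e ∈ E`, and every
further vertex has at least two distinct older neighbours.  `older V x w`: `x` occurs after `w` in `V`
(`x` is older than `w`).  All statements below are elementary list facts (induction on `Adm`, or splitting
`V = l₁ ++ w :: l₂`, `List.append_eq_append_iff`, `List.Nodup`).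
-/

namespace Crest.Agent.TRem

open Finset Crest.CombinatoricsR.TriangleRemoval

variable {n : ℕ}

/-- admissible lists, newest vertex first -/
inductive Adm (E : Finset (Sym2 (Fin n))) (e : Sym2 (Fin n)) : List (Fin n) → Prop
  | base (a b : Fin n) : a ≠ b → s(a, b) = e → e ∈ E → Adm E e [b, a]
  | step (w : Fin n) (V : List (Fin n)) (a b : Fin n) : Adm E e V → w ∉ V → a ∈ V → b ∈ V → a ≠ b →
      s(w, a) ∈ E → s(w, b) ∈ E → Adm E e (w :: V)

/-- `x` is older than `w` in the list `V` (newest first) -/
def older (V : List (Fin n)) (x w : Fin n) : Prop := ∃ l₁ l₂ : List (Fin n), V = l₁ ++ w :: l₂ ∧ x ∈ l₂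

private theorem older_cons {V : List (Fin n)} {x w v : Fin n} (h : older V x w) :
    older (v :: V) x w := by
  obtain ⟨l₁, l₂, h1, h2⟩ := h
  exact ⟨v :: l₁, l₂, by rw [h1]; rfl, h2⟩

private theorem idx_lt_of_older {V : List (Fin n)} (hV : V.Nodup) {x w : Fin n}
    (h : older V x w) : V.idxOf w < V.idxOf x := by
  obtain ⟨l₁, l₂, rfl, h2⟩ := h
  rw [List.nodup_append] at hV
  obtain ⟨_, h4, h5⟩ := hV
  have hw : w ∉ l₁ := fun hh => h5 w hh w (List.mem_cons_self) rfl
  have hx : x ∉ l₁ := fun hh => h5 x hh x (List.mem_cons_of_mem _ h2) rfl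
  have hxw : x ≠ w := by
    rintro rfl
    exact (List.nodup_cons.mp h4).1 h2
  rw [List.idxOf_append_of_notMem hw, List.idxOf_append_of_notMem hx, List.idxOf_cons_self,
    List.idxOf_cons_ne _ (Ne.symm hxw)]
  omega

private theorem older_of_idx_lt {V : List (Fin n)} (hV : V.Nodup) {x w : Fin n} (hx : x ∈ V)
    (hw : w ∈ V) (h : V.idxOf w < V.idxOf x) : older V x w := by
  obtain ⟨l₁, l₂, rfl⟩ := List.append_of_mem hw
  refine ⟨l₁, l₂, rfl, ?_⟩
  rw [List.nodup_append] at hV
  obtain ⟨_, h4, h5⟩ := hV
  have hw' : w ∉ l₁ := fun hh => h5 w hh w (List.mem_cons_self) rfl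
  rw [List.idxOf_append_of_notMem hw', List.idxOf_cons_self] at h
  rw [List.mem_append, List.mem_cons] at hx
  rcases hx with hx | hx | hx
  · have h6 : List.idxOf x (l₁ ++ w :: l₂) < l₁.length := by
      rw [List.idxOf_append_of_mem hx]
      exact List.idxOf_lt_length_of_mem hx
    omega
  · subst hx
    rw [List.idxOf_append_of_notMem hw', List.idxOf_cons_self] at h
    omega
  · exact hx

theorem Adm.nodup {E : Finset (Sym2 (Fin n))} {e : Sym2 (Fin n)} {V : List (Fin n)}
    (h : Adm E e V) : V.Nodup := by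
  induction h with
  | base a b hab _ _ =>
    simp [hab.symm]
  | step w V a b _ hw _ _ _ _ _ ih =>
    exact List.nodup_cons.mpr ⟨hw, ih⟩

theorem Adm.two_le {E : Finset (Sym2 (Fin n))} {e : Sym2 (Fin n)} {V : List (Fin n)}
    (h : Adm E e V) : 2 ≤ V.length := by
  induction h with
  | base a b hab _ _ => simp
  | step w V a b _ hw _ _ _ _ _ ih =>
    rw [List.length_cons]; omega

/-- a suffix containing two distinct vertices is admissible -/
theorem Adm.suffix {E : Finset (Sym2 (Fin n))} {e : Sym2 (Fin n)} {V V' : List (Fin n)}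
    (h : Adm E e V) (hs : V' <:+ V) {a b : Fin n} (ha : a ∈ V') (hb : b ∈ V') (hab : a ≠ b) :
    Adm E e V' := by
  induction h with
  | base a' b' hab' he hE =>
    rcases List.suffix_cons_iff.mp hs with h1 | h1
    · rw [h1]; exact Adm.base a' b' hab' he hE
    · rcases List.suffix_cons_iff.mp h1 with h2 | h2
      · rw [h2, List.mem_singleton] at ha hb
        exact absurd (ha.trans hb.symm) hab
      · rw [List.suffix_nil] at h2
        rw [h2] at ha
        exact absurd ha (List.not_mem_nil)
  | step w V c d hV hw hc hd hcd h3 h4 ih =>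
    rcases List.suffix_cons_iff.mp hs with h1 | h1
    · rw [h1]; exact Adm.step w V c d hV hw hc hd hcd h3 h4
    · exact ih h1

/-- the endpoints of the root edge are in the list, and older than everything else -/
theorem Adm.root {E : Finset (Sym2 (Fin n))} {e : Sym2 (Fin n)} {V : List (Fin n)}
    (h : Adm E e V) {a b : Fin n} (he : e = s(a, b)) :
    a ∈ V ∧ b ∈ V ∧ ∀ w ∈ V, w ≠ a → w ≠ b → older V a w ∧ older V b w := by
  induction h with
  | base a' b' hab' he' hE =>
    rw [← he'] at he
    rw [Sym2.eq_iff] at he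
    rcases he with ⟨rfl, rfl⟩ | ⟨rfl, rfl⟩
    · refine ⟨by simp, by simp, ?_⟩
      intro w hw h1 h2
      simp only [List.mem_cons, List.not_mem_nil, or_false] at hw
      rcases hw with hw | hw
      · exact absurd hw h2
      · exact absurd hw h1
    · refine ⟨by simp, by simp, ?_⟩
      intro w hw h1 h2
      simp only [List.mem_cons, List.not_mem_nil, or_false] at hw
      rcases hw with hw | hw
      · exact absurd hw h1
      · exact absurd hw h2
  | step w V c d hV hw hc hd hcd h3 h4 ih =>
    obtain ⟨h5, h6, h7⟩ := ih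
    refine ⟨List.mem_cons_of_mem _ h5, List.mem_cons_of_mem _ h6, ?_⟩
    intro v hv h8 h9
    rcases List.mem_cons.mp hv with hv | hv
    · subst hv
      exact ⟨⟨[], V, rfl, h5⟩, ⟨[], V, rfl, h6⟩⟩
    · exact ⟨older_cons (h7 v hv h8 h9).1, older_cons (h7 v hv h8 h9).2⟩

theorem older_mem {V : List (Fin n)} {x w : Fin n} (h : older V x w) : x ∈ V ∧ w ∈ V := by
  obtain ⟨l₁, l₂, rfl, h2⟩ := h
  exact ⟨List.mem_append_right _ (List.mem_cons_of_mem _ h2),
    List.mem_append_right _ (List.mem_cons_self)⟩

theorem older_asymm {V : List (Fin n)} (hV : V.Nodup) {x w : Fin n} (h : older V x w) :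
    ¬ older V w x := by
  intro h'
  have h1 := idx_lt_of_older hV h
  have h2 := idx_lt_of_older hV h'
  omega

theorem older_trans {V : List (Fin n)} (hV : V.Nodup) {x y z : Fin n} (h : older V x y)
    (h' : older V y z) : older V x z := by
  have h1 := idx_lt_of_older hV h
  have h2 := idx_lt_of_older hV h'
  exact older_of_idx_lt hV (older_mem h).1 (older_mem h').2 (by omega)

theorem older_total {V : List (Fin n)} {x w : Fin n} (hx : x ∈ V) (hw : w ∈ V) (hxw : x ≠ w) :
    older V x w ∨ older V w x := by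
  obtain ⟨l₁, l₂, rfl⟩ := List.append_of_mem hw
  rw [List.mem_append, List.mem_cons] at hx
  rcases hx with hx | hx | hx
  · right
    obtain ⟨m₁, m₂, rfl⟩ := List.append_of_mem hx
    exact ⟨m₁, m₂ ++ w :: l₂, by simp, by simp⟩
  · exact absurd hx hxw
  · left
    exact ⟨l₁, l₂, rfl, hx⟩

end Crest.Agent.TRem
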