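import Crest.Agent.TRem.C1a
import Crest.Agent.TRem.C1b0
import Crest.Agent.TRem.Bridge

/-!
# Row 30, C1b: structure of triangles; extension of admissible lists along a walk

Chunk R30-C1b.

* `tri_struct`: a triangle `t ∈ triangles E` containing the edge `f ∈ tr t` is `{a,b,w}`, `f = s(a,b)`.
* `tri_erase`: the other two edges of `{a,b,w}` are `s(w,a)`, `s(w,b)`.
* `adm_extend`: given `Adm E e V`, a reversed walk `m` and a last triangle `T`, one can add at most
  `m.length + 1` vertices to `V` such that all triangles of the walk and `T` are inside the new list.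
  Induction on `m` (generalizing `T`): the current edge `f = (cur e m).1 = s(a,b)` has both endpoints in the
  current list (for `m = []` it is `e`, use `Adm.root`; for `m = p :: m'` use the induction hypothesis for
  `(m', p.1)`, `p.2 ∈ tr p.1`), the next triangle is `{a,b,w}`; if `w` is already in the list do nothing,
  otherwise use `Adm.step w V a b`.
-/

namespace Crest.Agent.TRem

open Finset Crest.CombinatoricsR.TriangleRemoval

variable {n : ℕ}

private theorem C1b_third {t : Finset (Fin n)} (ht : t.card = 3) {a b : Fin n} (ha : a ∈ t) (hb : b ∈ t)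
    (hab : a ≠ b) : ∃ w : Fin n, w ≠ a ∧ w ≠ b ∧ t = {a, b, w} := by
  classical
  have hsub : ({a, b} : Finset (Fin n)) ⊆ t := by
    intro x hx
    rw [Finset.mem_insert, Finset.mem_singleton] at hx
    rcases hx with rfl | rfl
    · exact ha
    · exact hb
  have hcd : (t \ {a, b}).card = 1 := by
    rw [Finset.card_sdiff_of_subset hsub, ht, Finset.card_pair hab]
  obtain ⟨w, hw⟩ := Finset.card_eq_one.mp hcd
  have hwT : w ∈ t ∧ w ∉ ({a, b} : Finset (Fin n)) := by
    rw [← Finset.mem_sdiff, hw]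
    exact Finset.mem_singleton_self w
  refine ⟨w, ?_, ?_, ?_⟩
  · rintro rfl
    exact hwT.2 (by simp)
  · rintro rfl
    exact hwT.2 (by simp)
  · have : t = {a, b} ∪ (t \ {a, b}) := (Finset.union_sdiff_of_subset hsub).symm
    rw [this, hw]
    ext x
    simp

private theorem C1b_mem {t : Finset (Fin n)} {a b : Fin n} (h : s(a, b) ∈ tr t) :
    a ∈ t ∧ b ∈ t ∧ a ≠ b := by
  obtain ⟨u, hu, v, hv, huv, h1⟩ := (mem_tr t s(a, b)).mp h
  rw [Sym2.eq_iff] at h1
  rcases h1 with ⟨rfl, rfl⟩ | ⟨rfl, rfl⟩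
  · exact ⟨hu, hv, huv⟩
  · exact ⟨hv, hu, huv.symm⟩

theorem tri_struct {E : Finset (Sym2 (Fin n))} {t : Finset (Fin n)} (ht : t ∈ triangles E)
    {f : Sym2 (Fin n)} (hf : f ∈ tr t) :
    ∃ a b w : Fin n, f = s(a, b) ∧ a ≠ b ∧ w ≠ a ∧ w ≠ b ∧ t = {a, b, w} ∧
      s(a, b) ∈ E ∧ s(w, a) ∈ E ∧ s(w, b) ∈ E := by
  obtain ⟨a, ha, b, hb, hab, rfl⟩ := (mem_tr t f).mp hf
  have ht' := Finset.mem_filter.mp ht
  have hc : t.card = 3 := (Finset.mem_powersetCard.mp ht'.1).2
  obtain ⟨w, hwa, hwb, rfl⟩ := C1b_third hc ha hb hab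
  have hw : w ∈ ({a, b, w} : Finset (Fin n)) := by simp
  exact ⟨a, b, w, rfl, hab, hwa, hwb, rfl, ht'.2 a ha b hb hab, ht'.2 w hw a ha hwa, ht'.2 w hw b hb hwb⟩

theorem tri_third {t : Finset (Fin n)} (ht : t.card = 3) {a b : Fin n} (h : s(a, b) ∈ tr t) :
    ∃ w : Fin n, a ≠ b ∧ w ≠ a ∧ w ≠ b ∧ t = {a, b, w} := by
  obtain ⟨ha, hb, hab⟩ := C1b_mem h
  obtain ⟨w, h1, h2, h3⟩ := C1b_third ht ha hb hab
  exact ⟨w, hab, h1, h2, h3⟩

theorem tri_erase {a b w : Fin n} (hab : a ≠ b) (hwa : w ≠ a) (hwb : w ≠ b) {g : Sym2 (Fin n)}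
    (hg : g ∈ (tr ({a, b, w} : Finset (Fin n))).erase s(a, b)) : g = s(w, a) ∨ g = s(w, b) := by
  rw [Finset.mem_erase] at hg
  obtain ⟨hne, hg⟩ := hg
  obtain ⟨u, hu, v, hv, huv, rfl⟩ := (mem_tr _ g).mp hg
  simp only [Finset.mem_insert, Finset.mem_singleton] at hu hv
  rcases hu with rfl | rfl | rfl <;> rcases hv with rfl | rfl | rfl
  · exact absurd rfl huv
  · exact absurd rfl hne
  · exact Or.inl Sym2.eq_swap
  · exact absurd Sym2.eq_swap hne
  · exact absurd rfl huv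
  · exact Or.inr Sym2.eq_swap
  · exact Or.inl rfl
  · exact Or.inr rfl
  · exact absurd rfl huv

private theorem C1b_add (E : Finset (Sym2 (Fin n))) (e : Sym2 (Fin n)) (V : List (Fin n))
    (hV : Adm E e V) (T : Finset (Fin n)) (hT : T ∈ triangles E) (f : Sym2 (Fin n)) (hf : f ∈ tr T)
    (hfV : ∀ a b : Fin n, f = s(a, b) → a ∈ V ∧ b ∈ V) :
    ∃ V' : List (Fin n), Adm E e V' ∧ V'.length ≤ V.length + 1 ∧ (∀ v ∈ V, v ∈ V') ∧
      (∀ v ∈ T, v ∈ V') := by
  obtain ⟨a, b, w, rfl, hab, hwa, hwb, rfl, h1, h2, h3⟩ := tri_struct hT hf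
  obtain ⟨ha, hb⟩ := hfV a b rfl
  by_cases hw : w ∈ V
  · refine ⟨V, hV, by omega, fun v hv => hv, ?_⟩
    intro v hv
    simp only [Finset.mem_insert, Finset.mem_singleton] at hv
    rcases hv with rfl | rfl | rfl
    · exact ha
    · exact hb
    · exact hw
  · refine ⟨w :: V, Adm.step w V a b hV hw ha hb hab h2 h3, by simp, fun v hv => List.mem_cons_of_mem _ hv, ?_⟩
    intro v hv
    simp only [Finset.mem_insert, Finset.mem_singleton] at hv
    rcases hv with rfl | rfl | rfl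
    · exact List.mem_cons_of_mem _ ha
    · exact List.mem_cons_of_mem _ hb
    · exact List.mem_cons_self

theorem adm_extend (E : Finset (Sym2 (Fin n))) (e : Sym2 (Fin n)) (V : List (Fin n))
    (hV : Adm E e V) (m : List (Finset (Fin n) × Sym2 (Fin n)))
    (hm : isR (triangles E) tr e m) (T : Finset (Fin n))
    (hT : T ∈ ch (triangles E) tr (cur e m).1 (cur e m).2) :
    ∃ V' : List (Fin n), Adm E e V' ∧ V'.length ≤ V.length + m.length + 1 ∧ (∀ v ∈ V, v ∈ V') ∧
      (∀ p ∈ m, ∀ v ∈ p.1, v ∈ V') ∧ (∀ v ∈ T, v ∈ V') := by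
  induction m generalizing T with
  | nil =>
    unfold ch at hT
    rw [Finset.mem_filter] at hT
    obtain ⟨hT1, hT2, _⟩ := hT
    obtain ⟨V', h1, h2, h3, h4⟩ := C1b_add E e V hV T hT1 e hT2
      (fun a b h => ⟨(hV.root h).1, (hV.root h).2.1⟩)
    exact ⟨V', h1, by simpa using h2, h3, by simp, h4⟩
  | cons p m ih =>
    obtain ⟨hm1, hm2, hm3⟩ := hm
    obtain ⟨V'', g1, g2, g3, g4, g5⟩ := ih hm1 p.1 hm2
    unfold ch at hT
    rw [Finset.mem_filter] at hT
    obtain ⟨hT1, hT2, _⟩ := hT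
    have hp : p.2 ∈ tr p.1 := Finset.mem_of_mem_erase hm3
    obtain ⟨V', h1, h2, h3, h4⟩ := C1b_add E e V'' g1 T hT1 p.2 hT2 (by
      intro a b h
      rw [h] at hp
      obtain ⟨ha, hb, _⟩ := C1b_mem hp
      exact ⟨g5 a ha, g5 b hb⟩)
    refine ⟨V', h1, ?_, fun v hv => h3 v (g3 v hv), ?_, h4⟩
    · simp only [List.length_cons]
      omega
    · intro q hq v hv
      rcases List.mem_cons.mp hq with rfl | hq
      · exact h3 v (g5 v hv)
      · exact h3 v (g4 q hq v hv)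

end Crest.Agent.TRem
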