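import Crest.Agent.TRem.C1b

/-!
# Row 30, C1c: in an exact configuration walks are determined by their last triangle

Chunk R30-C1c (this file: (1) and (2); (3) is in C1e.lean).

`Exact E e k`: no admissible list `V` with `V.length + 1 ≤ k` has an outside vertex `w` with three
distinct `E`-neighbours in `V`.

(1) `three_older`: `Exact E e k`, `Adm E e V`, `V.length ≤ k`: a vertex `w` cannot have three distinct older
neighbours. (`V = l₁ ++ w :: l₂`, `a, b, c ∈ l₂` [use `Nodup` to see that the decomposition is the same for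
the three], `Adm E e l₂` by `Adm.suffix`, `w ∉ l₂` by `Nodup`, `l₂.length + 1 ≤ k`.)

(2) `walk_newest` (induction on `m`): for a reversed walk `m` with all triangles inside `V`, and
`T ∈ ch (cur e m)` inside `V`: `(cur e m).1 = s(a,b)`, `T = {a,b,w}` with `a`, `b` older than `w`.
 `m = []`: `(cur e m).1 = e`; `tri_third` + `Adm.root`.
 `m = p :: m'`: the induction hypothesis for `(m', p.1)` gives `(cur e m').1 = s(a,b)`, `p.1 = {a,b,w}`,
 `a`, `b` older than `w`; by `tri_erase` `p.2 = s(w,a)` or `s(w,b)`; say `s(w,c)`, `c' ` the other one.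
 `T ∋ p.2`, `T ≠ p.1`: `T = {w, c, x}` with `x ≠ w, c`, and `x ≠ c'` (else `T = p.1`). If `x` were older than
 `w`, then `w` would have the three older neighbours `a, b, x` (`s(w,x) ∈ E` as `T ∈ triangles E`):
 contradiction with (1). So `w` is older than `x` (`older_total`), and `c` older than `w` older than `x`.

(3) `walk_unique` (induction on `m` generalizing `m' T`): first by (2) applied to `m` and to `m'`:
`T = {a,b,w} = {a',b',w'}`, with `w`, `w'` both the newest element of `T`, so `w = w'` (`older_asymm`) and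
`s(a,b) = s(a',b')`, i.e. `(cur e m).1 = (cur e m').1`.
 `m = [] = m'`: done.
 `m = []`, `m' = p :: m₁`: then `p.2 = e`. By (2) for `(m₁, p.1)`: `p.1 = {a₂,b₂,w₂}`, `a₂,b₂` older than `w₂`,
 `p.2 = s(w₂, c)` with `c ∈ {a₂,b₂}`; let `c'` be the other one. `Adm.root` (with `e = s(w₂,c)`): `w₂` is older
 than `c'`; but `c'` is older than `w₂`, contradiction `older_asymm`. Symmetric case the same.
 `m = p :: m₁`, `m' = p' :: m₁'`: `p.2 = p'.2`. By (2): `p.1 = {a₁,b₁,w₁}`, `p.2 = s(w₁,c₁)`, `c₁` older than `w₁`;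
 `p'.1 = {a₂,b₂,w₂}`, `p'.2 = s(w₂,c₂)`. Hence `w₁ = w₂` (otherwise `w₁ = c₂`, `w₂ = c₁`, contradicting
 `older_asymm`). By (1) the two older neighbour pairs agree: `{a₁,b₁} = {a₂,b₂}`, so `p.1 = p'.1`, `p = p'`.
 Induction hypothesis with `T := p.1`.
-/

namespace Crest.Agent.TRem

open Finset Crest.CombinatoricsR.TriangleRemoval

variable {n : ℕ}

def Exact (E : Finset (Sym2 (Fin n))) (e : Sym2 (Fin n)) (k : ℕ) : Prop :=
  ∀ (w : Fin n) (V : List (Fin n)), Adm E e V → w ∉ V → V.length + 1 ≤ k →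
    ∀ a b c : Fin n, a ∈ V → b ∈ V → c ∈ V → a ≠ b → a ≠ c → b ≠ c →
      s(w, a) ∈ E → s(w, b) ∈ E → s(w, c) ∈ E → False

private theorem split_unique {α : Type} {V l₁ l₂ m₁ m₂ : List α} {w : α} (hV : V.Nodup)
    (h : V = l₁ ++ w :: l₂) (h' : V = m₁ ++ w :: m₂) : l₂ = m₂ := by
  have key : ∀ {l₁ l₂ m₁ m₂ : List α}, V = l₁ ++ w :: l₂ → V = m₁ ++ w :: m₂ →
      ∀ as : List α, m₁ = l₁ ++ as → w :: l₂ = as ++ w :: m₂ → l₂ = m₂ := by
    intro l₁ l₂ m₁ m₂ h _ as _ h2
    cases as with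
    | nil =>
      simp only [List.nil_append, List.cons.injEq, true_and] at h2
      exact h2
    | cons x as =>
      exfalso
      simp only [List.cons_append, List.cons.injEq] at h2
      rw [h] at hV
      have := (List.nodup_cons.1 (List.nodup_append.1 hV).2.1).1
      apply this
      rw [h2.2]
      simp
  rcases List.append_eq_append_iff.1 (h.symm.trans h') with ⟨as, h1, h2⟩ | ⟨as, h1, h2⟩
  · exact key h h' as h1 h2
  · exact (key h' h as h1 h2).symm

theorem three_older {E : Finset (Sym2 (Fin n))} {e : Sym2 (Fin n)} {k : ℕ} (hX : Exact E e k)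
    {V : List (Fin n)} (hV : Adm E e V) (hk : V.length ≤ k) {w a b c : Fin n}
    (ha : older V a w) (hb : older V b w) (hc : older V c w) (hab : a ≠ b) (hac : a ≠ c)
    (hbc : b ≠ c) (h1 : s(w, a) ∈ E) (h2 : s(w, b) ∈ E) (h3 : s(w, c) ∈ E) : False := by
  obtain ⟨l₁, l₂, hl, ha⟩ := ha
  obtain ⟨m₁, m₂, hm, hb⟩ := hb
  obtain ⟨n₁, n₂, hn, hc⟩ := hc
  rw [← split_unique hV.nodup hl hm] at hb
  rw [← split_unique hV.nodup hl hn] at hc
  have hs : l₂ <:+ V := ⟨l₁ ++ [w], by rw [hl]; simp⟩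
  have hA := hV.suffix hs ha hb hab
  have hw : w ∉ l₂ := by
    have hn' := hV.nodup
    rw [hl] at hn'
    exact (List.nodup_cons.1 (List.nodup_append.1 hn').2.1).1
  refine hX w l₂ hA hw ?_ a b c ha hb hc hab hac hbc h1 h2 h3
  have : V.length = l₁.length + (l₂.length + 1) := by rw [hl]; simp
  omega

private theorem newest_step {E : Finset (Sym2 (Fin n))} {e : Sym2 (Fin n)} {k : ℕ} (hX : Exact E e k)
    {V : List (Fin n)} (hV : Adm E e V) (hk : V.length ≤ k) {P T : Finset (Fin n)} {w c c' : Fin n}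
    (hP : P = {c, c', w}) (hcc : c ≠ c') (hc : older V c w) (hc' : older V c' w)
    (h1 : s(w, c) ∈ E) (h2 : s(w, c') ∈ E) (hT : T ∈ ch (triangles E) tr s(w, c) (some P))
    (hTV : ∀ v ∈ T, v ∈ V) :
    ∃ a b x : Fin n, s(w, c) = s(a, b) ∧ a ≠ b ∧ T = {a, b, x} ∧ older V a x ∧ older V b x ∧
        s(x, a) ∈ E ∧ s(x, b) ∈ E := by
  unfold ch at hT
  rw [Finset.mem_filter] at hT
  obtain ⟨hTt, hTf, hTP⟩ := hT
  obtain ⟨a, b, x, hab', hab, hxa, hxb, hTe, -, hE1, hE2⟩ := tri_struct hTt hTf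
  obtain ⟨hwc, hxw, hxc, hTe', hE1', hE2'⟩ : w ≠ c ∧ x ≠ w ∧ x ≠ c ∧ T = {w, c, x} ∧
      s(x, w) ∈ E ∧ s(x, c) ∈ E := by
    rw [Sym2.eq_iff] at hab'
    rcases hab' with ⟨rfl, rfl⟩ | ⟨rfl, rfl⟩
    · exact ⟨hab, hxa, hxb, hTe, hE1, hE2⟩
    · refine ⟨hab.symm, hxb, hxa, ?_, hE2, hE1⟩
      rw [hTe]
      ext y
      simp only [Finset.mem_insert, Finset.mem_singleton]
      tauto
  have hxc' : x ≠ c' := by
    rintro rfl
    apply hTP
    rw [hTe', hP]
    congr 1
    ext y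
    simp only [Finset.mem_insert, Finset.mem_singleton]
    tauto
  have hxV : x ∈ V := hTV x (by rw [hTe']; simp)
  have hwV : w ∈ V := hTV w (by rw [hTe']; simp)
  rcases older_total hxV hwV hxw with h | h
  · exact (three_older hX hV hk hc hc' h hcc hxc.symm hxc'.symm h1 h2
      (by rw [Sym2.eq_swap]; exact hE1')).elim
  · exact ⟨w, c, x, rfl, hwc, hTe', h, older_trans hV.nodup hc h, hE1', hE2'⟩

theorem walk_newest {E : Finset (Sym2 (Fin n))} {e : Sym2 (Fin n)} {k : ℕ} (hX : Exact E e k)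
    {V : List (Fin n)} (hV : Adm E e V) (hk : V.length ≤ k) :
    ∀ (m : List (Finset (Fin n) × Sym2 (Fin n))) (T : Finset (Fin n)),
      isR (triangles E) tr e m → T ∈ ch (triangles E) tr (cur e m).1 (cur e m).2 →
      (∀ p ∈ m, ∀ v ∈ p.1, v ∈ V) → (∀ v ∈ T, v ∈ V) →
      ∃ a b w : Fin n, (cur e m).1 = s(a, b) ∧ a ≠ b ∧ T = {a, b, w} ∧ older V a w ∧ older V b w ∧
        s(w, a) ∈ E ∧ s(w, b) ∈ E := by
  intro m
  induction m with
  | nil =>
    intro T _ hT _ hTV
    simp only [cur] at hT ⊢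
    unfold ch at hT
    rw [Finset.mem_filter] at hT
    obtain ⟨hTt, hTf, -⟩ := hT
    obtain ⟨a, b, w, he, hab, hwa, hwb, hTe, -, hE1, hE2⟩ := tri_struct hTt hTf
    obtain ⟨-, -, hr⟩ := hV.root he
    have := hr w (hTV w (by rw [hTe]; simp)) hwa hwb
    exact ⟨a, b, w, he, hab, hTe, this.1, this.2, hE1, hE2⟩
  | cons p m ih =>
    intro T hm hT hmV hTV
    obtain ⟨hm', hp1, hp2⟩ := hm
    obtain ⟨a, b, w, hcur, hab, hpe, haw, hbw, hE1, hE2⟩ :=
      ih p.1 hm' hp1 (fun q hq => hmV q (List.mem_cons_of_mem _ hq)) (hmV p (by simp))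
    have hwa : w ≠ a := by
      rintro rfl
      exact older_asymm hV.nodup haw haw
    have hwb : w ≠ b := by
      rintro rfl
      exact older_asymm hV.nodup hbw hbw
    rw [hcur, hpe] at hp2
    simp only [cur] at hT ⊢
    rcases tri_erase hab hwa hwb hp2 with h | h
    · rw [h] at hT ⊢
      exact newest_step hX hV hk hpe hab haw hbw hE1 hE2 hT hTV
    · rw [h] at hT ⊢
      refine newest_step hX hV hk (c := b) (c' := a) ?_ hab.symm hbw haw hE2 hE1 hT hTV
      rw [hpe]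
      ext y
      simp only [Finset.mem_insert, Finset.mem_singleton]
      tauto

end Crest.Agent.TRem
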