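import Crest.Agent.TRem.HDefs

/-!
# Row 30, C2: local volume

Chunk R30-C2.

`ball m e` = hypervertices at distance `≤ m` (distance one = common hyperedge).
* `mem_ball_succ`: `g ∈ ball (m+1) e ↔ ∃ f ∈ ball m e, g = f ∨ ∃ t ∈ 𝒯, f ∈ tri t ∧ g ∈ tri t`.
* `ball_trans`: `f ∈ ball m e`, `g ∈ ball k f` ⟹ `g ∈ ball (m + k) e` (induction on `k`).
* `ball_symm` (induction on `m`, using `ball_trans` with `1 + m`).
* `ball_card`: all in `A₀`, and `|ball (m+1) e| ≤ ∑_{f ∈ ball m e} (1 + 2 deg f) ≤ |ball m e| * 3B`, because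
  `{f} ∪ ⋃_{t ∋ f} tri t = {f} ∪ ⋃_{t ∋ f} (tri t).erase f` and `((tri t).erase f).card = 2`.
* `supp_ball`: `t ∈ supp d f x` ⟹ `tri t ⊆ ball d f` (induction on `d` generalizing `f x`; for `t ∈ ch f x`:
  `tri t ⊆ ball 1 f ⊆ ball (d+1) f`; for `t ∈ supp d g (some t')`, `g ∈ tri t' ∋ f`: `g ∈ ball 1 f`, `ball_trans`).
  Also `t ∈ supp d f x → t ∈ 𝒯`.
* final: a common hyperedge `t` of the two supports, any `f ∈ tri t`: `f ∈ ball d e`, `f ∈ ball d e'`, so
  `e' ∈ ball (2 * d) e`, whose size is `≤ (3B)^(2d) ≤ (3B)^(2d+1)`.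
-/

namespace Crest.Agent.TRem

open Finset

variable {ι τ : Type} [DecidableEq ι] [DecidableEq τ]

/-- closed ball of radius `m` -/
def ball (𝒯 : Finset τ) (tri : τ → Finset ι) : ℕ → ι → Finset ι
  | 0, e => {e}
  | m + 1, e => (ball 𝒯 tri m e).biUnion
      (fun f => insert f ((𝒯.filter (fun t => f ∈ tri t)).biUnion tri))

theorem mem_ball_succ (𝒯 : Finset τ) (tri : τ → Finset ι) (m : ℕ) (e g : ι) :
    g ∈ ball 𝒯 tri (m + 1) e ↔
      ∃ f ∈ ball 𝒯 tri m e, g = f ∨ ∃ t ∈ 𝒯, f ∈ tri t ∧ g ∈ tri t := by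
  simp only [ball, mem_biUnion, mem_insert, mem_filter, and_assoc]

theorem ball_mono (𝒯 : Finset τ) (tri : τ → Finset ι) (e : ι) {m k : ℕ} (h : m ≤ k) :
    ball 𝒯 tri m e ⊆ ball 𝒯 tri k e := by
  induction h with
  | refl => exact Subset.refl _
  | step _ ih => exact fun g hg => (mem_ball_succ 𝒯 tri _ e g).2 ⟨g, ih hg, Or.inl rfl⟩

theorem ball_trans (𝒯 : Finset τ) (tri : τ → Finset ι) {m k : ℕ} {e f g : ι}
    (h : f ∈ ball 𝒯 tri m e) (h' : g ∈ ball 𝒯 tri k f) : g ∈ ball 𝒯 tri (m + k) e := by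
  induction k generalizing g with
  | zero =>
    simp only [ball, mem_singleton] at h'
    subst h'
    exact h
  | succ k ih =>
    rw [mem_ball_succ] at h'
    obtain ⟨f', hf', hg⟩ := h'
    rw [← Nat.add_assoc, mem_ball_succ]
    exact ⟨f', ih hf', hg⟩

theorem ball_symm (𝒯 : Finset τ) (tri : τ → Finset ι) {m : ℕ} {e f : ι}
    (h : f ∈ ball 𝒯 tri m e) : e ∈ ball 𝒯 tri m f := by
  induction m generalizing f with
  | zero =>
    simp only [ball, mem_singleton] at h ⊢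
    exact h.symm
  | succ m ih =>
    rw [mem_ball_succ] at h
    obtain ⟨f', hf', hf⟩ := h
    have h1 : f' ∈ ball 𝒯 tri (0 + 1) f := by
      rw [mem_ball_succ]
      refine ⟨f, by simp [ball], ?_⟩
      rcases hf with hf | ⟨t, ht, h1, h2⟩
      · exact Or.inl hf.symm
      · exact Or.inr ⟨t, ht, h2, h1⟩
    have h2 := ball_trans 𝒯 tri h1 (ih hf')
    have h3 : 0 + 1 + m = m + 1 := by omega
    rw [h3] at h2
    exact h2

theorem ball_card (𝒯 : Finset τ) (tri : τ → Finset ι) (A₀ : Finset ι)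
    (h3 : ∀ t ∈ 𝒯, (tri t).card = 3) (hA : ∀ t ∈ 𝒯, tri t ⊆ A₀) (B : ℝ) (hB : 1 ≤ B)
    (hdeg : ∀ e ∈ A₀, dg 𝒯 tri e ≤ B) (m : ℕ) (e : ι) (he : e ∈ A₀) :
    ball 𝒯 tri m e ⊆ A₀ ∧ ((ball 𝒯 tri m e).card : ℝ) ≤ (3 * B) ^ m := by
  induction m with
  | zero => simp [ball, he]
  | succ m ih =>
    obtain ⟨ih1, ih2⟩ := ih
    refine ⟨fun g hg => ?_, ?_⟩
    · rw [mem_ball_succ] at hg
      obtain ⟨f, hf, hg⟩ := hg
      rcases hg with rfl | ⟨t, ht, _, h2⟩
      · exact ih1 hf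
      · exact hA t ht h2
    · have hstep : ∀ f ∈ ball 𝒯 tri m e,
          ((insert f ((𝒯.filter (fun t => f ∈ tri t)).biUnion tri)).card : ℝ) ≤ 3 * B := by
        intro f hf
        have hsub : insert f ((𝒯.filter (fun t => f ∈ tri t)).biUnion tri) ⊆
            insert f ((𝒯.filter (fun t => f ∈ tri t)).biUnion (fun t => (tri t).erase f)) := by
          intro g hg
          rw [mem_insert] at hg ⊢
          by_cases hgf : g = f
          · exact Or.inl hgf
          · refine Or.inr ?_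
            rcases hg with hg | hg
            · exact absurd hg hgf
            · rw [mem_biUnion] at hg ⊢
              obtain ⟨t, ht, hgt⟩ := hg
              exact ⟨t, ht, mem_erase.2 ⟨hgf, hgt⟩⟩
        have h1 : (insert f ((𝒯.filter (fun t => f ∈ tri t)).biUnion tri)).card ≤
            2 * (𝒯.filter (fun t => f ∈ tri t)).card + 1 := by
          refine (card_le_card hsub).trans ((card_insert_le _ _).trans ?_)
          refine Nat.add_le_add_right ?_ 1
          refine card_biUnion_le.trans ?_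
          rw [mul_comm]
          refine (sum_le_card_nsmul _ _ 2 (fun t ht => ?_)).trans (by simp)
          rw [mem_filter] at ht
          rw [card_erase_of_mem ht.2, h3 t ht.1]
        have h2 : ((𝒯.filter (fun t => f ∈ tri t)).card : ℝ) ≤ B := hdeg f (ih1 hf)
        have h1' : ((insert f ((𝒯.filter (fun t => f ∈ tri t)).biUnion tri)).card : ℝ) ≤
            2 * ((𝒯.filter (fun t => f ∈ tri t)).card : ℝ) + 1 := by exact_mod_cast h1
        linarith
      have hcard : ((ball 𝒯 tri (m + 1) e).card : ℝ) ≤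
          ∑ f ∈ ball 𝒯 tri m e,
            ((insert f ((𝒯.filter (fun t => f ∈ tri t)).biUnion tri)).card : ℝ) := by
        have : (ball 𝒯 tri (m + 1) e).card ≤ ∑ f ∈ ball 𝒯 tri m e,
            (insert f ((𝒯.filter (fun t => f ∈ tri t)).biUnion tri)).card := card_biUnion_le
        exact_mod_cast this
      refine hcard.trans ((sum_le_sum hstep).trans ?_)
      rw [sum_const, nsmul_eq_mul, pow_succ]
      exact mul_le_mul_of_nonneg_right ih2 (by linarith)

theorem supp_ball (𝒯 : Finset τ) (tri : τ → Finset ι) (d : ℕ) :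
    ∀ (f : ι) (x : Option τ) (t : τ), t ∈ supp 𝒯 tri d f x → t ∈ 𝒯 ∧ tri t ⊆ ball 𝒯 tri d f := by
  induction d with
  | zero => intro f x t ht; simp [supp] at ht
  | succ d ih =>
    intro f x t ht
    simp only [supp, mem_biUnion] at ht
    obtain ⟨t', ht', ht⟩ := ht
    simp only [ch, mem_filter] at ht'
    have hball1 : ∀ g ∈ tri t', g ∈ ball 𝒯 tri 1 f := by
      intro g hg
      exact (mem_ball_succ 𝒯 tri 0 f g).2 ⟨f, by simp [ball], Or.inr ⟨t', ht'.1, ht'.2.1, hg⟩⟩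
    rcases mem_insert.1 ht with rfl | ht
    · exact ⟨ht'.1, fun g hg => ball_mono 𝒯 tri f (by omega) (hball1 g hg)⟩
    · rw [mem_biUnion] at ht
      obtain ⟨g, hg, ht⟩ := ht
      obtain ⟨h1, h2⟩ := ih g (some t') t ht
      refine ⟨h1, fun g' hg' => ?_⟩
      have := ball_trans 𝒯 tri (hball1 g (mem_of_mem_erase hg)) (h2 hg')
      rwa [Nat.add_comm] at this

theorem partC2 (𝒯 : Finset τ) (tri : τ → Finset ι) (A₀ : Finset ι)
    (h3 : ∀ t ∈ 𝒯, (tri t).card = 3) (hA : ∀ t ∈ 𝒯, tri t ⊆ A₀) (B : ℝ) (hB : 1 ≤ B)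
    (hdeg : ∀ e ∈ A₀, dg 𝒯 tri e ≤ B) (d : ℕ) (e : ι) (he : e ∈ A₀) :
    ((A₀.filter (fun e' => ¬ Disjoint (supp 𝒯 tri d e none) (supp 𝒯 tri d e' none))).card : ℝ)
      ≤ (3 * B) ^ (2 * d + 1) := by
  have hsub : A₀.filter (fun e' => ¬ Disjoint (supp 𝒯 tri d e none) (supp 𝒯 tri d e' none)) ⊆
      ball 𝒯 tri (2 * d) e := by
    intro e' he'
    rw [mem_filter] at he'
    obtain ⟨_, hnd⟩ := he'
    rw [Finset.not_disjoint_iff] at hnd
    obtain ⟨t, ht1, ht2⟩ := hnd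
    obtain ⟨htT, hb1⟩ := supp_ball 𝒯 tri d e none t ht1
    obtain ⟨_, hb2⟩ := supp_ball 𝒯 tri d e' none t ht2
    have hne : (tri t).Nonempty := by
      rw [← card_pos, h3 t htT]; norm_num
    obtain ⟨f, hf⟩ := hne
    have h1 := ball_symm 𝒯 tri (hb2 hf)
    have h2 := ball_trans 𝒯 tri (hb1 hf) h1
    have h3' : 2 * d = d + d := by omega
    rw [h3']
    exact h2
  have h1 : ((A₀.filter (fun e' => ¬ Disjoint (supp 𝒯 tri d e none)
      (supp 𝒯 tri d e' none))).card : ℝ) ≤ ((ball 𝒯 tri (2 * d) e).card : ℝ) := by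
    exact_mod_cast card_le_card hsub
  refine h1.trans ((ball_card 𝒯 tri A₀ h3 hA B hB hdeg (2 * d) e he).2.trans ?_)
  exact pow_le_pow_right₀ (by linarith) (by omega)

end Crest.Agent.TRem
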