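import Crest.Agent.TRem.GDefs

/-! # Row 30: the choice of the parameters -/

namespace Crest.Agent.TRem

/-- slack `L = exp((log n)^{1/5})` -/
noncomputable def LL (n : ℕ) : ℝ := Real.exp ((Real.log n) ^ ((1:ℝ) / 5))

/-- codegree at the end of the DE phase, `exp(0.03 √(log n))` -/
noncomputable def DD (n : ℕ) : ℝ := Real.exp (3 / 100 * Real.sqrt (Real.log n))

end Crest.Agent.TRem
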