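import Crest.Agent.TRem.A11
import Crest.Agent.TRem.IB3
import Crest.Agent.TRem.BFinal
import Crest.Agent.TRem.Bridge
import Crest.Agent.TRem.C1
import Crest.Agent.TRem.C2

/-!
# Row 30: final assembly, part 1 (deterministic bound)
-/

namespace Crest.Agent.TRem

open MeasureTheory Finset Crest.CombinatoricsR.TriangleRemoval

variable {n : ℕ} {L : ℝ} {i₁ : ℕ}

/-- `xF` is monotone in `φ`. -/
theorem xF_mono {ι τ : Type} [DecidableEq ι] [DecidableEq τ] (𝒯 : Finset τ) (tri : τ → Finset ι)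
    {φ ψ : ℕ → ℝ} (h : ∀ m, φ m ≤ ψ m) (k : ℕ) (A : Finset ι) :
    xF 𝒯 tri φ k A ≤ xF 𝒯 tri ψ k A := by
  induction k generalizing A with
  | zero => simp only [xF]; exact h _
  | succ k ih =>
    simp only [xF]
    split_ifs
    · exact h _
    · exact mul_le_mul_of_nonneg_left (Finset.sum_le_sum fun t _ => ih _) (by positivity)

/-- `xF` is affine in `φ`. -/
theorem xF_affine {ι τ : Type} [DecidableEq ι] [DecidableEq τ] (𝒯 : Finset τ) (tri : τ → Finset ι)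
    (φ : ℕ → ℝ) (a b : ℝ) (k : ℕ) (A : Finset ι) :
    xF 𝒯 tri (fun m => a * φ m + b) k A = a * xF 𝒯 tri φ k A + b := by
  induction k generalizing A with
  | zero => simp only [xF]
  | succ k ih =>
    simp only [xF]
    split_ifs with h
    · rfl
    · rw [Finset.sum_congr rfl (fun t _ => ih _), Finset.sum_add_distrib, ← Finset.mul_sum,
        Finset.sum_const, nsmul_eq_mul]
      have : ((𝒯.filter (fun t => tri t ⊆ A)).card : ℝ) ≠ 0 := by exact_mod_cast h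
      field_simp

theorem hh_mem_fin {ι τ : Type} [DecidableEq ι] [DecidableEq τ] (𝒯 : Finset τ)
    (tri : τ → Finset ι) (d : ℕ) (c : Bool) (f : ι) (x : Option τ) (t : ℝ) (ht0 : 0 ≤ t)
    (ht1 : t ≤ 1) : 0 ≤ hh 𝒯 tri d c f x t ∧ hh 𝒯 tri d c f x t ≤ 1 := by
  induction d generalizing c f x t with
  | zero => simp only [hh]; split_ifs <;> norm_num
  | succ d ih =>
    simp only [hh]
    have key : ∀ t' ∈ ch 𝒯 tri f x,
        0 ≤ 1 - (∫ z in (0:ℝ)..t, ∏ g ∈ (tri t').erase f, hh 𝒯 tri d (!c) g (some t') z) ∧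
        1 - (∫ z in (0:ℝ)..t, ∏ g ∈ (tri t').erase f, hh 𝒯 tri d (!c) g (some t') z) ≤ 1 := by
      intro t' _
      have hb : ∀ z ∈ Set.Icc (0:ℝ) t,
          0 ≤ ∏ g ∈ (tri t').erase f, hh 𝒯 tri d (!c) g (some t') z ∧
          ∏ g ∈ (tri t').erase f, hh 𝒯 tri d (!c) g (some t') z ≤ 1 := by
        intro z hz
        have h1 : ∀ g ∈ (tri t').erase f, 0 ≤ hh 𝒯 tri d (!c) g (some t') z ∧
            hh 𝒯 tri d (!c) g (some t') z ≤ 1 := fun g _ => ih _ _ _ _ hz.1 (hz.2.trans ht1)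
        exact ⟨Finset.prod_nonneg fun g hg => (h1 g hg).1,
          Finset.prod_le_one (fun g hg => (h1 g hg).1) (fun g hg => (h1 g hg).2)⟩
      have h0 : 0 ≤ ∫ z in (0:ℝ)..t, ∏ g ∈ (tri t').erase f, hh 𝒯 tri d (!c) g (some t') z :=
        intervalIntegral.integral_nonneg ht0 fun z hz => (hb z hz).1
      have h2 : ‖∫ z in (0:ℝ)..t, ∏ g ∈ (tri t').erase f, hh 𝒯 tri d (!c) g (some t') z‖ ≤
          1 * |t - 0| := by
        refine intervalIntegral.norm_integral_le_of_norm_le_const fun z hz => ?_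
        rw [Set.uIoc_of_le ht0] at hz
        have := hb z ⟨hz.1.le, hz.2⟩
        rw [Real.norm_eq_abs, abs_le]
        exact ⟨by linarith [this.1], this.2⟩
      rw [Real.norm_eq_abs, abs_of_nonneg h0, sub_zero, abs_of_nonneg ht0, one_mul] at h2
      exact ⟨by linarith, by linarith⟩
    exact ⟨Finset.prod_nonneg fun g hg => (key g hg).1,
      Finset.prod_le_one (fun g hg => (key g hg).1) (fun g hg => (key g hg).2)⟩

/-- the bound on a good state. -/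
theorem good_bound (h : Reg n L i₁) {E : Finset (Sym2 (Fin n))} (hE : GoodOut n L i₁ E)
    {d : ℕ} {ε : ℝ} (hε0 : 0 ≤ ε) (hε1 : ε ≤ 1)
    (hup : (∑ e ∈ E, hh (triangles E) tr d true e none 1) ≤
      (1 + ε) * E.card / Real.sqrt (1 + 2 * yb n i₁))
    (hlo : (1 - ε) * E.card / Real.sqrt (1 + 2 * yb n i₁) ≤
      ∑ e ∈ E, hh (triangles E) tr d false e none 1)
    (fuel : ℕ) (hfuel : E.card ≤ fuel) (c₀ : ℝ)
    (nf : ℕ) (hnf : ∀ F ⊆ E, (∀ e ∈ E, e ∉ F → ¬ Ind (triangles E) tr d e none) → (E \ F).card ≤ nf) :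
    expectFinal (fun e : ℕ => ((e : ℝ) / (n : ℝ) ^ ((3 : ℝ) / 2) - c₀) ^ 2) fuel E ≤
      2 / (n:ℝ) ^ 3 * (5 * ε * (MM n i₁ / Real.sqrt (1 + 2 * yb n i₁)) ^ 2
        + MM n i₁ * (33 / 10 * yb n i₁) ^ (2 * d + 1) + 4 * MM n i₁ * nf)
      + 2 * (MM n i₁ / Real.sqrt (1 + 2 * yb n i₁) / (n : ℝ) ^ ((3 : ℝ) / 2) - c₀) ^ 2 := by
  classical
  set D := yb n i₁ with hD
  have hD0 : 0 < D := h.yb_pos le_rfl
  have hn0 : 0 < (n : ℝ) := h.n_pos
  have hcardE : (E.card : ℝ) = MM n i₁ := by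
    have := hE.card
    unfold MM NN
    rw [← this]
    push_cast
    ring
  have hM0 : 0 ≤ MM n i₁ := by rw [← hcardE]; positivity
  have hsq : 1 ≤ Real.sqrt (1 + 2 * D) := by
    rw [Real.one_le_sqrt]
    linarith
  set m₀ := MM n i₁ / Real.sqrt (1 + 2 * D) with hm₀
  have hm₀0 : 0 ≤ m₀ := by positivity
  have hm₀M : m₀ ≤ MM n i₁ := div_le_self hM0 hsq
  rw [expectFinal_eq_xF _ _ _ hE.sub]
  have hn32 : ((n : ℝ) ^ ((3 : ℝ) / 2)) ^ 2 = (n:ℝ) ^ 3 := by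
    rw [← Real.rpow_natCast, ← Real.rpow_mul hn0.le]
    norm_num
  have hpt : ∀ m : ℕ, ((m : ℝ) / (n : ℝ) ^ ((3 : ℝ) / 2) - c₀) ^ 2 ≤
      2 / (n:ℝ) ^ 3 * ((m : ℝ) - m₀) ^ 2 + 2 * (m₀ / (n : ℝ) ^ ((3 : ℝ) / 2) - c₀) ^ 2 := by
    intro m
    rw [← hn32]
    have e1 : (m : ℝ) / (n : ℝ) ^ ((3 : ℝ) / 2) - c₀ =
        ((m : ℝ) - m₀) / (n : ℝ) ^ ((3 : ℝ) / 2) + (m₀ / (n : ℝ) ^ ((3 : ℝ) / 2) - c₀) := by
      ring
    rw [e1]
    have e2 : 2 / ((n : ℝ) ^ ((3 : ℝ) / 2)) ^ 2 * ((m : ℝ) - m₀) ^ 2 =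
        2 * (((m : ℝ) - m₀) / (n : ℝ) ^ ((3 : ℝ) / 2)) ^ 2 := by
      rw [div_pow]; ring
    rw [e2]
    nlinarith [sq_nonneg (((m : ℝ) - m₀) / (n : ℝ) ^ ((3 : ℝ) / 2) -
      (m₀ / (n : ℝ) ^ ((3 : ℝ) / 2) - c₀))]
  refine (xF_mono _ _ hpt fuel E).trans ?_
  rw [xF_affine]
  gcongr
  -- the free edges
  set F := E.filter (fun e => Ind (triangles E) tr d e none) with hF
  have hFE : F ⊆ E := filter_subset _ _
  have hnfF : (E \ F).card ≤ nf := hnf F hFE (fun e he heF hI => heF (by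
    rw [hF, mem_filter]; exact ⟨he, hI⟩))
  -- degrees
  have hdegB : ∀ e ∈ E, dg (triangles E) tr e ≤ 11 / 10 * D := by
    intro e he
    have h1 := (abs_le.mp (hE.dg e he)).2
    have h2 : 3 * L / Real.sqrt D ≤ 1 / 10 := by
      have hs := h.sqrt_yb_ge le_rfl
      have hL := h.L6
      have hL0 := h.L_pos
      rw [div_le_iff₀ (by positivity)]
      have : L ^ 2 ≤ L ^ 10 := pow_le_pow_right₀ (by linarith) (by norm_num)
      nlinarith
    have h3 : dg (triangles E) tr e / D ≤ 11 / 10 := by linarith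
    rwa [div_le_iff₀ hD0] at h3
  have hB : 1 ≤ 11 / 10 * D := by
    have := h.hD
    have := one_le_pow₀ (n := 20) (show (1:ℝ) ≤ L from le_trans (by norm_num) h.L6)
    linarith
  have hK : ∀ e ∈ F, ((F.filter (fun e' => ¬ Disjoint (supp (triangles E) tr d e none)
      (supp (triangles E) tr d e' none))).card : ℝ) ≤ (33 / 10 * D) ^ (2 * d + 1) := by
    intro e he
    have h1 := partC2 (triangles E) tr E (fun t ht => card_tr_of_mem ht) (fun t ht => tr_subset_of_mem ht)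
      (11 / 10 * D) hB hdegB d e (hFE he)
    have e3 : 3 * (11 / 10 * D) = 33 / 10 * D := by ring
    rw [e3] at h1
    refine le_trans ?_ h1
    exact_mod_cast Finset.card_le_card (Finset.filter_subset_filter _ hFE)
  have key := partB12 (triangles E) tr E (fun t ht => card_tr_of_mem ht) (fun t ht => tr_subset_of_mem ht)
    d m₀ hm₀0 fuel hfuel F hFE (fun e he => by rw [hF, mem_filter] at he; exact he.2)
    ((33 / 10 * D) ^ (2 * d + 1)) (by positivity) hK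
  refine key.trans ?_
  set b := ∑ e ∈ E, hh (triangles E) tr d true e none 1
  set a := ∑ e ∈ E, hh (triangles E) tr d false e none 1
  rw [hcardE] at hup hlo ⊢
  have hup' : b ≤ (1 + ε) * m₀ := by
    rw [hm₀, ← mul_div_assoc]; exact hup
  have hlo' : (1 - ε) * m₀ ≤ a := by
    rw [hm₀, ← mul_div_assoc]; exact hlo
  have hb0 : 0 ≤ b := Finset.sum_nonneg fun e _ =>
    (hh_mem_fin (triangles E) tr d true e none 1 (by norm_num) le_rfl).1
  have hb2 : b ^ 2 ≤ ((1 + ε) * m₀) ^ 2 := by gcongr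
  have ha2 : 2 * m₀ * ((1 - ε) * m₀) ≤ 2 * m₀ * a := by gcongr
  have hnfR : ((E \ F).card : ℝ) ≤ nf := by exact_mod_cast hnfF
  have h4 : 2 * (MM n i₁ + m₀) * ((E \ F).card : ℝ) ≤ 4 * MM n i₁ * nf := by
    calc 2 * (MM n i₁ + m₀) * ((E \ F).card : ℝ) ≤ 2 * (MM n i₁ + MM n i₁) * nf := by gcongr
      _ = 4 * MM n i₁ * nf := by ring
  nlinarith [mul_nonneg hε0 (sub_nonneg.mpr hε1), sq_nonneg m₀, mul_nonneg (mul_nonneg hε0 (sub_nonneg.mpr hε1)) (sq_nonneg m₀)]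

end Crest.Agent.TRem
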