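import Mathlib

/-!
# Row 30 (S0040): abstract 3-uniform hypergraphs, the random greedy process, the tree recursion

`𝒯 : Finset τ` is the set of hyperedges ("triangles"), `tri t : Finset ι` the three hypervertices
("graph edges") of `t`.
-/

namespace Crest.Agent.TRem

open MeasureTheory Finset

variable {ι τ : Type} [DecidableEq ι] [DecidableEq τ]

/-- expected value of `φ (number of remaining hypervertices)` for the random greedy removal
started from the set `A` (all hyperedges inside the current set are equally likely). -/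
noncomputable def xF (𝒯 : Finset τ) (tri : τ → Finset ι) (φ : ℕ → ℝ) : ℕ → Finset ι → ℝ
  | 0, A => φ A.card
  | k + 1, A =>
      if (𝒯.filter (fun t => tri t ⊆ A)).card = 0 then φ A.card
      else ((𝒯.filter (fun t => tri t ⊆ A)).card : ℝ)⁻¹ *
        ∑ t ∈ 𝒯.filter (fun t => tri t ⊆ A), xF 𝒯 tri φ k (A \ tri t)

/-- process the hyperedges of the list in order, accepting each one that is still alive. -/
def go (tri : τ → Finset ι) : List τ → Finset ι → Finset ι
  | [], A => A
  | t :: l, A => go tri l (if tri t ⊆ A then A \ tri t else A)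

/-- the hyperedges of `𝒯`, sorted by clock. -/
noncomputable def sorted (𝒯 : Finset τ) (ω : τ → ℝ) : List τ :=
  by classical exact 𝒯.toList.insertionSort (fun s t => ω s ≤ ω t)

/-- the final set of the greedy process driven by the clocks `ω`. -/
noncomputable def fin (𝒯 : Finset τ) (tri : τ → Finset ι) (ω : τ → ℝ) (A : Finset ι) : Finset ι :=
  go tri (sorted 𝒯 ω) A

/-- iid uniform clocks. -/
noncomputable def clk (τ : Type) [Fintype τ] : Measure (τ → ℝ) :=
  Measure.pi (fun _ : τ => (volume : Measure ℝ).restrict (Set.Icc 0 1))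

/-- the children hyperedges of the message `(f, x)`: those containing `f`, except `x`. -/
def ch (𝒯 : Finset τ) (tri : τ → Finset ι) (f : ι) (x : Option τ) : Finset τ :=
  𝒯.filter (fun t => f ∈ tri t ∧ some t ≠ x)

/-- the tree recursion: `hh d true` is the upper sequence `b_d`, `hh d false` the lower one `a_d`. -/
noncomputable def hh (𝒯 : Finset τ) (tri : τ → Finset ι) : ℕ → Bool → ι → Option τ → ℝ → ℝ
  | 0, c, _, _, _ => if c then 1 else 0
  | d + 1, c, f, x, t =>
      ∏ t' ∈ ch 𝒯 tri f x, (1 - ∫ z in (0:ℝ)..t, ∏ g ∈ (tri t').erase f, hh 𝒯 tri d (!c) g (some t') z)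

/-- the events whose probabilities are `hh`: `ev d true f x t ω` is the upper event `U_d(f,x,t)`
(implied by survival), `ev d false f x t ω` the lower event `L_d(f,x,t)` (implies survival). -/
def ev (𝒯 : Finset τ) (tri : τ → Finset ι) : ℕ → Bool → ι → Option τ → ℝ → (τ → ℝ) → Prop
  | 0, c, _, _, _, _ => c = true
  | d + 1, c, f, x, t, ω =>
      ∀ t' ∈ ch 𝒯 tri f x, ω t' < t →
        ¬ ∀ g ∈ (tri t').erase f, ev 𝒯 tri d (!c) g (some t') (ω t') ω

/-- the clocks used by the depth `d` event at `(f,x)`. -/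
def supp (𝒯 : Finset τ) (tri : τ → Finset ι) : ℕ → ι → Option τ → Finset τ
  | 0, _, _ => ∅
  | d + 1, f, x => (ch 𝒯 tri f x).biUnion
      (fun t => insert t (((tri t).erase f).biUnion (fun g => supp 𝒯 tri d g (some t))))

/-- the depth `d` neighbourhood of `(f,x)` is a hypertree: all the unions defining `supp` are
disjoint unions. -/
def Ind (𝒯 : Finset τ) (tri : τ → Finset ι) : ℕ → ι → Option τ → Prop
  | 0, _, _ => True
  | d + 1, f, x =>
      (∀ t ∈ ch 𝒯 tri f x, ∀ g ∈ (tri t).erase f,
        Ind 𝒯 tri d g (some t) ∧ t ∉ supp 𝒯 tri d g (some t)) ∧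
      (∀ t ∈ ch 𝒯 tri f x, ∀ g ∈ (tri t).erase f, ∀ g' ∈ (tri t).erase f, g ≠ g' →
        Disjoint (supp 𝒯 tri d g (some t)) (supp 𝒯 tri d g' (some t))) ∧
      (∀ t ∈ ch 𝒯 tri f x, ∀ t' ∈ ch 𝒯 tri f x, t ≠ t' →
        Disjoint (insert t (((tri t).erase f).biUnion (fun g => supp 𝒯 tri d g (some t))))
          (insert t' (((tri t').erase f).biUnion (fun g => supp 𝒯 tri d g (some t')))))

/-- degree of a hypervertex. -/
noncomputable def dg (𝒯 : Finset τ) (tri : τ → Finset ι) (f : ι) : ℝ :=
  ((𝒯.filter (fun t => f ∈ tri t)).card : ℝ)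

end Crest.Agent.TRem
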